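import Mathlib

/-! Alternating systems: families of group elements behaving like 3-cycles. Definitions only. -/

namespace Vale.Agent.P196

open Equiv

open Classical in
/-- The 3-cycle `x ↦ y ↦ z ↦ x` (for distinct points). -/
noncomputable def c3 {Y : Type*} (x y z : Y) : Perm Y := swap x z * swap x y

/-- Three distinct points. -/
def D3 {Y : Type*} (x y z : Y) : Prop := x ≠ y ∧ y ≠ z ∧ x ≠ z

/-- `φ` is an alternating system on the set `S` of points. -/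
structure IsAlt {Y Γ : Type*} [Group Γ] (S : Set Y) (φ : Y → Y → Y → Γ) : Prop where
  cyc : ∀ ⦃x y z⦄, x ∈ S → y ∈ S → z ∈ S → D3 x y z → φ x y z = φ y z x
  inv : ∀ ⦃x y z⦄, x ∈ S → y ∈ S → z ∈ S → D3 x y z → φ x y z * φ x z y = 1
  conj : ∀ ⦃x y z u v w⦄, x ∈ S → y ∈ S → z ∈ S → u ∈ S → v ∈ S → w ∈ S → D3 x y z → D3 u v w →
    φ x y z * φ u v w * (φ x y z)⁻¹ = φ (c3 x y z u) (c3 x y z v) (c3 x y z w)
  mul : ∀ ⦃x b c v⦄, x ∈ S → b ∈ S → c ∈ S → v ∈ S → D3 x b c → D3 x c v → b ≠ v →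
    φ x b c * φ x c v = φ b c v

/-- The group generated by the pairs (value, 3-cycle) over triples in `S`. -/
def altL {Y Γ : Type*} [Group Γ] (S : Set Y) (φ : Y → Y → Y → Γ) : Subgroup (Γ × Perm Y) :=
  Subgroup.closure {g | ∃ x y z, x ∈ S ∧ y ∈ S ∧ z ∈ S ∧ D3 x y z ∧ g = (φ x y z, c3 x y z)}

/-- The four-factor word expressing a triple through two auxiliary points `a`, `w`. -/
def ext4 {Y Γ : Type*} [Group Γ] (φ : Y → Y → Y → Γ) (a w x y u : Y) : Γ :=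
  φ a y w * φ x a w * φ a u w * φ y a w

/-- A system of generalized 3-cycles in a group `N` acting on `Ξ` over the base `P`.
`cmp` = component (source of a germ), `β` = target of a germ. -/
structure GSys (N Ξ P : Type*) [Group N] [MulAction N Ξ] where
  β : Ξ → P
  cmp : Ξ → P
  φ : Ξ → Ξ → Ξ → N
  Z : Subgroup N
  Z_normal : Z.Normal
  Z_smul : ∀ g ∈ Z, ∀ ξ : Ξ, g • ξ = ξ
  cmp_smul : ∀ (g : N) (ξ : Ξ), cmp (g • ξ) = cmp ξ
  β_smul : ∀ (g : N) (ξ ξ' : Ξ), β ξ = β ξ' → β (g • ξ) = β (g • ξ')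
  cyc : ∀ ⦃x y z⦄, cmp x = cmp y → cmp y = cmp z → D3 (β x) (β y) (β z) → φ x y z = φ y z x
  inv : ∀ ⦃x y z⦄, cmp x = cmp y → cmp y = cmp z → D3 (β x) (β y) (β z) → φ x y z * φ x z y = 1
  mul : ∀ ⦃x b c v⦄, cmp x = cmp b → cmp b = cmp c → cmp c = cmp v →
    D3 (β x) (β b) (β c) → D3 (β x) (β c) (β v) → β b ≠ β v → φ x b c * φ x c v = φ b c v
  cube : ∀ ⦃x y z⦄, cmp x = cmp y → cmp y = cmp z → D3 (β x) (β y) (β z) → φ x y z ^ 3 ∈ Z
  conj : ∀ (g : N) ⦃x y z⦄, cmp x = cmp y → cmp y = cmp z → D3 (β x) (β y) (β z) →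
    g * φ x y z * g⁻¹ = φ (g • x) (g • y) (g • z)
  act : ∀ ⦃x y z⦄, cmp x = cmp y → cmp y = cmp z → D3 (β x) (β y) (β z) → φ x y z • x = y
  fix : ∀ ⦃x y z⦄, cmp x = cmp y → cmp y = cmp z → D3 (β x) (β y) (β z) →
    ∀ ξ, β ξ ≠ β x → β ξ ≠ β y → β ξ ≠ β z → φ x y z • ξ = ξ
  deck : ∀ ⦃x y z⦄, cmp x = cmp y → cmp y = cmp z → D3 (β x) (β y) (β z) →
    ∀ ξ, β ξ = β x → φ x y z = φ ξ (φ x y z • ξ) (φ x y z • φ x y z • ξ)

/-- The subgroup generated by `Z` and the generalized 3-cycles over the set `B` of base points. -/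
def GSys.NB {N Ξ P : Type*} [Group N] [MulAction N Ξ] (G : GSys N Ξ P) (B : Set P) : Subgroup N :=
  Subgroup.closure {g | ∃ x y z, G.cmp x = G.cmp y ∧ G.cmp y = G.cmp z ∧
    D3 (G.β x) (G.β y) (G.β z) ∧ G.β x ∈ B ∧ G.β y ∈ B ∧ G.β z ∈ B ∧ g = G.φ x y z} ⊔ G.Z

end Vale.Agent.P196
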