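import Vale.Agent.P196.Alt

namespace Vale.Agent.P196

open Equiv

variable {Y Γ : Type*} [Group Γ] {S T : Set Y} {φ ψ : Y → Y → Y → Γ}

theorem c3_fst {x y z : Y} (h : D3 x y z) : c3 x y z x = y := by
  classical
  obtain ⟨h1, h2, h3⟩ := h
  unfold c3
  rw [Perm.mul_apply, swap_apply_left, swap_apply_of_ne_of_ne h1.symm h2]
theorem c3_snd {x y z : Y} (h : D3 x y z) : c3 x y z y = z := by
  classical
  unfold c3
  rw [Perm.mul_apply, swap_apply_right, swap_apply_left]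
theorem c3_thd {x y z : Y} (h : D3 x y z) : c3 x y z z = x := by
  classical
  obtain ⟨h1, h2, h3⟩ := h
  unfold c3
  rw [Perm.mul_apply, swap_apply_of_ne_of_ne h3.symm h2.symm, swap_apply_right]
theorem c3_other {x y z u : Y} (hx : u ≠ x) (hy : u ≠ y) (hz : u ≠ z) : c3 x y z u = u := by
  classical
  unfold c3
  rw [Perm.mul_apply, swap_apply_of_ne_of_ne hx hy, swap_apply_of_ne_of_ne hx hz]

theorem D3.cyc_ab {x y z : Y} (h : D3 x y z) : D3 y z x := ⟨h.2.1, h.2.2.symm, h.1.symm⟩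
theorem D3.flip_ab {x y z : Y} (h : D3 x y z) : D3 x z y := ⟨h.2.2, h.2.1.symm, h.1⟩

theorem c3_ext_ab {x y z : Y} (h : D3 x y z) {σ : Perm Y} (h1 : σ x = y) (h2 : σ y = z)
    (h3 : σ z = x) (h4 : ∀ u, u ≠ x → u ≠ y → u ≠ z → σ u = u) : σ = c3 x y z := by
  ext u
  by_cases hx : u = x
  · rw [hx, h1, c3_fst h]
  by_cases hy : u = y
  · rw [hy, h2, c3_snd h]
  by_cases hz : u = z
  · rw [hz, h3, c3_thd h]
  rw [h4 u hx hy hz, c3_other hx hy hz]

theorem c3_cyc {x y z : Y} (h : D3 x y z) : c3 x y z = c3 y z x :=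
  c3_ext_ab h.cyc_ab (c3_snd h) (c3_thd h) (c3_fst h) fun _ a b c => c3_other c a b
theorem c3_inv {x y z : Y} (h : D3 x y z) : c3 x y z * c3 x z y = 1 := by
  ext u
  rw [Perm.mul_apply, Perm.one_apply]
  by_cases hx : u = x
  · rw [hx, c3_fst h.flip_ab, c3_thd h]
  by_cases hy : u = y
  · rw [hy, c3_thd h.flip_ab, c3_fst h]
  by_cases hz : u = z
  · rw [hz, c3_snd h.flip_ab, c3_snd h]
  rw [c3_other hx hz hy, c3_other hx hy hz]
theorem c3_cube {x y z : Y} (h : D3 x y z) : c3 x y z ^ 3 = 1 := by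
  ext u
  rw [pow_three, Perm.mul_apply, Perm.mul_apply, Perm.one_apply]
  by_cases hx : u = x
  · rw [hx, c3_fst h, c3_snd h, c3_thd h]
  by_cases hy : u = y
  · rw [hy, c3_snd h, c3_thd h, c3_fst h]
  by_cases hz : u = z
  · rw [hz, c3_thd h, c3_fst h, c3_snd h]
  rw [c3_other hx hy hz, c3_other hx hy hz, c3_other hx hy hz]
theorem c3_conj (g : Perm Y) (x y z : Y) : g * c3 x y z * g⁻¹ = c3 (g x) (g y) (g z) := by
  classical
  unfold c3
  rw [swap_apply_apply, swap_apply_apply]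
  group

open Classical in
theorem swap_mem_ab {x y u : Y} (hx : x ∈ S) (hy : y ∈ S) (hu : u ∈ S) : swap x y u ∈ S := by
  rw [swap_apply_def]
  split_ifs <;> assumption

open Classical in
theorem swap_map_ab {Y' : Type*} {f : Y → Y'} (hf : Set.InjOn f S) {x y u : Y} (hx : x ∈ S)
    (hy : y ∈ S) (hu : u ∈ S) : swap (f x) (f y) (f u) = f (swap x y u) := by
  by_cases h1 : u = x
  · rw [h1, swap_apply_left, swap_apply_left]
  by_cases h2 : u = y
  · rw [h2, swap_apply_right, swap_apply_right]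
  rw [swap_apply_of_ne_of_ne h1 h2,
    swap_apply_of_ne_of_ne (fun h => h1 (hf hu hx h)) fun h => h2 (hf hu hy h)]

theorem c3_map {Y' : Type*} {f : Y → Y'} (hf : Set.InjOn f S) {x y z u : Y} (hx : x ∈ S)
    (hy : y ∈ S) (hz : z ∈ S) (hu : u ∈ S) : c3 (f x) (f y) (f z) (f u) = f (c3 x y z u) := by
  unfold c3
  rw [Perm.mul_apply, Perm.mul_apply, swap_map_ab hf hx hy hu,
    swap_map_ab hf hx hz (swap_mem_ab hx hy hu)]
theorem c3_mem {x y z u : Y} (hx : x ∈ S) (hy : y ∈ S) (hz : z ∈ S) (hu : u ∈ S) :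
    c3 x y z u ∈ S := by
  unfold c3
  rw [Perm.mul_apply]
  exact swap_mem_ab hx hz (swap_mem_ab hx hy hu)
theorem D3.perm {x y z : Y} (h : D3 x y z) (g : Perm Y) : D3 (g x) (g y) (g z) :=
  ⟨g.injective.ne h.1, g.injective.ne h.2.1, g.injective.ne h.2.2⟩

/-- The 3-cycles themselves form an alternating system. -/
theorem isAlt_c3 : IsAlt (Set.univ : Set Y) (c3 : Y → Y → Y → Perm Y) := by
  refine ⟨fun x y z _ _ _ h => c3_cyc h, fun x y z _ _ _ h => c3_inv h,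
    fun x y z u v w _ _ _ _ _ _ _ _ => c3_conj _ _ _ _, fun x b c v _ _ _ _ h1 h2 h3 => ?_⟩
  refine c3_ext_ab ⟨h1.2.1, h2.2.1, h3⟩ ?_ ?_ ?_ fun u hb hc hv => ?_
  · rw [Perm.mul_apply, c3_other h1.1.symm h1.2.1 h3, c3_snd h1]
  · rw [Perm.mul_apply, c3_snd h2, c3_other h2.2.2.symm h3.symm h2.2.1.symm]
  · rw [Perm.mul_apply, c3_thd h2, c3_fst h1]
  · rw [Perm.mul_apply]
    by_cases hx : u = x
    · rw [hx, c3_fst h2, c3_thd h1]
    · rw [c3_other hx hc hv, c3_other hx hb hc]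

theorem IsAlt.mono (h : IsAlt S φ) (hT : T ⊆ S) : IsAlt T φ :=
  ⟨fun _ _ _ a b c => h.cyc (hT a) (hT b) (hT c), fun _ _ _ a b c => h.inv (hT a) (hT b) (hT c),
    fun _ _ _ _ _ _ a b c d e f => h.conj (hT a) (hT b) (hT c) (hT d) (hT e) (hT f),
    fun _ _ _ _ a b c d => h.mul (hT a) (hT b) (hT c) (hT d)⟩

theorem IsAlt.congr (h : IsAlt S φ)
    (he : ∀ x y z, x ∈ S → y ∈ S → z ∈ S → D3 x y z → φ x y z = ψ x y z) : IsAlt S ψ := by
  refine ⟨fun x y z a b c h3 => ?_, fun x y z a b c h3 => ?_,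
    fun x y z u v w a b c d e f h1 h2 => ?_, fun x b c v hx hb hc hv h1 h2 h3 => ?_⟩
  · rw [← he _ _ _ a b c h3, ← he _ _ _ b c a h3.cyc_ab]
    exact h.cyc a b c h3
  · rw [← he _ _ _ a b c h3, ← he _ _ _ a c b h3.flip_ab]
    exact h.inv a b c h3
  · rw [← he _ _ _ a b c h1, ← he _ _ _ d e f h2,
      ← he _ _ _ (c3_mem a b c d) (c3_mem a b c e) (c3_mem a b c f) (h2.perm _)]
    exact h.conj a b c d e f h1 h2
  · rw [← he _ _ _ hx hb hc h1, ← he _ _ _ hx hc hv h2, ← he _ _ _ hb hc hv ⟨h1.2.1, h2.2.1, h3⟩]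
    exact h.mul hx hb hc hv h1 h2 h3

theorem IsAlt.map {Γ' : Type*} [Group Γ'] (h : IsAlt S φ) (f : Γ →* Γ') :
    IsAlt S (fun x y z => f (φ x y z)) := by
  refine ⟨fun x y z a b c h3 => ?_, fun x y z a b c h3 => ?_,
    fun x y z u v w a b c d e f h1 h2 => ?_, fun x b c v hx hb hc hv h1 h2 h3 => ?_⟩
  · rw [h.cyc a b c h3]
  · rw [← map_mul, h.inv a b c h3, map_one]
  · rw [← map_inv, ← map_mul, ← map_mul, h.conj a b c d e f h1 h2]
  · rw [← map_mul, h.mul hx hb hc hv h1 h2 h3]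

theorem IsAlt.comap {Y' : Type*} {S' : Set Y'} (h : IsAlt S φ) {f : Y' → Y} (hf : Set.InjOn f S')
    (hm : Set.MapsTo f S' S) : IsAlt S' (fun x y z => φ (f x) (f y) (f z)) := by
  have hD : ∀ {x y z}, x ∈ S' → y ∈ S' → z ∈ S' → D3 x y z → D3 (f x) (f y) (f z) :=
    fun a b c h3 => ⟨hf.ne a b h3.1, hf.ne b c h3.2.1, hf.ne a c h3.2.2⟩
  refine ⟨fun x y z a b c h3 => h.cyc (hm a) (hm b) (hm c) (hD a b c h3),
    fun x y z a b c h3 => h.inv (hm a) (hm b) (hm c) (hD a b c h3),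
    fun x y z u v w a b c d e g h1 h2 => ?_,
    fun x b c v hx hb hc hv h1 h2 h3 =>
      h.mul (hm hx) (hm hb) (hm hc) (hm hv) (hD hx hb hc h1) (hD hx hc hv h2) (hf.ne hb hv h3)⟩
  rw [← c3_map hf a b c d, ← c3_map hf a b c e, ← c3_map hf a b c g]
  exact h.conj (hm a) (hm b) (hm c) (hm d) (hm e) (hm g) (hD a b c h1) (hD d e g h2)

theorem encard_six_ab (x y z u v w : Y) : ({x, y, z, u, v, w} : Set Y).encard ≤ 6 := by
  refine (Set.encard_insert_le _ _).trans ?_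
  refine (add_le_add_left (Set.encard_insert_le _ _) _).trans ?_
  refine (add_le_add_left (add_le_add_left (Set.encard_insert_le _ _) _) _).trans ?_
  refine (add_le_add_left (add_le_add_left (add_le_add_left
    (Set.encard_insert_le _ _) _) _) _).trans ?_
  refine (add_le_add_left (add_le_add_left (add_le_add_left (add_le_add_left
    (Set.encard_insert_le _ _) _) _) _) _).trans ?_
  rw [Set.encard_singleton]
  norm_num

/-- The axioms only involve six points at a time. -/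
theorem IsAlt.of_small (h : ∀ T : Set Y, T ⊆ S → T.encard ≤ 6 → IsAlt T φ) : IsAlt S φ := by
  have key : ∀ {x y z u v w}, x ∈ S → y ∈ S → z ∈ S → u ∈ S → v ∈ S → w ∈ S →
      IsAlt {x, y, z, u, v, w} φ := by
    intro x y z u v w a b c d e f
    refine h _ ?_ (encard_six_ab x y z u v w)
    simp only [Set.insert_subset_iff, Set.singleton_subset_iff]
    exact ⟨a, b, c, d, e, f⟩
  refine ⟨fun x y z a b c => (key a b c a a a).cyc (by simp) (by simp) (by simp),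
    fun x y z a b c => (key a b c a a a).inv (by simp) (by simp) (by simp),
    fun x y z u v w a b c d e f =>
      (key a b c d e f).conj (by simp) (by simp) (by simp) (by simp) (by simp) (by simp),
    fun x b c v hx hb hc hv =>
      (key hx hb hc hv hx hx).mul (by simp) (by simp) (by simp) (by simp)⟩

theorem IsAlt.commute (h : IsAlt S φ) {x y z u v w : Y} (hx : x ∈ S) (hy : y ∈ S) (hz : z ∈ S)
    (hu : u ∈ S) (hv : v ∈ S) (hw : w ∈ S) (h1 : D3 x y z) (h2 : D3 u v w)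
    (hd : Disjoint ({x, y, z} : Set Y) {u, v, w}) : Commute (φ x y z) (φ u v w) := by
  have hf : ∀ t ∈ ({u, v, w} : Set Y), c3 x y z t = t := fun t ht =>
    c3_other (fun e => Set.disjoint_left.1 hd (by simp) (e ▸ ht))
      (fun e => Set.disjoint_left.1 hd (by simp) (e ▸ ht))
      fun e => Set.disjoint_left.1 hd (by simp) (e ▸ ht)
  have := h.conj hx hy hz hu hv hw h1 h2
  rw [hf u (by simp), hf v (by simp), hf w (by simp), mul_inv_eq_iff_eq_mul] at this
  exact this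

theorem IsAlt.split_ab (h : IsAlt S φ) {a w x y : Y} (ha : a ∈ S) (hw : w ∈ S) (hx : x ∈ S)
    (hy : y ∈ S) (hxy : x ≠ y) (haw : a ≠ w) (hax : a ≠ x) (hay : a ≠ y) (hwx : w ≠ x)
    (hwy : w ≠ y) : φ w x y = φ a y w * φ x a w := by
  have d1 : D3 w a y := ⟨haw.symm, hay, hwy⟩
  have d2 : D3 w x a := ⟨hwx, hax.symm, haw.symm⟩
  have d3 : D3 x a y := ⟨hax.symm, hay, hxy⟩
  have e := h.conj hw ha hy hx ha hy d1 d3
  rw [c3_other hwx.symm hax.symm hxy, c3_snd d1, c3_thd d1, ← h.mul hw hx ha hy d2 d1 hxy] at e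
  rw [← h.cyc hw ha hy d1, ← h.cyc hw hx ha d2, h.cyc hw hx hy ⟨hwx, hxy, hwy⟩, ← e]
  group

/-- Decomposition of a triple through two further points. -/
theorem IsAlt.decomp (h : IsAlt S φ) {a w x y u : Y} (ha : a ∈ S) (hw : w ∈ S) (hx : x ∈ S)
    (hy : y ∈ S) (hu : u ∈ S) (h3 : D3 x y u) (haw : a ≠ w) (ha' : a ∉ ({x, y, u} : Set Y))
    (hw' : w ∉ ({x, y, u} : Set Y)) : φ x y u = ext4 φ a w x y u := by
  simp only [Set.mem_insert_iff, Set.mem_singleton_iff, not_or] at ha' hw'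
  obtain ⟨a1, a2, a3⟩ := ha'
  obtain ⟨w1, w2, w3⟩ := hw'
  rw [← h.mul hw hx hy hu ⟨w1, h3.1, w2⟩ ⟨w2, h3.2.1, w3⟩ h3.2.2,
    h.split_ab ha hw hx hy h3.1 haw a1 a2 w1 w2, h.split_ab ha hw hy hu h3.2.1 haw a2 a3 w2 w3,
    ext4, ← mul_assoc]

/-- A triple as a commutator of two triples sharing one point. -/
theorem IsAlt.comm_eq (h : IsAlt S φ) {x b b' c d : Y} (hx : x ∈ S) (hb : b ∈ S) (hb' : b' ∈ S)
    (hc : c ∈ S) (hd : d ∈ S) (h3 : D3 x b b') (hcd : c ≠ d) (hc' : c ∉ ({x, b, b'} : Set Y))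
    (hd' : d ∉ ({x, b, b'} : Set Y)) :
    φ x b b' = φ x b c * φ x b' d * (φ x b c)⁻¹ * (φ x b' d)⁻¹ := by
  simp only [Set.mem_insert_iff, Set.mem_singleton_iff, not_or] at hc' hd'
  obtain ⟨c1, c2, c3'⟩ := hc'
  obtain ⟨d1, d2, d3⟩ := hd'
  have t1 : D3 x b' d := ⟨h3.2.2, Ne.symm d3, Ne.symm d1⟩
  have t2 : D3 x b c := ⟨h3.1, Ne.symm c2, Ne.symm c1⟩
  have t3 : D3 b' b c := ⟨h3.2.1.symm, Ne.symm c2, Ne.symm c3'⟩
  have t4 : D3 c x b := ⟨c1, h3.1, c2⟩
  have e := h.conj hx hb' hd hx hb hc t1 t2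
  rw [c3_fst t1, c3_other h3.1.symm h3.2.1 (Ne.symm d2), c3_other c1 c3' hcd] at e
  have e2 : (φ b' b c)⁻¹ = φ c b b' := by
    rw [inv_eq_of_mul_eq_one_right (h.inv hb' hb hc t3), h.cyc hb' hc hb t3.flip_ab]
  have e3 : φ x b b' = φ x b c * (φ b' b c)⁻¹ := by
    rw [e2, ← h.cyc hc hx hb t4, h.mul hc hx hb hb' t4 ⟨c2, h3.2.1, c3'⟩ h3.2.2]
  rw [e3, ← e]
  group

theorem altL_gen_ab {x y z : Y} (hx : x ∈ S) (hy : y ∈ S) (hz : z ∈ S) (h : D3 x y z) :
    (φ x y z, c3 x y z) ∈ altL S φ :=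
  Subgroup.subset_closure ⟨x, y, z, hx, hy, hz, h, rfl⟩

theorem altL_mono (hT : T ⊆ S) : altL T φ ≤ altL S φ := by
  apply Subgroup.closure_mono
  rintro g ⟨x, y, z, hx, hy, hz, h, rfl⟩
  exact ⟨x, y, z, hT hx, hT hy, hT hz, h, rfl⟩

theorem altL_fix {g : Γ × Perm Y} (hg : g ∈ altL S φ) {y : Y} (hy : y ∉ S) : g.2 y = y := by
  have : altL S φ ≤ (MulAction.stabilizer (Perm Y) y).comap (MonoidHom.snd Γ (Perm Y)) := by
    apply (Subgroup.closure_le _).2
    rintro g ⟨a, b, c, ha, hb, hc, -, rfl⟩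
    exact c3_other (fun e => hy (e ▸ ha)) (fun e => hy (e ▸ hb)) fun e => hy (e ▸ hc)
  exact this hg

theorem altL_mem {g : Γ × Perm Y} (hg : g ∈ altL S φ) {y : Y} (hy : y ∈ S) : g.2 y ∈ S := by
  by_contra h
  have := g.2.injective (altL_fix hg h)
  rw [this] at h
  exact h hy

theorem altL_mem_sup_ab (hST : S ⊆ T) {g : Γ × Perm Y} (hg : g ∈ altL S φ) {y : Y} (hy : y ∈ T) :
    g.2 y ∈ T :=
  altL_mem (altL_mono hST hg) hy

/-- Anything on which the generators act correctly is acted on correctly by `altL`. -/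
theorem altL_act (hact : ∀ x y z u v w, x ∈ S → y ∈ S → z ∈ S → u ∈ T → v ∈ T → w ∈ T →
      D3 x y z → D3 u v w →
      φ x y z * ψ u v w * (φ x y z)⁻¹ = ψ (c3 x y z u) (c3 x y z v) (c3 x y z w))
    (hST : S ⊆ T) {g : Γ × Perm Y} (hg : g ∈ altL S φ) {u v w : Y} (hu : u ∈ T) (hv : v ∈ T)
    (hw : w ∈ T) (h3 : D3 u v w) : g.1 * ψ u v w * g.1⁻¹ = ψ (g.2 u) (g.2 v) (g.2 w) := by
  induction hg using Subgroup.closure_induction generalizing u v w with
  | mem g hg =>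
    obtain ⟨x, y, z, hx, hy, hz, h, rfl⟩ := hg
    exact hact x y z u v w hx hy hz hu hv hw h h3
  | one => simp
  | mul g g' _ hg' ih ih' =>
    have hg'' : g' ∈ altL S φ := hg'
    have := ih (altL_mem_sup_ab hST hg'' hu) (altL_mem_sup_ab hST hg'' hv)
      (altL_mem_sup_ab hST hg'' hw) (h3.perm _)
    rw [← ih' hu hv hw h3] at this
    simp only [Prod.fst_mul, Prod.snd_mul, Perm.mul_apply, ← this]
    group
  | inv g hg ih =>
    have hg' : g⁻¹ ∈ altL S φ := inv_mem hg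
    have := ih (altL_mem_sup_ab hST hg' hu) (altL_mem_sup_ab hST hg' hv)
      (altL_mem_sup_ab hST hg' hw) (h3.perm _)
    simp only [Prod.snd_inv, Perm.coe_inv, apply_symm_apply] at this
    simp only [Prod.fst_inv, Prod.snd_inv, Perm.coe_inv, ← this]
    group

theorem altL_le {K : Subgroup Γ} (hc : ∀ x y z, x ∈ S → y ∈ S → z ∈ S → D3 x y z → φ x y z ∈ K)
    {g : Γ × Perm Y} (hg : g ∈ altL S φ) : g.1 ∈ K := by
  have : altL S φ ≤ K.comap (MonoidHom.fst Γ (Perm Y)) := by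
    apply (Subgroup.closure_le _).2
    rintro g ⟨a, b, c, ha, hb, hc', h, rfl⟩
    exact hc a b c ha hb hc' h
  exact this hg

theorem altL_commute {γ : Γ}
    (hc : ∀ x y z, x ∈ S → y ∈ S → z ∈ S → D3 x y z → Commute γ (φ x y z))
    {g : Γ × Perm Y} (hg : g ∈ altL S φ) : Commute γ g.1 := by
  have := altL_le (K := Subgroup.centralizer {γ})
    (fun x y z a b c h => Subgroup.mem_centralizer_singleton_iff.2 (hc x y z a b c h).symm.eq) hg
  exact (Subgroup.mem_centralizer_singleton_iff.1 this).symm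

theorem exists_off_ab {F : Set Y} (h : F.encard < S.encard) : ∃ r ∈ S, r ∉ F := by
  by_contra hc
  refine absurd (Set.encard_le_encard fun r hr => ?_) h.not_ge
  by_contra hF
  exact hc ⟨r, hr, hF⟩

/-- Multiple transitivity. -/
theorem altL_trans {ι : Type*} [Finite ι] (φ : Y → Y → Y → Γ) (x y : ι → Y)
    (hx : Function.Injective x) (hy : Function.Injective y) (hxS : ∀ i, x i ∈ S)
    (hyS : ∀ i, y i ∈ S) (hS : (Nat.card ι : ℕ∞) + 2 ≤ S.encard) :
    ∃ g ∈ altL S φ, ∀ i, g.2 (x i) = y i := by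
  classical
  have := Fintype.ofFinite ι
  have key : ∀ s : Finset ι, ∃ g ∈ altL S φ, ∀ i ∈ s, g.2 (x i) = y i := by
    intro s
    induction s using Finset.induction_on with
    | empty => exact ⟨1, one_mem _, by simp⟩
    | insert a s ha ih =>
      obtain ⟨g, hg, h⟩ := ih
      by_cases hpq : g.2 (x a) = y a
      · exact ⟨g, hg, Finset.forall_mem_insert _ _ _ |>.2 ⟨hpq, h⟩⟩
      have hcard : s.card + 1 ≤ Nat.card ι := by
        rw [← Finset.card_insert_of_notMem ha, Nat.card_eq_fintype_card]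
        exact Finset.card_le_univ _
      obtain ⟨r, hr, hr'⟩ := exists_off_ab (S := S)
        (F := insert (g.2 (x a)) (insert (y a) (y '' (s : Set ι)))) (by
          refine lt_of_lt_of_le ?_ hS
          refine lt_of_le_of_lt ((Set.encard_insert_le _ _).trans (add_le_add_left
            ((Set.encard_insert_le _ _).trans
              (add_le_add_left (Set.encard_image_le _ _) _)) _)) ?_
          rw [Set.encard_coe_eq_coe_finsetCard]
          exact_mod_cast (by omega : s.card + 1 + 1 < Nat.card ι + 2))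
      simp only [Set.mem_insert_iff, not_or] at hr'
      have h3 : D3 (g.2 (x a)) (y a) r := ⟨hpq, Ne.symm hr'.2.1, Ne.symm hr'.1⟩
      refine ⟨(φ (g.2 (x a)) (y a) r, c3 (g.2 (x a)) (y a) r) * g,
        mul_mem (altL_gen_ab (altL_mem hg (hxS a)) (hyS a) hr h3) hg,
        Finset.forall_mem_insert _ _ _ |>.2 ⟨c3_fst h3, fun i hi => ?_⟩⟩
      have hia : i ≠ a := fun e => ha (e ▸ hi)
      change c3 (g.2 (x a)) (y a) r (g.2 (x i)) = y i
      rw [c3_other (g.2.injective.ne (hx.ne hia)), h i hi]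
      · rw [h i hi]
        exact hy.ne hia
      · rw [h i hi]
        exact fun e => hr'.2.2 ⟨i, hi, e⟩
  obtain ⟨g, hg, h⟩ := key Finset.univ
  exact ⟨g, hg, fun i => h i (Finset.mem_univ i)⟩

theorem D3.inj_ab {x y z : Y} (h : D3 x y z) : Function.Injective ![x, y, z] := by
  obtain ⟨h1, h2, h3⟩ := h
  intro i j
  fin_cases i <;> fin_cases j <;> simp [h1, h2, h3, h1.symm, h2.symm, h3.symm]

/-- Transitivity on triples. -/
theorem altL_trans3_ab (φ : Y → Y → Y → Γ) (h5 : 5 ≤ S.encard) {x y z u v w : Y} (hx : x ∈ S)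
    (hy : y ∈ S) (hz : z ∈ S) (hu : u ∈ S) (hv : v ∈ S) (hw : w ∈ S) (h1 : D3 x y z)
    (h2 : D3 u v w) : ∃ g ∈ altL S φ, g.2 x = u ∧ g.2 y = v ∧ g.2 z = w := by
  obtain ⟨g, hg, h⟩ := altL_trans (S := S) φ ![x, y, z] ![u, v, w] h1.inj_ab h2.inj_ab
    (fun i => by fin_cases i <;> assumption) (fun i => by fin_cases i <;> assumption)
    (by rw [Nat.card_eq_fintype_card, Fintype.card_fin]; exact h5)
  exact ⟨g, hg, h 0, h 1, h 2⟩

/-- The axiom `inv` is automatic on at least five points. -/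
theorem IsAlt.of_no_inv (h5 : 5 ≤ S.encard)
    (cyc : ∀ ⦃x y z⦄, x ∈ S → y ∈ S → z ∈ S → D3 x y z → φ x y z = φ y z x)
    (conj : ∀ ⦃x y z u v w⦄, x ∈ S → y ∈ S → z ∈ S → u ∈ S → v ∈ S → w ∈ S → D3 x y z →
      D3 u v w → φ x y z * φ u v w * (φ x y z)⁻¹ = φ (c3 x y z u) (c3 x y z v) (c3 x y z w))
    (mul : ∀ ⦃x b c v⦄, x ∈ S → b ∈ S → c ∈ S → v ∈ S → D3 x b c → D3 x c v → b ≠ v →
      φ x b c * φ x c v = φ b c v) : IsAlt S φ := by
  refine ⟨cyc, ?_, conj, mul⟩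
  have act : ∀ {g : Γ × Perm Y}, g ∈ altL S φ → ∀ {u v w}, u ∈ S → v ∈ S → w ∈ S → D3 u v w →
      g.1 * φ u v w * g.1⁻¹ = φ (g.2 u) (g.2 v) (g.2 w) := fun hg _ _ _ hu hv hw h3 =>
    altL_act (fun _ _ _ _ _ _ a b c d e f => conj a b c d e f) subset_rfl hg hu hv hw h3
  have cen : ∀ {x y z}, x ∈ S → y ∈ S → z ∈ S → D3 x y z → ∀ u v w, u ∈ S → v ∈ S → w ∈ S →
      D3 u v w → Commute (φ x y z * φ x z y) (φ u v w) := by
    intro x y z hx hy hz h u v w hu hv hw h'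
    have := act (mul_mem (altL_gen_ab hx hy hz h) (altL_gen_ab hx hz hy h.flip_ab)) hu hv hw h'
    simp only [Prod.fst_mul, Prod.snd_mul, c3_inv h, Perm.one_apply] at this
    exact mul_inv_eq_iff_eq_mul.1 this
  have const : ∀ {x y z u v w}, x ∈ S → y ∈ S → z ∈ S → u ∈ S → v ∈ S → w ∈ S → D3 x y z →
      D3 u v w → φ u v w * φ u w v = φ x y z * φ x z y := by
    intro x y z u v w hx hy hz hu hv hw h1 h2
    obtain ⟨g, hg, rfl, rfl, rfl⟩ := altL_trans3_ab φ h5 hx hy hz hu hv hw h1 h2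
    rw [← act hg hx hy hz h1, ← act hg hx hz hy h1.flip_ab]
    have := (altL_commute (cen hx hy hz h1) hg).eq
    calc _ = g.1 * (φ x y z * φ x z y) * g.1⁻¹ := by group
      _ = _ := by rw [← this, mul_inv_cancel_right]
  intro x b c hx hb hc h
  obtain ⟨v, hv, hv'⟩ := exists_off_ab (S := S) (F := {x, b, c}) (by
    refine lt_of_lt_of_le (lt_of_le_of_lt ((Set.encard_insert_le _ _).trans
      (add_le_add_left (Set.encard_insert_le _ _) _)) ?_) h5
    rw [Set.encard_singleton]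
    norm_num)
  simp only [Set.mem_insert_iff, Set.mem_singleton_iff, not_or] at hv'
  have t1 : D3 x c v := ⟨h.2.2, Ne.symm hv'.2.2, Ne.symm hv'.1⟩
  have t2 : D3 b c v := ⟨h.2.1, Ne.symm hv'.2.2, Ne.symm hv'.2.1⟩
  have e1 := mul hx hb hc hv h t1 t2.2.2
  have e2 := mul hx hv hc hb t1.flip_ab h.flip_ab t2.2.2.symm
  have e3 := const hx hb hc hb hc hv h t2
  have e4 := const hx hb hc hx hc hv h t1
  have e5 := (cen hx hb hc h x b c hx hb hc h).eq
  rw [cyc hb hv hc t2.flip_ab, ← e1, ← e2] at e3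
  have e6 : φ x b c * (φ x c v * φ x v c) * φ x c b = φ x b c * φ x c b := by
    rw [← e3]
    group
  rw [e4, ← e5, mul_assoc] at e6
  exact mul_eq_left.1 e6

/-- Every permutation of order dividing three of a finite type is a product of 3-cycles with
pairwise disjoint supports; stated as an induction principle. -/
theorem perm_cube_induction {Y : Type*} [Finite Y] {p : Perm Y → Prop} (h1 : p 1)
    (hs : ∀ x y z (σ : Perm Y), D3 x y z → σ ^ 3 = 1 → σ x = x → σ y = y → σ z = z → p σ →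
      p (c3 x y z * σ)) (σ : Perm Y) (hσ : σ ^ 3 = 1) : p σ := by
  induction hn : {u | σ u ≠ u}.ncard using Nat.strong_induction_on generalizing σ with
  | _ n ih =>
    by_cases h : ∀ x, σ x = x
    · have : σ = 1 := Equiv.ext h
      rwa [this]
    obtain ⟨x, hx⟩ := not_forall.1 h
    have h3 : σ (σ (σ x)) = x := by
      have := congrArg (fun τ : Perm Y => τ x) hσ
      simpa [pow_three] using this
    have hD : D3 x (σ x) (σ (σ x)) := by
      refine ⟨Ne.symm hx, σ.injective.ne (Ne.symm hx), fun e => hx ?_⟩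
      rw [← e] at h3
      exact h3
    have hcomm : Commute (c3 x (σ x) (σ (σ x))) σ := by
      have := c3_conj σ x (σ x) (σ (σ x))
      rw [h3, ← c3_cyc hD, mul_inv_eq_iff_eq_mul] at this
      exact this.symm
    have hτ : ((c3 x (σ x) (σ (σ x)))⁻¹ * σ) ^ 3 = 1 := by
      rw [hcomm.inv_left.mul_pow, inv_pow, c3_cube hD, hσ, inv_one, one_mul]
    have hfix : ∀ u, c3 x (σ x) (σ (σ x)) u = σ u → ((c3 x (σ x) (σ (σ x)))⁻¹ * σ) u = u := by
      intro u hu
      rw [Perm.mul_apply, ← hu, Perm.coe_inv, symm_apply_apply]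
    have hsub : ∀ u, σ u = u → c3 x (σ x) (σ (σ x)) u = σ u := by
      intro u hu'
      rw [hu']
      refine c3_other (fun e => hx (e ▸ hu')) (fun e => hD.2.1 (e ▸ hu').symm) fun e => ?_
      rw [e, h3] at hu'
      exact hD.2.2 hu'
    have hp := ih _ (hn ▸ Set.ncard_lt_ncard (s := {u | ((c3 x (σ x) (σ (σ x)))⁻¹ * σ) u ≠ u})
      ⟨fun u hu hu' => hu (hfix u (hsub u hu')), fun hsub => hsub hx (hfix x (c3_fst hD))⟩)
      _ hτ rfl
    have := hs _ _ _ _ hD hτ (hfix _ (c3_fst hD)) (hfix _ (c3_snd hD))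
      (hfix _ ((c3_thd hD).trans h3.symm)) hp
    rwa [mul_inv_cancel_left] at this

end Vale.Agent.P196
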