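import Vale.Agent.P196.PG

/-! Permanence properties of Reiter's condition. -/

namespace Vale.Agent.P196

open scoped symmDiff Pointwise

section L1

variable {α β : Type}

/-- The `ℓ¹` norm of a finitely supported function. -/
noncomputable def amL1 (μ : α →₀ ℝ) : ℝ := ∑ᶠ x, |μ x|

/-- Finitely supported probability vectors. -/
def amProb (μ : α →₀ ℝ) : Prop := (∀ x, 0 ≤ μ x) ∧ ∑ᶠ x, μ x = 1

theorem am_finsum_eq (μ : α →₀ ℝ) (φ : ℝ → ℝ) (h0 : φ 0 = 0) {s : Finset α}
    (hs : μ.support ⊆ s) : ∑ᶠ x, φ (μ x) = ∑ x ∈ s, φ (μ x) := by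
  refine finsum_eq_sum_of_support_subset _ fun x hx => hs ?_
  rw [Finsupp.mem_support_iff]
  intro h
  exact hx (by simp [h, h0])

theorem amL1_eq (μ : α →₀ ℝ) {s : Finset α} (hs : μ.support ⊆ s) :
    amL1 μ = ∑ x ∈ s, |μ x| := am_finsum_eq μ _ abs_zero hs

theorem amL1_nonneg (μ : α →₀ ℝ) : 0 ≤ amL1 μ := finsum_nonneg fun _ => abs_nonneg _

theorem amL1_zero : amL1 (0 : α →₀ ℝ) = 0 := by simp [amL1]

theorem amL1_add (μ ν : α →₀ ℝ) : amL1 (μ + ν) ≤ amL1 μ + amL1 ν := by
  classical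
  rw [amL1_eq _ Finsupp.support_add, amL1_eq μ (Finset.subset_union_left (s₂ := ν.support)),
    amL1_eq ν (Finset.subset_union_right (s₁ := μ.support)), ← Finset.sum_add_distrib]
  exact Finset.sum_le_sum fun x _ => abs_add_le _ _

theorem amL1_smul (c : ℝ) (μ : α →₀ ℝ) : amL1 (c • μ) = |c| * amL1 μ := by
  rw [amL1_eq _ Finsupp.support_smul, amL1_eq μ le_rfl, Finset.mul_sum]
  exact Finset.sum_congr rfl fun x _ => by simp [abs_mul]

theorem amL1_neg (μ : α →₀ ℝ) : amL1 (-μ) = amL1 μ := by simp [amL1]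

theorem amL1_sub (μ ν : α →₀ ℝ) : amL1 (μ - ν) ≤ amL1 μ + amL1 ν := by
  rw [sub_eq_add_neg, ← amL1_neg ν]; exact amL1_add _ _

theorem amL1_sum {ι : Type} (s : Finset ι) (μ : ι → α →₀ ℝ) :
    amL1 (∑ i ∈ s, μ i) ≤ ∑ i ∈ s, amL1 (μ i) := by
  classical
  induction s using Finset.induction_on with
  | empty => simp [amL1_zero]
  | insert a s ha ih =>
    rw [Finset.sum_insert ha, Finset.sum_insert ha]
    exact (amL1_add _ _).trans (by linarith)

theorem amL1_single (a : α) (c : ℝ) : amL1 (Finsupp.single a c) = |c| := by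
  rw [amL1_eq _ Finsupp.support_single_subset]; simp

theorem amProb.l1 {μ : α →₀ ℝ} (h : amProb μ) : amL1 μ = 1 := by
  rw [← h.2]; exact finsum_congr fun x => abs_of_nonneg (h.1 x)

theorem amProb.sum {μ : α →₀ ℝ} (h : amProb μ) : ∑ x ∈ μ.support, μ x = 1 := by
  rw [← h.2]; exact (am_finsum_eq μ id rfl le_rfl).symm

/-- Total mass. -/
noncomputable def amMass : (α →₀ ℝ) →ₗ[ℝ] ℝ := Finsupp.linearCombination ℝ fun _ => (1 : ℝ)

theorem amMass_eq (μ : α →₀ ℝ) : amMass μ = ∑ᶠ x, μ x := by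
  rw [show ∑ᶠ x, μ x = ∑ x ∈ μ.support, μ x from am_finsum_eq μ id rfl le_rfl, amMass,
    Finsupp.linearCombination_apply, Finsupp.sum]
  simp

theorem amL1_comb (η : α → β →₀ ℝ) (μ : α →₀ ℝ) :
    amL1 (Finsupp.linearCombination ℝ η μ) ≤ ∑ x ∈ μ.support, |μ x| * amL1 (η x) := by
  rw [Finsupp.linearCombination_apply, Finsupp.sum]
  refine (amL1_sum _ _).trans (le_of_eq (Finset.sum_congr rfl fun x _ => amL1_smul _ _))

theorem amL1_comb_prob {η : α → β →₀ ℝ} (hη : ∀ x, amProb (η x)) (μ : α →₀ ℝ) :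
    amL1 (Finsupp.linearCombination ℝ η μ) ≤ amL1 μ := by
  refine (amL1_comb η μ).trans (le_of_eq ?_)
  rw [amL1_eq μ le_rfl]
  exact Finset.sum_congr rfl fun x _ => by rw [(hη x).l1, mul_one]

theorem amProb.comb {η : α → β →₀ ℝ} (hη : ∀ x, amProb (η x)) {μ : α →₀ ℝ} (hμ : amProb μ) :
    amProb (Finsupp.linearCombination ℝ η μ) := by
  refine ⟨fun y => ?_, ?_⟩
  · rw [Finsupp.linearCombination_apply, Finsupp.sum, Finsupp.finsetSum_apply]
    exact Finset.sum_nonneg fun x _ => by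
      simpa using mul_nonneg (hμ.1 x) ((hη x).1 y)
  · rw [← amMass_eq, Finsupp.linearCombination_apply, Finsupp.sum, map_sum, ← hμ.sum]
    refine Finset.sum_congr rfl fun x _ => ?_
    rw [map_smul, amMass_eq, (hη x).2]; simp

theorem amProb_single (a : α) : amProb (Finsupp.single a (1 : ℝ)) := by
  classical
  refine ⟨fun x => ?_, ?_⟩
  · rw [Finsupp.single_apply]; split_ifs <;> norm_num
  · rw [← amMass_eq]; simp [amMass]

theorem am_mapDomain_eq (f : α → β) (μ : α →₀ ℝ) :
    μ.mapDomain f = Finsupp.linearCombination ℝ (fun x => Finsupp.single (f x) (1 : ℝ)) μ := by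
  rw [Finsupp.linearCombination_apply, Finsupp.mapDomain]
  simp

theorem amL1_map (f : α → β) (μ : α →₀ ℝ) : amL1 (μ.mapDomain f) ≤ amL1 μ := by
  rw [am_mapDomain_eq]; exact amL1_comb_prob (fun x => amProb_single _) μ

theorem amProb.map (f : α → β) {μ : α →₀ ℝ} (h : amProb μ) : amProb (μ.mapDomain f) := by
  rw [am_mapDomain_eq]; exact amProb.comb (fun x => amProb_single _) h

theorem am_map_sub (f : α → β) (μ ν : α →₀ ℝ) :
    (μ - ν).mapDomain f = μ.mapDomain f - ν.mapDomain f :=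
  map_sub (Finsupp.lmapDomain ℝ ℝ f) μ ν

theorem am_shift {G : Type} [Group G] [MulAction G α] (g : G) (μ : α →₀ ℝ) :
    ∑ᶠ x, |μ (g • x) - μ x| = amL1 (μ.mapDomain (fun x => g • x) - μ) := by
  unfold amL1
  rw [← finsum_comp_equiv (MulAction.toPerm g) (f := fun x => |(μ.mapDomain (fun x => g • x) - μ) x|)]
  refine finsum_congr fun x => ?_
  rw [Finsupp.sub_apply, abs_sub_comm]
  congr 2
  exact (Finsupp.mapDomain_apply (MulAction.injective g) μ x).symm

end L1

variable {G G' : Type} [Group G] [Group G']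

theorem amen_iff : Amen G ↔ ∀ K : Finset G, ∀ ε : ℝ, 0 < ε → ∃ μ : G →₀ ℝ, amProb μ ∧
    ∀ g ∈ K, amL1 (μ.mapDomain (fun x => g * x) - μ) < ε := by
  have h : ∀ (g : G) (μ : G →₀ ℝ),
      ∑ᶠ x, |μ (g * x) - μ x| = amL1 (μ.mapDomain (fun x => g * x) - μ) :=
    fun g μ => am_shift g μ
  simp only [Amen, h, amProb, and_assoc]

theorem Amen.push (h : Amen G') (f : G' →* G) (K : Finset G') {ε : ℝ} (hε : 0 < ε) :
    ∃ μ : G →₀ ℝ, amProb μ ∧ ∀ g ∈ K, amL1 (μ.mapDomain (fun x => f g * x) - μ) < ε := by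
  obtain ⟨μ, hμ, hK⟩ := amen_iff.1 h K ε hε
  refine ⟨μ.mapDomain f, hμ.map f, fun g hg => lt_of_le_of_lt ?_ (hK g hg)⟩
  refine le_trans (le_of_eq ?_) (amL1_map f _)
  rw [am_map_sub, ← Finsupp.mapDomain_comp, ← Finsupp.mapDomain_comp]
  congr 3
  ext x
  simp

theorem Amen.push_sub {V : Subgroup G} (h : Amen V) (K : Finset G) (hK : ∀ g ∈ K, g ∈ V)
    {ε : ℝ} (hε : 0 < ε) :
    ∃ μ : G →₀ ℝ, amProb μ ∧ ∀ g ∈ K, amL1 (μ.mapDomain (fun x => g * x) - μ) < ε := by
  classical
  obtain ⟨μ, hμ, h'⟩ := h.push V.subtype (K.subtype (· ∈ V)) hε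
  exact ⟨μ, hμ, fun g hg => h' ⟨g, hK g hg⟩ (Finset.mem_subtype.2 hg)⟩

theorem am_layer (K : Finset G) (ε : ℝ)
    (H : ∀ D : Finset G, D.Nonempty → ε * D.card ≤
      ∑ g ∈ K, ((((fun x => g * x) '' (D : Set G)) ∆ (D : Set G)).ncard : ℝ))
    (n : ℕ) : ∀ μ : G →₀ ℝ, μ.support.card = n → (∀ x, 0 ≤ μ x) →
      ε * ∑ᶠ x, μ x ≤ ∑ g ∈ K, amL1 (μ.mapDomain (fun x => g * x) - μ) := by
  classical
  induction n using Nat.strong_induction_on with
  | _ n ih =>
  intro μ hn h0
  rcases μ.support.eq_empty_or_nonempty with he | hne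
  · rw [Finsupp.support_eq_empty] at he
    subst he
    simp [amL1_zero]
  obtain ⟨x₀, hx₀, hmin⟩ := μ.support.exists_min_image μ hne
  set D := μ.support with hD
  set m := μ x₀ with hm
  have hm0 : 0 ≤ m := h0 x₀
  let χ : G →₀ ℝ := Finsupp.indicator D fun _ _ => 1
  have hχ : ∀ x, χ x = if x ∈ D then 1 else 0 := fun x => by
    simp [χ, Finsupp.indicator_apply]
  set ν : G →₀ ℝ := μ - m • χ with hν
  have hμ0 : ∀ x, x ∉ D → μ x = 0 := fun x hx => Finsupp.notMem_support_iff.1 hx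
  have hνx : ∀ x, ν x = if x ∈ D then μ x - m else 0 := fun x => by
    rw [hν, Finsupp.sub_apply, Finsupp.smul_apply, hχ]
    split_ifs with h
    · simp
    · simp [hμ0 x h]
  have hν0 : ∀ x, 0 ≤ ν x := fun x => by
    rw [hνx]; split_ifs with h
    · exact sub_nonneg.2 (hmin x h)
    · exact le_rfl
  have hsub : ν.support ⊆ D.erase x₀ := fun x hx => by
    rw [Finsupp.mem_support_iff, hνx] at hx
    refine Finset.mem_erase.2 ⟨fun h => hx (by simp [h, hm]), ?_⟩
    by_contra h
    exact hx (by simp [h])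
  have hlt : ν.support.card < n := by
    rw [← hn]
    exact (Finset.card_le_card hsub).trans_lt (Finset.card_erase_lt_of_mem hx₀)
  have ih' := ih _ hlt ν rfl hν0
  have hmass : ∑ᶠ x, μ x = m * D.card + ∑ᶠ x, ν x := by
    have e1 : μ = m • χ + ν := by rw [hν]; abel
    have e2 : amMass χ = D.card := by
      rw [amMass_eq, show ∑ᶠ x, χ x = ∑ x ∈ D, χ x from
        am_finsum_eq χ id rfl (s := D) (Finsupp.support_indicator_subset _ _)]
      rw [Finset.sum_congr rfl (g := fun _ => (1 : ℝ)) fun x hx => by simp [hχ, hx]]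
      simp
    rw [← amMass_eq, ← amMass_eq, e1, map_add, map_smul, e2, smul_eq_mul]
  have hshift : ∀ g : G, amL1 (μ.mapDomain (fun x => g * x) - μ) =
      m * ((((fun x => g * x) '' (D : Set G)) ∆ (D : Set G)).ncard : ℝ) +
        amL1 (ν.mapDomain (fun x => g * x) - ν) := by
    intro g
    have ev : ∀ (ρ : G →₀ ℝ) (x : G), (ρ.mapDomain (fun x => g * x)) x = ρ (g⁻¹ * x) := by
      intro ρ x
      have := Finsupp.mapDomain_apply (f := fun x => g * x) (mul_right_injective g) ρ (g⁻¹ * x)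
      simpa using this
    set s : Finset G := D.image (fun x => g * x) ∪ D with hs
    have hsupp : ∀ ρ : G →₀ ℝ, (∀ x, x ∉ D → ρ x = 0) →
        (ρ.mapDomain (fun x => g * x) - ρ).support ⊆ s := by
      intro ρ hρ x hx
      by_contra hx'
      rw [hs, Finset.mem_union, not_or] at hx'
      have h1 : g⁻¹ * x ∉ D := fun h => hx'.1 (Finset.mem_image.2 ⟨_, h, by simp⟩)
      rw [Finsupp.mem_support_iff, Finsupp.sub_apply, ev, hρ _ h1, hρ _ hx'.2] at hx
      exact hx (by simp)
    have hcard : ((((fun x => g * x) '' (D : Set G)) ∆ (D : Set G)).ncard : ℝ) =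
        ∑ x ∈ s, if (g⁻¹ * x ∈ D ↔ x ∈ D) then (0 : ℝ) else 1 := by
      have : ((fun x => g * x) '' (D : Set G)) ∆ (D : Set G) =
          (s.filter fun x => ¬ (g⁻¹ * x ∈ D ↔ x ∈ D) : Finset G) := by
        ext x
        have hx : x ∈ (fun x => g * x) '' (D : Set G) ↔ g⁻¹ * x ∈ D := by
          constructor
          · rintro ⟨y, hy, rfl⟩; simpa using hy
          · intro h; exact ⟨_, h, by simp⟩
        have hx' : x ∈ D.image (fun x => g * x) ↔ g⁻¹ * x ∈ D := by
          rw [← hx, ← Finset.mem_coe, Finset.coe_image]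
        simp only [Set.mem_symmDiff, hx, Finset.coe_filter, Set.mem_ofPred_eq, hs,
          Finset.mem_union, hx', Finset.mem_coe]
        tauto
      rw [this, Set.ncard_coe_finset, Finset.card_filter]
      push_cast
      refine Finset.sum_congr rfl fun x _ => ?_
      split_ifs <;> simp_all
    rw [amL1_eq _ (hsupp μ hμ0), amL1_eq _ (hsupp ν fun x hx => by simp [hνx, hx]), hcard,
      Finset.mul_sum, ← Finset.sum_add_distrib]
    refine Finset.sum_congr rfl fun x _ => ?_
    rw [Finsupp.sub_apply, Finsupp.sub_apply, ev, ev, hνx, hνx]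
    by_cases h1 : g⁻¹ * x ∈ D <;> by_cases h2 : x ∈ D
    · simp [h1, h2]
    · have := hmin _ h1
      simp only [h1, h2, hμ0 x h2, iff_false, not_true, if_true, if_false, sub_zero, mul_one]
      rw [abs_of_nonneg (h0 _), abs_of_nonneg (by linarith)]; ring
    · have := hmin _ h2
      simp only [h1, h2, hμ0 _ h1, iff_true, if_true, if_false, zero_sub, abs_neg, mul_one]
      rw [abs_of_nonneg (h0 _), abs_of_nonneg (by linarith)]; ring
    · simp [h1, h2, hμ0 _ h1, hμ0 _ h2]
  simp only [hshift, Finset.sum_add_distrib, ← Finset.mul_sum]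
  rw [hmass]
  have := mul_le_mul_of_nonneg_left (H D hne) hm0
  nlinarith

theorem Amen.folner (h : Amen G) (K : Finset G) (ε : ℝ) (hε : 0 < ε) :
    ∃ D : Finset G, D.Nonempty ∧
      ∀ g ∈ K, ((((fun x => g * x) '' (D : Set G)) ∆ (D : Set G)).ncard : ℝ) < ε * D.card := by
  by_contra hc
  push Not at hc
  obtain ⟨μ, hμ, hK⟩ := amen_iff.1 h K (ε / (K.card + 1)) (by positivity)
  have H : ∀ D : Finset G, D.Nonempty → ε * D.card ≤
      ∑ g ∈ K, ((((fun x => g * x) '' (D : Set G)) ∆ (D : Set G)).ncard : ℝ) := by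
    intro D hD
    obtain ⟨g, hg, h1⟩ := hc D hD
    exact h1.trans (Finset.single_le_sum
      (f := fun g => ((((fun x => g * x) '' (D : Set G)) ∆ (D : Set G)).ncard : ℝ))
      (fun _ _ => Nat.cast_nonneg _) hg)
  have h1 := am_layer K ε H _ μ rfl hμ.1
  rw [hμ.2, mul_one] at h1
  have h2 : ∑ g ∈ K, amL1 (μ.mapDomain (fun x => g * x) - μ) ≤ K.card • (ε / (K.card + 1)) :=
    Finset.sum_le_card_nsmul _ _ _ fun g hg => (hK g hg).le
  rw [nsmul_eq_mul] at h2
  have h3 : (K.card : ℝ) * (ε / (K.card + 1)) < ε := by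
    rw [← mul_div_assoc, div_lt_iff₀ (by positivity)]
    nlinarith
  linarith

theorem Amen.of_finite [Finite G] : Amen G := by
  classical
  have := Fintype.ofFinite G
  intro K ε hε
  refine ⟨Finsupp.equivFunOnFinite.symm fun _ => (Fintype.card G : ℝ)⁻¹, fun x => ?_, ?_,
    fun g _ => ?_⟩
  · simp
  · rw [finsum_eq_sum_of_fintype]; simp
  · simpa using hε

theorem Amen.of_comm (h : ∀ a b : G, a * b = b * a) : Amen G := by
  classical
  rw [amen_iff]
  intro K ε hε
  induction K using Finset.induction_on with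
  | empty => exact ⟨_, amProb_single 1, by simp⟩
  | insert g K _ ih =>
    obtain ⟨μ, hμ, hK⟩ := ih
    obtain ⟨N, hN⟩ := exists_nat_gt (2 / ε)
    have hN0 : (0 : ℝ) < N := lt_trans (by positivity) hN
    let η : ℕ → G →₀ ℝ := fun j => μ.mapDomain fun x => g ^ j * x
    have hη : ∀ j, amProb (η j) := fun j => hμ.map _
    let ν : G →₀ ℝ := (N : ℝ)⁻¹ • ∑ j ∈ Finset.range N, η j
    have hsh : ∀ k : G, ν.mapDomain (fun x => k * x) - ν =
        (N : ℝ)⁻¹ • ∑ j ∈ Finset.range N, ((η j).mapDomain (fun x => k * x) - η j) := by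
      intro k
      have : ν.mapDomain (fun x => k * x) = Finsupp.lmapDomain ℝ ℝ (fun x => k * x) ν := rfl
      rw [this]
      simp only [ν, map_smul, map_sum, Finset.sum_sub_distrib, smul_sub]
      rfl
    refine ⟨ν, ⟨fun x => ?_, ?_⟩, fun k hk => ?_⟩
    · simp only [ν, Finsupp.smul_apply, Finsupp.finsetSum_apply, smul_eq_mul]
      exact mul_nonneg (by positivity) (Finset.sum_nonneg fun j _ => (hη j).1 x)
    · rw [← amMass_eq]
      simp only [ν, map_smul, map_sum, amMass_eq, (hη _).2]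
      simp [hN0.ne']
    · rw [hsh, amL1_smul, abs_of_pos (by positivity)]
      rcases Finset.mem_insert.1 hk with rfl | hk
      · have e : ∀ j, (η j).mapDomain (fun x => k * x) = η (j + 1) := by
          intro j
          simp only [η]
          rw [← Finsupp.mapDomain_comp]
          congr 1
          ext x
          simp [pow_succ', mul_assoc]
        simp only [e]
        rw [Finset.sum_range_sub]
        have := amL1_sub (η N) (η 0)
        rw [(hη _).l1, (hη _).l1] at this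
        rw [inv_mul_lt_iff₀ hN0]
        rw [div_lt_iff₀ hε] at hN
        linarith
      · have e : ∀ j, amL1 ((η j).mapDomain (fun x => k * x) - η j) ≤
            amL1 (μ.mapDomain (fun x => k * x) - μ) := by
          intro j
          refine le_trans (le_of_eq ?_) (amL1_map (fun x => g ^ j * x) _)
          simp only [η]
          rw [am_map_sub, ← Finsupp.mapDomain_comp, ← Finsupp.mapDomain_comp]
          congr 3
          ext x
          simp only [Function.comp_apply, ← mul_assoc, h k]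
        have h1 := (amL1_sum _ _).trans (Finset.sum_le_card_nsmul (Finset.range N) _ _
          fun j _ => e j)
        rw [Finset.card_range, nsmul_eq_mul] at h1
        rw [inv_mul_lt_iff₀ hN0]
        exact h1.trans_lt (mul_lt_mul_of_pos_left (hK k hk) hN0)

/-- The groupoid action lemma. `Ok g A` says that `g` is an admissible arrow out of `A`. -/
theorem Amen.of_groupoid {𝒜 : Type} [MulAction G 𝒜] (Ok : G → 𝒜 → Prop) (h1 : ∀ A, Ok 1 A)
    (hm : ∀ g h A, Ok g A → Ok h (g • A) → Ok (h * g) A) (hi : ∀ g A, Ok g A → Ok g⁻¹ (g • A))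
    (hv : ∀ (A : 𝒜) (V : Subgroup G), (∀ g, g ∈ V ↔ g • A = A ∧ Ok g A) → Amen V)
    (hμ : ∀ K : Finset G, ∀ ε : ℝ, 0 < ε → ∃ μ : 𝒜 →₀ ℝ, (∀ A, 0 ≤ μ A) ∧ ∑ᶠ A, μ A = 1 ∧
      (∀ g ∈ K, ∑ᶠ A, |μ (g • A) - μ A| < ε) ∧
      ∀ g ∈ K, ∑ᶠ A, {A | ¬ Ok g A}.indicator μ A < ε) : Amen G := by
  classical
  -- components and base points
  let S : Setoid 𝒜 :=
    { r := fun A B => ∃ g : G, Ok g A ∧ g • A = B
      iseqv :=
        { refl := fun A => ⟨1, h1 A, one_smul _ _⟩
          symm := by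
            rintro A B ⟨g, hg, rfl⟩
            exact ⟨g⁻¹, hi g A hg, inv_smul_smul _ _⟩
          trans := by
            rintro A B C ⟨g, hg, rfl⟩ ⟨h, hh, rfl⟩
            exact ⟨h * g, hm g h A hg hh, mul_smul _ _ _⟩ } }
  let b : 𝒜 → 𝒜 := fun A => (Quotient.mk S A).out
  have hb : ∀ A, ∃ g : G, Ok g (b A) ∧ g • b A = A := fun A => Quotient.mk_out (s := S) A
  choose a ha1 ha2 using hb
  have hbg : ∀ g A, Ok g A → b (g • A) = b A := fun g A h => by
    have : Quotient.mk S A = Quotient.mk S (g • A) := Quotient.sound ⟨g, h, rfl⟩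
    simp only [b, this]
  -- vertex groups
  let V : 𝒜 → Subgroup G := fun A =>
    { carrier := {g | g • A = A ∧ Ok g A}
      one_mem' := ⟨one_smul _ _, h1 A⟩
      mul_mem' := by
        rintro g h ⟨hg, hg'⟩ ⟨hh, hh'⟩
        exact ⟨by rw [mul_smul, hh, hg], hm h g A hh' (by rwa [hh])⟩
      inv_mem' := by
        rintro g ⟨hg, hg'⟩
        refine ⟨by rw [inv_smul_eq_iff, hg], ?_⟩
        have := hi g A hg'
        rwa [hg] at this }
  have hV : ∀ A, Amen (V A) := fun A => hv A _ fun g => Iff.rfl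
  have hc : ∀ g A, Ok g A → (a (g • A))⁻¹ * g * a A ∈ V (b A) := by
    intro g A h
    refine ⟨?_, ?_⟩
    · rw [mul_smul, mul_smul, ha2, inv_smul_eq_iff, ← hbg g A h, ha2]
    · rw [mul_assoc]
      refine hm _ _ _ (hm _ _ _ (ha1 A) (by rwa [ha2])) ?_
      have := hi _ _ (ha1 (g • A))
      rwa [ha2, mul_smul, ha2] at *
  rw [amen_iff]
  intro K ε hε
  obtain ⟨μ, hμ0, hμ1, hμ2, hμ3⟩ := hμ K (ε / 4) (by positivity)
  have hP : amProb μ := ⟨hμ0, hμ1⟩
  have hν : ∀ B : 𝒜, ∃ ν : G →₀ ℝ, amProb ν ∧ ∀ g ∈ K, ∀ A ∈ μ.support, Ok g A → b A = B →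
      amL1 (ν.mapDomain (fun x => ((a (g • A))⁻¹ * g * a A) * x) - ν) < ε / 4 := by
    intro B
    obtain ⟨ν, h1, h2⟩ := (hV B).push_sub
      (((K ×ˢ μ.support).filter fun p => Ok p.1 p.2 ∧ b p.2 = B).image
        fun p => (a (p.1 • p.2))⁻¹ * p.1 * a p.2) (by
        intro g hg
        obtain ⟨p, hp, rfl⟩ := Finset.mem_image.1 hg
        obtain ⟨-, hp1, hp2⟩ := Finset.mem_filter.1 hp
        rw [← hp2]
        exact hc _ _ hp1) (ε := ε / 4) (by positivity)
    exact ⟨ν, h1, fun g hg A hA hO hB => h2 _ (Finset.mem_image.2 ⟨(g, A),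
      Finset.mem_filter.2 ⟨Finset.mem_product.2 ⟨hg, hA⟩, hO, hB⟩, rfl⟩)⟩
  choose ν hν1 hν2 using hν
  let η : 𝒜 → G →₀ ℝ := fun A => (ν (b A)).mapDomain fun x => a A * x
  have hη : ∀ A, amProb (η A) := fun A => (hν1 _).map _
  refine ⟨Finsupp.linearCombination ℝ η μ, amProb.comb hη hP, fun g hg => ?_⟩
  have hdec : (Finsupp.linearCombination ℝ η μ).mapDomain (fun x => g * x) -
      Finsupp.linearCombination ℝ η μ =
      Finsupp.linearCombination ℝ (fun A => (η A).mapDomain (fun x => g * x) - η (g • A)) μ +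
      Finsupp.linearCombination ℝ η (μ.mapDomain (fun A => g • A) - μ) := by
    rw [map_sub, Finsupp.linearCombination_mapDomain]
    have : ∀ ρ : G →₀ ℝ, ρ.mapDomain (fun x => g * x) =
        Finsupp.lmapDomain ℝ ℝ (fun x => g * x) ρ := fun _ => rfl
    simp only [this, Finsupp.linearCombination_apply, Finsupp.sum, map_sum, map_smul, smul_sub,
      Finset.sum_sub_distrib, Function.comp_apply]
    abel
  rw [hdec]
  have hA : ∀ A ∈ μ.support, |μ A| * amL1 ((η A).mapDomain (fun x => g * x) - η (g • A)) ≤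
      μ A * (ε / 4) + 2 * {A | ¬ Ok g A}.indicator μ A := by
    intro A hA
    rw [abs_of_nonneg (hμ0 A)]
    by_cases hO : Ok g A
    · rw [Set.indicator_of_notMem (by simpa using hO), mul_zero, add_zero]
      refine mul_le_mul_of_nonneg_left ?_ (hμ0 A)
      refine le_trans (le_trans (le_of_eq ?_) (amL1_map (fun x => a (g • A) * x) _))
        (hν2 (b A) g hg A hA hO rfl).le
      simp only [η]
      rw [am_map_sub, ← Finsupp.mapDomain_comp, ← Finsupp.mapDomain_comp, hbg g A hO]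
      congr 3
      ext x
      simp [mul_assoc]
    · rw [Set.indicator_of_mem (by simpa using hO)]
      have := amL1_sub ((η A).mapDomain (fun x => g * x)) (η (g • A))
      rw [((hη A).map _).l1, (hη _).l1] at this
      have h4 := mul_le_mul_of_nonneg_left this (hμ0 A)
      have h5 : 0 ≤ μ A * (ε / 4) := mul_nonneg (hμ0 A) (by positivity)
      linarith
  have e1 := (amL1_comb _ μ).trans (Finset.sum_le_sum hA)
  rw [Finset.sum_add_distrib, ← Finset.sum_mul, hP.sum, ← Finset.mul_sum] at e1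
  have e2 : ∑ A ∈ μ.support, {A | ¬ Ok g A}.indicator μ A < ε / 4 := by
    rw [← finsum_eq_sum_of_support_subset]
    · exact hμ3 g hg
    · intro A hA
      rw [Finset.mem_coe, Finsupp.mem_support_iff]
      intro h
      exact hA (by simp [Set.indicator, h])
  have e3 := (amL1_comb_prob hη (μ.mapDomain (fun A => g • A) - μ)).trans_lt
    (by rw [← am_shift]; exact hμ2 g hg)
  refine (amL1_add _ _).trans_lt ?_
  linarith

theorem Amen.of_injective (h : Amen G') (f : G →* G') (hf : Function.Injective f) : Amen G := by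
  classical
  letI : MulAction G G' := MulAction.compHom G' f
  have hs : ∀ (g : G) (x : G'), g • x = f g * x := fun _ _ => rfl
  refine Amen.of_groupoid (𝒜 := G') (fun _ _ => True) (fun _ => trivial)
    (fun _ _ _ _ _ => trivial) (fun _ _ _ => trivial) (fun A V hV => ?_) fun K ε hε => ?_
  · have : Subsingleton V := ⟨fun x y => Subtype.ext (hf (by
      have hx := ((hV x).1 x.2).1
      have hy := ((hV y).1 y.2).1
      rw [hs] at hx hy
      exact mul_right_cancel (hx.trans hy.symm)))⟩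
    exact Amen.of_finite
  · obtain ⟨μ, h0, h1, h2⟩ := h (K.image f) ε hε
    exact ⟨μ, h0, h1, fun g hg => h2 _ (Finset.mem_image_of_mem f hg), fun g _ => by
      simpa using hε⟩

theorem Amen.of_ker (f : G →* G') (h : Amen G') (hk : Amen f.ker) : Amen G := by
  classical
  letI : MulAction G G' := MulAction.compHom G' f
  have hs : ∀ (g : G) (x : G'), g • x = f g * x := fun _ _ => rfl
  refine Amen.of_groupoid (𝒜 := G') (fun _ _ => True) (fun _ => trivial)
    (fun _ _ _ _ _ => trivial) (fun _ _ _ => trivial) (fun A V hV => ?_) fun K ε hε => ?_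
  · have : V = f.ker := by
      ext g
      rw [hV, hs, MonoidHom.mem_ker]
      simp
    rwa [this]
  · obtain ⟨μ, h0, h1, h2⟩ := h (K.image f) ε hε
    exact ⟨μ, h0, h1, fun g hg => h2 _ (Finset.mem_image_of_mem f hg), fun g _ => by
      simpa using hε⟩

theorem Amen.of_local (h : ∀ K : Finset G, Amen (Subgroup.closure (K : Set G))) : Amen G := by
  rw [amen_iff]
  intro K ε hε
  exact (h K).push_sub K (fun g hg => Subgroup.subset_closure hg) hε

end Vale.Agent.P196
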