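import Mathlib

namespace Vale.Agent.P196

open Equiv
open scoped Pointwise

/-- The square root of the Bernoulli density. -/
noncomputable def bernPsi {Ω : Type} [DecidableEq Ω] (F : Finset Ω) (f : Ω → ℝ) (A : Finset Ω) : ℝ :=
  (∏ x ∈ A, Real.sin (Real.pi * f x / 2)) * ∏ x ∈ F \ A, Real.cos (Real.pi * f x / 2)

theorem bernPsi_indep {Ω : Type} [DecidableEq Ω] {F F' : Finset Ω} {f : Ω → ℝ}
    (h : ∀ x, f x ≠ 0 → x ∈ F) (h' : ∀ x, f x ≠ 0 → x ∈ F') (A : Finset Ω) :
    bernPsi F f A = bernPsi F' f A := by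
  have key : ∀ {F F' : Finset Ω}, (∀ x, f x ≠ 0 → x ∈ F) → F ⊆ F' →
      bernPsi F f A = bernPsi F' f A := by
    intro F F' h hs
    unfold bernPsi
    congr 1
    refine Finset.prod_subset (Finset.sdiff_subset_sdiff hs le_rfl) fun x hx hx' => ?_
    have h0 : f x = 0 := by
      by_contra h0
      exact hx' (Finset.mem_sdiff.2 ⟨h x h0, (Finset.mem_sdiff.1 hx).2⟩)
    simp [h0]
  rw [key h (Finset.subset_union_left (s₂ := F')), key h' (Finset.subset_union_right (s₁ := F))]

theorem bernPsi_eq_zero {Ω : Type} [DecidableEq Ω] {F : Finset Ω} {f : Ω → ℝ}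
    (h : ∀ x, f x ≠ 0 → x ∈ F) {A : Finset Ω} (hA : ¬ A ⊆ F) : bernPsi F f A = 0 := by
  obtain ⟨x, hx, hx'⟩ := Finset.not_subset.1 hA
  have h0 : f x = 0 := by
    by_contra h0
    exact hx' (h x h0)
  unfold bernPsi
  rw [Finset.prod_eq_zero hx (by simp [h0]), zero_mul]

theorem bernPsi_inner {Ω : Type} [DecidableEq Ω] (F : Finset Ω) (f f' : Ω → ℝ) :
    ∑ A ∈ F.powerset, bernPsi F f A * bernPsi F f' A =
      ∏ x ∈ F, Real.cos (Real.pi * (f x - f' x) / 2) := by
  have h1 : ∀ x, Real.cos (Real.pi * (f x - f' x) / 2) =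
      Real.sin (Real.pi * f x / 2) * Real.sin (Real.pi * f' x / 2) +
      Real.cos (Real.pi * f x / 2) * Real.cos (Real.pi * f' x / 2) := by
    intro x
    rw [show Real.pi * (f x - f' x) / 2 = Real.pi * f x / 2 - Real.pi * f' x / 2 by ring,
      Real.cos_sub]
    ring
  simp only [h1]
  rw [Finset.prod_add]
  refine Finset.sum_congr rfl fun A _ => ?_
  unfold bernPsi
  rw [Finset.prod_mul_distrib, Finset.prod_mul_distrib]
  ring

theorem bern_one_sub_prod {Ω : Type} (F : Finset Ω) (c : Ω → ℝ) (hc : ∀ x, |c x| ≤ 1) :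
    1 - ∏ x ∈ F, c x ≤ ∑ x ∈ F, (1 - c x) := by
  classical
  induction F using Finset.induction_on with
  | empty => simp
  | insert a F ha ih =>
    rw [Finset.prod_insert ha, Finset.sum_insert ha]
    have hP : |∏ x ∈ F, c x| ≤ 1 := by
      rw [Finset.abs_prod]
      exact Finset.prod_le_one (fun x _ => abs_nonneg _) fun x _ => hc x
    have h1 := (abs_le.1 hP).2
    have h2 := (abs_le.1 (hc a)).2
    nlinarith

theorem bern_hellinger {Ω : Type} [DecidableEq Ω] (F : Finset Ω) (f f' : Ω → ℝ) :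
    ∑ A ∈ F.powerset, |bernPsi F f A ^ 2 - bernPsi F f' A ^ 2| ≤
      4 * √(∑ x ∈ F, (f x - f' x) ^ 2) := by
  set a := bernPsi F f
  set b := bernPsi F f'
  have haa : ∑ A ∈ F.powerset, a A * a A = 1 := by
    rw [bernPsi_inner]; simp
  have hbb : ∑ A ∈ F.powerset, b A * b A = 1 := by
    rw [bernPsi_inner]; simp
  set P := ∑ A ∈ F.powerset, a A * b A with hP
  set E := ∑ x ∈ F, (f x - f' x) ^ 2 with hE
  have hE0 : 0 ≤ E := Finset.sum_nonneg fun x _ => sq_nonneg _
  have hPE : 1 - P ≤ 2 * E := by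
    rw [hP, bernPsi_inner]
    refine (bern_one_sub_prod F _ fun x => Real.abs_cos_le_one _).trans ?_
    rw [hE, Finset.mul_sum]
    refine Finset.sum_le_sum fun x _ => ?_
    have h1 := Real.one_sub_sq_div_two_le_cos (x := Real.pi * (f x - f' x) / 2)
    have h2 : Real.pi ^ 2 ≤ 16 := by nlinarith [Real.pi_le_four, Real.pi_pos]
    have h3 : (Real.pi * (f x - f' x) / 2) ^ 2 / 2 = Real.pi ^ 2 * (f x - f' x) ^ 2 / 8 := by ring
    nlinarith [sq_nonneg (f x - f' x)]
  have hm : ∑ A ∈ F.powerset, |a A - b A| ^ 2 = 2 - 2 * P := by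
    have : ∀ A, |a A - b A| ^ 2 = a A * a A + b A * b A - 2 * (a A * b A) := by
      intro A; rw [sq_abs]; ring
    simp only [this, Finset.sum_sub_distrib, Finset.sum_add_distrib, ← Finset.mul_sum, haa, hbb]
    ring
  have hp : ∑ A ∈ F.powerset, |a A + b A| ^ 2 ≤ 4 := by
    have : ∀ A ∈ F.powerset, |a A + b A| ^ 2 ≤ 2 * (a A * a A) + 2 * (b A * b A) := by
      intro A _; rw [sq_abs]; nlinarith [sq_nonneg (a A - b A)]
    refine (Finset.sum_le_sum this).trans ?_
    simp only [Finset.sum_add_distrib, ← Finset.mul_sum, haa, hbb]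
    norm_num
  have hcs := Finset.sum_mul_sq_le_sq_mul_sq F.powerset (fun A => |a A - b A|)
    (fun A => |a A + b A|)
  have heq : ∑ A ∈ F.powerset, |a A ^ 2 - b A ^ 2| =
      ∑ A ∈ F.powerset, |a A - b A| * |a A + b A| := by
    refine Finset.sum_congr rfl fun A _ => ?_
    rw [← abs_mul]; congr 1; ring
  rw [heq]
  have hm0 : 0 ≤ 2 - 2 * P := by
    rw [← hm]; exact Finset.sum_nonneg fun _ _ => sq_nonneg _
  refine abs_le_of_sq_le_sq' ?_ (by positivity) |>.2
  rw [mul_pow, Real.sq_sqrt hE0]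
  refine hcs.trans ?_
  rw [hm]
  nlinarith

/-- Bernoulli measures on finite subsets from functions of small energy. -/
theorem bernoulli {Ω : Type} [DecidableEq Ω] (f : Ω →₀ ℝ) :
    ∃ μ : Finset Ω →₀ ℝ, (∀ A, 0 ≤ μ A) ∧ ∑ᶠ A, μ A = 1 ∧
      (∀ A, μ A ≠ 0 → ∀ x, f x = 1 → x ∈ A) ∧
      ∀ g : Perm Ω, ∑ᶠ A, |μ (g • A) - μ A| ≤ 4 * √(∑ᶠ x, (f (g x) - f x) ^ 2) := by
  have hf : ∀ x, f x ≠ 0 → x ∈ f.support := fun x hx => Finsupp.mem_support_iff.2 hx
  let μ : Finset Ω →₀ ℝ := Finsupp.onFinset f.support.powerset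
    (fun A => bernPsi f.support f A ^ 2) fun A hA => by
      rw [Finset.mem_powerset]
      by_contra h
      exact hA (by simp [bernPsi_eq_zero hf h])
  have hμ : ∀ A, μ A = bernPsi f.support f A ^ 2 := fun A => rfl
  refine ⟨μ, fun A => by rw [hμ]; positivity, ?_, ?_, ?_⟩
  · rw [finsum_eq_sum_of_support_subset (s := f.support.powerset)]
    · simp only [hμ, sq]
      rw [bernPsi_inner]; simp
    · intro A hA
      rw [Finset.mem_coe, Finset.mem_powerset]
      by_contra h
      exact hA (by simp [hμ, bernPsi_eq_zero hf h])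
  · intro A hA x hx
    by_contra hxA
    apply hA
    rw [hμ]
    unfold bernPsi
    have hxs : x ∈ f.support \ A := Finset.mem_sdiff.2 ⟨hf x (by simp [hx]), hxA⟩
    rw [Finset.prod_eq_zero hxs (by simp [hx])]
    simp
  · intro g
    set F : Finset Ω := f.support ∪ g⁻¹ • f.support with hF
    have h1 : ∀ x, f x ≠ 0 → x ∈ F := fun x hx => Finset.mem_union_left _ (hf x hx)
    have h2 : ∀ x, f (g x) ≠ 0 → x ∈ F := fun x hx => Finset.mem_union_right _ (by
      rw [Finset.mem_inv_smul_finset_iff]; exact hf _ hx)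
    have h3 : ∀ x, f x ≠ 0 → x ∈ g • F := fun x hx => by
      rw [← Finset.inv_smul_mem_iff]
      exact h2 _ (by simpa using hx)
    have hg : ∀ A, μ (g • A) = bernPsi F (fun x => f (g x)) A ^ 2 := by
      intro A
      rw [hμ, bernPsi_indep hf h3]
      unfold bernPsi
      rw [← Finset.smul_finset_sdiff]
      have hi : ∀ (S : Finset Ω) (φ : Ω → ℝ), ∏ x ∈ g • S, φ x = ∏ x ∈ S, φ (g x) := by
        intro S φ
        rw [Finset.smul_finset_def, Finset.prod_image (fun x _ y _ h => by simpa using h)]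
        rfl
      rw [hi, hi]
    have hA : ∀ A, μ A = bernPsi F f A ^ 2 := fun A => by rw [hμ, bernPsi_indep hf h1]
    rw [finsum_eq_sum_of_support_subset (s := F.powerset),
      finsum_eq_sum_of_support_subset (s := F)]
    · simp only [hg, hA]
      exact bern_hellinger F _ _
    · intro x hx
      by_contra h
      apply hx
      have e1 : f x = 0 := by by_contra e; exact h (h1 x e)
      have e2 : f (g x) = 0 := by by_contra e; exact h (h2 x e)
      simp [e1, e2]
    · intro A hA'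
      rw [Finset.mem_coe, Finset.mem_powerset]
      by_contra h
      apply hA'
      simp [hg, hA, bernPsi_eq_zero h1 h, bernPsi_eq_zero h2 h]

end Vale.Agent.P196
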