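import Vale.Agent.P196.PGBasic
import Vale.Agent.P196.Amen1
import Vale.Agent.P196.Bern

namespace Vale.Agent.P196

open Equiv Filter Topology
open scoped Pointwise

section Germs

variable {Ω : Type} {l : Filter Ω}

theorem am2_comm_comp {p q q' : Ω → Ω} (hq' : Tendsto q' l l) (h : p ∘ q =ᶠ[l] q ∘ p)
    (h' : p ∘ q' =ᶠ[l] q' ∘ p) : p ∘ (q ∘ q') =ᶠ[l] (q ∘ q') ∘ p := by
  filter_upwards [hq'.eventually h, h'] with x hx hx'
  simp only [Function.comp_apply] at hx hx' ⊢
  rw [hx, hx']

theorem am2_comm_iter {p q : Ω → Ω} (hq : Tendsto q l l) (h : p ∘ q =ᶠ[l] q ∘ p) (n : ℕ) :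
    p ∘ q^[n] =ᶠ[l] q^[n] ∘ p := by
  induction n with
  | zero => exact EventuallyEq.rfl
  | succ n ih => rw [Function.iterate_succ]; exact am2_comm_comp hq ih h

theorem am2_comm_iter2 {p q : Ω → Ω} (hp : Tendsto p l l) (hq : Tendsto q l l)
    (h : p ∘ q =ᶠ[l] q ∘ p) (m n : ℕ) : p^[m] ∘ q^[n] =ᶠ[l] q^[n] ∘ p^[m] :=
  (am2_comm_iter hp (am2_comm_iter hq h n).symm m).symm

theorem am2_comm_congr {g h p q : Ω → Ω} (hg : Tendsto g l l) (hh : Tendsto h l l)
    (e1 : g =ᶠ[l] p) (e2 : h =ᶠ[l] q) (hc : p ∘ q =ᶠ[l] q ∘ p) : g ∘ h =ᶠ[l] h ∘ g := by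
  filter_upwards [hh.eventually e1, hg.eventually e2, e1, e2, hc] with x h1 h2 h3 h4 h5
  simp only [Function.comp_apply] at h5 ⊢
  rw [h1, h2, h3, h4, h5]

end Germs

namespace PG

variable {Ω : Type} [TopologicalSpace Ω] {H H' : PG Ω}

theorem Iso.am2_comm {a : Ω} (h : H.Iso a) {g k : Ω → Ω} (hg : H.mem g a) (hga : g a = a)
    (hk : H.mem k a) (hka : k a = a) : g ∘ k =ᶠ[𝓝 a] k ∘ g := by
  obtain ⟨u, u', hu, hua, hu', hua', h1, h2, h3⟩ := h
  have T : ∀ {f : Ω → Ω}, H.mem f a → f a = a → Tendsto f (𝓝 a) (𝓝 a) := fun hf hfa => by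
    have := (H.cont hf).tendsto
    rwa [hfa] at this
  have c1 : u ∘ u' =ᶠ[𝓝 a] u' ∘ u := h2.trans h1.symm
  obtain ⟨n, hn⟩ := h3 g hg hga
  obtain ⟨m, hm⟩ := h3 k hk hka
  rcases hn with hn | hn <;> rcases hm with hm | hm <;>
    refine am2_comm_congr (T hg hga) (T hk hka) hn hm (am2_comm_iter2 ?_ ?_ ?_ _ _)
  exacts [T hu hua, T hu hua, EventuallyEq.rfl, T hu hua, T hu' hua', c1, T hu' hua', T hu hua,
    c1.symm, T hu' hua', T hu' hua', EventuallyEq.rfl]

theorem am2_mem_inv {g : Perm Ω} {x : Ω} (hg : H.mem g x) : H.mem (g⁻¹ : Perm Ω) (g x) := by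
  obtain ⟨f, h1, -, h3⟩ := H.inv hg
  refine H.congr h1 ?_
  filter_upwards [h3] with y hy
  have : g (f y) = y := hy
  rw [Perm.eq_inv_iff_eq, this]

/-- Elements fixing `T` pointwise whose germs off `T` are in `H`. -/
def am2W (H H' : PG Ω) (T : Finset Ω) : Subgroup H'.full where
  carrier := {g | (∀ x ∈ T, (g : Perm Ω) x = x) ∧ ∀ x, x ∉ T → H.mem (g : Perm Ω) x}
  one_mem' := ⟨fun _ _ => rfl, fun x _ => H.id x⟩
  mul_mem' := by
    rintro g k ⟨hg, hg'⟩ ⟨hk, hk'⟩
    refine ⟨fun x hx => ?_, fun x hx => ?_⟩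
    · simp [hk x hx, hg x hx]
    · refine H.comp (f := (k : Perm Ω)) (g := (g : Perm Ω)) (hk' x hx) (hg' _ fun h => hx ?_)
      have := (k : Perm Ω).injective (hk _ h)
      rwa [this] at h
  inv_mem' := by
    rintro g ⟨hg, hg'⟩
    refine ⟨fun x hx => ?_, fun x hx => ?_⟩
    · simp only [Subgroup.coe_inv]
      rw [Perm.inv_eq_iff_eq, hg x hx]
    · have h0 : (g : Perm Ω) ((g : Perm Ω)⁻¹ x) = x := by simp
      have := am2_mem_inv (hg' ((g : Perm Ω)⁻¹ x) fun h => hx (by
        rw [← h0, hg _ h]; exact h))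
      rwa [h0] at this

theorem am2_of_le {G : Type} [Group G] {V W : Subgroup G} (h : Amen W) (hle : V ≤ W) : Amen V :=
  h.of_injective (Subgroup.inclusion hle) (Subgroup.inclusion_injective _)

theorem Step.am2W_amen {Sg : Set Ω} (h : Step H H' Sg) (ha : Amen H.full) (T : Finset Ω) :
    Amen (am2W H H' T) := by
  classical
  induction T using Finset.induction_on with
  | empty =>
    refine ha.of_injective
      { toFun := fun g => ⟨((g : H'.full) : Perm Ω), fun x => g.2.2 x (by simp)⟩
        map_one' := rfl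
        map_mul' := fun _ _ => rfl } fun g k e => ?_
    exact Subtype.ext (Subtype.ext (congrArg (fun t : H.full => (t : Perm Ω)) e))
  | insert a T haT ih =>
    by_cases hS : a ∈ Sg
    · set W := am2W H H' (insert a T) with hW
      have hfix : ∀ g : W, ((g : H'.full) : Perm Ω) a = a := fun g =>
        g.2.1 a (Finset.mem_insert_self _ _)
      have hT : ∀ g : W, Tendsto ((g : H'.full) : Perm Ω) (𝓝 a) (𝓝 a) := fun g => by
        have := (H'.cont ((g : H'.full).2 a)).tendsto
        rwa [hfix] at this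
      let N : Subgroup W :=
        { carrier := {g | ∀ᶠ x in 𝓝 a, ((g : H'.full) : Perm Ω) x = x}
          one_mem' := Eventually.of_forall fun _ => rfl
          mul_mem' := by
            intro g k hg hk
            filter_upwards [hg, hk] with x hx hx'
            simp [hx, hx']
          inv_mem' := by
            intro g hg
            filter_upwards [hg] with x hx
            simp only [Subgroup.coe_inv]
            rw [Perm.inv_eq_iff_eq, hx] }
      have hN : ∀ g : W, g ∈ N ↔ ∀ᶠ x in 𝓝 a, ((g : H'.full) : Perm Ω) x = x := fun _ => Iff.rfl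
      haveI : N.Normal := ⟨fun n hn g => by
        rw [hN]
        filter_upwards [(hT g⁻¹).eventually hn] with x hx
        simp only [Subgroup.coe_mul, Perm.mul_apply]
        rw [hx]
        simp⟩
      refine Amen.of_ker (QuotientGroup.mk' N) (Amen.of_comm fun p q => ?_) ?_
      · induction p using QuotientGroup.induction_on with | _ g =>
        induction q using QuotientGroup.induction_on with | _ k =>
        rw [← QuotientGroup.mk_mul, ← QuotientGroup.mk_mul, QuotientGroup.eq, hN]
        filter_upwards [(h.iso a hS).am2_comm ((g : H'.full).2 a) (hfix g) ((k : H'.full).2 a)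
          (hfix k)] with x hx
        simp only [Function.comp_apply] at hx
        simp only [Subgroup.coe_mul, Subgroup.coe_inv, Perm.mul_apply]
        rw [Perm.inv_eq_iff_eq, Perm.mul_apply, hx]
      · rw [QuotientGroup.ker_mk']
        refine ih.of_injective
          { toFun := fun g => ⟨((g : W) : H'.full), fun x hx => (g : W).2.1 x
              (Finset.mem_insert_of_mem hx), fun x hx => ?_⟩
            map_one' := rfl
            map_mul' := fun _ _ => rfl } fun g k e => ?_
        · by_cases hxa : x = a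
          · subst hxa
            exact H.congr (H.id x) (EventuallyEq.symm g.2)
          · exact (g : W).2.2 x (by simp [hxa, hx])
        · exact Subtype.ext (Subtype.ext (congrArg (fun t : am2W H H' T => (t : H'.full)) e))
    · refine am2_of_le ih fun g hg => ⟨fun x hx => hg.1 x (Finset.mem_insert_of_mem hx),
        fun x hx => ?_⟩
      by_cases hxa : x = a
      · subst hxa
        exact h.sing _ _ (g.2 x) hS
      · exact hg.2 x (by simp [hxa, hx])

variable [CompactSpace Ω] [T2Space Ω] [TotallyDisconnectedSpace Ω]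

theorem Step.amen {Sg : Set Ω} (h : Step H H' Sg) (hr : H'.Rec Sg) (ha : Amen H.full) :
    Amen H'.full := by
  classical
  have hs : ∀ (g : H'.full) (A : Finset Ω), g • A = (g : Perm Ω) • A := fun _ _ => rfl
  have hmem : ∀ (g : H'.full) (A : Finset Ω) (x : Ω), (g : Perm Ω) x ∈ g • A ↔ x ∈ A := by
    intro g A x
    rw [hs]
    exact Finset.smul_mem_smul_finset_iff (g : Perm Ω)
  refine Amen.of_groupoid (𝒜 := Finset Ω)
    (fun g A => ∀ x, ¬ H.mem (g : Perm Ω) x → x ∈ A) (fun A x hx => (hx (H.id x)).elim)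
    (fun g k A hg hk x hx => ?_) (fun g A hg y hy => ?_) (fun A V hV => ?_) fun K ε hε => ?_
  · by_contra hxA
    refine hx (H.comp (f := (g : Perm Ω)) (g := (k : Perm Ω)) ?_ ?_)
    · by_contra h1; exact hxA (hg x h1)
    · by_contra h1; exact hxA ((hmem g A x).1 (hk _ h1))
  · obtain ⟨x, rfl⟩ := (g : Perm Ω).surjective y
    rw [hmem]
    exact hg x fun h1 => hy (am2_mem_inv h1)
  · have hinv : ∀ (g : V) (x : Ω), ((g : H'.full) : Perm Ω) x ∈ A ↔ x ∈ A := by
      intro g x
      have := hmem g A x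
      rwa [((hV g).1 g.2).1] at this
    let f : V →* Perm {x // x ∈ A} :=
      { toFun := fun g => ((g : H'.full) : Perm Ω).subtypePerm (hinv g)
        map_one' := by ext; rfl
        map_mul' := fun _ _ => by ext; rfl }
    refine Amen.of_ker f Amen.of_finite ?_
    refine (h.am2W_amen ha A).of_injective
      { toFun := fun g => ⟨((g : V) : H'.full), fun x hx => ?_, fun x hx => ?_⟩
        map_one' := rfl
        map_mul' := fun _ _ => rfl } fun g k e => ?_
    · exact congrArg (fun t : Perm {x // x ∈ A} => (t ⟨x, hx⟩ : Ω)) (MonoidHom.mem_ker.1 g.2)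
    · by_contra h1
      exact hx (((hV _).1 (g : V).2).2 x h1)
    · exact Subtype.ext (Subtype.ext (congrArg (fun t : am2W H H' A => (t : H'.full)) e))
  · let S : Finset Ω := K.biUnion fun g => (h.finite_sing g.2).toFinset
    have hS : ∀ x, x ∈ S ↔ ∃ g ∈ K, ¬ H.mem (g : Perm Ω) x := by
      intro x
      simp [S]
    obtain ⟨f, hf1, hf2⟩ := hr (K.image Subtype.val) (by
        intro g hg
        obtain ⟨k, -, rfl⟩ := Finset.mem_image.1 hg
        exact k.2) S (by
        intro x hx
        obtain ⟨g, -, hg⟩ := (hS x).1 hx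
        by_contra h1
        exact hg (h.sing _ _ (g.2 x) h1)) ((ε / 4) ^ 2) (by positivity)
    obtain ⟨μ, h0, h1, h2, h3⟩ := bernoulli f
    refine ⟨μ, h0, h1, fun g hg => ?_, fun g hg => ?_⟩
    · refine (h3 g).trans_lt ?_
      have := hf2 g (Finset.mem_image_of_mem _ hg)
      have h4 := (Real.sqrt_lt' (show 0 < ε / 4 by positivity)).2 this
      linarith
    · have : ∀ A, {A : Finset Ω | ¬ ∀ x, ¬ H.mem (g : Perm Ω) x → x ∈ A}.indicator μ A = 0 := by
        intro A
        rw [Set.indicator_apply_eq_zero]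
        intro hA
        by_contra hμ
        exact hA fun x hx => h2 A hμ x (hf1 x ((hS x).2 ⟨g, hg, hx⟩))
      simp only [this, finsum_zero]
      exact hε

theorem AF.amen (h : AF H H') : Amen H.full := by
  classical
  refine Amen.of_local fun K => ?_
  obtain ⟨B, _, Y, _, _, _, E, -, hE⟩ := h (K.image Subtype.val) (by
    intro g hg
    obtain ⟨k, -, rfl⟩ := Finset.mem_image.1 hg
    exact k.2)
  let c : B → K → Y → Y := fun b g y => (E.symm (((g : H.full) : Perm Ω) (E (b, y)))).2
  let L : Subgroup H.full :=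
    { carrier := {g | (∀ ω, (E.symm ((g : Perm Ω) ω)).1 = (E.symm ω).1) ∧
        ∀ b b' y, c b = c b' →
          (E.symm ((g : Perm Ω) (E (b, y)))).2 = (E.symm ((g : Perm Ω) (E (b', y)))).2}
      one_mem' := ⟨fun _ => rfl, fun b b' y _ => by simp⟩
      mul_mem' := by
        rintro g k ⟨hg, hg'⟩ ⟨hk, hk'⟩
        refine ⟨fun ω => by simp [hg, hk], fun b b' y hc => ?_⟩
        have e : ∀ b, (k : Perm Ω) (E (b, y)) = E (b, (E.symm ((k : Perm Ω) (E (b, y)))).2) := by
          intro b
          rw [← E.symm_apply_eq]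
          exact Prod.ext (by simp [hk]) rfl
        simp only [Subgroup.coe_mul, Perm.mul_apply]
        rw [e b, e b', hk' b b' y hc]
        exact hg' b b' _ hc
      inv_mem' := by
        rintro g ⟨hg, hg'⟩
        have h1 : ∀ ω, (E.symm ((g : Perm Ω)⁻¹ ω)).1 = (E.symm ω).1 := fun ω => by
          rw [← hg]; simp
        refine ⟨h1, fun b b' y hc => ?_⟩
        simp only [Subgroup.coe_inv]
        set y1 := (E.symm ((g : Perm Ω)⁻¹ (E (b, y)))).2 with hy1
        have e1 : (g : Perm Ω)⁻¹ (E (b, y)) = E (b, y1) := by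
          rw [← E.symm_apply_eq]
          exact Prod.ext (by rw [h1]; simp) rfl
        have e2 : (g : Perm Ω) (E (b, y1)) = E (b, y) := by rw [← e1]; simp
        have e3 : (g : Perm Ω) (E (b', y1)) = E (b', y) := by
          rw [← E.symm_apply_eq]
          refine Prod.ext (by simp [hg]) ?_
          rw [← hg' b b' y1 hc, e2]; simp
        rw [← e3]; simp }
  have hL : Subgroup.closure (K : Set H.full) ≤ L := by
    rw [Subgroup.closure_le]
    intro g hg
    exact ⟨hE g (Finset.mem_image_of_mem _ hg), fun b b' y hc =>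
      congrFun (congrFun hc ⟨g, hg⟩) y⟩
  haveI : Finite L := by
    refine Finite.of_injective (β := (K → Y → Y) → Y → Y) (fun g v y =>
      if hv : ∃ b, c b = v then (E.symm (((g : H.full) : Perm Ω) (E (hv.choose, y)))).2 else y)
      fun g k e => ?_
    refine Subtype.ext (Subtype.ext (Equiv.ext fun ω => ?_))
    obtain ⟨⟨b, y⟩, rfl⟩ := E.surjective ω
    have hv : ∃ b', c b' = c b := ⟨b, rfl⟩
    have e1 := congrFun (congrFun e (c b)) y
    simp only [dif_pos hv] at e1
    apply E.symm.injective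
    refine Prod.ext (by rw [g.2.1, k.2.1]) ?_
    rw [← g.2.2 _ b y hv.choose_spec, ← k.2.2 _ b y hv.choose_spec]
    exact e1
  exact am2_of_le Amen.of_finite hL

end PG

end Vale.Agent.P196
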