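import Vale.Agent.P196.ModelBasic

/-! The topology of the model. -/

namespace Vale.Agent.P196.X

open Filter Topology

variable {o : Op} {p q : X} {l : List Op}

theorem mt_enat {α : Type} {F : Filter α} {f : α → ℕ∞} {a : ℕ∞} :
    Tendsto f F (𝓝 a) ↔ ∀ n : ℕ, ∀ᶠ x in F, min (f x) n = min a n := by
  induction a using ENat.recTopCoe with
  | top =>
    rw [ENat.tendsto_nhds_top_iff_natCast_lt]
    constructor
    · intro h n
      filter_upwards [h n] with x hx
      rw [min_eq_right hx.le, min_eq_right le_top]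
    · intro h n
      filter_upwards [h (n + 1)] with x hx
      rw [min_eq_right le_top, min_eq_right_iff] at hx
      exact lt_of_lt_of_le (by exact_mod_cast Nat.lt_succ_self n) hx
  | coe a =>
    rw [ENat.nhds_natCast, tendsto_pure]
    constructor
    · intro h n
      filter_upwards [h] with x hx
      rw [hx]
    · intro h
      filter_upwards [h (a + 1)] with x hx
      exact (min_eq_small hx (k := a) (by exact_mod_cast Nat.lt_succ_self a)).2 rfl

theorem mt_emb_dat : IsEmbedding fun D : Dat => (D.c, D.η, D.d) :=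
  ⟨⟨rfl⟩, fun D D' h => by
    simp only [Prod.mk.injEq] at h
    exact Dat.ext h.1 h.2.1 h.2.2⟩

theorem mt_emb : IsEmbedding X.D := ⟨⟨rfl⟩, fun _ _ h => X.ext h⟩

theorem mt_dat {α : Type} {F : Filter α} {f : α → Dat} {D : Dat} :
    Tendsto f F (𝓝 D) ↔ ∀ n : ℕ, ∀ᶠ x in F, (f x).tr n = D.tr n := by
  rw [mt_emb_dat.tendsto_nhds_iff, Prod.tendsto_iff, Prod.tendsto_iff, mt_enat, mt_enat,
    nhds_discrete, tendsto_pure]
  simp only [Dat.tr, Dat.mk.injEq, eventually_and, Function.comp_apply, forall_and, forall_const]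

theorem mt_tendsto {α : Type} {F : Filter α} {f : α → X} :
    Tendsto f F (𝓝 p) ↔ ∀ k n : ℕ, ∀ᶠ x in F, ((f x).D k).tr n = (p.D k).tr n := by
  rw [mt_emb.tendsto_nhds_iff, tendsto_pi_nhds]
  exact forall_congr' fun k => mt_dat

theorem mt_ev (p : X) (k n : ℕ) : ∀ᶠ q in 𝓝 p, (q.D k).tr n = (p.D k).tr n :=
  mt_tendsto.1 tendsto_id k n

theorem mt_tr_ext {D D' : Dat} (h : ∀ n, 2 ≤ n → D.tr n = D'.tr n) : D = D' := by
  have h1 : ∀ n, D.tr n = D'.tr n := fun n => tr_mono (Nat.le_add_right n 2) (h _ (by omega))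
  have : T2Space Dat := mt_emb_dat.t2Space
  have h2 : Tendsto (fun _ : Unit => D) ⊤ (𝓝 D') := mt_dat.2 fun n => Eventually.of_forall fun _ => h1 n
  exact tendsto_nhds_unique tendsto_const_nhds h2

theorem mt_role {D D' : Dat} {n : ℕ} (h2 : 2 ≤ n) (h : D.tr n = D'.tr n) : D.role = D'.role :=
  congrArg Lab.role (lab_of_tr h2 h)

theorem mt_ev_role (p : X) (k : ℕ) : ∀ᶠ q in 𝓝 p, (q.D k).role = (p.D k).role :=
  (mt_ev p k 2).mono fun _ h => mt_role le_rfl h

theorem mt_ev_near (m n : ℕ) (p : X) : ∀ᶠ q in 𝓝 p, Near m n p q := by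
  have h1 : ∀ᶠ q in 𝓝 p, ∀ k ∈ Finset.range m, (q.D k).role = (p.D k).role :=
    (eventually_all_finset _).2 fun k _ => mt_ev_role p k
  filter_upwards [h1, mt_ev p m n] with q a b
  exact ⟨fun k hk => (a k (Finset.mem_range.2 hk)).symm, b.symm⟩

theorem mt_clopen {U : Set X} (h : ∀ p, ∀ᶠ q in 𝓝 p, (q ∈ U ↔ p ∈ U)) : IsClopen U :=
  ⟨isOpen_compl_iff.1 (isOpen_iff_mem_nhds.2 fun p hp => (h p).mono fun _ a b => hp (a.1 b)),
    isOpen_iff_mem_nhds.2 fun p hp => (h p).mono fun _ a => a.2 hp⟩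

theorem mt_clopen_near (m n : ℕ) (p : X) : IsClopen {q | Near m n p q} :=
  mt_clopen fun p' => (mt_ev_near m n p').mono fun _ h =>
    ⟨fun a => Near.trans a h.symm, fun a => Near.trans a h⟩

theorem mt_near_tr {N k n : ℕ} (h : Near N N p q) (hk : k ≤ N) (hn : n ≤ N) (h2 : 2 ≤ N) :
    (p.D k).tr n = (q.D k).tr n := (h.mono hk hn h2).2

instance : CompactSpace X := by
  have : CompactSpace Dat := by
    refine ⟨mt_emb_dat.isInducing.isCompact_iff.2 ?_⟩
    have e : (fun D : Dat => (D.c, D.η, D.d)) '' Set.univ = Set.univ :=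
      Set.eq_univ_of_forall fun x => ⟨⟨x.1, x.2.1, x.2.2⟩, trivial, rfl⟩
    rw [e]
    exact isCompact_univ
  refine ⟨isCompact_iff_ultrafilter_le_nhds.2 fun F _ => ?_⟩
  have h : ∀ k, ∃ D : Dat, Tendsto (fun q : X => q.D k) F (𝓝 D) := fun k =>
    ⟨_, (F.map fun q : X => q.D k).le_nhds_lim⟩
  choose D hD using h
  have hD' := fun k => mt_dat.1 (hD k)
  refine ⟨⟨D, fun k => mt_tr_ext fun n hn => ?_⟩, trivial, (mt_tendsto (f := id)).2 hD'⟩
  obtain ⟨q, a, b⟩ := ((hD' k n).and (hD' (k + 1) n)).exists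
  rw [← a, ← mt_role hn a, ← tr_ch hn _ b, ← q.h k]

instance : T2Space X := by
  have : T2Space Dat := mt_emb_dat.t2Space
  exact mt_emb.t2Space

instance : TotallyDisconnectedSpace X := by
  have : TotallySeparatedSpace X := by
    refine totallySeparatedSpace_iff_exists_isClopen.2 fun p q hne => ?_
    by_contra hc
    refine hne (X.ext (funext fun k => mt_tr_ext fun n hn => ?_))
    by_contra h
    exact hc ⟨_, mt_clopen_near k n p, Near.refl _ _ _, fun h' => h h'.2⟩
  infer_instance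

instance : Infinite X := Infinite.of_injective (fun d : ℕ => aInf (.aF true) d) fun a b h => by
  have := congrArg (fun p : X => p.dat.d) h
  simpa [dat, aInf] using this

theorem isClopen_near (m n : ℕ) (p : X) : IsClopen {q | Near m n p q} := mt_clopen_near m n p

theorem mem_nhds_iff_near {U : Set X} : U ∈ 𝓝 p ↔ ∃ n, ∀ q, Near n n p q → q ∈ U := by
  refine ⟨fun hU => ?_, fun ⟨n, h⟩ => (mt_ev_near n n p).mono h⟩
  have hanti : Antitone fun n => {q | Near (n + 2) (n + 2) p q} := fun a b hab q hq =>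
    Near.mono (by omega) (by omega) (by omega) hq
  have hb := hasBasis_iInf_principal hanti.directed_ge
  have hle : (⨅ n, 𝓟 {q | Near (n + 2) (n + 2) p q}) ≤ 𝓝 p := by
    refine (mt_tendsto (f := id)).2 fun k n => hb.eventually_iff.2 ⟨k + n, trivial, fun q hq => ?_⟩
    exact (mt_near_tr hq (by omega) (by omega) (by omega)).symm
  obtain ⟨n, -, h⟩ := hb.mem_iff.1 (hle hU)
  exact ⟨n + 2, h⟩

theorem isClopen_iff_near {U : Set X} :
    IsClopen U ↔ ∃ n, ∀ p q, Near n n p q → p ∈ U → q ∈ U := by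
  refine ⟨fun hU => ?_, fun ⟨n, h⟩ => mt_clopen fun p => (mt_ev_near n n p).mono fun q a =>
    ⟨h q p a.symm, h p q a⟩⟩
  have key : ∃ n, ∀ p ∈ U, ∀ q, Near (n + 2) (n + 2) p q → q ∈ U := by
    refine hU.isClosed.isCompact.induction_on
      (p := fun s => ∃ n, ∀ p ∈ s, ∀ q, Near (n + 2) (n + 2) p q → q ∈ U)
      ⟨0, fun p hp => hp.elim⟩ ?_ ?_ ?_
    · rintro s t hst ⟨n, h⟩
      exact ⟨n, fun p hp => h p (hst hp)⟩
    · rintro s t ⟨n, h⟩ ⟨n', h'⟩
      refine ⟨n + n', fun p hp q hq => ?_⟩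
      rcases hp with hp | hp
      · exact h p hp q (hq.mono (by omega) (by omega) (by omega))
      · exact h' p hp q (hq.mono (by omega) (by omega) (by omega))
    · intro p hp
      obtain ⟨n, h⟩ := mem_nhds_iff_near.1 (hU.isOpen.mem_nhds hp)
      refine ⟨_, mem_nhdsWithin_of_mem_nhds (mt_ev_near n n p), n, fun p' hp' q hq => h q ?_⟩
      exact Near.trans hp' (hq.mono (by omega) (by omega) (by omega))
  obtain ⟨n, h⟩ := key
  exact ⟨n + 2, fun p q a b => h p b q a⟩

theorem isClopen_labS (S : Set Lab) : IsClopen (labS S) :=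
  mt_clopen fun p => (mt_ev_near 2 2 p).mono fun q h => by
    have e : p.lab = q.lab := h.lab_eq le_rfl
    simp only [labS, Set.mem_ofPred_eq, e]

theorem continuous_par : Continuous par :=
  continuous_iff_continuousAt.2 fun p => mt_tendsto.2 fun k n => mt_ev p (k + 1) n

theorem continuous_cons (r : Role) : Continuous (cons r) := by
  refine continuous_iff_continuousAt.2 fun p => mt_tendsto.2 fun k n => ?_
  cases k with
  | zero =>
    exact (mt_ev p 0 (n + 2)).mono fun q h => tr_mono (Nat.le_add_right n 2) (tr_ch (by omega) r h)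
  | succ k => exact mt_ev p k n

theorem eventually_role (p : X) (k : ℕ) : ∀ᶠ q in 𝓝 p, (q.D k).role = (p.D k).role :=
  mt_ev_role p k

theorem eventually_lifts (o : Op) (p : X) (k : ℕ) :
    ∀ᶠ q in 𝓝 p, lifts o q k = lifts o p k := by
  induction k with
  | zero => exact Eventually.of_forall fun _ => rfl
  | succ k ih =>
    filter_upwards [ih, eventually_role p k, eventually_role p (k + 1)] with q a b c
    rw [lifts, lifts, a, b, c]

theorem mt_min_sub {c c' : ℕ∞} {n : ℕ} (h : min c (n + 2 : ℕ) = min c' ((n + 2 : ℕ) : ℕ∞)) :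
    min (c - 1) n = min (c' - 1) (n : ℕ∞) := by
  have key : ∀ c : ℕ∞, min (c - 1) n = min (min c ((n + 2 : ℕ) : ℕ∞) - 1) (n : ℕ∞) := by
    intro c
    rcases le_total c ((n + 2 : ℕ) : ℕ∞) with h | h
    · rw [min_eq_left h]
    · have h1 : (n : ℕ∞) ≤ ((n + 2 : ℕ) : ℕ∞) - 1 := by
        norm_cast
        omega
      rw [min_eq_right h, min_eq_right h1, min_eq_right (h1.trans (tsub_le_tsub_right h 1))]
  rw [key c, h, ← key c']

theorem mt_min_add {c c' : ℕ∞} {n : ℕ} (h : min c n = min c' (n : ℕ∞)) :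
    min (c + 1) n = min (c' + 1) (n : ℕ∞) := by
  rw [← min_add_min, h, min_add_min]

theorem mt_tr_op (o : Op) {D D' E E' : Dat} {n : ℕ} (h : D.tr (n + 2) = D'.tr (n + 2))
    (h' : E.tr (n + 2) = E'.tr (n + 2)) : (Dat.op o D E).tr n = (Dat.op o D' E').tr n := by
  have h0 := tr_mono (Nat.le_add_right n 2) h
  cases o with
  | S a r => exact tr_mono (Nat.le_add_right n 2) (tr_ch (by omega) r h')
  | T =>
    simp only [Dat.tr, Dat.mk.injEq, Dat.op] at h0 ⊢
    exact ⟨h0.1, by rw [h0.2.1], h0.2.2⟩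
  | X s =>
    simp only [Dat.tr, Dat.mk.injEq] at h h0
    have hd : D.d = 0 ↔ D'.d = 0 := min_eq_small h.2.2 (by exact_mod_cast Nat.succ_pos (n + 1))
    simp only [Dat.op, hd, h.2.1]
    split_ifs
    · simp only [Dat.tr, h0.1]
    · simp only [Dat.tr, mt_min_add h0.1, mt_min_sub h.2.2]
    · simp only [Dat.tr, mt_min_add h0.2.2, mt_min_sub h.1]

theorem mt_ap_D (h : o.ok p.role = true) (k : ℕ) :
    (ap o p).D k = Dat.op (lifts o p k) (p.D k) (p.D (k + 1)) := by
  simp only [ap, h, dif_pos]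

theorem continuous_ap (o : Op) : Continuous (ap o) := by
  refine continuous_iff_continuousAt.2 fun p => mt_tendsto.2 fun k n => ?_
  filter_upwards [eventually_role p 0, eventually_lifts o p k, mt_ev p k (n + 2),
    mt_ev p (k + 1) (n + 2)] with q a b c d
  have e : q.role = p.role := a
  by_cases h : o.ok p.role = true
  · rw [mt_ap_D h, mt_ap_D (e ▸ h), b]
    exact mt_tr_op _ c d
  · have h' : ¬o.ok q.role = true := e ▸ h
    rw [ap, ap, dif_neg h, dif_neg h']
    exact tr_mono (Nat.le_add_right n 2) c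

theorem continuous_run (l : List Op) : Continuous (run ap l) := by
  induction l with
  | nil => exact continuous_id
  | cons o l ih => exact ih.comp (continuous_ap o)

theorem isClopen_valid (l : List Op) : IsClopen {p | Valid l p} := by
  induction l with
  | nil => exact isClopen_univ
  | cons o l ih => exact (isClopen_labS o.dom).inter (ih.preimage (continuous_ap o))

theorem mt_invW_invW (l : List Op) : invW (invW l) = l := by
  have key : ∀ o : Op, o.inv.inv = o := by decide
  simp [invW, List.map_reverse, Function.comp_def, key]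

theorem isClopen_image_run {U : Set X} (hU : IsClopen U) (h : ∀ p ∈ U, Valid l p) :
    IsClopen (run ap l '' U) := by
  have e : run ap l '' U = {q | Valid (invW l) q} ∩ run ap (invW l) ⁻¹' U := by
    ext q
    constructor
    · rintro ⟨p, hp, rfl⟩
      refine ⟨(h p hp).inv, ?_⟩
      rw [Set.mem_preimage, (h p hp).run_inv]
      exact hp
    · rintro ⟨a, b⟩
      refine ⟨_, b, ?_⟩
      have := Valid.run_inv a
      rwa [mt_invW_invW] at this
  rw [e]
  exact (isClopen_valid _).inter (hU.preimage (continuous_run _))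

end Vale.Agent.P196.X
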