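import Vale.Agent.P196.ModelAx
import Vale.Agent.P196.ModelTop

/-! Clopen sets are generated by labels and letters. -/

namespace Vale.Agent.P196

open X

namespace MSep

/-- Same labels along all common words. -/
def R (p q : X) : Prop := ∀ l, Valid l p → Valid l q → (run ap l p).lab = (run ap l q).lab

theorem R.symm {p q : X} (h : R p q) : R q p := fun l h1 h2 => (h l h2 h1).symm

theorem R.lab {p q : X} (h : R p q) : p.lab = q.lab := h [] trivial trivial

theorem R.role {p q : X} (h : R p q) : p.role = q.role := congrArg Lab.role h.lab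

theorem R.word {p q : X} (h : R p q) {w : List Op} (hp : Valid w p) (hq : Valid w q) :
    R (run ap w p) (run ap w q) := by
  intro l h1 h2
  rw [← run_append, ← run_append]
  exact h _ (valid_append.2 ⟨hp, h1⟩) (valid_append.2 ⟨hq, h2⟩)

theorem R.step {p q : X} (h : R p q) {o : Op} (ho : o.ok p.role = true) : R (ap o p) (ap o q) :=
  h.word (w := [o]) ⟨ho, trivial⟩ ⟨h.role ▸ ho, trivial⟩

theorem lab_of_al {p q : X} (h : R (cons .al p) (cons .al q)) : p.lab = q.lab := by
  have h1 := h.lab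
  have h2 := (h.step (o := .S .al (.ga true)) (by rw [role_cons]; rfl)).lab
  rw [ap_S, ap_S] at h2
  rw [lab_cons, lab_cons] at h1 h2
  generalize p.lab = l at h1 h2
  generalize q.lab = l' at h1 h2
  have key : ∀ l : Lab, l.role.Fd true = .aF true ↔ l.1 = false := by decide
  have h3 : l.2 = l'.2 := (congrArg Prod.snd h1 :)
  have h4 : l.role.Fd true = l'.role.Fd true := Th.z0.inj (congrArg Prod.snd h2)
  refine Prod.ext ?_ h3
  have h5 := key l
  rw [h4, key l'] at h5
  revert h5
  cases l.1 <;> cases l'.1 <;> simp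

theorem of_al {p q : X} (h : R (cons .al p) (cons .al q)) : R p q := by
  intro l
  induction l generalizing p q with
  | nil => exact fun _ _ => lab_of_al h
  | cons o l ih =>
    rintro ⟨h1, h2⟩ ⟨h3, h4⟩
    obtain ⟨a1, a2, -⟩ := X.exp_spec h1
    obtain ⟨b1, b2, -⟩ := X.exp_spec h3
    have h5 := h.word a1 b1
    rw [a2, b2] at h5
    exact ih h5 h2 h4

theorem R.par {p q : X} (h : R p q) : R p.par q.par := by
  have h1 := h.step (o := .S p.role .al) (by simp [Op.ok])
  have hp : ap (.S p.role .al) p = cons .al p.par := by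
    conv_lhs => rw [← cons_par p]
    simp only [role_cons]
    exact ap_S _ _ _
  have hq : ap (.S p.role .al) q = cons .al q.par := by
    rw [h.role]
    conv_lhs => rw [← cons_par q]
    simp only [role_cons]
    exact ap_S _ _ _
  rw [hp, hq] at h1
  exact of_al h1

theorem R.η {p q : X} (h : R p q) : p.dat.η = q.dat.η := by
  rw [← MAx.lab_η, ← MAx.lab_η, h.lab]

theorem R.d_nat (n : ℕ) {p q : X} (h : R p q) (hn : p.dat.d = n) : q.dat.d = n := by
  induction n generalizing p q with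
  | zero =>
    have h1 := (MAx.lab_isZ0 p).2 (by simpa using hn)
    rw [h.lab] at h1
    simpa using (MAx.lab_isZ0 q).1 h1
  | succ n ih =>
    have hp : p.dat.d ≠ 0 := by rw [hn]; simp
    have hq : q.dat.d ≠ 0 := by
      rw [Ne, ← MAx.lab_isZ0, ← h.lab, MAx.lab_isZ0]; exact hp
    have ho := MAx.ok_side p
    have h1 := ih (h.step ho) (by
      rw [dat_ap ho]
      simp only [Dat.op, if_true, if_neg hp, hn]
      push_cast
      exact Dat.enat_add_sub _)
    rw [dat_ap (h.role ▸ ho)] at h1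
    simp only [Dat.op, h.η, if_true, if_neg hq] at h1
    rw [← Dat.enat_sub_add hq, h1]
    push_cast
    rfl

theorem R.c_nat (n : ℕ) {p q : X} (h : R p q) (hn : p.dat.c = n) : q.dat.c = n := by
  induction n generalizing p q with
  | zero =>
    have h1 : p.lab.1 = q.lab.1 := congrArg Prod.fst h.lab
    have h2 : p.dat.c = 0 := by simpa using hn
    change decide (p.dat.c = 0) = decide (q.dat.c = 0) at h1
    simpa [h2] using h1
  | succ n ih =>
    have hp : p.role = .al := Dat.role_eq_al.2 (by rw [hn]; simp)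
    have hq : q.role = .al := h.role ▸ hp
    have e1 : p.dat.c = p.par.dat.c + 1 := by
      conv_lhs => rw [← cons_par p, hp]
      rfl
    have e2 : q.dat.c = q.par.dat.c + 1 := by
      conv_lhs => rw [← cons_par q, hq]
      rfl
    have h1 := ih h.par (by
      rw [← Dat.enat_add_sub p.par.dat.c, ← e1, hn]
      push_cast
      exact Dat.enat_add_sub _)
    rw [e2, h1]
    push_cast
    rfl

theorem enat_eq {a b : ℕ∞} (h1 : ∀ n : ℕ, a = n → b = n) (h2 : ∀ n : ℕ, b = n → a = n) :
    a = b := by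
  induction a using ENat.recTopCoe with
  | coe n => exact (h1 n rfl).symm
  | top =>
    induction b using ENat.recTopCoe with
    | coe n => exact h2 n rfl
    | top => rfl

theorem R.dat {p q : X} (h : R p q) : p.dat = q.dat :=
  Dat.ext (enat_eq (fun n => h.c_nat n) fun n => h.symm.c_nat n) h.η
    (enat_eq (fun n => h.d_nat n) fun n => h.symm.d_nat n)

theorem R.D (k : ℕ) {p q : X} (h : R p q) : p.D k = q.D k := by
  induction k generalizing p q with
  | zero => exact h.dat
  | succ k ih => exact ih h.par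

theorem op_inv_inv (o : Op) : o.inv.inv = o := by revert o; decide

theorem exists_sep {A : Set X → Prop} (hl : ∀ S, A (labS S))
    (hi : ∀ U V, A U → A V → A (U ∩ V))
    (ho : ∀ (o : Op) U, A U → U ⊆ labS o.dom → A (ap o '' U)) (l : List Op) {p q : X}
    (hp : Valid l p) (hq : Valid l q) (h : (run ap l p).lab ≠ (run ap l q).lab) :
    ∃ V, A V ∧ IsClopen V ∧ p ∈ V ∧ q ∉ V := by
  induction l generalizing p q with
  | nil => exact ⟨labS {p.lab}, hl _, isClopen_labS _, rfl, fun h' => h (Eq.symm h')⟩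
  | cons o l ih =>
    obtain ⟨V, h1, h2, h3, h4⟩ := ih hp.2 hq.2 h
    refine ⟨ap o.inv '' (V ∩ labS o.inv.dom), ho _ _ (hi _ _ h1 (hl _)) Set.inter_subset_right,
      isClopen_image_run (l := [o.inv]) (h2.inter (isClopen_labS _)) fun x hx => ⟨hx.2, trivial⟩,
      ⟨ap o p, ⟨h3, ok_inv hp.1⟩, ap_inv hp.1⟩, ?_⟩
    rintro ⟨y, ⟨hy1, hy2⟩, rfl⟩
    have h5 := ap_inv (o := o.inv) (p := y) hy2
    rw [op_inv_inv] at h5
    exact h4 (h5.symm ▸ hy1)

end MSep

/-- Points with the same labels along all words are equal. -/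
theorem X.sep {p q : X} (h : ∀ l, Valid l p → Valid l q → (run ap l p).lab = (run ap l q).lab) :
    p = q :=
  X.ext (funext fun k => MSep.R.D k h)

theorem X.clopen_induction {A : Set X → Prop} (hl : ∀ S, A (labS S)) (hc : ∀ U, A U → A Uᶜ)
    (hi : ∀ U V, A U → A V → A (U ∩ V))
    (ho : ∀ (o : Op) U, A U → U ⊆ labS o.dom → A (ap o '' U)) {U : Set X} (hU : IsClopen U) :
    A U := by
  have hsep : ∀ p q : X, p ≠ q → ∃ V, A V ∧ IsClopen V ∧ p ∈ V ∧ q ∉ V := by
    intro p q hpq
    by_contra hne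
    refine hpq (X.sep fun l h1 h2 => ?_)
    by_contra h3
    exact hne (MSep.exists_sep hl hi ho l h1 h2 h3)
  have huniv : A Set.univ := hl Set.univ
  have hloc : ∀ p ∈ U, ∃ W, A W ∧ IsClopen W ∧ p ∈ W ∧ Disjoint W Uᶜ := by
    intro p hp
    refine hU.compl.isClosed.isCompact.induction_on
      (p := fun s => ∃ W, A W ∧ IsClopen W ∧ p ∈ W ∧ Disjoint W s) ?_ ?_ ?_ ?_
    · exact ⟨Set.univ, huniv, isClopen_univ, trivial, Set.disjoint_empty _⟩
    · rintro s t hst ⟨W, h1, h2, h3, h4⟩
      exact ⟨W, h1, h2, h3, h4.mono_right hst⟩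
    · rintro s t ⟨W, h1, h2, h3, h4⟩ ⟨W', h1', h2', h3', h4'⟩
      exact ⟨W ∩ W', hi _ _ h1 h1', h2.inter h2', ⟨h3, h3'⟩, Set.disjoint_union_right.2
        ⟨h4.mono_left Set.inter_subset_left, h4'.mono_left Set.inter_subset_right⟩⟩
    · intro q hq
      obtain ⟨V, h1, h2, h3, h4⟩ := hsep p q fun h => hq (h ▸ hp)
      exact ⟨Vᶜ, mem_nhdsWithin_of_mem_nhds (h2.compl.isOpen.mem_nhds h4), V, h1, h2, h3,
        disjoint_compl_right⟩
  have hmain : ∃ W, A W ∧ U ⊆ W ∧ W ⊆ U := by
    refine hU.isClosed.isCompact.induction_on (p := fun s => ∃ W, A W ∧ s ⊆ W ∧ W ⊆ U) ?_ ?_ ?_ ?_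
    · refine ⟨Set.univᶜ, hc _ huniv, Set.empty_subset _, by simp⟩
    · rintro s t hst ⟨W, h1, h2, h3⟩
      exact ⟨W, h1, hst.trans h2, h3⟩
    · rintro s t ⟨W, h1, h2, h3⟩ ⟨W', h1', h2', h3'⟩
      refine ⟨(Wᶜ ∩ W'ᶜ)ᶜ, hc _ (hi _ _ (hc _ h1) (hc _ h1')), ?_, ?_⟩
      · rw [← Set.compl_union, compl_compl]
        exact Set.union_subset_union h2 h2'
      · rw [← Set.compl_union, compl_compl]
        exact Set.union_subset h3 h3'
    · intro p hp
      obtain ⟨W, h1, h2, h3, h4⟩ := hloc p hp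
      exact ⟨W, mem_nhdsWithin_of_mem_nhds (h2.isOpen.mem_nhds h3), W, h1, subset_rfl,
        Set.disjoint_compl_right_iff_subset.1 h4⟩
  obtain ⟨W, h1, h2, h3⟩ := hmain
  rwa [Set.Subset.antisymm h2 h3]

end Vale.Agent.P196
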