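import Vale.Agent.P196.Step1
import Vale.Agent.P196.ModelSep

/-! Representations of the clopen sets. -/

namespace Vale.Agent.P196

open X

variable {Q : QL}

structure IsRep (A : LS Q) (ρ : Set X → Q.P) : Prop where
  univ : ρ Set.univ = Q.one
  empty : ρ ∅ = Q.zero
  orth : ∀ U V, IsClopen U → IsClopen V → Disjoint U V → Q.orth (ρ U) (ρ V)
  union : ∀ U V, IsClopen U → IsClopen V → Disjoint U V → ρ (U ∪ V) = Q.add (ρ U) (ρ V)
  lab : ∀ S, ρ (labS S) = A.ρ.ρ S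
  img : ∀ (o : Op) U, IsClopen U → U ⊆ labS o.dom → Q.img (A.ap o) (ρ U) = ρ (ap o '' U)

/-- The arrow of the word `l` over `U`. -/
def arr (A : LS Q) (ρ : Set X → Q.P) (l : List Op) (U : Set X) : Q.W := run A.ap l (Q.idw (ρ U))

def PathIndep (A : LS Q) (ρ : Set X → Q.P) : Prop :=
  ∀ U l l', IsClopen U → (∀ p ∈ U, Valid l p) → (∀ p ∈ U, Valid l' p) →
    Set.EqOn (run ap l) (run ap l') U → arr A ρ l U = arr A ρ l' U

variable {B : LS Q} {ρ ρ' : Set X → Q.P} {U V : Set X} {l l' : List Op}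

theorem IsRep.rb_split (h : IsRep B ρ) (hU : IsClopen U) (hV : IsClopen V) :
    Q.orth (ρ (U ∩ V)) (ρ (U \ V)) ∧ ρ U = Q.add (ρ (U ∩ V)) (ρ (U \ V)) := by
  have hd : Disjoint (U ∩ V) (U \ V) := Set.disjoint_left.2 fun _ h h' => h'.2 h.2
  exact ⟨h.orth _ _ (hU.inter hV) (hU.diff hV) hd, by
    rw [← h.union _ _ (hU.inter hV) (hU.diff hV) hd, Set.inter_union_sdiff]⟩

theorem IsRep.mono (h : IsRep B ρ) (hU : IsClopen U) (hV : IsClopen V) (hUV : U ⊆ V) :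
    Q.le (ρ U) (ρ V) := by
  obtain ⟨h1, h2⟩ := h.rb_split hV hU
  rw [Set.inter_eq_right.2 hUV] at h1 h2
  rw [h2]
  exact Q.le_add_left h1

theorem IsRep.rb_meet (h : IsRep B ρ) (hU : IsClopen U) (hV : IsClopen V) {e : Q.P}
    (h1 : Q.le e (ρ U)) (h2 : Q.le e (ρ V)) : Q.le e (ρ (U ∩ V)) := by
  obtain ⟨k1, k2⟩ := h.rb_split hU hV
  exact Q.le_of_orth k1 (k2 ▸ h1)
    (Q.orth_mono h2 (h.orth _ _ hV (hU.diff hV) Set.disjoint_sdiff_right))

theorem rb_clopen_img {o : Op} (hU : IsClopen U) (ho : U ⊆ labS o.dom) : IsClopen (ap o '' U) :=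
  isClopen_image_run (l := [o]) hU fun _ hp => ⟨ho hp, trivial⟩

theorem IsRep.rb_compl (h : IsRep B ρ) (h' : IsRep B ρ') (hU : IsClopen U) (he : ρ U = ρ' U) :
    Q.le (ρ Uᶜ) (ρ' Uᶜ) := by
  have h1 := h'.union _ _ hU.compl hU disjoint_compl_left
  rw [Set.compl_union_self, h'.univ] at h1
  refine Q.le_of_orth (h'.orth _ _ hU.compl hU disjoint_compl_left) (h1 ▸ Q.le_one _) ?_
  rw [← he]
  exact h.orth _ _ hU.compl hU disjoint_compl_left

theorem IsRep.rb_inter (h : IsRep B ρ) (h' : IsRep B ρ') (hU : IsClopen U) (hV : IsClopen V)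
    (he : ρ U = ρ' U) (he' : ρ V = ρ' V) : Q.le (ρ (U ∩ V)) (ρ' (U ∩ V)) :=
  h'.rb_meet hU hV (he ▸ h.mono (hU.inter hV) hU Set.inter_subset_left)
    (he' ▸ h.mono (hU.inter hV) hV Set.inter_subset_right)

theorem IsRep.unique (h : IsRep B ρ) (h' : IsRep B ρ') (hU : IsClopen U) : ρ U = ρ' U := by
  refine (X.clopen_induction (A := fun U => IsClopen U ∧ ρ U = ρ' U) ?_ ?_ ?_ ?_ hU).2
  · exact fun S => ⟨isClopen_labS S, by rw [h.lab, h'.lab]⟩
  · exact fun U hU => ⟨hU.1.compl,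
      Q.le_antisymm (h.rb_compl h' hU.1 hU.2) (h'.rb_compl h hU.1 hU.2.symm)⟩
  · exact fun U V hU hV => ⟨hU.1.inter hV.1,
      Q.le_antisymm (h.rb_inter h' hU.1 hV.1 hU.2 hV.2)
        (h'.rb_inter h hU.1 hV.1 hU.2.symm hV.2.symm)⟩
  · exact fun o U hU ho => ⟨rb_clopen_img hU.1 ho, by
      rw [← h.img o U hU.1 ho, ← h'.img o U hU.1 ho, hU.2]⟩

theorem IsRep.rb_run (h : IsRep B ρ) (hU : IsClopen U) (hl : ∀ p ∈ U, Valid l p) {w : Q.W}
    (hw : Q.tgt w = ρ U) : B.Valid l w ∧ Q.tgt (run B.ap l w) = ρ (run ap l '' U) := by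
  induction l generalizing U w with
  | nil => exact ⟨trivial, hw.trans (congrArg ρ (Set.image_id' U).symm)⟩
  | cons o l ih =>
    have ho : U ⊆ labS o.dom := fun p hp => (hl p hp).1
    have h1 : Q.le (Q.tgt w) (B.ρ.ρ o.dom) := by
      rw [hw, ← h.lab]
      exact h.mono hU (isClopen_labS _) ho
    have h2 : Q.tgt (B.ap o w) = ρ (ap o '' U) := by
      rw [(B.isOp o).tgt_eq h1, hw, h.img o U hU ho]
    obtain ⟨k1, k2⟩ := ih (rb_clopen_img hU ho) (by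
      rintro _ ⟨p, hp, rfl⟩
      exact (hl p hp).2) h2
    refine ⟨⟨h1, k1⟩, ?_⟩
    rw [run_cons, k2, Set.image_image]
    rfl

theorem IsRep.valid (h : IsRep B ρ) (hU : IsClopen U) (hl : ∀ p ∈ U, Valid l p) :
    B.Valid l (Q.idw (ρ U)) := (h.rb_run hU hl (Q.tgt_idw _)).1

theorem IsRep.src_arr (h : IsRep B ρ) (hU : IsClopen U) (hl : ∀ p ∈ U, Valid l p) :
    Q.src (arr B ρ l U) = ρ U := by
  rw [arr, (h.valid hU hl).isOp.src (by rw [Q.tgt_idw]; exact Q.le_refl _), Q.src_idw]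

theorem IsRep.tgt_arr (h : IsRep B ρ) (hU : IsClopen U) (hl : ∀ p ∈ U, Valid l p) :
    Q.tgt (arr B ρ l U) = ρ (run ap l '' U) := (h.rb_run hU hl (Q.tgt_idw _)).2

theorem rb_op_eq {F : Q.W → Q.W} {e : Q.P} (hF : Q.IsOp e F) {w : Q.W} (hw : Q.le (Q.tgt w) e) :
    F w = Q.act (F (Q.idw e)) w := by
  rw [← hF.nat (by rw [Q.tgt_idw]; exact Q.le_refl _) (by rw [Q.src_idw]; exact hw),
    Q.idw_act hw]

theorem IsRep.arr_append (h : IsRep B ρ) (hU : IsClopen U) (hl : ∀ p ∈ U, Valid (l ++ l') p) :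
    arr B ρ (l ++ l') U = Q.act (arr B ρ l' (run ap l '' U)) (arr B ρ l U) := by
  have h1 : ∀ p ∈ U, Valid l p := fun p hp => (valid_append.1 (hl p hp)).1
  have h2 : ∀ p ∈ run ap l '' U, Valid l' p := by
    rintro _ ⟨p, hp, rfl⟩
    exact (valid_append.1 (hl p hp)).2
  have h3 := (h.valid (isClopen_image_run hU h1) h2).isOp
  rw [arr, run_append]
  exact rb_op_eq h3 (by
    have := h.tgt_arr hU h1
    rw [arr] at this
    rw [this]
    exact Q.le_refl _)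

theorem IsRep.arr_restrict (h : IsRep B ρ) (hU : IsClopen U) (hV : IsClopen V) (hVU : V ⊆ U)
    (hl : ∀ p ∈ U, Valid l p) : arr B ρ l V = Q.act (arr B ρ l U) (Q.idw (ρ V)) :=
  rb_op_eq (h.valid hU hl).isOp (by rw [Q.tgt_idw]; exact h.mono hV hU hVU)

end Vale.Agent.P196
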