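import Vale.Agent.P196.TruePatch
import Vale.Agent.P196.RepBasic

/-! The level zero structure of a lift; the finitely presented group. -/

namespace Vale.Agent.P196

open X Equiv

variable {Γ : Type} [Group Γ] {S : Set (Perm (X × Col))} {lam : Perm (X × Col) → Γ}

/-- Three sheets over a base: the base itself and two words. -/
def sheets3 (l₁ l₂ : List Op) : Fin 3 → X → X := ![id, run ap l₁, run ap l₂]

/-- `S` contains all 3-cycles of label sets and words of length at most six. -/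
def Rich (S : Set (Perm (X × Col))) : Prop :=
  ∀ (T : Set Lab) (l₁ l₂ : List Op), l₁.length ≤ 6 → l₂.length ≤ 6 →
    (∀ p ∈ labS T, Valid l₁ p) → (∀ p ∈ labS T, Valid l₂ p) → Adm S (labS T) (sheets3 l₁ l₂)

theorem Rich.adm (hS : Rich S) (T : Set Lab) (l₁ l₂ : List Op) (h₁ : l₁.length ≤ 6)
    (h₂ : l₂.length ≤ 6) (v₁ : ∀ p ∈ labS T, Valid l₁ p) (v₂ : ∀ p ∈ labS T, Valid l₂ p) :
    Adm S (labS T) (sheets3 l₁ l₂) := hS T l₁ l₂ h₁ h₂ v₁ v₂

/-- The lifted three-sheet patch. -/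
noncomputable def Lam.psi (h : Lam S lam) (hS : Rich S) (T : Set Lab) (l₁ l₂ : List Op)
    (h₁ : l₁.length ≤ 6) (h₂ : l₂.length ≤ 6) (v₁ : ∀ p ∈ labS T, Valid l₁ p)
    (v₂ : ∀ p ∈ labS T, Valid l₂ p) : Patch h.env (Fin 3) :=
  h.patch (hS.adm T l₁ l₂ h₁ h₂ v₁ v₂)

noncomputable def Lam.rho0 (h : Lam S lam) (hS : Rich S) (T : Set Lab) : Patch h.env Unit :=
  (h.psi hS T [] [] (by simp) (by simp) (fun _ _ => trivial) (fun _ _ => trivial)).sheet 0

noncomputable def Lam.x0 (h : Lam S lam) (hS : Rich S) (o : Op) : Patch h.env Bool :=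
  (h.psi hS o.dom [o] [o] (by simp) (by simp) (fun _ hp => ⟨hp, trivial⟩)
    (fun _ hp => ⟨hp, trivial⟩)).sh2 0 1

theorem Lam.base_congr {B R : Type} {S : Set (Perm (B × Col))} {lam : Perm (B × Col) → Γ}
    (h : Lam S lam) {U : Set B} {f f' : R → B → B} (ha : Adm S U f) (ha' : Adm S U f')
    (he : ∀ r, Set.EqOn (f' r) (f r) U) : h.patch ha' = h.patch ha :=
  h.patch_eq ha ha' (j := id) (Set.injOn_id U) (Set.image_id U) he

theorem base_inj {U : Set X} {l : List Op} (v : ∀ p ∈ U, Valid l p) : Set.InjOn (run ap l) U :=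
  (injOn_run l).mono v

theorem base_inj3 {U : Set X} {l₁ l₂ : List Op} (v₁ : ∀ p ∈ U, Valid l₁ p)
    (v₂ : ∀ p ∈ U, Valid l₂ p) (r : Fin 3) : Set.InjOn (sheets3 l₁ l₂ r) U := by
  fin_cases r
  · exact Set.injOn_id U
  · exact base_inj v₁
  · exact base_inj v₂

theorem Rich.adm0 (hS : Rich S) (T : Set Lab) : Adm S (labS T) fun _ : Unit => (id : X → X) :=
  (hS.adm T [] [] (by simp) (by simp) (fun _ _ => trivial) fun _ _ => trivial).comap fun _ => 0

theorem Rich.adm2 (hS : Rich S) (T : Set Lab) (l : List Op) (hl : l.length ≤ 6)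
    (v : ∀ p ∈ labS T, Valid l p) : Adm S (labS T) fun b : Bool => cond b (run ap l) id := by
  have h := (hS.adm T l l hl hl v v).comap fun b : Bool => cond b 1 0
  have e : (sheets3 l l ∘ fun b : Bool => cond b 1 0) = fun b : Bool => cond b (run ap l) id := by
    funext b
    cases b <;> rfl
  rwa [e] at h

theorem Lam.rho0_eq (h : Lam S lam) (hS : Rich S) (T : Set Lab) :
    h.rho0 hS T = h.patch (hS.adm0 T) :=
  h.patch_comap (hS.adm T [] [] (by simp) (by simp) (fun _ _ => trivial) fun _ _ => trivial)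
    fun _ : Unit => 0

theorem Lam.sh2_eq (h : Lam S lam) {U : Set X} {l₁ l₂ l : List Op}
    (ha : Adm S U (sheets3 l₁ l₂)) (r : Fin 3) (he : Set.EqOn (sheets3 l₁ l₂ r) (run ap l) U)
    (ha' : Adm S U fun b : Bool => cond b (run ap l) id) : (h.patch ha).sh2 0 r = h.patch ha' := by
  refine (h.patch_comap _ _).trans (h.base_congr _ _ fun b => ?_)
  cases b
  · exact fun _ _ => rfl
  · exact he

theorem Lam.x0_eq (h : Lam S lam) (hS : Rich S) (o : Op) :
    h.x0 hS o = h.patch (hS.adm2 o.dom [o] (by simp) fun _ hp => ⟨hp, trivial⟩) :=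
  h.sh2_eq _ 1 (fun _ _ => rfl) _

theorem base_dom {U : Set X} {l : List Op} {o : Op} (v : ∀ p ∈ U, Valid (l ++ [o]) p) :
    run ap l '' U ⊆ labS o.dom := by
  rintro _ ⟨p, hp, rfl⟩
  exact (valid_append.1 (v p hp)).2.1

theorem Lam.base_step (h : Lam S lam) (hS : Rich S) {U : Set X} {l : List Op} {o : Op}
    (v : ∀ p ∈ U, Valid (l ++ [o]) p) (ha : Adm S U (sheets3 l (l ++ [o])))
    (ha₁ : Adm S U fun b : Bool => cond b (run ap l) id)
    (ha₂ : Adm S U fun b : Bool => cond b (run ap (l ++ [o])) id) :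
    Patch.act (h.x0 hS o) (h.patch ha₁) = h.patch ha₂ := by
  rw [← h.sh2_eq ha 1 (fun _ _ => rfl) ha₁, ← h.sh2_eq ha 2 (fun _ _ => rfl) ha₂]
  refine Patch.act_crit _ 0 1 2 ?_
  rw [h.x0_eq, Patch.sh2, h.patch_comap]
  refine h.patch_sub _ _ (j := run ap l) (base_inj fun p hp => (valid_append.1 (v p hp)).1)
    (base_dom v) fun b => ?_
  cases b
  · exact fun _ _ => rfl
  · exact fun p _ => run_append ap l [o] p

theorem Lam.base_src (h : Lam S lam) {U : Set X} {l : List Op}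
    (ha : Adm S U fun b : Bool => cond b (run ap l) id)
    (ha' : Adm S U fun _ : Unit => (id : X → X)) : (h.patch ha).sheet false = h.patch ha' :=
  h.patch_comap _ _

theorem Lam.base_tgt (h : Lam S lam) {U V : Set X} {l : List Op}
    (ha : Adm S U fun b : Bool => cond b (run ap l) id)
    (ha' : Adm S V fun _ : Unit => (id : X → X)) (hUV : run ap l '' U ⊆ V) :
    ((h.patch ha).sheet true).Sub (h.patch ha') := by
  rw [Patch.sheet, h.patch_comap]
  exact h.patch_sub _ _ (j := run ap l) (ha.inj true) hUV fun _ _ _ => rfl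

theorem Lam.base_nil (h : Lam S lam) {U : Set X}
    (ha : Adm S U fun b : Bool => cond b (run ap []) id)
    (ha' : Adm S U fun _ : Unit => (id : X → X)) :
    h.patch ha = (h.patch ha').comap fun _ => () := by
  rw [h.patch_comap]
  refine h.base_congr _ _ fun b => ?_
  cases b <;> exact fun _ _ => rfl

theorem Lam.src_x0 (h : Lam S lam) (hS : Rich S) (o : Op) :
    (h.x0 hS o).sheet false = h.rho0 hS o.dom := by
  rw [h.x0_eq, h.rho0_eq]
  exact h.base_src _ _

theorem Lam.rho0_le_src (h : Lam S lam) (hS : Rich S) (o : Op) :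
    (h.rho0 hS o.dom).Sub ((h.x0 hS o).sheet false) := by
  rw [h.src_x0]
  exact Patch.Sub.refl _

theorem Lam.run_act (h : Lam S lam) (hS : Rich S) (T : Set Lab) (l : List Op) :
    ∀ (hl : l.length ≤ 6) (v : ∀ p ∈ labS T, Valid l p) (w : Patch h.env Bool),
      (w.sheet true).Sub (h.rho0 hS T) →
      run (fun o => Patch.act (h.x0 hS o)) l w = Patch.act (h.patch (hS.adm2 T l hl v)) w := by
  induction l using List.reverseRecOn with
  | nil =>
    intro hl v w hw
    rw [h.rho0_eq] at hw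
    rw [h.base_nil _ (hS.adm0 T), Patch.idw_act hw]
    rfl
  | append_singleton l o ih =>
    intro hl v w hw
    have hl' : l.length ≤ 6 := by
      rw [List.length_append] at hl
      omega
    have v' : ∀ p ∈ labS T, Valid l p := fun p hp => (valid_append.1 (v p hp)).1
    rw [run_append, ih hl' v' w hw, ← h.base_step hS v (hS.adm T _ _ hl' hl v' v)
      (hS.adm2 T l hl' v'), Patch.act_assoc]
    · rfl
    · rwa [h.base_src _ (hS.adm0 T), ← h.rho0_eq]
    · rw [h.src_x0, h.rho0_eq]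
      exact h.base_tgt _ _ (base_dom v)

theorem Lam.run_idw (h : Lam S lam) (hS : Rich S) (T : Set Lab) (l : List Op) (hl : l.length ≤ 6)
    (v : ∀ p ∈ labS T, Valid l p) :
    run (fun o => Patch.act (h.x0 hS o)) l ((h.rho0 hS T).comap fun _ => ()) =
      h.patch (hS.adm2 T l hl v) := by
  rw [h.run_act hS T l hl v _ (Patch.Sub.refl _), h.rho0_eq, ← h.base_src (hS.adm2 T l hl v),
    Patch.act_idw]

theorem Lam.run_x0 (h : Lam S lam) (hS : Rich S) (T : Set Lab) (l₁ l₂ : List Op)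
    (h₁ : l₁.length ≤ 6) (h₂ : l₂.length ≤ 6) (v₁ : ∀ p ∈ labS T, Valid l₁ p)
    (v₂ : ∀ p ∈ labS T, Valid l₂ p) :
    run (fun o => Patch.act (h.x0 hS o)) l₁ ((h.rho0 hS T).comap fun _ => ()) =
        (h.psi hS T l₁ l₂ h₁ h₂ v₁ v₂).sh2 0 1 ∧
      run (fun o => Patch.act (h.x0 hS o)) l₂ ((h.rho0 hS T).comap fun _ => ()) =
        (h.psi hS T l₁ l₂ h₁ h₂ v₁ v₂).sh2 0 2 :=
  ⟨(h.run_idw hS T l₁ h₁ v₁).trans (h.sh2_eq _ 1 (fun _ _ => rfl) _).symm,
    (h.run_idw hS T l₂ h₂ v₂).trans (h.sh2_eq _ 2 (fun _ _ => rfl) _).symm⟩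

theorem base_disj {T T' : Set Lab} (hd : Disjoint T T') : Disjoint (labS T) (labS T') :=
  hd.preimage X.lab

theorem Lam.rho0_empty (h : Lam S lam) (hS : Rich S) : h.rho0 hS ∅ = Patch.zero h.env Unit :=
  (h.rho0_eq hS ∅).trans (h.patch_empty (hS.adm0 ∅))

theorem Lam.rho0_orth (h : Lam S lam) (hS : Rich S) {T T' : Set Lab} (hd : Disjoint T T') :
    (h.rho0 hS T).Orth (h.rho0 hS T') := by
  rw [h.rho0_eq, h.rho0_eq]
  refine h.patch_orth _ _ ?_
  rw [Set.image_id, Set.image_id]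
  exact base_disj hd

theorem Lam.rho0_union (h : Lam S lam) (hS : Rich S) {T T' : Set Lab} (hd : Disjoint T T') :
    h.rho0 hS (T ∪ T') = (h.rho0 hS T).add (h.rho0 hS T') := by
  rw [h.rho0_eq, h.rho0_eq, h.rho0_eq]
  exact h.patch_add _ _ (hS.adm0 (T ∪ T')) (base_disj hd)

theorem Lam.base_axM (h : Lam S lam) (hS : Rich S) {l : Lab} {w : List Op} {T : Set Lab}
    (ha : AxM l w T) (v : Patch h.env Bool) (hv : (v.sheet true).Sub (h.rho0 hS {l})) :
    ((run (fun o => Patch.act (h.x0 hS o)) w v).sheet true).Sub (h.rho0 hS T) := by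
  have hw : ∀ p ∈ labS {l}, Valid w p := fun p hp => (ha.model hp).1
  rw [h.run_act hS {l} w ha.length_le hw v hv]
  refine (Patch.tgt_act ?_).trans ?_
  · rwa [h.base_src _ (hS.adm0 _), ← h.rho0_eq]
  · rw [h.rho0_eq]
    refine h.base_tgt _ _ ?_
    rintro _ ⟨p, hp, rfl⟩
    exact (ha.model hp).2

theorem Lam.base_axE (h : Lam S lam) (hS : Rich S) {l : Lab} {w w' : List Op}
    (ha : AxE l w w') (v : Patch h.env Bool) (hv : (v.sheet true).Sub (h.rho0 hS {l})) :
    run (fun o => Patch.act (h.x0 hS o)) w v = run (fun o => Patch.act (h.x0 hS o)) w' v := by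
  rw [h.run_act hS {l} w ha.length_le.1 (fun p hp => (ha.model hp).1) v hv,
    h.run_act hS {l} w' ha.length_le.2 (fun p hp => (ha.model hp).2.1) v hv]
  refine congrArg (Patch.act · v) (h.base_congr _ _ fun b => ?_)
  cases b
  · exact fun _ _ => rfl
  · exact fun p hp => (ha.model hp).2.2

/-- The level zero structure. -/
noncomputable def Lam.ls (h : Lam S lam) (hS : Rich S) : LS h.env.ql where
  ρ := ⟨h.rho0 hS, h.rho0_empty hS, h.rho0_orth hS, h.rho0_union hS⟩
  ap o := Patch.act (h.x0 hS o)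
  isOp o := ⟨h.x0 hS o, h.rho0_le_src hS o, fun _ _ => rfl⟩
  axM := h.base_axM hS
  axE := h.base_axE hS

theorem Lam.ls_univ (h : Lam S lam) (hS : Rich S) : (h.ls hS).ρ.ρ Set.univ = h.env.ql.one :=
  (h.rho0_eq hS Set.univ).trans (h.patch_univ (hS.adm0 Set.univ))

theorem rich_all : Rich (allS X) := fun _ _ _ _ _ v₁ v₂ => adm_all (base_inj3 v₁ v₂)

theorem Lam.patch_map (h : Lam S lam) (π : Γ →* Perm (X × Col)) (hπ : ∀ s ∈ S, π (lam s) = s)
    {R : Type} {U : Set X} {f : R → X → X} (ha : Adm S U f) (ha' : Adm (allS X) U f) :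
    (h.patch ha).map (h.hom π hπ) = (lam_all X).patch ha' :=
  Patch.ext (funext fun x => funext fun y => funext fun z => hπ _ (ha.mem x y z))

theorem base_adm1 (U : Set X) : Adm (allS X) U fun _ : Unit => (id : X → X) :=
  adm_all fun _ => Set.injOn_id U

theorem base_adm2 {U : Set X} {l : List Op} (v : ∀ p ∈ U, Valid l p) :
    Adm (allS X) U fun b : Bool => cond b (run ap l) id :=
  adm_all fun b => by
    cases b
    · exact Set.injOn_id U
    · exact base_inj v

theorem base_step_all {U : Set X} {l : List Op} {o : Op} (v : ∀ p ∈ U, Valid (l ++ [o]) p) :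
    Patch.act ((lam_all X).x0 rich_all o)
      ((lam_all X).patch (base_adm2 fun p hp => (valid_append.1 (v p hp)).1)) =
      (lam_all X).patch (base_adm2 v) :=
  (lam_all X).base_step rich_all v
    (adm_all (base_inj3 (fun p hp => (valid_append.1 (v p hp)).1) v)) _ _

theorem isRep_true :
    IsRep ((lam_all X).ls rich_all) fun U => (lam_all X).patch (base_adm1 U) where
  univ := (lam_all X).patch_univ _
  empty := (lam_all X).patch_empty _
  orth U V _ _ hd := (lam_all X).patch_orth _ _ (by rwa [Set.image_id, Set.image_id])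
  union U V _ _ hd := (lam_all X).patch_add _ _ _ hd
  lab T := ((lam_all X).rho0_eq rich_all T).symm
  img o U _ hU := by
    have v : ∀ p ∈ U, Valid ([] ++ [o]) p := fun p hp => ⟨hU hp, trivial⟩
    have e := base_step_all v
    rw [(lam_all X).base_nil _ (base_adm1 U)] at e
    refine (congrArg (·.sheet true) e).trans (((lam_all X).patch_comap _ _).trans ?_)
    exact (lam_all X).patch_eq _ _ (j := ap o) (base_inj v) rfl fun _ _ _ => rfl

theorem Lam.map_rho0 (h : Lam S lam) (hS : Rich S) (π : Γ →* Perm (X × Col))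
    (hπ : ∀ s ∈ S, π (lam s) = s) (T : Set Lab) :
    (h.rho0 hS T).map (h.hom π hπ) = (lam_all X).rho0 rich_all T := by
  rw [h.rho0_eq, (lam_all X).rho0_eq]
  exact h.patch_map π hπ _ _

theorem Lam.map_x0 (h : Lam S lam) (hS : Rich S) (π : Γ →* Perm (X × Col))
    (hπ : ∀ s ∈ S, π (lam s) = s) (o : Op) :
    (h.x0 hS o).map (h.hom π hπ) = (lam_all X).x0 rich_all o := by
  rw [h.x0_eq, (lam_all X).x0_eq]
  exact h.patch_map π hπ _ _

theorem Lam.rep_le_src (h : Lam S lam) (hS : Rich S) {ρ : Set X → h.env.ql.P}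
    (hρ : IsRep (h.ls hS) ρ) {U : Set X} (hU : IsClopen U) {o : Op} (hUo : U ⊆ labS o.dom) :
    Patch.Sub (ρ U) ((h.x0 hS o).sheet false) := by
  have h1 := hρ.mono hU (isClopen_labS o.dom) hUo
  rw [hρ.lab] at h1
  rw [h.src_x0]
  exact h1

theorem Lam.isRep_map (h : Lam S lam) (hS : Rich S) (π : Γ →* Perm (X × Col))
    (hπ : ∀ s ∈ S, π (lam s) = s) {ρ : Set X → h.env.ql.P} (hρ : IsRep (h.ls hS) ρ) :
    IsRep ((lam_all X).ls rich_all) fun U => Patch.map (h.hom π hπ) (ρ U) where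
  univ := (congrArg (Patch.map (h.hom π hπ)) hρ.univ).trans (Patch.map_one' _)
  empty := (congrArg (Patch.map (h.hom π hπ)) hρ.empty).trans
    (Patch.ext (funext fun _ => funext fun _ => funext fun _ => _root_.map_one π))
  orth U V hU hV hd := Patch.Orth.map _ (hρ.orth U V hU hV hd)
  union U V hU hV hd := (congrArg (Patch.map (h.hom π hπ)) (hρ.union U V hU hV hd)).trans
    (Patch.map_add' _ (hρ.orth U V hU hV hd))
  lab T := (congrArg (Patch.map (h.hom π hπ)) (hρ.lab T)).trans (h.map_rho0 hS π hπ T)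
  img o U hU hUo := by
    have e := Patch.map_act (h.hom π hπ) (x := h.x0 hS o) (w := Patch.comap (ρ U) fun _ => ())
      (h.rep_le_src hS hρ hU hUo)
    rw [h.map_x0] at e
    exact (congrArg (·.sheet true) e).symm.trans
      (congrArg (Patch.map (h.hom π hπ)) (hρ.img o U hU hUo))

theorem Lam.map_arr (h : Lam S lam) (hS : Rich S) (π : Γ →* Perm (X × Col))
    (hπ : ∀ s ∈ S, π (lam s) = s) {ρ : Set X → h.env.ql.P} (hρ : IsRep (h.ls hS) ρ)
    {U : Set X} (hU : IsClopen U) (l : List Op) : ∀ hl : ∀ p ∈ U, Valid l p,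
    Patch.map (h.hom π hπ) (arr (h.ls hS) ρ l U) = (lam_all X).patch (base_adm2 hl) := by
  induction l using List.reverseRecOn with
  | nil =>
    intro hl
    rw [(lam_all X).base_nil _ (base_adm1 U)]
    exact congrArg (Patch.comap · fun _ : Bool => ())
      ((h.isRep_map hS π hπ hρ).unique isRep_true hU)
  | append_singleton l o ih =>
    intro hl
    have hl' : ∀ p ∈ U, Valid l p := fun p hp => (valid_append.1 (hl p hp)).1
    have e : arr (h.ls hS) ρ (l ++ [o]) U = Patch.act (h.x0 hS o) (arr (h.ls hS) ρ l U) :=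
      run_append _ l [o] _
    have h1 : Patch.Sub (Patch.sheet (arr (h.ls hS) ρ l U) true) ((h.x0 hS o).sheet false) := by
      have h2 : Patch.sheet (arr (h.ls hS) ρ l U) true = ρ (run ap l '' U) := hρ.tgt_arr hU hl'
      rw [h2]
      exact h.rep_le_src hS hρ (isClopen_image_run hU hl') (base_dom hl)
    rw [e, Patch.map_act _ h1, h.map_x0, ih hl', base_step_all hl]

/-- Semantics: the projection of an arrow is the true arrow. -/
theorem Lam.proj_arr (h : Lam S lam) (hS : Rich S) (π : Γ →* Perm (X × Col))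
    (hπ : ∀ s ∈ S, π (lam s) = s) {ρ : Set X → h.env.ql.P} (hρ : IsRep (h.ls hS) ρ)
    {U : Set X} (hU : IsClopen U) {l : List Op} (hl : ∀ p ∈ U, Valid l p) (x y z : Col × Bool) :
    π ((arr (h.ls hS) ρ l U).φ x y z) = tp U (fun b => cond b (run ap l) id) x y z :=
  congrArg (fun Φ : Patch (lam_all X).env Bool => Φ.φ x y z) (h.map_arr hS π hπ hρ hU l hl)

/-- The finite set of generators. -/
def S0 : Set (Perm (X × Col)) :=
  {s | ∃ (T : Set Lab) (l₁ l₂ : List Op), l₁.length ≤ 6 ∧ l₂.length ≤ 6 ∧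
    (∀ p ∈ labS T, Valid l₁ p) ∧ (∀ p ∈ labS T, Valid l₂ p) ∧
    ∃ x y z, s = tp (labS T) (sheets3 l₁ l₂) x y z}

theorem finite_S0 : S0.Finite := by
  have h1 : ((Set.univ : Set (Set Lab)) ×ˢ {l : List Op | l.length ≤ 6} ×ˢ
      {l : List Op | l.length ≤ 6} ×ˢ
      (Set.univ : Set ((Col × Fin 3) × (Col × Fin 3) × (Col × Fin 3)))).Finite :=
    Set.finite_univ.prod ((List.finite_length_le Op 6).prod
      ((List.finite_length_le Op 6).prod Set.finite_univ))
  refine (h1.image fun t =>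
    tp (labS t.1) (sheets3 t.2.1 t.2.2.1) t.2.2.2.1 t.2.2.2.2.1 t.2.2.2.2.2).subset ?_
  rintro _ ⟨T, l₁, l₂, h₁, h₂, _, _, x, y, z, rfl⟩
  exact ⟨(T, l₁, l₂, x, y, z), ⟨trivial, h₁, h₂, trivial⟩, rfl⟩

/-- The short relations among the elements of a subset of a group. -/
def shortRels {G : Type} [Group G] (A : Set G) : Set (FreeGroup A) :=
  {r | ∃ a b c : A, a.1 * b.1 = c.1 ∧ r = .of a * .of b * (FreeGroup.of c)⁻¹} ∪
  {r | ∃ a b c : A, a.1 * b.1 * a.1⁻¹ = c.1 ∧
    r = .of a * .of b * (FreeGroup.of a)⁻¹ * (FreeGroup.of c)⁻¹}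

theorem exists_short {G : Type} [Group G] {A : Set G} (hA : A.Finite) :
    ∃ (Γ : Type) (_ : Group Γ) (lam : G → Γ) (π : Γ →* G), Group.IsFinitelyPresented Γ ∧
      (∀ a ∈ A, ∀ b ∈ A, a * b ∈ A → lam a * lam b = lam (a * b)) ∧
      (∀ a ∈ A, ∀ b ∈ A, a * b * a⁻¹ ∈ A → lam a * lam b * (lam a)⁻¹ = lam (a * b * a⁻¹)) ∧
      (∀ s ∈ A, π (lam s) = s) ∧ Subgroup.closure (lam '' A) = ⊤ := by
  classical
  have : Finite A := hA
  have : Finite (shortRels A) := by
    refine Set.Finite.union ?_ ?_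
    · refine (Set.finite_range fun t : A × A × A =>
        FreeGroup.of t.1 * .of t.2.1 * (FreeGroup.of t.2.2)⁻¹).subset ?_
      rintro _ ⟨a, b, c, _, rfl⟩
      exact ⟨(a, b, c), rfl⟩
    · refine (Set.finite_range fun t : A × A × A =>
        FreeGroup.of t.1 * .of t.2.1 * (FreeGroup.of t.1)⁻¹ * (FreeGroup.of t.2.2)⁻¹).subset ?_
      rintro _ ⟨a, b, c, _, rfl⟩
      exact ⟨(a, b, c), rfl⟩
  have hrel : ∀ r ∈ shortRels A, FreeGroup.lift (Subtype.val : A → G) r = 1 := by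
    rintro _ (⟨a, b, c, e, rfl⟩ | ⟨a, b, c, e, rfl⟩) <;> simp [e]
  refine ⟨PresentedGroup (shortRels A), inferInstance,
    fun s => if h : s ∈ A then PresentedGroup.of ⟨s, h⟩ else 1, PresentedGroup.toGroup hrel,
    inferInstance, fun a ha b hb hc => ?_, fun a ha b hb hc => ?_, fun s hs => ?_, ?_⟩
  · simp only [dif_pos ha, dif_pos hb, dif_pos hc]
    exact PresentedGroup.mk_eq_mk_of_mul_inv_mem (rels := shortRels A)
      (x := .of ⟨a, ha⟩ * .of ⟨b, hb⟩) (Or.inl ⟨_, _, ⟨_, hc⟩, rfl, rfl⟩)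
  · simp only [dif_pos ha, dif_pos hb, dif_pos hc]
    exact PresentedGroup.mk_eq_mk_of_mul_inv_mem (rels := shortRels A)
      (x := .of ⟨a, ha⟩ * .of ⟨b, hb⟩ * (FreeGroup.of ⟨a, ha⟩)⁻¹)
      (Or.inr ⟨_, _, ⟨_, hc⟩, rfl, rfl⟩)
  · simp only [dif_pos hs]
    exact PresentedGroup.toGroup.of hrel
  · rw [eq_top_iff, ← PresentedGroup.closure_range_of]
    refine Subgroup.closure_mono ?_
    rintro _ ⟨a, rfl⟩
    exact ⟨a.1, a.2, dif_pos a.2⟩

theorem exists_presented : ∃ (Γ : Type) (_ : Group Γ) (lam : Perm (X × Col) → Γ)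
    (π : Γ →* Perm (X × Col)), Group.IsFinitelyPresented Γ ∧ Lam S0 lam ∧
      (∀ s ∈ S0, π (lam s) = s) ∧ Subgroup.closure (lam '' S0) = ⊤ := by
  obtain ⟨Γ, _, lam, π, h1, h2, h3, h4, h5⟩ := exists_short finite_S0
  refine ⟨Γ, inferInstance, lam, π, h1, ⟨?_, ?_, fun x y z => ?_, h2, h3⟩, h4, h5⟩
  · refine ⟨∅, [], [], by simp, by simp, fun _ _ => trivial, fun _ _ => trivial,
      (0, 0), (0, 0), (0, 0), ?_⟩
    rw [tp, if_neg fun h => h.1 rfl]
  · rintro _ ⟨T, l₁, l₂, _, _, v₁, v₂, x, y, z, rfl⟩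
    exact (adm_all (base_inj3 v₁ v₂)).mem x y z
  · exact ⟨Set.univ, [], [], by simp, by simp, fun _ _ => trivial, fun _ _ => trivial,
      (x.1, 0), (y.1, 0), (z.1, 0), rfl⟩

theorem rich_S0 : Rich S0 := fun T l₁ l₂ h₁ h₂ v₁ v₂ =>
  ⟨base_inj3 v₁ v₂, fun x y z => ⟨T, l₁, l₂, h₁, h₂, v₁, v₂, x, y, z, rfl⟩⟩

end Vale.Agent.P196
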