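import Vale.Agent.P196.Tab

/-! The space `X` of hierarchical tilings and the crossing maps. -/

namespace Vale.Agent.P196

instance : TopologicalSpace Dart := ⊥
instance : DiscreteTopology Dart := ⟨rfl⟩

/-- Data of a tile: length of the chain of `al` roles above it, line of the tip, position. -/
@[ext] structure Dat where
  c : ℕ∞
  η : Dart
  d : ℕ∞

namespace Dat

instance : TopologicalSpace Dat := TopologicalSpace.induced (fun D => (D.c, D.η, D.d)) inferInstance

def th (D : Dat) : Th := if D.d = 0 then .z0 D.η else if D.d = 1 then Th.one D.η else .z2 D.η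

def lab (D : Dat) : Lab := (decide (D.c = 0), D.th)

def role (D : Dat) : Role := D.lab.role

def ch (r : Role) (D : Dat) : Dat :=
  match r with
  | .al => ⟨D.c + 1, D.η, D.d⟩
  | .be s => ⟨0, D.th.dA s, D.c + if D.th.fr = .be s then 1 else 0⟩
  | .ga s => ⟨0, D.role.Fd s, 0⟩

/-- Data of the image tile from the data of the tile and of its parent. -/
def op (o : Op) (D D₁ : Dat) : Dat :=
  match o with
  | .T => ⟨D.c, D.η.opp, D.d⟩
  | .X s => if D.η.side = s then
      (if D.d = 0 then ⟨D.c, D.η.top, 0⟩ else ⟨D.c + 1, D.η, D.d - 1⟩)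
    else ⟨D.c - 1, D.η, D.d + 1⟩
  | .S _ r => D₁.ch r

/-- Truncation at depth `n`. -/
noncomputable def tr (n : ℕ) (D : Dat) : Dat := ⟨min D.c n, D.η, min D.d n⟩

theorem th_η (D : Dat) : D.th.η = D.η := by
  unfold th
  split_ifs
  · rfl
  · generalize D.η = e; revert e; decide
  · rfl

theorem lab_ch (r : Role) (D : Dat) : (D.ch r).lab = D.lab.chl r := by
  obtain ⟨c, e, d⟩ := D
  have key : ∀ (f : Bool) (t : Th) (s : Bool), (Lab.role (f, t) = Role.al ↔ f = false) ∧
      (f = true → (Lab.role (f, t) = Role.be s ↔ t.fr = Role.be s)) ∧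
      (t.fr = Role.be s → Th.one (t.dA s) ≠ .z2 (t.dA s) → (t.dA s).kF = true) ∧
      (t.fr ≠ Role.be s → Th.one (t.dA s) = .z2 (t.dA s)) := by decide
  cases r with
  | al => simp [ch, lab, Lab.chl]; rfl
  | ga s => simp [ch, lab, th, Lab.chl, role]
  | be s =>
    generalize ht : th ⟨c, e, d⟩ = t
    have hk := key (decide (c = 0)) t s
    simp only [ch, lab, Lab.chl, ht, decide_true, Prod.mk.injEq, true_and]
    by_cases hc : c = 0
    · subst hc
      have h1 : Lab.role (true, t) ≠ Role.al := by simpa using (key true t s).1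
      have h2 := (key true t s).2.1 rfl
      by_cases hf : t.fr = Role.be s
      · simp [th, hf, h1, h2]
      · simp [th, hf, h1, h2]
    · have h1 : Lab.role (false, t) = Role.al := rfl
      simp only [hc, decide_false, h1, if_true]
      by_cases hf : t.fr = Role.be s
      · have : c + 1 ≠ 1 := by
          intro h; apply hc
          induction c using ENat.recTopCoe with
          | top => simp at h
          | coe n => norm_cast at h ⊢; omega
        simp [th, hf, this]
      · simp only [th, hf, if_false, add_zero, hc]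
        split_ifs
        · exact hk.2.2.2 hf
        · rfl

theorem role_ch (r : Role) (D : Dat) : (D.ch r).role = r := by
  unfold role
  rw [lab_ch]
  generalize D.lab = l
  revert r l
  decide

theorem role_eq_al {D : Dat} : D.role = .al ↔ D.c ≠ 0 := by
  have key : ∀ (f : Bool) (t : Th), Lab.role (f, t) = Role.al ↔ f = false := by decide
  unfold role lab
  rw [key]; simp

theorem role_of_c {D : Dat} (h : D.c = 0) : D.role = D.th.fr := by
  simp [role, lab, h, Lab.role]

theorem up_ch (s : Bool) (E : Dat) : (E.ch (.be s)).th.up = E.role.Fd s := by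
  have h : (E.ch (.be s)).th = (E.lab.chl (.be s)).2 := by rw [← lab_ch]; rfl
  rw [h]; unfold role
  clear h
  generalize E.lab = l
  revert s l
  decide

theorem enat_cases (d : ℕ∞) : d = 0 ∨ d = 1 ∨ d = 2 ∨
    (d ≠ 0 ∧ d ≠ 1 ∧ d - 1 ≠ 0 ∧ d - 1 ≠ 1) := by
  induction d using ENat.recTopCoe with
  | top => simp
  | coe n =>
    norm_cast
    omega

theorem enat_sub_add {c : ℕ∞} (h : c ≠ 0) : c - 1 + 1 = c := by
  induction c using ENat.recTopCoe with
  | top => simp
  | coe n => norm_cast at h ⊢; omega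

theorem enat_add_sub (c : ℕ∞) : c + 1 - 1 = c := by
  induction c using ENat.recTopCoe with
  | top => simp
  | coe n => norm_cast

theorem enat_add_ne {c : ℕ∞} (h : c ≠ 0) : c + 1 ≠ 1 := by
  induction c using ENat.recTopCoe with
  | top => simp
  | coe n => norm_cast at h ⊢; omega

theorem th_add_one (c c' : ℕ∞) (e : Dart) (d : ℕ∞) :
    th ⟨c', e, d + 1⟩ = (th ⟨c, e, d⟩).succ := by
  by_cases h0 : d = 0
  · subst h0; simp [th, Th.succ]
  · have h1 := enat_add_ne h0
    by_cases h2 : d = 1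
    · subst h2
      simp only [th, h1, if_false, if_true]
      have : (1 : ℕ∞) + 1 ≠ 0 := by simp
      simp only [this, if_false, one_ne_zero]
      revert e; decide
    · simp [th, h0, h1, h2, Th.succ]

theorem th_isZ0 (D : Dat) : D.th.isZ0 = true ↔ D.d = 0 := by
  unfold th
  split_ifs with h1 h2
  · simp [h1, Th.isZ0]
  · simp only [h1, iff_false]; generalize D.η = e; revert e; decide
  · simp [h1, Th.isZ0]

theorem ch_be_X (s : Bool) (D D₁ : Dat) (h : (Op.X s).ok D.role = true) :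
    (op (.X s) D D₁).ch (.be (!s)) = op .T (D.ch (.be s)) D := by
  obtain ⟨c, e, d⟩ := D
  by_cases hs : e.side = s
  · by_cases hd : d = 0
    · subst hd
      have key : ∀ e : Dart, ∀ s, e.side = s → Th.dA (!s) (.z0 e.top) = (Th.dA s (.z0 e)).opp ∧
          (Th.fr (.z0 e.top) = .be (!s) ↔ Th.fr (.z0 e) = .be s) := by decide
      simp [op, ch, hs, th, key e s hs]
    · have h1 := th_add_one c c e (d - 1)
      rw [enat_sub_add hd] at h1
      have h2 : (th ⟨c + 1, e, d - 1⟩) = th ⟨c, e, d - 1⟩ := rfl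
      have h3 := th_η ⟨c, e, d - 1⟩
      have key : ∀ t : Th, ∀ s, t.η.side = s → Th.dA (!s) t = (Th.dA s t.succ).opp ∧
          Th.fr t ≠ .be (!s) ∧ Th.fr t.succ = .be s := by decide
      have hk := key (th ⟨c, e, d - 1⟩) s (by rw [h3]; exact hs)
      simp [op, ch, hs, hd, h1, h2, hk.1, hk.2.1, hk.2.2]
  · have hc : c ≠ 0 := by
      intro hc
      have := role_of_c (D := ⟨c, e, d⟩) hc
      rw [this] at h
      have h3 := th_η ⟨c, e, d⟩
      have key : ∀ t : Th, ∀ s, (Op.X s).ok t.fr = true → t.η.side = s := by decide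
      exact hs (by have := key _ _ h; rwa [h3] at this)
    have h1 := th_add_one c (c - 1) e d
    have h3 := th_η ⟨c, e, d⟩
    have key : ∀ t : Th, ∀ s, t.η.side ≠ s → Th.dA (!s) t.succ = (Th.dA s t).opp ∧
          Th.fr t.succ = .be (!s) ∧ Th.fr t ≠ .be s := by decide
    have hk := key (th ⟨c, e, d⟩) s (by rw [h3]; exact hs)
    simp [op, ch, hs, h1, hk.1, hk.2.1, hk.2.2, enat_sub_add hc]

theorem ch_ne_al {r : Role} (h : r ≠ .al) (E : Dat) : (E.ch r).c = 0 ∧ (E.ch r).th.fr = r := by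
  have h1 : (E.ch r).c = 0 := by cases r <;> simp_all [ch]
  exact ⟨h1, by rw [← role_of_c h1, role_ch]⟩

theorem side_dA (s : Bool) (t : Th) : (t.dA s).side = s := by revert s t; decide

theorem side_Fd (r : Role) (s : Bool) : (r.Fd s).side = s := by revert r s; decide

theorem ch_of_c {D : Dat} (h : D.c = 0) (s : Bool) :
    D.ch (.be s) = ⟨0, D.th.dA s, if D.th.fr = .be s then 1 else 0⟩ := by
  simp [ch, h]

theorem op_T_be (s : Bool) (ρ : Role) (E : Dat) :
    op .T ((E.ch ρ).ch (.be s)) (E.ch ρ) =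
      (op (Op.T.cr (.be s) ρ).2 (E.ch ρ) E).ch (Op.T.cr (.be s) ρ).1 := by
  by_cases h : (Op.X s).ok ρ = true
  · have h1 : Op.T.cr (.be s) ρ = (.be (!s), .X s) := by revert s ρ; decide
    rw [h1, ch_be_X s _ _ (by rwa [role_ch])]
  · have h0 : ρ ≠ .al := by rintro rfl; exact h rfl
    have h1 : Op.T.cr (.be s) ρ = (.ga (!s), .S ρ ρ.fA) := by revert s ρ; decide
    obtain ⟨hc, hf⟩ := ch_ne_al h0 E
    rw [h1, ch_of_c hc]
    simp only [op]
    rw [ch, role_ch]
    generalize (E.ch ρ).th = t at hf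
    have key : ∀ (t : Th) (s : Bool), ¬ (Op.X s).ok t.fr = true →
        (t.dA s).opp = t.fr.fA.Fd (!s) ∧ t.fr ≠ .be s := by decide
    subst hf
    simp [key t s h]

theorem op_T_ga (s : Bool) (ρ : Role) (E : Dat) :
    op .T ((E.ch ρ).ch (.ga s)) (E.ch ρ) =
      (op (Op.T.cr (.ga s) ρ).2 (E.ch ρ) E).ch (Op.T.cr (.ga s) ρ).1 := by
  have key : ∀ (ρ : Role) (s : Bool), ∃ r', r' ≠ .al ∧ (Op.T.cr (.ga s) ρ).2 = .S ρ r' ∧
      (((Op.T.cr (.ga s) ρ).1 = .ga (!s) ∧ (ρ.Fd s).opp = r'.Fd (!s)) ∨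
       ((Op.T.cr (.ga s) ρ).1 = .be (!s) ∧ r' ≠ .be (!s) ∧
          ∀ t : Th, t.fr = r' → (ρ.Fd s).opp = t.dA (!s))) := by decide
  obtain ⟨r', h0, h1, h2⟩ := key ρ s
  obtain ⟨hc, hf⟩ := ch_ne_al h0 E
  rw [h1]
  simp only [op]
  rcases h2 with ⟨h2, h3⟩ | ⟨h2, h3, h4⟩
  · rw [h2, ch, ch, role_ch, role_ch, h3]
  · rw [h2, ch_of_c hc, ch, role_ch, h4 _ hf, hf, if_neg h3]

theorem op_X_al (s : Bool) (ρ : Role) (E : Dat) :
    op (.X s) ((E.ch ρ).ch .al) (E.ch ρ) =
      (op ((Op.X s).cr .al ρ).2 (E.ch ρ) E).ch ((Op.X s).cr .al ρ).1 := by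
  by_cases h : (Op.X s).ok ρ = true
  · have h1 : (Op.X s).cr .al ρ = (.al, .X s) := by revert s ρ; decide
    rw [h1]
    have hr := role_ch ρ E
    generalize E.ch ρ = D at hr
    by_cases hs : D.η.side = s
    · by_cases hd : D.d = 0 <;> simp [op, ch, hs, hd]
    · have hc : D.c ≠ 0 := by
        intro hc
        rw [role_of_c hc] at hr
        have key : ∀ t : Th, ∀ s, (Op.X s).ok t.fr = true → t.η.side = s := by decide
        exact hs (by have := key _ _ (hr ▸ h); rwa [th_η] at this)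
      simp [op, ch, hs, enat_sub_add hc, enat_add_sub]
  · have h1 : (Op.X s).cr .al ρ = (.be (!s), .S ρ ρ.fA) := by revert s ρ; decide
    have h2 : ρ = .be (!s) ∨ ρ = .ga (!s) := by revert s ρ; decide
    rw [h1]
    rcases h2 with rfl | rfl
    · have h3 : th ⟨E.c + 1, E.η, E.d⟩ = E.th := rfl
      simp [op, ch, side_dA, Role.fA, h3, add_right_comm]
    · obtain ⟨hc, hf⟩ := ch_ne_al (r := .be (!s)) (by simp) E
      have hu := up_ch (!s) E
      have hs : (E.ch (.be (!s))).th.side = !s := by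
        rw [Th.side, th_η]; exact side_dA _ _
      simp only [op, Role.fA]
      rw [ch_of_c hc, hf, Th.dA, hs, if_pos rfl, hu]
      simp [ch, side_Fd]

theorem op_X_be (s : Bool) (ρ : Role) (E : Dat) :
    op (.X s) ((E.ch ρ).ch (.be s)) (E.ch ρ) =
      (op ((Op.X s).cr (.be s) ρ).2 (E.ch ρ) E).ch ((Op.X s).cr (.be s) ρ).1 := by
  by_cases h0 : ρ = .al
  · subst h0
    have h3 : th ⟨E.c + 1, E.η, E.d⟩ = E.th := rfl
    simp only [Op.cr, Op.crossF, op, ch, h3, side_dA, if_true]
    rw [if_neg (by simp), add_right_comm, enat_add_sub]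
  · obtain ⟨hc, hf⟩ := ch_ne_al h0 E
    by_cases h1 : ρ = .be s
    · subst h1
      have hu := up_ch s E
      have hs : (E.ch (.be s)).th.side = s := by
        rw [Th.side, th_η]; exact side_dA _ _
      rw [ch_of_c hc, hf, Th.dA, hs, if_pos rfl, hu]
      simp [Op.cr, Op.crossF, op, ch, side_Fd]
    · have key : ∀ (ρ : Role) (s : Bool), ρ ≠ .al → ρ ≠ .be s → ∃ r', r' ≠ .al ∧ r' ≠ .be (!s) ∧
          (Op.X s).cr (.be s) ρ = (.be (!s), .S ρ r') ∧
          ∀ t t' : Th, t.fr = ρ → t'.fr = r' → (t.dA s).top = t'.dA (!s) := by decide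
      obtain ⟨r', h2, h3, h4, h5⟩ := key ρ s h0 h1
      obtain ⟨hc', hf'⟩ := ch_ne_al h2 E
      rw [h4, ch_of_c hc, hf, if_neg h1]
      simp only [op, side_dA, if_true]
      rw [ch_of_c hc', hf', if_neg h3, h5 _ _ hf hf']

theorem op_ch (o : Op) (r ρ : Role) (E : Dat) (h : o.ok r = true) :
    op o ((E.ch ρ).ch r) (E.ch ρ) =
      (op (o.cr r ρ).2 (E.ch ρ) E).ch (o.cr r ρ).1 := by
  cases o with
  | S a b => rfl
  | T =>
    cases r with
    | al => rfl
    | be s => exact op_T_be s ρ E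
    | ga s => exact op_T_ga s ρ E
  | X s =>
    cases r with
    | al => exact op_X_al s ρ E
    | be t =>
      obtain rfl : s = t := by simpa [Op.ok] using h
      exact op_X_be s ρ E
    | ga t =>
      obtain rfl : s = t := by simpa [Op.ok] using h
      have key : ∀ (r : Role) (s : Bool), (r.Fd s).top = r.Fd (!s) := by decide
      simp only [Op.cr, op]
      rw [ch, ch]
      simp [side_Fd, key]

end Dat

end Vale.Agent.P196
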