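import Vale.Agent.P196.Stab

namespace Vale.Agent.P196

open Equiv

variable {Y Γ : Type*} [Group Γ]

theorem ext_off {S : Set Y} (L : List Y) (h : (L.length : ℕ∞) < S.encard) : ∃ a ∈ S, a ∉ L := by
  by_contra hn
  push Not at hn
  have h1 : {a | a ∈ L}.encard ≤ L.length := by
    clear hn h
    induction L with
    | nil => simp
    | cons a L ih =>
      have : {x | x ∈ a :: L} = insert a {x | x ∈ L} := by ext; simp
      rw [this]
      refine (Set.encard_insert_le _ _).trans ?_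
      rw [List.length_cons, Nat.cast_succ]
      exact add_le_add ih le_rfl
  exact absurd ((Set.encard_le_encard hn).trans h1) (not_le.2 h)

theorem ext_gen {S : Set Y} (φ : Y → Y → Y → Γ) {x y z : Y} (hx : x ∈ S) (hy : y ∈ S) (hz : z ∈ S)
    (h : D3 x y z) : (φ x y z, c3 x y z) ∈ altL S φ :=
  Subgroup.subset_closure ⟨x, y, z, hx, hy, hz, h, rfl⟩

theorem ext_trans2 {S : Set Y} (φ : Y → Y → Y → Γ) (hS : 4 ≤ S.encard) {a b u v : Y} (ha : a ∈ S)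
    (hb : b ∈ S) (hu : u ∈ S) (hv : v ∈ S) (hab : a ≠ b) (huv : u ≠ v) :
    ∃ g ∈ altL S φ, g.2 a = u ∧ g.2 b = v := by
  obtain ⟨g, hg, h⟩ := altL_trans φ ![a, b] ![u, v] (List.nodup_ofFn.1 (by simpa using hab))
    (List.nodup_ofFn.1 (by simpa using huv)) (fun i => by fin_cases i <;> assumption)
    (fun i => by fin_cases i <;> assumption) (le_trans (by simp; norm_num) hS)
  exact ⟨g, hg, h 0, h 1⟩

theorem ext_comm_all {A : Set Y} {y y' : Y} {φ : Y → Y → Y → Γ} (hA : 8 ≤ A.encard) (hy : y ∉ A)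
    (hy' : y' ∉ A) (h1 : IsAlt (insert y A) φ) (h2 : IsAlt (insert y' A) φ)
    (hc : ∃ a₁ ∈ A, ∃ a₂ ∈ A, ∃ a₃ ∈ A, ∃ a₄ ∈ A, [a₁, a₂, a₃, a₄].Nodup ∧
      Commute (φ y a₁ a₂) (φ y' a₃ a₄)) :
    ∀ a₁ ∈ A, ∀ a₂ ∈ A, ∀ a₃ ∈ A, ∀ a₄ ∈ A, [a₁, a₂, a₃, a₄].Nodup →
      Commute (φ y a₁ a₂) (φ y' a₃ a₄) := by
  obtain ⟨b₁, g1, b₂, g2, b₃, g3, b₄, g4, hn, hc⟩ := hc
  intro a₁ k1 a₂ k2 a₃ k3 a₄ k4 hn'
  obtain ⟨g, hg, h⟩ := altL_trans φ ![b₁, b₂, b₃, b₄] ![a₁, a₂, a₃, a₄]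
    (List.nodup_ofFn.1 (by simpa using hn)) (List.nodup_ofFn.1 (by simpa using hn'))
    (fun i => by fin_cases i <;> assumption) (fun i => by fin_cases i <;> assumption)
    (le_trans (by simp; norm_num) hA)
  have act : ∀ {z : Y}, z ∉ A → IsAlt (insert z A) φ → ∀ {p q : Y}, p ∈ A → q ∈ A → p ≠ q →
      g.1 * φ z p q * g.1⁻¹ = φ z (g.2 p) (g.2 q) := by
    intro z hz hal p q hp hq hpq
    have := altL_act (S := A) (T := insert z A) (ψ := φ)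
      (fun x y z u v w hx hy hz hu hv hw => hal.conj (Or.inr hx) (Or.inr hy) (Or.inr hz) hu hv hw)
      (Set.subset_insert _ _) hg (Set.mem_insert _ _) (Or.inr hp) (Or.inr hq)
      ⟨fun e => hz (e ▸ hp), hpq, fun e => hz (e ▸ hq)⟩
    rwa [altL_fix hg hz] at this
  simp only [List.nodup_cons, List.mem_cons, not_or] at hn
  have e1 := act hy h1 g1 g2 hn.1.1
  have e2 := act hy' h2 g3 g4 hn.2.2.1.1
  rw [show g.2 b₁ = a₁ from h 0, show g.2 b₂ = a₂ from h 1] at e1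
  rw [show g.2 b₃ = a₃ from h 2, show g.2 b₄ = a₄ from h 3] at e2
  rw [← e1, ← e2]
  exact hc.map (MulAut.conj g.1)

theorem ext_M {A : Set Y} {y y' : Y} {φ : Y → Y → Y → Γ} (hA : 8 ≤ A.encard) (hy : y ∉ A)
    (hy' : y' ∉ A) (h1 : IsAlt (insert y A) φ) (h2 : IsAlt (insert y' A) φ)
    (hc : ∀ a₁ ∈ A, ∀ a₂ ∈ A, ∀ a₃ ∈ A, ∀ a₄ ∈ A, [a₁, a₂, a₃, a₄].Nodup →
      Commute (φ y a₁ a₂) (φ y' a₃ a₄)) :
    ∃ M : Y → Y → Γ, (∀ g ∈ altL (insert y A) φ, ∀ u ∈ insert y A, ∀ v ∈ insert y A, u ≠ v →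
        g.1 * M u v * g.1⁻¹ = M (g.2 u) (g.2 v)) ∧
      (∀ u ∈ A, ∀ v ∈ A, u ≠ v → M u v = φ y' u v) ∧
      (∀ a ∈ A, ∀ b ∈ A, a ≠ b → M y a = φ b y a * φ y' b a) ∧
      ∀ u ∈ insert y A, ∀ v ∈ insert y A, u ≠ v → M u v * M v u = 1 := by
  have hA' : 8 ≤ (insert y A).encard := hA.trans (Set.encard_le_encard (Set.subset_insert _ _))
  have ny : ∀ {a}, a ∈ A → a ≠ y := fun ha e => hy (e ▸ ha)
  have ny' : ∀ {a}, a ∈ A → a ≠ y' := fun ha e => hy' (e ▸ ha)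
  obtain ⟨a₀, ha₀, -⟩ := ext_off (S := A) [] (lt_of_lt_of_le (by simp) hA)
  obtain ⟨b₀, hb₀, hab⟩ := ext_off (S := A) [a₀] (lt_of_lt_of_le (by simp) hA)
  have hab : b₀ ≠ a₀ := by simpa using hab
  have ex : ∀ u v, u ∈ insert y A → v ∈ insert y A → u ≠ v →
      ∃ g ∈ altL (insert y A) φ, g.2 b₀ = u ∧ g.2 a₀ = v := fun u v hu hv huv =>
    ext_trans2 φ (le_trans (by norm_num) hA') (Or.inr hb₀) (Or.inr ha₀) hu hv hab huv
  choose! k hk1 hk2 hk3 using ex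
  have hcomm : ∀ x z w, x ∈ insert y A \ {b₀, a₀} → z ∈ insert y A \ {b₀, a₀} →
      w ∈ insert y A \ {b₀, a₀} → D3 x z w → Commute (φ y' b₀ a₀) (φ x z w) := by
    have key : ∀ z w, z ∈ insert y A \ {b₀, a₀} → w ∈ insert y A \ {b₀, a₀} → D3 y z w →
        Commute (φ y' b₀ a₀) (φ y z w) := by
      rintro z w ⟨hz, hz'⟩ ⟨hw, hw'⟩ h3
      simp only [Set.mem_insert_iff, Set.mem_singleton_iff, not_or] at hz' hw'
      refine (hc z (hz.resolve_left h3.1.symm) w (hw.resolve_left h3.2.2.symm) b₀ hb₀ a₀ ha₀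
        ?_).symm
      simp [h3.2.1, hz', hw', hab]
    intro x z w hx hz hw h3
    by_cases e1 : x = y
    · subst e1; exact key z w hz hw h3
    by_cases e2 : z = y
    · subst e2
      rw [h1.cyc hx.1 hz.1 hw.1 h3]
      exact key w x hw hx ⟨h3.2.1, h3.2.2.symm, h3.1.symm⟩
    by_cases e3 : w = y
    · subst e3
      rw [← h1.cyc hw.1 hx.1 hz.1 ⟨h3.2.2.symm, h3.1, h3.2.1.symm⟩]
      exact key x z hx hz ⟨h3.2.2.symm, h3.1, h3.2.1.symm⟩
    have f1 := hx.1.resolve_left e1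
    have f2 := hz.1.resolve_left e2
    have f3 := hw.1.resolve_left e3
    refine h2.commute (Or.inl rfl) (Or.inr hb₀) (Or.inr ha₀) (Or.inr f1) (Or.inr f2) (Or.inr f3)
      ⟨(ny' hb₀).symm, hab, (ny' ha₀).symm⟩ h3 ?_
    rw [Set.disjoint_right]
    rintro t (rfl | rfl | rfl) (e | e)
    exacts [ny' f1 e, hx.2 e, ny' f2 e, hz.2 e, ny' f3 e, hw.2 e]
  have h3 : 3 ≤ (insert y A \ {b₀, a₀}).encard := by
    have e1 := Set.encard_le_encard_sdiff_add_encard (insert y A) {b₀, a₀}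
    rw [Set.encard_pair hab] at e1
    by_contra hn
    have e2 := hA'.trans (e1.trans (add_le_add (not_le.1 hn).le le_rfl))
    norm_num at e2
  have W : ∀ g ∈ altL (insert y A) φ, (k (g.2 b₀) (g.2 a₀)).1 * φ y' b₀ a₀ *
      (k (g.2 b₀) (g.2 a₀)).1⁻¹ = g.1 * φ y' b₀ a₀ * g.1⁻¹ := by
    intro g hg
    have m1 := altL_mem hg (Or.inr hb₀)
    have m2 := altL_mem hg (Or.inr ha₀)
    have m3 : g.2 b₀ ≠ g.2 a₀ := g.2.injective.ne hab
    have := h1.stab_commute (F := {b₀, a₀}) (Set.toFinite _) h3 (le_trans (by norm_num) hA')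
      (Subgroup.mul_mem _ (Subgroup.inv_mem _ hg) (hk1 _ _ m1 m2 m3)) (by
        rintro t (rfl | rfl)
        · simp [hk2 _ _ m1 m2 m3]
        · simp [hk3 _ _ m1 m2 m3]) hcomm
    have e := this.eq
    simp only [Prod.fst_mul, Prod.fst_inv] at e
    calc (k (g.2 b₀) (g.2 a₀)).1 * φ y' b₀ a₀ * (k (g.2 b₀) (g.2 a₀)).1⁻¹
        = g.1 * (g.1⁻¹ * (k (g.2 b₀) (g.2 a₀)).1 * φ y' b₀ a₀) * (k (g.2 b₀) (g.2 a₀)).1⁻¹ := by
          group
      _ = g.1 * φ y' b₀ a₀ * g.1⁻¹ := by rw [← e]; group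
  have Ma : ∀ g ∈ altL (insert y A) φ, ∀ u ∈ insert y A, ∀ v ∈ insert y A, u ≠ v →
      g.1 * ((k u v).1 * φ y' b₀ a₀ * (k u v).1⁻¹) * g.1⁻¹ =
        (k (g.2 u) (g.2 v)).1 * φ y' b₀ a₀ * (k (g.2 u) (g.2 v)).1⁻¹ := by
    intro g hg u hu v hv huv
    have := W _ (Subgroup.mul_mem _ hg (hk1 u v hu hv huv))
    simp only [Prod.snd_mul, Perm.mul_apply, hk2 u v hu hv huv, hk3 u v hu hv huv,
      Prod.fst_mul] at this
    rw [this]
    group
  have Mb : ∀ u ∈ A, ∀ v ∈ A, u ≠ v → (k u v).1 * φ y' b₀ a₀ * (k u v).1⁻¹ = φ y' u v := by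
    intro u hu v hv huv
    obtain ⟨g, hg, e1, e2⟩ := ext_trans2 φ (le_trans (by norm_num) hA) hb₀ ha₀ hu hv hab huv
    have e3 := W g (altL_mono (Set.subset_insert _ _) hg)
    have e4 := altL_act (S := A) (T := insert y' A) (ψ := φ)
      (fun x y z u v w hx hy hz hu hv hw => h2.conj (Or.inr hx) (Or.inr hy) (Or.inr hz) hu hv hw)
      (Set.subset_insert _ _) hg (Set.mem_insert _ _) (Or.inr hb₀) (Or.inr ha₀)
      ⟨(ny' hb₀).symm, hab, (ny' ha₀).symm⟩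
    rw [altL_fix hg hy', ← e3, e1, e2] at e4
    exact e4
  refine ⟨fun u v => (k u v).1 * φ y' b₀ a₀ * (k u v).1⁻¹, Ma, Mb, fun a ha b hb hne => ?_,
    fun u hu v hv huv => ?_⟩
  · obtain ⟨b', hb', n1⟩ := ext_off (S := A) [a, b] (lt_of_lt_of_le (by simp; norm_num) hA)
    obtain ⟨c, hc', n2⟩ := ext_off (S := A) [a, b, b'] (lt_of_lt_of_le (by simp; norm_num) hA)
    simp only [List.mem_cons, List.not_mem_nil, or_false, not_or] at n1 n2
    have d1 : D3 b' y c := ⟨ny hb', (ny hc').symm, Ne.symm n2.2.2⟩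
    have e1 := Ma _ (ext_gen φ (Or.inr hb') (Or.inl rfl) (Or.inr hc') d1) b' (Or.inr hb') a
      (Or.inr ha) n1.1
    have f1 : c3 b' y c a = a := c3_other (Ne.symm n1.1) (ny ha) (Ne.symm n2.1)
    have f2 : c3 b' y c b = b := c3_other (Ne.symm n1.2) (ny hb) (Ne.symm n2.2.1)
    simp only [c3_fst d1, f1] at e1
    rw [Mb b' hb' a ha n1.1] at e1
    have e2 := h2.mul (Or.inr hb) (Or.inr hb') (Or.inr ha) (Or.inl rfl)
      ⟨Ne.symm n1.2, n1.1, hne.symm⟩ ⟨hne.symm, ny' ha, ny' hb⟩ (ny' hb')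
    rw [← h2.cyc (Or.inl rfl) (Or.inr hb) (Or.inr ha) ⟨(ny' hb).symm, hne.symm, (ny' ha).symm⟩,
      ← h2.cyc (Or.inl rfl) (Or.inr hb') (Or.inr ha) ⟨(ny' hb').symm, n1.1, (ny' ha).symm⟩] at e2
    have e3 := h1.conj (Or.inr hb') (Or.inl rfl) (Or.inr hc') (Or.inr hb) (Or.inr hb') (Or.inr ha)
      d1 ⟨Ne.symm n1.2, n1.1, hne.symm⟩
    rw [c3_fst d1, f1, f2] at e3
    have e4 := hc c hc' b' hb' b hb a ha (by simp [n1, n2, hne.symm])
    rw [← h1.cyc (Or.inr hb') (Or.inl rfl) (Or.inr hc') d1] at e4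
    change (k y a).1 * φ y' b₀ a₀ * (k y a).1⁻¹ = _
    rw [← e1, ← e2, ← e3]
    calc φ b' y c * (φ b b' a * φ y' b a) * (φ b' y c)⁻¹
        = φ b' y c * φ b b' a * (φ b' y c)⁻¹ * (φ b' y c * φ y' b a) * (φ b' y c)⁻¹ := by group
      _ = _ := by rw [e4.eq]; group
  · have e1 := Ma _ (hk1 u v hu hv huv) a₀ (Or.inr ha₀) b₀ (Or.inr hb₀) hab.symm
    rw [hk2 u v hu hv huv, hk3 u v hu hv huv, Mb a₀ ha₀ b₀ hb₀ hab.symm] at e1
    have e2 := h2.inv (Or.inl rfl) (Or.inr hb₀) (Or.inr ha₀)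
      ⟨(ny' hb₀).symm, hab, (ny' ha₀).symm⟩
    change (k u v).1 * φ y' b₀ a₀ * (k u v).1⁻¹ * ((k v u).1 * φ y' b₀ a₀ * (k v u).1⁻¹) = 1
    rw [← e1]
    calc (k u v).1 * φ y' b₀ a₀ * (k u v).1⁻¹ * ((k u v).1 * φ y' a₀ b₀ * (k u v).1⁻¹)
        = (k u v).1 * (φ y' b₀ a₀ * φ y' a₀ b₀) * (k u v).1⁻¹ := by group
      _ = 1 := by rw [e2]; group

theorem ext_act {S : Set Y} {y' : Y} {φ ψ : Y → Y → Y → Γ} {M : Y → Y → Γ} (hy' : y' ∉ S)
    (h1 : IsAlt S φ) (hP : ∀ u v w, u ∈ S → v ∈ S → w ∈ S → ψ u v w = φ u v w)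
    (hcyc : ∀ u v w, u ∈ insert y' S → v ∈ insert y' S → w ∈ insert y' S → D3 u v w →
      ψ u v w = ψ v w u)
    (hM : ∀ u ∈ S, ∀ v ∈ S, u ≠ v → ψ y' u v = M u v)
    (hMa : ∀ g ∈ altL S φ, ∀ u ∈ S, ∀ v ∈ S, u ≠ v → g.1 * M u v * g.1⁻¹ = M (g.2 u) (g.2 v))
    {g : Γ × Perm Y} (hg : g ∈ altL S φ) {u v w : Y} (hu : u ∈ insert y' S) (hv : v ∈ insert y' S)
    (hw : w ∈ insert y' S) (h3 : D3 u v w) :
    g.1 * ψ u v w * g.1⁻¹ = ψ (g.2 u) (g.2 v) (g.2 w) := by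
  have hm : ∀ {t}, t ∈ insert y' S → g.2 t ∈ insert y' S := by
    rintro t (rfl | ht)
    · exact Or.inl (altL_fix hg hy')
    · exact Or.inr (altL_mem hg ht)
  have key : ∀ v w, v ∈ insert y' S → w ∈ insert y' S → D3 y' v w →
      g.1 * ψ y' v w * g.1⁻¹ = ψ (g.2 y') (g.2 v) (g.2 w) := by
    intro v w hv hw h3
    have f1 := hv.resolve_left h3.1.symm
    have f2 := hw.resolve_left h3.2.2.symm
    rw [altL_fix hg hy', hM v f1 w f2 h3.2.1,
      hM _ (altL_mem hg f1) _ (altL_mem hg f2) (g.2.injective.ne h3.2.1)]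
    exact hMa g hg v f1 w f2 h3.2.1
  by_cases e1 : u = y'
  · subst e1; exact key v w hv hw h3
  by_cases e2 : v = y'
  · subst e2
    rw [hcyc _ _ _ hu hv hw h3, hcyc _ _ _ (hm hu) (hm hv) (hm hw) (h3.perm _)]
    exact key w u hw hu ⟨h3.2.1, h3.2.2.symm, h3.1.symm⟩
  by_cases e3 : w = y'
  · subst e3
    have h4 : D3 w u v := ⟨h3.2.2.symm, h3.1, h3.2.1.symm⟩
    rw [← hcyc _ _ _ hw hu hv h4, ← hcyc _ _ _ (hm hw) (hm hu) (hm hv) (h4.perm _)]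
    exact key u v hu hv h4
  have f1 := hu.resolve_left e1
  have f2 := hv.resolve_left e2
  have f3 := hw.resolve_left e3
  rw [hP _ _ _ f1 f2 f3, hP _ _ _ (altL_mem hg f1) (altL_mem hg f2) (altL_mem hg f3)]
  exact altL_act (fun x y z u v w hx hy hz hu hv hw => h1.conj hx hy hz hu hv hw) subset_rfl hg
    f1 f2 f3 h3

/-- One-one extension: two systems on `A ∪ {y}` and `A ∪ {y'}` (same function `φ`), with
commuting disjoint triples, extend to `A ∪ {y, y'}`. -/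
theorem ext_one {A : Set Y} {y y' : Y} {φ : Y → Y → Y → Γ} (hA : 8 ≤ A.encard) (hy : y ∉ A)
    (hy' : y' ∉ A) (hne : y ≠ y') (h1 : IsAlt (insert y A) φ) (h2 : IsAlt (insert y' A) φ)
    (hc : ∃ a₁ ∈ A, ∃ a₂ ∈ A, ∃ a₃ ∈ A, ∃ a₄ ∈ A, [a₁, a₂, a₃, a₄].Nodup ∧
      Commute (φ y a₁ a₂) (φ y' a₃ a₄)) :
    ∃ ψ : Y → Y → Y → Γ, IsAlt (insert y (insert y' A)) ψ ∧
      (∀ u v w, u ∈ insert y A → v ∈ insert y A → w ∈ insert y A → ψ u v w = φ u v w) ∧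
      (∀ u v w, u ∈ insert y' A → v ∈ insert y' A → w ∈ insert y' A → ψ u v w = φ u v w) := by
  classical
  have hc1 := ext_comm_all hA hy hy' h1 h2 hc
  obtain ⟨M, Ma, Mb, Mc, Md⟩ := ext_M hA hy hy' h1 h2 hc1
  obtain ⟨M', Ma', Mb', Mc', Md'⟩ := ext_M hA hy' hy h2 h1 fun a₁ g1 a₂ g2 a₃ g3 a₄ g4 hn =>
    (hc1 a₃ g3 a₄ g4 a₁ g1 a₂ g2 (by
      simp only [List.nodup_cons, List.mem_cons, List.not_mem_nil, or_false, not_or] at hn ⊢
      tauto)).symm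
  have ny : ∀ {a}, a ∈ A → a ≠ y := fun ha e => hy (e ▸ ha)
  have ny' : ∀ {a}, a ∈ A → a ≠ y' := fun ha e => hy' (e ▸ ha)
  have nS : y' ∉ insert y A := fun h => h.elim hne.symm hy'
  have nS' : y ∉ insert y' A := fun h => h.elim hne hy
  have hB : insert y' (insert y A) = insert y (insert y' A) := Set.insert_comm _ _ _
  let ψ : Y → Y → Y → Γ := fun u v w => if D3 u v w then
    (if u = y' then M v w else if v = y' then M w u else if w = y' then M u v else φ u v w)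
    else φ u v w
  have hP : ∀ u v w, u ∈ insert y A → v ∈ insert y A → w ∈ insert y A → ψ u v w = φ u v w := by
    intro u v w hu hv hw
    have e1 : u ≠ y' := fun e => nS (e ▸ hu)
    have e2 : v ≠ y' := fun e => nS (e ▸ hv)
    have e3 : w ≠ y' := fun e => nS (e ▸ hw)
    simp [ψ, e1, e2, e3]
  have hcyc : ∀ u v w, u ∈ insert y' (insert y A) → v ∈ insert y' (insert y A) →
      w ∈ insert y' (insert y A) → D3 u v w → ψ u v w = ψ v w u := by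
    intro u v w hu hv hw h3
    have h4 : D3 v w u := ⟨h3.2.1, h3.2.2.symm, h3.1.symm⟩
    by_cases e1 : u = y'
    · subst e1; simp [ψ, h3, h4, h3.1.symm, h3.2.2.symm]
    by_cases e2 : v = y'
    · subst e2; simp [ψ, h3, h4, e1]
    by_cases e3 : w = y'
    · subst e3; simp [ψ, h3, h4, e1, e2]
    simp only [ψ, h3, h4, e1, e2, e3, if_true, if_false]
    exact h1.cyc (hu.resolve_left e1) (hv.resolve_left e2) (hw.resolve_left e3) h3
  have hM : ∀ u ∈ insert y A, ∀ v ∈ insert y A, u ≠ v → ψ y' u v = M u v := by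
    intro u hu v hv huv
    have : D3 y' u v := ⟨fun e => nS (e ▸ hu), huv, fun e => nS (e ▸ hv)⟩
    simp [ψ, this]
  have hP' : ∀ u v w, u ∈ insert y' A → v ∈ insert y' A → w ∈ insert y' A →
      ψ u v w = φ u v w := by
    have key : ∀ v w, v ∈ insert y' A → w ∈ insert y' A → D3 y' v w → ψ y' v w = φ y' v w := by
      intro v w hv hw h3
      have f1 := hv.resolve_left h3.1.symm
      have f2 := hw.resolve_left h3.2.2.symm
      rw [hM v (Or.inr f1) w (Or.inr f2) h3.2.1, Mb v f1 w f2 h3.2.1]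
    have sub : ∀ {t}, t ∈ insert y' A → t ∈ insert y' (insert y A) := fun h => hB ▸ Or.inr h
    intro u v w hu hv hw
    by_cases h3 : D3 u v w
    swap
    · simp [ψ, h3]
    by_cases e1 : u = y'
    · subst e1; exact key v w hv hw h3
    by_cases e2 : v = y'
    · subst e2
      rw [hcyc _ _ _ (sub hu) (sub hv) (sub hw) h3, h2.cyc hu hv hw h3]
      exact key w u hw hu ⟨h3.2.1, h3.2.2.symm, h3.1.symm⟩
    by_cases e3 : w = y'
    · subst e3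
      have h4 : D3 w u v := ⟨h3.2.2.symm, h3.1, h3.2.1.symm⟩
      rw [← hcyc _ _ _ (sub hw) (sub hu) (sub hv) h4, ← h2.cyc hw hu hv h4]
      exact key u v hu hv h4
    simp [ψ, e1, e2, e3]
  have oth : ∀ a, ∃ b ∈ A, a ≠ b := fun a => by
    obtain ⟨b, hb, n⟩ := ext_off (S := A) [a] (lt_of_lt_of_le (by simp) hA)
    exact ⟨b, hb, fun e => n (by simp [e])⟩
  have hMM : ∀ a ∈ A, M y a * M' y' a = 1 := by
    intro a ha
    obtain ⟨b, hb, hab⟩ := oth a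
    rw [Mc a ha b hb hab, Mc' a ha b hb hab]
    have e1 := h2.inv (Or.inl rfl) (Or.inr hb) (Or.inr ha) ⟨(ny' hb).symm, hab.symm, (ny' ha).symm⟩
    have e2 := h1.inv (Or.inl rfl) (Or.inr ha) (Or.inr hb) ⟨(ny ha).symm, hab, (ny hb).symm⟩
    rw [h2.cyc (Or.inr hb) (Or.inl rfl) (Or.inr ha) ⟨ny' hb, (ny' ha).symm, hab.symm⟩,
      h1.cyc (Or.inr hb) (Or.inl rfl) (Or.inr ha) ⟨ny hb, (ny ha).symm, hab.symm⟩]
    calc φ y a b * φ y' b a * (φ y' a b * φ y b a)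
        = φ y a b * (φ y' b a * φ y' a b) * φ y b a := by group
      _ = 1 := by rw [e1, mul_one, e2]
  have hM' : ∀ u ∈ insert y' A, ∀ v ∈ insert y' A, u ≠ v → ψ y u v = M' u v := by
    rintro u (rfl | hu) v (rfl | hv) huv
    · exact absurd rfl huv
    · have h3 : D3 y u v := ⟨hne, huv, (ny hv).symm⟩
      have e1 : ψ y u v = M v y := by simp [ψ, h3, hne]
      rw [e1, eq_inv_of_mul_eq_one_left (Md v (Or.inr hv) y (Or.inl rfl) (ny hv)),
        eq_inv_of_mul_eq_one_right (hMM v hv)]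
    · have h3 : D3 y u v := ⟨(ny hu).symm, huv, hne⟩
      have e1 : ψ y u v = M y u := by simp [ψ, h3, hne, huv]
      rw [e1, eq_inv_of_mul_eq_one_left (Md' u (Or.inr hu) v (Or.inl rfl) huv),
        eq_inv_of_mul_eq_one_left (hMM u hu)]
    · rw [hP _ _ _ (Or.inl rfl) (Or.inr hu) (Or.inr hv), Mb' u hu v hv huv]
  have act1 := fun g hg u v w => ext_act (g := g) (u := u) (v := v) (w := w) nS h1 hP hcyc hM Ma hg
  have act2 := fun g hg u v w => ext_act (g := g) (u := u) (v := v) (w := w) nS' h2 hP'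
    (hB ▸ hcyc) hM' Ma' hg
  rw [hB] at act1 hcyc
  let Q : Γ → Perm Y → Prop := fun g π => ∀ u v w, u ∈ insert y (insert y' A) →
    v ∈ insert y (insert y' A) → w ∈ insert y (insert y' A) → D3 u v w →
    g * ψ u v w * g⁻¹ = ψ (π u) (π v) (π w)
  have subA : ∀ {t}, t ∈ A → t ∈ insert y (insert y' A) := fun h => Or.inr (Or.inr h)
  have Q1 : ∀ u v w, u ∈ insert y A → v ∈ insert y A → w ∈ insert y A → D3 u v w →
      Q (φ u v w) (c3 u v w) := fun u v w hu hv hw h3 => act1 _ (ext_gen φ hu hv hw h3)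
  have Q2 : ∀ u v w, u ∈ insert y' A → v ∈ insert y' A → w ∈ insert y' A → D3 u v w →
      Q (φ u v w) (c3 u v w) := fun u v w hu hv hw h3 => act2 _ (ext_gen φ hu hv hw h3)
  have Qmul : ∀ {g g' π} {p q r : Y}, p ∈ insert y (insert y' A) → q ∈ insert y (insert y' A) →
      r ∈ insert y (insert y' A) → Q g π → Q g' (c3 p q r) → Q (g * g') (π * c3 p q r) := by
    intro g g' π p q r hp hq hr k1 k2 u v w hu hv hw h3
    have := k1 _ _ _ (c3_mem hp hq hr hu) (c3_mem hp hq hr hv) (c3_mem hp hq hr hw) (h3.perm _)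
    rw [← k2 u v w hu hv hw h3] at this
    simp only [Perm.mul_apply]
    rw [← this]
    group
  have cm : ∀ {p q a b : Y}, D3 b p a → D3 q b a → p ≠ q → c3 b p a * c3 q b a = c3 q p a := by
    intro p q a b d1 d2 hpq
    have := isAlt_c3.mul (x := b) (b := p) (c := a) (v := q) trivial trivial trivial trivial d1
      ⟨d2.2.1, d2.2.2.symm, d2.1.symm⟩ hpq
    rwa [← c3_cyc d2, ← c3_cyc ⟨hpq.symm, d1.2.1, d2.2.2⟩] at this
  have Qy' : ∀ v w, v ∈ insert y A → w ∈ insert y A → v ≠ w → Q (ψ y' v w) (c3 y' v w) := by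
    rintro v w (rfl | hv) (rfl | hw) hvw
    · exact absurd rfl hvw
    · obtain ⟨b, hb, hab⟩ := oth w
      have d1 : D3 b v w := ⟨ny hb, hvw, hab.symm⟩
      have d2 : D3 y' b w := ⟨(ny' hb).symm, hab.symm, (ny' hw).symm⟩
      rw [hM _ (Or.inl rfl) _ (Or.inr hw) hvw, Mc w hw b hb hab, ← cm d1 d2 hne]
      exact Qmul (Or.inr (Or.inl rfl)) (subA hb) (subA hw)
        (Q1 _ _ _ (Or.inr hb) (Or.inl rfl) (Or.inr hw) d1)
        (Q2 _ _ _ (Or.inl rfl) (Or.inr hb) (Or.inr hw) d2)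
    · obtain ⟨b, hb, hab⟩ := oth v
      have d0 : D3 w y' v := ⟨hne, (ny' hv).symm, hvw.symm⟩
      have d1 : D3 b y' v := ⟨ny' hb, (ny' hv).symm, hab.symm⟩
      have d2 : D3 w b v := ⟨(ny hb).symm, hab.symm, hvw.symm⟩
      rw [← hcyc _ _ _ (Or.inl rfl) (Or.inr (Or.inl rfl)) (subA hv) d0, ← c3_cyc d0,
        hM' _ (Or.inl rfl) _ (Or.inr hv) (ny' hv).symm, Mc' v hv b hb hab, ← cm d1 d2 hne.symm]
      exact Qmul (Or.inl rfl) (subA hb) (subA hv)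
        (Q2 _ _ _ (Or.inr hb) (Or.inl rfl) (Or.inr hv) d1)
        (Q1 _ _ _ (Or.inl rfl) (Or.inr hb) (Or.inr hv) d2)
    · rw [hP' _ _ _ (Or.inl rfl) (Or.inr hv) (Or.inr hw)]
      exact Q2 _ _ _ (Or.inl rfl) (Or.inr hv) (Or.inr hw) ⟨(ny' hv).symm, hvw, (ny' hw).symm⟩
  have Qall : ∀ u v w, u ∈ insert y (insert y' A) → v ∈ insert y (insert y' A) →
      w ∈ insert y (insert y' A) → D3 u v w → Q (ψ u v w) (c3 u v w) := by
    intro u v w hu hv hw h3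
    have res : ∀ {t}, t ∈ insert y (insert y' A) → t ≠ y' → t ∈ insert y A := fun h e =>
      (show _ ∈ insert y' (insert y A) from hB ▸ h).resolve_left e
    by_cases e1 : u = y'
    · subst e1; exact Qy' v w (res hv h3.1.symm) (res hw h3.2.2.symm) h3.2.1
    by_cases e2 : v = y'
    · subst e2
      rw [hcyc _ _ _ hu hv hw h3, c3_cyc h3]
      exact Qy' w u (res hw h3.2.1.symm) (res hu e1) h3.2.2.symm
    by_cases e3 : w = y'
    · subst e3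
      have h4 : D3 w u v := ⟨h3.2.2.symm, h3.1, h3.2.1.symm⟩
      rw [← hcyc _ _ _ hw hu hv h4, ← c3_cyc h4]
      exact Qy' u v (res hu e1) (res hv e2) h3.1
    rw [hP _ _ _ (res hu e1) (res hv e2) (res hw e3)]
    exact Q1 _ _ _ (res hu e1) (res hv e2) (res hw e3) h3
  refine ⟨ψ, IsAlt.of_no_inv ((le_trans (by norm_num) hA).trans
    (Set.encard_le_encard fun _ => subA)) (fun x y z => hcyc x y z)
    (fun x y z u v w hx hy hz hu hv hw d1 d2 => Qall x y z hx hy hz d1 u v w hu hv hw d2)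
    fun x b c v hx hb hc hv d1 d2 hbv => ?_, hP, hP'⟩
  obtain ⟨q, hq, n1⟩ := ext_off (S := A) [x, b, c, v] (lt_of_lt_of_le (by simp; norm_num) hA)
  obtain ⟨p, hp, n2⟩ := ext_off (S := A) [q] (lt_of_lt_of_le (by simp) hA)
  simp only [List.mem_cons, List.not_mem_nil, or_false, not_or] at n1 n2
  have d0 : D3 y p q := ⟨(ny hp).symm, n2, (ny hq).symm⟩
  have k := Q1 _ _ _ (Or.inl rfl) (Or.inr hp) (Or.inr hq) d0
  have hm : ∀ {t}, t ∈ insert y (insert y' A) → q ≠ t → c3 y p q t ∈ insert y' A := fun ht e =>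
    (c3_mem (x := y) (y := p) (z := q) (Or.inl rfl) (subA hp) (subA hq) ht).resolve_left fun e' =>
      e ((c3 y p q).injective ((c3_thd d0).trans e'.symm))
  have m1 := hm hx n1.1
  have m2 := hm hb n1.2.1
  have m3 := hm hc n1.2.2.1
  have m4 := hm hv n1.2.2.2
  have e := h2.mul m1 m2 m3 m4 (d1.perm _) (d2.perm _) ((c3 y p q).injective.ne hbv)
  rw [← hP' _ _ _ m1 m2 m3, ← hP' _ _ _ m1 m3 m4, ← hP' _ _ _ m2 m3 m4, ← k _ _ _ hx hb hc d1,
    ← k _ _ _ hx hc hv d2, ← k _ _ _ hb hc hv ⟨d1.2.1, d2.2.1, hbv⟩] at e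
  calc ψ x b c * ψ x c v = (φ y p q)⁻¹ * (φ y p q * ψ x b c * (φ y p q)⁻¹ *
        (φ y p q * ψ x c v * (φ y p q)⁻¹)) * φ y p q := by group
    _ = ψ b c v := by rw [e]; group

theorem ext4_congr {Z : Set Y} {φ ψ : Y → Y → Y → Γ} {a w x y u : Y} (ha : a ∈ Z) (hw : w ∈ Z)
    (haw : a ≠ w) (ha' : a ∉ ({x, y, u} : Set Y)) (hw' : w ∉ ({x, y, u} : Set Y))
    (h : ∀ t ∈ ({x, y, u} : Set Y), ∀ p q r, p ∈ insert t Z → q ∈ insert t Z → r ∈ insert t Z →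
      D3 p q r → ψ p q r = φ p q r) : ext4 ψ a w x y u = ext4 φ a w x y u := by
  have k1 : ∀ t ∈ ({x, y, u} : Set Y), ψ a t w = φ a t w := fun t ht =>
    h t ht _ _ _ (Or.inr ha) (Or.inl rfl) (Or.inr hw)
      ⟨fun e => ha' (e ▸ ht), fun e => hw' (e ▸ ht), haw⟩
  have k2 : ∀ t ∈ ({x, y, u} : Set Y), ψ t a w = φ t a w := fun t ht =>
    h t ht _ _ _ (Or.inl rfl) (Or.inr ha) (Or.inr hw)
      ⟨fun e => ha' (e ▸ ht), haw, fun e => hw' (e ▸ ht)⟩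
  rw [ext4, ext4, k1 y (by simp), k1 u (by simp), k2 x (by simp), k2 y (by simp)]

theorem ext_uniq {S Z : Set Y} {φ ψ : Y → Y → Y → Γ} (hZ : 8 ≤ Z.encard) (hS : Z ⊆ S)
    (h1 : IsAlt S φ) (h2 : IsAlt S ψ)
    (h : ∀ t ∈ S, ∀ p q r, p ∈ insert t Z → q ∈ insert t Z → r ∈ insert t Z →
      D3 p q r → ψ p q r = φ p q r) {x y u : Y} (hx : x ∈ S) (hy : y ∈ S) (hu : u ∈ S)
    (h3 : D3 x y u) : ψ x y u = φ x y u := by
  obtain ⟨a, ha, n1⟩ := ext_off (S := Z) [x, y, u] (lt_of_lt_of_le (by simp; norm_num) hZ)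
  obtain ⟨w, hw, n2⟩ := ext_off (S := Z) [a, x, y, u] (lt_of_lt_of_le (by simp; norm_num) hZ)
  rw [List.mem_cons, not_or] at n2
  have ha' : a ∉ ({x, y, u} : Set Y) := by simpa using n1
  have hw' : w ∉ ({x, y, u} : Set Y) := by simpa using n2.2
  rw [h1.decomp (hS ha) (hS hw) hx hy hu h3 (Ne.symm n2.1) ha' hw',
    h2.decomp (hS ha) (hS hw) hx hy hu h3 (Ne.symm n2.1) ha' hw']
  refine ext4_congr ha hw (Ne.symm n2.1) ha' hw' fun t ht => h t ?_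
  rcases ht with rfl | rfl | rfl <;> assumption

theorem ext_fin_aux {Z : Set Y} {φ : Y → Y → Y → Γ} (hZ : 8 ≤ Z.encard) (h0 : IsAlt Z φ) (n : ℕ) :
    ∀ T : Set Y, T.Finite → T.ncard = n → (∀ y ∈ T, y ∉ Z) → (∀ y ∈ T, IsAlt (insert y Z) φ) →
    (∀ y ∈ T, ∀ y' ∈ T, y ≠ y' → ∃ a₁ ∈ Z, ∃ a₂ ∈ Z, ∃ a₃ ∈ Z, ∃ a₄ ∈ Z,
      [a₁, a₂, a₃, a₄].Nodup ∧ Commute (φ y a₁ a₂) (φ y' a₃ a₄)) →
    ∃ ψ : Y → Y → Y → Γ, IsAlt (T ∪ Z) ψ ∧ ∀ t ∈ T ∪ Z, ∀ u v w, u ∈ insert t Z →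
      v ∈ insert t Z → w ∈ insert t Z → D3 u v w → ψ u v w = φ u v w := by
  classical
  induction n using Nat.strong_induction_on with
  | h n ih =>
  intro T hT hn hd h1 hc
  by_cases hs : T.Subsingleton
  · refine ⟨φ, ?_, fun _ _ _ _ _ _ _ _ _ => rfl⟩
    rcases hs.eq_empty_or_singleton with rfl | ⟨y, rfl⟩
    · simpa using h0
    · exact h1 y rfl
  obtain ⟨y, hy, y', hy', hne⟩ := Set.not_subsingleton_iff.1 hs
  have sub := fun t (ht : t ∈ T) => ih _ (hn ▸ Set.ncard_sdiff_singleton_lt_of_mem ht hT) (T \ {t})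
    (hT.subset Set.sdiff_subset) rfl (fun y hy => hd y hy.1) (fun y hy => h1 y hy.1)
    fun y hy y' hy' => hc y hy.1 y' hy'.1
  obtain ⟨ψ₁, a1, b1⟩ := sub y' hy'
  obtain ⟨ψ₂, a2, b2⟩ := sub y hy
  have s1 : insert y (T \ {y, y'} ∪ Z) = T \ {y'} ∪ Z := by
    ext t; simp only [Set.mem_insert_iff, Set.mem_union, Set.mem_sdiff, Set.mem_singleton_iff]
    by_cases e : t = y
    · subst e; tauto
    · tauto
  have s2 : insert y' (T \ {y, y'} ∪ Z) = T \ {y} ∪ Z := by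
    ext t; simp only [Set.mem_insert_iff, Set.mem_union, Set.mem_sdiff, Set.mem_singleton_iff]
    by_cases e : t = y'
    · subst e; tauto
    · tauto
  have s3 : insert y (T \ {y} ∪ Z) = T ∪ Z := by
    ext t; simp only [Set.mem_insert_iff, Set.mem_union, Set.mem_sdiff, Set.mem_singleton_iff]
    by_cases e : t = y
    · subst e; tauto
    · tauto
  have u1 : T \ {y, y'} ∪ Z ⊆ T \ {y'} ∪ Z := s1 ▸ Set.subset_insert _ _
  have u2 : T \ {y, y'} ∪ Z ⊆ T \ {y} ∪ Z := s2 ▸ Set.subset_insert _ _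
  let χ : Y → Y → Y → Γ := fun u v w =>
    if u ∈ T \ {y'} ∪ Z ∧ v ∈ T \ {y'} ∪ Z ∧ w ∈ T \ {y'} ∪ Z then ψ₁ u v w else ψ₂ u v w
  have c1 : ∀ u v w, u ∈ T \ {y'} ∪ Z → v ∈ T \ {y'} ∪ Z → w ∈ T \ {y'} ∪ Z →
      χ u v w = ψ₁ u v w := fun u v w hu hv hw => if_pos ⟨hu, hv, hw⟩
  have c2 : ∀ u v w, u ∈ T \ {y} ∪ Z → v ∈ T \ {y} ∪ Z → w ∈ T \ {y} ∪ Z → D3 u v w →
      χ u v w = ψ₂ u v w := by
    intro u v w hu hv hw h3
    by_cases hh : u ∈ T \ {y'} ∪ Z ∧ v ∈ T \ {y'} ∪ Z ∧ w ∈ T \ {y'} ∪ Z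
    · have m : ∀ {t}, t ∈ T \ {y} ∪ Z → t ∈ T \ {y'} ∪ Z → t ∈ T \ {y, y'} ∪ Z := by
        intro t
        simp only [Set.mem_insert_iff, Set.mem_union, Set.mem_sdiff, Set.mem_singleton_iff]
        tauto
      rw [c1 _ _ _ hh.1 hh.2.1 hh.2.2]
      exact ext_uniq hZ Set.subset_union_right (a2.mono u2) (a1.mono u1)
        (fun t ht p q r hp hq hr d => (b1 t (u1 ht) p q r hp hq hr d).trans
          (b2 t (u2 ht) p q r hp hq hr d).symm) (m hu hh.1) (m hv hh.2.1) (m hw hh.2.2) h3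
    · exact if_neg hh
  have i1 : ∀ t ∈ T \ {y'} ∪ Z, ∀ u v w, u ∈ insert t Z → v ∈ insert t Z → w ∈ insert t Z →
      D3 u v w → χ u v w = φ u v w := fun t ht u v w hu hv hw d => by
    have m : insert t Z ⊆ T \ {y'} ∪ Z := Set.insert_subset ht Set.subset_union_right
    rw [c1 _ _ _ (m hu) (m hv) (m hw), b1 t ht u v w hu hv hw d]
  have i2 : ∀ t ∈ T \ {y} ∪ Z, ∀ u v w, u ∈ insert t Z → v ∈ insert t Z → w ∈ insert t Z →
      D3 u v w → χ u v w = φ u v w := fun t ht u v w hu hv hw d => by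
    have m : insert t Z ⊆ T \ {y} ∪ Z := Set.insert_subset ht Set.subset_union_right
    rw [c2 _ _ _ (m hu) (m hv) (m hw) d, b2 t ht u v w hu hv hw d]
  obtain ⟨ψ, p1, p2, p3⟩ := ext_one (A := T \ {y, y'} ∪ Z) (φ := χ)
    (hZ.trans (Set.encard_le_encard Set.subset_union_right))
    (fun h => h.elim (fun h => h.2 (Or.inl rfl)) (hd y hy))
    (fun h => h.elim (fun h => h.2 (Or.inr rfl)) (hd y' hy')) hne
    (s1 ▸ a1.congr fun u v w hu hv hw _ => (c1 u v w hu hv hw).symm)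
    (s2 ▸ a2.congr fun u v w hu hv hw d => (c2 u v w hu hv hw d).symm) (by
      obtain ⟨a₁, g1, a₂, g2, a₃, g3, a₄, g4, hnd, hcm⟩ := hc y hy y' hy' hne
      refine ⟨a₁, Or.inr g1, a₂, Or.inr g2, a₃, Or.inr g3, a₄, Or.inr g4, hnd, ?_⟩
      simp only [List.nodup_cons, List.mem_cons, not_or] at hnd
      rwa [i1 y (Or.inl ⟨hy, hne⟩) _ _ _ (Or.inl rfl) (Or.inr g1) (Or.inr g2)
          ⟨fun e => hd y hy (e ▸ g1), hnd.1.1, fun e => hd y hy (e ▸ g2)⟩,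
        i2 y' (Or.inl ⟨hy', hne.symm⟩) _ _ _ (Or.inl rfl) (Or.inr g3) (Or.inr g4)
          ⟨fun e => hd y' hy' (e ▸ g3), hnd.2.2.1.1, fun e => hd y' hy' (e ▸ g4)⟩])
  rw [s2, s3] at p1
  rw [s1] at p2
  rw [s2] at p3
  refine ⟨ψ, p1, fun t ht u v w hu hv hw d => ?_⟩
  rw [← s3] at ht
  rcases ht with rfl | ht
  · have ht : t ∈ T \ {y'} ∪ Z := Or.inl ⟨hy, hne⟩
    have m : insert t Z ⊆ T \ {y'} ∪ Z := Set.insert_subset ht Set.subset_union_right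
    rw [p2 _ _ _ (m hu) (m hv) (m hw), i1 t ht u v w hu hv hw d]
  · have m : insert t Z ⊆ T \ {y} ∪ Z := Set.insert_subset ht Set.subset_union_right
    rw [p3 _ _ _ (m hu) (m hv) (m hw), i2 t ht u v w hu hv hw d]

/-- Extension to finitely many new points. -/
theorem ext_fin {Z T : Set Y} {φ : Y → Y → Y → Γ} (hZ : 8 ≤ Z.encard) (hT : T.Finite)
    (h0 : IsAlt Z φ) (h1 : ∀ y ∈ T, IsAlt (insert y Z) φ)
    (hc : ∀ y ∈ T \ Z, ∀ y' ∈ T \ Z, y ≠ y' → ∃ a₁ ∈ Z, ∃ a₂ ∈ Z, ∃ a₃ ∈ Z, ∃ a₄ ∈ Z,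
      [a₁, a₂, a₃, a₄].Nodup ∧ Commute (φ y a₁ a₂) (φ y' a₃ a₄)) :
    ∃ ψ : Y → Y → Y → Γ, IsAlt (T ∪ Z) ψ ∧ (∀ u ∈ Z, ∀ v ∈ Z, ∀ w ∈ Z, ψ u v w = φ u v w) ∧
      ∀ y ∈ T, ∀ u v w, u ∈ insert y Z → v ∈ insert y Z → w ∈ insert y Z →
        ψ u v w = φ u v w := by
  classical
  obtain ⟨ψ, a, b⟩ := ext_fin_aux hZ h0 _ (T \ Z) (hT.subset Set.sdiff_subset) rfl
    (fun y hy => hy.2) (fun y hy => h1 y hy.1) hc
  rw [Set.sdiff_union_self] at a b
  have key : ∀ t ∈ T ∪ Z, ∀ u v w, u ∈ insert t Z → v ∈ insert t Z → w ∈ insert t Z →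
      (if D3 u v w then ψ u v w else φ u v w) = φ u v w := by
    intro t ht u v w hu hv hw
    split_ifs with d
    · exact b t ht u v w hu hv hw d
    · rfl
  exact ⟨fun u v w => if D3 u v w then ψ u v w else φ u v w,
    a.congr fun u v w _ _ _ d => (if_pos d).symm,
    fun u hu v hv w hw => key u (Or.inr hu) u v w (Or.inr hu) (Or.inr hv) (Or.inr hw),
    fun y hy => key y (Or.inl hy)⟩

/-- The colours. -/
abbrev Col := Fin 40

theorem exists_fresh (F : Set Col) (h : F.encard < 40) : ∃ c, c ∉ F := by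
  by_contra hn
  push Not at hn
  rw [Set.eq_univ_of_forall hn] at h
  simp at h

theorem encard_compl_ge (F : Set Col) (k : ℕ) (h : F.encard + k ≤ 40) :
    (k : ℕ∞) ≤ (Fᶜ).encard := by
  have h1 := Set.encard_add_encard_compl F
  have h2 : (Set.univ : Set Col).encard = 40 := by simp
  rw [h2] at h1
  rw [← h1] at h
  exact (ENat.add_le_add_iff_left (Set.toFinite F).encard_lt_top.ne).1 h

open Classical in
/-- Two distinct colours off three given ones. -/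
noncomputable def fresh2 (c₁ c₂ c₃ : Col) : Col × Col :=
  if h : ∃ p : Col × Col, p.1 ≠ p.2 ∧ p.1 ∉ ({c₁, c₂, c₃} : Set Col) ∧
    p.2 ∉ ({c₁, c₂, c₃} : Set Col) then h.choose else (c₁, c₁)

theorem fresh2_spec (c₁ c₂ c₃ : Col) : (fresh2 c₁ c₂ c₃).1 ≠ (fresh2 c₁ c₂ c₃).2 ∧
    (fresh2 c₁ c₂ c₃).1 ∉ ({c₁, c₂, c₃} : Set Col) ∧
    (fresh2 c₁ c₂ c₃).2 ∉ ({c₁, c₂, c₃} : Set Col) := by
  have h : ∃ p : Col × Col, p.1 ≠ p.2 ∧ p.1 ∉ ({c₁, c₂, c₃} : Set Col) ∧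
      p.2 ∉ ({c₁, c₂, c₃} : Set Col) := by
    obtain ⟨a, -, n1⟩ := ext_off (S := (Set.univ : Set Col)) [c₁, c₂, c₃] (by simp; norm_num)
    obtain ⟨w, -, n2⟩ := ext_off (S := (Set.univ : Set Col)) [a, c₁, c₂, c₃] (by simp; norm_num)
    rw [List.mem_cons, not_or] at n2
    exact ⟨(a, w), Ne.symm n2.1, by simpa using n1, by simpa using n2.2⟩
  rw [fresh2, dif_pos h]
  exact h.choose_spec

/-- Extension of `φ` to all triples through base points of fresh colours. -/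
noncomputable def lext (col : Y → Col) (b : Col → Y) (φ : Y → Y → Y → Γ) (x y u : Y) : Γ :=
  ext4 φ (b (fresh2 (col x) (col y) (col u)).1) (b (fresh2 (col x) (col y) (col u)).2) x y u

/-- Hypotheses of the local extension lemma. `Dis` = the points can coexist. -/
structure LocSys (col : Y → Col) (b : Col → Y) (Dis : Y → Y → Prop) (φ : Y → Y → Y → Γ) :
    Prop where
  col_b : ∀ c, col (b c) = c
  alt : ∀ y, IsAlt (insert y (b '' {c | c ≠ col y})) φ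
  irr : ∀ y, ¬ Dis y y
  comm : ∀ y y', Dis y y' → ∀ c₁ c₂ c₃ c₄, [c₁, c₂, c₃, c₄].Nodup →
    Disjoint ({c₁, c₂, c₃, c₄} : Set Col) {col y, col y'} →
    Commute (φ y (b c₁) (b c₂)) (φ y' (b c₃) (b c₄))

variable {col : Y → Col} {b : Col → Y} {Dis : Y → Y → Prop} {φ : Y → Y → Y → Γ}

theorem LocSys.inj (h : LocSys col b Dis φ) : Function.Injective b :=
  Function.LeftInverse.injective h.col_b

theorem LocSys.base (h : LocSys col b Dis φ) : IsAlt (Set.range b) φ := by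
  refine (h.alt (b 0)).mono ?_
  rintro _ ⟨c, rfl⟩
  by_cases e : c = 0
  · exact Or.inl (by rw [e])
  · exact Or.inr ⟨c, by rwa [h.col_b], rfl⟩

theorem LocSys.off (h : LocSys col b Dis φ) {x y u : Y} {a : Col}
    (ha : a ∉ ({col x, col y, col u} : Set Col)) : b a ∉ ({x, y, u} : Set Y) := by
  rintro (rfl | rfl | rfl) <;> apply ha <;> simp [h.col_b]

theorem LocSys.compl_ge {T : Set Y} (hT : T.encard ≤ 16) : 24 ≤ (col '' T)ᶜ.encard :=
  encard_compl_ge _ 24 ((add_le_add ((Set.encard_image_le _ _).trans hT) le_rfl).trans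
    (by norm_num))

theorem LocSys.exists_ext (h : LocSys col b Dis φ) {T : Set Y} (hT : T.encard ≤ 16)
    (hD : T.Pairwise Dis) : ∃ ψ : Y → Y → Y → Γ, IsAlt (T ∪ b '' (col '' T)ᶜ) ψ ∧
      ∀ t ∈ T ∪ b '' (col '' T)ᶜ, ∀ u v w, u ∈ insert t (b '' (col '' T)ᶜ) →
        v ∈ insert t (b '' (col '' T)ᶜ) → w ∈ insert t (b '' (col '' T)ᶜ) → ψ u v w = φ u v w := by
  have hC := LocSys.compl_ge (col := col) hT
  obtain ⟨ψ, p1, p2, p3⟩ := ext_fin (Z := b '' (col '' T)ᶜ) (T := T) (φ := φ)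
    (by rw [h.inj.encard_image]; exact le_trans (by norm_num) hC)
    (Set.finite_of_encard_le_coe (k := 16) hT) (h.base.mono (Set.image_subset_range _ _))
    (fun y hy => (h.alt y).mono (Set.insert_subset_insert
      (Set.image_mono fun c hc e => hc ⟨y, hy, e.symm⟩))) (by
      intro y hy y' hy' hne
      obtain ⟨c₁, g1, -⟩ := ext_off (S := (col '' T)ᶜ) [] (lt_of_lt_of_le (by simp) hC)
      obtain ⟨c₂, g2, n2⟩ := ext_off (S := (col '' T)ᶜ) [c₁] (lt_of_lt_of_le (by simp) hC)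
      obtain ⟨c₃, g3, n3⟩ := ext_off (S := (col '' T)ᶜ) [c₁, c₂]
        (lt_of_lt_of_le (by simp; norm_num) hC)
      obtain ⟨c₄, g4, n4⟩ := ext_off (S := (col '' T)ᶜ) [c₁, c₂, c₃]
        (lt_of_lt_of_le (by simp; norm_num) hC)
      have hnd : [c₁, c₂, c₃, c₄].Nodup := by
        simp only [List.nodup_cons, List.mem_cons, List.not_mem_nil, or_false, not_or,
          List.nodup_nil] at n2 n3 n4 ⊢
        tauto
      refine ⟨_, ⟨c₁, g1, rfl⟩, _, ⟨c₂, g2, rfl⟩, _, ⟨c₃, g3, rfl⟩, _, ⟨c₄, g4, rfl⟩,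
        hnd.map h.inj, h.comm y y' (hD hy.1 hy'.1 hne) _ _ _ _ hnd ?_⟩
      rw [Set.disjoint_right]
      have k : ∀ t ∈ T, col t ∉ ({c₁, c₂, c₃, c₄} : Set Col) := by
        rintro t ht (e | e | e | e)
        exacts [g1 ⟨t, ht, e⟩, g2 ⟨t, ht, e⟩, g3 ⟨t, ht, e⟩, g4 ⟨t, ht, e⟩]
      rintro _ (rfl | rfl)
      exacts [k y hy.1, k y' hy'.1])
  refine ⟨ψ, p1, ?_⟩
  rintro t (ht | ht) u v w hu hv hw
  · exact p3 t ht u v w hu hv hw
  · rw [Set.insert_eq_of_mem ht] at hu hv hw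
    exact p2 u hu v hv w hw

theorem LocSys.lext_fresh_aux (h : LocSys col b Dis φ) {x y u : Y} (hxy : Dis x y) (hyx : Dis y x)
    (hyu : Dis y u) (huy : Dis u y) (hxu : Dis x u) (hux : Dis u x) {a w : Col} (haw : a ≠ w)
    (ha : a ∉ ({col x, col y, col u} : Set Col)) (hw : w ∉ ({col x, col y, col u} : Set Col)) :
    lext col b φ x y u = ext4 φ (b a) (b w) x y u := by
  have hT : ({x, y, u} : Set Y).encard ≤ 16 := by
    have e1 := Set.encard_insert_le ({y, u} : Set Y) x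
    have e2 := Set.encard_insert_le ({u} : Set Y) y
    rw [Set.encard_singleton] at e2
    exact e1.trans ((add_le_add e2 le_rfl).trans (by norm_num))
  obtain ⟨ψ, p1, p2⟩ := h.exists_ext hT (by
    rintro p (rfl | rfl | rfl) q (rfl | rfl | rfl) hne <;> first | exact absurd rfl hne | assumption)
  have h3 : D3 x y u := ⟨fun e => h.irr x (e ▸ hxy), fun e => h.irr y (e ▸ hyu),
    fun e => h.irr x (e ▸ hxu)⟩
  have key : ∀ {a w : Col}, a ≠ w → a ∉ ({col x, col y, col u} : Set Col) →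
      w ∉ ({col x, col y, col u} : Set Col) → ψ x y u = ext4 φ (b a) (b w) x y u := by
    intro a w haw ha hw
    have m : ∀ {c}, c ∉ ({col x, col y, col u} : Set Col) → b c ∈ b '' (col '' {x, y, u})ᶜ :=
      fun hc => ⟨_, by simpa [Set.image_insert_eq] using hc, rfl⟩
    rw [p1.decomp (Or.inr (m ha)) (Or.inr (m hw)) (Or.inl (by simp)) (Or.inl (by simp))
      (Or.inl (by simp)) h3 (h.inj.ne haw) (h.off ha) (h.off hw)]
    exact ext4_congr (m ha) (m hw) (h.inj.ne haw) (h.off ha) (h.off hw)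
      fun t ht p q r hp hq hr _ => p2 t (Or.inl ht) p q r hp hq hr
  have hf := fresh2_spec (col x) (col y) (col u)
  rw [lext, ← key hf.1 hf.2.1 hf.2.2, key haw ha hw]

theorem LocSys.enlarge (h : LocSys col b Dis φ) : LocSys col b
    (fun y y' => Dis y y' ∨ (∃ c, y' = b c ∧ c ≠ col y) ∨ ∃ c, y = b c ∧ c ≠ col y') φ := by
  have key : ∀ y c, c ≠ col y → ∀ c₁ c₂ c₃ c₄, [c₁, c₂, c₃, c₄].Nodup →
      Disjoint ({c₁, c₂, c₃, c₄} : Set Col) {col y, c} →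
      Commute (φ y (b c₁) (b c₂)) (φ (b c) (b c₃) (b c₄)) := by
    intro y c hc c₁ c₂ c₃ c₄ hn hd
    simp only [List.nodup_cons, List.mem_cons, List.not_mem_nil, or_false, not_or] at hn
    simp only [Set.disjoint_left, Set.mem_insert_iff, Set.mem_singleton_iff, forall_eq_or_imp,
      forall_eq, not_or] at hd
    have ny : ∀ {c}, c ≠ col y → y ≠ b c := fun hc e => hc (by rw [e, h.col_b])
    refine (h.alt y).commute (Or.inl rfl) (Or.inr ⟨_, hd.1.1, rfl⟩) (Or.inr ⟨_, hd.2.1.1, rfl⟩)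
      (Or.inr ⟨_, hc, rfl⟩) (Or.inr ⟨_, hd.2.2.1.1, rfl⟩) (Or.inr ⟨_, hd.2.2.2.1, rfl⟩)
      ⟨ny hd.1.1, h.inj.ne hn.1.1, ny hd.2.1.1⟩
      ⟨h.inj.ne (Ne.symm hd.2.2.1.2), h.inj.ne hn.2.2.1, h.inj.ne (Ne.symm hd.2.2.2.2)⟩ ?_
    simp only [Set.disjoint_left, Set.mem_insert_iff, Set.mem_singleton_iff, forall_eq_or_imp,
      forall_eq, not_or, h.inj.eq_iff]
    exact ⟨⟨ny hc, ny hd.2.2.1.1, ny hd.2.2.2.1⟩, ⟨hd.1.2, hn.1.2.1, hn.1.2.2⟩, hd.2.1.2,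
      hn.2.1.1, hn.2.1.2⟩
  refine ⟨h.col_b, h.alt, ?_, ?_⟩
  · rintro y (e | ⟨c, rfl, e⟩ | ⟨c, rfl, e⟩)
    exacts [h.irr y e, e (h.col_b c).symm, e (h.col_b c).symm]
  · rintro y y' (e | ⟨c, rfl, e⟩ | ⟨c, rfl, e⟩) c₁ c₂ c₃ c₄ hn hd
    · exact h.comm y y' e _ _ _ _ hn hd
    · rw [h.col_b] at hd
      exact key y c e _ _ _ _ hn hd
    · rw [h.col_b] at hd
      refine (key y' c e c₃ c₄ c₁ c₂ ?_ ?_).symm
      · simp only [List.nodup_cons, List.mem_cons, List.not_mem_nil, or_false, not_or] at hn ⊢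
        tauto
      · simp only [Set.disjoint_left, Set.mem_insert_iff, Set.mem_singleton_iff, forall_eq_or_imp,
          forall_eq, not_or] at hd ⊢
        tauto

theorem LocSys.isAlt (h : LocSys col b Dis φ) {T : Set Y} (hT : T.encard ≤ 16)
    (hD : T.Pairwise Dis) : IsAlt (T ∪ b '' (col '' T)ᶜ) (lext col b φ) := by
  obtain ⟨ψ, p1, p2⟩ := h.exists_ext hT hD
  have hC := LocSys.compl_ge (col := col) hT
  have dis : ∀ {p q}, p ∈ T ∪ b '' (col '' T)ᶜ → q ∈ T ∪ b '' (col '' T)ᶜ → p ≠ q →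
      Dis p q ∨ (∃ c, q = b c ∧ c ≠ col p) ∨ ∃ c, p = b c ∧ c ≠ col q := by
    rintro p q (hp | ⟨c, hc, rfl⟩) (hq | ⟨c', hc', rfl⟩) hne
    · exact Or.inl (hD hp hq hne)
    · exact Or.inr (Or.inl ⟨c', rfl, fun e => hc' ⟨p, hp, e.symm⟩⟩)
    · exact Or.inr (Or.inr ⟨c, rfl, fun e => hc ⟨q, hq, e.symm⟩⟩)
    · exact Or.inr (Or.inl ⟨c', rfl, fun e => hne (by rw [e, h.col_b])⟩)
  refine p1.congr fun x y u hx hy hu h3 => ?_
  obtain ⟨a, ha, n1⟩ := ext_off (S := (col '' T)ᶜ) [col x, col y, col u]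
    (lt_of_lt_of_le (by simp; norm_num) hC)
  obtain ⟨w, hw, n2⟩ := ext_off (S := (col '' T)ᶜ) [a, col x, col y, col u]
    (lt_of_lt_of_le (by simp; norm_num) hC)
  rw [List.mem_cons, not_or] at n2
  have ha' : a ∉ ({col x, col y, col u} : Set Col) := by simpa using n1
  have hw' : w ∉ ({col x, col y, col u} : Set Col) := by simpa using n2.2
  have haw : a ≠ w := Ne.symm n2.1
  rw [h.enlarge.lext_fresh_aux (dis hx hy h3.1) (dis hy hx h3.1.symm) (dis hy hu h3.2.1)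
    (dis hu hy h3.2.1.symm) (dis hx hu h3.2.2) (dis hu hx h3.2.2.symm) haw ha' hw',
    p1.decomp (Or.inr ⟨a, ha, rfl⟩) (Or.inr ⟨w, hw, rfl⟩) hx hy hu h3 (h.inj.ne haw) (h.off ha')
      (h.off hw')]
  refine ext4_congr (Z := b '' (col '' T)ᶜ) ⟨a, ha, rfl⟩ ⟨w, hw, rfl⟩ (h.inj.ne haw) (h.off ha')
    (h.off hw') fun t ht p q r hp hq hr _ => p2 t ?_ p q r hp hq hr
  rcases ht with rfl | rfl | rfl <;> assumption

/-- On triples with one arbitrary point and two base points nothing changes. -/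
theorem LocSys.lext_eq (h : LocSys col b Dis φ) (y : Y) {u v w : Y}
    (hu : u ∈ insert y (b '' {c | c ≠ col y})) (hv : v ∈ insert y (b '' {c | c ≠ col y}))
    (hw : w ∈ insert y (b '' {c | c ≠ col y})) (h3 : D3 u v w) :
    lext col b φ u v w = φ u v w := by
  have hf := fresh2_spec (col u) (col v) (col w)
  by_cases hy : y ∈ ({u, v, w} : Set Y)
  · have m : ∀ {c}, c ∉ ({col u, col v, col w} : Set Col) →
        b c ∈ insert y (b '' {c | c ≠ col y}) := fun hc => Or.inr ⟨_, fun e => hc (by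
      rcases hy with rfl | rfl | rfl <;> simp [e]), rfl⟩
    exact ((h.alt y).decomp (m hf.2.1) (m hf.2.2) hu hv hw h3 (h.inj.ne hf.1) (h.off hf.2.1)
      (h.off hf.2.2)).symm
  · have m : ∀ {t}, t ∈ ({u, v, w} : Set Y) → t ∈ insert y (b '' {c | c ≠ col y}) →
        t ∈ Set.range b := fun ht h' =>
      Set.image_subset_range _ _ (h'.resolve_left fun e => hy (e ▸ ht))
    exact (h.base.decomp ⟨_, rfl⟩ ⟨_, rfl⟩ (m (by simp) hu) (m (by simp) hv) (m (by simp) hw) h3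
      (h.inj.ne hf.1) (h.off hf.2.1) (h.off hf.2.2)).symm

/-- The defining formula holds with any fresh pair of colours. -/
theorem LocSys.lext_fresh (h : LocSys col b Dis φ) {x y u : Y} (hxy : Dis x y) (hyx : Dis y x)
    (hyu : Dis y u) (huy : Dis u y) (hxu : Dis x u) (hux : Dis u x) {a w : Col} (haw : a ≠ w)
    (ha : a ∉ ({col x, col y, col u} : Set Col)) (hw : w ∉ ({col x, col y, col u} : Set Col)) :
    lext col b φ x y u = ext4 φ (b a) (b w) x y u :=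
  h.lext_fresh_aux hxy hyx hyu huy hxu hux haw ha hw

end Vale.Agent.P196
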