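import Mathlib

namespace Vale.Agent.P196

open Equiv

section fsign

variable {Y : Type*} [DecidableEq Y] {σ τ : Perm Y} {s s' : Finset Y}

omit [DecidableEq Y] in
theorem fsg_inv (h : ∀ y, σ y ≠ y → y ∈ s) (x : Y) : σ x ∈ s ↔ x ∈ s := by
  by_cases hx : σ x = x
  · rw [hx]
  · exact iff_of_true (h _ fun e => hx (σ.injective e)) (h x hx)

/-- The sign of the restriction to a finite set containing the support. -/
def fsgOn (σ : Perm Y) (s : Finset Y) (h : ∀ y, σ y ≠ y → y ∈ s) : ℤˣ :=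
  Perm.sign (σ.subtypePerm (p := (· ∈ s)) (fsg_inv h))

theorem fsgOn_mono (h : ∀ y, σ y ≠ y → y ∈ s) (hs : s ⊆ s') :
    fsgOn σ s h = fsgOn σ s' fun y hy => hs (h y hy) := by
  unfold fsgOn
  rw [← Perm.sign_subtypePerm (σ.subtypePerm (p := (· ∈ s')) (fsg_inv fun y hy => hs (h y hy)))
    (p := fun x => x.1 ∈ s) (fun x => fsg_inv h x.1) fun x hx => h _ fun e => hx (Subtype.ext e)]
  exact (Perm.sign_eq_sign_of_equiv _ _ (subtypeSubtypeEquivSubtype (p := (· ∈ s'))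
    (q := (· ∈ s)) fun hx => hs hx) fun x => rfl).symm

open Classical in
/-- The sign of a finitary permutation. -/
noncomputable def fsg (σ : Perm Y) : ℤˣ :=
  if h : {y | σ y ≠ y}.Finite then fsgOn σ h.toFinset fun _ hy => h.mem_toFinset.2 hy else 1

theorem fsg_eq (h : ∀ y, σ y ≠ y → y ∈ s) : fsg σ = fsgOn σ s h := by
  have h1 : {y | σ y ≠ y}.Finite := s.finite_toSet.subset h
  rw [fsg, dif_pos h1]
  exact fsgOn_mono _ fun y hy => h y (h1.mem_toFinset.1 hy)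

theorem fsg_mul (hσ : {y | σ y ≠ y}.Finite) (hτ : {y | τ y ≠ y}.Finite) :
    fsg (σ * τ) = fsg σ * fsg τ := by
  have h1 : ∀ y, σ y ≠ y → y ∈ (hσ.union hτ).toFinset := fun y hy => by simp [hy]
  have h2 : ∀ y, τ y ≠ y → y ∈ (hσ.union hτ).toFinset := fun y hy => by simp [hy]
  have h3 : ∀ y, (σ * τ) y ≠ y → y ∈ (hσ.union hτ).toFinset := fun y hy => by
    by_cases h : τ y = y
    · exact h1 y (by rwa [Perm.mul_apply, h] at hy)
    · exact h2 y h
  rw [fsg_eq h1, fsg_eq h2, fsg_eq h3, fsgOn, fsgOn, fsgOn, ← map_mul, Perm.subtypePerm_mul]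

theorem fsg_swap {x y : Y} (hxy : x ≠ y) : fsg (swap x y) = -1 := by
  have h : ∀ w, swap x y w ≠ w → w ∈ ({x, y} : Finset Y) := fun w hw => by
    by_contra h
    simp only [Finset.mem_insert, Finset.mem_singleton, not_or] at h
    exact hw (swap_apply_of_ne_of_ne h.1 h.2)
  rw [fsg_eq h, fsgOn, ← Perm.sign_swap (x := (⟨x, by simp⟩ : ({x, y} : Finset Y)))
    (y := ⟨y, by simp⟩) fun e => hxy (congrArg Subtype.val e)]
  congr 1
  ext w
  exact Subtype.val_injective.swap_apply (⟨x, by simp⟩ : ({x, y} : Finset Y)) ⟨y, by simp⟩ w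

theorem fsg_conj (ρ : Perm Y) (hσ : {y | σ y ≠ y}.Finite) : fsg (ρ⁻¹ * σ * ρ) = fsg σ := by
  have h1 : ∀ y, σ y ≠ y → y ∈ hσ.toFinset := fun y hy => by simp [hy]
  have h2 : ∀ y, y ∈ hσ.toFinset.map (ρ⁻¹).toEmbedding ↔ ρ y ∈ hσ.toFinset := fun y => by
    rw [Finset.mem_map_equiv]
    rfl
  have h3 : ∀ y, (ρ⁻¹ * σ * ρ) y ≠ y → y ∈ hσ.toFinset.map (ρ⁻¹).toEmbedding := fun y hy =>
    (h2 y).2 (h1 _ fun e => hy (by simp [e]))
  rw [fsg_eq h1, fsg_eq h3]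
  exact Perm.sign_eq_sign_of_equiv _ _ (Equiv.subtypeEquiv ρ h2) fun x => Subtype.ext (by simp)

omit [DecidableEq Y] in
theorem fsg_fin (h : {y | σ y ≠ τ y}.Finite) : {y | (σ⁻¹ * τ) y ≠ y}.Finite :=
  h.subset fun y hy e => hy (by rw [Perm.mul_apply, ← e]; simp)

theorem fsg_rel {M : Type*} [Group M] (a b : M →* Perm Y) (h : ∀ g, {y | a g y ≠ b g y}.Finite)
    (g g' : M) :
    fsg ((a (g * g'))⁻¹ * b (g * g')) = fsg ((a g)⁻¹ * b g) * fsg ((a g')⁻¹ * b g') := by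
  have h1 : (a (g * g'))⁻¹ * b (g * g') =
      ((a g')⁻¹ * ((a g)⁻¹ * b g) * a g') * ((a g')⁻¹ * b g') := by
    rw [map_mul, map_mul]
    group
  rw [h1, fsg_mul _ (fsg_fin (h g')), fsg_conj _ (fsg_fin (h g))]
  refine ((fsg_fin (h g)).preimage (a g').injective.injOn).subset fun y hy e => hy ?_
  rw [Perm.mul_apply, Perm.mul_apply, e]
  simp

theorem fsg_one_of_cube {M : Type*} [Group M] (a b : M →* Perm Y)
    (h : ∀ g, {y | a g y ≠ b g y}.Finite) {g : M} (hg : g ∈ Subgroup.closure {t : M | t ^ 3 = 1}) :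
    fsg ((a g)⁻¹ * b g) = 1 := by
  let χ : M →* ℤˣ := MonoidHom.mk' (fun g => fsg ((a g)⁻¹ * b g)) (fsg_rel a b h)
  refine (Subgroup.closure_le χ.ker).2 (fun t ht => ?_) hg
  have h1 : χ t ^ 3 = 1 := by rw [← map_pow, show t ^ 3 = 1 from ht, map_one]
  rwa [pow_succ, Int.units_sq, one_mul] at h1

end fsign

/-- Two actions of a group that differ at finitely many points define a character. -/
theorem exists_relSign {M Y : Type*} [Group M] (a b : M →* Perm Y)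
    (h : ∀ g, {y | a g y ≠ b g y}.Finite) [DecidableEq Y] :
    ∃ fs : Perm Y → ℤˣ, (∀ σ τ : Perm Y, {y | σ y ≠ y}.Finite → {y | τ y ≠ y}.Finite →
      fs (σ * τ) = fs σ * fs τ) ∧ (∀ x y, x ≠ y → fs (swap x y) = -1) ∧
      ∀ g g', fs ((a (g * g'))⁻¹ * b (g * g')) = fs ((a g)⁻¹ * b g) * fs ((a g')⁻¹ * b g') :=
  ⟨fsg, fun _ _ => fsg_mul, fun _ _ => fsg_swap, fsg_rel a b h⟩

/-- The parity obstruction: `g` is a product of elements of order three in two ways, once in `M₁`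
acting by `b₁`, once in `M₂` acting by `b₂`, both asymptotic to `a`; then the two actions of `g`
do not differ by a transposition. -/
theorem parity_obstruction {M Y : Type*} [Group M] [DecidableEq Y] (a : M →* Perm Y)
    (M₁ M₂ : Subgroup M) (b₁ : M₁ →* Perm Y) (b₂ : M₂ →* Perm Y)
    (h₁ : ∀ g : M₁, {y | a g y ≠ b₁ g y}.Finite) (h₂ : ∀ g : M₂, {y | a g y ≠ b₂ g y}.Finite)
    (g₁ : M₁) (g₂ : M₂) (he : (g₁ : M) = g₂)
    (hg₁ : g₁ ∈ Subgroup.closure {t : M₁ | t ^ 3 = 1})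
    (hg₂ : g₂ ∈ Subgroup.closure {t : M₂ | t ^ 3 = 1}) {x y : Y} (hxy : x ≠ y) :
    b₁ g₁ ≠ b₂ g₂ * swap x y := by
  intro e
  have e1 : fsg ((a g₁)⁻¹ * b₁ g₁) = 1 := fsg_one_of_cube (a.comp M₁.subtype) b₁ h₁ hg₁
  have e2 : fsg ((a g₂)⁻¹ * b₂ g₂) = 1 := fsg_one_of_cube (a.comp M₂.subtype) b₂ h₂ hg₂
  rw [e, he, ← mul_assoc, fsg_mul (fsg_fin (h₂ g₂)), e2, fsg_swap hxy] at e1
  · exact absurd e1 (by decide)
  · refine (Set.toFinite {x, y}).subset fun w hw => ?_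
    by_contra h
    simp only [Set.mem_insert_iff, Set.mem_singleton_iff, not_or] at h
    exact hw (swap_apply_of_ne_of_ne h.1 h.2)

end Vale.Agent.P196
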