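import Vale.Agent.P196.TriBasic

/-! Basic facts on full groups and multisections. -/

namespace Vale.Agent.P196

open Filter Topology Equiv

namespace PG

variable {Ω : Type} [TopologicalSpace Ω] [CompactSpace Ω] [T2Space Ω] [TotallyDisconnectedSpace Ω]
  {H H' : PG Ω} {Y : Type} {U : Set Ω} {T : Set Y} {e : Y → Ω → Ω} {t t' g : Perm Ω}

theorem full_mono (h : H.LE H') : H.full ≤ H'.full := fun _ hg x => h _ _ (hg x)

theorem Tri_mono (h : H.LE H') : H.Tri ⊆ H'.Tri := fun _ ht => ⟨full_mono h ht.1, ht.2⟩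

theorem alt_le_full (H : PG Ω) : H.alt ≤ H.full := (Subgroup.closure_le _).2 fun _ ht => ht.1

theorem full_continuous (hg : g ∈ H.full) : Continuous g :=
  continuous_iff_continuousAt.2 fun x => H.cont (hg x)

theorem Tri.isClopen (ht : t ∈ H.Tri) : IsClopen (supp t) :=
  ⟨ht.2.2, isOpen_ne_fun (full_continuous ht.1) continuous_id⟩

theorem one_mem_Tri : (1 : Perm Ω) ∈ H.Tri := by
  refine ⟨H.full.one_mem, one_pow 3, ?_⟩
  have : supp (1 : Perm Ω) = ∅ := Set.eq_empty_of_forall_notMem fun x hx => hx rfl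
  rw [this]
  exact isClosed_empty

theorem Tri.inv (ht : t ∈ H.Tri) : t⁻¹ ∈ H.Tri := by
  refine ⟨H.full.inv_mem ht.1, by rw [inv_pow, ht.2.1, inv_one], ?_⟩
  rw [supp_inv]
  exact ht.2.2

theorem Tri.conj (hg : g ∈ H.full) (ht : t ∈ H.Tri) : g * t * g⁻¹ ∈ H.Tri := by
  refine ⟨H.full.mul_mem (H.full.mul_mem hg ht.1) (H.full.inv_mem hg), ?_, ?_⟩
  · rw [conj_pow, ht.2.1, mul_one, mul_inv_cancel]
  · rw [supp_conj]
    exact (ht.2.2.isCompact.image (full_continuous hg)).isClosed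

theorem Tri.mul (ht : t ∈ H.Tri) (ht' : t' ∈ H.Tri) (hd : Disjoint (supp t) (supp t')) :
    t * t' ∈ H.Tri := by
  refine ⟨H.full.mul_mem ht.1 ht'.1, ?_, ?_⟩
  · rw [(commute_of_supp hd).mul_pow, ht.2.1, ht'.2.1, one_mul]
  · rw [supp_mul hd]
    exact ht.2.2.union ht'.2.2

omit [CompactSpace Ω] [T2Space Ω] [TotallyDisconnectedSpace Ω] in
theorem Tri.cube_apply (ht : t ∈ H.Tri) (x : Ω) : t (t (t x)) = x := by
  have := congrArg (fun s : Perm Ω => s x) ht.2.1
  simpa [pow_succ] using this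

/-- Restriction; the germs are only needed on the invariant set. -/
theorem Tri.rest_of (ht : t ∈ H'.Tri) {V : Set Ω} (hV : IsClopen V) (hi : ∀ x, t x ∈ V ↔ x ∈ V)
    (hm : ∀ x ∈ V, H.mem t x) : rest t V ∈ H.Tri := by
  refine ⟨fun x => ?_, ?_, ?_⟩
  · by_cases hx : x ∈ V
    · refine H.congr (hm x hx) ?_
      filter_upwards [hV.isOpen.mem_nhds hx] with y hy
      exact (rest_mem hi hy).symm
    · refine H.congr (H.id x) ?_
      filter_upwards [hV.compl.isOpen.mem_nhds hx] with y hy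
      exact (rest_not_mem hy).symm
  · ext x
    rw [pow_three, Perm.mul_apply, Perm.mul_apply, Perm.one_apply]
    by_cases hx : x ∈ V
    · rw [rest_mem hi hx, rest_mem hi ((hi _).2 hx), rest_mem hi ((hi _).2 ((hi _).2 hx)),
        Tri.cube_apply ht]
    · rw [rest_not_mem hx, rest_not_mem hx, rest_not_mem hx]
  · rw [supp_rest hi]
    exact ht.2.2.inter hV.isClosed

theorem Tri.rest (ht : t ∈ H.Tri) {V : Set Ω} (hV : IsClopen V) (hi : ∀ x, t x ∈ V ↔ x ∈ V) :
    rest t V ∈ H.Tri := Tri.rest_of ht hV hi fun x _ => ht.1 x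

/-- An invariant clopen set between an invariant compact set and an open set. -/
theorem Tri.exists_inv_clopen (ht : t ∈ H.Tri) {F N : Set Ω} (hF : IsCompact F) (hN : IsOpen N)
    (hFN : F ⊆ N) (hi : ∀ x, t x ∈ F ↔ x ∈ F) :
    ∃ V, IsClopen V ∧ F ⊆ V ∧ V ⊆ N ∧ ∀ x, t x ∈ V ↔ x ∈ V := by
  obtain ⟨W, hW, h1, h2⟩ := exists_clopen_of_closed_subset_open hF.isClosed hN hFN
  have hc := full_continuous ht.1
  refine ⟨W ∩ t ⁻¹' W ∩ t ⁻¹' (t ⁻¹' W),
    (hW.inter (hW.preimage hc)).inter ((hW.preimage hc).preimage hc),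
    fun x hx => ⟨⟨h1 hx, h1 ((hi _).2 hx)⟩, h1 ((hi _).2 ((hi _).2 hx))⟩,
    fun x hx => h2 hx.1.1, fun x => ?_⟩
  simp only [Set.mem_inter_iff, Set.mem_preimage, Tri.cube_apply ht]
  tauto

theorem isClopen_image {f : Ω → Ω} (hU : IsClopen U) (hf : ∀ x ∈ U, H.mem f x) :
    IsClopen (f '' U) := by
  refine ⟨(hU.isClosed.isCompact.image_of_continuousOn fun x hx =>
    (H.cont (hf x hx)).continuousWithinAt).isClosed, isOpen_iff_mem_nhds.2 ?_⟩
  rintro _ ⟨x, hx, rfl⟩
  obtain ⟨g, h1, h2, h3⟩ := H.inv (hf x hx)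
  have h4 : g (f x) = x := h2.eq_of_nhds
  have h5 : ∀ᶠ z in 𝓝 (f x), g z ∈ U := (H.cont h1).eventually (by
    rw [h4]
    exact hU.isOpen.mem_nhds hx)
  filter_upwards [h3, h5] with z hz hz'
  exact ⟨g z, hz', hz⟩

theorem mem_orb_self (x : Ω) : x ∈ H.orb x := ⟨_root_.id, H.id x, rfl⟩

theorem orb_symm {x y : Ω} (h : y ∈ H.orb x) : x ∈ H.orb y := by
  obtain ⟨f, hf, rfl⟩ := h
  obtain ⟨g, h1, h2, -⟩ := H.inv hf
  exact ⟨g, h1, h2.eq_of_nhds⟩

theorem orb_trans {x y w : Ω} (h : y ∈ H.orb x) (h' : w ∈ H.orb y) : w ∈ H.orb x := by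
  obtain ⟨f, hf, rfl⟩ := h
  obtain ⟨g, hg, rfl⟩ := h'
  exact ⟨g ∘ f, H.comp hf hg, rfl⟩

theorem MS.mono (h : H.MS U T e) {V : Set Ω} {T' : Set Y} (hV : IsClopen V) (hU : V ⊆ U)
    (hT : T' ⊆ T) : H.MS V T' e :=
  ⟨hV, h.sec.mono hU hT, fun y hy x hx => h.mem y (hT hy) x (hU hx)⟩

omit [CompactSpace Ω] [T2Space Ω] [TotallyDisconnectedSpace Ω] in
theorem pgb_sheet (hU : IsOpen U) {p : Ω} (hp : p ∈ U) {f f' s : Ω → Ω} (h1 : H.mem f p)
    (h2 : H.mem f' p) (hs : ∀ q ∈ U, s (f q) = f' q) : H.mem s (f p) := by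
  obtain ⟨g, g1, g2, g3⟩ := H.inv h1
  have h4 : g (f p) = p := g2.eq_of_nhds
  have h5 : ∀ᶠ z in 𝓝 (f p), g z ∈ U := (H.cont g1).eventually (by
    rw [h4]
    exact hU.mem_nhds hp)
  refine H.congr (H.comp g1 (by rw [h4]; exact h2)) ?_
  filter_upwards [g3, h5] with z hz hz'
  have h6 : f (g z) = z := hz
  rw [Function.comp_apply, ← hs _ hz', h6]

theorem MS.tri_mem (h : H.MS U T e) {x y z : Y} (hx : x ∈ T) (hy : y ∈ T) (hz : z ∈ T)
    (h3 : D3 x y z) : tri U (e x) (e y) (e z) ∈ H.Tri := by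
  have h' := h.sec.three hx hy hz h3
  have hc : IsClosed (e x '' U ∪ e y '' U ∪ e z '' U) :=
    (((isClopen_image h.clopen (h.mem x hx)).union (isClopen_image h.clopen (h.mem y hy))).union
      (isClopen_image h.clopen (h.mem z hz))).isClosed
  refine ⟨fun ω => ?_, tri_cube, by rw [supp_tri h']; exact hc⟩
  by_cases hω : ω ∈ e x '' U ∪ e y '' U ∪ e z '' U
  · rcases hω with (⟨p, hp, rfl⟩ | ⟨p, hp, rfl⟩) | ⟨p, hp, rfl⟩
    · exact pgb_sheet h.clopen.isOpen hp (h.mem x hx p hp) (h.mem y hy p hp)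
        fun q hq => tri_fst h' hq
    · exact pgb_sheet h.clopen.isOpen hp (h.mem y hy p hp) (h.mem z hz p hp)
        fun q hq => tri_snd h' hq
    · exact pgb_sheet h.clopen.isOpen hp (h.mem z hz p hp) (h.mem x hx p hp)
        fun q hq => tri_thd h' hq
  · refine H.congr (H.id ω) ?_
    filter_upwards [hc.isOpen_compl.mem_nhds hω] with w hw
    exact (tri_other hw).symm

/-- Germs with distinct values form a multisection on a small neighbourhood. -/
theorem exists_MS (hT : T.Finite) {x : Ω} (hm : ∀ y ∈ T, H.mem (e y) x)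
    (hi : Set.InjOn (fun y => e y x) T) {N : Set Ω} (hN : N ∈ 𝓝 x) :
    ∃ U, x ∈ U ∧ U ⊆ N ∧ H.MS U T e := by
  have h1 : ∀ y ∈ T, ∀ y' ∈ T, ∀ᶠ S in (𝓝 x).smallSets,
      ∀ p ∈ S, ∀ p' ∈ S, e y p = e y' p' → y = y' ∧ p = p' := by
    intro y hy y' hy'
    rw [eventually_smallSets]
    by_cases hyy : y = y'
    · subst hyy
      obtain ⟨g, -, g2, -⟩ := H.inv (hm y hy)
      refine ⟨_, g2, fun S hS p hp p' hp' he => ⟨rfl, ?_⟩⟩
      have a1 : g (e y p) = p := hS hp
      have a2 : g (e y p') = p' := hS hp'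
      rw [← a1, he, a2]
    · obtain ⟨A, B, hA, hB, a1, a2, hAB⟩ := t2_separation fun hc => hyy (hi hy hy' hc)
      refine ⟨_, inter_mem ((H.cont (hm y hy)).eventually (hA.mem_nhds a1))
        ((H.cont (hm y' hy')).eventually (hB.mem_nhds a2)), fun S hS p hp p' hp' he => ?_⟩
      have b1 : e y p ∈ A := (hS hp).1
      have b2 : e y' p' ∈ B := (hS hp').2
      exact absurd (he ▸ b2) (Set.disjoint_left.1 hAB b1)
  obtain ⟨S, hS, h2⟩ := eventually_smallSets.1 ((eventually_all_finite hT).2 fun y hy =>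
    (eventually_all_finite hT).2 (h1 y hy))
  have h3 : ∀ᶠ z in 𝓝 x, ∀ y ∈ T, H.mem (e y) z :=
    (eventually_all_finite hT).2 fun y hy => H.nhds (hm y hy)
  obtain ⟨O, hO, hO1, hO2⟩ := mem_nhds_iff.1 (inter_mem (inter_mem hN hS) h3)
  obtain ⟨V, hV, hxV, hVO⟩ := compact_exists_isClopen_in_isOpen hO1 hO2
  exact ⟨V, hxV, fun z hz => (hO (hVO hz)).1.1, hV, h2 V fun z hz => (hO (hVO hz)).1.2,
    fun y hy z hz => (hO (hVO hz)).2 y hy⟩

/-- Every 3-cycle is a disjoint product of arbitrarily small pieces. -/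
theorem Tri.induction (ht : t ∈ H.Tri) (N : Ω → Set Ω) (hN : ∀ x ∈ supp t, N x ∈ 𝓝 x)
    {p : Perm Ω → Prop} (h1 : p 1)
    (hm : ∀ a ∈ H.Tri, ∀ b ∈ H.Tri, Disjoint (supp a) (supp b) → supp a ⊆ supp t →
      supp b ⊆ supp t → p a → p b → p (a * b))
    (hs : ∀ x ∈ supp t, ∀ U ⊆ N x, H.MS U Set.univ ![_root_.id, t, t ∘ t] →
      p (tri U _root_.id t (t ∘ t))) : p t := by
  classical
  have hc := full_continuous ht.1
  have hcube := Tri.cube_apply ht
  have h0 : ∀ x, ∃ U : Set Ω, x ∈ supp t →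
      x ∈ U ∧ U ⊆ N x ∧ H.MS U Set.univ ![_root_.id, t, t ∘ t] := by
    intro x
    by_cases hx : x ∈ supp t
    · have a1 : t x ≠ x := hx
      have a2 : t (t x) ≠ t x := fun h => a1 (t.injective h)
      have a3 : t (t x) ≠ x := fun h => a1 ((congrArg t h).symm.trans (hcube x))
      obtain ⟨U, hU⟩ := exists_MS (H := H) (T := Set.univ) (e := ![_root_.id, t, t ∘ t])
        (Set.toFinite _) (x := x) (by
          intro i _
          fin_cases i
          · exact H.id x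
          · exact ht.1 x
          · exact H.comp (f := t) (g := t) (ht.1 x) (ht.1 _)) (by
          intro i _ j _ h
          fin_cases i <;> fin_cases j <;>
            first
            | rfl
            | exact absurd h a1
            | exact absurd h a1.symm
            | exact absurd h a2
            | exact absurd h a2.symm
            | exact absurd h a3
            | exact absurd h a3.symm) (hN x hx)
      exact ⟨U, fun _ => hU⟩
    · exact ⟨∅, fun h => absurd h hx⟩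
  choose U hU using h0
  have key : ∀ s : Finset Ω, (∀ x ∈ s, x ∈ supp t) → ∀ V, IsClopen V → (∀ x, t x ∈ V ↔ x ∈ V) →
      (∀ w ∈ V, ∃ x ∈ s, w ∈ U x) → p (_root_.Vale.Agent.P196.rest t V) := by
    intro s
    induction s using Finset.induction_on with
    | empty =>
      intro _ V _ _ hV
      have : _root_.Vale.Agent.P196.rest t V = 1 := by
        ext w
        refine rest_not_mem fun hw => ?_
        obtain ⟨x, hx, -⟩ := hV w hw
        exact absurd hx (Finset.notMem_empty x)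
      rw [this]
      exact h1
    | insert x s _ ih =>
      intro hsub V hV hi hcov
      have hx := hsub x (Finset.mem_insert_self x s)
      obtain ⟨-, u2, u3⟩ := hU x hx
      have hS : IsClopen (U x ∪ t ⁻¹' U x ∪ t ⁻¹' (t ⁻¹' U x)) :=
        (u3.clopen.union (u3.clopen.preimage hc)).union ((u3.clopen.preimage hc).preimage hc)
      have hSi : ∀ w, t w ∈ U x ∪ t ⁻¹' U x ∪ t ⁻¹' (t ⁻¹' U x) ↔
          w ∈ U x ∪ t ⁻¹' U x ∪ t ⁻¹' (t ⁻¹' U x) := by
        intro w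
        simp only [Set.mem_union, Set.mem_preimage, hcube]
        tauto
      have hS1 : U x ⊆ U x ∪ t ⁻¹' U x ∪ t ⁻¹' (t ⁻¹' U x) := fun w hw => Or.inl (Or.inl hw)
      have hS2 : ∀ w ∈ U x ∪ t ⁻¹' U x ∪ t ⁻¹' (t ⁻¹' U x), w ∈ V →
          w ∈ _root_.id '' (U x ∩ V) ∪ t '' (U x ∩ V) ∪ (t ∘ t) '' (U x ∩ V) := by
        rintro w ((hw | hw) | hw) hwV
        · exact Or.inl (Or.inl ⟨w, ⟨hw, hwV⟩, rfl⟩)
        · exact Or.inr ⟨t w, ⟨hw, (hi _).2 hwV⟩, hcube w⟩
        · exact Or.inl (Or.inr ⟨t (t w), ⟨hw, (hi _).2 ((hi _).2 hwV)⟩, hcube w⟩)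
      generalize U x ∪ t ⁻¹' U x ∪ t ⁻¹' (t ⁻¹' U x) = S at hS hSi hS1 hS2
      have i1 : ∀ w, t w ∈ V ∩ S ↔ w ∈ V ∩ S := fun w => and_congr (hi w) (hSi w)
      have i2 : ∀ w, t w ∈ V \ S ↔ w ∈ V \ S := fun w => and_congr (hi w) (not_congr (hSi w))
      have hd : Disjoint (V ∩ S) (V \ S) := Set.disjoint_left.2 fun w h h' => h'.2 h.2
      have hMS := u3.mono (u3.clopen.inter hV) Set.inter_subset_left subset_rfl
      have e1 : _root_.Vale.Agent.P196.rest t (V ∩ S) = tri (U x ∩ V) _root_.id t (t ∘ t) := by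
        refine eq_tri hMS.sec (fun q hq => ?_) (fun q hq => ?_) (fun q hq => ?_) ?_
        · exact rest_mem i1 ⟨hq.2, hS1 hq.1⟩
        · exact rest_mem i1 ((i1 _).2 ⟨hq.2, hS1 hq.1⟩)
        · exact (rest_mem i1 ((i1 _).2 ((i1 _).2 ⟨hq.2, hS1 hq.1⟩))).trans (hcube q)
        · rw [supp_rest i1]
          exact fun w hw => hS2 w hw.2.2 hw.2.1
      rw [← Set.inter_union_sdiff V S, rest_union i1 i2 hd]
      refine hm _ (Tri.rest ht (hV.inter hS) i1) _ (Tri.rest ht (hV.diff hS) i2) ?_ ?_ ?_ ?_ ?_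
      · rw [supp_rest i1, supp_rest i2]
        exact hd.mono Set.inter_subset_right Set.inter_subset_right
      · rw [supp_rest i1]
        exact Set.inter_subset_left
      · rw [supp_rest i2]
        exact Set.inter_subset_left
      · rw [e1]
        exact hs x hx _ (Set.inter_subset_left.trans u2) hMS
      · refine ih (fun y hy => hsub y (Finset.mem_insert_of_mem hy)) _ (hV.diff hS) i2
          fun w hw => ?_
        obtain ⟨y, hy, hw'⟩ := hcov w hw.1
        rcases Finset.mem_insert.1 hy with rfl | hy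
        · exact absurd (hS1 hw') hw.2
        · exact ⟨y, hy, hw'⟩
  obtain ⟨s, hs1, hs2⟩ := ht.2.2.isCompact.elim_nhds_subcover U fun x hx =>
    (hU x hx).2.2.clopen.isOpen.mem_nhds (hU x hx).1
  have h2 := key s hs1 (supp t) (Tri.isClopen ht) (fun _ => mem_supp_iff) fun w hw => by
    obtain ⟨x, hx, hw'⟩ := Set.mem_iUnion₂.1 (hs2 hw)
    exact ⟨x, hx, hw'⟩
  have e2 : _root_.Vale.Agent.P196.rest t (supp t) = t := by
    ext w
    by_cases hw : w ∈ supp t
    · exact rest_mem (fun _ => mem_supp_iff) hw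
    · rw [rest_not_mem hw]
      exact (not_not.1 hw).symm
  rwa [e2] at h2

/-- Finitely many points carry all germs outside `H`. -/
theorem Step.finite_sing {Sg : Set Ω} (h : Step H H' Sg) (hg : g ∈ H'.full) :
    {x | ¬ H.mem g x}.Finite := by
  have key : (Set.univ ∩ {x | ¬ H.mem g x}).Finite := by
    refine isCompact_univ.induction_on (p := fun s => (s ∩ {x | ¬ H.mem g x}).Finite)
      (by simp) (fun s s' hs h' => h'.subset (Set.inter_subset_inter_left _ hs))
      (fun s s' h1 h2 => by rw [Set.union_inter_distrib_right]; exact h1.union h2) fun x _ => ?_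
    refine ⟨_, mem_nhdsWithin_of_mem_nhds (eventually_nhdsWithin_iff.1 (h.punct g x (hg x))),
      (Set.finite_singleton x).subset fun y hy => ?_⟩
    exact by_contra fun hc => hy.2 (hy.1 hc)
  rwa [Set.univ_inter] at key


theorem ZSys.isAlt {Γ : Type} [Group Γ] {π : Γ →* Perm Ω} {z : Perm Ω → Γ} (hz : ZSys H π z)
    (h : H.MS U T e) : IsAlt T fun x y w => z (tri U (e x) (e y) (e w)) := by
  have hA := h.sec.isAlt
  refine ⟨fun x y w hx hy hw h3 => congrArg z (hA.cyc hx hy hw h3), fun x y w hx hy hw h3 => ?_,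
    fun x y w u v r hx hy hw hu hv hr h3 h4 => ?_, fun x b c v hx hb hc hv h3 h4 h5 => ?_⟩
  · rw [eq_inv_of_mul_eq_one_right (hA.inv hx hy hw h3), hz.inv _ (h.tri_mem hx hy hw h3),
      mul_inv_cancel]
  · rw [hz.conj _ (h.tri_mem hx hy hw h3) _ (h.tri_mem hu hv hr h4)]
    exact congrArg z (hA.conj hx hy hw hu hv hr h3 h4)
  · obtain ⟨a1, a2, a3⟩ := h3
    obtain ⟨-, a4, a5⟩ := h4
    have key : ∀ i : Fin 4, ![x, b, c, v] i ∈ T := by
      intro i
      fin_cases i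
      · exact hx
      · exact hb
      · exact hc
      · exact hv
    refine hz.mul U (fun i => e (![x, b, c, v] i)) ⟨h.clopen, ?_, fun i _ => h.mem _ (key i)⟩
    intro i _ j _ p hp p' hp' he
    obtain ⟨h1, h2⟩ := h.sec _ (key i) _ (key j) p hp p' hp' he
    refine ⟨?_, h2⟩
    fin_cases i <;> fin_cases j <;>
      first
      | rfl
      | exact absurd h1 a1
      | exact absurd h1 a1.symm
      | exact absurd h1 a2
      | exact absurd h1 a2.symm
      | exact absurd h1 a3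
      | exact absurd h1 a3.symm
      | exact absurd h1 a4
      | exact absurd h1 a4.symm
      | exact absurd h1 a5
      | exact absurd h1 a5.symm
      | exact absurd h1 h5
      | exact absurd h1 h5.symm


theorem ZSys.one {Γ : Type} [Group Γ] {π : Γ →* Perm Ω} {z : Perm Ω → Γ} (hz : ZSys H π z) :
    z 1 = 1 := by
  have h0 : supp (1 : Perm Ω) = ∅ := Set.eq_empty_of_forall_notMem fun x hx => hx rfl
  have h1 := hz.add 1 one_mem_Tri 1 one_mem_Tri (by rw [h0]; exact Set.disjoint_empty _)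
  rw [one_mul] at h1
  exact left_eq_mul.1 h1


theorem ZSys.conj_all {Γ : Type} [Group Γ] {π : Γ →* Perm Ω} {z : Perm Ω → Γ} (hz : ZSys H π z)
    (γ : Γ) (ht : t ∈ H.Tri) : γ * z t * γ⁻¹ = z (π γ * t * (π γ)⁻¹) ∧ π γ ∈ H.alt := by
  have key : π γ ∈ H.alt ∧ ∀ s ∈ H.Tri, γ * z s * γ⁻¹ = z (π γ * s * (π γ)⁻¹) := by
    have hγ : γ ∈ Subgroup.closure (z '' H.Tri) := hz.gen ▸ Subgroup.mem_top γ
    induction hγ using Subgroup.closure_induction with
    | mem a ha =>
      obtain ⟨r, hr, rfl⟩ := ha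
      rw [hz.proj r hr]
      exact ⟨Subgroup.subset_closure hr, fun s hs => hz.conj r hr s hs⟩
    | one =>
      rw [map_one]
      exact ⟨H.alt.one_mem, fun s _ => by simp⟩
    | mul a b _ _ ha hb =>
      rw [map_mul]
      refine ⟨H.alt.mul_mem ha.1 hb.1, fun s hs => ?_⟩
      have h1 := ha.2 _ (Tri.conj (H.alt_le_full hb.1) hs)
      rw [← hb.2 s hs] at h1
      simpa only [mul_inv_rev, mul_assoc] using h1
    | inv a _ ha =>
      rw [map_inv]
      refine ⟨H.alt.inv_mem ha.1, fun s hs => ?_⟩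
      have h1 := ha.2 _ (Tri.conj (H.alt_le_full (H.alt.inv_mem ha.1)) hs)
      have e1 : π a * ((π a)⁻¹ * s * (π a)⁻¹⁻¹) * (π a)⁻¹ = s := by group
      rw [e1] at h1
      rw [← h1]
      group
  exact ⟨key.2 t ht, key.1⟩


theorem ZSys.central {Γ : Type} [Group Γ] {π : Γ →* Perm Ω} {z : Perm Ω → Γ} (hz : ZSys H π z) :
    π.ker ≤ Subgroup.center Γ := by
  intro γ hγ
  rw [Subgroup.mem_center_iff]
  intro a
  have ha : a ∈ Subgroup.closure (z '' H.Tri) := hz.gen ▸ Subgroup.mem_top a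
  induction ha using Subgroup.closure_induction with
  | mem a ha =>
    obtain ⟨r, hr, rfl⟩ := ha
    have h1 := (hz.conj_all γ hr).1
    rw [MonoidHom.mem_ker.1 hγ, one_mul, inv_one, mul_one] at h1
    exact (mul_inv_eq_iff_eq_mul.1 h1).symm
  | one => rw [one_mul, mul_one]
  | mul a b _ _ ha hb => rw [mul_assoc, hb, ← mul_assoc, ha, mul_assoc]
  | inv a _ ha => exact (show Commute a γ from ha).inv_left


theorem col_LE (h : H.LE H') : H.col.LE H'.col := by
  rintro f x ⟨f', c, h1, h2⟩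
  exact ⟨f', c, h _ _ h1, h2⟩

theorem col_orb (x : Ω × Col) : H.col.orb x = H.orb x.1 ×ˢ Set.univ := by
  ext y
  constructor
  · rintro ⟨g, ⟨f, c, h1, h2⟩, rfl⟩
    exact ⟨⟨f, h1, by rw [h2.eq_of_nhds]⟩, trivial⟩
  · rintro ⟨⟨f, h1, h2⟩, -⟩
    exact ⟨fun w => (f w.1, y.2), ⟨f, y.2, h1, .rfl⟩, Prod.ext h2 rfl⟩


end PG

end Vale.Agent.P196
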