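import Vale.Agent.P196.NF
import Vale.Agent.P196.PGBasic

/-! The germ filtration of the model. -/

namespace Vale.Agent.P196

open X Filter Topology

variable {i : ℕ} {o : Op} {p : X} {l l' : List Op}

theorem X.tyW_append : TyW i (l ++ l') p ↔ TyW i l p ∧ TyW i l' (run ap l p) := by
  induction l generalizing p with
  | nil => simp [TyW, run_nil]
  | cons o l ih => simp only [List.cons_append, TyW, run_cons, ih, and_assoc]

theorem X.TyLe.mono {j : ℕ} (h : TyLe i o p) (hij : i ≤ j) : TyLe j o p := by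
  rcases h with h | ⟨h1, h⟩ | ⟨h1, h⟩ | h
  · exact Or.inl h
  · exact Or.inr (Or.inl ⟨h1.trans hij, h⟩)
  · exact Or.inr (Or.inr (Or.inl ⟨h1.trans hij, h⟩))
  · exact Or.inr (Or.inr (Or.inr (h.trans hij)))

theorem X.TyW.mono {j : ℕ} (h : TyW i l p) (hij : i ≤ j) : TyW j l p := by
  induction l generalizing p with
  | nil => trivial
  | cons o l ih => exact ⟨h.1.mono hij, ih h.2⟩

theorem X.tyW_three (l : List Op) (p : X) : TyW 3 l p := by
  induction l generalizing p with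
  | nil => trivial
  | cons o l ih => exact ⟨Or.inr (Or.inr (Or.inr le_rfl)), ih _⟩

theorem gm_cr_S : ∀ (o : Op) (r ρ : Role), o.isS = true → (o.cr r ρ).2 = .S ρ ρ := by decide

theorem gm_cr_neT : ∀ (o : Op) (r ρ : Role), o ≠ .T → (o.cr r ρ).2 ≠ .T := by decide

theorem gm_cr_T : ∀ (o : Op) (r ρ : Role), r ≠ .al → (o.cr r ρ).2 ≠ .T := by decide

theorem gm_cr_X : ∀ (o : Op) (r ρ : Role), o ≠ .T → r ≠ .al → (o.cr r ρ).2.isS = true := by decide

theorem gm_cr_ga : ∀ (o : Op) (s : Bool) (ρ : Role), (o.cr (.ga s) ρ).2.isS = true := by decide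

theorem gm_inv_isS : ∀ o : Op, o.inv.isS = o.isS := by decide

theorem gm_inv_T : ∀ o : Op, o.inv = .T ↔ o = .T := by decide

theorem gm_inv_inv : ∀ o : Op, o.inv.inv = o := by decide

theorem gm_invW_invW (l : List Op) : invW (invW l) = l := by
  simp [invW, List.map_reverse, Function.comp_def, gm_inv_inv]

theorem gm_invW_cons (o : Op) (l : List Op) : invW (o :: l) = invW l ++ [o.inv] := by
  simp [invW]

theorem gm_lifts_inv (k : ℕ) : ∀ {o : Op} {p : X}, o.ok p.role = true →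
    lifts o.inv (ap o p) k = (lifts o p k).inv := by
  induction k with
  | zero => intro o p _; rfl
  | succ k ih =>
    intro o p ho
    rw [lifts_succ, lifts_succ, lift_inv ho, par_ap ho, ih (ok_lift ho)]

theorem gm_ap_D (ho : o.ok p.role = true) (k : ℕ) :
    (ap o p).D k = Dat.op (lifts o p k) (p.D k) (p.D (k + 1)) := by
  simp [ap, ho]

theorem gm_S_succ {k : ℕ} (h : (lifts o p k).isS = true) :
    lifts o p (k + 1) = .S (p.D (k + 1)).role (p.D (k + 1)).role := gm_cr_S _ _ _ h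

theorem gm_top_succ {k : ℕ} (h : (p.D k).c = ⊤) : p.D (k + 1) = p.D k := by
  have h1 := p.h k
  have h2 : (p.D k).role = .al := Dat.role_eq_al.2 (by simp [h])
  rw [h2] at h1
  have h3 : (p.D (k + 1)).c + 1 = ⊤ := by rw [← h, h1]; rfl
  have h4 : (p.D (k + 1)).c = ⊤ := by
    by_contra h5
    simp [h5] at h3
  rw [h1]
  ext <;> simp [Dat.ch, h4]

theorem gm_top_le {k k' : ℕ} (h : (p.D k).c = ⊤) (hk : k ≤ k') : p.D k' = p.D k := by
  induction k', hk using Nat.le_induction with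
  | base => rfl
  | succ n _ ih => rw [gm_top_succ (by rw [ih, h]), ih]

/-- The tail survives a letter. -/
theorem gm_tail_ap (ho : o.ok p.role = true) {k : ℕ} (h : (p.D k).c = ⊤) :
    ∃ k', ((ap o p).D k').c = ⊤ ∧ (((ap o p).D k').d = ⊤ ↔ (p.D k).d = ⊤) := by
  have hD := gm_ap_D ho k
  cases ho' : lifts o p k with
  | T => exact ⟨k, by rw [hD, ho']; simp [Dat.op, h]⟩
  | X s =>
    refine ⟨k, ?_⟩
    rw [hD, ho']
    simp only [Dat.op]
    split_ifs with h1 h2
    · simp [h, h2]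
    · refine ⟨by simp [h], ?_⟩
      generalize (p.D k).d = d
      induction d using ENat.recTopCoe with
      | top => simp
      | coe n => simp
    · simp [h]
  | S r r' =>
    refine ⟨k + 1, ?_⟩
    have h1 := gm_ap_D ho (k + 1)
    rw [gm_S_succ (by rw [ho']; rfl)] at h1
    simp only [Dat.op] at h1
    rw [← p.h (k + 1), gm_top_succ h] at h1
    rw [h1]
    exact ⟨h, Iff.rfl⟩

theorem X.TyLe.inv (ho : o.ok p.role = true) (h : TyLe i o p) : TyLe i o.inv (ap o p) := by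
  rcases h with ⟨k, h⟩ | ⟨h1, k, h2, h3⟩ | ⟨h1, k, h⟩ | h
  · exact Or.inl ⟨k, by rw [gm_lifts_inv k ho, gm_inv_isS, h]⟩
  · obtain ⟨k', h4, h5⟩ := gm_tail_ap ho h2
    exact Or.inr (Or.inl ⟨h1, k', h4, fun h6 => h3 (h5.1 h6)⟩)
  · exact Or.inr (Or.inr (Or.inl ⟨h1, k, by rw [gm_lifts_inv k ho, Ne, gm_inv_T]; exact h⟩))
  · exact Or.inr (Or.inr (Or.inr h))

theorem X.TyW.inv (hl : Valid l p) (h : TyW i l p) : TyW i (invW l) (run ap l p) := by
  induction l generalizing p with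
  | nil => trivial
  | cons o l ih =>
    rw [gm_invW_cons, run_cons, X.tyW_append, hl.2.run_inv]
    exact ⟨ih hl.2 h.2, h.1.inv hl.1, trivial⟩

theorem gm_ty_par : TyLe i o p ↔ TyLe i (lift o p) p.par := by
  constructor
  · rintro (⟨k, h⟩ | ⟨h1, k, h2, h3⟩ | ⟨h1, k, h⟩ | h)
    · exact Or.inl ⟨k, by rw [← lifts_succ, gm_S_succ h]; rfl⟩
    · refine Or.inr (Or.inl ⟨h1, k, ?_⟩)
      change (p.D (k + 1)).c = ⊤ ∧ (p.D (k + 1)).d ≠ ⊤
      rw [gm_top_succ h2]
      exact ⟨h2, h3⟩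
    · exact Or.inr (Or.inr (Or.inl ⟨h1, k, by rw [← lifts_succ]; exact gm_cr_neT _ _ _ h⟩))
    · exact Or.inr (Or.inr (Or.inr h))
  · rintro (⟨k, h⟩ | ⟨h1, k, h2, h3⟩ | ⟨h1, k, h⟩ | h)
    · exact Or.inl ⟨k + 1, by rw [lifts_succ]; exact h⟩
    · exact Or.inr (Or.inl ⟨h1, k + 1, h2, h3⟩)
    · exact Or.inr (Or.inr (Or.inl ⟨h1, k + 1, by rw [lifts_succ]; exact h⟩))
    · exact Or.inr (Or.inr (Or.inr h))

theorem gm_lift_cons (o : Op) (r : Role) (q : X) : lift o (cons r q) = (o.cr r q.role).2 := by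
  simp only [lift, role_cons, par_cons]

theorem gm_c_cons_al (q : X) : (cons .al q).dat.c ≠ ⊤ ↔ q.dat.c ≠ ⊤ := by
  rw [dat_cons]
  simp [Dat.ch]

/-- Side letters are regular off the points `aInf`. -/
theorem gm_regX (q : X) : ∀ o : Op, o ≠ .T → q.dat.c ≠ ⊤ → TyLe 0 o q := by
  induction q using ind_al with
  | h0 η d => intro o _ h; exact absurd rfl h
  | h1 q ih =>
    intro o ho h
    rw [gm_ty_par, par_cons, gm_lift_cons]
    exact ih _ (gm_cr_neT _ _ _ ho) ((gm_c_cons_al q).1 h)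
  | h2 r q hr =>
    intro o ho _
    rw [gm_ty_par, par_cons, gm_lift_cons]
    exact Or.inl ⟨0, gm_cr_X _ _ _ ho hr⟩

theorem gm_regT (q : X) : q.dat.c ≠ ⊤ → q.dat.d ≠ ⊤ → TyLe 0 .T q := by
  induction q using ind_al with
  | h0 η d => intro h; exact absurd rfl h
  | h1 q ih =>
    intro h h'
    rw [gm_ty_par, par_cons, gm_lift_cons]
    exact ih ((gm_c_cons_al q).1 h) h'
  | h2 r q hr =>
    intro _ h'
    rw [gm_ty_par, par_cons, gm_lift_cons]
    cases r with
    | al => exact absurd rfl hr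
    | ga s => exact Or.inl ⟨0, gm_cr_ga _ _ _⟩
    | be s =>
      refine gm_regX q _ (gm_cr_T _ _ _ hr) fun h => h' ?_
      rw [dat_cons]
      simp [Dat.ch, h]

theorem gm_neT (q : X) (o : Op) : q.dat.c ≠ ⊤ → ∃ k, lifts o q k ≠ .T := by
  induction q using ind_al generalizing o with
  | h0 η d => intro h; exact absurd rfl h
  | h1 q ih =>
    intro h
    obtain ⟨k, hk⟩ := ih (lift o (cons .al q)) ((gm_c_cons_al q).1 h)
    exact ⟨k + 1, by rw [lifts_succ]; exact hk⟩
  | h2 r q hr =>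
    intro _
    refine ⟨1, ?_⟩
    rw [lifts_succ, gm_lift_cons]
    exact gm_cr_T _ _ _ hr

theorem gm_ty_iter (k : ℕ) : ∀ {o : Op} {p : X},
    TyLe i o p ↔ TyLe i (lifts o p k) (par^[k] p) := by
  induction k with
  | zero => intro o p; rfl
  | succ k ih => intro o p; rw [gm_ty_par, ih, lifts_succ]; rfl

theorem gm_dat_iter (p : X) (k : ℕ) : (par^[k] p).dat = p.D k := par_iter_D p k 0

/-- Without a tail every letter is regular. -/
theorem gm_reg (h : ∀ k, (p.D k).c ≠ ⊤) (o : Op) : TyLe 0 o p := by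
  obtain ⟨k, hk⟩ := gm_neT p o (h 0)
  rw [gm_ty_iter k]
  exact gm_regX _ _ hk (by rw [gm_dat_iter]; exact h k)

theorem gm_cont_D (k : ℕ) : Continuous fun q : X => q.D k :=
  (continuous_apply k).comp continuous_induced_dom

theorem gm_ev_η (p : X) : ∀ᶠ q in 𝓝 p, q.dat.η = p.dat.η := by
  have h : Continuous fun q : X => q.dat.η :=
    (continuous_fst.comp (continuous_snd.comp
      (continuous_induced_dom (f := fun D : Dat => (D.c, D.η, D.d))))).comp (gm_cont_D 0)
  exact ((isOpen_discrete {p.dat.η}).preimage h).mem_nhds rfl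

theorem gm_ev_d (p : X) (hp : p.dat.d ≠ ⊤) : ∀ᶠ q in 𝓝 p, q.dat.d = p.dat.d := by
  have h : Continuous fun q : X => q.dat.d :=
    (continuous_snd.comp (continuous_snd.comp
      (continuous_induced_dom (f := fun D : Dat => (D.c, D.η, D.d))))).comp (gm_cont_D 0)
  exact ((ENat.isOpen_singleton hp).preimage h).mem_nhds rfl

theorem X.TyLe.zero_nhds (h : TyLe 0 o p) : ∀ᶠ q in 𝓝 p, TyLe 0 o q := by
  rcases h with ⟨k, h⟩ | ⟨h1, _⟩ | ⟨h1, _⟩ | h
  · filter_upwards [eventually_lifts o p k] with q hq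
    exact Or.inl ⟨k, by rw [hq, h]⟩
  all_goals omega

theorem gm_punct_top (hc : p.dat.c = ⊤) (h : TyLe (i + 1) o p) :
    ∀ᶠ q in 𝓝[≠] p, TyLe i o q := by
  have hp := eq_aInf hc
  by_cases hd : p.dat.d = ⊤
  · have key : ∀ᶠ q in 𝓝[≠] p, q.dat.c = ⊤ → q.dat.d ≠ ⊤ := by
      filter_upwards [self_mem_nhdsWithin, nhdsWithin_le_nhds (gm_ev_η p)] with q h1 h2 h3 h4
      exact h1 (by rw [eq_aInf h3, h2, h4, ← hd]; exact hp.symm)
    rcases h with h | ⟨_, k, h2, h3⟩ | ⟨h1, k, h⟩ | h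
    · filter_upwards [nhdsWithin_le_nhds (X.TyLe.zero_nhds (o := o) (Or.inl h))] with q hq
      exact hq.mono (Nat.zero_le _)
    · rw [gm_top_le (p := p) (k := 0) hc (Nat.zero_le k)] at h3
      exact absurd hd h3
    · have ho : o ≠ .T := by
        rintro rfl
        apply h
        clear h
        induction k with
        | zero => rfl
        | succ k ih =>
          have hr : (p.D k).role = .al := Dat.role_eq_al.2 (by
            rw [gm_top_le (p := p) (k := 0) hc (Nat.zero_le k)]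
            change p.dat.c ≠ 0
            simp [hc])
          simp only [lifts, ih, hr]
          rfl
      filter_upwards [key] with q hq
      by_cases hq' : q.dat.c = ⊤
      · exact Or.inr (Or.inl ⟨by omega, 0, hq', hq hq'⟩)
      · exact (gm_regX q o ho hq').mono (Nat.zero_le _)
    · filter_upwards [key] with q hq
      by_cases hq' : q.dat.c = ⊤
      · exact Or.inr (Or.inl ⟨by omega, 0, hq', hq hq'⟩)
      · exact Or.inr (Or.inr (Or.inl ⟨by omega, gm_neT q o hq'⟩))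
  · filter_upwards [self_mem_nhdsWithin, nhdsWithin_le_nhds (gm_ev_η p),
      nhdsWithin_le_nhds (gm_ev_d p hd)] with q h1 h2 h3
    have hq : q.dat.c ≠ ⊤ := fun h4 => h1 (by rw [eq_aInf h4, h2, h3]; exact hp.symm)
    by_cases ho : o = .T
    · subst ho
      exact (gm_regT q hq (by rw [h3]; exact hd)).mono (Nat.zero_le _)
    · exact (gm_regX q o ho hq).mono (Nat.zero_le _)

theorem gm_ev_role (p : X) : ∀ᶠ q in 𝓝 p, q.role = p.role := eventually_role p 0

theorem gm_tendsto_par (p : X) : Tendsto par (𝓝[≠] p) (𝓝[≠] p.par) := by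
  refine tendsto_nhdsWithin_iff.2 ⟨continuous_par.continuousAt.mono_left nhdsWithin_le_nhds, ?_⟩
  filter_upwards [self_mem_nhdsWithin, nhdsWithin_le_nhds (gm_ev_role p)] with q h1 h2 h3
  apply h1
  have h4 : q.par = p.par := h3
  rw [Set.mem_singleton_iff, ← cons_par q, h4, h2, cons_par]

theorem gm_punct (m : ℕ) : ∀ {o : Op} {p : X}, (p.D m).c = ⊤ → TyLe (i + 1) o p →
    ∀ᶠ q in 𝓝[≠] p, TyLe i o q := by
  induction m with
  | zero => intro o p hc h; exact gm_punct_top hc h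
  | succ m ih =>
    intro o p hc h
    have h1 := ih (p := p.par) hc (gm_ty_par.1 h)
    filter_upwards [(gm_tendsto_par p).eventually h1,
      nhdsWithin_le_nhds (eventually_lifts o p 1)] with q h2 h3
    have h4 : lift o q = lift o p := h3
    rw [gm_ty_par, h4]
    exact h2

theorem X.TyLe.punct (ho : o.ok p.role = true) (h : TyLe (i + 1) o p) :
    ∀ᶠ q in 𝓝[≠] p, TyLe i o q := by
  have _ := ho
  by_cases hc : ∃ m, (p.D m).c = ⊤
  · obtain ⟨m, hm⟩ := hc
    exact gm_punct m hm h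
  · push Not at hc
    filter_upwards [nhdsWithin_le_nhds (gm_reg hc o).zero_nhds] with q hq
    exact hq.mono (Nat.zero_le _)

theorem gm_tendsto_ap (ho : o.ok p.role = true) : Tendsto (ap o) (𝓝[≠] p) (𝓝[≠] (ap o p)) := by
  refine tendsto_nhdsWithin_iff.2
    ⟨(continuous_ap o).continuousAt.mono_left nhdsWithin_le_nhds, ?_⟩
  filter_upwards [self_mem_nhdsWithin, nhdsWithin_le_nhds (gm_ev_role p)] with q h1 h2 h3
  apply h1
  have h4 : ap o q = ap o p := h3
  rw [Set.mem_singleton_iff, ← ap_inv (o := o) (p := q) (by rw [h2]; exact ho), h4, ap_inv ho]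

theorem X.TyW.punct (hl : Valid l p) (h : TyW (i + 1) l p) : ∀ᶠ q in 𝓝[≠] p, TyW i l q := by
  induction l generalizing p with
  | nil => exact Eventually.of_forall fun _ => trivial
  | cons o l ih =>
    filter_upwards [h.1.punct hl.1, (gm_tendsto_ap hl.1).eventually (ih hl.2 h.2)] with q h1 h2
    exact ⟨h1, h2⟩

theorem X.TyW.nhds (hl : Valid l p) (h : TyW i l p) : ∀ᶠ q in 𝓝 p, TyW i l q := by
  have h1 := (h.mono (Nat.le_succ i)).punct hl
  rw [eventually_nhdsWithin_iff] at h1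
  filter_upwards [h1] with q hq
  by_cases h2 : q = p
  · rw [h2]; exact h
  · exact hq h2

theorem gm_iter_ap (k : ℕ) : ∀ {o : Op} {p : X}, o.ok p.role = true →
    par^[k] (ap o p) = ap (lifts o p k) (par^[k] p) := by
  induction k with
  | zero => intro o p _; rfl
  | succ k ih =>
    intro o p ho
    rw [Function.iterate_succ_apply, par_ap ho, ih (ok_lift ho), lifts_succ]
    rfl

theorem gm_iter_le {k k' : ℕ} {x y : X} (h : par^[k] x = par^[k] y) (hk : k ≤ k') :
    par^[k'] x = par^[k'] y := by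
  obtain ⟨j, rfl⟩ := Nat.exists_eq_add_of_le' hk
  rw [Function.iterate_add_apply, Function.iterate_add_apply, h]

theorem gm_par_S {r r' : Role} (h : (Op.S r r').ok p.role = true) :
    (ap (.S r r') p).par = p.par := by
  have h1 : r = p.role := by simpa [Op.ok] using h
  subst h1
  conv_lhs => rw [← cons_par p]
  rw [role_cons, ap_S, par_cons]

theorem gm_par_eq (ho : o.ok p.role = true) (h : TyLe 0 o p) :
    ∃ k, ∀ᶠ q in 𝓝 p, par^[k] (ap o q) = par^[k] q := by
  rcases h with ⟨k, h⟩ | ⟨h1, _⟩ | ⟨h1, _⟩ | h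
  · refine ⟨k + 1, ?_⟩
    filter_upwards [eventually_lifts o p k, gm_ev_role p] with q h1 h2
    have hq : o.ok q.role = true := by rw [h2]; exact ho
    have h3 := ok_lifts hq k
    rw [Function.iterate_succ_apply', Function.iterate_succ_apply', gm_iter_ap k hq]
    rw [← h1] at h
    rw [← gm_dat_iter] at h3
    cases h4 : lifts o q k with
    | T => rw [h4] at h; simp [Op.isS] at h
    | X s => rw [h4] at h; simp [Op.isS] at h
    | S r r' => rw [h4] at h3; exact gm_par_S h3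
  all_goals omega

/-- Regular words preserve a high enough ancestor. -/
theorem X.TyW.par_eq (hl : Valid l p) (h : TyW 0 l p) :
    ∃ k, ∀ᶠ q in 𝓝 p, par^[k] (run ap l q) = par^[k] q := by
  induction l generalizing p with
  | nil => exact ⟨0, Eventually.of_forall fun _ => rfl⟩
  | cons o l ih =>
    obtain ⟨k, hk⟩ := gm_par_eq hl.1 h.1
    obtain ⟨k', hk'⟩ := ih hl.2 h.2
    refine ⟨max k k', ?_⟩
    filter_upwards [hk, (continuous_ap o).continuousAt.eventually hk'] with q h1 h2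
    rw [run_cons, gm_iter_le h2 (le_max_right _ _), gm_iter_le h1 (le_max_left _ _)]

theorem gm_exps (l : List Op) : ∀ {y : X}, Valid l y → Valid (l.flatMap Op.exp) (cons .al y) ∧
    run ap (l.flatMap Op.exp) (cons .al y) = cons .al (run ap l y) ∧
    ∀ i, TyW i l y → TyW i (l.flatMap Op.exp) (cons .al y) := by
  induction l with
  | nil => intro y _; exact ⟨trivial, rfl, fun _ _ => trivial⟩
  | cons o l ih =>
    intro y hy
    obtain ⟨h1, h2, h3⟩ := X.exp_spec hy.1
    obtain ⟨h4, h5, h6⟩ := ih hy.2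
    rw [List.flatMap_cons, valid_append, run_append, h2, run_cons]
    refine ⟨⟨h1, h4⟩, h5, fun i hi => ?_⟩
    rw [X.tyW_append, h2]
    exact ⟨h3 i hi.1, h6 i hi.2⟩

theorem gm_ok_S (r r' : Role) (y : X) : (Op.S r r').ok (cons r y).role = true := by
  simp [role_cons, Op.ok]

/-- Changes of address are regular words. -/
theorem X.exists_word (a b : List Role) (hab : a.length = b.length) :
    ∃ l, ∀ q, Valid l (consL a q) ∧ TyW 0 l (consL a q) ∧ run ap l (consL a q) = consL b q := by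
  induction a generalizing b with
  | nil =>
    obtain rfl : b = [] := List.length_eq_zero_iff.1 hab.symm
    exact ⟨[], fun q => ⟨trivial, trivial, rfl⟩⟩
  | cons r a ih =>
    obtain _ | ⟨r', b⟩ := b
    · simp at hab
    obtain ⟨l, hl⟩ := ih b (by simpa using hab)
    refine ⟨.S r .al :: (l.flatMap Op.exp ++ [.S .al r']), fun q => ?_⟩
    obtain ⟨h1, h2, h3⟩ := hl q
    obtain ⟨h4, h5, h6⟩ := gm_exps l h1
    have e1 : consL (r :: a) q = cons r (consL a q) := rfl
    have e2 : consL (r' :: b) q = cons r' (consL b q) := rfl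
    rw [e1, e2]
    refine ⟨⟨gm_ok_S _ _ _, ?_⟩, ⟨Or.inl ⟨0, rfl⟩, ?_⟩, ?_⟩
    · rw [ap_S, valid_append, h5]
      exact ⟨h4, gm_ok_S _ _ _, trivial⟩
    · rw [ap_S, X.tyW_append]
      exact ⟨h6 0 h2, Or.inl ⟨0, rfl⟩, trivial⟩
    · rw [run_cons, ap_S, run_append, h5, h3, run_cons, ap_S, run_nil]

theorem gm_ev_valid (hl : Valid l p) : ∀ᶠ q in 𝓝 p, Valid l q :=
  (isClopen_valid l).isOpen.mem_nhds hl

/-- Germs of words whose letters have type at most `i`. -/
def HX (i : ℕ) : PG X where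
  mem f p := ∃ l, Valid l p ∧ TyW i l p ∧ f =ᶠ[𝓝 p] run ap l
  congr := by
    rintro f g x ⟨l, h1, h2, h3⟩ h
    exact ⟨l, h1, h2, h.symm.trans h3⟩
  id := fun x => ⟨[], trivial, trivial, Eventually.of_forall fun _ => rfl⟩
  comp := by
    rintro f g x ⟨l, h1, h2, h3⟩ ⟨l', h4, h5, h6⟩
    rw [h3.eq_of_nhds] at h4 h5 h6
    refine ⟨l ++ l', valid_append.2 ⟨h1, h4⟩, X.tyW_append.2 ⟨h2, h5⟩, ?_⟩
    filter_upwards [h3, (continuous_run l).continuousAt.eventually h6] with y hy hy'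
    rw [Function.comp_apply, hy, hy', run_append]
  inv := by
    rintro f x ⟨l, h1, h2, h3⟩
    rw [h3.eq_of_nhds]
    refine ⟨run ap (invW l), ⟨invW l, h1.inv, h2.inv h1, EventuallyEq.rfl⟩, ?_, ?_⟩
    · filter_upwards [h3, gm_ev_valid h1] with y hy hy'
      rw [Function.comp_apply, hy, hy'.run_inv]
      rfl
    · have h4 : Tendsto (run ap (invW l)) (𝓝 (run ap l x)) (𝓝 x) := by
        have := (continuous_run (invW l)).tendsto (run ap l x)
        rwa [h1.run_inv] at this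
      filter_upwards [h4.eventually h3, gm_ev_valid h1.inv] with y hy hy'
      have h5 := hy'.run_inv
      rw [gm_invW_invW] at h5
      rw [Function.comp_apply, hy, h5]
      rfl
  cont := by
    rintro f x ⟨l, _, _, h3⟩
    exact (continuous_run l).continuousAt.congr h3.symm
  nhds := by
    rintro f x ⟨l, h1, h2, h3⟩
    filter_upwards [gm_ev_valid h1, h2.nhds h1, h3.eventuallyEq_nhds] with y h4 h5 h6
    exact ⟨l, h4, h5, h6⟩

/-- The first `k` roles. -/
def gmAddr (k : ℕ) (p : X) : List Role := (List.range k).map fun i => (p.D i).role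

theorem gmAddr_length (k : ℕ) (p : X) : (gmAddr k p).length = k := by simp [gmAddr]

theorem gmAddr_spec (k : ℕ) : ∀ p : X, consL (gmAddr k p) (par^[k] p) = p := by
  induction k with
  | zero => intro p; rfl
  | succ k ih =>
    intro p
    have e : gmAddr (k + 1) p = p.role :: gmAddr k p.par := by
      simp only [gmAddr, List.range_succ_eq_map, List.map_cons, List.map_map]
      rfl
    have e2 : consL (p.role :: gmAddr k p.par) (par^[k] p.par) =
      cons p.role (consL (gmAddr k p.par) (par^[k] p.par)) := rfl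
    rw [e, Function.iterate_succ_apply, e2, ih, cons_par]

theorem gm_ev_addr (k : ℕ) (p : X) : ∀ᶠ q in 𝓝 p, gmAddr k q = gmAddr k p := by
  have h : ∀ᶠ q in 𝓝 p, ∀ j ∈ Finset.range k, (q.D j).role = (p.D j).role :=
    (Finset.eventually_all _).2 fun j _ => eventually_role p j
  filter_upwards [h] with q hq
  exact List.map_congr_left fun j hj => hq j (by simpa using hj)

theorem gm_iter_consL (a : List Role) (q : X) : par^[a.length] (consL a q) = q := by
  induction a with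
  | nil => rfl
  | cons r a ih => rw [List.length_cons, Function.iterate_succ_apply]; exact ih

theorem HX_zero_iff {f : X → X} : (HX 0).mem f p ↔
    ContinuousAt f p ∧ ∃ k, ∀ᶠ q in 𝓝 p, par^[k] (f q) = par^[k] q := by
  constructor
  · intro h
    refine ⟨(HX 0).cont h, ?_⟩
    obtain ⟨l, h1, h2, h3⟩ := h
    obtain ⟨k, hk⟩ := h2.par_eq h1
    refine ⟨k, ?_⟩
    filter_upwards [hk, h3] with q h4 h5
    rw [h5, h4]
  · rintro ⟨h1, k, hk⟩
    obtain ⟨l, hl⟩ := X.exists_word (gmAddr k p) (gmAddr k (f p))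
      (by rw [gmAddr_length, gmAddr_length])
    have h2 := hl (par^[k] p)
    rw [gmAddr_spec] at h2
    refine ⟨l, h2.1, h2.2.1, ?_⟩
    filter_upwards [hk, gm_ev_addr k p, h1.eventually (gm_ev_addr k (f p))] with q h3 h4 h5
    have h6 := (hl (par^[k] q)).2.2
    rw [← h4, gmAddr_spec, ← h5, ← h3, gmAddr_spec] at h6
    exact h6.symm

theorem HX_zero_orb {q : X} : q ∈ (HX 0).orb p ↔ ∃ k, par^[k] q = par^[k] p := by
  constructor
  · rintro ⟨f, hf, rfl⟩
    obtain ⟨_, k, hk⟩ := HX_zero_iff.1 hf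
    exact ⟨k, hk.self_of_nhds⟩
  · rintro ⟨k, hk⟩
    obtain ⟨l, hl⟩ := X.exists_word (gmAddr k p) (gmAddr k q)
      (by rw [gmAddr_length, gmAddr_length])
    have h2 := hl (par^[k] p)
    rw [gmAddr_spec, ← hk, gmAddr_spec] at h2
    exact ⟨run ap l, ⟨l, h2.1, h2.2.1, EventuallyEq.rfl⟩, h2.2.2⟩

theorem gm_HX_le {j : ℕ} (hij : i ≤ j) : (HX i).LE (HX j) := by
  rintro f x ⟨l, h1, h2, h3⟩
  exact ⟨l, h1, h2.mono hij, h3⟩

theorem HX_minimal (i : ℕ) (p : X) : Dense ((HX i).orb p) := by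
  intro y
  rw [mem_closure_iff_nhds]
  intro U hU
  obtain ⟨n, hn⟩ := mem_nhds_iff_near.1 hU
  obtain ⟨a, ha⟩ := exists_addr_near n y
  refine ⟨consL a (par^[a.length] p), hn _ (ha _), ?_⟩
  obtain ⟨f, h1, h2⟩ := (HX_zero_orb (p := p)).2 ⟨a.length, gm_iter_consL a (par^[a.length] p)⟩
  exact ⟨f, gm_HX_le (Nat.zero_le i) _ _ h1, h2⟩

/-- Where the germs of `HX (i + 1)` that are not in `HX i` live. -/
def SgX (i : ℕ) : Set X := if i = 0 then {p | ∃ η, ∃ d : ℕ, Tail η d p} else {p | ∃ η, Tail η ⊤ p}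

theorem gm_mem_Sg : p ∈ SgX i ↔ ∃ k, (p.D k).c = ⊤ ∧ ((p.D k).d = ⊤ ↔ i ≠ 0) := by
  unfold SgX
  split_ifs with hi
  · constructor
    · rintro ⟨η, d, k, hk⟩
      exact ⟨k, by rw [hk], by rw [hk]; simp [hi]⟩
    · rintro ⟨k, h1, h2⟩
      have h3 : (p.D k).d ≠ ⊤ := by simpa [hi] using h2
      refine ⟨(p.D k).η, (p.D k).d.toNat, k, ?_⟩
      ext <;> simp [h1, ENat.natCast_toNat h3]
  · constructor
    · rintro ⟨η, k, hk⟩
      exact ⟨k, by rw [hk], by rw [hk]; simp [hi]⟩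
    · rintro ⟨k, h1, h2⟩
      refine ⟨(p.D k).η, k, ?_⟩
      ext <;> simp [h1, h2.2 hi]

theorem gm_Sg_ap (ho : o.ok p.role = true) (h : p ∈ SgX i) : ap o p ∈ SgX i := by
  obtain ⟨k, h1, h2⟩ := gm_mem_Sg.1 h
  obtain ⟨k', h3, h4⟩ := gm_tail_ap ho h1
  exact gm_mem_Sg.2 ⟨k', h3, h4.trans h2⟩

theorem gm_Sg_run (hl : Valid l p) (h : p ∈ SgX i) : run ap l p ∈ SgX i := by
  induction l generalizing p with
  | nil => exact h
  | cons o l ih => exact ih hl.2 (gm_Sg_ap hl.1 h)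

theorem gm_sing (h : TyLe (i + 1) o p) (hp : p ∉ SgX i) : TyLe i o p := by
  by_cases hc : ∃ m, (p.D m).c = ⊤
  · obtain ⟨m, hm⟩ := hc
    rw [gm_mem_Sg] at hp
    push Not at hp
    rcases Nat.eq_zero_or_pos i with rfl | hi
    · rcases h with h | ⟨_, k, h2, h3⟩ | ⟨h1, _⟩ | h
      · exact Or.inl h
      · have := hp k h2
        simp [h3] at this
      all_goals omega
    · refine Or.inr (Or.inl ⟨hi, m, hm, fun h2 => ?_⟩)
      have := hp m hm
      simp [h2] at this
      omega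
  · push Not at hc
    exact (gm_reg hc o).mono (Nat.zero_le _)

theorem gm_singW (hl : Valid l p) (h : TyW (i + 1) l p) (hp : p ∉ SgX i) : TyW i l p := by
  induction l generalizing p with
  | nil => trivial
  | cons o l ih =>
    refine ⟨gm_sing h.1 hp, ih hl.2 h.2 fun h1 => hp ?_⟩
    have := gm_Sg_ap (ok_inv hl.1) h1
    rwa [ap_inv hl.1] at this

theorem gm_iso_triv {H : PG X} (h : ∀ f, H.mem f p → f p = p → f =ᶠ[𝓝 p] id) : H.Iso p :=
  ⟨id, id, H.id p, rfl, H.id p, rfl, EventuallyEq.rfl, EventuallyEq.rfl,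
    fun f h1 h2 => ⟨0, Or.inl (h f h1 h2)⟩⟩

theorem gm_X_fix (s : Bool) (η : Dart) : ap (.X s) (aInf η ⊤) = aInf η ⊤ := by
  rw [ap_X_aInf]
  simp

theorem gm_consL_rep (j : ℕ) (y : X) : consL (List.replicate j .al) y = (cons .al)^[j] y := by
  induction j with
  | zero => rfl
  | succ j ih => rw [Function.iterate_succ_apply', ← ih]; rfl

theorem gm_ok_X {s : Bool} (h : p.role = .al) : (Op.X s).ok p.role = true := by
  rw [h]; rfl

theorem gm_role_iter (j : ℕ) {y : X} (h : y.role = .al) : ((cons .al)^[j] y).role = .al := by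
  cases j with
  | zero => exact h
  | succ j => rw [Function.iterate_succ_apply', role_cons]

theorem gm_ap_iter (j : ℕ) (s : Bool) {y : X} (h : y.role = .al) :
    ap (.X s) ((cons .al)^[j] y) = (cons .al)^[j] (ap (.X s) y) :=
  true_ap j (o := .X s) (gm_ok_X h)

/-- The shift along the comb, `j` levels up. -/
noncomputable def gmSh (a : List Role) (s : Bool) (q : X) : X :=
  consL a (ap (.X s) (par^[a.length] q))

theorem gmSh_consL (a : List Role) (s : Bool) (y : X) :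
    gmSh a s (consL a y) = consL a (ap (.X s) y) := by
  rw [gmSh, gm_iter_consL]

theorem gmSh_iter (a : List Role) (s : Bool) (h : ℕ) (y : X) :
    (gmSh a s)^[h] (consL a y) = consL a ((ap (.X s))^[h] y) := by
  induction h with
  | zero => rfl
  | succ h ih => rw [Function.iterate_succ_apply', Function.iterate_succ_apply', ih, gmSh_consL]

theorem gm_ev_up {j : ℕ} {y : X} (hp : par^[j] p = y) {P : X → Prop} (h : ∀ᶠ z in 𝓝 y, P z) :
    ∀ᶠ q in 𝓝 p, ∃ z, P z ∧ q = consL (gmAddr j p) z := by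
  subst hp
  filter_upwards [(continuous_par.iterate j).continuousAt.eventually h, gm_ev_addr j p]
    with q h1 h2
  exact ⟨_, h1, by rw [← h2, gmAddr_spec]⟩

theorem gmSh_mem {j : ℕ} {η : Dart} (hp : par^[j] p = aInf η ⊤) (s : Bool) :
    (HX 2).mem (gmSh (gmAddr j p) s) p := by
  obtain ⟨l₁, h1⟩ := X.exists_word (gmAddr j p) (List.replicate j .al) (by simp [gmAddr_length])
  obtain ⟨l₂, h2⟩ := X.exists_word (List.replicate j .al) (gmAddr j p) (by simp [gmAddr_length])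
  have key : ∀ z : X, z.role = .al → Valid (l₁ ++ .X s :: l₂) (consL (gmAddr j p) z) ∧
      TyW 2 (l₁ ++ .X s :: l₂) (consL (gmAddr j p) z) ∧
      run ap (l₁ ++ .X s :: l₂) (consL (gmAddr j p) z) = consL (gmAddr j p) (ap (.X s) z) := by
    intro z hz
    obtain ⟨h3, h4, h5⟩ := h1 z
    obtain ⟨h6, h7, h8⟩ := h2 (ap (.X s) z)
    rw [gm_consL_rep] at h5 h6 h7 h8
    rw [← gm_ap_iter j s hz] at h6 h7 h8
    rw [valid_append, X.tyW_append, run_append, h5]
    exact ⟨⟨h3, gm_ok_X (gm_role_iter j hz), h6⟩, ⟨h4.mono (by omega),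
      Or.inr (Or.inr (Or.inl ⟨le_rfl, 0, by simp [lifts]⟩)), h7.mono (by omega)⟩, h8⟩
  have h3 := key (par^[j] p) (by rw [hp, role_aInf])
  rw [gmAddr_spec] at h3
  refine ⟨_, h3.1, h3.2.1, ?_⟩
  filter_upwards [gm_ev_up hp (gm_ev_role (aInf η ⊤))] with q ⟨z, h4, h5⟩
  rw [role_aInf] at h4
  rw [h5, gmSh_consL, (key z h4).2.2]

theorem gm_ev_iter (j : ℕ) (s : Bool) (η : Dart) (h : ℕ) : ∀ᶠ z in 𝓝 (aInf η ⊤),
    (ap (.X s))^[h] ((cons .al)^[j] z) = (cons .al)^[j] ((ap (.X s))^[h] z) := by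
  induction h with
  | zero => exact Eventually.of_forall fun _ => rfl
  | succ h ih =>
    have h1 : Tendsto (ap (.X s))^[h] (𝓝 (aInf η ⊤)) (𝓝 (aInf η ⊤)) := by
      have := ((continuous_ap (.X s)).iterate h).tendsto (aInf η ⊤)
      rwa [Function.iterate_fixed (gm_X_fix s η)] at this
    filter_upwards [ih, h1.eventually (gm_ev_role _)] with z h2 h3
    rw [role_aInf] at h3
    rw [Function.iterate_succ_apply', Function.iterate_succ_apply', h2, gm_ap_iter j s h3]

theorem gm_iso_comb (hi : 2 ≤ i) {j : ℕ} {η : Dart} (hp : par^[j] p = aInf η ⊤) :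
    (HX i).Iso p := by
  have hp' : p = consL (gmAddr j p) (aInf η ⊤) := by rw [← hp, gmAddr_spec]
  have hfix : ∀ s, gmSh (gmAddr j p) s p = p := by
    intro s
    conv_lhs => rw [hp']
    rw [← hp', gmSh, gmAddr_length, hp, gm_X_fix, ← hp']
  have hinv : ∀ s, gmSh (gmAddr j p) (!s) ∘ gmSh (gmAddr j p) s =ᶠ[𝓝 p] id := by
    intro s
    filter_upwards [gm_ev_up hp (gm_ev_role (aInf η ⊤))] with q ⟨z, h4, h5⟩
    rw [role_aInf] at h4
    have h6 : ap (.X (!s)) (ap (.X s) z) = z := ap_inv (o := .X s) (gm_ok_X h4)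
    rw [h5, Function.comp_apply, gmSh_consL, gmSh_consL, h6]
    rfl
  refine ⟨gmSh (gmAddr j p) true, gmSh (gmAddr j p) false, gm_HX_le hi _ _ (gmSh_mem hp _),
    hfix _, gm_HX_le hi _ _ (gmSh_mem hp _), hfix _, hinv true, hinv false, ?_⟩
  rintro f ⟨l, h1, _, h3⟩ hf
  obtain ⟨s, h, hN⟩ := nf_comb h1 (by rw [← h3.eq_of_nhds, hf]) hp
  obtain ⟨N, hN⟩ := hN X trueTower 0
  have key : f =ᶠ[𝓝 p] (gmSh (gmAddr j p) s)^[h] := by
    have h4 : ∀ᶠ z in 𝓝 (aInf η ⊤), Near N N (aInf η ⊤) z :=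
      (isClopen_near N N _).isOpen.mem_nhds (Near.refl _ _ _)
    filter_upwards [h3, gm_ev_up hp (h4.and (gm_ev_iter (0 + j) s η h))] with q h5 ⟨z, h6, h7⟩
    have h8 := hN _ (true_satP_iff.2 ⟨z, rfl, h6.1⟩)
    have h9 : trueTower.ap 0 = ap := trueAp_zero
    rw [h9, h6.2, true_down, true_down] at h8
    rw [h5, h7, gmSh_iter]
    exact h8
  refine ⟨h, ?_⟩
  cases s
  · exact Or.inr key
  · exact Or.inl key

theorem HX_step (hi : i < 3) : PG.Step (HX i) (HX (i + 1)) (SgX i) := by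
  have _ := hi
  refine ⟨gm_HX_le (Nat.le_succ i), ?_, ?_, ?_, ?_⟩
  · rintro f x ⟨l, h1, h2, h3⟩
    filter_upwards [nhdsWithin_le_nhds (gm_ev_valid h1), h2.punct h1,
      nhdsWithin_le_nhds h3.eventuallyEq_nhds] with y h4 h5 h6
    exact ⟨l, h4, h5, h6⟩
  · rintro f x ⟨l, h1, h2, h3⟩ hx
    exact ⟨l, h1, gm_singW h1 h2 hx, h3⟩
  · rintro f x ⟨l, h1, h2, h3⟩ hx
    rw [h3.eq_of_nhds]
    exact gm_Sg_run h1 hx
  · intro x hx
    obtain ⟨k, h1, h2⟩ := gm_mem_Sg.1 hx
    rcases Nat.eq_zero_or_pos i with rfl | h0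
    · apply gm_iso_triv
      rintro f ⟨l, h3, _, h4⟩ hf
      refine h4.trans (nf_other h3 (by rw [← h4.eq_of_nhds, hf]) ?_).eventuallyEq
      rintro η ⟨k', hk'⟩
      have h5 : (x.D k').c = ⊤ := by rw [hk']
      have h6 := gm_top_le h1 (le_max_left k k')
      rw [gm_top_le h5 (le_max_right k k'), hk'] at h6
      rw [← h6] at h2
      simp at h2
    · refine gm_iso_comb (by omega) (j := k) (η := (x.D k).η) ?_
      have h3 := eq_aInf (p := par^[k] x) (by rw [gm_dat_iter, h1])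
      rwa [gm_dat_iter, h2.2 (by omega)] at h3

theorem PG.Step.col {Ω : Type} [TopologicalSpace Ω] {H H' : PG Ω} {Sg : Set Ω}
    (h : PG.Step H H' Sg) : PG.Step H.col H'.col (Sg ×ˢ Set.univ) := by
  have hsnd : ∀ x : Ω × Col, ∀ᶠ y in 𝓝 x, y.2 = x.2 := fun x =>
    ((isOpen_discrete {x.2}).preimage continuous_snd).mem_nhds rfl
  refine ⟨?_, ?_, ?_, ?_, ?_⟩
  · rintro g x ⟨f, c, h1, h2⟩
    exact ⟨f, c, h.le _ _ h1, h2⟩
  · rintro g x ⟨f, c, h1, h2⟩
    have h3 : Tendsto Prod.fst (𝓝[≠] x) (𝓝[≠] x.1) := by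
      refine tendsto_nhdsWithin_iff.2 ⟨continuousAt_fst.mono_left nhdsWithin_le_nhds, ?_⟩
      filter_upwards [self_mem_nhdsWithin, nhdsWithin_le_nhds (hsnd x)] with y h4 h5 h6
      exact h4 (Prod.ext h6 h5)
    filter_upwards [h3.eventually (h.punct _ _ h1), nhdsWithin_le_nhds h2.eventuallyEq_nhds]
      with y h4 h5
    exact ⟨f, c, h4, h5⟩
  · rintro g x ⟨f, c, h1, h2⟩ hx
    exact ⟨f, c, h.sing _ _ h1 fun h3 => hx ⟨h3, trivial⟩, h2⟩
  · rintro g x ⟨f, c, h1, h2⟩ hx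
    rw [h2.eq_of_nhds]
    exact ⟨h.inv _ _ h1 hx.1, trivial⟩
  · intro x hx
    obtain ⟨u, u', h1, h2, h3, h4, h5, h6, h7⟩ := h.iso _ hx.1
    have hm : ∀ {v : Ω → Ω}, H'.mem v x.1 → H'.col.mem (Prod.map v _root_.id) x := fun hv =>
      ⟨_, x.2, hv, by
        filter_upwards [hsnd x] with y hy
        exact Prod.ext rfl hy⟩
    have he : ∀ {v v' : Ω → Ω}, v =ᶠ[𝓝 x.1] v' →
        Prod.map v (_root_.id : Col → Col) =ᶠ[𝓝 x] Prod.map v' _root_.id := fun hv => by
      filter_upwards [continuousAt_fst.eventually hv] with y hy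
      exact Prod.ext hy rfl
    refine ⟨Prod.map u _root_.id, Prod.map u' _root_.id, hm h1, Prod.ext h2 rfl, hm h3, Prod.ext h4 rfl,
      he h5, he h6, ?_⟩
    rintro g ⟨f, c, h8, h9⟩ hg
    have h10 : (f x.1, c) = x := h9.eq_of_nhds.symm.trans hg
    have h11 : g =ᶠ[𝓝 x] Prod.map f _root_.id := by
      filter_upwards [h9, hsnd x] with y hy hy'
      rw [hy]
      exact Prod.ext rfl ((congrArg Prod.snd h10).trans hy'.symm)
    obtain ⟨n, hn⟩ := h7 f h8 (congrArg Prod.fst h10)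
    refine ⟨n, hn.imp (fun hn => ?_) fun hn => ?_⟩
    · rw [Prod.map_iterate, Function.iterate_id]
      exact h11.trans (he hn)
    · rw [Prod.map_iterate, Function.iterate_id]
      exact h11.trans (he hn)

end Vale.Agent.P196
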