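import Vale.Agent.P196.Germ

/-! The AF structure of level zero; finiteness of the zeroth homology mod two. -/

namespace Vale.Agent.P196

open X Filter Topology

/-- The first `k` roles. -/
def gfAddr : ℕ → X → List Role
  | 0, _ => []
  | k + 1, p => p.role :: gfAddr k p.par

theorem gfAddr_length (k : ℕ) : ∀ p, (gfAddr k p).length = k := by
  induction k with
  | zero => exact fun _ => rfl
  | succ k ih => exact fun p => by simp [gfAddr, ih]

theorem gf_consL_addr (k : ℕ) : ∀ p, consL (gfAddr k p) (par^[k] p) = p := by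
  induction k with
  | zero => exact fun _ => rfl
  | succ k ih =>
    intro p
    show cons p.role (consL (gfAddr k p.par) (par^[k] p.par)) = p
    rw [ih, cons_par]

theorem gf_addr_consL (a : List Role) (q : X) : gfAddr a.length (consL a q) = a := by
  induction a with
  | nil => rfl
  | cons r a ih =>
    show (cons r (consL a q)).role :: gfAddr a.length (consL a q) = r :: a
    rw [ih, role_cons]

theorem gf_par_consL (a : List Role) (q : X) : par^[a.length] (consL a q) = q := by
  induction a with
  | nil => rfl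
  | cons r a ih => exact ih

theorem gf_cont_consL (a : List Role) : Continuous (consL a) := by
  induction a with
  | nil => exact continuous_id
  | cons r a ih => exact (continuous_cons r).comp ih

theorem gf_addr_nhds (k : ℕ) : ∀ p, ∀ᶠ q in 𝓝 p, gfAddr k q = gfAddr k p := by
  induction k with
  | zero => exact fun _ => Eventually.of_forall fun _ => rfl
  | succ k ih =>
    intro p
    filter_upwards [eventually_role p 0, continuous_par.continuousAt.eventually (ih p.par)]
      with q h1 h2
    simp only [gfAddr]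
    rw [h2]
    exact congrArg (· :: _) h1

theorem gf_zero_le (n : ℕ) : (HX 0).LE (HX n) := by
  rintro f x ⟨l, h1, h2, h3⟩
  exact ⟨l, h1, h2.mono (Nat.zero_le _), h3⟩

theorem gf_mem_addr (n : ℕ) (a : List Role) (p : X) :
    (HX n).mem (fun q => consL a (par^[a.length] q)) p :=
  gf_zero_le n _ _ (HX_zero_iff.2
    ⟨((gf_cont_consL a).comp (continuous_par.iterate _)).continuousAt, a.length,
      Eventually.of_forall fun _ => gf_par_consL a _⟩)

theorem gf_par_mono {p q : X} {j k : ℕ} (h : par^[j] q = par^[j] p) (hjk : j ≤ k) :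
    par^[k] q = par^[k] p := by
  obtain ⟨i, rfl⟩ := Nat.exists_eq_add_of_le' hjk
  rw [Function.iterate_add_apply, Function.iterate_add_apply, h]

theorem gf_unif {g : Equiv.Perm (X × Col)} (hg : g ∈ (HX 0).col.full) :
    ∃ k, ∀ x, par^[k] (g x).1 = par^[k] x.1 := by
  have h1 : ∀ x : X × Col, ∃ k, {y : X × Col | par^[k] (g y).1 = par^[k] y.1} ∈ 𝓝 x := by
    intro x
    obtain ⟨f, c, h2, h3⟩ := hg x
    obtain ⟨-, k, hk⟩ := HX_zero_iff.1 h2
    refine ⟨k, ?_⟩
    filter_upwards [h3, continuousAt_fst.eventually hk] with y a1 a2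
    rw [a1]
    exact a2
  choose L hL using h1
  obtain ⟨t, ht⟩ := CompactSpace.elim_nhds_subcover _ hL
  refine ⟨t.sup L, fun x => ?_⟩
  have : x ∈ ⋃ y ∈ t, {z : X × Col | par^[L y] (g z).1 = par^[L y] z.1} := by
    rw [ht]
    trivial
  obtain ⟨y, hy, hx⟩ := Set.mem_iUnion₂.1 this
  exact gf_par_mono hx (Finset.le_sup hy)

/-- The fibre of the tower of height `k`. -/
def GfY (k : ℕ) : Type := {a : List Role // a.length = k} × Col

instance (k : ℕ) : TopologicalSpace (GfY k) := ⊥
instance (k : ℕ) : DiscreteTopology (GfY k) := ⟨rfl⟩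
instance (k : ℕ) : Finite (GfY k) := by
  have : Finite {a : List Role // a.length = k} := (List.finite_length_eq Role k).to_subtype
  unfold GfY
  infer_instance

/-- The trivialisation of height `k`. -/
def gfE (k : ℕ) : X × GfY k ≃ₜ X × Col where
  toFun z := (consL z.2.1.1 z.1, z.2.2)
  invFun x := (par^[k] x.1, (⟨gfAddr k x.1, gfAddr_length k _⟩, x.2))
  left_inv := by
    rintro ⟨q, ⟨a, rfl⟩, c⟩
    exact Prod.ext (gf_par_consL a q) (Prod.ext (Subtype.ext (gf_addr_consL a q)) rfl)
  right_inv x := Prod.ext (gf_consL_addr k x.1) rfl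
  continuous_toFun :=
    continuous_prod_of_discrete_right.2 fun y =>
      (gf_cont_consL y.1.1).prodMk (continuous_const (y := y.2))
  continuous_invFun := by
    refine ((continuous_par.iterate k).comp continuous_fst).prodMk
      (continuous_iff_continuousAt.2 fun x => ?_)
    refine ContinuousAt.congr (Y := GfY k) (f := fun _ => (⟨gfAddr k x.1, gfAddr_length k _⟩, x.2))
      continuousAt_const ?_
    filter_upwards [continuousAt_fst.eventually (gf_addr_nhds k x.1),
      (isOpen_discrete {x.2}).preimage continuous_snd |>.mem_nhds rfl] with y h1 h2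
    exact Prod.ext (Subtype.ext h1.symm) (Eq.symm h2)

theorem HX_af (n : ℕ) : PG.AF (HX 0).col (HX n).col := by
  intro K hK
  choose! L hL using fun g hg => gf_unif (hK g hg)
  refine ⟨X, inferInstance, GfY (K.sup L), inferInstance, inferInstance, inferInstance,
    gfE _, ?_, fun g hg x => gf_par_mono (hL g hg x) (Finset.le_sup hg)⟩
  rintro ⟨⟨a, ha⟩, c⟩ x
  refine ⟨_, c, gf_mem_addr n a x.1, Eventually.of_forall fun y => ?_⟩
  rw [ha]
  rfl

theorem gf_consL_rep (k : ℕ) (q : X) : consL (List.replicate k .al) q = (cons .al)^[k] q := by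
  induction k with
  | zero => rfl
  | succ k ih =>
    rw [Function.iterate_succ_apply', ← ih]
    rfl

theorem gf_image_consL (a : List Role) (U : Set X) :
    consL a '' U = {p | gfAddr a.length p = a} ∩ par^[a.length] ⁻¹' U := by
  ext p
  constructor
  · rintro ⟨q, hq, rfl⟩
    exact ⟨gf_addr_consL a q, by rwa [Set.mem_preimage, gf_par_consL]⟩
  · rintro ⟨h1, h2⟩
    refine ⟨_, h2, ?_⟩
    have := gf_consL_addr a.length p
    rwa [show gfAddr a.length p = a from h1] at this

theorem gf_clopen_consL (a : List Role) {U : Set X} (hU : IsClopen U) :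
    IsClopen (consL a '' U) := by
  rw [gf_image_consL]
  refine IsClopen.inter ?_ (hU.preimage (continuous_par.iterate _))
  have : IsLocallyConstant (gfAddr a.length) :=
    (IsLocallyConstant.iff_eventually_eq _).2 (gf_addr_nhds _)
  exact this.isClopen_fiber a

theorem gf_inj_consL (a : List Role) : Function.Injective (consL a) :=
  Function.LeftInverse.injective (gf_par_consL a)

theorem gf_consL_append (a b : List Role) (q : X) : consL (a ++ b) q = consL a (consL b q) :=
  List.foldr_append

theorem gf_valid_low (s : Bool) (d : ℕ) : ∀ u : X, u.dat.η.side ≠ s → (d : ℕ∞) ≤ u.dat.c →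
    Valid (List.replicate d (.X s)) u := by
  induction d with
  | zero => exact fun _ _ _ => trivial
  | succ d ih =>
    intro u h1 h2
    have hc : u.dat.c ≠ 0 := by
      intro h
      rw [h] at h2
      simp at h2
    have hr : u.role = .al := Dat.role_eq_al.2 hc
    have ho : (Op.X s).ok u.role = true := by rw [hr]; rfl
    have e : (ap (.X s) u).dat = ⟨u.dat.c - 1, u.dat.η, u.dat.d + 1⟩ := by
      rw [dat_ap ho]
      simp [Dat.op, h1]
    refine ⟨ho, ih _ (by rw [e]; exact h1) ?_⟩
    rw [e]
    exact ENat.le_sub_of_add_le_right (by simp) (by exact_mod_cast h2)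

theorem gf_run_rep (o : Op) (d : ℕ) (u : X) : run ap (List.replicate d o) u = (ap o)^[d] u := by
  induction d generalizing u with
  | zero => rfl
  | succ d ih => rw [List.replicate_succ, run_cons, ih, Function.iterate_succ_apply]

theorem gf_dat_iter (k : ℕ) (q : X) :
    ((cons .al)^[k] q).dat = ⟨q.dat.c + k, q.dat.η, q.dat.d⟩ := by
  induction k with
  | zero => simp
  | succ k ih =>
    rw [Function.iterate_succ_apply', dat_cons, ih]
    simp [Dat.ch, add_assoc]

section

variable {M : Type} [CommGroup M] {ζ : Set X → M}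

theorem gf_union {ι : Type}
    (hadd : ∀ U V, IsClopen U → IsClopen V → Disjoint U V → ζ (U ∪ V) = ζ U * ζ V)
    {P : M → Prop} (h1 : P 1) (hm : ∀ a b, P a → P b → P (a * b)) (C : ι → Set X)
    (hC : ∀ i, IsClopen (C i)) (hd : ∀ i j, C i = C j ∨ Disjoint (C i) (C j)) (F : Finset ι)
    (hP : ∀ i ∈ F, P (ζ (C i))) : P (ζ (⋃ i ∈ F, C i)) := by
  classical
  induction F using Finset.induction_on with
  | empty =>
    have := hadd ∅ ∅ isClopen_empty isClopen_empty (by simp)
    rw [Set.union_empty, left_eq_mul] at this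
    simpa [this] using h1
  | insert i F hi ih =>
    have ih' := ih fun j hj => hP j (Finset.mem_insert_of_mem hj)
    rw [Finset.set_biUnion_insert]
    by_cases h : ∃ j ∈ F, C i = C j
    · obtain ⟨j, hj, e⟩ := h
      rwa [Set.union_eq_self_of_subset_left (e ▸ Set.subset_biUnion_of_mem (u := C) hj)]
    · rw [hadd _ _ (hC i) (isClopen_biUnion_finset fun j _ => hC j)
        (Set.disjoint_iUnion₂_right.2 fun j hj => (hd i j).resolve_left fun e => h ⟨j, hj, e⟩)]
      exact hm _ _ (hP i (Finset.mem_insert_self _ _)) ih'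

theorem gf_finite (T : ℕ → Set M) (N : ℕ) (hT : ∀ k, (T k).encard ≤ N) (hm : Monotone T) :
    (⋃ k, T k).Finite := by
  by_contra h
  obtain ⟨F, hF, hc⟩ := Set.Infinite.exists_subset_card_eq h (N + 1)
  obtain ⟨k, hk⟩ := (hm.directed_le).exists_mem_subset_of_finset_subset_biUnion hF
  have := (Set.encard_le_encard hk).trans (hT k)
  rw [Set.encard_coe_eq_coe_finsetCard, hc] at this
  have : N + 1 ≤ N := by exact_mod_cast this
  omega

end

theorem HX_F0 : (HX 3).F0 := by
  intro M _ ζ hsq hadd hinv
  have hemp : ζ ∅ = 1 := by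
    have := hadd ∅ ∅ isClopen_empty isClopen_empty (by simp)
    rwa [Set.union_empty, left_eq_mul] at this
  have haddr : ∀ (a b : List Role) (U : Set X), a.length = b.length → IsClopen U →
      ζ (consL a '' U) = ζ (consL b '' U) := by
    intro a b U hab hU
    have := hinv (consL b '' U) _ (gf_clopen_consL b hU) (fun x _ => gf_mem_addr 3 a x) (by
      rintro _ ⟨p, -, rfl⟩ _ ⟨q, -, rfl⟩ e
      simp only [hab, gf_par_consL] at e
      rw [gf_inj_consL a e])
    rw [← this, Set.image_image]
    simp only [hab, gf_par_consL]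
  set A : ℕ → X → X := fun k => consL (List.replicate k .al) with hA
  set T : ℕ → Set M := fun k => Set.range fun S : Set Lab => ζ (A k '' labS S) with hT
  have hcl : ∀ k S, IsClopen (A k '' labS S) := fun k S => gf_clopen_consL _ (isClopen_labS S)
  have hone : ∀ k, 1 ∈ T k := fun k => ⟨∅, by simp [labS, hemp]⟩
  have hsplit : ∀ k S S', Disjoint S S' →
      ζ (A k '' labS (S ∪ S')) = ζ (A k '' labS S) * ζ (A k '' labS S') := by
    intro k S S' h
    rw [← hadd _ _ (hcl k S) (hcl k S')
      (Set.disjoint_image_of_injective (gf_inj_consL _) (h.preimage lab)), ← Set.image_union]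
    rfl
  have hmul : ∀ k a b, a ∈ T k → b ∈ T k → a * b ∈ T k := by
    rintro k _ _ ⟨S, rfl⟩ ⟨S', rfl⟩
    refine ⟨(S \ S') ∪ (S' \ S), ?_⟩
    have e1 := hsplit k (S \ S') (S ∩ S') Set.disjoint_sdiff_inter
    have e2 := hsplit k (S' \ S) (S' ∩ S) Set.disjoint_sdiff_inter
    rw [Set.sdiff_union_inter] at e1 e2
    have e3 := hsq (A k '' labS (S ∩ S'))
    simp only
    rw [hsplit k _ _ disjoint_sdiff_sdiff, e1, e2, Set.inter_comm S' S, mul_mul_mul_comm, ← sq, e3,
      mul_one]
  have hmono : Monotone T := by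
    refine monotone_nat_of_le_succ fun k => ?_
    rintro _ ⟨S, rfl⟩
    have e : A k '' labS S = ⋃ r ∈ (Finset.univ : Finset Role),
        consL (List.replicate k .al ++ [r]) '' labS (Lab.chl r ⁻¹' S) := by
      ext p
      simp only [Finset.mem_univ, Set.iUnion_true, Set.mem_iUnion]
      constructor
      · rintro ⟨q, hq, rfl⟩
        refine ⟨q.role, q.par, ?_, ?_⟩
        · show q.par.lab.chl q.role ∈ S
          rw [← lab_cons, cons_par]
          exact hq
        · rw [gf_consL_append]
          exact congrArg (A k) (cons_par q)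
      · rintro ⟨r, q, hq, rfl⟩
        refine ⟨cons r q, ?_, (gf_consL_append _ [r] q).symm⟩
        show (cons r q).lab ∈ S
        rw [lab_cons]
        exact hq
    simp only
    rw [e]
    refine gf_union hadd (P := (· ∈ T (k + 1))) (hone _) (hmul _) _
      (fun r => gf_clopen_consL _ (isClopen_labS _)) (fun r r' => ?_) _ fun r _ => ?_
    · by_cases h : r = r'
      · exact Or.inl (by rw [h])
      · refine Or.inr (Set.disjoint_left.2 ?_)
        rintro _ ⟨p, -, rfl⟩ ⟨q, -, e⟩
        rw [gf_consL_append, gf_consL_append] at e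
        have := congrArg role (gf_inj_consL _ e)
        exact h ((role_cons r p).symm.trans (this.symm.trans (role_cons r' q)))
    · exact ⟨_, haddr _ _ _ (by simp) (isClopen_labS _)⟩
  have hnear : ∀ n m k p, ζ (A k '' {q | Near m n p q}) ∈ ⋃ k, T k := by
    intro n m
    induction m with
    | zero =>
      intro k p
      set D := TD.can n p.dat with hD
      have hv : ∀ u ∈ A (k + D.d + D.c) '' labS D.set,
          Valid (List.replicate D.d (.X (!D.η.side))) u := by
        rintro _ ⟨q, hq, rfl⟩
        have h1 : q.dat.η = D.η := (Dat.th_η q.dat).symm.trans hq.1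
        refine gf_valid_low _ _ _ ?_ ?_
        · simp [hA, gf_consL_rep, gf_dat_iter, h1]
        · simp only [hA, gf_consL_rep, gf_dat_iter]
          exact le_add_left (Nat.cast_le.2 (by omega))
      have e : A k '' {q | Near 0 n p q} = run ap (List.replicate D.d (.X (!D.η.side))) ''
          (A (k + D.d + D.c) '' labS D.set) := by
        ext x
        have h1 := true_satP_iff (k := k) (m := 0) (n := n) (p := p) (x := x)
        constructor
        · rintro ⟨q, hq, rfl⟩
          obtain ⟨u, ⟨q', h2, h3⟩, h4⟩ := h1.2 ⟨q, gf_consL_rep k q, hq⟩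
          refine ⟨u, ⟨q', h3, (gf_consL_rep _ _).trans h2.symm⟩, ?_⟩
          rw [gf_run_rep]
          exact h4.symm
        · rintro ⟨_, ⟨q', h3, rfl⟩, rfl⟩
          obtain ⟨q, h4, h5⟩ := h1.1 ⟨_, ⟨q', gf_consL_rep _ _, h3⟩, gf_run_rep _ _ _⟩
          exact ⟨q, h5, (gf_consL_rep _ _).trans h4.symm⟩
      rw [e, hinv _ _ (hcl _ _) (fun x hx => ⟨_, hv x hx, tyW_three _ _, .rfl⟩)
        ((injOn_run _).mono hv)]
      exact Set.mem_iUnion.2 ⟨_, _, rfl⟩
    | succ m ih =>
      intro k p
      have e : A k '' {q | Near (m + 1) n p q} =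
          consL (List.replicate k .al ++ [p.role]) '' {q | Near m n p.par q} := by
        ext x
        constructor
        · rintro ⟨q, hq, rfl⟩
          obtain ⟨h1, h2⟩ := near_succ.1 hq
          refine ⟨q.par, h2, ?_⟩
          rw [gf_consL_append, h1]
          exact congrArg (A k) (cons_par q)
        · rintro ⟨q, hq, rfl⟩
          exact ⟨cons p.role q, near_succ.2 ⟨(role_cons _ _).symm, hq⟩,
            (gf_consL_append _ [p.role] q).symm⟩
      rw [e, haddr _ (List.replicate (k + 1) .al) _ (by simp) (isClopen_near _ _ _)]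
      exact ih (k + 1) p.par
  refine (gf_finite T (Nat.card (Set Lab)) (fun k => ?_) hmono).subset ?_
  · simp only [hT]
    rw [← Set.image_univ]
    refine (Set.encard_image_le _ _).trans ?_
    rw [Set.encard_univ, ENat.card_eq_coe_natCard]
  · rintro _ ⟨U, hU, rfl⟩
    obtain ⟨n, hn⟩ := isClopen_iff_near.1 hU
    obtain ⟨F, hF⟩ := finite_near n n
    classical
    have e : U = ⋃ p ∈ F.filter (fun p => p ∈ U), {q | Near n n p q} := by
      ext x
      simp only [Set.mem_iUnion]
      constructor
      · intro hx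
        obtain ⟨p, h1, h2⟩ := hF x
        exact ⟨p, Finset.mem_filter.2 ⟨h1, hn _ _ h2.symm hx⟩, h2⟩
      · rintro ⟨p, h1, h2⟩
        exact hn _ _ h2 (Finset.mem_filter.1 h1).2
    rw [e]
    refine gf_union hadd (P := (· ∈ ⋃ k, T k)) (Set.mem_iUnion.2 ⟨0, hone 0⟩) (fun a b ha hb => ?_) _
      (fun p => isClopen_near n n p) (fun p p' => ?_) _ fun p _ => ?_
    · obtain ⟨i, hi⟩ := Set.mem_iUnion.1 ha
      obtain ⟨j, hj⟩ := Set.mem_iUnion.1 hb
      exact Set.mem_iUnion.2 ⟨max i j, hmul _ _ _ (hmono (le_max_left _ _) hi)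
        (hmono (le_max_right _ _) hj)⟩
    · by_cases h : Near n n p p'
      · exact Or.inl (Set.ext fun q => ⟨fun a => h.symm.trans a, fun a => h.trans a⟩)
      · exact Or.inr (Set.disjoint_left.2 fun q a b => h (Near.trans a (Near.symm b)))
    · have := hnear n n 0 p
      rwa [show A 0 '' {q | Near n n p q} = {q | Near n n p q} from Set.image_id _] at this

end Vale.Agent.P196
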