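import Vale.Agent.P196.Germ

/-! Finiteness facts for the kernel. -/

namespace Vale.Agent.P196

open X

def P0X (i : ℕ) : Set X :=
  if i = 0 then {p | ∃ η, p = aInf η 0 ∨ p = aInf η 1} else {p | ∃ η, p = aInf η ⊤}

namespace GK

open Filter Topology

variable {η η' : Dart} {d d' : ℕ∞} {p q : X}

theorem par_iter_aInf (η : Dart) (d : ℕ∞) (k : ℕ) : par^[k] (aInf η d) = aInf η d :=
  Function.iterate_fixed (par_aInf η d) k

theorem tail_ev (h : Tail η d p) : ∃ k, ∀ j, k ≤ j → par^[j] p = aInf η d := by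
  obtain ⟨k, hk⟩ := h
  have h1 : (par^[k] p).dat = ⟨⊤, η, d⟩ := (par_iter_D p k 0).trans hk
  have h2 := eq_aInf (p := par^[k] p) (by rw [h1])
  rw [h1] at h2
  refine ⟨k, fun j hj => ?_⟩
  obtain ⟨j, rfl⟩ := Nat.exists_eq_add_of_le' hj
  rw [Function.iterate_add_apply, h2, par_iter_aInf]

theorem tail_of {k : ℕ} (h : par^[k] p = aInf η d) : Tail η d p :=
  ⟨k, (par_iter_D p k 0).symm.trans (by rw [h]; rfl)⟩

theorem tail_aInf (η : Dart) (d : ℕ∞) : Tail η d (aInf η d) := ⟨0, rfl⟩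

theorem tail_unique (h : Tail η d p) (h' : Tail η' d' p) : η = η' ∧ d = d' := by
  obtain ⟨k, hk⟩ := tail_ev h
  obtain ⟨k', hk'⟩ := tail_ev h'
  have := congrArg X.dat ((hk _ (le_max_left k k')).symm.trans (hk' _ (le_max_right k k')))
  exact ⟨congrArg Dat.η this, congrArg Dat.d this⟩

theorem tail_congr {k : ℕ} (h : Tail η d p) (hk : par^[k] q = par^[k] p) : Tail η d q := by
  obtain ⟨j, hj⟩ := tail_ev h
  refine tail_of (k := j + k) ?_
  rw [Function.iterate_add_apply, hk, ← Function.iterate_add_apply, hj _ (by omega)]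

theorem orb_iff (h : Tail η d p) : q ∈ (HX 0).orb p ↔ Tail η d q := by
  rw [HX_zero_orb]
  refine ⟨fun ⟨k, hk⟩ => tail_congr h hk, fun h' => ?_⟩
  obtain ⟨k, hk⟩ := tail_ev h
  obtain ⟨k', hk'⟩ := tail_ev h'
  exact ⟨max k k', (hk' _ (le_max_right k k')).trans (hk _ (le_max_left k k')).symm⟩

theorem orb_mono {i j : ℕ} (h : i ≤ j) (p : X) : (HX i).orb p ⊆ (HX j).orb p := by
  rintro _ ⟨f, ⟨l, h1, h2, h3⟩, rfl⟩
  exact ⟨f, ⟨l, h1, h2.mono h, h3⟩, rfl⟩

theorem orb_down (η : Dart) (n : ℕ) : aInf η 0 ∈ (HX 1).orb (aInf η n) := by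
  induction n with
  | zero => exact PG.mem_orb_self _
  | succ n ih =>
    refine PG.orb_trans ⟨run ap [.X η.side], ⟨[.X η.side], ⟨by rw [role_aInf]; rfl, trivial⟩,
      ⟨Or.inr (Or.inl ⟨le_rfl, 0, rfl, ENat.natCast_ne_top _⟩), trivial⟩, .rfl⟩, ?_⟩ ih
    rw [run_cons, run_nil, ap_X_aInf, if_pos rfl, if_neg (by simp), Nat.cast_succ,
      Dat.enat_add_sub]

theorem six_le {H : PG X} {P : Set X} {x : X × Col} (h1 : q ∈ H.orb x.1) (h2 : q ∈ P) :
    6 ≤ (H.col.orb x ∩ P ×ˢ Set.univ).encard := by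
  have h : (fun c : Col => (q, c)) '' Set.univ ⊆ H.col.orb x ∩ P ×ˢ Set.univ := by
    rintro _ ⟨c, -, rfl⟩
    rw [PG.col_orb]
    exact ⟨⟨h1, trivial⟩, h2, trivial⟩
  refine le_trans ?_ (Set.encard_le_encard h)
  rw [(Prod.mk_right_injective q).encard_image, Set.encard_univ]
  simp only [ENat.card_eq_coe_fintype_card, Fintype.card_fin]
  norm_num

/-- Same roles at all levels. -/
def SR (p q : X) : Prop := ∀ k, (p.D k).role = (q.D k).role

theorem SR.par (h : SR p q) : SR p.par q.par := fun k => h (k + 1)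

theorem SR.par_iter (h : SR p q) (k : ℕ) : SR (X.par^[k] p) (X.par^[k] q) := fun j => by
  rw [par_iter_D, par_iter_D, h]

theorem SR.lifts (h : SR p q) (o : Op) (k : ℕ) : lifts o p k = lifts o q k := by
  induction k with
  | zero => rfl
  | succ k ih => rw [X.lifts, X.lifts, ih, h k, h (k + 1)]

theorem SR.ap {o : Op} (h : SR p q) (ho : o.ok p.role = true) : SR (ap o p) (ap o q) := by
  intro k
  induction k generalizing o p q with
  | zero =>
    have e0 : p.role = q.role := h 0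
    have e1 : p.par.role = q.par.role := h 1
    exact (role_ap ho).trans (by rw [e0, e1]; exact (role_ap (e0 ▸ ho)).symm)
  | succ k ih =>
    have e0 : p.role = q.role := h 0
    have e1 : lift o p = lift o q := h.lifts o 1
    have := ih h.par (ok_lift ho)
    rw [← par_ap ho, e1, ← par_ap (e0 ▸ ho)] at this
    exact this

theorem SR.run {l : List Op} (h : SR p q) (hl : Valid l p) (ht : TyW 0 l p) :
    Valid l q ∧ TyW 0 l q ∧ SR (run X.ap l p) (run X.ap l q) := by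
  induction l generalizing p q with
  | nil => exact ⟨trivial, trivial, h⟩
  | cons o l ih =>
    obtain ⟨h1, h2, h3⟩ := ih (h.ap hl.1) hl.2 ht.2
    have e0 : p.role = q.role := h 0
    refine ⟨⟨e0 ▸ hl.1, h1⟩, ⟨Or.inl ?_, h2⟩, h3⟩
    rcases ht.1 with ⟨k, hk⟩ | h' | h' | h'
    · exact ⟨k, h.lifts o k ▸ hk⟩
    all_goals simp at h'

theorem eq_of_par {k : ℕ} (h : ∀ j < k, (p.D j).role = (q.D j).role)
    (hk : par^[k] p = par^[k] q) : p = q := by
  rw [← consL_addr k p, ← consL_addr k q, hk,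
    List.map_congr_left fun j hj => h j (List.mem_range.1 hj)]

theorem SR.eq (h : SR p q) (hp : Tail η d p) (hq : Tail η d q) : p = q := by
  obtain ⟨k, hk⟩ := HX_zero_orb.1 ((orb_iff hq).2 hp)
  exact eq_of_par (fun j _ => h j) hk

theorem exists_sr (d' : ℕ∞) (h : Tail η d p) : ∃ q, SR p q ∧ Tail η d' q := by
  obtain ⟨k, hk⟩ := tail_ev h
  replace hk := hk k le_rfl
  clear h
  induction k generalizing p with
  | zero =>
    obtain rfl : p = aInf η d := hk
    exact ⟨aInf η d', fun _ => (role_aInf η d).trans (role_aInf η d').symm, tail_aInf η d'⟩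
  | succ k ih =>
    obtain ⟨q, h1, j, h2⟩ := ih (p := p.par) hk
    refine ⟨cons p.role q, fun j => ?_, j + 1, h2⟩
    cases j with
    | zero => exact (role_cons _ _).symm
    | succ j => exact h1 j

theorem th_two (c : ℕ∞) (η : Dart) (h : 2 ≤ d) : Dat.th ⟨c, η, d⟩ = .z2 η := by
  have h0 : d ≠ 0 := by rintro rfl; simp at h
  have h1 : d ≠ 1 := by rintro rfl; simp at h
  simp [Dat.th, h0, h1]

theorem SR.dat_eq (h : SR p q) (hp : Tail η d p) (hq : Tail η d' q) (h2 : 2 ≤ d) (h2' : 2 ≤ d')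
    (hc : p.dat.c ≠ ⊤) : p.dat = q.dat := by
  obtain ⟨k, hk⟩ := hp
  induction k generalizing p q with
  | zero => exact absurd (congrArg Dat.c hk) hc
  | succ k ih =>
    have hq' : Tail η d' q.par := by
      obtain ⟨j, hj⟩ := tail_ev hq
      exact tail_of (hj (j + 1) (by omega))
    have e0 : q.role = p.role := (h 0).symm
    rw [← cons_par p, dat_cons] at hc ⊢
    rw [← cons_par q, dat_cons, e0]
    by_cases hc' : p.par.dat.c = ⊤
    · have e1 := eq_aInf hc'
      have e2 := eq_aInf (eq_aInf_of_roles (p := q.par) fun j => by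
        rw [← h.par j, e1]
        exact role_aInf _ _)
      obtain ⟨a1, a2⟩ := tail_unique (e1 ▸ tail_aInf _ _ : Tail _ _ p.par) ⟨k, hk⟩
      obtain ⟨a3, a4⟩ := tail_unique (e2 ▸ tail_aInf _ _ : Tail _ _ q.par) hq'
      rw [a1, a2] at e1
      rw [a3, a4] at e2
      rw [e1] at hc ⊢
      rw [e2]
      generalize p.role = r at hc
      cases r with
      | al => exact absurd rfl hc
      | be s => simp [Dat.ch, X.dat, aInf, th_two, h2, h2']
      | ga s =>
        have e3 := (role_aInf η d).trans (role_aInf η d').symm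
        exact congrArg (fun r : Role => Dat.mk 0 (r.Fd s) 0) e3
    · rw [ih h.par hq' hc' hk]

theorem SR.near {n : ℕ} (h : SR p q) (hp : Tail η d p) (hq : Tail η d' q) (h2 : 2 ≤ d)
    (h2' : 2 ≤ d') (hc : (p.D n).c ≠ ⊤) : Near n n p q := by
  have ht : ∀ {d p}, Tail η d p → Tail η d (X.par^[n] p) := fun h => by
    obtain ⟨j, hj⟩ := tail_ev h
    exact tail_of (k := j) (by rw [← Function.iterate_add_apply, hj _ (by omega)])
  have := (h.par_iter n).dat_eq (ht hp) (ht hq) h2 h2' (by rwa [X.dat, par_iter_D])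
  rw [X.dat, X.dat, par_iter_D, par_iter_D] at this
  exact ⟨fun k _ => h k, congrArg (Dat.tr n) this⟩

theorem finite_top (η : Dart) (d : ℕ∞) (n : ℕ) : {p | Tail η d p ∧ (p.D n).c = ⊤}.Finite := by
  refine ((List.finite_length_eq Role n).image fun a => consL a (aInf η d)).subset ?_
  rintro p ⟨h1, h2⟩
  have e1 := eq_aInf (p := par^[n] p) (by rwa [X.dat, par_iter_D])
  obtain ⟨a1, a2⟩ := tail_unique (tail_of e1) h1
  rw [a1, a2] at e1
  exact ⟨(List.range n).map fun i => (p.D i).role, by simp, by rw [← e1]; exact consL_addr n p⟩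

theorem iso_zero {x : X × Col} {f : X × Col → X × Col} (h : (HX 0).col.mem f x) (hx : f x = x) :
    f =ᶠ[𝓝 x] id := by
  obtain ⟨f', c, h1, h2⟩ := h
  obtain ⟨h3, k, h4⟩ := HX_zero_iff.1 h1
  have e := hx.symm.trans h2.eq_of_nhds
  have e1 : f' x.1 = x.1 := (congrArg Prod.fst e).symm
  have h5 : ∀ᶠ q in 𝓝 x.1, ∀ j ∈ Set.Iio k, ((f' q).D j).role = (q.D j).role := by
    refine (Set.finite_Iio k).eventually_all.2 fun j _ => ?_
    filter_upwards [h3.eventually (eventually_role (f' x.1) j), eventually_role x.1 j] with q a b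
    rw [a, b, e1]
  filter_upwards [h2, continuousAt_fst.eventually h4, continuousAt_fst.eventually h5,
    (isOpen_discrete {x.2}).preimage continuous_snd |>.mem_nhds rfl] with y a b c' d
  rw [a]
  exact Prod.ext (eq_of_par c' b) ((congrArg Prod.snd e).symm.trans d.symm)

theorem full_top {g : Equiv.Perm (X × Col)} (hg : g ∈ (HX 1).col.full) {y : X × Col}
    (h : Tail η ⊤ y.1) : Tail η ⊤ (g y).1 := by
  have h1 : (HX 0).col.mem g y := (HX_step (i := 0) (by omega)).col.sing g y (hg y) fun hy => by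
    obtain ⟨η', n, h'⟩ := hy.1
    exact ENat.natCast_ne_top n (tail_unique h' h).2
  have h2 : g y ∈ (HX 0).col.orb y := ⟨g, h1, rfl⟩
  rw [PG.col_orb] at h2
  exact (orb_iff h).1 h2.1

theorem finite_bad {g : Equiv.Perm (X × Col)} (hg : g ∈ (HX 1).col.full) (h2 : 2 ≤ d) :
    {y : X × Col | Tail η d y.1 ∧ ¬ ∀ q, SR y.1 q → Tail η ⊤ q →
      Tail η d (g y).1 ∧ SR (g y).1 (g (q, y.2)).1 ∧ (g y).2 = (g (q, y.2)).2}.Finite := by
  rw [← Set.univ_inter {y : X × Col | _}]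
  refine isCompact_univ.induction_on (p := fun s => (s ∩ _).Finite) (by simp)
    (fun s t hst h => h.subset (Set.inter_subset_inter_left _ hst))
    (fun s t hs ht => by rw [Set.union_inter_distrib_right]; exact hs.union ht) fun z _ => ?_
  obtain ⟨f, c, ⟨l, h3, h4, h5⟩, h6⟩ := hg z
  have h7 : ∀ᶠ q in 𝓝 z.1, Valid l q ∧ (q ≠ z.1 → TyW 0 l q) ∧ g (q, z.2) = (run ap l q, c) := by
    filter_upwards [(isClopen_valid l).isOpen.mem_nhds h3, eventually_nhdsWithin_iff.1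
      (h4.punct h3), h5, (Continuous.prodMk_left z.2).continuousAt.eventually h6] with q a b e e'
    exact ⟨a, b, by rw [← e]; exact e'⟩
  obtain ⟨n, hn⟩ := mem_nhds_iff_near.1 h7
  refine ⟨{q | Near n n z.1 q} ×ˢ {z.2}, mem_nhdsWithin_of_mem_nhds (prod_mem_nhds
    ((isClopen_near n n z.1).isOpen.mem_nhds (Near.refl _ _ _))
    ((isOpen_discrete _).mem_nhds rfl)), ?_⟩
  refine (((finite_top η d n).insert z.1).prod (Set.finite_singleton z.2)).subset ?_
  rintro ⟨p, c'⟩ ⟨⟨b1, rfl : c' = z.2⟩, b2, b3⟩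
  refine ⟨?_, rfl⟩
  by_contra hne
  simp only [Set.mem_insert_iff, not_or] at hne
  refine b3 fun q b4 b5 => ?_
  obtain ⟨a1, a2, a3⟩ := hn p b1
  obtain ⟨-, -, a4⟩ := hn q (Near.trans b1 (b4.near b2 b5 h2 le_top fun e => hne.2 ⟨b2, e⟩))
  obtain ⟨k, hk⟩ := (a2 hne.1).par_eq a1
  rw [a3, a4]
  exact ⟨tail_congr b2 hk.self_of_nhds, (b4.run a1 (a2 hne.1)).2.2, rfl⟩

theorem exists_hom {x : X × Col} (hx : Tail η d x.1) (h2 : 2 ≤ d) :
    ∃ a : (HX 1).col.full →* Equiv.Perm ((HX 0).col.orb x), ∀ g : (HX 1).col.full,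
      {y : (HX 0).col.orb x | (a g y : X × Col) ≠ (g : Equiv.Perm (X × Col)) y}.Finite := by
  have hO : ∀ {y : X × Col}, y ∈ (HX 0).col.orb x ↔ Tail η d y.1 := fun {y} => by
    rw [PG.col_orb, Set.mem_prod, orb_iff hx]
    exact and_iff_left trivial
  choose F hF1 hF2 using fun p (h : Tail η d p) => exists_sr ⊤ h
  choose G hG1 hG2 using fun p (h : Tail η ⊤ p) => exists_sr d h
  let e : {y : X × Col // Tail η ⊤ y.1} ≃ (HX 0).col.orb x :=
    { toFun := fun y => ⟨(G y.1.1 y.2, y.1.2), hO.2 (hG2 _ _)⟩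
      invFun := fun y => ⟨(F y.1.1 (hO.1 y.2), y.1.2), hF2 _ _⟩
      left_inv := fun y => Subtype.ext (Prod.ext (SR.eq
        (fun k => (hF1 _ _ k).symm.trans (hG1 _ _ k).symm) (hF2 _ _) y.2) rfl)
      right_inv := fun y => Subtype.ext (Prod.ext (SR.eq
        (fun k => (hG1 _ _ k).symm.trans (hF1 _ _ k).symm) (hG2 _ _) (hO.1 y.2)) rfl) }
  have hinv : ∀ g : (HX 1).col.full, ∀ y : X × Col,
      Tail η ⊤ ((g : Equiv.Perm (X × Col)) y).1 ↔ Tail η ⊤ y.1 := fun g y =>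
    ⟨fun h => by simpa using full_top (g⁻¹).2 h, full_top g.2⟩
  let b : (HX 1).col.full →* Equiv.Perm {y : X × Col // Tail η ⊤ y.1} :=
    MonoidHom.mk' (fun g => (g : Equiv.Perm (X × Col)).subtypePerm (hinv g)) fun _ _ => rfl
  refine ⟨e.permCongrHom.toMonoidHom.comp b, fun g => ?_⟩
  refine ((finite_bad (η := η) g.2 h2).preimage Subtype.val_injective.injOn).subset
    fun y hy => ⟨hO.1 y.2, fun h => hy ?_⟩
  obtain ⟨a1, a2, a3⟩ := h _ (hF1 _ (hO.1 y.2)) (hF2 _ _)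
  exact Prod.ext (SR.eq (fun k => (hG1 _ _ k).symm.trans (a2 k).symm) (hG2 _ _) a1) a3.symm

end GK

open GK in
theorem HX_kstep {i : ℕ} (hi : i < 3) :
    PG.KStep (HX i).col (HX (i + 1)).col (SgX i ×ˢ Set.univ) (P0X i ×ˢ Set.univ) := by
  by_cases h0 : i = 0
  · subst h0
    have hP : ∀ {p}, p ∈ P0X 0 ↔ ∃ η, p = aInf η 0 ∨ p = aInf η 1 := Iff.rfl
    refine ⟨Set.Finite.prod ?_ Set.finite_univ, Set.prod_mono ?_ subset_rfl, ?_, ?_⟩
    · refine ((Set.finite_range fun η => aInf η 0).union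
        (Set.finite_range fun η => aInf η 1)).subset ?_
      rintro _ ⟨η, rfl | rfl⟩
      exacts [Or.inl ⟨η, rfl⟩, Or.inr ⟨η, rfl⟩]
    · rintro _ ⟨η, rfl | rfl⟩
      exacts [⟨η, 0, tail_aInf η 0⟩, ⟨η, 1, tail_aInf η 1⟩]
    · rintro x ⟨⟨η, n, h⟩, -⟩
      exact six_le (PG.orb_trans (orb_mono zero_le_one _ ((orb_iff h).2 (tail_aInf η n)))
        (orb_down η n)) (hP.2 ⟨η, Or.inl rfl⟩)
    · rintro x ⟨⟨η, n, h⟩, -⟩
      by_cases hn : n < 2
      · refine Or.inl (six_le ((orb_iff h).2 (tail_aInf η n)) (hP.2 ⟨η, ?_⟩))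
        interval_cases n
        exacts [Or.inl rfl, Or.inr rfl]
      have h2 : (2 : ℕ∞) ≤ n := by exact_mod_cast not_lt.1 hn
      refine Or.inr ⟨Set.disjoint_left.2 fun y hy hy' => ?_, fun f => iso_zero, exists_hom h h2⟩
      rw [PG.col_orb] at hy
      have h3 := (orb_iff h).1 hy.1
      obtain ⟨η', e | e⟩ := hP.1 hy'.1
      all_goals
        rw [e] at h3
        rw [(tail_unique h3 (tail_aInf _ _)).2] at h2
        simp at h2
  · have hP : P0X i = {p | ∃ η, p = aInf η ⊤} := if_neg h0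
    have hS : SgX i = {p | ∃ η, Tail η ⊤ p} := if_neg h0
    rw [hP, hS]
    refine ⟨Set.Finite.prod ((Set.finite_range fun η => aInf η ⊤).subset ?_) Set.finite_univ,
      Set.prod_mono ?_ subset_rfl, ?_, ?_⟩
    · rintro _ ⟨η, rfl⟩
      exact ⟨η, rfl⟩
    · rintro _ ⟨η, rfl⟩
      exact ⟨η, tail_aInf η ⊤⟩
    · rintro x ⟨⟨η, h⟩, -⟩
      exact six_le (orb_mono (Nat.zero_le _) _ ((orb_iff h).2 (tail_aInf η ⊤))) ⟨η, rfl⟩
    · rintro x ⟨⟨η, h⟩, -⟩
      exact Or.inl (six_le (orb_mono (Nat.zero_le _) _ ((orb_iff h).2 (tail_aInf η ⊤))) ⟨η, rfl⟩)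

end Vale.Agent.P196
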