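import Vale.Agent.P196.GermRAux

/-! Recurrence. -/

namespace Vale.Agent.P196

open X Filter Topology

open Classical in
/-- The first level from which all roles are `al`. -/
noncomputable def X.lev (p : X) : ℕ := if h : ∃ k, (p.D k).c = ⊤ then Nat.find h else 0

theorem gr_lev_spec {p : X} (hp : ∃ k, (p.D k).c = ⊤) : (p.D p.lev).c = ⊤ := by
  classical
  unfold X.lev
  rw [dif_pos hp]
  exact Nat.find_spec hp

theorem gr_lev_le {p : X} {k : ℕ} (h : (p.D k).c = ⊤) : p.lev ≤ k := by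
  classical
  unfold X.lev
  rw [dif_pos ⟨k, h⟩]
  exact Nat.find_min' _ h

theorem gr_tail_top {p : X} {η : Dart} {d : ℕ∞} (h : Tail η d p) : ∃ k, (p.D k).c = ⊤ := by
  obtain ⟨k, hk⟩ := h
  exact ⟨k, by rw [hk]⟩

theorem X.lev_ap {o : Op} {p : X} (ho : o.ok p.role = true) (hp : ∃ k, (p.D k).c = ⊤) :
    (ap o p).lev ≤ p.lev + 1 ∧ p.lev ≤ (ap o p).lev + 1 := by
  have h1 := gr_ap_top ho (gr_lev_spec hp)
  refine ⟨gr_lev_le h1, ?_⟩
  have h2 := gr_ap_top (ok_inv ho) (gr_lev_spec ⟨_, h1⟩)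
  rw [ap_inv ho] at h2
  exact gr_lev_le h2

theorem X.card_lev_change (o : Op) (η : Dart) (d : ℕ∞) (n : ℕ) :
    {p | Tail η d p ∧ p.lev = n ∧ o.ok p.role = true ∧ (ap o p).lev ≠ n}.encard ≤
      1000 * (n + 1) := by
  refine (Set.encard_le_encard (t := grA (aInf η d) o n) ?_).trans
    ((grA_card _ o n).trans (by push_cast; exact le_rfl))
  rintro p ⟨h1, h2, h3, h4⟩
  have h5 := gr_lev_spec (gr_tail_top h1)
  rw [h2] at h5
  refine ⟨gr_par_tail h1 h5, h3, fun k hk => ?_⟩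
  by_contra hS
  rw [Bool.not_eq_false] at hS
  obtain ⟨j, rfl⟩ := Nat.exists_eq_add_of_le' hk
  have e1 := gr_S_stable h3 hS j
  have e2 := gr_S_stable h3 hS (j + 1)
  have e3 : j + (k + 2) = k + (j + 1) + 1 := by omega
  rw [e3] at h2 h4 h5
  have h6 : (ap o p).lev ≤ k + (j + 1) + 1 := gr_lev_le (by rw [e2]; exact h5)
  have h7 := gr_lev_spec ⟨_, (by rw [e2]; exact h5 : ((ap o p).D (k + (j + 1) + 1)).c = ⊤)⟩
  have h8 := gr_D_top' h7 (show (ap o p).lev ≤ k + j + 1 by omega)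
  have h9 : p.lev ≤ k + j + 1 := gr_lev_le (by rw [← e1, h8]; exact h7)
  omega

theorem X.finite_lev (η : Dart) (d : ℕ∞) (n : ℕ) : {p | Tail η d p ∧ p.lev ≤ n}.Finite := by
  refine (Set.finite_of_encard_le_coe (gr_fib_card (aInf η d) n)).subset ?_
  rintro p ⟨h1, h2⟩
  have h5 := gr_lev_spec (gr_tail_top h1)
  exact gr_par_tail h1 (by rw [gr_D_top' h5 h2]; exact h5)

/-- A cutoff of small energy for linearly growing conductances. -/
theorem exists_cutoff (n₀ : ℕ) (ε : ℝ) (hε : 0 < ε) : ∃ (φ : ℕ → ℝ) (N : ℕ),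
    (∀ n ≤ n₀, φ n = 1) ∧ (∀ n ≥ N, φ n = 0) ∧ Antitone φ ∧
      ∑ n ∈ Finset.range (N + 1), ((n : ℝ) + 2) * (φ (n + 1) - φ n) ^ 2 < ε := by
  set b : ℕ → ℝ := fun k => if n₀ ≤ k then 1 / ((k : ℝ) + 2) else 0 with hb
  have hb0 : ∀ k, 0 ≤ b k := fun k => by
    simp only [hb]
    split_ifs <;> positivity
  have hns : ¬ Summable b := by
    intro h
    have h1 := (summable_nat_add_iff n₀).2 h
    refine Real.not_summable_one_div_natCast ((summable_nat_add_iff (n₀ + 2)).1 (h1.congr fun k => ?_))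
    simp [hb, add_assoc]
  obtain ⟨N, hN⟩ := (((not_summable_iff_tendsto_nat_atTop_of_nonneg hb0).1 hns).eventually_gt_atTop
    (1 / ε)).exists
  set H := ∑ k ∈ Finset.range N, b k with hH
  have hH0 : 0 < H := lt_trans (by positivity) hN
  set a : ℕ → ℝ := fun k => if k < N then b k else 0 with ha
  have ha0 : ∀ k, 0 ≤ a k := fun k => by
    simp only [ha]
    split_ifs
    · exact hb0 k
    · exact le_rfl
  have hsum : ∀ n ≥ N, ∑ k ∈ Finset.range n, a k = H := by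
    intro n hn
    rw [hH, ← Finset.sum_subset (Finset.range_subset_range.2 hn)]
    · exact Finset.sum_congr rfl fun k hk => by simp [ha, Finset.mem_range.1 hk]
    · intro k _ hk
      simp only [ha]
      rw [if_neg (by simpa using hk)]
  refine ⟨fun n => 1 - (∑ k ∈ Finset.range n, a k) / H, N, fun n hn => ?_, fun n hn => ?_, ?_, ?_⟩
  · have : ∑ k ∈ Finset.range n, a k = 0 := by
      refine Finset.sum_eq_zero fun k hk => ?_
      have : ¬ n₀ ≤ k := by have := Finset.mem_range.1 hk; omega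
      simp [ha, hb, this]
    simp [this]
  · simp [hsum n hn, hH0.ne']
  · refine antitone_nat_of_succ_le fun n => ?_
    rw [Finset.sum_range_succ]
    have := ha0 n
    gcongr
    linarith
  · have e : ∀ n : ℕ, ((n : ℝ) + 2) * ((1 - (∑ k ∈ Finset.range (n + 1), a k) / H) -
        (1 - (∑ k ∈ Finset.range n, a k) / H)) ^ 2 = a n / H ^ 2 := by
      intro n
      have : ((n : ℝ) + 2) * a n ^ 2 = a n := by
        simp only [ha, hb]
        split_ifs
        · field_simp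
        · simp
        · simp
      rw [Finset.sum_range_succ]
      field_simp
      linear_combination this
    simp only [e]
    rw [← Finset.sum_div, hsum _ (by omega), div_lt_iff₀ (by positivity)]
    rw [div_lt_iff₀ hε] at hN
    nlinarith

/-- The energy of a cutoff. -/
noncomputable def grE (φ : ℕ → ℝ) (N : ℕ) : ℝ :=
  ∑ n ∈ Finset.range (N + 1), ((n : ℝ) + 2) * (φ (n + 1) - φ n) ^ 2

theorem grE_nonneg (φ : ℕ → ℝ) (N : ℕ) : 0 ≤ grE φ N :=
  Finset.sum_nonneg fun n _ => by positivity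

theorem gr_letter (o : Op) (η : Dart) (d : ℕ∞) {φ : ℕ → ℝ} {N : ℕ} (hN : ∀ n ≥ N, φ n = 0)
    (A : Finset X) (hA : ∀ p ∈ A, Tail η d p ∧ o.ok p.role = true) :
    ∑ p ∈ A, (φ (ap o p).lev - φ p.lev) ^ 2 ≤ 2000 * grE φ N := by
  classical
  set C : ℕ → X → Prop := fun n p => p.lev = n ∧ (ap o p).lev ≠ n with hC
  have hc : ∀ n, ((A.filter (C n)).card : ℝ) ≤ 1000 * (n + 1) := by
    intro n
    have h1 : ((A.filter (C n) : Finset X) : Set X).encard ≤ _ :=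
      (Set.encard_le_encard fun p hp => by
        obtain ⟨h1, h2, h3⟩ := Finset.mem_filter.1 hp
        exact ⟨(hA p h1).1, h2, (hA p h1).2, h3⟩).trans (X.card_lev_change o η d n)
    rw [Set.encard_coe_eq_coe_finsetCard] at h1
    exact_mod_cast h1
  have h1 : ∀ p ∈ A, (φ (ap o p).lev - φ p.lev) ^ 2 ≤ ∑ m ∈ Finset.range (N + 1),
      if C m p ∨ C (m + 1) p then (φ (m + 1) - φ m) ^ 2 else 0 := by
    intro p hp
    have hnn : ∀ m ∈ Finset.range (N + 1),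
        0 ≤ if C m p ∨ C (m + 1) p then (φ (m + 1) - φ m) ^ 2 else 0 := fun m _ => by
      split_ifs <;> positivity
    have key : ∀ m, (C m p ∨ C (m + 1) p) → (φ (m + 1) - φ m) ^ 2 ≤ ∑ m ∈ Finset.range (N + 1),
        if C m p ∨ C (m + 1) p then (φ (m + 1) - φ m) ^ 2 else 0 := by
      intro m hm
      by_cases hmN : m < N + 1
      · refine le_trans (le_of_eq ?_) (Finset.single_le_sum hnn (Finset.mem_range.2 hmN))
        rw [if_pos hm]
      · rw [hN m (by omega), hN (m + 1) (by omega)]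
        simpa using Finset.sum_nonneg hnn
    obtain ⟨h2, h3⟩ := X.lev_ap (hA p hp).2 (gr_tail_top (hA p hp).1)
    rcases lt_trichotomy (ap o p).lev p.lev with h | h | h
    · have e : p.lev = (ap o p).lev + 1 := by omega
      refine le_trans (le_of_eq ?_) (key (ap o p).lev (Or.inr ⟨e, by omega⟩))
      rw [e]
      ring
    · refine le_trans (le_of_eq ?_) (Finset.sum_nonneg hnn)
      rw [h]
      ring
    · have e : (ap o p).lev = p.lev + 1 := by omega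
      refine le_trans (le_of_eq ?_) (key p.lev (Or.inl ⟨rfl, by omega⟩))
      rw [e]
  refine (Finset.sum_le_sum h1).trans ?_
  rw [Finset.sum_comm, grE, Finset.mul_sum]
  refine Finset.sum_le_sum fun m _ => ?_
  rw [← Finset.sum_filter, Finset.sum_const, nsmul_eq_mul, Finset.filter_or, ← mul_assoc]
  have h2 : (((A.filter (C m) ∪ A.filter (C (m + 1))).card : ℕ) : ℝ) ≤
      (A.filter (C m)).card + (A.filter (C (m + 1))).card := by
    exact_mod_cast Finset.card_union_le _ _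
  have h3 := hc m
  have h4 := hc (m + 1)
  push_cast at h4
  gcongr
  linarith

theorem gr_sum_cover {α ι : Type} (A : Finset α) (I : Finset ι) (R : ι → α → Prop) (f : α → ℝ)
    (hf : ∀ x, 0 ≤ f x) (hA : ∀ x ∈ A, ∃ i ∈ I, R i x) (B : ι → ℝ)
    (hB : ∀ i ∈ I, ∀ A' : Finset α, (∀ x ∈ A', x ∈ A ∧ R i x) → ∑ x ∈ A', f x ≤ B i) :
    ∑ x ∈ A, f x ≤ ∑ i ∈ I, B i := by
  classical
  calc ∑ x ∈ A, f x ≤ ∑ x ∈ A, ∑ i ∈ I, if R i x then f x else 0 := by
        refine Finset.sum_le_sum fun x hx => ?_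
        obtain ⟨i, hi, h⟩ := hA x hx
        refine le_trans (le_of_eq ?_) (Finset.single_le_sum
          (f := fun i => if R i x then f x else 0) (fun j _ => ?_) hi)
        · simp [h]
        · split_ifs
          · exact hf x
          · exact le_rfl
    _ ≤ _ := by
        rw [Finset.sum_comm]
        refine Finset.sum_le_sum fun i hi => ?_
        rw [← Finset.sum_filter]
        exact hB i hi _ fun x hx => Finset.mem_filter.1 hx

theorem gr_word (l : List Op) : ∀ 𝒯 : Finset (Dart × ℕ∞), ∃ C : ℝ, 0 ≤ C ∧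
    ∀ (φ : ℕ → ℝ) (N : ℕ), (∀ n ≥ N, φ n = 0) → ∀ A : Finset X,
      (∀ p ∈ A, (∃ τ ∈ 𝒯, Tail τ.1 τ.2 p) ∧ Valid l p) →
      ∑ p ∈ A, (φ (run ap l p).lev - φ p.lev) ^ 2 ≤ C * grE φ N := by
  classical
  induction l with
  | nil => exact fun 𝒯 => ⟨0, le_rfl, fun φ N _ A _ => by simp [run_nil]⟩
  | cons o l ih =>
    intro 𝒯
    obtain ⟨C, hC, h⟩ := ih (𝒯.biUnion fun τ =>
      Finset.univ ×ˢ ({0, τ.2 - 1, τ.2, τ.2 + 1} : Finset ℕ∞))
    refine ⟨2 * C + 2 * (𝒯.card * 2000), by positivity, fun φ N hN A hA => ?_⟩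
    have h1 := h φ N hN (A.image (ap o)) (by
      intro q hq
      obtain ⟨p, hp, rfl⟩ := Finset.mem_image.1 hq
      obtain ⟨⟨τ, hτ, k, hk⟩, h1, h2⟩ := hA p hp
      obtain ⟨η', d', h3, h4⟩ := gr_tail_ap h1 hk
      exact ⟨⟨(η', d'), Finset.mem_biUnion.2 ⟨τ, hτ,
        Finset.mem_product.2 ⟨Finset.mem_univ _, h3⟩⟩, k + 1, h4⟩, h2⟩)
    rw [Finset.sum_image (fun p hp q hq e => by
      rw [← ap_inv (hA p hp).2.1, e, ap_inv (hA q hq).2.1])] at h1
    have h2 := gr_sum_cover A 𝒯 (fun τ p => Tail τ.1 τ.2 p)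
      (fun p => (φ (ap o p).lev - φ p.lev) ^ 2) (fun _ => sq_nonneg _) (fun p hp => (hA p hp).1)
      (fun _ => 2000 * grE φ N)
      (fun τ _ A' hA' => gr_letter o τ.1 τ.2 hN A' fun p hp =>
        ⟨(hA' p hp).2, (hA p (hA' p hp).1).2.1⟩)
    rw [Finset.sum_const, nsmul_eq_mul] at h2
    calc ∑ p ∈ A, (φ (run ap (o :: l) p).lev - φ p.lev) ^ 2
        ≤ ∑ p ∈ A, (2 * (φ (run ap l (ap o p)).lev - φ (ap o p).lev) ^ 2 +
          2 * (φ (ap o p).lev - φ p.lev) ^ 2) := by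
          refine Finset.sum_le_sum fun p _ => ?_
          rw [run_cons]
          nlinarith [sq_nonneg (φ (run ap l (ap o p)).lev - 2 * φ (ap o p).lev + φ p.lev)]
      _ ≤ _ := by
          rw [Finset.sum_add_distrib, ← Finset.mul_sum, ← Finset.mul_sum]
          linarith

theorem gr_words {i : ℕ} {g : Equiv.Perm (X × Col)} (hg : g ∈ (HX i).col.full) :
    ∃ W : Finset (List Op), ∀ x, ∃ l ∈ W, Valid l x.1 ∧ (g x).1 = run ap l x.1 := by
  classical
  have h1 : ∀ x : X × Col, ∃ l, {y : X × Col | Valid l y.1 ∧ (g y).1 = run ap l y.1} ∈ 𝓝 x := by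
    intro x
    obtain ⟨f, c, ⟨l, h1, -, h2⟩, h3⟩ := hg x
    refine ⟨l, ?_⟩
    filter_upwards [h3, continuousAt_fst.eventually h2,
      continuousAt_fst.eventually ((isClopen_valid l).isOpen.mem_nhds h1)] with y a1 a2 a3
    exact ⟨a3, by rw [a1]; exact a2⟩
  choose L hL using h1
  obtain ⟨t, ht⟩ := CompactSpace.elim_nhds_subcover _ hL
  refine ⟨t.image L, fun x => ?_⟩
  have : x ∈ ⋃ y ∈ t, {z : X × Col | Valid (L y) z.1 ∧ (g z).1 = run ap (L y) z.1} := by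
    rw [ht]
    trivial
  obtain ⟨y, hy, hx⟩ := Set.mem_iUnion₂.1 this
  exact ⟨L y, Finset.mem_image_of_mem _ hy, hx⟩

theorem gr_perm {i : ℕ} {g : Equiv.Perm (X × Col)} (hg : g ∈ (HX i).col.full)
    (𝒯 : Finset (Dart × ℕ∞)) : ∃ C : ℝ, 0 ≤ C ∧
    ∀ (φ : ℕ → ℝ) (N : ℕ), (∀ n ≥ N, φ n = 0) → ∀ A : Finset (X × Col),
      (∀ x ∈ A, ∃ τ ∈ 𝒯, Tail τ.1 τ.2 x.1) →
      ∑ x ∈ A, (φ (g x).1.lev - φ x.1.lev) ^ 2 ≤ C * grE φ N := by
  classical
  obtain ⟨W, hW⟩ := gr_words hg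
  choose C hC h using fun l => gr_word l 𝒯
  refine ⟨∑ j ∈ W ×ˢ (Finset.univ : Finset Col), C j.1, Finset.sum_nonneg fun j _ => hC _,
    fun φ N hN A hA => ?_⟩
  rw [Finset.sum_mul]
  refine gr_sum_cover A _ (fun j x => x.2 = j.2 ∧ Valid j.1 x.1 ∧ (g x).1 = run ap j.1 x.1) _
    (fun _ => sq_nonneg _) (fun x _ => ?_) _ fun j _ A' hA' => ?_
  · obtain ⟨l, hl, h⟩ := hW x
    exact ⟨(l, x.2), Finset.mem_product.2 ⟨hl, Finset.mem_univ _⟩, rfl, h⟩
  · have h1 := h j.1 φ N hN (A'.image Prod.fst) (by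
      intro q hq
      obtain ⟨x, hx, rfl⟩ := Finset.mem_image.1 hq
      exact ⟨hA x (hA' x hx).1, (hA' x hx).2.2.1⟩)
    rw [Finset.sum_image (fun x hx y hy e =>
      Prod.ext e ((hA' x hx).2.1.trans (hA' y hy).2.1.symm))] at h1
    refine le_trans (le_of_eq (Finset.sum_congr rfl fun x hx => ?_)) h1
    rw [(hA' x hx).2.2.2]

theorem gr_tails {i : ℕ} (hi : i < 3) (K : Finset (Equiv.Perm (X × Col)))
    (hK : ∀ g ∈ K, g ∈ (HX (i + 1)).col.full) (S : Finset (X × Col))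
    (hS : ∀ x ∈ S, x ∈ SgX i ×ˢ (Set.univ : Set Col)) : ∃ 𝒯 : Finset (Dart × ℕ∞),
      (∀ x ∈ S, ∃ τ ∈ 𝒯, Tail τ.1 τ.2 x.1) ∧
      ∀ g ∈ K, ∀ x, (∃ τ ∈ 𝒯, Tail τ.1 τ.2 (g x).1) ↔ ∃ τ ∈ 𝒯, Tail τ.1 τ.2 x.1 := by
  classical
  have hst := (HX_step hi).col
  by_cases h0 : i = 0
  · subst h0
    have hT : ∀ x ∈ SgX 0 ×ˢ (Set.univ : Set Col), ∃ τ : Dart × ℕ∞, Tail τ.1 τ.2 x.1 := by
      rintro x ⟨hx, -⟩
      obtain ⟨η, d, h⟩ : ∃ η, ∃ d : ℕ, Tail η d x.1 := hx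
      exact ⟨(η, d), h⟩
    set F : Set (X × Col) := ↑S ∪ ⋃ g ∈ K, ({x | ¬ (HX 0).col.mem g x} ∪
      g '' {x | ¬ (HX 0).col.mem g x}) with hF
    have hfin : F.Finite := S.finite_toSet.union (K.finite_toSet.biUnion fun g hg =>
      (hst.finite_sing (hK g hg)).union ((hst.finite_sing (hK g hg)).image _))
    have hsub : ∀ x ∈ F, x ∈ SgX 0 ×ˢ (Set.univ : Set Col) := by
      rintro x (hx | hx)
      · exact hS x hx
      · obtain ⟨g, hg, hx⟩ := Set.mem_iUnion₂.1 hx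
        have key : ∀ y, ¬ (HX 0).col.mem g y → y ∈ SgX 0 ×ˢ (Set.univ : Set Col) := fun y hy => by
          by_contra h
          exact hy (hst.sing _ _ (hK g hg y) h)
        rcases hx with hx | ⟨y, hy, rfl⟩
        · exact key x hx
        · exact hst.inv _ _ (hK g hg y) (key y hy)
    have : Nonempty Dart := ⟨.aF true⟩
    choose! τ hτ using fun x hx => hT x (hsub x hx)
    have hmem : ∀ x ∈ F, ∃ σ ∈ hfin.toFinset.image τ, Tail σ.1 σ.2 x.1 := fun x hx =>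
      ⟨τ x, Finset.mem_image_of_mem _ (hfin.mem_toFinset.2 hx), hτ x hx⟩
    refine ⟨hfin.toFinset.image τ, fun x hx => hmem x (Or.inl hx), fun g hg x => ?_⟩
    by_cases hx : (HX 0).col.mem g x
    · obtain ⟨f, c, h1, h2⟩ := hx
      obtain ⟨k, hk⟩ := HX_zero_orb.1 (show f x.1 ∈ (HX 0).orb x.1 from ⟨f, h1, rfl⟩)
      rw [h2.eq_of_nhds]
      exact ⟨fun ⟨σ, a, b⟩ => ⟨σ, a, gr_tail_congr hk.symm b⟩,
        fun ⟨σ, a, b⟩ => ⟨σ, a, gr_tail_congr hk b⟩⟩
    · exact iff_of_true (hmem _ (Or.inr (Set.mem_iUnion₂.2 ⟨g, hg, Or.inr ⟨x, hx, rfl⟩⟩)))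
        (hmem _ (Or.inr (Set.mem_iUnion₂.2 ⟨g, hg, Or.inl hx⟩)))
  · have hT : ∀ x : X × Col, (∃ τ ∈ (Finset.univ ×ˢ {⊤} : Finset (Dart × ℕ∞)), Tail τ.1 τ.2 x.1) ↔
        x ∈ SgX i ×ˢ (Set.univ : Set Col) := by
      intro x
      simp [SgX, h0]
    refine ⟨Finset.univ ×ˢ {⊤}, fun x hx => (hT x).2 (hS x hx), fun g hg x => ?_⟩
    rw [hT, hT]
    refine ⟨fun h => ?_, hst.inv _ _ (hK g hg x)⟩
    simpa using hst.inv _ _ (inv_mem (hK g hg) (g x)) h

theorem HX_rec {i : ℕ} (hi : i < 3) : (HX (i + 1)).col.Rec (SgX i ×ˢ Set.univ) := by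
  classical
  intro K hK S hS ε hε
  obtain ⟨𝒯, hT1, hT2⟩ := gr_tails hi K hK S hS
  choose! C hC h using fun g hg => gr_perm (hK g hg) 𝒯
  have hC0 : 0 ≤ ∑ g ∈ K, C g := Finset.sum_nonneg hC
  obtain ⟨φ, N, h1, h2, -, h3⟩ := exists_cutoff (S.sup fun x => x.1.lev)
    (ε / (∑ g ∈ K, C g + 1)) (by positivity)
  set f : X × Col → ℝ := fun x => if ∃ τ ∈ 𝒯, Tail τ.1 τ.2 x.1 then φ x.1.lev else 0 with hf
  have hfin : (Function.support f).Finite := by
    refine ((𝒯.finite_toSet.biUnion fun τ _ => X.finite_lev τ.1 τ.2 N).prod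
      (Set.finite_univ (α := Col))).subset fun x hx => ⟨?_, trivial⟩
    by_cases ht : ∃ τ ∈ 𝒯, Tail τ.1 τ.2 x.1
    · obtain ⟨τ, a, b⟩ := id ht
      refine Set.mem_iUnion₂.2 ⟨τ, a, b, ?_⟩
      by_contra hN
      exact hx (by simp only [hf]; rw [if_pos ht, h2 _ (by omega)])
    · exact absurd (by simp only [hf]; rw [if_neg ht]) hx
  refine ⟨Finsupp.ofSupportFinite f hfin, fun x hx => ?_, fun g hg => ?_⟩
  · rw [Finsupp.ofSupportFinite_coe]
    simp only [hf]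
    rw [if_pos (hT1 x hx), h1 _ (Finset.le_sup (f := fun x : X × Col => x.1.lev) hx)]
  · rw [Finsupp.ofSupportFinite_coe]
    have hfin2 : (Function.support fun x => (f (g x) - f x) ^ 2).Finite := by
      refine (hfin.union (hfin.preimage g.injective.injOn)).subset fun x hx => ?_
      by_contra hn
      simp only [Set.mem_union, Set.mem_preimage, Function.mem_support, not_or, not_not] at hn
      exact hx (by simp [hn.1, hn.2])
    rw [finsum_eq_sum _ hfin2]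
    have hA : ∀ x ∈ hfin2.toFinset, ∃ τ ∈ 𝒯, Tail τ.1 τ.2 x.1 := by
      intro x hx
      by_contra ht
      refine hfin2.mem_toFinset.1 hx ?_
      simp only [hf]
      rw [if_neg ht, if_neg (mt (hT2 g hg x).1 ht)]
      simp
    have h4 := h g hg φ N h2 _ hA
    have h5 : C g ≤ ∑ g ∈ K, C g := Finset.single_le_sum hC hg
    have h6 := grE_nonneg φ N
    have h7 : grE φ N * (∑ g ∈ K, C g + 1) < ε := (lt_div_iff₀ (by positivity)).1 h3
    refine lt_of_le_of_lt (le_of_eq (Finset.sum_congr rfl fun x hx => ?_))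
      (lt_of_le_of_lt h4 (by nlinarith))
    simp only [hf]
    rw [if_pos (hA x hx), if_pos ((hT2 g hg x).2 (hA x hx))]

end Vale.Agent.P196
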