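import Vale.Agent.P196.Germ

/-! Auxiliary facts for the recurrence: tails and counting of addresses. -/

namespace Vale.Agent.P196

open X

variable {o : Op} {p : X}

theorem gr_D_top {k : ℕ} (h : (p.D k).c = ⊤) (j : ℕ) : p.D (k + j) = p.D k := by
  have h0 : (par^[k] p).dat = p.D k := par_iter_D p k 0
  have h1 := eq_aInf (p := par^[k] p) (by rw [h0]; exact h)
  have h2 := par_iter_D p k j
  rw [h1, h0] at h2
  rw [← h2]
  exact Dat.ext h.symm rfl rfl

theorem gr_D_top' {k j : ℕ} (h : (p.D k).c = ⊤) (hj : k ≤ j) : p.D j = p.D k := by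
  obtain ⟨j, rfl⟩ := Nat.exists_eq_add_of_le hj
  exact gr_D_top h j

theorem gr_ap_D (ho : o.ok p.role = true) (k : ℕ) :
    (ap o p).D k = Dat.op (lifts o p k) (p.D k) (p.D (k + 1)) := by
  unfold ap
  rw [dif_pos ho]

theorem gr_lifts_top {k : ℕ} (h : (p.D k).c = ⊤) : lifts o p (k + 1) = .T ∨
    (∃ s, lifts o p (k + 1) = .X s) ∨ lifts o p (k + 1) = .S .al .al := by
  have h1 : (p.D k).role = .al := Dat.role_eq_al.2 (by simp [h])
  have key : ∀ o' : Op, (o'.cr .al .al).2 = .T ∨ (∃ s, (o'.cr .al .al).2 = .X s) ∨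
      (o'.cr .al .al).2 = .S .al .al := by decide
  have := key (lifts o p k)
  simp only [lifts]
  rw [gr_D_top h 1, h1]
  exact this

theorem gr_tail_ap (ho : o.ok p.role = true) {k : ℕ} {η : Dart} {d : ℕ∞}
    (h : p.D k = ⟨⊤, η, d⟩) : ∃ η', ∃ d' ∈ ({0, d - 1, d, d + 1} : Finset ℕ∞),
      (ap o p).D (k + 1) = ⟨⊤, η', d'⟩ := by
  have hc : (p.D k).c = ⊤ := by rw [h]
  rw [gr_ap_D ho, gr_D_top hc 1, add_assoc, gr_D_top hc, h]
  rcases gr_lifts_top (o := o) hc with e | ⟨s, e⟩ | e <;> rw [e]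
  · exact ⟨η.opp, d, by simp, rfl⟩
  · simp only [Dat.op]
    split_ifs
    · exact ⟨η.top, 0, by simp, rfl⟩
    · exact ⟨η, d - 1, by simp, by simp⟩
    · exact ⟨η, d + 1, by simp, by simp⟩
  · exact ⟨η, d, by simp, by simp [Dat.op, Dat.ch]⟩

theorem gr_ap_top (ho : o.ok p.role = true) {k : ℕ} (h : (p.D k).c = ⊤) :
    ((ap o p).D (k + 1)).c = ⊤ := by
  obtain ⟨η', d', -, e⟩ := gr_tail_ap ho (k := k) (η := (p.D k).η) (d := (p.D k).d)
    (Dat.ext h rfl rfl)
  rw [e]

theorem gr_S_stable (ho : o.ok p.role = true) {k : ℕ} (h : (lifts o p k).isS = true) (j : ℕ) :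
    (ap o p).D (k + j + 1) = p.D (k + j + 1) := by
  have key : ∀ (o' : Op) (r ρ : Role), o'.isS = true → (o'.cr r ρ).2 = .S ρ ρ := by decide
  have h1 : ∀ j, (lifts o p (k + j)).isS = true := by
    intro j
    induction j with
    | zero => exact h
    | succ j ih =>
      rw [← add_assoc]
      simp only [lifts]
      rw [key _ _ _ ih]
      rfl
  rw [gr_ap_D ho]
  simp only [lifts]
  rw [key _ _ _ (h1 j)]
  exact (p.h _).symm

theorem gr_fib_succ (a : X) (n : ℕ) : {p | par^[n + 1] p = a} ⊆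
    (fun x : Role × X => cons x.1 x.2) '' (Set.univ ×ˢ {p | par^[n] p = a}) := by
  intro p hp
  exact ⟨(p.role, p.par), ⟨trivial, hp⟩, cons_par p⟩

theorem gr_fib_card (a : X) (n : ℕ) : {p | par^[n] p = a}.encard ≤ (5 ^ n : ℕ) := by
  induction n with
  | zero => simp
  | succ n ih =>
    refine (Set.encard_le_encard (gr_fib_succ a n)).trans ((Set.encard_image_le _ _).trans ?_)
    have : (Set.univ : Set Role).encard = 5 := by
      rw [Set.encard_univ, ENat.card_eq_coe_fintype_card]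
      rfl
    rw [Set.encard_prod, this, pow_succ, mul_comm, Nat.cast_mul]
    exact mul_le_mul_left ih _

/-- Addresses along which the letter does not become a change of sibling. -/
def grA (a : X) (o : Op) (n : ℕ) : Set X :=
  {p | par^[n] p = a ∧ o.ok p.role = true ∧ ∀ k, k + 2 ≤ n → (lifts o p k).isS = false}

theorem grA_small (a : X) (o : Op) {n : ℕ} (hn : n ≤ 2) : (grA a o n).encard ≤ 25 := by
  refine (Set.encard_le_encard fun p hp => hp.1).trans ((gr_fib_card a n).trans ?_)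
  have : 5 ^ n ≤ 5 ^ 2 := Nat.pow_le_pow_right (by norm_num) hn
  exact_mod_cast this

theorem grA_par {a : X} {n : ℕ} (hp : p ∈ grA a o (n + 3)) :
    p.par ∈ grA a (lift o p) (n + 2) ∧ o.isS = false ∧ (lift o p).isS = false := by
  refine ⟨⟨hp.1, ok_lift hp.2.1, fun k hk => ?_⟩, hp.2.2 0 (by omega), hp.2.2 1 (by omega)⟩
  rw [← lifts_succ]
  exact hp.2.2 _ (by omega)

theorem grA_X (a : X) (s : Bool) (n : ℕ) : (grA a (.X s) (n + 2)).encard ≤ 25 := by
  induction n with
  | zero => exact grA_small a _ le_rfl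
  | succ n ih =>
    refine (Set.encard_le_encard (t := cons .al '' grA a (.X s) (n + 2)) fun p hp => ?_).trans
      ((Set.encard_image_le _ _).trans ih)
    obtain ⟨h1, -, h2⟩ := grA_par hp
    have key : ∀ s (r ρ : Role), ((Op.X s).cr r ρ).2.isS = false →
        r = .al ∧ ((Op.X s).cr r ρ).2 = .X s := by decide
    obtain ⟨h3, h4⟩ := key s _ _ h2
    refine ⟨p.par, ?_, by rw [← h3, cons_par]⟩
    unfold X.lift at h1
    rwa [h4] at h1

theorem grA_T (a : X) (n : ℕ) : (grA a .T (n + 2)).encard ≤ (25 + 50 * n : ℕ) := by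
  induction n with
  | zero => exact grA_small a _ le_rfl
  | succ n ih =>
    refine (Set.encard_le_encard (t := cons .al '' grA a .T (n + 2) ∪
      (cons (.be true) '' grA a (.X true) (n + 2) ∪ cons (.be false) '' grA a (.X false) (n + 2)))
      fun p hp => ?_).trans ((Set.encard_union_le _ _).trans ?_)
    · obtain ⟨h1, -, h2⟩ := grA_par hp
      have key : ∀ (r ρ : Role), (Op.T.cr r ρ).2.isS = false →
          (r = .al ∧ (Op.T.cr r ρ).2 = .T) ∨ (r = .be true ∧ (Op.T.cr r ρ).2 = .X true) ∨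
          (r = .be false ∧ (Op.T.cr r ρ).2 = .X false) := by decide
      unfold X.lift at h1
      rcases key _ _ h2 with ⟨h3, h4⟩ | ⟨h3, h4⟩ | ⟨h3, h4⟩ <;> rw [h4] at h1
      · exact Or.inl ⟨p.par, h1, by rw [← h3, cons_par]⟩
      · exact Or.inr (Or.inl ⟨p.par, h1, by rw [← h3, cons_par]⟩)
      · exact Or.inr (Or.inr ⟨p.par, h1, by rw [← h3, cons_par]⟩)
    · have e : ((25 + 50 * (n + 1) : ℕ) : ℕ∞) = (25 + 50 * n : ℕ) + (25 + 25) := by
        push_cast
        ring
      rw [e]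
      exact add_le_add ((Set.encard_image_le _ _).trans ih) ((Set.encard_union_le _ _).trans
        (add_le_add ((Set.encard_image_le _ _).trans (grA_X a _ n))
          ((Set.encard_image_le _ _).trans (grA_X a _ n))))

theorem grA_card (a : X) (o : Op) (n : ℕ) : (grA a o n).encard ≤ (1000 * (n + 1) : ℕ) := by
  have h25 : (25 : ℕ∞) ≤ (1000 * (n + 1) : ℕ) := by
    have : 25 ≤ 1000 * (n + 1) := by omega
    exact_mod_cast this
  by_cases hn : n ≤ 2
  · exact (grA_small a o hn).trans h25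
  obtain ⟨n, rfl⟩ : ∃ m, n = m + 2 := ⟨n - 2, by omega⟩
  cases o with
  | T => exact (grA_T a n).trans (Nat.cast_le.2 (by omega))
  | X s => exact (grA_X a s n).trans h25
  | S r r' =>
    have : grA a (.S r r') (n + 2) = ∅ := by
      refine Set.eq_empty_of_forall_notMem fun p hp => ?_
      have := hp.2.2 0 (by omega)
      simp [lifts, Op.isS] at this
    simp [this]

theorem gr_par_tail {η : Dart} {d : ℕ∞} (h : Tail η d p) {n : ℕ} (hn : (p.D n).c = ⊤) :
    par^[n] p = aInf η d := by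
  obtain ⟨k, hk⟩ := h
  have h1 : p.D n = ⟨⊤, η, d⟩ := by
    rw [← gr_D_top hn k, add_comm, gr_D_top (by rw [hk]), hk]
  have h0 : (par^[n] p).dat = p.D n := par_iter_D p n 0
  have h2 := eq_aInf (p := par^[n] p) (by rw [h0]; exact hn)
  rw [h0, h1] at h2
  exact h2

theorem gr_tail_congr {q : X} {k : ℕ} (h : par^[k] q = par^[k] p) {η : Dart} {d : ℕ∞}
    (hp : Tail η d p) : Tail η d q := by
  obtain ⟨j, hj⟩ := hp
  refine ⟨k + j, ?_⟩
  rw [← par_iter_D, h, par_iter_D, add_comm, gr_D_top (by rw [hj]), hj]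

end Vale.Agent.P196
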