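import Vale.Agent.P196.PGBasic

/-! The cubes generate a finite group; the AF level is honest. -/

namespace Vale.Agent.P196.PG

open Equiv Filter Topology

variable {Ω : Type} [TopologicalSpace Ω] [CompactSpace Ω] [T2Space Ω] [TotallyDisconnectedSpace Ω]
  {Γ : Type} [Group Γ]

omit [CompactSpace Ω] [T2Space Ω] [TotallyDisconnectedSpace Ω] in
theorem k0_cube_mul {H : PG Ω} {π : Γ →* Perm Ω} {z : Perm Ω → Γ} (hz : ZSys H π z)
    {a b : Perm Ω} (ha : a ∈ H.Tri) (hb : b ∈ H.Tri) (hd : Disjoint (supp a) (supp b)) :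
    z (a * b) ^ 3 = z a ^ 3 * z b ^ 3 := by
  have hc : Commute (z a) (z b) := by
    change z a * z b = z b * z a
    rw [← hz.add a ha b hb hd, ← hz.add b hb a ha hd.symm, (commute_of_supp hd).eq]
  rw [hz.add a ha b hb hd, hc.mul_pow]

/-- Two disjoint triples of sheets over the same base have the same cube. -/
theorem k0_cube_eq {H : PG Ω} {π : Γ →* Perm Ω} {z : Perm Ω → Γ} (hz : ZSys H π z)
    {U : Set Ω} {e₁ e₂ : Fin 3 → Ω → Ω} (h₁ : H.MS U Set.univ e₁) (h₂ : H.MS U Set.univ e₂)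
    (hd : ∀ i j, ∀ p ∈ U, ∀ p' ∈ U, e₁ i p ≠ e₂ j p') :
    z (tri U (e₁ 0) (e₁ 1) (e₁ 2)) ^ 3 = z (tri U (e₂ 0) (e₂ 1) (e₂ 2)) ^ 3 := by
  have h : H.MS U Set.univ (Sum.elim e₁ e₂) := by
    refine ⟨h₁.clopen, ?_, ?_⟩
    · rintro (i | i) - (j | j) - p hp p' hp' hpp
      · obtain ⟨h3, h4⟩ := h₁.sec i trivial j trivial p hp p' hp' hpp
        exact ⟨congrArg _ h3, h4⟩
      · exact absurd hpp (hd i j p hp p' hp')
      · exact absurd hpp.symm (hd j i p' hp' p hp)
      · obtain ⟨h3, h4⟩ := h₂.sec i trivial j trivial p hp p' hp' hpp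
        exact ⟨congrArg _ h3, h4⟩
    · rintro (i | i) - x hx
      · exact h₁.mem i trivial x hx
      · exact h₂.mem i trivial x hx
  have h5 : 5 ≤ (Set.univ : Set (Fin 3 ⊕ Fin 3)).encard := by
    rw [Set.encard_univ]
    simp
    norm_cast
  exact (hz.isAlt h).cube_eq h5 (x := .inl 0) (y := .inl 1) (z := .inl 2) (u := .inr 0)
    (v := .inr 1) (w := .inr 2) trivial trivial trivial trivial trivial trivial
    ⟨by decide, by decide, by decide⟩ ⟨by decide, by decide, by decide⟩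

/-- The change of colour. -/
def k0e (c : Col) : Ω × Col → Ω × Col := fun y => (y.1, c)

omit [CompactSpace Ω] [T2Space Ω] [TotallyDisconnectedSpace Ω] in
theorem k0_MS {H : PG Ω} {Y : Type} {U : Set (Ω × Col)} (hU : IsClopen U) (f : Ω → Ω)
    (hf : ∀ x ∈ U, H.mem f x.1) (hi : Set.InjOn (fun x : Ω × Col => f x.1) U) (c : Y → Col)
    (hc : Function.Injective c) :
    H.col.MS U Set.univ fun i y => (f y.1, c i) := by
  refine ⟨hU, ?_, fun i _ x hx => ⟨f, c i, hf x hx, EventuallyEq.rfl⟩⟩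
  intro i _ j _ p hp p' hp' h
  rw [Prod.mk.injEq] at h
  exact ⟨hc h.2, hi hp hp' h.1⟩

omit [CompactSpace Ω] [T2Space Ω] [TotallyDisconnectedSpace Ω] in
theorem k0_MS0 {H : PG Ω} {U : Set Ω} (hU : IsClopen U) :
    H.col.MS (U ×ˢ ({0} : Set Col)) Set.univ k0e :=
  k0_MS (hU.prod (isClopen_discrete _)) _root_.id (fun x _ => H.id x.1)
    (fun _ hp _ hp' h => Prod.ext h (hp.2.trans hp'.2.symm)) _root_.id Function.injective_id

/-- The colour cycle over `U`. -/
noncomputable def k0T (U : Set Ω) (a b c : Col) : Perm (Ω × Col) :=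
  tri (U ×ˢ ({0} : Set Col)) (k0e a) (k0e b) (k0e c)

theorem k0_col {H : PG Ω} {π : Γ →* Perm (Ω × Col)} {z : Perm (Ω × Col) → Γ}
    (hz : ZSys H.col π z) {U : Set Ω} (hU : IsClopen U) {a b c : Col} (h : D3 a b c) :
    z (k0T U a b c) ^ 3 = z (k0T U 0 1 2) ^ 3 := by
  have h5 : 5 ≤ (Set.univ : Set Col).encard := by
    rw [Set.encard_univ]
    simp
    norm_cast
  exact (hz.isAlt (k0_MS0 hU)).cube_eq h5 trivial trivial trivial trivial trivial trivial h
    ⟨by decide, by decide, by decide⟩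

theorem k0_mem {H : PG Ω} {U : Set Ω} (hU : IsClopen U) : k0T U 0 1 2 ∈ H.col.Tri :=
  (k0_MS0 hU).tri_mem trivial trivial trivial ⟨by decide, by decide, by decide⟩

theorem k0_sq {H : PG Ω} {π : Γ →* Perm (Ω × Col)} {z : Perm (Ω × Col) → Γ}
    (hz : ZSys H.col π z) {U : Set Ω} (hU : IsClopen U) : (z (k0T U 0 1 2) ^ 3) ^ 2 = 1 := by
  have h1 : z (k0T U 0 1 2) * z (k0T U 0 2 1) = 1 :=
    (hz.isAlt (k0_MS0 hU)).inv (x := 0) (y := 1) (z := 2) trivial trivial trivial
      ⟨by decide, by decide, by decide⟩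
  have h2 := k0_col hz hU (a := 0) (b := 2) (c := 1) ⟨by decide, by decide, by decide⟩
  rw [sq]
  nth_rewrite 2 [← h2]
  rw [← inv_eq_of_mul_eq_one_right h1, inv_pow, mul_inv_cancel]

theorem k0_add {H : PG Ω} {π : Γ →* Perm (Ω × Col)} {z : Perm (Ω × Col) → Γ}
    (hz : ZSys H.col π z) {U V : Set Ω} (hU : IsClopen U) (hV : IsClopen V) (hd : Disjoint U V) :
    z (k0T (U ∪ V) 0 1 2) ^ 3 = z (k0T U 0 1 2) ^ 3 * z (k0T V 0 1 2) ^ 3 := by
  have h1 : k0T (U ∪ V) 0 1 2 = k0T U 0 1 2 * k0T V 0 1 2 := by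
    unfold k0T
    rw [Set.union_prod]
    refine tri_union (Set.disjoint_prod.2 (Or.inl hd)) ?_
    rw [← Set.union_prod]
    exact (k0_MS0 (H := H) (hU.union hV)).sec.three (x := 0) (y := 1) (z := 2) trivial trivial
      trivial ⟨by decide, by decide, by decide⟩
  have hs : ∀ W : Set Ω, ∀ ω ∈ supp (k0T W 0 1 2), ω.1 ∈ W := fun W ω hω => by
    rcases supp_tri_subset hω with (⟨p, hp, rfl⟩ | ⟨p, hp, rfl⟩) | ⟨p, hp, rfl⟩
    exacts [hp.1, hp.1, hp.1]
  rw [h1]
  refine k0_cube_mul hz (k0_mem hU) (k0_mem hV) ?_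
  rw [Set.disjoint_left]
  intro ω h2 h3
  exact Set.disjoint_left.1 hd (hs U ω h2) (hs V ω h3)

omit [TopologicalSpace Ω] [CompactSpace Ω] [T2Space Ω] [TotallyDisconnectedSpace Ω] in
theorem k0_reparam {U : Set (Ω × Col)} (f : Ω → Ω)
    (hi : Set.InjOn (fun x : Ω × Col => f x.1) U) (a b c : Col) :
    tri U (fun y => (f y.1, a)) (fun y => (f y.1, b)) (fun y => (f y.1, c)) =
      k0T ((fun x : Ω × Col => f x.1) '' U) a b c := by
  have h1 : Set.InjOn (fun y : Ω × Col => (f y.1, (0 : Col))) U := fun p hp p' hp' h =>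
    hi hp hp' (congrArg Prod.fst h)
  have h2 := tri_reparam (e₁ := k0e a) (e₂ := k0e b) (e₃ := k0e c) h1
  have h3 : (fun y : Ω × Col => (f y.1, (0 : Col))) '' U =
      ((fun x : Ω × Col => f x.1) '' U) ×ˢ ({0} : Set Col) := by
    ext ⟨ω, d⟩
    simp only [Set.mem_image, Set.mem_prod, Set.mem_singleton_iff, Prod.mk.injEq]
    constructor
    · rintro ⟨p, hp, h4, h5⟩
      exact ⟨⟨p, hp, h4⟩, h5.symm⟩
    · rintro ⟨⟨p, hp, h4⟩, h5⟩
      exact ⟨p, hp, h4, h5.symm⟩
  rw [h3] at h2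
  exact h2

theorem k0_inv {H : PG Ω} {π : Γ →* Perm (Ω × Col)} {z : Perm (Ω × Col) → Γ}
    (hz : ZSys H.col π z) {U : Set Ω} {f : Ω → Ω} (hU : IsClopen U) (hf : ∀ x ∈ U, H.mem f x)
    (hi : Set.InjOn f U) : z (k0T (f '' U) 0 1 2) ^ 3 = z (k0T U 0 1 2) ^ 3 := by
  have hU' : IsClopen (U ×ˢ ({0} : Set Col)) := hU.prod (isClopen_discrete _)
  have hi' : Set.InjOn (fun x : Ω × Col => f x.1) (U ×ˢ ({0} : Set Col)) :=
    fun _ hp _ hp' h => Prod.ext (hi hp.1 hp'.1 h) (hp.2.trans hp'.2.symm)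
  have h1 := k0_MS (H := H) hU' _root_.id (fun x _ => H.id x.1)
    (fun _ hp _ hp' h => Prod.ext h (hp.2.trans hp'.2.symm)) (![0, 1, 2] : Fin 3 → Col) (by decide)
  have h2 := k0_MS (H := H) hU' f (fun x hx => hf x.1 hx.1) hi' (![3, 4, 5] : Fin 3 → Col)
    (by decide)
  have hne : ∀ i j : Fin 3, (![0, 1, 2] : Fin 3 → Col) i ≠ (![3, 4, 5] : Fin 3 → Col) j := by
    decide
  have h3 := k0_cube_eq hz h1 h2 fun i j p _ p' _ h => hne i j (congrArg Prod.snd h)
  have h4 := k0_reparam f hi' 3 4 5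
  have h5 : (fun x : Ω × Col => f x.1) '' (U ×ˢ ({0} : Set Col)) = f '' U := by
    ext ω
    simp only [Set.mem_image, Set.mem_prod, Set.mem_singleton_iff]
    constructor
    · rintro ⟨p, hp, rfl⟩
      exact ⟨p.1, hp.1, rfl⟩
    · rintro ⟨p, hp, rfl⟩
      exact ⟨(p, 0), ⟨hp, rfl⟩, rfl⟩
  rw [h5] at h4
  rw [← k0_col hz (isClopen_image hU hf) (a := 3) (b := 4) (c := 5)
    ⟨by decide, by decide, by decide⟩, ← h4]
  exact h3.symm

theorem k0_fresh (a b c : Col) : ∃ f : Fin 3 → Col, Function.Injective f ∧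
    ∀ i, f i ≠ a ∧ f i ≠ b ∧ f i ≠ c := by
  have h1 : 3 ≤ ((Finset.univ : Finset Col) \ {a, b, c}).card := by
    have h2 : ({a, b, c} : Finset Col).card ≤ 3 := Finset.card_le_three
    have h3 := Finset.le_card_sdiff ({a, b, c} : Finset Col) Finset.univ
    rw [Finset.card_univ, Fintype.card_fin] at h3
    omega
  refine ⟨fun i => (Finset.orderEmbOfCardLe _ h1 i), (Finset.orderEmbOfCardLe _ h1).injective,
    fun i => ?_⟩
  have := Finset.orderEmbOfCardLe_mem _ h1 i
  simpa [not_or] using this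

theorem k0_all {H : PG Ω} {π : Γ →* Perm (Ω × Col)} {z : Perm (Ω × Col) → Γ}
    (hz : ZSys H.col π z) (K : Subgroup Γ) (hK : ∀ U, IsClopen U → z (k0T U 0 1 2) ^ 3 ∈ K)
    {t : Perm (Ω × Col)} (ht : t ∈ H.col.Tri) : z t ^ 3 ∈ K := by
  have hc : Continuous t := full_continuous ht.1
  refine Tri.induction ht
    (fun x => {y | y.2 = x.2 ∧ (t y).2 = (t x).2 ∧ (t (t y)).2 = (t (t x)).2}) (fun x _ => ?_)
    (p := fun t => z t ^ 3 ∈ K) ?_ ?_ ?_
  · refine IsOpen.mem_nhds ?_ ⟨rfl, rfl, rfl⟩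
    exact ((isOpen_discrete {x.2}).preimage continuous_snd).inter
      (((isOpen_discrete {(t x).2}).preimage (continuous_snd.comp hc)).inter
        ((isOpen_discrete {(t (t x)).2}).preimage (continuous_snd.comp (hc.comp hc))))
  · simp only [hz.one, one_pow]
    exact K.one_mem
  · intro a ha b hb hd _ _ h1 h2
    rw [k0_cube_mul hz ha hb hd]
    exact K.mul_mem h1 h2
  · intro x _ U hU hMS
    obtain ⟨f, hf, hf'⟩ := k0_fresh x.2 (t x).2 (t (t x)).2
    have hi : Set.InjOn (fun y : Ω × Col => _root_.id y.1) U := fun p hp p' hp' h =>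
      Prod.ext h ((hU hp).1.trans (hU hp').1.symm)
    have h2 := k0_MS (H := H) hMS.clopen _root_.id (fun x _ => H.id x.1) hi f hf
    have h3 := k0_cube_eq hz hMS h2 fun i j p hp p' _ h => by
      have h4 := congrArg Prod.snd h
      fin_cases i
      · exact (hf' j).1 (h4.symm.trans (hU hp).1)
      · exact (hf' j).2.1 (h4.symm.trans (hU hp).2.1)
      · exact (hf' j).2.2 (h4.symm.trans (hU hp).2.2)
    have h4 := k0_reparam _root_.id hi (f 0) (f 1) (f 2)
    have h5 : IsClopen ((fun y : Ω × Col => _root_.id y.1) '' U) := by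
      have h6 : IsClopen (k0e 0 '' U) := isClopen_image (H := H.col) hMS.clopen
        fun x _ => ⟨_root_.id, 0, H.id x.1, EventuallyEq.rfl⟩
      have h7 : (fun y : Ω × Col => _root_.id y.1) '' U =
          (fun ω : Ω => (ω, (0 : Col))) ⁻¹' (k0e 0 '' U) := by
        ext ω
        simp only [Set.mem_image, Set.mem_preimage, k0e, Prod.mk.injEq, and_true, id_eq]
      rw [h7]
      exact h6.preimage (continuous_id.prodMk continuous_const)
    have h8 := hK _ h5
    rw [← k0_col hz h5 (a := f 0) (b := f 1) (c := f 2)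
      ⟨hf.ne (by decide), hf.ne (by decide), hf.ne (by decide)⟩, ← h4, ← h3] at h8
    exact h8

theorem ZSys.cubes_finite {H : PG Ω} {π : Γ →* Perm (Ω × Col)} {z : Perm (Ω × Col) → Γ}
    (hz : ZSys H.col π z) (hF : H.F0) :
    Finite (Subgroup.closure ((fun t => z t ^ 3) '' H.col.Tri)) := by
  classical
  let _ : CommGroup (Subgroup.center Γ) :=
    { (Subgroup.center Γ).toGroup with
      mul_comm := fun a b => Subtype.ext (Subgroup.mem_center_iff.1 b.2 a) }
  have hcen : ∀ U, IsClopen U → z (k0T U 0 1 2) ^ 3 ∈ Subgroup.center Γ := fun U hU => by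
    apply hz.central
    rw [MonoidHom.mem_ker, map_pow, hz.proj _ (k0_mem hU)]
    exact (k0_mem (H := H) hU).2.1
  set ζ : Set Ω → Subgroup.center Γ := fun U =>
    if h : IsClopen U then ⟨z (k0T U 0 1 2) ^ 3, hcen U h⟩ else 1 with hζ
  have hζv : ∀ U, IsClopen U → (ζ U : Γ) = z (k0T U 0 1 2) ^ 3 := fun U hU => by
    simp only [hζ, dif_pos hU]
  have hsq : ∀ U, ζ U ^ 2 = 1 := fun U => by
    by_cases hU : IsClopen U
    · apply Subtype.ext
      rw [Subgroup.coe_pow, hζv U hU]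
      exact k0_sq hz hU
    · simp only [hζ, dif_neg hU, one_pow]
  have hfin := hF (Subgroup.center Γ) ζ hsq
    (fun U V hU hV hd => Subtype.ext (by
      rw [Subgroup.coe_mul, hζv U hU, hζv V hV, hζv _ (hU.union hV)]
      exact k0_add hz hU hV hd))
    (fun U f hU hf hi => Subtype.ext (by
      rw [hζv U hU, hζv _ (isClopen_image hU hf)]
      exact k0_inv hz hU hf hi))
  set K := Subgroup.closure (ζ '' {U | IsClopen U}) with hK
  have hKf : Finite K := by
    have := hfin.to_subtype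
    have h1 : Group.FG K := Group.closure_finite_fg _
    refine CommGroup.finite_of_fg_isMulTorsion K fun g => ?_
    refine isOfFinOrder_iff_pow_eq_one.2 ⟨2, two_pos, Subtype.ext ?_⟩
    obtain ⟨g, hg⟩ := g
    change g ^ 2 = 1
    induction hg using Subgroup.closure_induction with
    | mem x hx =>
      obtain ⟨U, -, rfl⟩ := hx
      exact hsq U
    | one => exact one_pow _
    | mul x y _ _ hx hy => rw [mul_pow, hx, hy, one_mul]
    | inv x _ hx => rw [inv_pow, hx, inv_one]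
  have hle : Subgroup.closure ((fun t => z t ^ 3) '' H.col.Tri) ≤
      K.map (Subgroup.center Γ).subtype := by
    rw [Subgroup.closure_le]
    rintro _ ⟨t, ht, rfl⟩
    refine k0_all hz _ (fun U hU => ?_) ht
    exact ⟨ζ U, Subgroup.subset_closure ⟨U, hU, rfl⟩, hζv U hU⟩
  have h2 : Finite (K.map (Subgroup.center Γ).subtype) :=
    Finite.of_equiv _ (K.equivMapOfInjective _ (Subgroup.center Γ).subtype_injective).toEquiv
  exact Finite.of_injective _ (Subgroup.inclusion_injective hle)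

end Vale.Agent.P196.PG
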