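import Vale.Agent.P196.PGBasic

/-! The AF level is honest. -/

namespace Vale.Agent.P196.PG

open Equiv

theorem kaf_mem_sup {Γ : Type} [Group Γ] {A B : Subgroup Γ}
    (h : ∀ a ∈ A, ∀ b ∈ B, Commute a b) {g : Γ} (hg : g ∈ A ⊔ B) :
    ∃ a ∈ A, ∃ b ∈ B, g = a * b := by
  let S : Subgroup Γ :=
    { carrier := {g | ∃ a ∈ A, ∃ b ∈ B, g = a * b}
      one_mem' := ⟨1, A.one_mem, 1, B.one_mem, by simp⟩
      mul_mem' := by
        rintro _ _ ⟨a, ha, b, hb, rfl⟩ ⟨a', ha', b', hb', rfl⟩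
        refine ⟨a * a', A.mul_mem ha ha', b * b', B.mul_mem hb hb', ?_⟩
        have := (h a' ha' b hb).eq
        calc a * b * (a' * b') = a * (b * a') * b' := by group
          _ = a * (a' * b) * b' := by rw [this]
          _ = a * a' * (b * b') := by group
      inv_mem' := by
        rintro _ ⟨a, ha, b, hb, rfl⟩
        refine ⟨a⁻¹, A.inv_mem ha, b⁻¹, B.inv_mem hb, ?_⟩
        rw [mul_inv_rev]
        exact ((h a ha b hb).inv_inv.eq).symm }
  have : A ⊔ B ≤ S := sup_le (fun a ha => ⟨a, ha, 1, B.one_mem, by simp⟩)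
    (fun b hb => ⟨1, A.one_mem, b, hb, by simp⟩)
  exact this hg

theorem kaf_cells {Ω Γ D : Type} [Group Γ] (π : Γ →* Perm Ω) (C : D → Set Ω)
    (G : D → Subgroup Γ) (hdis : ∀ d d', d ≠ d' → ∀ ω ∈ C d, ω ∉ C d')
    (hcomm : ∀ d d', d ≠ d' → ∀ a ∈ G d, ∀ b ∈ G d', Commute a b)
    (hfix : ∀ d, ∀ g ∈ G d, ∀ ω, ω ∉ C d → π g ω = ω)
    (hone : ∀ d, ∀ g ∈ G d, π g = 1 → g = 1) (F : Finset D) :
    ∀ g ∈ ⨆ d ∈ F, G d, (∀ ω, (∀ d ∈ F, ω ∉ C d) → π g ω = ω) ∧ (π g = 1 → g = 1) := by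
  classical
  induction F using Finset.induction_on with
  | empty =>
    intro g hg
    have : g = 1 := by simpa using hg
    subst this
    simp
  | insert d F hd ih =>
    intro g hg
    rw [Finset.iSup_insert] at hg
    have hc : ∀ a ∈ G d, ∀ b ∈ ⨆ d ∈ F, G d, Commute a b := by
      intro a ha b hb
      have : (⨆ d ∈ F, G d) ≤ Subgroup.centralizer {a} := by
        refine iSup₂_le fun d' hd' b hb => ?_
        rw [Subgroup.mem_centralizer_iff]
        rintro _ rfl
        exact (hcomm d d' (fun h => hd (h ▸ hd')) _ ha b hb).eq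
      exact (Subgroup.mem_centralizer_iff.1 (this hb)) a rfl
    obtain ⟨a, ha, b, hb, rfl⟩ := kaf_mem_sup hc hg
    obtain ⟨h1, h2⟩ := ih b hb
    refine ⟨fun ω hω => ?_, fun h => ?_⟩
    · rw [map_mul, Perm.mul_apply, h1 ω fun d' hd' => hω d' (Finset.mem_insert_of_mem hd')]
      exact hfix d a ha ω (hω d (Finset.mem_insert_self _ _))
    · have ha1 : π a = 1 := by
        ext ω
        by_cases hω : ω ∈ C d
        · have h3 := h1 ω fun d' hd' => hdis d d' (fun h => hd (h ▸ hd')) ω hω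
          have h4 : π (a * b) ω = ω := by rw [h]; rfl
          rwa [map_mul, Perm.mul_apply, h3] at h4
        · exact hfix d a ha ω hω
      rw [hone d a ha ha1, one_mul] at h ⊢
      exact h2 h

theorem kaf_finset {Γ α : Type} [Group Γ] (z : α → Γ) (S : Set α) {k : Γ}
    (hk : k ∈ Subgroup.closure (z '' S)) :
    ∃ K : Finset α, (∀ t ∈ K, t ∈ S) ∧ k ∈ Subgroup.closure (z '' (K : Set α)) := by
  classical
  induction hk using Subgroup.closure_induction with
  | mem x hx =>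
    obtain ⟨t, ht, rfl⟩ := hx
    exact ⟨{t}, by simpa using ht, Subgroup.subset_closure ⟨t, by simp, rfl⟩⟩
  | one => exact ⟨∅, by simp, Subgroup.one_mem _⟩
  | mul x y _ _ hx hy =>
    obtain ⟨K, h1, h2⟩ := hx
    obtain ⟨K', h3, h4⟩ := hy
    refine ⟨K ∪ K', fun t ht => (Finset.mem_union.1 ht).elim (h1 t) (h3 t), Subgroup.mul_mem _
      (Subgroup.closure_mono (Set.image_mono ?_) h2) (Subgroup.closure_mono (Set.image_mono ?_) h4)⟩
    · exact Finset.coe_subset.2 Finset.subset_union_left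
    · exact Finset.coe_subset.2 Finset.subset_union_right
  | inv x _ hx =>
    obtain ⟨K, h1, h2⟩ := hx
    exact ⟨K, h1, Subgroup.inv_mem _ h2⟩

variable {Ω : Type} [TopologicalSpace Ω] [CompactSpace Ω] [T2Space Ω] [TotallyDisconnectedSpace Ω]
  {Γ : Type} [Group Γ]

omit [CompactSpace Ω] [T2Space Ω] [TotallyDisconnectedSpace Ω] in
theorem kaf_commute {H : PG Ω} {π : Γ →* Perm Ω} {z : Perm Ω → Γ} (hz : ZSys H π z)
    {a b : Perm Ω} (ha : a ∈ H.Tri) (hb : b ∈ H.Tri) (hd : Disjoint (supp a) (supp b)) :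
    Commute (z a) (z b) := by
  change z a * z b = z b * z a
  rw [← hz.add a ha b hb hd, ← hz.add b hb a ha hd.symm, (commute_of_supp hd).eq]

/-- A permutation of order dividing three of the sheets lifts to `altL`. -/
theorem kaf_lift {H : PG Ω} {π : Γ →* Perm Ω} {z : Perm Ω → Γ} (hz : ZSys H π z)
    {Y : Type} [Finite Y] {U : Set Ω} {e : Y → Ω → Ω} (h : H.MS U Set.univ e) (σ : Perm Y)
    (hσ : σ ^ 3 = 1) : ∃ τ ∈ H.Tri, (∀ y, ∀ p ∈ U, τ (e y p) = e (σ y) p) ∧
      (∀ ω, (∀ y, ω ∉ e y '' U) → τ ω = ω) ∧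
      (z τ, σ) ∈ altL Set.univ fun x y w => z (tri U (e x) (e y) (e w)) := by
  refine perm_cube_induction (p := fun σ => ∃ τ ∈ H.Tri, (∀ y, ∀ p ∈ U, τ (e y p) = e (σ y) p) ∧
      (∀ ω, (∀ y, ω ∉ e y '' U) → τ ω = ω) ∧
      (z τ, σ) ∈ altL Set.univ fun x y w => z (tri U (e x) (e y) (e w))) ?_ ?_ σ hσ
  · refine ⟨1, one_mem_Tri, fun _ _ _ => rfl, fun _ _ => rfl, ?_⟩
    rw [hz.one]
    exact Subgroup.one_mem _
  · rintro x y w σ h3 - hx hy hw ⟨τ, hτ, h1, h2, h4⟩
    have ht := h.tri_mem (Set.mem_univ x) (Set.mem_univ y) (Set.mem_univ w) h3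
    have hd : Disjoint (supp (tri U (e x) (e y) (e w))) (supp τ) := by
      rw [Set.disjoint_left]
      intro ω hω hω'
      apply hω'
      rcases supp_tri_subset hω with (⟨p, hp, rfl⟩ | ⟨p, hp, rfl⟩) | ⟨p, hp, rfl⟩
      · rw [h1 x p hp, hx]
      · rw [h1 y p hp, hy]
      · rw [h1 w p hp, hw]
    refine ⟨_, Tri.mul ht hτ hd, fun u p hp => ?_, fun ω hω => ?_, ?_⟩
    · rw [Perm.mul_apply, h1 u p hp, tri_apply h.sec (Set.mem_univ x) (Set.mem_univ y)
        (Set.mem_univ w) (Set.mem_univ _) h3 hp, Perm.mul_apply]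
    · rw [Perm.mul_apply, h2 ω hω]
      apply tri_other
      rintro ((h5 | h5) | h5)
      · exact hω x h5
      · exact hω y h5
      · exact hω w h5
    · rw [hz.add _ ht _ hτ hd]
      exact Subgroup.mul_mem _ (Subgroup.subset_closure
        (k := {g | ∃ x y w, x ∈ Set.univ ∧ y ∈ Set.univ ∧ w ∈ Set.univ ∧ D3 x y w ∧
          g = (z (tri U (e x) (e y) (e w)), c3 x y w)})
        ⟨x, y, w, trivial, trivial, trivial, h3, rfl⟩) h4

theorem ZSys.af {H₀ H : PG Ω} {π : Γ →* Perm Ω} {z : Perm Ω → Γ} (hz : ZSys H π z)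
    (hc : ∀ t ∈ H.Tri, z t ^ 3 = 1) (hle : H₀.LE H) (hAF : AF H₀ H) :
    π.ker ⊓ H₀.zsub z = ⊥ := by
  classical
  rw [eq_bot_iff]
  rintro k ⟨hk1, hk2⟩
  rw [Subgroup.mem_bot]
  obtain ⟨K, hK, hk⟩ := kaf_finset z H₀.Tri hk2
  obtain ⟨B, _, Y, _, _, _, E, hE, hKE⟩ := hAF K fun t ht => (hK t ht).1
  have hKT : ∀ t ∈ K, t ∈ H.Tri := fun t ht => Tri_mono hle (hK t ht)
  have := Fintype.ofFinite Y
  rcases isEmpty_or_nonempty Y with hY | ⟨⟨y₀⟩⟩
  · have : Subgroup.closure (z '' (K : Set (Perm Ω))) ≤ ⊥ := by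
      rw [Subgroup.closure_le]
      rintro _ ⟨t, -, rfl⟩
      have : t = 1 := by
        ext ω
        exact hY.elim (E.symm ω).2
      rw [this, hz.one]
      exact Subgroup.one_mem _
    exact Subgroup.mem_bot.1 (this hk)
  set e : Y → Ω → Ω := fun y ω => E ((E.symm ω).1, y) with he
  have he1 : ∀ y ω, E.symm (e y ω) = ((E.symm ω).1, y) := fun y ω => E.symm_apply_apply _
  have he2 : ∀ ω, e (E.symm ω).2 ω = ω := fun ω => E.apply_symm_apply _
  have he3 : ∀ y y' ω, e y (e y' ω) = e y ω := fun y y' ω => by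
    change E ((E.symm (e y' ω)).1, y) = _
    rw [he1]
  have hec : ∀ y, Continuous (e y) := fun y =>
    E.continuous.comp ((continuous_fst.comp E.symm.continuous).prodMk continuous_const)
  set s : Ω → K → Y → Y := fun ω t y => (E.symm ((t : Perm Ω) (e y ω))).2 with hs
  have hs1 : ∀ ω (t : K) y, (t : Perm Ω) (e y ω) = e (s ω t y) ω := fun ω t y => by
    apply E.symm.injective
    rw [he1]
    refine Prod.ext ?_ rfl
    rw [hKE t t.2, he1]
  have hs2 : ∀ ω y, s (e y ω) = s ω := fun ω y => by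
    funext t y'
    simp only [hs, he3]
  have hs3 : ∀ t ∈ K, ∀ ω, s (t ω) = s ω := fun t ht ω => by
    have h1 := hs1 ω ⟨t, ht⟩ (E.symm ω).2
    rw [he2] at h1
    exact (congrArg s h1).trans (hs2 _ _)
  have hsc : Continuous s := continuous_pi fun t => continuous_pi fun y =>
    continuous_snd.comp (E.symm.continuous.comp ((full_continuous (hKT t t.2).1).comp (hec y)))
  set C : (K → Y → Y) → Set Ω := fun d => s ⁻¹' {d} with hC
  have hCc : ∀ d, IsClopen (C d) := fun d => (isClopen_discrete {d}).preimage hsc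
  set U : (K → Y → Y) → Set Ω := fun d => C d ∩ (fun ω => (E.symm ω).2) ⁻¹' {y₀} with hU
  have hMS : ∀ d, H.MS (U d) Set.univ e := fun d => by
    refine ⟨(hCc d).inter ((isClopen_discrete {y₀}).preimage
      (continuous_snd.comp E.symm.continuous)), ?_, fun y _ x _ => hE y x⟩
    intro y _ y' _ p hp p' hp' hpp
    have h1 := congrArg E.symm hpp
    rw [he1, he1, Prod.mk.injEq] at h1
    refine ⟨h1.2, E.symm.injective (Prod.ext h1.1 ?_)⟩
    exact (Set.mem_singleton_iff.1 hp.2).trans (Set.mem_singleton_iff.1 hp'.2).symm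
  have hsheet : ∀ d ω, ω ∈ C d ↔ ∃ y, ω ∈ e y '' U d := fun d ω => by
    constructor
    · intro hω
      refine ⟨(E.symm ω).2, e y₀ ω, ⟨?_, ?_⟩, ?_⟩
      · change s (e y₀ ω) = d
        rw [hs2]
        exact hω
      · change (E.symm (e y₀ ω)).2 = y₀
        rw [he1]
      · rw [he3, he2]
    · rintro ⟨y, p, hp, rfl⟩
      change s (e y p) = d
      rw [hs2]
      exact hp.1
  set φ : (K → Y → Y) → Y → Y → Y → Γ := fun d x y w => z (tri (U d) (e x) (e y) (e w)) with hφ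
  set G : (K → Y → Y) → Subgroup Γ := fun d => (altL Set.univ (φ d)).map (MonoidHom.fst _ _)
    with hG
  have hsupp : ∀ d x y w, supp (tri (U d) (e x) (e y) (e w)) ⊆ C d := fun d x y w ω hω => by
    rw [hsheet]
    rcases supp_tri_subset hω with (h | h) | h
    exacts [⟨x, h⟩, ⟨y, h⟩, ⟨w, h⟩]
  have hdis : ∀ d d', d ≠ d' → ∀ ω ∈ C d, ω ∉ C d' := fun d d' hd ω h1 h2 =>
    hd ((Set.mem_singleton_iff.1 h1).symm.trans (Set.mem_singleton_iff.1 h2))
  have happ : ∀ d, ∀ g ∈ altL Set.univ (φ d), (∀ y, ∀ p ∈ U d, π g.1 (e y p) = e (g.2 y) p) ∧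
      ∀ ω, (∀ y, ω ∉ e y '' U d) → π g.1 ω = ω := fun d g hg => by
    obtain ⟨h1, h2⟩ := (hMS d).sec.altL_apply π (φ := φ d)
      (fun x y w hx hy hw h3 => hz.proj _ ((hMS d).tri_mem hx hy hw h3)) hg
    exact ⟨fun y => h1 y trivial, fun ω hω => h2 ω fun y _ => hω y⟩
  have hmain := kaf_cells π C G hdis ?_ ?_ ?_ Finset.univ
  · refine (hmain k ?_).2 hk1
    refine (Subgroup.closure_le _).2 ?_ hk
    rintro _ ⟨t, ht, rfl⟩
    have htT := hKT t ht
    have hinv : ∀ d x, t x ∈ C d ↔ x ∈ C d := fun d x => by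
      change s (t x) = d ↔ s x = d
      rw [hs3 t ht]
    have hone : ∀ d, z (rest t (C d)) ∈ G d := fun d => by
      rcases (U d).eq_empty_or_nonempty with h0 | ⟨p₀, hp₀⟩
      · have : rest t (C d) = 1 := by
          ext ω
          refine rest_not_mem fun hω => ?_
          obtain ⟨y, p, hp, -⟩ := (hsheet d ω).1 hω
          rw [h0] at hp
          exact hp
        rw [this, hz.one]
        exact Subgroup.one_mem _
      have hact : ∀ y, ∀ p ∈ U d, t (e y p) = e (d ⟨t, ht⟩ y) p := fun y p hp => by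
        have h1 := hs1 p ⟨t, ht⟩ y
        rwa [show s p = d from hp.1] at h1
      have hinj : ∀ y y', e y p₀ = e y' p₀ → y = y' := fun y y' h =>
        ((hMS d).sec y trivial y' trivial p₀ hp₀ p₀ hp₀ h).1
      have hi : Function.Injective (d ⟨t, ht⟩) := fun y y' h => by
        apply hinj
        apply t.injective
        rw [hact y p₀ hp₀, hact y' p₀ hp₀, h]
      set σ : Perm Y := Equiv.ofBijective _ (Finite.injective_iff_bijective.1 hi) with hσ
      have hσa : ∀ y, σ y = d ⟨t, ht⟩ y := fun y => rfl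
      have hσ3 : σ ^ 3 = 1 := by
        ext y
        apply hinj
        have h1 : (t ^ 3) (e y p₀) = e y p₀ := by rw [htT.2.1]; rfl
        simp only [pow_succ, pow_zero, one_mul, Perm.mul_apply, hact _ p₀ hp₀] at h1
        simpa only [pow_succ, pow_zero, one_mul, Perm.mul_apply, hσa, Perm.coe_one, id_eq] using h1
      obtain ⟨τ, -, h1, h2, h3⟩ := kaf_lift hz (hMS d) σ hσ3
      have : rest t (C d) = τ := by
        ext ω
        by_cases hω : ω ∈ C d
        · rw [rest_mem (hinv d) hω]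
          obtain ⟨y, p, hp, rfl⟩ := (hsheet d ω).1 hω
          rw [hact y p hp, h1 y p hp, hσa]
        · rw [rest_not_mem hω, h2 ω fun y hy => hω ((hsheet d ω).2 ⟨y, hy⟩)]
      rw [this]
      exact ⟨_, h3, rfl⟩
    have hall : ∀ F : Finset (K → Y → Y), z (rest t (⋃ d ∈ F, C d)) ∈ ⨆ d ∈ F, G d := by
      intro F
      induction F using Finset.induction_on with
      | empty =>
        have : rest t (⋃ d ∈ (∅ : Finset (K → Y → Y)), C d) = 1 := by
          ext ω
          exact rest_not_mem (by simp)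
        rw [this, hz.one]
        exact Subgroup.one_mem _
      | insert d F hd ih =>
        have hinv' : ∀ x, t x ∈ (⋃ d ∈ F, C d) ↔ x ∈ ⋃ d ∈ F, C d := fun x => by
          simp only [Set.mem_iUnion, hinv]
        have hdj : Disjoint (C d) (⋃ d ∈ F, C d) := by
          rw [Set.disjoint_left]
          intro ω h1 h2
          simp only [Set.mem_iUnion] at h2
          obtain ⟨d', hd', h2⟩ := h2
          exact hdis d d' (fun h => hd (h ▸ hd')) ω h1 h2
        rw [Finset.set_biUnion_insert, Finset.iSup_insert, rest_union (hinv d) hinv' hdj,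
          hz.add _ (Tri.rest htT (hCc d) (hinv d)) _
            (Tri.rest htT (isClopen_biUnion_finset fun d _ => hCc d) hinv')]
        · exact Subgroup.mul_mem _ (Subgroup.mem_sup_left (hone d)) (Subgroup.mem_sup_right ih)
        · rw [supp_rest (hinv d), supp_rest hinv']
          exact hdj.mono Set.inter_subset_right Set.inter_subset_right
    have h1 := hall Finset.univ
    have h2 : (⋃ d ∈ (Finset.univ : Finset (K → Y → Y)), C d) = Set.univ := by
      refine Set.eq_univ_of_forall fun ω => ?_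
      simp only [Set.mem_iUnion]
      exact ⟨s ω, Finset.mem_univ _, rfl⟩
    rwa [h2, rest_univ] at h1
  · rintro d d' hd _ ⟨a, ha, rfl⟩ _ ⟨b, hb, rfl⟩
    refine altL_commute (fun x y w hx hy hw h3 => ?_) hb
    refine (altL_commute (fun x' y' w' hx' hy' hw' h3' => ?_) ha).symm
    refine kaf_commute hz ((hMS d').tri_mem hx hy hw h3) ((hMS d).tri_mem hx' hy' hw' h3') ?_
    rw [Set.disjoint_left]
    intro ω h1 h2
    exact hdis d d' hd ω (hsupp _ _ _ _ h2) (hsupp _ _ _ _ h1)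
  · rintro d _ ⟨g, hg, rfl⟩ ω hω
    exact (happ d g hg).2 ω fun y hy => hω ((hsheet d ω).2 ⟨y, hy⟩)
  · rintro d _ ⟨g, hg, rfl⟩ h1
    rcases (U d).eq_empty_or_nonempty with h0 | ⟨p₀, hp₀⟩
    · refine Subgroup.mem_bot.1 (altL_le (K := ⊥) (fun x y w _ _ _ _ => ?_) hg)
      simp only [hφ, h0, tri_empty, hz.one]
      exact Subgroup.one_mem _
    · refine (hz.isAlt (hMS d)).eq_one (Set.toFinite _)
        (fun x y w hx hy hw h3 => hc _ ((hMS d).tri_mem hx hy hw h3)) hg ?_
      ext y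
      have h2 := (happ d g hg).1 y p₀ hp₀
      have h3 : π g.1 = 1 := h1
      rw [h3] at h2
      exact ((hMS d).sec _ trivial _ trivial p₀ hp₀ p₀ hp₀ h2).1.symm

end Vale.Agent.P196.PG
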