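import Vale.Agent.P196.Alt

namespace Vale.Agent.P196

theorem noeth_comm {G : Type*} [Group G] [Group.FG G] (h : ∀ a b : G, a * b = b * a)
    (E : Subgroup G) : E.FG := by
  letI : CommGroup G := { (inferInstance : Group G) with mul_comm := h }
  have : Module.Finite ℤ (Additive G) := Module.Finite.iff_addGroup_fg.2 inferInstance
  have h1 := IsNoetherian.noetherian (R := ℤ) (AddSubgroup.toIntSubmodule E.toAddSubgroup)
  rw [Submodule.fg_iff_addSubgroup_fg, AddSubgroup.toIntSubmodule_toAddSubgroup] at h1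
  exact (Subgroup.fg_iff_add_fg E).2 h1

theorem noeth_fg_map {G G' : Type*} [Group G] [Group G'] (f : G →* G') {E : Subgroup G}
    (h : E.FG) : (E.map f).FG := by
  obtain ⟨S, h1, h2⟩ := (Subgroup.fg_iff E).1 h
  exact (Subgroup.fg_iff _).2 ⟨f '' S, by rw [← h1, MonoidHom.map_closure], h2.image f⟩

theorem noeth_ext {G : Type*} [Group G] (D : Subgroup G) [D.Normal]
    (h1 : ∀ E : Subgroup D, E.FG) (h2 : ∀ E : Subgroup (G ⧸ D), E.FG) (E : Subgroup G) : E.FG := by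
  obtain ⟨T, hT, hfin⟩ := (Subgroup.fg_iff _).1 (h2 (E.map (QuotientGroup.mk' D)))
  have hl : ∀ t ∈ T, ∃ g ∈ E, QuotientGroup.mk' D g = t := fun t ht => by
    have : t ∈ E.map (QuotientGroup.mk' D) := hT ▸ Subgroup.subset_closure ht
    exact Subgroup.mem_map.1 this
  choose! l hl1 hl2 using hl
  have h3 := noeth_fg_map D.subtype (h1 (E.subgroupOf D))
  rw [Subgroup.subgroupOf_map_subtype] at h3
  have h4 : (Subgroup.closure (l '' T)).FG := (Subgroup.fg_iff _).2 ⟨_, rfl, hfin.image l⟩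
  have hle : Subgroup.closure (l '' T) ≤ E := by
    rw [Subgroup.closure_le]
    rintro _ ⟨t, ht, rfl⟩
    exact hl1 t ht
  have h5 : E = Subgroup.closure (l '' T) ⊔ (E ⊓ D) := by
    refine le_antisymm (fun g hg => ?_) (sup_le hle inf_le_left)
    have h6 : E.map (QuotientGroup.mk' D) ≤
        (Subgroup.closure (l '' T)).map (QuotientGroup.mk' D) := by
      rw [← hT, Subgroup.closure_le]
      intro t ht
      exact ⟨l t, Subgroup.subset_closure ⟨t, ht, rfl⟩, hl2 t ht⟩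
    obtain ⟨k, hk, e⟩ := h6 ⟨g, hg, rfl⟩
    have h7 : k⁻¹ * g ∈ D := QuotientGroup.eq.1 e
    have h8 := Subgroup.mul_mem_sup hk
      (show k⁻¹ * g ∈ E ⊓ D from ⟨E.mul_mem (E.inv_mem (hle hk)) hg, h7⟩)
    rwa [mul_inv_cancel_left] at h8
  rw [h5]
  exact h4.sup h3

theorem noeth_class_two {G : Type*} [Group G] [Group.FG G]
    (h : ∀ a b : G, a * b * a⁻¹ * b⁻¹ ∈ Subgroup.center G) (E : Subgroup G) : E.FG := by
  obtain ⟨S, hS, hfin⟩ := Group.fg_iff.1 ‹Group.FG G›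
  let C : Set G := Set.image2 (fun a b => a * b * a⁻¹ * b⁻¹) S S
  have hC : Finite C := hfin.image2 _ hfin
  have hle : Subgroup.closure C ≤ Subgroup.center G := by
    rw [Subgroup.closure_le]
    rintro _ ⟨a, -, b, -, rfl⟩
    exact h a b
  have hn : (Subgroup.closure C).Normal := ⟨fun n hn g => by
    rw [Subgroup.mem_center_iff.1 (hle hn) g, mul_inv_cancel_right]
    exact hn⟩
  refine noeth_ext (Subgroup.closure C) (noeth_comm fun a b => Subtype.ext ?_)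
    (noeth_comm fun a b => ?_) E
  · exact Subgroup.mem_center_iff.1 (hle b.2) a
  · have h1 : Subgroup.closure (QuotientGroup.mk' (Subgroup.closure C) '' S) = ⊤ := by
      rw [← MonoidHom.map_closure, hS]
      exact Subgroup.map_top_of_surjective _ (QuotientGroup.mk'_surjective _)
    have h2 := Subgroup.isMulCommutative_closure
      (k := QuotientGroup.mk' (Subgroup.closure C) '' S) (by
        rintro _ ⟨x, hx, rfl⟩ _ ⟨y, hy, rfl⟩
        have : QuotientGroup.mk' (Subgroup.closure C) (x * y * x⁻¹ * y⁻¹) = 1 :=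
          (QuotientGroup.eq_one_iff _).2 (Subgroup.subset_closure ⟨x, hx, y, hy, rfl⟩)
        simp only [map_mul, map_inv] at this
        rwa [mul_inv_eq_one, mul_inv_eq_iff_eq_mul] at this)
    exact congrArg Subtype.val (h2.is_comm.comm ⟨a, h1 ▸ Subgroup.mem_top a⟩
      ⟨b, h1 ▸ Subgroup.mem_top b⟩)

/-- A group with a finite-index subgroup all of whose commutators are central, finitely
generated, has all subgroups finitely generated. -/
theorem fg_of_class_two_by_finite {N : Type*} [Group N] [Group.FG N] (K : Subgroup N)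
    [K.FiniteIndex] (hK : ∀ a ∈ K, ∀ b ∈ K, a * b * a⁻¹ * b⁻¹ ∈ Subgroup.center N) (E : Subgroup N) :
    E.FG := by
  refine noeth_ext K.normalCore (noeth_class_two fun a b => ?_)
    (fun E => (Group.fg_iff_subgroup_fg E).1 inferInstance) E
  rw [Subgroup.mem_center_iff]
  intro g
  exact Subtype.ext (Subgroup.mem_center_iff.1
    (hK a (K.normalCore_le a.2) b (K.normalCore_le b.2)) g)

theorem noeth_two_off {P : Type*} {S : Set P} (h : 5 ≤ S.encard) (a₁ a₂ a₃ : P) :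
    ∃ b ∈ S, ∃ c ∈ S, b ≠ c ∧ b ∉ ({a₁, a₂, a₃} : Set P) ∧ c ∉ ({a₁, a₂, a₃} : Set P) := by
  have h1 := Set.encard_le_encard_sdiff_add_encard S {a₁, a₂, a₃}
  have h2 : ({a₁, a₂, a₃} : Set P).encard ≤ 3 := by
    have e1 := Set.encard_insert_le ({a₂, a₃} : Set P) a₁
    have e2 := Set.encard_insert_le ({a₃} : Set P) a₂
    rw [Set.encard_singleton] at e2
    exact e1.trans ((add_le_add e2 le_rfl).trans (by norm_num))
  have h3 : 1 < (S \ {a₁, a₂, a₃}).encard := by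
    by_contra hn
    have h4 := h.trans (h1.trans (add_le_add (not_lt.1 hn) h2))
    norm_num at h4
  obtain ⟨b, c, hb, hc, hne⟩ := Set.one_lt_encard_iff.1 h3
  exact ⟨b, hb.1, c, hc.1, hne, hb.2, hc.2⟩

theorem GSys.noeth_fg {N Ξ P : Type*} [Group N] [MulAction N Ξ] [Finite P] (G : GSys N Ξ P)
    (hZ : G.Z = ⊥) (htop : G.NB Set.univ = ⊤)
    (h5 : ∀ ξ, 5 ≤ (G.β '' {ξ' | G.cmp ξ' = G.cmp ξ}).encard)
    (u : Ξ → Ξ) (hβ : ∀ ξ, G.β (u ξ) = G.β ξ) (hcmp : ∀ ξ, G.cmp (u ξ) = G.cmp ξ)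
    (hu : ∀ (g : N) ξ ξ', G.β ξ' = G.β ξ → g • ξ = u ξ → g • ξ' = u ξ')
    (hgen : ∀ ξ ξ', G.cmp ξ = G.cmp ξ' → G.β ξ = G.β ξ' → ∃ n : ℕ, ξ' = u^[n] ξ ∨ ξ = u^[n] ξ') :
    Group.FG N := by
  let f : Ξ → P × P := fun ξ => (G.cmp ξ, G.β ξ)
  let bs : Ξ → Ξ := fun ξ => Set.rangeSplitting f ⟨f ξ, ξ, rfl⟩
  have hbs : ∀ ξ, G.cmp (bs ξ) = G.cmp ξ ∧ G.β (bs ξ) = G.β ξ := fun ξ =>
    Prod.ext_iff.1 (Set.apply_rangeSplitting f ⟨f ξ, ξ, rfl⟩)
  let X : Set Ξ := Set.range (Set.rangeSplitting f) ∪ u '' Set.range (Set.rangeSplitting f)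
  have hX : X.Finite := (Set.finite_range _).union ((Set.finite_range _).image u)
  have hX1 : ∀ ξ, bs ξ ∈ X := fun ξ => Or.inl ⟨_, rfl⟩
  have hX2 : ∀ ξ, u (bs ξ) ∈ X := fun ξ => Or.inr ⟨_, ⟨_, rfl⟩, rfl⟩
  let T : Set N := (fun q : Ξ × Ξ × Ξ => G.φ q.1 q.2.1 q.2.2) '' (X ×ˢ X ×ˢ X)
  have hT : ∀ x ∈ X, ∀ y ∈ X, ∀ z ∈ X, G.φ x y z ∈ Subgroup.closure T := fun x hx y hy z hz =>
    Subgroup.subset_closure ⟨(x, y, z), ⟨hx, hy, hz⟩, rfl⟩
  have move : ∀ x y z, G.cmp x = G.cmp y → G.cmp y = G.cmp z → D3 (G.β x) (G.β y) (G.β z) →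
      G.φ (bs x) y z ∈ Subgroup.closure T → G.φ x y z ∈ Subgroup.closure T := by
    intro x y z h1 h2 h3 hm
    obtain ⟨_, ⟨b, hb, rfl⟩, _, ⟨c, hc, rfl⟩, hbc, hb', hc'⟩ :=
      noeth_two_off (h5 x) (G.β x) (G.β y) (G.β z)
    simp only [Set.mem_insert_iff, Set.mem_singleton_iff, not_or] at hb' hc'
    have hb0 : G.cmp b = G.cmp x := hb
    have hc0 : G.cmp c = G.cmp x := hc
    have c1 : G.cmp (bs x) = G.cmp (bs b) := by rw [(hbs _).1, (hbs _).1, hb0]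
    have c2 : G.cmp (bs b) = G.cmp (bs c) := by rw [(hbs _).1, (hbs _).1, hb0, hc0]
    have d1 : D3 (G.β (bs x)) (G.β (bs b)) (G.β (bs c)) := by
      rw [(hbs _).2, (hbs _).2, (hbs _).2]
      exact ⟨Ne.symm hb'.1, hbc, Ne.symm hc'.1⟩
    have c3 : G.cmp (u (bs x)) = G.cmp (bs b) := by rw [hcmp, c1]
    have d2 : D3 (G.β (u (bs x))) (G.β (bs b)) (G.β (bs c)) := by rwa [hβ]
    set γ := (G.φ (u (bs x)) (bs b) (bs c))⁻¹ * G.φ (bs x) (bs b) (bs c) with hγ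
    have g1 : γ ∈ Subgroup.closure T := Subgroup.mul_mem _
      (Subgroup.inv_mem _ (hT _ (hX2 _) _ (hX1 _) _ (hX1 _))) (hT _ (hX1 _) _ (hX1 _) _ (hX1 _))
    have g2 : γ • bs x = u (bs x) := by
      rw [hγ, mul_smul, G.act c1 c2 d1, inv_smul_eq_iff, G.act c3 c2 d2]
    have g3 : ∀ ξ, G.β ξ ≠ G.β x → G.β ξ ≠ G.β b → G.β ξ ≠ G.β c → γ • ξ = ξ := by
      intro ξ e1 e2 e3
      rw [hγ, mul_smul, G.fix c1 c2 d1 ξ (by rwa [(hbs _).2]) (by rwa [(hbs _).2])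
        (by rwa [(hbs _).2]), inv_smul_eq_iff, G.fix c3 c2 d2 ξ (by rwa [hβ, (hbs _).2])
        (by rwa [(hbs _).2]) (by rwa [(hbs _).2])]
    have g4 : ∀ (n : ℕ) ξ, G.β ξ = G.β x → γ ^ n • ξ = u^[n] ξ := by
      intro n
      induction n with
      | zero => simp
      | succ n ih =>
        intro ξ e
        rw [pow_succ, mul_smul, hu γ (bs x) ξ (e.trans (hbs x).2.symm) g2,
          ih _ ((hβ ξ).trans e), Function.iterate_succ_apply]
    have g5 : ∀ (n : ℕ) (ξ : Ξ), γ • ξ = ξ → γ ^ n • ξ = ξ := fun n ξ e =>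
      MulAction.mem_stabilizer_iff.1 (Subgroup.pow_mem _ (MulAction.mem_stabilizer_iff.2 e) n)
    have gy := g3 y h3.1.symm (Ne.symm hb'.2.1) (Ne.symm hc'.2.1)
    have gz := g3 z h3.2.2.symm (Ne.symm hb'.2.2) (Ne.symm hc'.2.2)
    have hk : ∃ k ∈ Subgroup.closure T, k • bs x = x ∧ k • y = y ∧ k • z = z := by
      obtain ⟨n, e | e⟩ := hgen (bs x) x (hbs x).1 (hbs x).2
      · exact ⟨γ ^ n, Subgroup.pow_mem _ g1 n, (g4 n _ (hbs x).2).trans e.symm, g5 n _ gy,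
          g5 n _ gz⟩
      · refine ⟨(γ ^ n)⁻¹, Subgroup.inv_mem _ (Subgroup.pow_mem _ g1 n), ?_, ?_, ?_⟩ <;>
          rw [inv_smul_eq_iff]
        · exact e.trans (g4 n _ rfl).symm
        · exact (g5 n _ gy).symm
        · exact (g5 n _ gz).symm
    obtain ⟨k, hk, k1, k2, k3⟩ := hk
    have := G.conj k (x := bs x) (y := y) (z := z) ((hbs x).1.trans h1) h2 (by rwa [(hbs x).2])
    rw [k1, k2, k3] at this
    rw [← this]
    exact Subgroup.mul_mem _ (Subgroup.mul_mem _ hk hm) (Subgroup.inv_mem _ hk)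
  have rot : ∀ x y z, G.cmp x = G.cmp y → G.cmp y = G.cmp z → D3 (G.β x) (G.β y) (G.β z) →
      (G.cmp y = G.cmp z → G.cmp z = G.cmp (bs x) → D3 (G.β y) (G.β z) (G.β (bs x)) →
        G.φ y z (bs x) ∈ Subgroup.closure T) → G.φ x y z ∈ Subgroup.closure T := by
    intro x y z h1 h2 h3 hm
    refine move x y z h1 h2 h3 ?_
    rw [G.cyc ((hbs x).1.trans h1) h2 (by rwa [(hbs x).2])]
    refine hm h2 (h2.symm.trans (h1.symm.trans (hbs x).1.symm)) ?_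
    rw [(hbs x).2]
    exact ⟨h3.2.1, h3.2.2.symm, h3.1.symm⟩
  refine Group.fg_iff.2 ⟨T, ?_, (hX.prod (hX.prod hX)).image _⟩
  rw [eq_top_iff, ← htop, GSys.NB, hZ, sup_bot_eq, Subgroup.closure_le]
  rintro _ ⟨x, y, z, h1, h2, h3, -, -, -, rfl⟩
  exact rot _ _ _ h1 h2 h3 fun h1 h2 h3 => rot _ _ _ h1 h2 h3 fun h1 h2 h3 =>
    rot _ _ _ h1 h2 h3 fun _ _ _ => hT _ (hX1 _) _ (hX1 _) _ (hX1 _)

/-- Noetherianity of a finite system with cyclic isotropy (generator `u`). -/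
theorem GSys.noeth {N Ξ P : Type*} [Group N] [MulAction N Ξ] [Finite P] (G : GSys N Ξ P)
    (hZ : G.Z = ⊥) (htop : G.NB Set.univ = ⊤)
    (h5 : ∀ ξ, 5 ≤ (G.β '' {ξ' | G.cmp ξ' = G.cmp ξ}).encard)
    (u : Ξ → Ξ) (hβ : ∀ ξ, G.β (u ξ) = G.β ξ) (hcmp : ∀ ξ, G.cmp (u ξ) = G.cmp ξ)
    (hu : ∀ (g : N) ξ ξ', G.β ξ' = G.β ξ → g • ξ = u ξ → g • ξ' = u ξ')
    (hgen : ∀ ξ ξ', G.cmp ξ = G.cmp ξ' → G.β ξ = G.β ξ' → ∃ n : ℕ, ξ' = u^[n] ξ ∨ ξ = u^[n] ξ')
    (hab : ∀ (g h : N) ξ, G.β (g • ξ) = G.β ξ → G.β (h • ξ) = G.β ξ → g • h • ξ = h • g • ξ)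
    (E : Subgroup N) : E.FG := by
  have hfg := G.noeth_fg hZ htop h5 u hβ hcmp hu hgen
  let K : Subgroup N :=
    { carrier := {g | ∀ ξ, G.β (g • ξ) = G.β ξ}
      one_mem' := fun ξ => by rw [one_smul]
      mul_mem' := fun {a b} ha hb ξ => by rw [mul_smul, ha, hb]
      inv_mem' := fun {a} ha ξ => by rw [← ha, smul_inv_smul] }
  have hfin : Finite (N ⧸ K) := by
    refine Finite.of_injective (fun c : N ⧸ K =>
      {q : P × P | ∃ ξ, G.β ξ = q.1 ∧ G.β (c.out • ξ) = q.2}) fun c c' e => ?_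
    rw [← c.out_eq, ← c'.out_eq]
    refine QuotientGroup.eq.2 fun ξ => ?_
    have h1 : (G.β ξ, G.β (c'.out • ξ)) ∈
        {q : P × P | ∃ ξ, G.β ξ = q.1 ∧ G.β (c'.out • ξ) = q.2} := ⟨ξ, rfl, rfl⟩
    have e' : {q : P × P | ∃ ξ, G.β ξ = q.1 ∧ G.β (c.out • ξ) = q.2} =
      {q : P × P | ∃ ξ, G.β ξ = q.1 ∧ G.β (c'.out • ξ) = q.2} := e
    rw [← e'] at h1
    obtain ⟨ξ', h2, h3⟩ := h1
    rw [mul_smul, ← G.β_smul _ _ _ h3, inv_smul_smul]
    exact h2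
  have hK : K.FiniteIndex := K.finiteIndex_of_finite_quotient
  refine fg_of_class_two_by_finite K (fun a ha b hb => ?_) E
  have htriv : ∀ ξ : Ξ, (a * b * a⁻¹ * b⁻¹) • ξ = ξ := by
    intro ξ
    rw [mul_smul, mul_smul, mul_smul, hab a b _ (ha _) (hb _), smul_inv_smul, smul_inv_smul]
  have hle : G.NB Set.univ ≤ Subgroup.centralizer {a * b * a⁻¹ * b⁻¹} := by
    rw [GSys.NB, hZ, sup_bot_eq, Subgroup.closure_le]
    rintro _ ⟨x, y, z, h1, h2, h3, -, -, -, rfl⟩ _ rfl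
    have := G.conj (a * b * a⁻¹ * b⁻¹) h1 h2 h3
    rwa [htriv, htriv, htriv, mul_inv_eq_iff_eq_mul] at this
  rw [Subgroup.mem_center_iff]
  intro g
  exact (hle (htop ▸ Subgroup.mem_top g) _ rfl).symm

end Vale.Agent.P196
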