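import Vale.Agent.P196.PGBasic
import Vale.Agent.P196.Noeth
import Vale.Agent.P196.Amen2

/-! The groups `MB` of lifts living near a finite set; stability and Noetherianity. -/

namespace Vale.Agent.P196.PG

open Equiv Filter Topology

variable {Ω : Type} [TopologicalSpace Ω] [CompactSpace Ω] [T2Space Ω] [TotallyDisconnectedSpace Ω]
  {Γ : Type} [Group Γ]

/-- 3-cycles of `H'` preserving `A`, in `H` off `A`, and moving only points of `B` in `A`. -/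
def gens (H H' : PG Ω) (A B : Set Ω) : Set (Perm Ω) :=
  {t | t ∈ H'.Tri ∧ (∀ x, t x ∈ A ↔ x ∈ A) ∧ (∀ x, x ∉ A → H.mem t x) ∧ supp t ∩ A ⊆ B}

def MB (H H' : PG Ω) (z : Perm Ω → Γ) (A B : Set Ω) : Subgroup Γ :=
  Subgroup.closure (z '' gens H H' A B)

variable {H H' H₃ : PG Ω} {Sg : Set Ω} {π : Γ →* Perm Ω} {z : Perm Ω → Γ} {A B : Set Ω}

section Germs

omit [CompactSpace Ω] [T2Space Ω] [TotallyDisconnectedSpace Ω]

theorem kb_tendsto {f : Ω → Ω} {x : Ω} (hf : H.mem f x) : Tendsto f (𝓝 x) (𝓝 (f x)) :=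
  (H.cont hf).tendsto

theorem kb_comp {f g g' : Ω → Ω} {x : Ω} (hf : H.mem f x) (h : g =ᶠ[𝓝 (f x)] g') :
    g ∘ f =ᶠ[𝓝 x] g' ∘ f := (kb_tendsto hf).eventually h

theorem kb_cancel {f g g' : Ω → Ω} {x : Ω} (hf : H.mem f x) (h : g ∘ f =ᶠ[𝓝 x] g' ∘ f) :
    g =ᶠ[𝓝 (f x)] g' := by
  obtain ⟨k, k1, k2, k3⟩ := H.inv hf
  have h0 : k (f x) = x := k2.eq_of_nhds
  have h1 : Tendsto k (𝓝 (f x)) (𝓝 x) := by simpa [h0] using kb_tendsto k1
  filter_upwards [h1.eventually h, k3] with y hy hy'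
  simp only [Function.comp_apply, _root_.id] at hy hy'
  rwa [hy'] at hy

theorem kb_left {f f' g : Ω → Ω} {x : Ω} (h : f =ᶠ[𝓝 x] f') : g ∘ f =ᶠ[𝓝 x] g ∘ f' := by
  filter_upwards [h] with y hy
  simp only [Function.comp_apply, hy]

/-- Elements of the full group of `H'` preserving `A` and in `H` off `A`. -/
def kbSt (H H' : PG Ω) (A : Set Ω) : Subgroup (Perm Ω) where
  carrier := {g | g ∈ H'.full ∧ (∀ x, g x ∈ A ↔ x ∈ A) ∧ ∀ x, x ∉ A → H.mem g x}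
  one_mem' := ⟨H'.full.one_mem, fun _ => Iff.rfl, fun x _ => H.id x⟩
  mul_mem' := by
    rintro g k ⟨g1, g2, g3⟩ ⟨k1, k2, k3⟩
    refine ⟨H'.full.mul_mem g1 k1, fun x => (g2 _).trans (k2 x), fun x hx => ?_⟩
    exact H.comp (f := k) (g := g) (k3 x hx) (g3 _ fun h => hx ((k2 x).1 h))
  inv_mem' := by
    rintro g ⟨g1, g2, g3⟩
    have h0 : ∀ x, g (g⁻¹ x) = x := fun x => by simp
    refine ⟨H'.full.inv_mem g1, fun x => by rw [← g2, h0], fun x hx => ?_⟩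
    have := am2_mem_inv (g3 (g⁻¹ x) fun h => hx (by rw [← h0 x, g2]; exact h))
    rwa [h0] at this

/-- Representatives of germs between points of `A`. -/
structure KbPre (H' : PG Ω) (A : Set Ω) where
  x : Ω
  f : Ω → Ω
  hx : x ∈ A
  hf : H'.mem f x
  hv : f x ∈ A

def kbSetoid (H' : PG Ω) (A : Set Ω) : Setoid (KbPre H' A) where
  r a b := a.x = b.x ∧ a.f =ᶠ[𝓝 a.x] b.f
  iseqv := ⟨fun _ => ⟨rfl, .rfl⟩, fun h => ⟨h.1.symm, h.1 ▸ h.2.symm⟩,
    fun h h' => ⟨h.1.trans h'.1, h.2.trans (h.1 ▸ h'.2)⟩⟩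

/-- Germs between points of `A`. -/
def KbXi (H' : PG Ω) (A : Set Ω) : Type := Quotient (kbSetoid H' A)

def KbPre.mk' (a : KbPre H' A) : KbXi H' A := Quotient.mk (kbSetoid H' A) a

theorem kb_mk_eq {a b : KbPre H' A} : a.mk' = b.mk' ↔ a.x = b.x ∧ a.f =ᶠ[𝓝 a.x] b.f :=
  Quotient.eq (r := kbSetoid H' A)

theorem kb_surj (ξ : KbXi H' A) : ∃ a : KbPre H' A, a.mk' = ξ := Quotient.exists_rep ξ

def kbβ : KbXi H' A → A :=
  Quotient.lift (fun a : KbPre H' A => (⟨a.f a.x, a.hv⟩ : A)) fun a b h =>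
    Subtype.ext (by
      have := h.2.eq_of_nhds
      simp only [this, ← h.1])

def kbCmp : KbXi H' A → A :=
  Quotient.lift (fun a : KbPre H' A => (⟨a.x, a.hx⟩ : A)) fun _ _ h => Subtype.ext h.1

theorem kbβ_mk (a : KbPre H' A) : (kbβ a.mk' : Ω) = a.f a.x := rfl

theorem kbCmp_mk (a : KbPre H' A) : (kbCmp a.mk' : Ω) = a.x := rfl

def KbPre.act (g : kbSt H H' A) (a : KbPre H' A) : KbPre H' A :=
  ⟨a.x, (g : Perm Ω) ∘ a.f, a.hx, H'.comp a.hf (g.2.1 _), (g.2.2.1 _).2 a.hv⟩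

def kbAct (g : kbSt H H' A) : KbXi H' A → KbXi H' A :=
  Quotient.map (KbPre.act g) fun _ _ h => ⟨h.1, kb_left h.2⟩

def kbPerm (H H' : PG Ω) (A : Set Ω) : kbSt H H' A →* Perm (KbXi H' A) :=
  MonoidHom.toHomPerm
    { toFun := fun g => (kbAct g : Function.End (KbXi H' A))
      map_one' := funext fun ξ => by
        obtain ⟨a, rfl⟩ := kb_surj ξ
        rfl
      map_mul' := fun g k => funext fun ξ => by
        obtain ⟨a, rfl⟩ := kb_surj ξ
        rfl }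

theorem kbPerm_mk (g : kbSt H H' A) (a : KbPre H' A) : kbPerm H H' A g a.mk' = (a.act g).mk' := rfl

theorem kbPerm_β (g : kbSt H H' A) (ξ : KbXi H' A) :
    (kbβ (kbPerm H H' A g ξ) : Ω) = (g : Perm Ω) (kbβ ξ) := by
  obtain ⟨a, rfl⟩ := kb_surj ξ
  rfl

theorem kbPerm_cmp (g : kbSt H H' A) (ξ : KbXi H' A) : kbCmp (kbPerm H H' A g ξ) = kbCmp ξ := by
  obtain ⟨a, rfl⟩ := kb_surj ξ
  rfl

theorem kbPerm_eq_iff (g g' : kbSt H H' A) (ξ : KbXi H' A) :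
    kbPerm H H' A g ξ = kbPerm H H' A g' ξ ↔
      ((g : Perm Ω) : Ω → Ω) =ᶠ[𝓝 (kbβ ξ : Ω)] (g' : Perm Ω) := by
  obtain ⟨a, rfl⟩ := kb_surj ξ
  rw [kbPerm_mk, kbPerm_mk, kb_mk_eq, kbβ_mk]
  exact ⟨fun h => kb_cancel a.hf h.2, fun h => ⟨rfl, kb_comp (f := a.f) (x := a.x) a.hf h⟩⟩

theorem kbPerm_fix_iff (g : kbSt H H' A) (ξ : KbXi H' A) :
    kbPerm H H' A g ξ = ξ ↔ ((g : Perm Ω) : Ω → Ω) =ᶠ[𝓝 (kbβ ξ : Ω)] _root_.id := by
  have := kbPerm_eq_iff g 1 ξ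
  rwa [map_one] at this

theorem kb_gens_St {t : Perm Ω} (ht : t ∈ gens H H' A B) : t ∈ kbSt H H' A :=
  ⟨ht.1.1, ht.2.1, ht.2.2.1⟩

theorem kb_gens_mono {B' : Set Ω} (h : B ⊆ B') : gens H H' A B ⊆ gens H H' A B' :=
  fun _ ht => ⟨ht.1, ht.2.1, ht.2.2.1, ht.2.2.2.trans h⟩

theorem kb_gens_top {t : Perm Ω} (ht : t ∈ gens H H' A B) : t ∈ gens H H' A A :=
  ⟨ht.1, ht.2.1, ht.2.2.1, Set.inter_subset_right⟩

theorem kb_MB_mono {B' : Set Ω} (h : B ⊆ B') : MB H H' z A B ≤ MB H H' z A B' :=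
  Subgroup.closure_mono (Set.image_mono (kb_gens_mono h))

theorem kb_MB_top : MB H H' z A B ≤ MB H H' z A A :=
  Subgroup.closure_mono (Set.image_mono fun _ => kb_gens_top)

theorem kb_id_near {t : Perm Ω} (ht : t ∈ H'.Tri) {a : Ω} (ha : a ∉ supp t) :
    (t : Ω → Ω) =ᶠ[𝓝 a] _root_.id := by
  filter_upwards [ht.2.2.isOpen_compl.mem_nhds ha] with y hy
  exact not_not.1 hy

end Germs

theorem kb_gens_inv {t : Perm Ω} (ht : t ∈ gens H H' A B) : t⁻¹ ∈ gens H H' A B := by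
  have := (kbSt H H' A).inv_mem (kb_gens_St ht)
  exact ⟨Tri.inv ht.1, this.2.1, this.2.2, by rw [supp_inv]; exact ht.2.2.2⟩

theorem kb_gens_conj {g t : Perm Ω} (hg : g ∈ kbSt H H' A) (ht : t ∈ gens H H' A B) :
    g * t * g⁻¹ ∈ gens H H' A (g '' B) := by
  have := (kbSt H H' A).mul_mem ((kbSt H H' A).mul_mem hg (kb_gens_St ht))
    ((kbSt H H' A).inv_mem hg)
  refine ⟨Tri.conj hg.1 ht.1, this.2.1, this.2.2, ?_⟩
  rw [supp_conj]
  rintro _ ⟨⟨y, hy, rfl⟩, h⟩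
  exact ⟨y, ht.2.2.2 ⟨hy, (hg.2.1 y).1 h⟩, rfl⟩

theorem kb_gens_rest {t : Perm Ω} (ht : t ∈ gens H H' A B) {V : Set Ω} (hV : IsClopen V)
    (hi : ∀ x, t x ∈ V ↔ x ∈ V) : rest t V ∈ gens H H' A (B ∩ supp t ∩ V) := by
  refine ⟨Tri.rest ht.1 hV hi, fun x => ?_, fun x hx => ?_, ?_⟩
  · by_cases hx : x ∈ V
    · rw [rest_mem hi hx, ht.2.1]
    · rw [rest_not_mem hx]
  · by_cases hx' : x ∈ V
    · refine H.congr (ht.2.2.1 x hx) ?_
      filter_upwards [hV.isOpen.mem_nhds hx'] with y hy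
      exact (rest_mem hi hy).symm
    · refine H.congr (H.id x) ?_
      filter_upwards [hV.compl.isOpen.mem_nhds hx'] with y hy
      exact (rest_not_mem hy).symm
  · rw [supp_rest hi]
    exact fun x hx => ⟨⟨ht.2.2.2 ⟨hx.1.1, hx.2⟩, hx.1.1⟩, hx.1.2⟩

/-- The standing hypotheses. -/
structure KbCtx (H H' H₃ : PG Ω) (Sg : Set Ω) (π : Γ →* Perm Ω) (z : Perm Ω → Γ) (A : Set Ω) :
    Prop where
  hz : ZSys H₃ π z
  hc : ∀ t ∈ H₃.Tri, z t ^ 3 = 1
  hle : H'.LE H₃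
  h : Step H H' Sg
  hA : A.Finite

namespace KbCtx

variable (c : KbCtx H H' H₃ Sg π z A)
include c

theorem tri3 {t : Perm Ω} (ht : t ∈ gens H H' A B) : t ∈ H₃.Tri := Tri_mono c.hle ht.1

theorem π_mem {m : Γ} (hm : m ∈ MB H H' z A A) : π m ∈ kbSt H H' A := by
  have : MB H H' z A A ≤ (kbSt H H' A).comap π := by
    refine (Subgroup.closure_le _).2 ?_
    rintro _ ⟨t, ht, rfl⟩
    show π (z t) ∈ kbSt H H' A
    rw [c.hz.proj t (c.tri3 ht)]
    exact kb_gens_St ht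
  exact this hm

def rho : MB H H' z A A →* kbSt H H' A :=
  (π.comp (MB H H' z A A).subtype).codRestrict _ fun m => c.π_mem m.2

/-- The subgroup generated by the lifts that are trivial near `A`. -/
def Q (_ : KbCtx H H' H₃ Sg π z A) : Subgroup (MB H H' z A A) :=
  (MB H H' z A ∅).subgroupOf (MB H H' z A A)

theorem conj_mem {m q : Γ} (hm : m ∈ MB H H' z A A) (hq : q ∈ MB H H' z A ∅) :
    m * q * m⁻¹ ∈ MB H H' z A ∅ := by
  have : MB H H' z A ∅ ≤ (MB H H' z A ∅).comap (MulAut.conj m).toMonoidHom := by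
    refine (Subgroup.closure_le _).2 ?_
    rintro _ ⟨t, ht, rfl⟩
    show m * z t * m⁻¹ ∈ MB H H' z A ∅
    rw [(c.hz.conj_all m (c.tri3 ht)).1]
    refine Subgroup.subset_closure ⟨_, ?_, rfl⟩
    simpa using kb_gens_conj (c.π_mem hm) ht
  exact this hq

instance : c.Q.Normal := ⟨fun q hq m => c.conj_mem m.2 hq⟩

theorem Q_le : c.Q ≤ ((kbPerm H H' A).comp c.rho).ker := by
  have key : ∀ q ∈ MB H H' z A ∅, ∀ a ∈ A, (π q : Ω → Ω) =ᶠ[𝓝 a] _root_.id := by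
    intro q hq
    induction hq using Subgroup.closure_induction with
    | mem x hx =>
      obtain ⟨t, ht, rfl⟩ := hx
      intro a ha
      rw [c.hz.proj t (c.tri3 ht)]
      exact kb_id_near ht.1 fun h => ht.2.2.2 ⟨h, ha⟩
    | one => intro a _; rw [map_one]; exact .rfl
    | mul x y _ _ hx hy =>
      intro a ha
      have h1 : Tendsto (π y) (𝓝 a) (𝓝 a) := tendsto_id.congr' (hy a ha).symm
      filter_upwards [h1.eventually (hx a ha), hy a ha] with w h2 h3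
      rw [map_mul, Perm.mul_apply, h2, h3]
      rfl
    | inv x _ hx =>
      intro a ha
      filter_upwards [hx a ha] with w h2
      rw [map_inv, Perm.inv_eq_iff_eq]
      exact h2.symm
  intro q hq
  refine Equiv.ext fun ξ => ?_
  exact (kbPerm_fix_iff (c.rho q) ξ).2 (key q hq _ (kbβ ξ).2)

/-- The quotient group. -/
abbrev N : Type := MB H H' z A A ⧸ c.Q

noncomputable instance : MulAction c.N (KbXi H' A) :=
  MulAction.compHom _ (QuotientGroup.lift c.Q ((kbPerm H H' A).comp c.rho) c.Q_le)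

theorem mk_smul (m : MB H H' z A A) (ξ : KbXi H' A) :
    (m : c.N) • ξ = kbPerm H H' A (c.rho m) ξ := rfl

theorem coe_rho (m : MB H H' z A A) : (c.rho m : Perm Ω) = π m := rfl

open Classical in
/-- The class of a lift. -/
noncomputable def zz (t : Perm Ω) : c.N :=
  if h : t ∈ gens H H' A A then
    ((⟨z t, Subgroup.subset_closure ⟨t, h, rfl⟩⟩ : MB H H' z A A) : c.N) else 1

theorem zz_eq {t : Perm Ω} (ht : t ∈ gens H H' A A) :
    c.zz t = ((⟨z t, Subgroup.subset_closure ⟨t, ht, rfl⟩⟩ : MB H H' z A A) : c.N) := dif_pos ht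

theorem zz_smul {t : Perm Ω} (ht : t ∈ gens H H' A A) (ξ : KbXi H' A) :
    c.zz t • ξ = kbPerm H H' A ⟨t, kb_gens_St ht⟩ ξ := by
  rw [c.zz_eq ht, mk_smul]
  congr 2
  exact Subtype.ext (c.hz.proj t (c.tri3 ht))

theorem zz_β {t : Perm Ω} (ht : t ∈ gens H H' A A) (ξ : KbXi H' A) :
    (kbβ (c.zz t • ξ) : Ω) = t (kbβ ξ) := by
  rw [c.zz_smul ht, kbPerm_β]

theorem zz_mul {t t' s : Perm Ω} (ht : t ∈ gens H H' A A) (ht' : t' ∈ gens H H' A A)
    (hs : s ∈ gens H H' A A) (h : z t * z t' = z s) : c.zz t * c.zz t' = c.zz s := by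
  rw [c.zz_eq ht, c.zz_eq ht', c.zz_eq hs, ← QuotientGroup.mk_mul]
  exact congrArg _ (Subtype.ext h)

theorem zz_one {t : Perm Ω} (ht : t ∈ gens H H' A ∅) : c.zz t = 1 := by
  rw [c.zz_eq (kb_gens_top ht), QuotientGroup.eq_one_iff]
  exact Subgroup.subset_closure ⟨t, ht, rfl⟩

theorem zz_cube {t : Perm Ω} (ht : t ∈ gens H H' A A) : c.zz t ^ 3 = 1 := by
  rw [c.zz_eq ht, ← QuotientGroup.mk_pow]
  have : (⟨z t, Subgroup.subset_closure ⟨t, ht, rfl⟩⟩ : MB H H' z A A) ^ 3 = 1 :=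
    Subtype.ext (c.hc t (c.tri3 ht))
  rw [this, QuotientGroup.mk_one]

theorem zz_inv {t : Perm Ω} (ht : t ∈ gens H H' A A) : c.zz t⁻¹ = (c.zz t)⁻¹ := by
  rw [c.zz_eq ht, c.zz_eq (kb_gens_inv ht), ← QuotientGroup.mk_inv]
  exact congrArg _ (Subtype.ext (c.hz.inv t (c.tri3 ht)))

theorem zz_conj (m : MB H H' z A A) {t : Perm Ω} (ht : t ∈ gens H H' A A) :
    (m : c.N) * c.zz t * (m : c.N)⁻¹ = c.zz (π m * t * (π m)⁻¹) := by
  rw [c.zz_eq ht, c.zz_eq (kb_gens_top (kb_gens_conj (c.π_mem m.2) ht)), ← QuotientGroup.mk_mul,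
    ← QuotientGroup.mk_inv, ← QuotientGroup.mk_mul]
  exact congrArg _ (Subtype.ext (c.hz.conj_all m (c.tri3 ht)).1)

theorem zz_split {t : Perm Ω} (ht : t ∈ gens H H' A A) {V : Set Ω} (hV : IsClopen V)
    (hi : ∀ x, t x ∈ V ↔ x ∈ V) : c.zz t = c.zz (rest t V) * c.zz (rest t Vᶜ) := by
  have hi' : ∀ x, t x ∈ Vᶜ ↔ x ∈ Vᶜ := fun x => not_congr (hi x)
  have h1 := kb_gens_top (kb_gens_rest ht hV hi)
  have h2 := kb_gens_top (kb_gens_rest ht hV.compl hi')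
  refine (c.zz_mul h1 h2 ht ?_).symm
  rw [← c.hz.add _ (c.tri3 h1) _ (c.tri3 h2), rest_mul_compl hi]
  rw [supp_rest hi, supp_rest hi']
  exact Set.disjoint_left.2 fun x hx hx' => hx'.2 hx.2

theorem zz_congr {t t' : Perm Ω} (ht : t ∈ gens H H' A A) (ht' : t' ∈ gens H H' A A)
    (h : ∀ a ∈ A, (t : Ω → Ω) =ᶠ[𝓝 a] t') : c.zz t = c.zz t' := by
  obtain ⟨V, hV, h1, h2, h3⟩ := Tri.exists_inv_clopen ht.1 c.hA.isCompact
    (N := interior {x | t x = t' x}) isOpen_interior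
    (fun a ha => mem_interior_iff_mem_nhds.2 (h a ha)) ht.2.1
  have h4 : ∀ x ∈ V, t x = t' x := fun x hx =>
    (interior_subset (h2 hx) : x ∈ {x | t x = t' x})
  have h5 : ∀ x ∈ V, t' x ∈ V := fun x hx => h4 x hx ▸ (h3 x).2 hx
  have h6 : ∀ x, t' x ∈ V ↔ x ∈ V := fun x =>
    ⟨fun hx => Tri.cube_apply ht'.1 x ▸ h5 _ (h5 _ hx), h5 x⟩
  have h7 : rest t V = rest t' V := Equiv.ext fun x => by
    by_cases hx : x ∈ V
    · rw [rest_mem h3 hx, rest_mem h6 hx, h4 x hx]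
    · rw [rest_not_mem hx, rest_not_mem hx]
  have h8 : ∀ s ∈ gens H H' A A, (∀ x, s x ∈ V ↔ x ∈ V) → c.zz (rest s Vᶜ) = 1 := fun s hs hi =>
    c.zz_one (kb_gens_mono (fun x hx => hx.2 (h1 hx.1.1))
      (kb_gens_rest hs hV.compl fun x => not_congr (hi x)))
  rw [c.zz_split ht hV h3, c.zz_split ht' hV h6, h7, h8 t ht h3, h8 t' ht' h6]

/-- `t` represents the cycle of three germs. -/
def Rep (t : Perm Ω) (x y w : KbXi H' A) : Prop :=
  t ∈ gens H H' A A ∧ (∀ a ∈ A, a ∈ supp t → a = kbβ x ∨ a = kbβ y ∨ a = kbβ w) ∧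
    c.zz t • x = y ∧ c.zz t • y = w

variable {c}

theorem Rep.third {t : Perm Ω} {x y w : KbXi H' A} (h : c.Rep t x y w) : c.zz t • w = x := by
  obtain ⟨h1, -, rfl, rfl⟩ := h
  have := c.zz_cube h1
  rw [← mul_smul, ← mul_smul, ← pow_three', this, one_smul]

theorem Rep.cyc {t : Perm Ω} {x y w : KbXi H' A} (h : c.Rep t x y w) : c.Rep t y w x :=
  ⟨h.1, fun a ha hs => by have := h.2.1 a ha hs; tauto, h.2.2.2, h.third⟩

theorem Rep.inv {t : Perm Ω} {x y w : KbXi H' A} (h : c.Rep t x y w) : c.Rep t⁻¹ x w y := by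
  refine ⟨kb_gens_inv h.1, fun a ha hs => ?_, ?_, ?_⟩
  · rw [supp_inv] at hs
    have := h.2.1 a ha hs
    tauto
  · rw [c.zz_inv h.1, inv_smul_eq_iff, h.third]
  · rw [c.zz_inv h.1, inv_smul_eq_iff, h.2.2.2]

theorem smul_β (m : MB H H' z A A) (ξ : KbXi H' A) :
    (kbβ ((m : c.N) • ξ) : Ω) = π m (kbβ ξ) := by
  rw [mk_smul, kbPerm_β, coe_rho]

theorem Rep.conj {t : Perm Ω} {x y w : KbXi H' A} (h : c.Rep t x y w) (m : MB H H' z A A) :
    c.Rep (π m * t * (π m)⁻¹) ((m : c.N) • x) ((m : c.N) • y) ((m : c.N) • w) := by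
  refine ⟨kb_gens_top (kb_gens_conj (c.π_mem m.2) h.1), fun a ha hs => ?_, ?_, ?_⟩
  · rw [supp_conj] at hs
    obtain ⟨b, hb, rfl⟩ := hs
    have := h.2.1 b (((c.π_mem m.2).2.1 b).1 ha) hb
    simp only [smul_β, EmbeddingLike.apply_eq_iff_eq]
    exact this
  · rw [← c.zz_conj m h.1, mul_smul, mul_smul, inv_smul_smul, h.2.2.1]
  · rw [← c.zz_conj m h.1, mul_smul, mul_smul, inv_smul_smul, h.2.2.2]

theorem Rep.unique {t t' : Perm Ω} {x y w : KbXi H' A} (h : c.Rep t x y w) (h' : c.Rep t' x y w) :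
    c.zz t = c.zz t' := by
  have key : ∀ ξ : KbXi H' A, c.zz t • ξ = c.zz t' • ξ → (t : Ω → Ω) =ᶠ[𝓝 (kbβ ξ : Ω)] t' := by
    intro ξ hξ
    rw [c.zz_smul h.1, c.zz_smul h'.1, kbPerm_eq_iff] at hξ
    exact hξ
  refine c.zz_congr h.1 h'.1 fun a ha => ?_
  by_cases h3 : a = kbβ x ∨ a = kbβ y ∨ a = kbβ w
  · rcases h3 with rfl | rfl | rfl
    · exact key x (h.2.2.1.trans h'.2.2.1.symm)
    · exact key y (h.2.2.2.trans h'.2.2.2.symm)
    · exact key w (h.third.trans h'.third.symm)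
  · exact (kb_id_near h.1.1 fun hs => h3 (h.2.1 a ha hs)).trans
      (kb_id_near h'.1.1 fun hs => h3 (h'.2.1 a ha hs)).symm

variable (c)

theorem exists_sec {Y : Type} [Finite Y] (ξ : Y → KbXi H' A) (x : A) (h1 : ∀ i, kbCmp (ξ i) = x)
    (h2 : Function.Injective fun i => kbβ (ξ i)) :
    ∃ U e, H'.MS U Set.univ e ∧
      ∀ i j k, D3 i j k → c.Rep (tri U (e i) (e j) (e k)) (ξ i) (ξ j) (ξ k) := by
  choose a ha using fun i => kb_surj (ξ i)
  have hx : ∀ i, (a i).x = x := fun i => by rw [← h1 i, ← ha i]; rfl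
  have hm : ∀ i, H'.mem (a i).f x := fun i => hx i ▸ (a i).hf
  have hβ : ∀ i, (kbβ (ξ i) : Ω) = (a i).f x := fun i => by rw [← ha i, kbβ_mk, hx]
  have hN : {p | ∀ i, (a i).f p ∉ A \ {(a i).f x} ∧ (p ≠ x → H.mem (a i).f p)} ∈ 𝓝 (x : Ω) := by
    refine (eventually_all (l := 𝓝 (x : Ω))
      (p := fun i p => (a i).f p ∉ A \ {(a i).f x} ∧ (p ≠ x → H.mem (a i).f p))).2 fun i => ?_
    refine Eventually.and ?_ (eventually_nhdsWithin_iff.1 (c.h.punct _ _ (hm i)))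
    exact (kb_tendsto (hm i)).eventually
      ((c.hA.diff (t := {(a i).f x})).isClosed.isOpen_compl.mem_nhds fun h => h.2 rfl)
  obtain ⟨U, hU1, hU2, hU⟩ := exists_MS (H := H') (T := Set.univ) (e := fun i => (a i).f)
    Set.finite_univ (fun i _ => hm i)
    (fun i _ j _ h => h2 (Subtype.ext (by simpa only [hβ] using h))) hN
  have hA : ∀ i, ∀ p ∈ U, (a i).f p ∈ A ↔ p = x := fun i p hp =>
    ⟨fun h => by
      have h3 : (a i).f p = (a i).f x := by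
        by_contra h4
        exact (hU2 hp i).1 ⟨h, h4⟩
      exact (hU.sec i trivial i trivial p hp x hU1 h3).2,
    fun h => by rw [h, ← hβ]; exact (kbβ (ξ i)).2⟩
  refine ⟨U, fun i => (a i).f, hU, fun i j k h3 => ?_⟩
  have ht := hU.tri_mem trivial trivial trivial h3
  have hap : ∀ l, ∀ p ∈ U, tri U (a i).f (a j).f (a k).f ((a l).f p) = (a (c3 i j k l)).f p :=
    fun l p hp => tri_apply hU.sec trivial trivial trivial trivial h3 hp
  have hsupp : ∀ ω ∈ supp (tri U (a i).f (a j).f (a k).f),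
      ∃ l, (l = i ∨ l = j ∨ l = k) ∧ ∃ p ∈ U, ω = (a l).f p := by
    intro ω hω
    rcases supp_tri_subset hω with (⟨p, hp, rfl⟩ | ⟨p, hp, rfl⟩) | ⟨p, hp, rfl⟩
    exacts [⟨i, by tauto, p, hp, rfl⟩, ⟨j, by tauto, p, hp, rfl⟩, ⟨k, by tauto, p, hp, rfl⟩]
  have hg : tri U (a i).f (a j).f (a k).f ∈ gens H H' A A := by
    refine ⟨ht, fun ω => ?_, fun ω hω => ?_, Set.inter_subset_right⟩
    · by_cases hs : ω ∈ supp (tri U (a i).f (a j).f (a k).f)
      · obtain ⟨l, -, p, hp, rfl⟩ := hsupp ω hs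
        rw [hap l p hp, hA _ p hp, hA _ p hp]
      · rw [not_not.1 hs]
    · by_cases hs : ω ∈ supp (tri U (a i).f (a j).f (a k).f)
      · obtain ⟨l, -, p, hp, rfl⟩ := hsupp ω hs
        have hpx : p ≠ x := fun h => hω ((hA l p hp).2 h)
        exact pgb_sheet hU.clopen.isOpen hp ((hU2 hp l).2 hpx) ((hU2 hp _).2 hpx) (hap l)
      · exact H.congr (H.id ω) (kb_id_near ht hs).symm
  have hact : ∀ l l', (∀ p ∈ U, tri U (a i).f (a j).f (a k).f ((a l).f p) = (a l').f p) →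
      c.zz (tri U (a i).f (a j).f (a k).f) • ξ l = ξ l' := by
    intro l l' h
    rw [c.zz_smul hg, ← ha l, ← ha l', kbPerm_mk, kb_mk_eq]
    refine ⟨(hx l).trans (hx l').symm, ?_⟩
    have : U ∈ 𝓝 (a l).x := hx l ▸ hU.clopen.isOpen.mem_nhds hU1
    filter_upwards [this] with p hp
    exact h p hp
  have h4 := hU.sec.three trivial trivial trivial h3
  refine ⟨hg, fun ω hω hs => ?_, hact i j fun p hp => tri_fst h4 hp,
    hact j k fun p hp => tri_snd h4 hp⟩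
  obtain ⟨l, hl, p, hp, rfl⟩ := hsupp ω hs
  rw [(hA l p hp).1 hω, ← hβ]
  rcases hl with rfl | rfl | rfl <;> tauto

theorem exists_rep {x y w : KbXi H' A} (h1 : kbCmp x = kbCmp y) (h2 : kbCmp y = kbCmp w)
    (h3 : D3 (kbβ x) (kbβ y) (kbβ w)) : ∃ t, c.Rep t x y w := by
  obtain ⟨U, e, -, h⟩ := c.exists_sec ![x, y, w] (kbCmp x)
    (fun i => by fin_cases i <;> simp [h1, h2]) (by
      obtain ⟨h4, h5, h6⟩ := h3
      intro i j hij
      fin_cases i <;> fin_cases j <;> simp_all)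
  exact ⟨_, h 0 1 2 (by simp [D3])⟩

open Classical in
/-- The generalized 3-cycle of three germs. -/
noncomputable def phi (x y w : KbXi H' A) : c.N :=
  if h : ∃ t, c.Rep t x y w then c.zz h.choose else 1

variable {c} in
theorem Rep.phi {t : Perm Ω} {x y w : KbXi H' A} (h : c.Rep t x y w) : c.phi x y w = c.zz t := by
  have h' : ∃ t, c.Rep t x y w := ⟨t, h⟩
  rw [KbCtx.phi, dif_pos h']
  exact h'.choose_spec.unique h

/-- The germ system. -/
noncomputable def gsys : GSys c.N (KbXi H' A) A where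
  β := kbβ
  cmp := kbCmp
  φ := c.phi
  Z := ⊥
  Z_normal := inferInstance
  Z_smul g hg ξ := by rw [Subgroup.mem_bot.1 hg, one_smul]
  cmp_smul g ξ := by
    obtain ⟨m, rfl⟩ := QuotientGroup.mk_surjective g
    rw [mk_smul, kbPerm_cmp]
  β_smul g ξ ξ' h := by
    obtain ⟨m, rfl⟩ := QuotientGroup.mk_surjective g
    exact Subtype.ext (by rw [smul_β, smul_β, h])
  cyc x y w h1 h2 h3 := by
    obtain ⟨t, ht⟩ := c.exists_rep h1 h2 h3
    rw [ht.phi, ht.cyc.phi]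
  inv x y w h1 h2 h3 := by
    obtain ⟨t, ht⟩ := c.exists_rep h1 h2 h3
    rw [ht.phi, ht.inv.phi, c.zz_inv ht.1, mul_inv_cancel]
  mul x b d v h1 h2 h3 h4 h5 h6 := by
    obtain ⟨U, e, hU, h⟩ := c.exists_sec ![x, b, d, v] (kbCmp x)
      (fun i => by fin_cases i <;> simp [h1, h2, h3]) (by
        obtain ⟨h7, h8, h9⟩ := h4
        obtain ⟨h10, h11, h12⟩ := h5
        intro i j hij
        fin_cases i <;> fin_cases j <;> simp_all)
    have r1 : c.Rep _ x b d := h 0 1 2 (by simp [D3])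
    have r2 : c.Rep _ x d v := h 0 2 3 (by simp [D3])
    have r3 : c.Rep _ b d v := h 1 2 3 (by simp [D3])
    rw [r1.phi, r2.phi, r3.phi]
    exact c.zz_mul r1.1 r2.1 r3.1
      (c.hz.mul U e ⟨hU.clopen, hU.sec, fun y hy p hp => c.hle _ _ (hU.mem y hy p hp)⟩)
  cube x y w h1 h2 h3 := by
    obtain ⟨t, ht⟩ := c.exists_rep h1 h2 h3
    rw [ht.phi, c.zz_cube ht.1]
    exact Subgroup.one_mem _
  conj g x y w h1 h2 h3 := by
    obtain ⟨t, ht⟩ := c.exists_rep h1 h2 h3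
    obtain ⟨m, rfl⟩ := QuotientGroup.mk_surjective g
    rw [ht.phi, (ht.conj m).phi, c.zz_conj m ht.1]
  act x y w h1 h2 h3 := by
    obtain ⟨t, ht⟩ := c.exists_rep h1 h2 h3
    rw [ht.phi, ht.2.2.1]
  fix x y w h1 h2 h3 ξ h4 h5 h6 := by
    obtain ⟨t, ht⟩ := c.exists_rep h1 h2 h3
    rw [ht.phi, c.zz_smul ht.1, kbPerm_fix_iff]
    refine kb_id_near ht.1.1 fun hs => ?_
    rcases ht.2.1 _ (kbβ ξ).2 hs with h | h | h
    exacts [h4 (Subtype.ext h), h5 (Subtype.ext h), h6 (Subtype.ext h)]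
  deck x y w h1 h2 h3 ξ h4 := by
    obtain ⟨t, ht⟩ := c.exists_rep h1 h2 h3
    rw [ht.phi]
    refine (Rep.phi ⟨ht.1, fun a ha hs => ?_, rfl, rfl⟩).symm
    have := ht.2.1 a ha hs
    rw [← ht.2.2.2, ← ht.2.2.1] at this
    simp only [c.zz_β ht.1] at this ⊢
    rwa [h4]

/-- The identity germ. -/
def idg (H' : PG Ω) {A : Set Ω} {a : Ω} (ha : a ∈ A) : KbXi H' A :=
  KbPre.mk' ⟨a, _root_.id, ha, H'.id a, ha⟩

theorem zz_mem_NB (n : ℕ) {t : Perm Ω} (ht : t ∈ gens H H' A B) (hn : (supp t ∩ A).ncard ≤ n) :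
    c.zz t ∈ c.gsys.NB {p | (p : Ω) ∈ B} := by
  induction n generalizing t with
  | zero =>
    have h0 : supp t ∩ A = ∅ :=
      (Set.ncard_eq_zero (c.hA.subset Set.inter_subset_right)).1 (Nat.le_zero.1 hn)
    rw [c.zz_one ⟨ht.1, ht.2.1, ht.2.2.1, h0.subset⟩]
    exact Subgroup.one_mem _
  | succ n ih =>
    rcases (supp t ∩ A).eq_empty_or_nonempty with h0 | ⟨a, hs, ha⟩
    · rw [c.zz_one ⟨ht.1, ht.2.1, ht.2.2.1, h0.subset⟩]
      exact Subgroup.one_mem _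
    have hc := Tri.cube_apply ht.1
    have hF : ∀ x, t x ∈ ({a, t a, t (t a)} : Set Ω) ↔ x ∈ ({a, t a, t (t a)} : Set Ω) := by
      intro x
      have : t x = a ↔ x = t (t a) :=
        ⟨fun h => by rw [← h, hc], fun h => by rw [h, hc]⟩
      simp only [Set.mem_insert_iff, Set.mem_singleton_iff, EmbeddingLike.apply_eq_iff_eq, this]
      tauto
    obtain ⟨V, hV, h1, h2, h3⟩ := Tri.exists_inv_clopen ht.1
      (F := {a, t a, t (t a)}) (Set.toFinite _).isCompact (N := (A \ {a, t a, t (t a)})ᶜ)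
      (c.hA.diff).isClosed.isOpen_compl (fun x hx h => h.2 hx) hF
    have h3' : ∀ x, t x ∈ Vᶜ ↔ x ∈ Vᶜ := fun x => not_congr (h3 x)
    have g1 := kb_gens_rest ht hV h3
    have g2 := kb_gens_rest ht hV.compl h3'
    rw [c.zz_split (kb_gens_top ht) hV h3]
    refine Subgroup.mul_mem _ ?_ (ih (kb_gens_mono (fun x hx => hx.1.1) g2) ?_)
    · have haV : a ∈ V := h1 (by simp)
      have e0 : (kbβ (idg H' ha) : Ω) = a := rfl
      have e1 : (kbβ (c.zz (rest t V) • idg H' ha) : Ω) = t a := by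
        rw [c.zz_β (kb_gens_top g1), e0, rest_mem h3 haV]
      have e2 : (kbβ (c.zz (rest t V) • c.zz (rest t V) • idg H' ha) : Ω) = t (t a) := by
        rw [c.zz_β (kb_gens_top g1), e1, rest_mem h3 ((h3 a).2 haV)]
      have hr : c.Rep (rest t V) (idg H' ha) (c.zz (rest t V) • idg H' ha)
          (c.zz (rest t V) • c.zz (rest t V) • idg H' ha) := by
        refine ⟨kb_gens_top g1, fun b hb hs' => ?_, rfl, rfl⟩
        rw [supp_rest h3] at hs'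
        rw [e0, e1, e2]
        by_contra h4
        exact h2 hs'.2 ⟨hb, h4⟩
      have s1 : t a ∈ supp t := mem_supp_iff.2 hs
      have s2 : t (t a) ∈ supp t := mem_supp_iff.2 s1
      have a1 : t a ∈ A := (ht.2.1 a).2 ha
      have a2 : t (t a) ∈ A := (ht.2.1 _).2 a1
      refine Subgroup.mem_sup_left (Subgroup.subset_closure ⟨_, _, _,
        (c.gsys.cmp_smul _ _).symm, (c.gsys.cmp_smul _ _).symm, ⟨?_, ?_, ?_⟩, ?_, ?_, ?_,
        hr.phi.symm⟩)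
      · exact fun h => hs (e1.symm.trans ((congrArg Subtype.val h).symm.trans e0))
      · exact fun h => s1 (e2.symm.trans ((congrArg Subtype.val h).symm.trans e1))
      · intro h
        have h5 : a = t (t a) := e0.symm.trans ((congrArg Subtype.val h).trans e2)
        exact s2 ((hc a).trans h5)
      · exact ht.2.2.2 ⟨hs, ha⟩
      · exact Set.mem_of_eq_of_mem (s := B) e1 (ht.2.2.2 ⟨s1, a1⟩)
      · exact Set.mem_of_eq_of_mem (s := B) e2 (ht.2.2.2 ⟨s2, a2⟩)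
    · have : supp (rest t Vᶜ) ∩ A ⊂ supp t ∩ A := by
        rw [supp_rest h3']
        exact ⟨fun x hx => ⟨hx.1.1, hx.2⟩, fun h => (h ⟨hs, ha⟩).1.2 (h1 (by simp))⟩
      have := Set.ncard_lt_ncard this (c.hA.subset Set.inter_subset_right)
      omega

theorem mem_NB_iff (m : MB H H' z A A) :
    (m : c.N) ∈ c.gsys.NB {p | (p : Ω) ∈ B} ↔ (m : Γ) ∈ MB H H' z A B := by
  constructor
  · intro hm
    have : c.gsys.NB {p | (p : Ω) ∈ B} ≤
        ((MB H H' z A B).subgroupOf (MB H H' z A A)).map (QuotientGroup.mk' c.Q) := by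
      refine sup_le ((Subgroup.closure_le _).2 ?_) bot_le
      rintro _ ⟨x, y, w, h1, h2, h3, b1, b2, b3, rfl⟩
      obtain ⟨t, ht⟩ := c.exists_rep h1 h2 h3
      have hB : t ∈ gens H H' A B := by
        refine ⟨ht.1.1, ht.1.2.1, ht.1.2.2.1, fun a ha => ?_⟩
        rcases ht.2.1 a ha.2 ha.1 with rfl | rfl | rfl
        exacts [b1, b2, b3]
      refine ⟨⟨z t, Subgroup.subset_closure ⟨t, ht.1, rfl⟩⟩,
        Subgroup.subset_closure ⟨t, hB, rfl⟩, ?_⟩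
      exact ((ht.phi).trans (c.zz_eq ht.1)).symm
    obtain ⟨m', h1, h2⟩ := this hm
    have h3 : m'⁻¹ * m ∈ c.Q := QuotientGroup.eq.1 h2
    have h4 : (m' : Γ)⁻¹ * m ∈ MB H H' z A B := kb_MB_mono (Set.empty_subset B) h3
    have := (MB H H' z A B).mul_mem h1 h4
    simpa using this
  · obtain ⟨m, hm'⟩ := m
    intro hm
    change m ∈ MB H H' z A B at hm
    have key : ∀ h : m ∈ MB H H' z A A,
        ((⟨m, h⟩ : MB H H' z A A) : c.N) ∈ c.gsys.NB {p | (p : Ω) ∈ B} := by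
      clear hm'
      induction hm using Subgroup.closure_induction with
      | mem x hx =>
        obtain ⟨t, ht, rfl⟩ := hx
        intro h
        rw [← c.zz_eq (kb_gens_top ht)]
        exact c.zz_mem_NB _ ht le_rfl
      | one => exact fun _ => Subgroup.one_mem _
      | mul x y hx hy ix iy =>
        exact fun _ => Subgroup.mul_mem _ (ix (kb_MB_top hx)) (iy (kb_MB_top hy))
      | inv x hx ix => exact fun _ => Subgroup.inv_mem _ (ix (kb_MB_top hx))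
    exact key hm'

theorem encard_le (ξ : KbXi H' A) :
    (H'.orb (kbβ ξ) ∩ B ∩ A).encard ≤
      ({p : A | (p : Ω) ∈ B} ∩ c.gsys.β '' {ξ' | c.gsys.cmp ξ' = c.gsys.cmp ξ}).encard := by
  rw [← Subtype.val_injective.encard_image]
  refine Set.encard_le_encard ?_
  obtain ⟨a, rfl⟩ := kb_surj ξ
  rintro _ ⟨⟨⟨f, hf, rfl⟩, hB⟩, hA⟩
  exact ⟨⟨_, hA⟩, ⟨hB, KbPre.mk' ⟨a.x, f ∘ a.f, a.hx, H'.comp a.hf hf, hA⟩, rfl, rfl⟩, rfl⟩

theorem all_fg (hS : A ⊆ Sg) (h5 : ∀ x ∈ A, 5 ≤ (H'.orb x ∩ A).encard) (E : Subgroup c.N) :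
    E.FG := by
  have : Finite A := c.hA
  choose U U' u1 u2 u3 u4 u5 u6 u7 using fun y : A => c.h.iso y (hS y.2)
  let up : KbPre H' A → KbPre H' A := fun a =>
    ⟨a.x, U ⟨_, a.hv⟩ ∘ a.f, a.hx, H'.comp a.hf (u1 ⟨_, a.hv⟩), by
      have := u2 ⟨_, a.hv⟩
      simp only at this
      rw [Function.comp_apply, this]
      exact a.hv⟩
  have upβ : ∀ a, kbβ (up a).mk' = kbβ a.mk' := fun a => Subtype.ext (u2 ⟨_, a.hv⟩)
  let u : KbXi H' A → KbXi H' A := Quotient.map up fun a b h => by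
    have h1 : (⟨_, a.hv⟩ : A) = ⟨_, b.hv⟩ :=
      congrArg kbβ (kb_mk_eq.2 h : a.mk' = b.mk')
    refine ⟨h.1, ?_⟩
    show U _ ∘ a.f =ᶠ[𝓝 a.x] U _ ∘ b.f
    rw [h1]
    exact kb_left h.2
  have umk : ∀ a : KbPre H' A, u a.mk' = (up a).mk' := fun a => rfl
  have uit : ∀ n (a : KbPre H' A), ∃ b : KbPre H' A, u^[n] a.mk' = b.mk' ∧ b.x = a.x ∧
      kbβ b.mk' = kbβ a.mk' ∧ b.f = (U (kbβ a.mk'))^[n] ∘ a.f := by
    intro n a
    induction n with
    | zero => exact ⟨a, rfl, rfl, rfl, rfl⟩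
    | succ n ih =>
      obtain ⟨b, b1, b2, b3, b4⟩ := ih
      refine ⟨up b, by rw [Function.iterate_succ_apply', b1, umk], b2, (upβ b).trans b3, ?_⟩
      show U (kbβ b.mk') ∘ b.f = _
      rw [b3, b4, Function.iterate_succ']
      rfl
  refine c.gsys.noeth rfl ?_ (fun ξ => ?_) u (fun ξ => ?_) (fun ξ => ?_) (fun g ξ ξ' h1 h2 => ?_)
    (fun ξ ξ' h1 h2 => ?_) (fun g k ξ h1 h2 => ?_) E
  · refine eq_top_iff.2 fun g _ => ?_
    obtain ⟨m, rfl⟩ := QuotientGroup.mk_surjective g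
    have := (c.mem_NB_iff (B := A) m).2 m.2
    rwa [show {p : A | (p : Ω) ∈ A} = Set.univ from Set.eq_univ_of_forall fun p => p.2] at this
  · refine (h5 _ (kbβ ξ).2).trans ?_
    have := c.encard_le (B := A) ξ
    rw [Set.inter_assoc, Set.inter_self] at this
    exact this.trans (Set.encard_le_encard Set.inter_subset_right)
  · obtain ⟨a, rfl⟩ := kb_surj ξ
    exact upβ a
  · obtain ⟨a, rfl⟩ := kb_surj ξ
    rfl
  · obtain ⟨a, rfl⟩ := kb_surj ξ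
    obtain ⟨b, rfl⟩ := kb_surj ξ'
    obtain ⟨m, rfl⟩ := QuotientGroup.mk_surjective g
    rw [mk_smul, kbPerm_mk, umk, kb_mk_eq] at h2 ⊢
    have h3 : (π m : Ω → Ω) =ᶠ[𝓝 (kbβ a.mk' : Ω)] U (kbβ a.mk') := kb_cancel a.hf h2.2
    have h4 : kbβ b.mk' = kbβ a.mk' := h1
    rw [← h4] at h3
    exact ⟨rfl, kb_comp (f := b.f) (x := b.x) b.hf h3⟩
  · obtain ⟨a, rfl⟩ := kb_surj ξ
    obtain ⟨b, rfl⟩ := kb_surj ξ'
    have hx : a.x = b.x := congrArg Subtype.val h1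
    have hβ : kbβ a.mk' = kbβ b.mk' := h2
    have hv : a.f a.x = b.f b.x := congrArg Subtype.val h2
    obtain ⟨k, k1, k2, k3⟩ := H'.inv a.hf
    have k4 : k (a.f a.x) = b.x := k2.eq_of_nhds.trans hx
    have k5 : b.f ∘ k ∘ a.f =ᶠ[𝓝 a.x] b.f := kb_left k2
    obtain ⟨n, hn⟩ := u7 (kbβ a.mk') (b.f ∘ k) (H'.comp k1 (by rw [kbβ_mk, k4]; exact b.hf))
      (by rw [kbβ_mk, Function.comp_apply, k4, hv])
    refine ⟨n, hn.imp (fun h => ?_) fun h => ?_⟩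
    · obtain ⟨d, d1, d2, -, d4⟩ := uit n a
      rw [d1, eq_comm, kb_mk_eq, d2, d4]
      exact ⟨hx, (kb_comp (f := a.f) (x := a.x) a.hf h).symm.trans k5⟩
    · obtain ⟨d, d1, d2, -, d4⟩ := uit n b
      rw [d1, kb_mk_eq, d2, d4, ← hβ]
      refine ⟨hx, ?_⟩
      have h6 : b.f =ᶠ[𝓝 a.x] (U' (kbβ a.mk'))^[n] ∘ a.f :=
        k5.symm.trans (kb_comp (f := a.f) (x := a.x) a.hf h)
      have h7 : ∀ n, (U (kbβ a.mk'))^[n] ∘ (U' (kbβ a.mk'))^[n] =ᶠ[𝓝 (kbβ a.mk' : Ω)]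
          _root_.id := by
        have T : Tendsto (U' (kbβ a.mk')) (𝓝 (kbβ a.mk' : Ω)) (𝓝 (kbβ a.mk' : Ω)) := by
          simpa [u4] using kb_tendsto (u3 (kbβ a.mk'))
        intro n
        induction n with
        | zero => exact .rfl
        | succ n ih =>
          filter_upwards [T.eventually ih, u6 (kbβ a.mk')] with y h8 h9
          simp only [Function.comp_apply, _root_.id] at h8 h9 ⊢
          rw [Function.iterate_succ_apply', Function.iterate_succ_apply, h8, h9]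
      exact ((kb_left h6).trans (kb_comp (f := a.f) (x := a.x) a.hf (h7 n))).symm
  · obtain ⟨m, rfl⟩ := QuotientGroup.mk_surjective g
    obtain ⟨m', rfl⟩ := QuotientGroup.mk_surjective k
    have e1 : π m (kbβ ξ) = kbβ ξ := (smul_β m ξ).symm.trans (congrArg Subtype.val h1)
    have e2 : π m' (kbβ ξ) = kbβ ξ := (smul_β m' ξ).symm.trans (congrArg Subtype.val h2)
    rw [← mul_smul, ← mul_smul, ← QuotientGroup.mk_mul, ← QuotientGroup.mk_mul, mk_smul, mk_smul,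
      kbPerm_eq_iff, map_mul, map_mul]
    exact Iso.am2_comm (c.h.iso _ (hS (kbβ ξ).2)) ((c.π_mem m.2).1 _) e1 ((c.π_mem m'.2).1 _) e2

end KbCtx

theorem MB_stab (hz : ZSys H₃ π z) (hc : ∀ t ∈ H₃.Tri, z t ^ 3 = 1) (hle : H'.LE H₃)
    (h : Step H H' Sg) {A B : Set Ω} (hA : A.Finite) (hBA : B ⊆ A) {x : Ω} (hx : x ∈ B)
    (h4 : 4 ≤ (H'.orb x ∩ B).encard) {m : Γ} (hm : m ∈ MB H H' z A B)
    (hid : (π m : Ω → Ω) =ᶠ[𝓝 x] _root_.id) : m ∈ MB H H' z A (B \ {x}) := by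
  have c : KbCtx H H' H₃ Sg π z A := ⟨hz, hc, hle, h, hA⟩
  have h1 := c.gsys.stab (B := {p | (p : Ω) ∈ B}) (ξ₀ := KbCtx.idg H' (hBA hx)) hx (by
      refine h4.trans (le_trans ?_ (c.encard_le (B := B) _))
      exact Set.encard_le_encard fun y hy => ⟨hy, hBA hy.2⟩)
    ((c.mem_NB_iff ⟨m, kb_MB_top hm⟩).2 hm) (by
      rw [KbCtx.mk_smul, kbPerm_fix_iff]
      exact hid)
  refine (c.mem_NB_iff (B := B \ {x}) ⟨m, kb_MB_top hm⟩).1 ?_
  convert h1 using 2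
  ext p
  exact and_congr_right fun _ => not_congr ⟨fun h => Subtype.ext h, congrArg Subtype.val⟩

theorem MB_noeth (hz : ZSys H₃ π z) (hc : ∀ t ∈ H₃.Tri, z t ^ 3 = 1) (hle : H'.LE H₃)
    (h : Step H H' Sg) {A : Set Ω} (hA : A.Finite) (hS : A ⊆ Sg)
    (h5 : ∀ x ∈ A, 5 ≤ (H'.orb x ∩ A).encard) (E : Subgroup Γ) (h1 : MB H H' z A ∅ ≤ E)
    (h2 : E ≤ MB H H' z A A) :
    ∃ F : Finset Γ, E = Subgroup.closure (F : Set Γ) ⊔ MB H H' z A ∅ := by
  classical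
  have c : KbCtx H H' H₃ Sg π z A := ⟨hz, hc, hle, h, hA⟩
  obtain ⟨T, hT⟩ := c.all_fg hS h5 ((E.subgroupOf (MB H H' z A A)).map (QuotientGroup.mk' c.Q))
  have hl : ∀ t : T, ∃ m : MB H H' z A A, (m : Γ) ∈ E ∧ (m : c.N) = t := fun t => by
    have : (t : c.N) ∈ Subgroup.closure (T : Set c.N) := Subgroup.subset_closure t.2
    rw [hT] at this
    exact this
  choose l l1 l2 using hl
  refine ⟨Finset.univ.image fun t => (l t : Γ), le_antisymm (fun e he => ?_)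
    (sup_le ((Subgroup.closure_le _).2 ?_) h1)⟩
  · have h3 : Subgroup.closure (T : Set c.N) ≤ ((Subgroup.closure
        ((Finset.univ.image fun t => (l t : Γ) : Finset Γ) : Set Γ)).subgroupOf
        (MB H H' z A A)).map (QuotientGroup.mk' c.Q) := by
      refine (Subgroup.closure_le _).2 fun t ht => ⟨l ⟨t, ht⟩, ?_, l2 ⟨t, ht⟩⟩
      exact Subgroup.subset_closure (by simp)
    rw [hT] at h3
    obtain ⟨m, m1, m2⟩ := h3 ⟨⟨e, h2 he⟩, he, rfl⟩
    have h4 : m⁻¹ * ⟨e, h2 he⟩ ∈ c.Q := QuotientGroup.eq.1 m2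
    have h5 : (m : Γ)⁻¹ * e ∈ MB H H' z A ∅ := h4
    have := Subgroup.mul_mem_sup (Subgroup.mem_subgroupOf.1 m1) h5
    rwa [mul_inv_cancel_left] at this
  · intro g hg
    simp only [Finset.coe_image, Set.mem_image] at hg
    obtain ⟨t, -, rfl⟩ := hg
    exact l1 t

end Vale.Agent.P196.PG
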