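import Vale.Agent.P196.KerStep
import Vale.Agent.P196.Ker0
import Vale.Agent.P196.KerAF

namespace Vale.Agent.P196.PG

open Equiv

variable {Ω : Type} [TopologicalSpace Ω] [CompactSpace Ω] [T2Space Ω] [TotallyDisconnectedSpace Ω]
  {Γ : Type} [Group Γ]

omit [CompactSpace Ω] [T2Space Ω] [TotallyDisconnectedSpace Ω] in
theorem ZSys.quot_kmain {H : PG Ω} {π : Γ →* Perm Ω} {z : Perm Ω → Γ} (hz : ZSys H π z)
    {Γ' : Type} [Group Γ'] {f : Γ →* Γ'} (hf : Function.Surjective f) {π' : Γ' →* Perm Ω}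
    (hπ : ∀ g, π' (f g) = π g) : ZSys H π' (f ∘ z) where
  proj t ht := (hπ _).trans (hz.proj t ht)
  gen := by
    rw [Set.image_comp, ← MonoidHom.map_closure, hz.gen, ← MonoidHom.range_eq_map,
      MonoidHom.range_eq_top.2 hf]
  add t ht t' ht' hd := by simp only [Function.comp_apply, hz.add t ht t' ht' hd, map_mul]
  conj t ht t' ht' := by
    simp only [Function.comp_apply, ← hz.conj t ht t' ht', map_mul, map_inv]
  inv t ht := by simp only [Function.comp_apply, hz.inv t ht, map_inv]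
  mul U e he := by simp only [Function.comp_apply, ← hz.mul U e he, map_mul]

theorem fg_comap_kmain {Γ' : Type} [Group Γ'] {f : Γ →* Γ'} (hf : Function.Surjective f)
    (hk : f.ker.FG) {K : Subgroup Γ'} (hK : K.FG) : (K.comap f).FG := by
  obtain ⟨S, rfl, hS⟩ := (Subgroup.fg_iff K).1 hK
  obtain ⟨T, -, hT, rfl⟩ := hS.exists_subset_finite_image_eq (f := f) (s := Set.univ)
    fun x _ => by simpa using hf x
  rw [← MonoidHom.map_closure, Subgroup.comap_map_eq]
  exact Subgroup.FG.sup ((Subgroup.fg_iff _).2 ⟨T, rfl, hT⟩) hk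

theorem ZSys.ker_fg (H : ℕ → PG Ω) (Sg P₀ : ℕ → Set (Ω × Col)) (n : ℕ)
    (hs : ∀ i < n, Step (H i).col (H (i + 1)).col (Sg i))
    (hk : ∀ i < n, KStep (H i).col (H (i + 1)).col (Sg i) (P₀ i))
    (hAF : AF (H 0).col (H n).col) (hF : (H n).F0)
    {π : Γ →* Perm (Ω × Col)} {z : Perm (Ω × Col) → Γ} (hz : ZSys (H n).col π z) :
    π.ker.FG := by
  have hfin := hz.cubes_finite hF
  set Z := Subgroup.closure ((fun t => z t ^ 3) '' (H n).col.Tri) with hZ
  have hZk : Z ≤ π.ker := by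
    rw [hZ, Subgroup.closure_le]
    rintro _ ⟨t, ht, rfl⟩
    rw [SetLike.mem_coe, MonoidHom.mem_ker, map_pow, hz.proj t ht, ht.2.1]
  have : Z.Normal := ⟨fun a ha g => by
    rwa [Subgroup.mem_center_iff.1 (hz.central (hZk ha)) g, mul_inv_cancel_right]⟩
  have hf := QuotientGroup.mk'_surjective Z
  have hz' := hz.quot_kmain hf (π' := QuotientGroup.lift Z π hZk) fun _ => rfl
  have hc : ∀ t ∈ (H n).col.Tri, (QuotientGroup.mk' Z ∘ z) t ^ 3 = 1 := fun t ht => by
    rw [Function.comp_apply, ← map_pow]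
    exact (QuotientGroup.eq_one_iff _).2 (Subgroup.subset_closure ⟨t, ht, rfl⟩)
  have hle : ∀ i, i ≤ n → (H i).col.LE (H n).col := fun i hi => by
    induction hi using Nat.decreasingInduction with
    | self => exact fun _ _ h => h
    | of_succ i hi ih => exact fun f x h => ih f x ((hs i hi).le f x h)
  have hind : ∀ i, i ≤ n →
      ((QuotientGroup.lift Z π hZk).ker ⊓ (H i).col.zsub (QuotientGroup.mk' Z ∘ z)).FG := by
    intro i hi
    induction i with
    | zero =>
      rw [hz'.af hc (hle 0 hi) hAF]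
      exact Subgroup.FG.bot
    | succ i ih => exact hz'.kstep hc (hle _ hi) (hs i hi) (hk i hi) (ih (by omega))
  have h1 := hind n le_rfl
  rw [zsub, hz'.gen, inf_top_eq] at h1
  have h2 := fg_comap_kmain hf (by
    rw [QuotientGroup.ker_mk']
    exact (Subgroup.fg_iff _).2 ⟨Z, Subgroup.closure_eq Z, hfin⟩) h1
  rwa [MonoidHom.comap_ker, QuotientGroup.lift_comp_mk'] at h2

end Vale.Agent.P196.PG
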