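import Vale.Agent.P196.KerG
import Vale.Agent.P196.FSign

namespace Vale.Agent.P196.PG

open Equiv Filter Topology

variable {Ω : Type} [TopologicalSpace Ω] [CompactSpace Ω] [T2Space Ω] [TotallyDisconnectedSpace Ω]
  {Γ : Type} [Group Γ] {H H' H₃ : PG Ω} {Sg P₀ : Set Ω} {π : Γ →* Perm Ω} {z : Perm Ω → Γ}

omit [CompactSpace Ω] [T2Space Ω] [TotallyDisconnectedSpace Ω] in
theorem ks_mem_inv {g : Perm Ω} {x : Ω} (h : H.mem g x) : H.mem (g⁻¹ : Perm Ω) (g x) := by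
  obtain ⟨f, h1, _, h3⟩ := H.inv h
  refine H.congr h1 ?_
  filter_upwards [h3] with y hy
  have : g (f y) = y := hy
  rw [Perm.eq_inv_iff_eq, this]

/-- Elements of the full group of `H'` preserving `A`, with germs in `H` off `A`. -/
def ksM (H H' : PG Ω) (A : Set Ω) : Subgroup (Perm Ω) where
  carrier := {g | g ∈ H'.full ∧ (∀ x, g x ∈ A ↔ x ∈ A) ∧ ∀ x, x ∉ A → H.mem g x}
  one_mem' := ⟨H'.full.one_mem, fun _ => Iff.rfl, fun x _ => H.id x⟩
  mul_mem' {g k} hg hk := ⟨H'.full.mul_mem hg.1 hk.1,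
    fun x => (hg.2.1 (k x)).trans (hk.2.1 x),
    fun x hx => H.comp (f := k) (g := g) (hk.2.2 x hx) (hg.2.2 _ fun h => hx ((hk.2.1 x).1 h))⟩
  inv_mem' {g} hg := ⟨H'.full.inv_mem hg.1, fun x => by
      have := hg.2.1 (g⁻¹ x)
      simpa using this.symm, fun x hx => by
      have h1 : g⁻¹ x ∉ A := fun h => hx (by simpa using (hg.2.1 (g⁻¹ x)).2 h)
      simpa using ks_mem_inv (hg.2.2 _ h1)⟩

theorem ks_evEq_id {t : Perm Ω} (ht : t ∈ H.Tri) {x : Ω} (hx : x ∉ supp t) :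
    (t : Ω → Ω) =ᶠ[𝓝 x] _root_.id := by
  filter_upwards [ht.2.2.isOpen_compl.mem_nhds hx] with y hy
  simpa [supp] using hy

theorem ks_zsub_mono (hle : H.LE H') : H.zsub z ≤ H'.zsub z :=
  Subgroup.closure_mono (Set.image_mono (Tri_mono hle))

theorem ks_pi_zsub (hz : ZSys H₃ π z) (hle : H.LE H₃) {a : Γ} (ha : a ∈ H.zsub z) :
    π a ∈ H.alt := by
  have : H.zsub z ≤ H.alt.comap π := by
    refine (Subgroup.closure_le _).2 ?_
    rintro _ ⟨t, ht, rfl⟩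
    show π (z t) ∈ H.alt
    rw [hz.proj t (Tri_mono hle ht)]
    exact Subgroup.subset_closure ht
  exact this ha

theorem ks_pi_MB (hz : ZSys H₃ π z) (hle : H'.LE H₃) {A B : Set Ω} {m : Γ}
    (hm : m ∈ MB H H' z A B) : π m ∈ Subgroup.closure (gens H H' A B) := by
  have : MB H H' z A B ≤ (Subgroup.closure (gens H H' A B)).comap π := by
    refine (Subgroup.closure_le _).2 ?_
    rintro _ ⟨t, ht, rfl⟩
    show π (z t) ∈ Subgroup.closure (gens H H' A B)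
    rw [hz.proj t (Tri_mono hle ht.1)]
    exact Subgroup.subset_closure ht
  exact this hm

omit [CompactSpace Ω] [T2Space Ω] [TotallyDisconnectedSpace Ω] in
theorem ks_gens_le {A B : Set Ω} : Subgroup.closure (gens H H' A B) ≤ ksM H H' A :=
  (Subgroup.closure_le _).2 fun _ ht => ⟨ht.1.1, ht.2.1, ht.2.2.1⟩

omit [CompactSpace Ω] [T2Space Ω] [TotallyDisconnectedSpace Ω] in
theorem ks_MB_le {A B : Set Ω} : MB H H' z A B ≤ H'.zsub z :=
  Subgroup.closure_mono (Set.image_mono fun _ ht => ht.1)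

theorem ks_conj_gens (hle : H.LE H') {g t : Perm Ω} (hg : g ∈ H.full) {A : Set Ω}
    (ht : t ∈ gens H H' (g '' A) (g '' A)) : g⁻¹ * t * g⁻¹⁻¹ ∈ gens H H' A A := by
  have hmem : ∀ x, g x ∈ g '' A ↔ x ∈ A := fun x => g.injective.mem_set_image
  refine ⟨Tri.conj (H'.full.inv_mem (full_mono hle hg)) ht.1, fun x => ?_, fun x hx => ?_,
    Set.inter_subset_right⟩
  · rw [← hmem, ← hmem x]
    simpa using ht.2.1 (g x)
  · have h1 : H.mem t (g x) := ht.2.2.1 _ fun h => hx ((hmem x).1 h)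
    have h2 : H.mem (g⁻¹ : Perm Ω) (t (g x)) := H.full.inv_mem hg _
    have := H.comp (H.comp (hg x) h1) h2
    simpa [Function.comp_def] using this

theorem ks_conj_MB (hz : ZSys H₃ π z) (hle : H'.LE H₃) (hle' : H.LE H') {a : Γ}
    (ha : a ∈ H.zsub z) {A : Set Ω} {m : Γ} (hm : m ∈ MB H H' z (π a '' A) (π a '' A)) :
    a⁻¹ * m * a ∈ MB H H' z A A := by
  have hg : π a ∈ H.full := alt_le_full H (ks_pi_zsub hz (fun f x h => hle f x (hle' f x h)) ha)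
  have : MB H H' z (π a '' A) (π a '' A) ≤ (MB H H' z A A).comap (MulAut.conj a⁻¹).toMonoidHom := by
    refine (Subgroup.closure_le _).2 ?_
    rintro _ ⟨t, ht, rfl⟩
    show a⁻¹ * z t * a⁻¹⁻¹ ∈ MB H H' z A A
    rw [(hz.conj_all a⁻¹ (Tri_mono hle ht.1)).1, map_inv]
    exact Subgroup.subset_closure ⟨_, ks_conj_gens hle' hg ht, rfl⟩
  simpa using this hm

theorem ks_frame_gen (hz : ZSys H₃ π z) (hle : H'.LE H₃) (h : Step H H' Sg) {t : Perm Ω}
    (ht : t ∈ H'.Tri) : ∃ F : Set Ω, F.Finite ∧ F ⊆ Sg ∧ ∀ A : Set Ω, A.Finite → F ⊆ A →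
      A ⊆ Sg → ∃ a ∈ H.zsub z, ∃ m ∈ MB H H' z A A, z t = a * m := by
  set S : Set Ω := {x | ¬ H.mem t x} with hS
  have hSf : S.Finite := h.finite_sing ht.1
  have hSg : S ⊆ Sg := fun x hx => by
    by_contra hx'
    exact hx (h.sing t x (ht.1 x) hx')
  have h3 : ∀ x, t (t (t x)) = x := fun x => by
    have := congrArg (fun g : Perm Ω => g x) ht.2.1
    simpa [pow_succ] using this
  set F : Set Ω := S ∪ t '' S ∪ t '' (t '' S) with hF
  have hfw : ∀ x, x ∈ F → t x ∈ F := by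
    rintro x ((hx | hx) | ⟨_, ⟨y, hy, rfl⟩, rfl⟩)
    · exact Or.inl (Or.inr ⟨x, hx, rfl⟩)
    · exact Or.inr ⟨x, hx, rfl⟩
    · rw [h3]; exact Or.inl (Or.inl hy)
  have hFi : ∀ x, t x ∈ F ↔ x ∈ F := fun x =>
    ⟨fun hx => by simpa [h3] using hfw _ (hfw _ hx), hfw x⟩
  have hFf : F.Finite := (hSf.union (hSf.image _)).union ((hSf.image _).image _)
  have himg : ∀ T : Set Ω, T ⊆ Sg → t '' T ⊆ Sg := by
    rintro T hT _ ⟨x, hx, rfl⟩
    exact h.inv t x (ht.1 x) (hT hx)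
  refine ⟨F, hFf, Set.union_subset (Set.union_subset hSg (himg _ hSg)) (himg _ (himg _ hSg)),
    fun A hA hFA _ => ?_⟩
  obtain ⟨V, hV, hFV, hVN, hVi⟩ := Tri.exists_inv_clopen ht hFf.isCompact
    (hA.subset (Set.diff_subset (t := F))).isClosed.isOpen_compl
    (fun x hx hx' => hx'.2 hx) hFi
  have hVi' : ∀ x, t x ∈ Vᶜ ↔ x ∈ Vᶜ := fun x => not_congr (hVi x)
  have h1 : rest t Vᶜ ∈ H.Tri := Tri.rest_of ht hV.compl hVi' fun x hx => by
    by_contra hx'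
    exact hx (hFV (Or.inl (Or.inl hx')))
  have h2 : rest t V ∈ H'.Tri := Tri.rest ht hV hVi
  have hVA : ∀ x, x ∈ V → x ∈ A → x ∈ F := fun x hx hxA => by
    by_contra hx'
    exact hVN hx ⟨hxA, hx'⟩
  have h3' : rest t V ∈ gens H H' A A := by
    refine ⟨h2, fun x => ?_, fun x hx => ?_, Set.inter_subset_right⟩
    · by_cases hx : x ∈ V
      · rw [rest_mem hVi hx]
        exact ⟨fun h' => hFA ((hFi x).1 (hVA _ ((hVi x).2 hx) h')),
          fun h' => hFA (hfw x (hVA x hx h'))⟩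
      · rw [rest_not_mem hx]
    · by_cases hxV : x ∈ V
      · have hm : H.mem t x := by
          by_contra hx'
          exact hx (hFA (Or.inl (Or.inl hx')))
        refine H.congr hm ?_
        filter_upwards [hV.isOpen.mem_nhds hxV] with y hy
        exact (rest_mem hVi hy).symm
      · refine H.congr (H.id x) ?_
        filter_upwards [hV.compl.isOpen.mem_nhds hxV] with y hy
        exact (rest_not_mem hy).symm
  refine ⟨z (rest t Vᶜ), Subgroup.subset_closure ⟨_, h1, rfl⟩, z (rest t V),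
    Subgroup.subset_closure ⟨_, h3', rfl⟩, ?_⟩
  rw [← hz.add _ (Tri_mono hle (Tri_mono h.le h1)) _ (Tri_mono hle h2)]
  · have := rest_mul_compl hVi'
    rw [compl_compl] at this
    rw [this]
  · rw [supp_rest hVi', supp_rest hVi]
    exact Set.disjoint_of_subset Set.inter_subset_right Set.inter_subset_right disjoint_compl_left

theorem ks_frame_mul (hz : ZSys H₃ π z) (hle : H'.LE H₃) (h : Step H H' Sg) {γ₁ γ₂ : Γ}
    (h2 : γ₂ ∈ H'.zsub z)
    (p1 : ∃ F : Set Ω, F.Finite ∧ F ⊆ Sg ∧ ∀ A : Set Ω, A.Finite → F ⊆ A →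
      A ⊆ Sg → ∃ a ∈ H.zsub z, ∃ m ∈ MB H H' z A A, γ₁ = a * m)
    (p2 : ∃ F : Set Ω, F.Finite ∧ F ⊆ Sg ∧ ∀ A : Set Ω, A.Finite → F ⊆ A →
      A ⊆ Sg → ∃ a ∈ H.zsub z, ∃ m ∈ MB H H' z A A, γ₂ = a * m) :
    ∃ F : Set Ω, F.Finite ∧ F ⊆ Sg ∧ ∀ A : Set Ω, A.Finite → F ⊆ A →
      A ⊆ Sg → ∃ a ∈ H.zsub z, ∃ m ∈ MB H H' z A A, γ₁ * γ₂ = a * m := by
  obtain ⟨F₁, hF₁, hS₁, p1⟩ := p1
  obtain ⟨F₂, hF₂, hS₂, p2⟩ := p2
  have hg : π γ₂ ∈ H'.full := alt_le_full H' (ks_pi_zsub hz hle h2)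
  refine ⟨F₂ ∪ ((π γ₂)⁻¹ : Perm Ω) '' F₁, hF₂.union (hF₁.image _), Set.union_subset hS₂ ?_,
    fun A hA hFA hAS => ?_⟩
  · rintro _ ⟨x, hx, rfl⟩
    exact h.inv _ x (H'.full.inv_mem hg x) (hS₁ hx)
  obtain ⟨a₂, ha₂, m₂, hm₂, rfl⟩ := p2 A hA (Set.subset_union_left.trans hFA) hAS
  have hm₂' := ks_gens_le (ks_pi_MB hz hle hm₂)
  have ha₂' : π a₂ ∈ H.full :=
    alt_le_full H (ks_pi_zsub hz (fun f x h' => hle f x (h.le f x h')) ha₂)
  obtain ⟨a₁, ha₁, m₁, hm₁, rfl⟩ := p1 (π a₂ '' A) (hA.image _) (fun x hx => by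
      have h1 : (π (a₂ * m₂))⁻¹ x ∈ A := hFA (Or.inr ⟨x, hx, rfl⟩)
      refine ⟨_, (hm₂'.2.1 _).2 h1, ?_⟩
      simp) (by
      rintro _ ⟨x, hx, rfl⟩
      exact h.inv _ x (full_mono h.le ha₂' x) (hAS hx))
  refine ⟨a₁ * a₂, Subgroup.mul_mem _ ha₁ ha₂, a₂⁻¹ * m₁ * a₂ * m₂,
    Subgroup.mul_mem _ (ks_conj_MB hz hle h.le ha₂ hm₁) hm₂, by group⟩

/-- Moving frame: every element factors through a large enough finite set. -/
theorem frame (hz : ZSys H₃ π z) (hle : H'.LE H₃) (h : Step H H' Sg) {γ : Γ}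
    (hγ : γ ∈ H'.zsub z) : ∃ F : Set Ω, F.Finite ∧ F ⊆ Sg ∧ ∀ A : Set Ω, A.Finite → F ⊆ A →
      A ⊆ Sg → ∃ a ∈ H.zsub z, ∃ m ∈ MB H H' z A A, γ = a * m := by
  induction hγ using Subgroup.closure_induction_left with
  | one => exact ⟨∅, Set.finite_empty, Set.empty_subset _, fun A _ _ _ =>
      ⟨1, Subgroup.one_mem _, 1, Subgroup.one_mem _, (one_mul 1).symm⟩⟩
  | mul_left x hx y hy ih =>
    obtain ⟨t, ht, rfl⟩ := hx
    exact ks_frame_mul hz hle h hy (ks_frame_gen hz hle h ht) ih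
  | inv_mul_cancel x hx y hy ih =>
    obtain ⟨t, ht, rfl⟩ := hx
    rw [← hz.inv t (Tri_mono hle ht)]
    exact ks_frame_mul hz hle h hy (ks_frame_gen hz hle h (Tri.inv ht)) ih

/-- A small 3-cycle through three germs with distinct values in `A`. -/
theorem ks_small {A : Set Ω} (hA : A.Finite) {x : Ω} {e₁ e₂ e₃ : Ω → Ω} (h1 : H.mem e₁ x)
    (h2 : H.mem e₂ x) (h3 : H.mem e₃ x) (hd : D3 (e₁ x) (e₂ x) (e₃ x)) (a1 : e₁ x ∈ A)
    (a2 : e₂ x ∈ A) (a3 : e₃ x ∈ A) :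
    ∃ t ∈ H.Tri, (∀ y, t y ∈ A ↔ y ∈ A) ∧ supp t ∩ A ⊆ {e₁ x, e₂ x, e₃ x} ∧
      (fun y => t (e₁ y)) =ᶠ[𝓝 x] e₂ := by
  have hN : ∀ {e : Ω → Ω}, H.mem e x → e ⁻¹' (A \ {e x})ᶜ ∈ 𝓝 x := fun {e} he =>
    (H.cont he).preimage_mem_nhds
      ((hA.subset Set.diff_subset).isClosed.isOpen_compl.mem_nhds fun h => h.2 rfl)
  obtain ⟨U, hxU, hUN, hU⟩ := exists_MS (H := H) (T := Set.univ) (e := ![e₁, e₂, e₃])
    Set.finite_univ (x := x) (fun i _ => by fin_cases i <;> assumption)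
    (fun i _ j _ hij => by
      obtain ⟨d1, d2, d3⟩ := hd
      fin_cases i <;> fin_cases j <;> simp_all [eq_comm])
    (Filter.inter_mem (Filter.inter_mem (hN h1) (hN h2)) (hN h3))
  have hsec : MSec U Set.univ ![e₁, e₂, e₃] := hU.sec
  have ht : tri U e₁ e₂ e₃ ∈ H.Tri :=
    hU.tri_mem (x := 0) (y := 1) (z := 2) trivial trivial trivial ⟨by decide, by decide, by decide⟩
  have k : ∀ i : Fin 3, ∀ p ∈ U, (![e₁, e₂, e₃] i p ∈ A ↔ p = x) := by
    intro i p hp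
    have hi : ![e₁, e₂, e₃] i p ∉ A \ {![e₁, e₂, e₃] i x} := by
      fin_cases i
      · exact (hUN hp).1.1
      · exact (hUN hp).1.2
      · exact (hUN hp).2
    constructor
    · intro h
      have : ![e₁, e₂, e₃] i p = ![e₁, e₂, e₃] i x := by
        by_contra h'
        exact hi ⟨h, h'⟩
      exact (hsec i trivial i trivial p hp x hxU this).2
    · rintro rfl
      fin_cases i <;> assumption
  refine ⟨_, ht, fun y => ?_, ?_, ?_⟩
  · by_cases hy : y ∈ e₁ '' U ∪ e₂ '' U ∪ e₃ '' U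
    · rcases hy with (⟨p, hp, rfl⟩ | ⟨p, hp, rfl⟩) | ⟨p, hp, rfl⟩
      · rw [tri_fst hsec hp]; exact (k 1 p hp).trans (k 0 p hp).symm
      · rw [tri_snd hsec hp]; exact (k 2 p hp).trans (k 1 p hp).symm
      · rw [tri_thd hsec hp]; exact (k 0 p hp).trans (k 2 p hp).symm
    · rw [tri_other hy]
  · rintro y ⟨hy, hyA⟩
    rcases supp_tri_subset hy with (⟨p, hp, rfl⟩ | ⟨p, hp, rfl⟩) | ⟨p, hp, rfl⟩
    · rw [(k 0 p hp).1 hyA]; simp
    · rw [(k 1 p hp).1 hyA]; simp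
    · rw [(k 2 p hp).1 hyA]; simp
  · filter_upwards [hU.clopen.isOpen.mem_nhds hxU] with y hy
    exact tri_fst hsec hy

open Classical in
/-- The action on an orbit, made trivial on `A`. -/
noncomputable def ksFun (H H' : PG Ω) (A : Set Ω) (x : Ω)
    (g : (ksM H H' A).subgroupOf H'.full) (y : H.orb x) : H.orb x :=
  if h : (y : Ω) ∈ A then y else
    ⟨(g.1.1 : Perm Ω) y, orb_trans y.2 ⟨_, (Subgroup.mem_subgroupOf.1 g.2).2.2 y h, rfl⟩⟩

theorem ksFun_mem {A : Set Ω} {x : Ω} (g : (ksM H H' A).subgroupOf H'.full) {y : H.orb x}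
    (h : (y : Ω) ∈ A) : ksFun H H' A x g y = y := by
  simp [ksFun, h]

theorem ksFun_not_mem {A : Set Ω} {x : Ω} (g : (ksM H H' A).subgroupOf H'.full) {y : H.orb x}
    (h : (y : Ω) ∉ A) : (ksFun H H' A x g y : Ω) = (g.1.1 : Perm Ω) y := by
  simp [ksFun, h]

/-- The same as a group action. -/
@[reducible] noncomputable def ksMA (H H' : PG Ω) (A : Set Ω) (x : Ω) :
    MulAction ((ksM H H' A).subgroupOf H'.full) (H.orb x) where
  smul := ksFun H H' A x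
  one_smul y := by
    show ksFun H H' A x 1 y = y
    by_cases h : (y : Ω) ∈ A
    · exact ksFun_mem _ h
    · exact Subtype.ext (by rw [ksFun_not_mem _ h]; rfl)
  mul_smul g k y := by
    show ksFun H H' A x (g * k) y = ksFun H H' A x g (ksFun H H' A x k y)
    by_cases h : (y : Ω) ∈ A
    · rw [ksFun_mem _ h, ksFun_mem _ h, ksFun_mem _ h]
    · have h' : (ksFun H H' A x k y : Ω) ∉ A := by
        rw [ksFun_not_mem _ h]
        exact fun h' => h (((Subgroup.mem_subgroupOf.1 k.2).2.1 y).1 h')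
      apply Subtype.ext
      rw [ksFun_not_mem _ h, ksFun_not_mem _ h', ksFun_not_mem _ h]
      rfl

noncomputable def ksAct (H H' : PG Ω) (A : Set Ω) (x : Ω) :
    (ksM H H' A).subgroupOf H'.full →* Perm (H.orb x) :=
  @MulAction.toPermHom _ _ _ (ksMA H H' A x)

theorem ksAct_apply {A : Set Ω} {x : Ω} (g : (ksM H H' A).subgroupOf H'.full) (y : H.orb x) :
    ksAct H H' A x g y = ksFun H H' A x g y := rfl

omit [CompactSpace Ω] [T2Space Ω] [TotallyDisconnectedSpace Ω] in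
theorem ks_lift_closure {A : Set Ω} {S : Set (Perm Ω)} (hS : ∀ t ∈ S, t ∈ ksM H H' A ∧ t ^ 3 = 1)
    {g : Perm Ω} (hg : g ∈ Subgroup.closure S) :
    ∃ k ∈ Subgroup.closure {t : (ksM H H' A).subgroupOf H'.full | t ^ 3 = 1}, k.1.1 = g := by
  have : Subgroup.closure S ≤ (Subgroup.closure
      {t : (ksM H H' A).subgroupOf H'.full | t ^ 3 = 1}).map
        (H'.full.subtype.comp ((ksM H H' A).subgroupOf H'.full).subtype) := by
    refine (Subgroup.closure_le _).2 fun t ht => ?_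
    refine ⟨⟨⟨t, (hS t ht).1.1⟩, Subgroup.mem_subgroupOf.2 (hS t ht).1⟩,
      Subgroup.subset_closure ?_, rfl⟩
    exact Subtype.ext (Subtype.ext (hS t ht).2)
  exact this hg

theorem ks_no_swap (hle : H.LE H') {A D : Set Ω} (hA : A.Finite) {x : Ω}
    (a : H'.full →* Perm (H.orb x))
    (ha : ∀ g : H'.full, {y : H.orb x | (a g y : Ω) ≠ (g : Perm Ω) y}.Finite) {g : Perm Ω}
    (h1 : g ∈ H.alt) (h2 : g ∈ Subgroup.closure (gens H H' A A)) (hx : x ∈ A) (hxD : x ∉ D)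
    (hD : ∀ y ∈ D, g y = y) (hne : g x ≠ x)
    (hno : ∀ w ∈ H.orb x, w ∈ A → w ∉ D → w = x ∨ w = g x) : False := by
  classical
  have hgf : g ∈ H.full := alt_le_full H h1
  have hgM := ks_gens_le h2
  obtain ⟨k₁, hk₁, e₁⟩ := ks_lift_closure (H := H) (H' := H') (A := ∅) (S := H.Tri)
    (fun t ht => ⟨⟨full_mono hle ht.1, fun _ => Iff.rfl, fun y _ => ht.1 y⟩, ht.2.1⟩) h1
  obtain ⟨k₂, hk₂, e₂⟩ := ks_lift_closure (H := H) (H' := H') (A := A) (S := gens H H' A A)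
    (fun t ht => ⟨⟨ht.1.1, ht.2.1, ht.2.2.1⟩, ht.1.2.1⟩) h2
  have hfin : ∀ B : Set Ω, B.Finite → ∀ k : (ksM H H' B).subgroupOf H'.full,
      {y | a k y ≠ ksAct H H' B x k y}.Finite := fun B hB k => by
    refine ((ha k.1).union (hB.preimage Subtype.val_injective.injOn)).subset fun y hy => ?_
    by_cases h : (y : Ω) ∈ B
    · exact Or.inr h
    · refine Or.inl fun h' => hy (Subtype.ext ?_)
      rw [ksAct_apply, ksFun_not_mem _ h]
      exact h'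
  have hgx : g x ∈ H.orb x := ⟨g, hgf x, rfl⟩
  have hgxA : g x ∈ A := (hgM.2.1 x).2 hx
  have hgxD : g x ∉ D := fun h => hne (g.injective (hD _ h))
  have hgg : g (g x) = x := by
    rcases hno (g (g x)) (orb_trans hgx ⟨g, hgf _, rfl⟩) ((hgM.2.1 _).2 hgxA)
      (fun h => hgxD (by rwa [g.injective (hD _ h)] at h)) with h | h
    · exact h
    · exact absurd (g.injective h) hne
  refine parity_obstruction a _ _ (ksAct H H' ∅ x) (ksAct H H' A x) (hfin ∅ Set.finite_empty)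
    (hfin A hA) k₁ k₂ (Subtype.ext (e₁.trans e₂.symm)) hk₁ hk₂
    (x := ⟨x, mem_orb_self x⟩) (y := ⟨g x, hgx⟩) (fun h => hne (congrArg Subtype.val h).symm) ?_
  ext y
  rw [Perm.mul_apply, ksAct_apply, ksAct_apply, ksFun_not_mem _ (Set.notMem_empty _), e₁]
  by_cases hy1 : y = ⟨x, mem_orb_self x⟩
  · rw [hy1, swap_apply_left, ksFun_mem _ hgxA]
  by_cases hy2 : y = ⟨g x, hgx⟩
  · rw [hy2, swap_apply_right, ksFun_mem _ hx]
    exact hgg
  rw [swap_apply_of_ne_of_ne hy1 hy2]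
  by_cases hyA : (y : Ω) ∈ A
  · rw [ksFun_mem _ hyA]
    apply hD
    by_contra hyD
    rcases hno y y.2 hyA hyD with h | h
    · exact hy1 (Subtype.ext h)
    · exact hy2 (Subtype.ext h)
  · rw [ksFun_not_mem _ hyA, e₂]

/-- Multiplying by a 3-cycle of `H` preserving `A` and avoiding `D`. -/
theorem ks_mul (hz : ZSys H₃ π z) (hle : H'.LE H₃) (hle' : H.LE H') {A D : Set Ω} (hDA : D ⊆ A)
    {m : Γ} (hm : m ∈ MB H H' z A A) (hD : ∀ y ∈ D, (π m : Ω → Ω) =ᶠ[𝓝 y] _root_.id)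
    {t : Perm Ω} (ht : t ∈ H.Tri) (hA : ∀ y, t y ∈ A ↔ y ∈ A) {T : Set Ω}
    (hs : supp t ∩ A ⊆ T) (hT : Disjoint T D) :
    z t * m ∈ MB H H' z A A ∧ π (z t * m) = t * π m ∧
      ∀ y ∈ D, (π (z t * m) : Ω → Ω) =ᶠ[𝓝 y] _root_.id := by
  have e : π (z t * m) = t * π m := by
    rw [map_mul, hz.proj t (Tri_mono hle (Tri_mono hle' ht))]
  refine ⟨Subgroup.mul_mem _ (Subgroup.subset_closure
    ⟨t, ⟨Tri_mono hle' ht, hA, fun y _ => ht.1 y, Set.inter_subset_right⟩, rfl⟩) hm, e,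
    fun y hy => ?_⟩
  rw [e]
  have h1 := ks_evEq_id ht (x := y) fun h => Set.disjoint_left.1 hT (hs ⟨h, hDA hy⟩) hy
  filter_upwards [h1, hD y hy] with w hw hw'
  have hw'' : π m w = w := hw'
  rw [Perm.mul_apply, hw'']
  exact hw

theorem ks_S1 (hz : ZSys H₃ π z) (hle : H'.LE H₃) (hle' : H.LE H') {A D : Set Ω} (hA : A.Finite)
    (hDA : D ⊆ A) {m : Γ} (hm : m ∈ MB H H' z A A) (hH : π m ∈ H.alt)
    (hD : ∀ y ∈ D, (π m : Ω → Ω) =ᶠ[𝓝 y] _root_.id) {x w : Ω} (hx : x ∈ A) (hxD : x ∉ D)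
    (hne : π m x ≠ x) (hw : w ∈ H.orb x) (hwA : w ∈ A) (hwD : w ∉ D) (hwx : w ≠ x)
    (hwy : w ≠ π m x) : ∃ a ∈ H.zsub z, a * m ∈ MB H H' z A A ∧
      ∀ y ∈ insert x D, (π (a * m) : Ω → Ω) =ᶠ[𝓝 y] _root_.id := by
  obtain ⟨γ, hγ, rfl⟩ := hw
  have hgM := ks_gens_le (ks_pi_MB hz hle hm)
  obtain ⟨t, ht, htA, hs, he⟩ := ks_small (H := H) hA (x := x) (e₁ := π m) (e₂ := _root_.id)
    (e₃ := γ) (alt_le_full H hH x) (H.id x) hγ ⟨hne, hwx.symm, hwy.symm⟩ ((hgM.2.1 x).2 hx) hx hwA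
  have hgxD : π m x ∉ D := fun h => hne ((π m).injective (hD _ h).eq_of_nhds)
  obtain ⟨q1, q2, q3⟩ := ks_mul hz hle hle' hDA hm hD ht htA hs (by
    rw [Set.disjoint_left]
    rintro y (rfl | rfl | rfl)
    · exact hgxD
    · exact hxD
    · exact hwD)
  refine ⟨z t, Subgroup.subset_closure ⟨t, ht, rfl⟩, q1, ?_⟩
  rintro y (rfl | hy)
  · rw [q2]; exact he
  · exact q3 y hy

theorem ks_step (hz : ZSys H₃ π z) (hle : H'.LE H₃) (h : Step H H' Sg) (hk : KStep H H' Sg P₀)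
    {A D : Set Ω} (hA : A.Finite) (hP : P₀ ⊆ A) (hS : A ⊆ Sg) (hDA : D ⊆ A \ P₀) {m : Γ}
    (hm : m ∈ MB H H' z A A) (hH : π m ∈ H.alt)
    (hD : ∀ y ∈ D, (π m : Ω → Ω) =ᶠ[𝓝 y] _root_.id) {x : Ω} (hx : x ∈ A \ P₀) (hxD : x ∉ D) :
    ∃ a ∈ H.zsub z, a * m ∈ MB H H' z A A ∧
      ∀ y ∈ insert x D, (π (a * m) : Ω → Ω) =ᶠ[𝓝 y] _root_.id := by
  have hDA' : D ⊆ A := hDA.trans Set.diff_subset
  have hPD : ∀ w ∈ P₀, w ∉ D := fun w hw h' => (hDA h').2 hw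
  have hPx : ∀ w ∈ P₀, w ≠ x := fun w hw h' => hx.2 (h' ▸ hw)
  rcases hk.good x (hS hx.1) with h6 | ⟨-, hiso, a, ha⟩
  · have h2 : 1 < (H.orb x ∩ P₀).encard := lt_of_lt_of_le (by norm_num) h6
    obtain ⟨w, w', hw, hw', hww⟩ := Set.one_lt_encard_iff.1 h2
    by_cases hne : π m x = x
    · obtain ⟨γ, hγ, e⟩ := hw.1
      obtain ⟨γ', hγ', e'⟩ := hw'.1
      obtain ⟨t, ht, htA, hs, he⟩ := ks_small (H := H) hA (x := x) (e₁ := _root_.id) (e₂ := γ)
        (e₃ := γ') (H.id x) hγ hγ'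
        ⟨by rw [e]; exact (hPx w hw.2).symm, by rw [e, e']; exact hww,
          by rw [e']; exact (hPx w' hw'.2).symm⟩ hx.1 (e ▸ hP hw.2) (e' ▸ hP hw'.2)
      obtain ⟨q1, q2, q3⟩ := ks_mul hz hle h.le hDA' hm hD ht htA hs (by
        rw [Set.disjoint_left]
        rintro y (rfl | rfl | rfl)
        · exact hxD
        · exact hPD _ (e ▸ hw.2)
        · exact hPD _ (e' ▸ hw'.2))
      have hx' : π (z t * m) x = w := by
        rw [q2, Perm.mul_apply, hne, ← e]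
        exact he.eq_of_nhds
      obtain ⟨a, ha, r1, r2⟩ := ks_S1 hz hle h.le hA hDA' q1
        (by rw [q2]; exact H.alt.mul_mem (Subgroup.subset_closure ht) hH) q3 hx.1 hxD
        (by rw [hx']; exact hPx w hw.2) hw'.1 (hP hw'.2) (hPD _ hw'.2) (hPx _ hw'.2)
        (by rw [hx']; exact hww.symm)
      refine ⟨a * z t, Subgroup.mul_mem _ ha (Subgroup.subset_closure ⟨t, ht, rfl⟩), ?_⟩
      rw [mul_assoc]
      exact ⟨r1, r2⟩
    · by_cases hwy : w = π m x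
      · exact ks_S1 hz hle h.le hA hDA' hm hH hD hx.1 hxD hne hw'.1 (hP hw'.2) (hPD _ hw'.2)
          (hPx _ hw'.2) (hwy ▸ hww.symm)
      · exact ks_S1 hz hle h.le hA hDA' hm hH hD hx.1 hxD hne hw.1 (hP hw.2) (hPD _ hw.2)
          (hPx _ hw.2) hwy
  · by_cases hne : π m x = x
    · refine ⟨1, Subgroup.one_mem _, by rwa [one_mul], ?_⟩
      rw [one_mul]
      rintro y (rfl | hy)
      · exact hiso _ (alt_le_full H hH _) hne
      · exact hD y hy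
    · by_cases hw : ∃ w ∈ H.orb x, w ∈ A ∧ w ∉ D ∧ w ≠ x ∧ w ≠ π m x
      · obtain ⟨w, w1, w2, w3, w4, w5⟩ := hw
        exact ks_S1 hz hle h.le hA hDA' hm hH hD hx.1 hxD hne w1 w2 w3 w4 w5
      · exact (ks_no_swap h.le hA a ha hH (ks_pi_MB hz hle hm) hx.1 hxD
          (fun y hy => (hD y hy).eq_of_nhds) hne fun w w1 w2 w3 => by
            by_contra hc
            rw [not_or] at hc
            exact hw ⟨w, w1, w2, w3, hc.1, hc.2⟩).elim

/-- Stripping: make the germs at the points of `A \ P₀` trivial. -/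
theorem strip (hz : ZSys H₃ π z) (hle : H'.LE H₃) (h : Step H H' Sg) (hk : KStep H H' Sg P₀)
    {A : Set Ω} (hA : A.Finite) (hP : P₀ ⊆ A) (hS : A ⊆ Sg) {m : Γ} (hm : m ∈ MB H H' z A A)
    (hH : π m ∈ H.alt) : ∃ a ∈ H.zsub z, a * m ∈ MB H H' z A A ∧
      ∀ x ∈ A \ P₀, (π (a * m) : Ω → Ω) =ᶠ[𝓝 x] _root_.id := by
  have key : ∀ D : Set Ω, D.Finite → D ⊆ A \ P₀ → ∃ a ∈ H.zsub z, a * m ∈ MB H H' z A A ∧
      ∀ x ∈ D, (π (a * m) : Ω → Ω) =ᶠ[𝓝 x] _root_.id := by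
    intro D hD
    induction D, hD using Set.Finite.induction_on with
    | empty => exact fun _ => ⟨1, Subgroup.one_mem _, by rwa [one_mul], fun _ h => h.elim⟩
    | @insert x D hxD _ ih =>
      intro hsub
      obtain ⟨a, ha, q1, q2⟩ := ih ((Set.subset_insert _ _).trans hsub)
      obtain ⟨a', ha', r1, r2⟩ := ks_step hz hle h hk hA hP hS
        ((Set.subset_insert _ _).trans hsub) q1
        (by
          rw [map_mul]
          exact H.alt.mul_mem (ks_pi_zsub hz (fun f x h' => hle f x (h.le f x h')) ha) hH)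
        q2 (hsub (Set.mem_insert _ _)) hxD
      refine ⟨a' * a, Subgroup.mul_mem _ ha' ha, ?_⟩
      rw [mul_assoc]
      exact ⟨r1, r2⟩
  exact key _ (hA.subset Set.diff_subset) subset_rfl

theorem ks_shrink (hz : ZSys H₃ π z) (hc : ∀ t ∈ H₃.Tri, z t ^ 3 = 1) (hle : H'.LE H₃)
    (h : Step H H' Sg) (hk : KStep H H' Sg P₀) {A : Set Ω} (hA : A.Finite) (hP : P₀ ⊆ A)
    (hS : A ⊆ Sg) {m : Γ} (hm : m ∈ MB H H' z A A)
    (hid : ∀ x ∈ A \ P₀, (π m : Ω → Ω) =ᶠ[𝓝 x] _root_.id) : m ∈ MB H H' z P₀ P₀ := by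
  have key : ∀ D : Set Ω, D.Finite → D ⊆ A \ P₀ → m ∈ MB H H' z A (A \ D) := by
    intro D hD
    induction D, hD using Set.Finite.induction_on with
    | empty => exact fun _ => by rwa [Set.diff_empty]
    | @insert x D hxD _ ih =>
      intro hsub
      have hx := hsub (Set.mem_insert _ _)
      have hsub' : D ⊆ A \ P₀ := (Set.subset_insert _ _).trans hsub
      have := MB_stab hz hc hle h hA Set.diff_subset (x := x) ⟨hx.1, hxD⟩
        (le_trans (le_trans (by norm_num) (hk.room x (hS hx.1)))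
          (Set.encard_le_encard (Set.inter_subset_inter_right _
            fun w hw => ⟨hP hw, fun h' => (hsub' h').2 hw⟩))) (ih hsub') (hid x hx)
      rwa [Set.diff_diff, Set.union_singleton] at this
  have h1 := key _ (hA.subset Set.diff_subset) subset_rfl
  refine Subgroup.closure_mono (Set.image_mono fun t ht => ?_) h1
  have hs : ∀ x ∈ supp t, x ∈ A → x ∈ P₀ := fun x hx hxA => by
    by_contra hx'
    exact (ht.2.2.2 ⟨hx, hxA⟩).2 ⟨hxA, hx'⟩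
  refine ⟨ht.1, fun x => ?_, fun x hx => ?_, Set.inter_subset_right⟩
  · by_cases hx : x ∈ supp t
    · exact ⟨fun h' => hs x hx ((ht.2.1 x).1 (hP h')),
        fun h' => hs _ (mem_supp_iff.2 hx) ((ht.2.1 x).2 (hP h'))⟩
    · have : t x = x := by simpa [supp] using hx
      rw [this]
  · by_cases hxA : x ∈ A
    · exact H.congr (H.id x) (ks_evEq_id ht.1 fun h' => hx (hs x h' hxA)).symm
    · exact ht.2.2.1 x hxA

theorem ks_MB_empty {A : Set Ω} : MB H H' z A ∅ ≤ H.zsub z := by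
  refine Subgroup.closure_mono (Set.image_mono fun t ht => ⟨fun x => ?_, ht.1.2⟩)
  by_cases hx : x ∈ A
  · exact H.congr (H.id x) (ks_evEq_id ht.1 fun h' => ht.2.2.2 ⟨h', hx⟩).symm
  · exact ht.2.2.1 x hx

theorem ZSys.kstep (hz : ZSys H₃ π z) (hc : ∀ t ∈ H₃.Tri, z t ^ 3 = 1) (hle : H'.LE H₃)
    (h : Step H H' Sg) (hk : KStep H H' Sg P₀) (hfg : (π.ker ⊓ H.zsub z).FG) :
    (π.ker ⊓ H'.zsub z).FG := by
  have hle₀ : H.LE H₃ := fun f x h' => hle f x (h.le f x h')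
  set E : Subgroup Γ := MB H H' z P₀ P₀ ⊓ ((H.zsub z).map π).comap π with hE
  obtain ⟨F, hF⟩ := MB_noeth hz hc hle h hk.fin hk.sub
    (fun x hx => le_trans (by norm_num) (hk.room x (hk.sub hx))) E
    (le_inf (Subgroup.closure_mono (Set.image_mono fun t ht =>
        ⟨ht.1, ht.2.1, ht.2.2.1, Set.inter_subset_right⟩))
      (ks_MB_empty.trans (Subgroup.le_comap_map _ _))) inf_le_left
  have hFE : ∀ m ∈ F, m ∈ E := fun m hm => by
    rw [hF]; exact Subgroup.mem_sup_left (Subgroup.subset_closure hm)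
  have hch : ∀ m : Γ, ∃ a : Γ, m ∈ E → a ∈ H.zsub z ∧ π a = π m := fun m => by
    by_cases hm : m ∈ E
    · obtain ⟨a, ha, e⟩ := hm.2
      exact ⟨a, fun _ => ⟨ha, e⟩⟩
    · exact ⟨1, fun h' => (hm h').elim⟩
  choose c hc' using hch
  set C : Subgroup Γ := Subgroup.closure ((fun m => m * (c m)⁻¹) '' (F : Set Γ)) with hC
  have hCle : C ≤ π.ker ⊓ H'.zsub z := by
    refine (Subgroup.closure_le _).2 ?_
    rintro _ ⟨m, hm, rfl⟩
    have := hc' m (hFE m hm)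
    refine ⟨?_, Subgroup.mul_mem _ (ks_MB_le (hFE m hm).1)
      (Subgroup.inv_mem _ (ks_zsub_mono h.le this.1))⟩
    show π (m * (c m)⁻¹) = 1
    rw [map_mul, map_inv, this.2, mul_inv_cancel]
  have hCn : C.Normal := ⟨fun n hn g => by
    have := Subgroup.mem_center_iff.1 (hz.central (hCle hn).1) g
    rw [this, mul_inv_cancel_right]
    exact hn⟩
  have hEle : E ≤ H.zsub z ⊔ C := by
    rw [hF]
    refine sup_le ((Subgroup.closure_le _).2 fun m hm => ?_) (ks_MB_empty.trans le_sup_left)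
    have e : m = m * (c m)⁻¹ * c m := by group
    rw [SetLike.mem_coe, e]
    exact Subgroup.mul_mem _ (Subgroup.mem_sup_right (Subgroup.subset_closure ⟨m, hm, rfl⟩))
      (Subgroup.mem_sup_left (hc' m (hFE m hm)).1)
  have hmain : π.ker ⊓ H'.zsub z = (π.ker ⊓ H.zsub z) ⊔ C := by
    refine le_antisymm ?_ (sup_le (inf_le_inf_left _ (ks_zsub_mono h.le)) hCle)
    rintro k ⟨hk1, hk2⟩
    have hk1' : π k = 1 := hk1
    obtain ⟨F₀, hF₀, hF₀S, hfr⟩ := frame hz hle h hk2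
    have hAf : (F₀ ∪ P₀).Finite := hF₀.union hk.fin
    have hAS : F₀ ∪ P₀ ⊆ Sg := Set.union_subset hF₀S hk.sub
    obtain ⟨a, ha, m, hm, rfl⟩ := hfr (F₀ ∪ P₀) hAf Set.subset_union_left hAS
    have hpm : π m = (π a)⁻¹ := by
      rw [map_mul] at hk1'
      exact eq_inv_of_mul_eq_one_right hk1'
    obtain ⟨a', ha', q1, q2⟩ := strip hz hle h hk hAf Set.subset_union_right hAS hm
      (by rw [hpm]; exact H.alt.inv_mem (ks_pi_zsub hz hle₀ ha))
    have q3 := ks_shrink hz hc hle h hk hAf Set.subset_union_right hAS q1 q2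
    have q4 : a' * m ∈ E := ⟨q3, a' * a⁻¹, Subgroup.mul_mem _ ha' (Subgroup.inv_mem _ ha), by
      rw [map_mul, map_mul, map_inv, hpm]⟩
    obtain ⟨b, hb, n, hn, e⟩ := Subgroup.mem_sup_of_normal_right.1 (hEle q4)
    have e' : a * m = a * a'⁻¹ * b * n := by
      rw [mul_assoc (a * a'⁻¹), e]; group
    have hn1 : π n = 1 := (hCle hn).1
    rw [e'] at hk1' ⊢
    refine Subgroup.mul_mem _ (Subgroup.mem_sup_left ⟨?_, Subgroup.mul_mem _
      (Subgroup.mul_mem _ ha (Subgroup.inv_mem _ ha')) hb⟩) (Subgroup.mem_sup_right hn)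
    rw [map_mul, hn1, mul_one] at hk1'
    exact hk1'
  rw [hmain]
  exact hfg.sup ((Subgroup.fg_iff _).2 ⟨_, rfl, F.finite_toSet.image _⟩)

end Vale.Agent.P196.PG
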