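import Vale.Agent.P196.PGBasic

namespace Vale.Agent.P196.PG

open Filter Topology Equiv

variable {Ω : Type} [TopologicalSpace Ω] [CompactSpace Ω] [T2Space Ω] [TotallyDisconnectedSpace Ω]

theorem simple_neBot [Infinite Ω] (H : PG Ω) (hmin : ∀ x, Dense (H.orb x)) (y : Ω) :
    NeBot (𝓝[≠] y) := by
  by_contra hy
  have hop : IsOpen ({y} : Set Ω) := by
    rw [isOpen_singleton_iff_punctured_nhds]
    exact not_neBot.1 hy
  have hd : DiscreteTopology Ω := by
    refine discreteTopology_iff_singleton_mem_nhds.2 fun x => ?_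
    obtain ⟨_, rfl, f, hf, hfx⟩ := (hmin x).inter_open_nonempty _ hop (Set.singleton_nonempty y)
    obtain ⟨g, -, hg, -⟩ := H.inv hf
    have h1 : ∀ᶠ z in 𝓝 x, f z ∈ ({f x} : Set Ω) :=
      (H.cont hf).eventually (by
        rw [hfx]
        exact hop.mem_nhds rfl)
    filter_upwards [h1, hg] with z hz hz'
    have h2 : g (f x) = x := hg.eq_of_nhds
    have h3 : g (f z) = z := hz'
    rw [Set.mem_singleton_iff.1 hz, h2] at h3
    exact h3.symm
  exact not_finite_iff_infinite.2 ‹Infinite Ω› finite_of_compact_of_discrete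

theorem simple_orb_inf [Infinite Ω] (H : PG Ω) (hmin : ∀ x, Dense (H.orb x)) (x : Ω) {U : Set Ω}
    (hU : IsOpen U) (hne : U.Nonempty) : (H.orb x ∩ U).Infinite := by
  have := simple_neBot H hmin
  intro hf
  obtain ⟨z, hz, hz1, hz2⟩ := ((hmin x).sdiff_finite hf).inter_open_nonempty U hU hne
  exact hz2 ⟨hz1, hz⟩

omit [TopologicalSpace Ω] [CompactSpace Ω] [T2Space Ω] [TotallyDisconnectedSpace Ω] in
theorem simple_comm {A N : Subgroup (Perm Ω)} (hN : ∀ a ∈ A, ∀ n ∈ N, a * n * a⁻¹ ∈ N)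
    {g a b : Perm Ω} (hg : g ∈ N) {U : Set Ω} (hU : Disjoint (g '' U) U) (ha : a ∈ A) (hb : b ∈ A)
    (ha' : supp a ⊆ U) (hb' : supp b ⊆ U) : a * b * a⁻¹ * b⁻¹ ∈ N := by
  have h1 : a * g * a⁻¹ * g⁻¹ ∈ N := N.mul_mem (hN a ha g hg) (N.inv_mem hg)
  have h2 : Commute (g * a⁻¹ * g⁻¹) b := by
    refine commute_of_supp ?_
    rw [supp_conj, supp_inv]
    exact hU.mono (Set.image_mono ha') hb'
  have h3 := N.mul_mem h1 (hN b hb _ (N.inv_mem h1))
  have e : a * g * a⁻¹ * g⁻¹ * (b * (a * g * a⁻¹ * g⁻¹)⁻¹ * b⁻¹) =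
      a * ((g * a⁻¹ * g⁻¹) * b * (g * a⁻¹ * g⁻¹)⁻¹) * a⁻¹ * b⁻¹ := by group
  rw [e, h2.eq, mul_inv_cancel_right] at h3
  exact h3

theorem simple_local (H : PG Ω) {N : Subgroup (Perm Ω)}
    (hN : ∀ a ∈ H.alt, ∀ n ∈ N, a * n * a⁻¹ ∈ N) {U : Set Ω} (hU : IsOpen U)
    (hc : ∀ a ∈ H.alt, ∀ b ∈ H.alt, supp a ⊆ U → supp b ⊆ U → a * b * a⁻¹ * b⁻¹ ∈ N)
    {t : Perm Ω} (ht : t ∈ H.Tri) {x : Ω} (hx : x ∈ supp t) (hinf : (H.orb x ∩ U).Infinite) :
    ∃ W ∈ 𝓝 x, ∀ V ⊆ W, IsClopen V → tri V _root_.id t (t ∘ t) ∈ N := by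
  have hinf' := hinf.sdiff (Set.toFinite ({x, t x, t (t x)} : Set Ω))
  let p : ℕ ↪ _ := hinf'.natEmbedding
  have hp : ∀ i : Fin 5, ∃ f, H.mem f x ∧ f x = (p i : Ω) := fun i => (p i).2.1.1
  choose f hf hfx using hp
  have h1 : t x ≠ x := hx
  have h2 : t (t x) ≠ t x := fun h => h1 (t.injective h)
  have h3 : t (t x) ≠ x := by
    intro h
    have h4 : t (t (t x)) = x := by
      have := congrArg (fun s : Perm Ω => s x) ht.2.1
      simpa [pow_succ] using this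
    rw [h] at h4
    exact h1 h4
  let e : Fin 3 ⊕ Fin 5 → Ω → Ω := Sum.elim ![_root_.id, t, t ∘ t] f
  have hm : ∀ y ∈ (Set.univ : Set (Fin 3 ⊕ Fin 5)), H.mem (e y) x := by
    rintro (i | i) -
    · fin_cases i
      · exact H.id x
      · exact ht.1 x
      · exact H.comp (f := t) (g := t) (ht.1 x) (ht.1 _)
    · exact hf i
  have hl : ∀ i : Fin 3, e (Sum.inl i) x ∈ ({x, t x, t (t x)} : Set Ω) := by
    intro i
    fin_cases i <;> simp [e]
  have hr : ∀ i : Fin 5, e (Sum.inr i) x ∉ ({x, t x, t (t x)} : Set Ω) := by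
    intro i
    change f i x ∉ _
    rw [hfx]
    exact (p i).2.2
  have hi : Set.InjOn (fun y => e y x) Set.univ := by
    rintro (i | i) - (j | j) - h
    · fin_cases i <;> fin_cases j <;>
        first
        | rfl
        | exact absurd h h1
        | exact absurd h h1.symm
        | exact absurd h h2
        | exact absurd h h2.symm
        | exact absurd h h3
        | exact absurd h h3.symm
    · exact absurd ((show e (Sum.inl i) x = e (Sum.inr j) x from h) ▸ hl i) (hr j)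
    · exact absurd ((show e (Sum.inr i) x = e (Sum.inl j) x from h).symm ▸ hl j) (hr i)
    · have h4 : f i x = f j x := h
      rw [hfx, hfx] at h4
      rw [Fin.ext (p.injective (Subtype.ext h4))]
  have hn : {z | ∀ i, f i z ∈ U} ∈ 𝓝 x :=
    eventually_all.2 fun i => (H.cont (hf i)).eventually (hU.mem_nhds (by
      rw [hfx]
      exact (p i).2.1.2))
  obtain ⟨W, hxW, hWn, hW⟩ := exists_MS (Set.toFinite _) hm hi hn
  refine ⟨W, hW.clopen.isOpen.mem_nhds hxW, fun V hVW hV => ?_⟩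
  have hMS : H.MS V Set.univ e := hW.mono hV hVW subset_rfl
  have hA := hMS.sec.isAlt
  have hmem : ∀ a b c, a ∈ (Set.univ : Set (Fin 3 ⊕ Fin 5)) → b ∈ Set.univ → c ∈ Set.univ →
      D3 a b c → tri V (e a) (e b) (e c) ∈ H.alt := fun a b c ha hb hc h =>
    Subgroup.subset_closure (hMS.tri_mem ha hb hc h)
  have hsupp : ∀ a b c : Fin 5,
      supp (tri V (e (Sum.inr a)) (e (Sum.inr b)) (e (Sum.inr c))) ⊆ U := by
    intro a b c
    refine supp_tri_subset.trans ?_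
    rintro _ ((⟨z, hz, rfl⟩ | ⟨z, hz, rfl⟩) | ⟨z, hz, rfl⟩) <;> exact hWn (hVW hz) _
  have d1 : D3 (Sum.inr 0 : Fin 3 ⊕ Fin 5) (Sum.inr 1) (Sum.inr 2) := by
    unfold D3
    decide
  have d2 : D3 (Sum.inr 0 : Fin 3 ⊕ Fin 5) (Sum.inr 1) (Sum.inr 3) := by
    unfold D3
    decide
  have d3 : D3 (Sum.inr 0 : Fin 3 ⊕ Fin 5) (Sum.inr 2) (Sum.inr 4) := by
    unfold D3
    decide
  have h4 : tri V (e (Sum.inr 0)) (e (Sum.inr 1)) (e (Sum.inr 2)) ∈ N := by
    have h5 := hA.comm_eq (c := Sum.inr 3) (d := Sum.inr 4) trivial trivial trivial trivial trivial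
      d1 (by decide) (by simp) (by simp)
    rw [h5]
    exact hc _ (hmem _ _ _ trivial trivial trivial d2) _ (hmem _ _ _ trivial trivial trivial d3)
      (hsupp _ _ _) (hsupp _ _ _)
  have l35 : 3 ≤ 5 := by norm_num
  obtain ⟨g, hg, hg'⟩ := altL_trans (S := Set.univ) (fun a b c => tri V (e a) (e b) (e c))
    (fun i : Fin 3 => (Sum.inr (Fin.castLE l35 i) : Fin 3 ⊕ Fin 5)) Sum.inl
    (Sum.inr_injective.comp (Fin.castLE_injective l35)) Sum.inl_injective (fun _ => trivial)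
    (fun _ => trivial) (by
      rw [Set.encard_univ, ENat.card_eq_coe_fintype_card]
      simp only [Nat.card_eq_fintype_card, Fintype.card_fin, Fintype.card_sum]
      norm_num)
  have h6 := altL_act (fun a b c u v w ha hb hc hu hv hw k1 k2 => hA.conj ha hb hc hu hv hw k1 k2)
    subset_rfl hg trivial trivial trivial d1
  have h7 := hN _ (altL_le hmem hg) _ h4
  have g0 : g.2 (Sum.inr 0) = Sum.inl 0 := hg' 0
  have g1 : g.2 (Sum.inr 1) = Sum.inl 1 := hg' 1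
  have g2 : g.2 (Sum.inr 2) = Sum.inl 2 := hg' 2
  rw [h6, g0, g1, g2] at h7
  exact h7

theorem simple_gen [Infinite Ω] (H : PG Ω) (hmin : ∀ x, Dense (H.orb x)) [Nontrivial H.alt] :
    IsSimpleGroup H.alt := by
  refine ⟨fun N0 hN0 => ?_⟩
  by_cases hbot : N0 = ⊥
  · exact Or.inl hbot
  right
  obtain ⟨⟨⟨g, hgA⟩, hg0⟩, hg1⟩ := Subgroup.ne_bot_iff_exists_ne_one.1 hbot
  have hN : ∀ a ∈ H.alt, ∀ n ∈ N0.map H.alt.subtype, a * n * a⁻¹ ∈ N0.map H.alt.subtype := by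
    rintro a ha _ ⟨n, hn, rfl⟩
    exact ⟨_, hN0.conj_mem n hn ⟨a, ha⟩, rfl⟩
  have hg : g ∈ N0.map H.alt.subtype := ⟨_, hg0, rfl⟩
  obtain ⟨w, hw⟩ : ∃ w, g w ≠ w := by
    by_contra hc
    push Not at hc
    exact hg1 (Subtype.ext (Subtype.ext (Equiv.ext hc)))
  obtain ⟨A, B, hA, hB, hwA, hwB, hAB⟩ := t2_separation hw
  have hU : IsOpen (B ∩ g ⁻¹' A) := hB.inter (hA.preimage (full_continuous (H.alt_le_full hgA)))
  have hd : Disjoint (g '' (B ∩ g ⁻¹' A)) (B ∩ g ⁻¹' A) := by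
    refine hAB.mono ?_ Set.inter_subset_left
    rintro _ ⟨z, hz, rfl⟩
    exact hz.2
  have key : H.alt ≤ N0.map H.alt.subtype := by
    refine (Subgroup.closure_le _).2 fun t ht => ?_
    have h1 : ∀ x, ∃ W : Set Ω, x ∈ supp t → W ∈ 𝓝 x ∧ ∀ V ⊆ W, IsClopen V →
        tri V _root_.id t (t ∘ t) ∈ N0.map H.alt.subtype := by
      intro x
      by_cases hx : x ∈ supp t
      · obtain ⟨W, h2, h3⟩ := simple_local H hN hU
          (fun a ha b hb ha' hb' => simple_comm hN hg hd ha hb ha' hb') ht hx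
          (simple_orb_inf H hmin x hU ⟨w, hwB, hwA⟩)
        exact ⟨W, fun _ => ⟨h2, h3⟩⟩
      · exact ⟨∅, fun h => absurd h hx⟩
    choose W hW using h1
    exact Tri.induction ht W (fun x hx => (hW x hx).1) (p := fun s => s ∈ N0.map H.alt.subtype)
      (Subgroup.one_mem _) (fun a _ b _ _ _ _ ha hb => Subgroup.mul_mem _ ha hb)
      fun x hx V hV hMS => (hW x hx).2 V hV hMS.clopen
  rw [eq_top_iff]
  intro a _
  obtain ⟨b, hb, e⟩ := key a.2
  rwa [← Subtype.ext e]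

theorem simple_infinite [Infinite Ω] (H : PG Ω) : Infinite H.col.alt := by
  let e : Col → Ω × Col → Ω × Col := fun c y => (y.1, c)
  have hMS : ∀ U : Set Ω, IsClopen U → H.col.MS (U ×ˢ {0}) Set.univ e := by
    intro U hU
    refine ⟨hU.prod (isClopen_discrete _), ?_, fun c _ x _ => ⟨_root_.id, c, H.id _, .rfl⟩⟩
    intro c _ c' _ p hp p' hp' h
    exact ⟨(Prod.mk.inj h).2, Prod.ext (Prod.mk.inj h).1 (hp.2.trans hp'.2.symm)⟩
  have d : D3 (0 : Col) 1 2 := by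
    unfold D3
    decide
  let τ : {U : Set Ω // IsClopen U} → H.col.alt := fun U =>
    ⟨tri (U.1 ×ˢ {0}) (e 0) (e 1) (e 2),
      Subgroup.subset_closure ((hMS U.1 U.2).tri_mem trivial trivial trivial d)⟩
  have hτ : ∀ U x, x ∈ U.1 ↔ (x, 0) ∈ supp (τ U).1 := by
    intro U x
    simp only [τ]
    rw [supp_tri ((hMS U.1 U.2).sec.three trivial trivial trivial d)]
    constructor
    · intro hx
      exact Or.inl (Or.inl ⟨(x, 0), ⟨hx, rfl⟩, rfl⟩)
    · rintro ((⟨z, hz, h⟩ | ⟨z, hz, h⟩) | ⟨z, hz, h⟩) <;>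
        exact (show z.1 = x from congrArg Prod.fst h) ▸ hz.1
  by_contra hfin
  rw [not_infinite_iff_finite] at hfin
  refine not_finite_iff_infinite.2 ‹Infinite Ω›
    (Finite.of_injective (fun x => {s : H.col.alt | (x, (0 : Col)) ∈ supp s.1}) fun x y h => ?_)
  by_contra hne
  obtain ⟨U, hU, hx, hy⟩ := exists_isClopen_of_totally_separated hne
  have h1 : τ ⟨U, hU⟩ ∈ {s : H.col.alt | (x, (0 : Col)) ∈ supp s.1} := (hτ ⟨U, hU⟩ x).1 hx
  have h2 : {s : H.col.alt | (x, (0 : Col)) ∈ supp s.1} =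
      {s : H.col.alt | (y, (0 : Col)) ∈ supp s.1} := h
  rw [h2] at h1
  exact hy ((hτ ⟨U, hU⟩ y).2 h1)

theorem alt_simple [Infinite Ω] (H : PG Ω) (hmin : ∀ x, Dense (H.orb x)) :
    IsSimpleGroup H.col.alt := by
  have := simple_infinite H
  refine simple_gen H.col fun x => ?_
  rw [col_orb]
  exact (hmin x.1).prod dense_univ

theorem alt_infinite [Infinite Ω] (H : PG Ω) : Infinite H.col.alt := simple_infinite H

end Vale.Agent.P196.PG
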