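import Vale.Agent.P196.Val3
import Vale.Agent.P196.GermK
import Vale.Agent.P196.GermF
import Vale.Agent.P196.GermR
import Vale.Agent.P196.KerMain
import Vale.Agent.P196.Amen2
import Vale.Agent.P196.Simple

namespace Vale.Agent.P196

open scoped symmDiff

theorem amen_full (i : ℕ) (hi : i ≤ 3) : Amen (HX i).col.full := by
  induction i with
  | zero => exact (HX_af 0).amen
  | succ i ih => exact (HX_step (by omega)).col.amen (HX_rec (by omega)) (ih (by omega))

theorem amen_alt : Amen (HX 3).col.alt :=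
  (amen_full 3 le_rfl).of_injective (Subgroup.inclusion (PG.alt_le_full _))
    (Subgroup.inclusion_injective _)

theorem fp_alt : Group.IsFinitelyPresented (HX 3).col.alt := by
  obtain ⟨Γ, _, π, z, hΓ, hz⟩ := exists_zsys
  have hk : π.ker.FG := hz.ker_fg HX _ _ 3 (fun i hi => (HX_step hi).col)
    (fun i hi => HX_kstep hi) (HX_af 3) HX_F0
  have hm : ∀ γ, π γ ∈ (HX 3).col.alt := fun γ => (hz.conj_all γ PG.one_mem_Tri).2
  refine Group.IsFinitelyPresented.of_surjective (π.codRestrict _ hm) ?_ ?_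
  · rintro ⟨g, hg⟩
    have : (HX 3).col.alt ≤ π.range := by
      refine (Subgroup.closure_le _).2 fun t ht => ⟨z t, hz.proj t ht⟩
    obtain ⟨γ, rfl⟩ := this hg
    exact ⟨γ, rfl⟩
  · rw [MonoidHom.ker_codRestrict]
    have : Group.FG π.ker := (Group.fg_iff_subgroup_fg _).2 hk
    exact Subgroup.IsFinitelyNormallyGenerated.of_FG _

theorem main : ∃ (G : Type) (_ : Group G), Infinite G ∧
    Group.IsFinitelyPresented G ∧ IsSimpleGroup G ∧
    ∀ (K : Finset G) (ε : ℝ), 0 < ε → ∃ D : Finset G, D.Nonempty ∧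
      ∀ g ∈ K, ((((fun x => g * x) '' (D : Set G)) ∆ (D : Set G)).ncard : ℝ) < ε * D.card :=
  ⟨(HX 3).col.alt, inferInstance, PG.alt_infinite _, fp_alt,
    PG.alt_simple _ (HX_minimal 3), fun K ε hε => amen_alt.folner K ε hε⟩

end Vale.Agent.P196
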