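import Vale.Agent.P196.Dat

/-! The space `X` of hierarchical tilings and the crossing maps. Definitions. -/

namespace Vale.Agent.P196

@[ext] structure X where
  D : ℕ → Dat
  h : ∀ k, D k = (D (k + 1)).ch (D k).role

instance : TopologicalSpace X := TopologicalSpace.induced X.D inferInstance

theorem Op.ok_cr (o : Op) (r ρ : Role) (h : o.ok r = true) : (o.cr r ρ).2.ok ρ = true := by
  revert o r ρ; decide

namespace X

def dat (p : X) : Dat := p.1 0
def lab (p : X) : Lab := p.dat.lab
def role (p : X) : Role := p.dat.role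
def par (p : X) : X := ⟨fun k => p.1 (k + 1), fun k => p.2 (k + 1)⟩

def cons (r : Role) (p : X) : X :=
  ⟨fun k => Nat.casesOn k (p.dat.ch r) p.1, fun k => by
    cases k with
    | zero => simp [Dat.role_ch, dat]
    | succ k => exact p.2 k⟩

/-- The point all of whose roles are `al`. -/
def aInf (η : Dart) (d : ℕ∞) : X :=
  ⟨fun _ => ⟨⊤, η, d⟩, fun _ => by
    have : Dat.role ⟨⊤, η, d⟩ = .al := Dat.role_eq_al.2 (by simp)
    simp [this, Dat.ch]⟩

/-- The letter one level up. -/
def lift (o : Op) (p : X) : Op := (o.cr p.role p.par.role).2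

/-- The letter `k` levels up. -/
def lifts (o : Op) (p : X) : ℕ → Op
  | 0 => o
  | k + 1 => (Op.cr (lifts o p k) (p.1 k).role (p.1 (k + 1)).role).2

theorem ok_lifts {o : Op} {p : X} (h : o.ok p.role = true) (k : ℕ) :
    (lifts o p k).ok (p.1 k).role = true := by
  induction k with
  | zero => exact h
  | succ k ih => exact Op.ok_cr _ _ _ ih

/-- The crossing maps (identity off the domain). -/
def ap (o : Op) (p : X) : X :=
  if h : o.ok p.role = true then
    ⟨fun k => Dat.op (lifts o p k) (p.1 k) (p.1 (k + 1)), fun k => by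
      have h1 := Dat.op_ch (lifts o p k) (p.1 k).role (p.1 (k + 1)).role (p.1 (k + 2))
        (ok_lifts h k)
      rw [← p.2 (k + 1), ← p.2 k] at h1
      have h2 := congrArg Dat.role h1
      rw [Dat.role_ch] at h2
      rw [h2]
      exact h1⟩
  else p

/-- All letters of the word are defined along the way. -/
def Valid : List Op → X → Prop
  | [], _ => True
  | o :: l, p => o.ok p.role = true ∧ Valid l (ap o p)

/-- The word one level up. -/
def liftW : List Op → X → List Op
  | [], _ => []
  | o :: l, p => lift o p :: liftW l (ap o p)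

/-- The set of points with label in `S`. -/
def labS (S : Set Lab) : Set X := {p | p.lab ∈ S}

/-- Agreement of `m` roles and of the data at level `m` up to depth `n`. -/
def Near (m n : ℕ) (p q : X) : Prop :=
  (∀ k < m, (p.1 k).role = (q.1 k).role) ∧ (p.1 m).tr n = (q.1 m).tr n

/-- The type of a letter at a point: `0` regular, `1` junction, `2` comb side, `3` comb tip. -/
def TyLe (i : ℕ) (o : Op) (p : X) : Prop :=
  (∃ k, (lifts o p k).isS = true) ∨ (1 ≤ i ∧ ∃ k, (p.1 k).c = ⊤ ∧ (p.1 k).d ≠ ⊤) ∨
    (2 ≤ i ∧ ∃ k, lifts o p k ≠ .T) ∨ 3 ≤ i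

def TyW (i : ℕ) : List Op → X → Prop
  | [], _ => True
  | o :: l, p => TyLe i o p ∧ TyW i l (ap o p)

/-- Put the address `a` (lowest role first) below `p`. -/
def consL (a : List Role) (p : X) : X := a.foldr cons p

/-- Eventually `al`, with tail data `(η, d)`. -/
def Tail (η : Dart) (d : ℕ∞) (p : X) : Prop := ∃ k, p.1 k = ⟨⊤, η, d⟩

end X

end Vale.Agent.P196
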