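import Vale.Agent.P196.ModelBasic

/-! The axioms hold in the model. -/

namespace Vale.Agent.P196

open X

namespace MAx

theorem side_opp (e : Dart) : e.opp.side = !e.side := by revert e; decide

theorem ok_side (p : X) : (Op.X p.dat.η.side).ok p.role = true := by
  have key : ∀ l : Lab, (Op.X l.2.side).ok l.role = true := by decide
  have h := key p.lab
  have h2 : p.lab.2.side = p.dat.η.side := congrArg Dart.side (Dat.th_η p.dat)
  rwa [h2] at h

theorem lab_side (p : X) : p.lab.2.side = p.dat.η.side := congrArg Dart.side (Dat.th_η p.dat)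

theorem lab_η (p : X) : p.lab.2.η = p.dat.η := Dat.th_η p.dat

theorem lab_isZ0 (p : X) : p.lab.2.isZ0 = true ↔ p.dat.d = 0 := Dat.th_isZ0 p.dat

theorem ap_sid (q : X) : ap (.S q.role q.role) q = q := by
  conv_lhs => rw [← cons_par q]
  conv_rhs => rw [← cons_par q]
  simp only [role_cons]
  exact ap_S _ _ _

theorem apT_al (q : X) : ap .T (cons .al q) = cons .al (ap .T q) := ap_cons rfl q

theorem apT_be (s : Bool) (q : X) : ap .T (cons (.be s) q) =
    cons (if (Op.crossA s q.role).1 then .be (!s) else .ga (!s)) (ap (Op.crossA s q.role).2 q) :=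
  ap_cons rfl q

theorem apT_ga (s : Bool) (q : X) : ap .T (cons (.ga s) q) =
    cons (if (Op.crossF s q.role).1 then .be (!s) else .ga (!s)) (ap (Op.crossF s q.role).2 q) :=
  ap_cons rfl q

theorem apX_al (s : Bool) (q : X) : ap (.X s) (cons .al q) =
    cons (if (Op.crossA s q.role).1 then .al else .be (!s)) (ap (Op.crossA s q.role).2 q) :=
  ap_cons rfl q

theorem apX_be (s : Bool) (q : X) : ap (.X s) (cons (.be s) q) =
    cons (if (Op.crossF s q.role).1 then .al else .be (!s)) (ap (Op.crossF s q.role).2 q) :=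
  ap_cons (by simp [Op.ok]) q

theorem apX_ga (s : Bool) (q : X) : ap (.X s) (cons (.ga s) q) = cons (.ga (!s)) q := by
  rw [ap_cons (by simp [Op.ok])]
  simp only [Op.cr, ap_sid]

theorem crossA_of_ok {s : Bool} {r : Role} (h : (Op.X s).ok r = true) :
    Op.crossA s r = (true, .X s) := by
  revert s r; decide

theorem apX_al_ok {s : Bool} {q : X} (h : (Op.X s).ok q.role = true) :
    ap (.X s) (cons .al q) = cons .al (ap (.X s) q) := by
  rw [apX_al, crossA_of_ok h]; rfl

theorem exists_cons (p : X) : ∃ r q, p = cons r q := ⟨_, _, (cons_par p).symm⟩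

theorem dat_T (p : X) : (ap .T p).dat = ⟨p.dat.c, p.dat.η.opp, p.dat.d⟩ := dat_ap rfl

theorem rT (p : X) : p.lab.RT (ap .T p).lab := by
  unfold X.lab
  rw [dat_T]
  generalize p.dat = D
  obtain ⟨c, e, d⟩ := D
  refine ⟨rfl, ?_⟩
  simp only [Dat.lab, Dat.th]
  split_ifs <;> revert e <;> decide

theorem rX {s : Bool} {p : X} (h : (Op.X s).ok p.role = true) : p.lab.RX s (ap (.X s) p).lab := by
  unfold Lab.RX
  rw [lab_side, lab_η]
  simp only [lab_isZ0]
  unfold X.lab
  rw [dat_ap h]
  generalize p.dat = D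
  generalize p.par.dat = D₁
  obtain ⟨c, e, d⟩ := D
  simp only [Dat.op]
  split_ifs with h1 h2
  · simp [Dat.lab, Dat.th]
  · refine ⟨by simp [Dat.lab], ?_⟩
    have := Dat.th_add_one (c + 1) c e (d - 1)
    rw [Dat.enat_sub_add h2] at this
    exact this.symm
  · exact Dat.th_add_one c (c - 1) e d

theorem role_of_flag {l : Lab} (h : l.1 = false) : l.role = .al := by simp [Lab.role, h]

theorem sq (p : X) (hd : p.dat.d ≠ 0) :
    ap .T (ap (.X p.dat.η.side) p) = ap (.X (!p.dat.η.side)) (ap .T p) := by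
  induction p using ind_al with
  | h0 η d =>
    change d ≠ 0 at hd
    change ap .T (ap (.X η.side) _) = ap (.X (!η.side)) _
    rw [ap_X_aInf, ap_T_aInf, ap_X_aInf, if_pos rfl, if_neg hd, ap_T_aInf, if_pos (side_opp η),
      if_neg hd]
  | h1 q ih =>
    change ap .T (ap (.X q.dat.η.side) _) = ap (.X (!q.dat.η.side)) _
    have h2 := ok_side (ap .T q)
    rw [dat_T] at h2
    simp only [side_opp] at h2
    rw [apX_al_ok (ok_side q), apT_al, apT_al, apX_al_ok h2, ih hd]
  | h2 r q hr =>
    have hz : (cons r q).lab.2.isZ0 = false := by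
      rw [← Bool.not_eq_true, lab_isZ0]; exact hd
    rw [← lab_side]
    rw [lab_cons] at hz ⊢
    have key : ∀ (r : Role) (l : Lab), r ≠ .al → (l.chl r).2.isZ0 = false →
        ∃ t, r = .be t ∧ (l.chl r).2.side = t ∧ (l.role = .al ∨ l.role = .be t) := by decide
    obtain ⟨t, rfl, h1, h2⟩ := key r q.lab hr hz
    rw [h1]
    rw [lab_role] at h2
    obtain ⟨ρ, q', rfl⟩ := exists_cons q
    rw [role_cons] at h2
    rcases h2 with rfl | rfl
    · have e1 : Op.crossF t .al = (true, .S .al (.be t)) := rfl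
      have e2 : Op.crossA t .al = (true, .X t) := rfl
      rw [apX_be, apT_be, role_cons, e1, e2]
      simp only [if_true, apT_al, ap_S, apT_be, apX_al, apX_be, role_cons]
      cases (Op.crossA t q'.role).1 <;> simp [Op.crossF, ap_S]
    · have e1 : Op.crossF t (.be t) = (true, .S (.be t) (.ga t)) := by simp [Op.crossF]
      have e2 : Op.crossA t (.be t) = (true, .X t) := by simp [Op.crossA]
      rw [apX_be, apT_be, role_cons, e1, e2]
      simp only [if_true, apT_al, ap_S, apT_ga, apX_be, role_cons]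
      cases (Op.crossF t q'.role).1 <;> simp [Op.crossF, ap_S]

theorem jw_succ (s : Bool) (m : ℕ) : jw s (m + 1) = .T :: .X (!s) :: jw s m := rfl

theorem side_top (e : Dart) : e.top.side = !e.side := by revert e; decide

theorem step_dat {p : X} (hd : p.dat.d = 0) :
    (Op.X (!p.dat.η.side)).ok (ap .T p).role = true ∧
      (ap (.X (!p.dat.η.side)) (ap .T p)).dat = ⟨p.dat.c, p.dat.η.opp.top, 0⟩ := by
  have h2 := ok_side (ap .T p)
  rw [dat_T] at h2
  simp only [side_opp] at h2
  refine ⟨h2, ?_⟩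
  rw [dat_ap h2, dat_T]
  simp [Dat.op, side_opp, hd]

theorem valid_jw (m : ℕ) {p : X} (hd : p.dat.d = 0) : Valid (jw p.dat.η.side m) p := by
  induction m generalizing p with
  | zero => trivial
  | succ m ih =>
    obtain ⟨h1, h2⟩ := step_dat hd
    refine ⟨rfl, h1, ?_⟩
    have h3 := ih (p := ap (.X (!p.dat.η.side)) (ap .T p)) (by rw [h2])
    rw [h2] at h3
    simp only [side_top, side_opp, Bool.not_not] at h3
    exact h3

theorem run_jw_al (s : Bool) (m : ℕ) {q : X} (h : Valid (jw s m) q) :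
    run ap (jw s m) (cons .al q) = cons .al (run ap (jw s m) q) := by
  induction m generalizing q with
  | zero => rfl
  | succ m ih =>
    obtain ⟨_, h1, h2⟩ := h
    rw [jw_succ, run_cons, run_cons, run_cons, run_cons, apT_al, apX_al_ok h1, ih h2]

theorem run_jw_aInf (m : ℕ) (η : Dart) :
    run ap (jw η.side m) (aInf η 0) = aInf ((fun e : Dart => e.opp.top)^[m] η) 0 := by
  induction m generalizing η with
  | zero => rfl
  | succ m ih =>
    rw [jw_succ, run_cons, run_cons, ap_T_aInf, ap_X_aInf, if_pos (side_opp η), if_pos rfl,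
      Function.iterate_succ_apply, ← ih]
    simp only [side_top, side_opp, Bool.not_not]

theorem jn (p : X) (hd : p.dat.d = 0) : run ap (jw p.dat.η.side p.dat.η.jm) p = p := by
  induction p using ind_al with
  | h0 η d =>
    change d = 0 at hd
    subst hd
    change run ap (jw η.side η.jm) _ = _
    rw [run_jw_aInf]
    congr 1
    revert η; decide
  | h1 q ih =>
    change run ap (jw q.dat.η.side q.dat.η.jm) _ = _
    rw [run_jw_al _ _ (valid_jw (p := q) _ hd), ih hd]
  | h2 r q hr =>
    have hz : (cons r q).lab.2.isZ0 = true := (lab_isZ0 _).2 hd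
    rw [← lab_η]
    rw [lab_cons] at hz ⊢
    have key : ∀ (r : Role) (l : Lab), r ≠ .al → (l.chl r).2.isZ0 = true →
        (∃ t, r = .be t ∧ ((l.role = .be (!t) ∧ (l.chl r).2.η = .bA (!t)) ∨
          (l.role = .ga t ∧ (l.chl r).2.η = .gA t t) ∨
          (l.role = .ga (!t) ∧ (l.chl r).2.η = .gA (!t) t))) ∨
        (∃ t, r = .ga t ∧ (l.chl r).2.η = l.role.Fd t) := by decide
    have h := key r q.lab hr hz
    rw [lab_role] at h
    obtain ⟨ρ, q', rfl⟩ := exists_cons q
    rw [role_cons] at h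
    clear hz hd hr
    rcases h with ⟨t, rfl, ⟨rfl, h⟩ | ⟨rfl, h⟩ | ⟨rfl, h⟩⟩ | ⟨t, rfl, h⟩
    · rw [h]
      cases t <;> simp [Dart.side, Dart.jm, jw, run, apT_be, apT_ga, apX_be, apX_ga, role_cons,
        Op.crossA, Op.crossF, ap_S]
    · rw [h]
      cases t <;> simp [Dart.side, Dart.jm, jw, run, apT_be, apT_ga, apX_be, apX_ga, role_cons,
        Op.crossA, Op.crossF, ap_S]
    · rw [h]
      cases t <;> simp [Dart.side, Dart.jm, jw, run, apT_be, apT_ga, apX_be, apX_ga, role_cons,
        Op.crossA, Op.crossF, ap_S]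
    · rw [h]
      rcases ρ with _ | u | u
      · cases t <;> simp [Role.Fd, Dart.side, Dart.jm, jw, run, apT_be, apT_ga, apX_be, apX_ga,
          role_cons, Op.crossA, Op.crossF, ap_S]
      · cases t <;> cases u <;> simp [Role.Fd, Dart.side, Dart.jm, jw, run, apT_be, apT_ga, apX_be,
          apX_ga, role_cons, Op.crossA, Op.crossF, ap_S]
      · cases t <;> cases u <;> simp [Role.Fd, Dart.side, Dart.jm, jw, run, apT_be, apT_ga, apX_be,
          apX_ga, role_cons, Op.crossA, Op.crossF, ap_S]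

theorem tyLe_S (i : ℕ) (r r' : Role) (p : X) : TyLe i (.S r r') p := Or.inl ⟨0, rfl⟩

theorem tyLe_lift {i : ℕ} {o : Op} {p : X} (h : TyLe i (lift o p) p.par) : TyLe i o p := by
  rcases h with ⟨k, h⟩ | ⟨hi, k, h⟩ | ⟨hi, k, h⟩ | h
  · exact Or.inl ⟨k + 1, by rw [lifts_succ]; exact h⟩
  · exact Or.inr (Or.inl ⟨hi, k + 1, h⟩)
  · exact Or.inr (Or.inr (Or.inl ⟨hi, k + 1, by rw [lifts_succ]; exact h⟩))
  · exact Or.inr (Or.inr (Or.inr h))

theorem tyLe_X_al (i : ℕ) (s : Bool) (q : X) (h : (Op.crossA s q.role).2.isS = true) :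
    TyLe i (.X s) (cons .al q) := by
  refine Or.inl ⟨1, ?_⟩
  rw [lifts_succ]
  change (X.lift (.X s) (cons .al q)).isS = true
  unfold X.lift
  rw [role_cons]
  exact h

theorem tyLe_X_be (i : ℕ) (s t : Bool) (q : X) : TyLe i (.X s) (cons (.be t) q) := by
  refine Or.inl ⟨1, ?_⟩
  rw [lifts_succ]
  change (X.lift (.X s) (cons (.be t) q)).isS = true
  unfold X.lift
  rw [role_cons]
  change (Op.crossF s q.role).2.isS = true
  generalize q.role = ρ
  revert s ρ; decide

end MAx

open MAx

theorem AxM.model {l : Lab} {w : List Op} {S : Set Lab} (h : AxM l w S) {p : X} (hp : p.lab = l) :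
    Valid w p ∧ (run ap w p).lab ∈ S := by
  subst hp
  cases h with
  | cod o ho => exact ⟨⟨ho, trivial⟩, ok_inv ho⟩
  | rT => exact ⟨⟨rfl, trivial⟩, MAx.rT p⟩
  | rX s hs => exact ⟨⟨hs, trivial⟩, MAx.rX hs⟩
  | sb s hs =>
    have hr : p.role = .al := role_of_flag hs
    obtain ⟨r, q, rfl⟩ := exists_cons p
    rw [role_cons] at hr
    subst hr
    refine ⟨⟨by rw [role_cons]; rfl, trivial⟩, ?_⟩
    rw [run_cons, run_nil, ap_S, lab_cons, lab_cons]
    generalize q.lab = l
    change (l.chl (.be s)).role = .be s ∧ (l.chl (.be s)).2.η = (l.chl .al).2.dA s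
    revert s l; decide
  | sg s hs =>
    rw [lab_role] at hs
    obtain ⟨r, q, rfl⟩ := exists_cons p
    rw [role_cons] at hs
    subst hs
    refine ⟨⟨by rw [role_cons]; simp [Op.ok], trivial⟩, ?_⟩
    rw [run_cons, run_nil, ap_S, lab_cons, lab_cons]
    generalize q.lab = l
    change l.chl (.ga s) = (true, .z0 (l.chl (.be s)).2.up)
    revert s l; decide

theorem AxE.model {l : Lab} {w w' : List Op} (h : AxE l w w') {p : X} (hp : p.lab = l) :
    Valid w p ∧ Valid w' p ∧ run ap w p = run ap w' p := by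
  subst hp
  cases h with
  | inv o ho => exact ⟨⟨ho, ok_inv ho, trivial⟩, trivial, ap_inv ho⟩
  | sid => exact ⟨⟨by simp [Op.ok, lab_role], trivial⟩, trivial, ap_sid p⟩
  | scomp r' r'' =>
    rw [lab_role]
    obtain ⟨r, q, rfl⟩ := exists_cons p
    simp [Valid, run, role_cons, ap_S, Op.ok]
  | sq hz =>
    have hd : p.dat.d ≠ 0 := by
      rw [Ne, ← lab_isZ0, hz]; simp
    rw [lab_side]
    have h2 := ok_side (ap .T p)
    rw [dat_T] at h2
    simp only [side_opp] at h2
    exact ⟨⟨ok_side p, rfl, trivial⟩, ⟨rfl, h2, trivial⟩, MAx.sq p hd⟩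
  | jn hz =>
    have hd := (lab_isZ0 p).1 hz
    rw [lab_side, lab_η]
    exact ⟨valid_jw _ hd, trivial, MAx.jn p hd⟩
  | v r hl hr =>
    have h1 : (ap .T p).role = r := hr _ (MAx.rT p)
    subst h1
    have key : ∀ l : Lab, l.1 = true → l.role = .be l.2.side ∨ l.role = .ga l.2.side := by decide
    have h2 := key _ hl
    rw [lab_role] at h2 ⊢
    generalize p.lab.2.side = s at h2 ⊢
    clear hr hl
    obtain ⟨r, q, rfl⟩ := exists_cons p
    rw [role_cons] at h2 ⊢
    rcases h2 with rfl | rfl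
    · simp only [Valid, run, List.foldl, apT_be, role_cons, ap_S, Role.fA, apX_al]
      cases (Op.crossA s q.role).1 <;> simp [Op.ok]
    · simp only [Valid, run, List.foldl, apT_ga, role_cons, ap_S, Role.fA, apX_be]
      cases (Op.crossF s q.role).1 <;> simp [Op.ok]
  | k s hs =>
    have hr : p.role = .al := role_of_flag hs
    obtain ⟨r, q, rfl⟩ := exists_cons p
    rw [role_cons] at hr
    subst hr
    simp [Valid, run, role_cons, ap_S, Op.ok, apX_ga]

theorem AxM.length_le {l : Lab} {w : List Op} {S : Set Lab} (h : AxM l w S) : w.length ≤ 6 := by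
  cases h <;> simp

theorem AxE.length_le {l : Lab} {w w' : List Op} (h : AxE l w w') :
    w.length ≤ 6 ∧ w'.length ≤ 6 := by
  cases h with
  | jn hz =>
    refine ⟨?_, by simp⟩
    generalize l.2.side = s
    generalize l.2.η = e
    revert s e; decide
  | _ => simp

theorem X.exp_spec {o : Op} {q : X} (h : o.ok q.role = true) :
    Valid o.exp (cons .al q) ∧ run ap o.exp (cons .al q) = cons .al (ap o q) ∧
      ∀ i, TyLe i o q → TyW i o.exp (cons .al q) := by
  cases o with
  | T =>
    refine ⟨⟨rfl, trivial⟩, apT_al q, fun i hi => ⟨tyLe_lift ?_, trivial⟩⟩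
    have : X.lift .T (cons .al q) = .T := by
      unfold X.lift
      rw [role_cons]; rfl
    rw [this]
    exact hi
  | X s =>
    refine ⟨⟨by rw [role_cons]; rfl, trivial⟩, apX_al_ok h, fun i hi => ⟨tyLe_lift ?_, trivial⟩⟩
    have : X.lift (.X s) (cons .al q) = .X s := by
      unfold X.lift
      rw [role_cons]
      change (Op.crossA s q.role).2 = _
      rw [crossA_of_ok h]
    rw [this]
    exact hi
  | S r r' =>
    obtain ⟨ρ, q', rfl⟩ := exists_cons q
    rw [role_cons] at h
    have hr : r = ρ := by simpa [Op.ok] using h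
    subst hr
    clear h
    rcases r with _ | s | s <;> rcases r' with _ | t | t <;> (try cases s) <;> (try cases t) <;>
      simp [Op.exp, Valid, TyW, run, apX_al, apX_be, role_cons, ap_S, Op.ok, Op.crossA, Op.crossF,
        tyLe_S, tyLe_X_be, tyLe_X_al, Op.isS]

end Vale.Agent.P196
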