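import Vale.Agent.P196.Model

/-! Basic facts on the model: recursion equations, words. -/

namespace Vale.Agent.P196

theorem run_nil {α : Type*} (ap : Op → α → α) (x : α) : run ap [] x = x := rfl
theorem run_cons {α : Type*} (ap : Op → α → α) (o : Op) (l : List Op) (x : α) :
    run ap (o :: l) x = run ap l (ap o x) := rfl
theorem run_append {α : Type*} (ap : Op → α → α) (l l' : List Op) (x : α) :
    run ap (l ++ l') x = run ap l' (run ap l x) := List.foldl_append

namespace X

variable {o : Op} {p q : X} {l l' : List Op} {r : Role}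

theorem par_cons (r : Role) (p : X) : (cons r p).par = p := rfl
theorem role_cons (r : Role) (p : X) : (cons r p).role = r := Dat.role_ch _ _
theorem dat_cons (r : Role) (p : X) : (cons r p).dat = p.dat.ch r := rfl
theorem lab_cons (r : Role) (p : X) : (cons r p).lab = p.lab.chl r := Dat.lab_ch _ _
theorem cons_par (p : X) : cons p.role p.par = p := by
  ext1; funext k
  cases k with
  | zero => exact (p.h 0).symm
  | succ k => rfl
theorem lab_role (p : X) : p.lab.role = p.role := rfl
theorem par_iter_D (p : X) (k j : ℕ) : (par^[k] p).D j = p.D (k + j) := by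
  induction k generalizing p with
  | zero => simp
  | succ k ih => rw [Function.iterate_succ_apply, ih, add_right_comm]; rfl
theorem ext_par (h : p.dat = q.dat) (h' : p.par = q.par) : p = q := by
  ext1; funext k
  cases k with
  | zero => exact h
  | succ k => exact congrFun (congrArg X.D h') k
theorem lifts_succ (o : Op) (p : X) (k : ℕ) : lifts o p (k + 1) = lifts (lift o p) p.par k := by
  induction k with
  | zero => rfl
  | succ k ih => rw [lifts, ih]; rfl
theorem ok_lift (h : o.ok p.role = true) : (lift o p).ok p.par.role = true :=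
  Op.ok_cr _ _ _ h
theorem dat_ap (h : o.ok p.role = true) : (ap o p).dat = Dat.op o p.dat p.par.dat := by
  simp only [ap, h, dif_pos]; rfl
theorem par_ap (h : o.ok p.role = true) : (ap o p).par = ap (lift o p) p.par := by
  simp only [ap, h, ok_lift h, dif_pos]
  ext1; funext k
  simp only [par, lifts_succ]
theorem role_ap (h : o.ok p.role = true) : (ap o p).role = (o.cr p.role p.par.role).1 := by
  have h1 := Dat.op_ch o p.role p.par.role (p.D 2) h
  have h2 : (p.D 2).ch p.par.role = p.par.dat := (p.h 1).symm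
  have h3 : p.par.dat.ch p.role = p.dat := (p.h 0).symm
  rw [h2, h3] at h1
  rw [role, dat_ap h, h1, Dat.role_ch]
theorem ap_cons (h : o.ok r = true) (q : X) :
    ap o (cons r q) = cons (o.cr r q.role).1 (ap (o.cr r q.role).2 q) := by
  have h' : o.ok (cons r q).role = true := by rwa [role_cons]
  rw [← cons_par (ap o (cons r q)), role_ap h', par_ap h', lift, role_cons, par_cons]
theorem ap_S (r r' : Role) (q : X) : ap (.S r r') (cons r q) = cons r' q := by
  have h' : (Op.S r r').ok (cons r q).role = true := by simp [role_cons, Op.ok]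
  have key : ∀ q : X, ap (.S q.role q.role) q = q := by
    intro q
    have hq : (Op.S q.role q.role).ok q.role = true := by simp [Op.ok]
    have hl : ∀ k, lifts (.S q.role q.role) q k = .S (q.D k).role (q.D k).role := by
      intro k
      induction k with
      | zero => rfl
      | succ k ih => rw [lifts, ih]; rfl
    simp only [ap, hq, dif_pos]
    ext1; funext k
    simp only [hl, Dat.op]
    exact (q.h k).symm
  rw [ap_cons (by simp [Op.ok])]
  simp only [Op.cr, key]
theorem ok_inv (h : o.ok p.role = true) : o.inv.ok (ap o p).role = true := by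
  rw [role_ap h]
  have key : ∀ (o : Op) (r ρ : Role), o.ok r = true → o.inv.ok (o.cr r ρ).1 = true := by decide
  exact key _ _ _ h
theorem cr_inv (o : Op) (r ρ ρ₂ : Role) (h : o.ok r = true) :
    o.inv.cr (o.cr r ρ).1 ((o.cr r ρ).2.cr ρ ρ₂).1 = (r, (o.cr r ρ).2.inv) := by
  revert o r ρ ρ₂; decide
theorem lift_inv (h : o.ok p.role = true) : lift o.inv (ap o p) = (lift o p).inv := by
  rw [lift, par_ap h, role_ap h, role_ap (ok_lift h), lift, cr_inv _ _ _ _ h]
theorem dat_ap_inv (h : o.ok p.role = true) : (ap o.inv (ap o p)).dat = p.dat := by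
  rw [dat_ap (ok_inv h), dat_ap h]
  cases o with
  | S a b =>
    obtain rfl : a = p.role := by simpa [Op.ok] using h
    rw [← cons_par p, role_cons, ap_S]
    rfl
  | T =>
    have key : ∀ e : Dart, e.opp.opp = e := by decide
    simp [Op.inv, Dat.op, key]
  | X s =>
    have key : ∀ e : Dart, e.top.top = e ∧ e.top.side = !e.side := by decide
    have hr : (Op.X s).ok p.dat.role = true := h
    generalize p.dat = D at hr
    obtain ⟨c, e, d⟩ := D
    by_cases hs : e.side = s
    · by_cases hd : d = 0
      · simp [Op.inv, Dat.op, hs, hd, key]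
      · simp [Op.inv, Dat.op, hs, hd, Dat.enat_add_sub, Dat.enat_sub_add hd]
    · have hc : c ≠ 0 := by
        intro hc
        rw [Dat.role_of_c hc] at hr
        have key : ∀ t : Th, ∀ s, (Op.X s).ok t.fr = true → t.η.side = s := by decide
        exact hs (by have := key _ _ hr; rwa [Dat.th_η] at this)
      have hs' : e.side = !s := by revert hs; cases e.side <;> cases s <;> simp
      simp [Op.inv, Dat.op, hs', Dat.enat_add_sub, Dat.enat_sub_add hc]
theorem ap_inv (h : o.ok p.role = true) : ap o.inv (ap o p) = p := by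
  ext1; funext k
  induction k generalizing o p with
  | zero => exact dat_ap_inv h
  | succ k ih =>
    have := ih (ok_lift h)
    rw [← lift_inv h, ← par_ap h, ← par_ap (ok_inv h)] at this
    exact this
theorem role_aInf (η : Dart) (d : ℕ∞) : (aInf η d).role = .al :=
  Dat.role_eq_al.2 (by simp [dat, aInf])
theorem par_aInf (η : Dart) (d : ℕ∞) : (aInf η d).par = aInf η d := rfl
theorem cons_aInf (η : Dart) (d : ℕ∞) : cons .al (aInf η d) = aInf η d := by
  have := cons_par (aInf η d)
  rwa [role_aInf, par_aInf] at this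
theorem eq_aInf (h : p.dat.c = ⊤) : p = aInf p.dat.η p.dat.d := by
  ext1; funext k
  have key : ∀ k, p.D k = ⟨⊤, p.dat.η, p.dat.d⟩ := by
    intro k
    induction k with
    | zero => exact Dat.ext h rfl rfl
    | succ k ih =>
      have h1 := p.h k
      have h2 : (p.D k).role = .al := Dat.role_eq_al.2 (by simp [ih])
      rw [h2, ih, Dat.ch] at h1
      simp only [Dat.mk.injEq] at h1
      refine Dat.ext ?_ h1.2.1.symm h1.2.2.symm
      have h3 := h1.1
      generalize (p.D (k + 1)).c = c at h3
      induction c using ENat.recTopCoe with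
      | top => rfl
      | coe n => norm_cast at h3
  exact key k
theorem eq_aInf_of_roles (h : ∀ k, (p.D k).role = .al) : p.dat.c = ⊤ := by
  have key : ∀ n : ℕ, p.dat.c = (p.D n).c + n := by
    intro n
    induction n with
    | zero => simp [dat]
    | succ n ih =>
      have h1 := p.h n
      rw [h n] at h1
      rw [ih, h1, Dat.ch]
      push_cast; ring
  by_contra hne
  obtain ⟨m, hm⟩ := ENat.ne_top_iff_exists.1 hne
  have := key (m + 1)
  rw [← hm] at this
  have h2 : ((m + 1 : ℕ) : ℕ∞) ≤ m := by rw [this]; exact le_add_self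
  norm_cast at h2
  omega
theorem ap_T_aInf (η : Dart) (d : ℕ∞) : ap .T (aInf η d) = aInf η.opp d := by
  have h := dat_ap (o := .T) (p := aInf η d) rfl
  rw [eq_aInf (p := ap .T (aInf η d)) (by rw [h]; rfl), h]
  rfl
theorem ap_X_aInf (s : Bool) (η : Dart) (d : ℕ∞) : ap (.X s) (aInf η d) =
    if η.side = s then (if d = 0 then aInf η.top 0 else aInf η (d - 1)) else aInf η (d + 1) := by
  have h := dat_ap (o := .X s) (p := aInf η d) (by rw [role_aInf]; rfl)
  have h1 : (aInf η d).dat = ⟨⊤, η, d⟩ := rfl
  rw [h1] at h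
  rw [eq_aInf (p := ap (.X s) (aInf η d)) (by rw [h, Dat.op]; split_ifs <;> simp), h, Dat.op]
  split_ifs <;> rfl
/-- Induction along the chain of `al` roles. -/
theorem ind_al {P : X → Prop} (h0 : ∀ η d, P (aInf η d)) (h1 : ∀ q, P q → P (cons .al q))
    (h2 : ∀ r q, r ≠ .al → P (cons r q)) (p : X) : P p := by
  by_cases h : ∀ k, (p.D k).role = .al
  · rw [eq_aInf (eq_aInf_of_roles h)]; exact h0 _ _
  · push Not at h
    obtain ⟨k, hk⟩ := h
    induction k generalizing p with
    | zero => rw [← cons_par p]; exact h2 _ _ hk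
    | succ k ih =>
      by_cases hr : p.role = .al
      · rw [← cons_par p, hr]; exact h1 _ (ih p.par hk)
      · rw [← cons_par p]; exact h2 _ _ hr

theorem valid_append : Valid (l ++ l') p ↔ Valid l p ∧ Valid l' (run ap l p) := by
  induction l generalizing p with
  | nil => simp [Valid, run_nil]
  | cons o l ih => simp [Valid, run_cons, ih, and_assoc]
theorem invW_cons (o : Op) (l : List Op) : invW (o :: l) = invW l ++ [o.inv] := by simp [invW]
theorem Valid.run_inv (h : Valid l p) : run ap (invW l) (run ap l p) = p := by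
  induction l generalizing p with
  | nil => rfl
  | cons o l ih => rw [invW_cons, run_append, run_cons ap o, ih h.2]; exact ap_inv h.1
theorem Valid.inv (h : Valid l p) : Valid (invW l) (run ap l p) := by
  induction l generalizing p with
  | nil => trivial
  | cons o l ih =>
    rw [invW_cons, valid_append, run_cons, h.2.run_inv]
    exact ⟨ih h.2, ok_inv h.1, trivial⟩
theorem Valid.lift (h : Valid l p) : Valid (liftW l p) p.par := by
  induction l generalizing p with
  | nil => trivial
  | cons o l ih => exact ⟨ok_lift h.1, by rw [← par_ap h.1]; exact ih h.2⟩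
theorem Valid.par_run (h : Valid l p) : (run ap l p).par = run ap (X.liftW l p) p.par := by
  induction l generalizing p with
  | nil => rfl
  | cons o l ih => rw [run_cons, ih h.2, par_ap h.1]; rfl
theorem injOn_run (l : List Op) : Set.InjOn (run ap l) {p | Valid l p} := by
  intro p hp q hq h
  rw [← Valid.run_inv hp, h, Valid.run_inv hq]

theorem Near.refl (m n : ℕ) (p : X) : Near m n p p := ⟨fun _ _ => rfl, rfl⟩
theorem Near.symm {m n : ℕ} (h : Near m n p q) : Near m n q p :=
  ⟨fun k hk => (h.1 k hk).symm, h.2.symm⟩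
theorem Near.trans {m n : ℕ} {p' : X} (h : Near m n p q) (h' : Near m n q p') : Near m n p p' :=
  ⟨fun k hk => (h.1 k hk).trans (h'.1 k hk), h.2.trans h'.2⟩
theorem min_add_min (c k : ℕ∞) (n : ℕ) : min (min c n + k) n = min (c + k) (n : ℕ∞) := by
  rcases le_total c n with h | h
  · rw [min_eq_left h]
  · rw [min_eq_right h, min_eq_right le_self_add, min_eq_right (h.trans le_self_add)]
theorem min_eq_small {c c' k : ℕ∞} {n : ℕ} (h : min c n = min c' (n : ℕ∞)) (hk : k < n) :
    c = k ↔ c' = k := by
  have key : ∀ c : ℕ∞, c = k ↔ min c n = k := by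
    intro c
    rcases le_total c n with h | h
    · rw [min_eq_left h]
    · rw [min_eq_right h]
      exact ⟨fun h' => absurd (h' ▸ h) (not_le.2 hk), fun h' => absurd h' hk.ne'⟩
  rw [key c, key c', h]
theorem tr_mono {n n' : ℕ} {D D' : Dat} (hn : n ≤ n') (h : D.tr n' = D'.tr n') :
    D.tr n = D'.tr n := by
  simp only [Dat.tr, Dat.mk.injEq] at h ⊢
  have key : ∀ c : ℕ∞, min c n = min (min c n') (n : ℕ∞) := by
    intro c; rw [min_assoc, min_eq_right (a := (n' : ℕ∞)) (by exact_mod_cast hn)]
  exact ⟨by rw [key, h.1, ← key], h.2.1, by rw [key, h.2.2, ← key]⟩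
theorem th_of_tr {n : ℕ} {D D' : Dat} (h2 : 2 ≤ n) (h : D.tr n = D'.tr n) : D.th = D'.th := by
  simp only [Dat.tr, Dat.mk.injEq] at h
  have h0 : (0 : ℕ∞) < n := by exact_mod_cast (by omega : 0 < n)
  have h1 : (1 : ℕ∞) < n := by exact_mod_cast (by omega : 1 < n)
  simp only [Dat.th, min_eq_small h.2.2 h0, min_eq_small h.2.2 h1, h.2.1]
theorem lab_of_tr {n : ℕ} {D D' : Dat} (h2 : 2 ≤ n) (h : D.tr n = D'.tr n) : D.lab = D'.lab := by
  have h3 := th_of_tr h2 h
  simp only [Dat.tr, Dat.mk.injEq] at h
  have h0 : (0 : ℕ∞) < n := by exact_mod_cast (by omega : 0 < n)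
  simp only [Dat.lab, min_eq_small h.1 h0, h3]
theorem tr_ch {n : ℕ} {D D' : Dat} (h2 : 2 ≤ n) (r : Role) (h : D.tr n = D'.tr n) :
    (D.ch r).tr n = (D'.ch r).tr n := by
  have h3 := th_of_tr h2 h
  have h4 : D.role = D'.role := congrArg Lab.role (lab_of_tr h2 h)
  simp only [Dat.tr, Dat.mk.injEq] at h
  cases r with
  | al =>
    simp only [Dat.tr, Dat.ch, Dat.mk.injEq]
    exact ⟨by rw [← min_add_min, h.1, min_add_min], h.2⟩
  | be s =>
    simp only [Dat.tr, Dat.ch, Dat.mk.injEq, h3, true_and]
    rw [← min_add_min, h.1, min_add_min]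
  | ga s => simp only [Dat.ch, h4]
theorem Near.mono {m n m' n' : ℕ} (hm : m ≤ m') (hn : n ≤ n') (h2 : 2 ≤ n')
    (h : Near m' n' p q) : Near m n p q := by
  induction hm with
  | refl => exact ⟨h.1, tr_mono hn h.2⟩
  | @step k _ ih =>
    refine ih ⟨fun j hj => h.1 j (by omega), ?_⟩
    rw [p.h k, q.h k, h.1 k (by omega)]
    exact tr_ch h2 _ h.2
theorem near_succ {m n : ℕ} :
    Near (m + 1) n p q ↔ p.role = q.role ∧ Near m n p.par q.par := by
  constructor
  · intro h
    exact ⟨h.1 0 (by omega), fun k hk => h.1 (k + 1) (by omega), h.2⟩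
  · rintro ⟨h0, h1, h2⟩
    refine ⟨fun k hk => ?_, h2⟩
    cases k with
    | zero => exact h0
    | succ k => exact h1 k (by omega)
theorem Near.lab_eq {m n : ℕ} (h2 : 2 ≤ n) (h : Near m n p q) : p.lab = q.lab :=
  lab_of_tr h2 (h.mono (Nat.zero_le _) le_rfl h2).2
theorem finite_near (m n : ℕ) : ∃ F : Finset X, ∀ p, ∃ q ∈ F, Near m n q p := by
  classical
  let f : X → (Fin m → Role) × Fin (n + 1) × Dart × Fin (n + 1) := fun p =>
    (fun k => (p.D k).role, ⟨(min (p.D m).c n).toNat, Nat.lt_succ_of_le
      (ENat.toNat_le_of_le_coe (min_le_right _ _))⟩, (p.D m).η,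
      ⟨(min (p.D m).d n).toNat, Nat.lt_succ_of_le (ENat.toNat_le_of_le_coe (min_le_right _ _))⟩)
  have hf : ∀ p q, f p = f q → Near m n p q := by
    intro p q h
    simp only [f, Prod.mk.injEq, Fin.mk.injEq] at h
    have key : ∀ a b : ℕ∞, (min a n).toNat = (min b n).toNat → min a n = min b (n : ℕ∞) := by
      intro a b hab
      have h1 : ∀ a : ℕ∞, min a (n : ℕ∞) ≠ ⊤ := fun a =>
        ne_top_of_le_ne_top (ENat.coe_ne_top n) (min_le_right _ _)
      rw [← ENat.coe_toNat (h1 a), ← ENat.coe_toNat (h1 b), hab]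
    exact ⟨fun k hk => congrFun h.1 ⟨k, hk⟩, Dat.ext (key _ _ h.2.1) h.2.2.1 (key _ _ h.2.2.2)⟩
  refine ⟨((Set.toFinite (Set.range f)).toFinset.image fun y =>
    if h : ∃ p, f p = y then h.choose else aInf (.aF true) 0), fun p => ?_⟩
  have hp : ∃ q, f q = f p := ⟨p, rfl⟩
  refine ⟨hp.choose, ?_, hf _ _ hp.choose_spec⟩
  simp only [Finset.mem_image, Set.Finite.mem_toFinset]
  exact ⟨f p, ⟨p, rfl⟩, by rw [dif_pos hp]⟩

theorem consL_nil (p : X) : consL [] p = p := rfl
theorem consL_cons (r : Role) (a : List Role) (p : X) : consL (r :: a) p = cons r (consL a p) := rfl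
theorem consL_append (a b : List Role) (p : X) : consL (a ++ b) p = consL a (consL b p) :=
  List.foldr_append
theorem dat_consL_al (c : ℕ) (p : X) :
    (consL (List.replicate c .al) p).dat = ⟨p.dat.c + c, p.dat.η, p.dat.d⟩ := by
  induction c with
  | zero => simp [consL_nil]
  | succ c ih =>
    rw [List.replicate_succ, consL_cons, dat_cons, ih, Dat.ch]
    simp [add_assoc]
theorem par_iter_consL (a : List Role) (p : X) : par^[a.length] (consL a p) = p := by
  induction a with
  | nil => rfl
  | cons r a ih => rw [List.length_cons, Function.iterate_succ_apply, consL_cons, par_cons, ih]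
theorem consL_addr (k : ℕ) (p : X) :
    consL ((List.range k).map fun i => (p.D i).role) (par^[k] p) = p := by
  induction k generalizing p with
  | zero => rfl
  | succ k ih =>
    rw [List.range_succ_eq_map, List.map_cons, List.map_map, consL_cons,
      Function.iterate_succ_apply]
    have := ih p.par
    exact (congrArg (cons p.role) this).trans (cons_par p)

theorem exists_addr0 (d : ℕ) (η : Dart) : ∃ a : List Role, ∀ p, (consL a p).dat = ⟨0, η, d⟩ := by
  have hA : ∀ (s : Bool) (ρ : Role) (k : ℕ) (p : X), ρ ≠ .al →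
      (consL (.be s :: (List.replicate k .al ++ [ρ])) p).dat =
        ⟨0, (p.dat.ch ρ).th.dA s, k + if ρ = .be s then 1 else 0⟩ := by
    intro s ρ k p hρ
    obtain ⟨hc, hf⟩ := Dat.ch_ne_al hρ p.dat
    rw [consL_cons, consL_append, dat_cons, dat_consL_al, consL_cons, consL_nil, dat_cons, hc]
    have h3 : Dat.th ⟨0 + k, (p.dat.ch ρ).η, (p.dat.ch ρ).d⟩ = (p.dat.ch ρ).th := rfl
    rw [Dat.ch, h3, hf, zero_add]
  by_cases hk : η.kF = true
  · have he : η.role.Fd η.side = η := by revert η; decide
    cases d with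
    | zero =>
      refine ⟨[.ga η.side, η.role], fun p => ?_⟩
      rw [consL_cons, consL_cons, consL_nil, dat_cons, dat_cons, Dat.ch, Dat.role_ch, he]; rfl
    | succ d =>
      refine ⟨(.be η.side :: (List.replicate d .al ++ [.be η.side])) ++ [η.role], fun p => ?_⟩
      rw [consL_append, hA _ _ _ _ (by simp), consL_cons, consL_nil, dat_cons]
      have hu := Dat.up_ch η.side (p.dat.ch η.role)
      have hs : ((p.dat.ch η.role).ch (.be η.side)).th.side = η.side := by
        rw [Th.side, Dat.th_η]; exact Dat.side_dA _ _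
      rw [Th.dA, hs, if_pos rfl, hu, Dat.role_ch, he]
      simp
  · have key : ∀ η : Dart, ¬ η.kF = true → η.role ≠ .al ∧ η.role ≠ .be η.side ∧
        ∀ t : Th, t.fr = η.role → t.dA η.side = η := by decide
    obtain ⟨h1, h2, h3⟩ := key η hk
    refine ⟨.be η.side :: (List.replicate d .al ++ [η.role]), fun p => ?_⟩
    rw [hA _ _ _ _ h1, h3 _ (Dat.ch_ne_al h1 _).2, if_neg h2, add_zero]

/-- Every finite datum is forced by a finite address. -/
theorem exists_addr (c d : ℕ) (η : Dart) : ∃ a : List Role, ∀ p, (consL a p).dat = ⟨c, η, d⟩ := by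
  obtain ⟨a, ha⟩ := exists_addr0 d η
  refine ⟨List.replicate c .al ++ a, fun p => ?_⟩
  rw [consL_append, dat_consL_al, ha, zero_add]
theorem exists_lab (l : Lab) : ∃ p : X, p.lab = l := by
  obtain ⟨f, t⟩ := l
  have key : ∀ t : Th, t = .z0 t.η ∨ t = Th.one t.η ∨ t = .z2 t.η := by decide
  have h : ∃ d : ℕ, ∀ c, Dat.th ⟨c, t.η, d⟩ = t := by
    rcases key t with h | h | h
    · exact ⟨0, fun _ => by simp [Dat.th, ← h]⟩
    · exact ⟨1, fun _ => by simp [Dat.th, ← h]⟩
    · exact ⟨2, fun _ => by simp [Dat.th, ← h]⟩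
  obtain ⟨d, hd⟩ := h
  obtain ⟨a, ha⟩ := exists_addr (if f then 0 else 1) d t.η
  refine ⟨consL a (aInf t.η 0), ?_⟩
  rw [lab, ha, Dat.lab, hd]
  cases f <;> simp
theorem near_consL (a : List Role) {n : ℕ} {p q : X} (h : p.dat.tr n = q.dat.tr n) :
    Near a.length n (consL a p) (consL a q) := by
  induction a with
  | nil => exact ⟨fun _ hk => absurd hk (Nat.not_lt_zero _), h⟩
  | cons r a ih =>
    rw [List.length_cons, near_succ]
    exact ⟨by rw [consL_cons, consL_cons, role_cons, role_cons], ih⟩
theorem exists_addr_near (n : ℕ) (y : X) : ∃ a : List Role, ∀ p, Near n n y (consL a p) := by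
  obtain ⟨b, hb⟩ := exists_addr (min (y.D n).c n).toNat (min (y.D n).d n).toNat (y.D n).η
  refine ⟨((List.range n).map fun i => (y.D i).role) ++ b, fun p => ?_⟩
  have h1 : ∀ a : ℕ∞, min a (n : ℕ∞) ≠ ⊤ := fun a =>
    ne_top_of_le_ne_top (ENat.coe_ne_top n) (min_le_right _ _)
  have := near_consL ((List.range n).map fun i => (y.D i).role) (n := n) (p := par^[n] y)
    (q := consL b p) (by
      rw [hb, dat, par_iter_D, ENat.coe_toNat (h1 _), ENat.coe_toNat (h1 _)]
      simp [Dat.tr])
  rw [consL_addr] at this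
  simpa [consL_append] using this

end X

end Vale.Agent.P196
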