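import Vale.Agent.P196.Track
import Vale.Agent.P196.ModelAx

/-! Normal forms of closed words at the points all of whose roles are `al`. -/

namespace Vale.Agent.P196

open X

variable {p : X} {l l' : List Op}

/-- The word `j` levels up. -/
def X.liftWs : ℕ → List Op → X → List Op
  | 0, l, _ => l
  | j + 1, l, p => X.liftWs j (liftW l p) p.par

theorem Rw.refl (p : X) (l : List Op) : Rw p l l := fun _ _ _ => ⟨0, fun _ _ => rfl⟩
theorem Rw.symm (h : Rw p l l') : Rw p l' l := fun W 𝕋 k =>
  (h W 𝕋 k).imp fun _ hN v hv => (hN v hv).symm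
theorem Rw.trans {l'' : List Op} (h : Rw p l l') (h' : Rw p l' l'') : Rw p l l'' := by
  intro W 𝕋 k
  obtain ⟨N, hN⟩ := h W 𝕋 k
  obtain ⟨N', hN'⟩ := h' W 𝕋 k
  exact ⟨N + N' + 2, fun v hv => (hN v (hv.mono (by omega) (by omega) (by omega))).trans
    (hN' v (hv.mono (by omega) (by omega) (by omega)))⟩
theorem Rw.append_right (h : Rw p l l') (a : List Op) : Rw p (l ++ a) (l' ++ a) :=
  fun W 𝕋 k => (h W 𝕋 k).imp fun _ hN v hv => by rw [run_append, run_append, hN v hv]
theorem Rw.append_left {a : List Op} (ha : Valid a p) (h : Rw (run ap a p) l l') :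
    Rw p (a ++ l) (a ++ l') := by
  intro W 𝕋 k
  obtain ⟨N, hN⟩ := h W 𝕋 k
  refine ⟨N + 2 + a.length, fun v hv => ?_⟩
  rw [run_append, run_append]
  exact hN _ ((Tower.SatP.track_run ha (by omega) hv).2.mono (by omega) (by omega) (by omega))

namespace NF0

/-- The letters `T`, `X s` and the trivial change of role. -/
def Good (l : List Op) : Prop := ∀ o ∈ l, o = .T ∨ (∃ s, o = .X s) ∨ o = .S .al .al

/-- Equal in every tower near `p`, and at `p`. -/
def RE (p : X) (l l' : List Op) : Prop := Rw p l l' ∧ run ap l p = run ap l' p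

theorem RE.refl (p : X) (l : List Op) : RE p l l := ⟨Rw.refl p l, rfl⟩

theorem RE.of_eq (h : l = l') : RE p l l' := h ▸ RE.refl p l

theorem RE.symm (h : RE p l l') : RE p l' l := ⟨h.1.symm, h.2.symm⟩

theorem RE.trans {l'' : List Op} (h : RE p l l') (h' : RE p l' l'') : RE p l l'' :=
  ⟨h.1.trans h'.1, h.2.trans h'.2⟩

theorem RE.right (h : RE p l l') (b : List Op) : RE p (l ++ b) (l' ++ b) :=
  ⟨h.1.append_right b, by rw [run_append, run_append, h.2]⟩

theorem RE.left {a : List Op} (ha : Valid a p) (h : RE (run ap a p) l l') :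
    RE p (a ++ l) (a ++ l') :=
  ⟨h.1.append_left ha, by rw [run_append, run_append, h.2]⟩

theorem re_inv {o : Op} (ho : o.ok p.role = true) : RE p [o, o.inv] [] :=
  ⟨fun _ 𝕋 _ => ⟨2, fun _ hv => 𝕋.inv (𝕋.mono (by rintro _ rfl; exact ho) (hv.lab le_rfl))⟩,
    ap_inv ho⟩

theorem re_sid (p : X) : RE p [.S p.role p.role] [] :=
  ⟨fun _ 𝕋 _ => ⟨2, fun _ hv => 𝕋.sid (𝕋.mono (by rintro _ rfl; rfl) (hv.lab le_rfl))⟩,
    MAx.ap_sid p⟩

theorem re_sq (p : X) (hd : p.dat.d ≠ 0) :
    RE p [.X p.dat.η.side, .T] [.T, .X (!p.dat.η.side)] := by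
  refine ⟨fun _ 𝕋 _ => ⟨2, fun _ hv => 𝕋.sq (𝕋.mono ?_ (hv.lab le_rfl))⟩, MAx.sq p hd⟩
  rintro _ rfl
  refine ⟨MAx.lab_side p, ?_⟩
  rw [← Bool.not_eq_true, MAx.lab_isZ0]
  exact hd

theorem re_jn (η : Dart) : RE (aInf η 0) (jw η.side η.jm) [] := by
  refine ⟨fun _ 𝕋 _ => ⟨2, fun _ hv => 𝕋.jn (𝕋.mono ?_ (hv.lab le_rfl))⟩, MAx.jn (aInf η 0) rfl⟩
  rintro _ rfl
  rfl

theorem re_cancel {a : List Op} (ha : Valid a p) : RE p (a ++ invW a) [] := by
  induction a generalizing p with
  | nil => exact RE.refl _ _
  | cons o a ih =>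
    have h1 : o :: a ++ invW (o :: a) = [o] ++ (a ++ invW a) ++ [o.inv] := by simp [invW]
    rw [h1]
    exact ((RE.left (a := [o]) ⟨ha.1, trivial⟩ (ih ha.2)).right [o.inv]).trans (re_inv ha.1)

theorem good_step {o : Op} (ho : o = .T ∨ (∃ s, o = .X s) ∨ o = .S .al .al) (η : Dart) (d : ℕ∞) :
    o.ok (aInf η d).role = true ∧ ∃ η' d', ap o (aInf η d) = aInf η' d' := by
  rw [role_aInf]
  rcases ho with rfl | ⟨s, rfl⟩ | rfl
  · exact ⟨rfl, _, _, ap_T_aInf η d⟩
  · refine ⟨rfl, ?_⟩
    rw [ap_X_aInf]
    split_ifs <;> exact ⟨_, _, rfl⟩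
  · refine ⟨rfl, η, d, ?_⟩
    have := MAx.ap_sid (aInf η d)
    rwa [role_aInf] at this

theorem Good.valid {a : List Op} (ha : Good a) (η : Dart) (d : ℕ∞) :
    Valid a (aInf η d) ∧ ∃ η' d', run ap a (aInf η d) = aInf η' d' := by
  induction a generalizing η d with
  | nil => exact ⟨trivial, η, d, rfl⟩
  | cons o a ih =>
    obtain ⟨h1, η', d', h2⟩ := good_step (ha o List.mem_cons_self) η d
    obtain ⟨h3, h4⟩ := ih (fun o' ho' => ha o' (List.mem_cons_of_mem _ ho')) η' d'
    rw [run_cons, h2]
    exact ⟨⟨h1, h2 ▸ h3⟩, h4⟩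

theorem Good.append {a b : List Op} (ha : Good a) (hb : Good b) : Good (a ++ b) := fun o ho =>
  (List.mem_append.1 ho).elim (ha o) (hb o)

theorem good_rep (j : ℕ) (s : Bool) : Good (List.replicate j (.X s)) := fun _ ho =>
  Or.inr (Or.inl ⟨s, List.eq_of_mem_replicate ho⟩)

theorem good_T : Good [.T] := fun _ ho => Or.inl (List.mem_singleton.1 ho)

theorem good_jw (s : Bool) (n : ℕ) : Good (jw s n) := by
  induction n with
  | zero => exact fun _ ho => absurd ho List.not_mem_nil
  | succ n ih => exact good_T.append ((good_rep 1 (!s)).append ih)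

theorem jw_add (s : Bool) (m n : ℕ) : jw s (m + n) = jw s m ++ jw s n := by
  simp only [jw, List.replicate_add, List.flatten_append]

/-- Cancel a letter and its inverse after a good word. -/
theorem re_cancel_end {a : List Op} (ha : Good a) {o : Op}
    (ho : o = .T ∨ (∃ s, o = .X s) ∨ o = .S .al .al) (η : Dart) (d : ℕ∞) :
    RE (aInf η d) (a ++ [o, o.inv]) a := by
  obtain ⟨h1, η', d', h2⟩ := ha.valid η d
  have := RE.left h1 (l := [o, o.inv]) (l' := []) (h2 ▸ re_inv (good_step ho η' d').1)
  rwa [List.append_nil] at this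

theorem re_sid_end {a : List Op} (ha : Good a) (η : Dart) (d : ℕ∞) :
    RE (aInf η d) (a ++ [.S .al .al]) a := by
  obtain ⟨h1, η', d', h2⟩ := ha.valid η d
  have h3 := re_sid (aInf η' d')
  rw [role_aInf] at h3
  have := RE.left h1 (l := [.S .al .al]) (l' := []) (h2 ▸ h3)
  rwa [List.append_nil] at this

theorem re_comm {η : Dart} {d : ℕ∞} {t : Bool} (h : η.side = t → d ≠ 0) :
    RE (aInf η d) [.X t, .T] [.T, .X (!t)] := by
  by_cases ht : η.side = t
  · subst ht
    exact re_sq (aInf η d) (h rfl)
  · have hs : η.side = !t := by revert ht; cases η.side <;> cases t <;> simp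
    have h1 : RE (aInf η d) ([.X t, .T] ++ [.X t, .X (!t)]) [.X t, .T] :=
      re_cancel_end ((good_rep 1 t).append good_T) (Or.inr (Or.inl ⟨t, rfl⟩)) η d
    have h2 : RE (run ap [.X t] (aInf η d)) [.X (!t), .T] [.T, .X t] := by
      rw [run_cons, run_nil, ap_X_aInf, if_neg ht]
      have := re_sq (aInf η (d + 1)) (by change d + 1 ≠ 0; simp)
      change RE _ [.X η.side, .T] [.T, .X (!η.side)] at this
      rwa [hs, Bool.not_not] at this
    have h3 := (RE.left ((good_rep 1 t).valid η d).1 h2).right [.X (!t)]
    have h4 := (re_inv (o := .X t) (good_step (Or.inr (Or.inl ⟨t, rfl⟩)) η d).1).right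
      [.T, .X (!t)]
    exact h1.symm.trans (h3.symm.trans h4)

theorem re_comm_rep (j : ℕ) {η : Dart} {d : ℕ∞} {t : Bool} (h : η.side ≠ t ∨ d = ⊤) :
    RE (aInf η d) (List.replicate j (.X t) ++ [.T]) (.T :: List.replicate j (.X (!t))) := by
  induction j generalizing d with
  | zero => exact RE.refl _ _
  | succ j ih =>
    have h1 : RE (run ap [.X t] (aInf η d)) (List.replicate j (.X t) ++ [.T])
        (.T :: List.replicate j (.X (!t))) := by
      rw [run_cons, run_nil, ap_X_aInf]
      rcases h with h | rfl
      · rw [if_neg h]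
        exact ih (Or.inl h)
      · split_ifs with h1 h2
        · simp at h2
        · exact ih (Or.inr rfl)
        · exact ih (Or.inr rfl)
    have h2 := RE.left ((good_rep 1 t).valid η d).1 h1
    have h3 := (re_comm (η := η) (d := d) (t := t) (by
      rcases h with h | rfl
      · exact fun h' => absurd h' h
      · simp)).right (List.replicate j (.X (!t)))
    exact h2.trans h3

theorem side_iter (n : ℕ) (η : Dart) : ((fun e : Dart => e.opp.top)^[n] η).side = η.side := by
  induction n generalizing η with
  | zero => rfl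
  | succ n ih =>
    rw [Function.iterate_succ_apply, ih, MAx.side_top, MAx.side_opp, Bool.not_not]

theorem run_low (j : ℕ) {η : Dart} {t : Bool} (h : η.side ≠ t) (d : ℕ∞) :
    run ap (List.replicate j (.X t)) (aInf η d) = aInf η (d + j) := by
  induction j generalizing d with
  | zero => simp [run]
  | succ j ih =>
    rw [List.replicate_succ, run_cons, ap_X_aInf, if_neg h, ih]
    congr 1
    push_cast
    ring

theorem run_up (j : ℕ) (η : Dart) :
    run ap (List.replicate j (.X η.side)) (aInf η j) = aInf η 0 := by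
  induction j with
  | zero => rfl
  | succ j ih =>
    rw [List.replicate_succ, run_cons, ap_X_aInf, if_pos rfl, if_neg (by simp)]
    push_cast
    rw [Dat.enat_add_sub, ih]

theorem run_top (j : ℕ) (η : Dart) (t : Bool) :
    run ap (List.replicate j (.X t)) (aInf η ⊤) = aInf η ⊤ := by
  induction j with
  | zero => rfl
  | succ j ih =>
    rw [List.replicate_succ, run_cons, ap_X_aInf]
    split_ifs with h1 h2
    · simp at h2
    · exact ih
    · exact ih

theorem aInf_inj {η η' : Dart} {d d' : ℕ∞} (h : aInf η d = aInf η' d') : η = η' ∧ d = d' :=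
  ⟨congrArg (fun p : X => p.dat.η) h, congrArg (fun p : X => p.dat.d) h⟩

theorem re_jw_add (η : Dart) (n : ℕ) : RE (aInf η 0) (jw η.side (η.jm + n)) (jw η.side n) := by
  rw [jw_add]
  exact (re_jn η).right _

theorem one_le_jm (η : Dart) : 1 ≤ η.jm := by revert η; decide

theorem nf_zero (η : Dart) {w : List Op} (hw : Good w) :
    ∃ n j, RE (aInf η 0) w (jw η.side n ++ List.replicate j (.X (!η.side))) ∨
      RE (aInf η 0) w (jw η.side n ++ [.T] ++ List.replicate j (.X η.side)) := by
  induction w using List.reverseRecOn with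
  | nil => exact ⟨0, 0, Or.inl (RE.refl _ _)⟩
  | append_singleton w o ih =>
    obtain ⟨n, j, h⟩ := ih fun o' ho' => hw o' (List.mem_append_left _ ho')
    have hv := ((good_jw η.side n).valid η 0).1
    have hr := MAx.run_jw_aInf n η
    have hs := side_iter n η
    rcases h with h | h
    · rcases hw o (by simp) with rfl | ⟨t, rfl⟩ | rfl
      · refine ⟨n, j, Or.inr ((h.right _).trans ?_)⟩
        rw [List.append_assoc, List.append_assoc]
        refine RE.left hv ?_
        rw [hr]
        have := re_comm_rep j (η := (fun e : Dart => e.opp.top)^[n] η) (d := 0) (t := !η.side)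
          (Or.inl (by rw [hs]; simp))
        rwa [Bool.not_not] at this
      · by_cases ht : t = η.side
        · subst ht
          cases j with
          | succ j =>
            refine ⟨n, j, Or.inl ((h.right _).trans ?_)⟩
            have := re_cancel_end ((good_jw η.side n).append (good_rep j (!η.side)))
              (o := .X (!η.side)) (Or.inr (Or.inl ⟨_, rfl⟩)) η 0
            simp only [Op.inv, Bool.not_not] at this
            refine (RE.of_eq ?_).trans this
            simp [List.replicate_succ']
          | zero =>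
            obtain ⟨m, hm⟩ : ∃ m, η.jm + n = m + 1 :=
              ⟨η.jm + n - 1, by have := one_le_jm η; omega⟩
            refine ⟨m, 0, Or.inr ((h.right _).trans ?_)⟩
            have h1 := ((re_jw_add η n).symm.right [.X η.side])
            rw [hm, jw_add] at h1
            have := re_cancel_end ((good_jw η.side m).append good_T)
              (o := .X (!η.side)) (Or.inr (Or.inl ⟨_, rfl⟩)) η 0
            simp only [Op.inv, Bool.not_not] at this
            simp only [List.replicate_zero, List.append_nil]
            refine h1.trans ((RE.of_eq ?_).trans this)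
            simp [jw]
        · have ht' : t = !η.side := by revert ht; cases η.side <;> cases t <;> simp
          subst ht'
          refine ⟨n, j + 1, Or.inl ((h.right _).trans (RE.of_eq ?_))⟩
          simp [List.replicate_succ']
      · exact ⟨n, j, Or.inl ((h.right _).trans
          (re_sid_end ((good_jw η.side n).append (good_rep j _)) η 0))⟩
    · rcases hw o (by simp) with rfl | ⟨t, rfl⟩ | rfl
      · refine ⟨n, j, Or.inl ((h.right _).trans ?_)⟩
        have h1 : RE (aInf η 0) (jw η.side n ++ [.T] ++ (List.replicate j (.X η.side) ++ [.T]))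
            (jw η.side n ++ [.T] ++ (.T :: List.replicate j (.X (!η.side)))) := by
          refine RE.left (((good_jw η.side n).append good_T).valid η 0).1 ?_
          rw [run_append, hr, run_cons, run_nil, ap_T_aInf]
          exact re_comm_rep j (Or.inl (by rw [MAx.side_opp, hs]; simp))
        have h2 := (re_cancel_end (good_jw η.side n) (o := .T) (Or.inl rfl) η 0).right
          (List.replicate j (.X (!η.side)))
        refine (RE.of_eq (by simp)).trans (h1.trans ((RE.of_eq ?_).trans h2))
        simp [Op.inv]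
      · by_cases ht : t = η.side
        · subst ht
          refine ⟨n, j + 1, Or.inr ((h.right _).trans (RE.of_eq ?_))⟩
          simp [List.replicate_succ']
        · have ht' : t = !η.side := by revert ht; cases η.side <;> cases t <;> simp
          subst ht'
          cases j with
          | succ j =>
            refine ⟨n, j, Or.inr ((h.right _).trans ?_)⟩
            have := re_cancel_end (((good_jw η.side n).append good_T).append (good_rep j η.side))
              (o := .X η.side) (Or.inr (Or.inl ⟨_, rfl⟩)) η 0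
            refine (RE.of_eq ?_).trans this
            simp [List.replicate_succ', Op.inv]
          | zero =>
            refine ⟨n + 1, 0, Or.inl ((h.right _).trans (RE.of_eq ?_))⟩
            rw [jw_add]
            simp [jw]
      · exact ⟨n, j, Or.inr ((h.right _).trans
          (re_sid_end (((good_jw η.side n).append good_T).append (good_rep j _)) η 0))⟩

theorem re_jw_closed (η : Dart) (n : ℕ) (h : (fun e : Dart => e.opp.top)^[n] η = η) :
    RE (aInf η 0) (jw η.side n) [] := by
  induction n using Nat.strong_induction_on with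
  | _ n ih =>
    have key : ∀ η : Dart, 1 ≤ η.jm ∧ η.jm ≤ 3 ∧ (fun e : Dart => e.opp.top)^[η.jm] η = η ∧
        ∀ r : Fin 3, r.1 < η.jm → (fun e : Dart => e.opp.top)^[r.1] η = η → r.1 = 0 := by decide
    obtain ⟨k1, k2, k3, k4⟩ := key η
    by_cases hn : n < η.jm
    · have := k4 ⟨n, by omega⟩ hn h
      simp only at this
      subst this
      exact RE.refl _ _
    · obtain ⟨m, rfl⟩ : ∃ m, n = η.jm + m := ⟨n - η.jm, by omega⟩
      refine (re_jw_add η m).trans (ih m (by omega) ?_)
      rwa [Nat.add_comm, Function.iterate_add_apply, k3] at h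

theorem nf_top (η : Dart) {w : List Op} (hw : Good w) :
    ∃ t j, RE (aInf η ⊤) w (List.replicate j (.X t)) ∨
      RE (aInf η ⊤) w ([.T] ++ List.replicate j (.X t)) := by
  have key : ∀ (a : List Op), Good a → ∀ t j u, ∃ t' j',
      RE (aInf η ⊤) (a ++ List.replicate j (.X t) ++ [.X u]) (a ++ List.replicate j' (.X t')) := by
    intro a ha t j u
    by_cases ht : u = t
    · subst ht
      exact ⟨u, j + 1, RE.of_eq (by simp [List.replicate_succ'])⟩
    · have ht' : u = !t := by revert ht; cases u <;> cases t <;> simp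
      subst ht'
      cases j with
      | zero => exact ⟨!t, 1, RE.of_eq (by simp)⟩
      | succ j =>
        refine ⟨t, j, (RE.of_eq ?_).trans (re_cancel_end (ha.append (good_rep j t))
          (o := .X t) (Or.inr (Or.inl ⟨_, rfl⟩)) η ⊤)⟩
        simp [List.replicate_succ', Op.inv]
  induction w using List.reverseRecOn with
  | nil => exact ⟨true, 0, Or.inl (RE.refl _ _)⟩
  | append_singleton w o ih =>
    obtain ⟨t, j, h⟩ := ih fun o' ho' => hw o' (List.mem_append_left _ ho')
    rcases h with h | h
    · rcases hw o (by simp) with rfl | ⟨u, rfl⟩ | rfl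
      · exact ⟨!t, j, Or.inr ((h.right _).trans (re_comm_rep j (Or.inr rfl)))⟩
      · obtain ⟨t', j', h'⟩ := key [] (fun _ ho => absurd ho List.not_mem_nil) t j u
        exact ⟨t', j', Or.inl ((h.right _).trans h')⟩
      · exact ⟨t, j, Or.inl ((h.right _).trans (re_sid_end (good_rep j _) η ⊤))⟩
    · rcases hw o (by simp) with rfl | ⟨u, rfl⟩ | rfl
      · refine ⟨!t, j, Or.inl ((h.right _).trans ?_)⟩
        have h1 : RE (aInf η ⊤) ([.T] ++ (List.replicate j (.X t) ++ [.T]))
            ([.T] ++ (.T :: List.replicate j (.X (!t)))) := by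
          refine RE.left (good_T.valid η ⊤).1 ?_
          rw [run_cons, run_nil, ap_T_aInf]
          exact re_comm_rep j (Or.inr rfl)
        exact h1.trans ((re_inv (p := aInf η ⊤) (o := .T) rfl).right _)
      · obtain ⟨t', j', h'⟩ := key [.T] good_T t j u
        exact ⟨t', j', Or.inr ((h.right _).trans h')⟩
      · exact ⟨t, j, Or.inr ((h.right _).trans
          (re_sid_end (good_T.append (good_rep j _)) η ⊤))⟩

end NF0

open NF0

theorem nf_junction {η : Dart} {d : ℕ}
    (hl : ∀ o ∈ l, o = .T ∨ (∃ s, o = .X s) ∨ o = .S .al .al)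
    (hc : run ap l (aInf η d) = aInf η d) : Rw (aInf η d) l [] := by
  have hne : η.side ≠ !η.side := by simp
  have h0 : run ap (List.replicate d (.X (!η.side)) ++ l) (aInf η 0) = aInf η d := by
    rw [run_append, run_low d hne, zero_add, hc]
  have h1 : RE (aInf η 0) (List.replicate d (.X (!η.side)) ++ l)
      (List.replicate d (.X (!η.side))) := by
    obtain ⟨n, j, h | h⟩ := nf_zero η ((good_rep d (!η.side)).append hl)
    · have h2 := h.2
      rw [h0, run_append, MAx.run_jw_aInf, run_low j (by rw [side_iter]; exact hne), zero_add] at h2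
      obtain ⟨h3, h4⟩ := aInf_inj h2
      have h5 : d = j := by exact_mod_cast h4
      subst h5
      exact h.trans ((re_jw_closed η n h3.symm).right _)
    · have h2 := h.2
      rw [h0, run_append, run_append, MAx.run_jw_aInf, run_cons, run_nil, ap_T_aInf,
        run_low j (by rw [MAx.side_opp, side_iter]; exact hne.symm)] at h2
      have h3 := congrArg Dart.side (aInf_inj h2).1
      rw [MAx.side_opp, side_iter] at h3
      exact absurd h3 hne
  have hv := ((good_rep d η.side).valid η d).1
  have h2 := re_cancel hv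
  have h3 : invW (List.replicate d (.X η.side)) = List.replicate d (.X (!η.side)) := by
    simp [invW, Op.inv]
  rw [h3] at h2
  have h4 := RE.left hv (l := List.replicate d (.X (!η.side)) ++ l)
    (l' := List.replicate d (.X (!η.side))) (by rw [run_up]; exact h1)
  rw [← List.append_assoc] at h4
  exact ((h2.right l).symm.trans (h4.trans h2)).1

theorem nf_comb₀ {η : Dart} (hl : ∀ o ∈ l, o = .T ∨ (∃ s, o = .X s) ∨ o = .S .al .al)
    (hc : run ap l (aInf η ⊤) = aInf η ⊤) :
    ∃ s h, Rw (aInf η ⊤) l (List.replicate h (.X s)) := by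
  obtain ⟨t, j, h | h⟩ := nf_top η hl
  · exact ⟨t, j, h.1⟩
  · have h2 := h.2
    rw [hc, run_append, run_cons, run_nil, ap_T_aInf, run_top] at h2
    have h3 := congrArg Dart.side (aInf_inj h2).1
    rw [MAx.side_opp] at h3
    simp at h3

end Vale.Agent.P196
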