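import Vale.Agent.P196.TrueTower
import Vale.Agent.P196.ModelTop
import Vale.Agent.P196.NF0

/-! Normal forms of closed words. -/

namespace Vale.Agent.P196

open X Filter Topology

variable {p : X} {l l' : List Op}

namespace NFAux

theorem sat_role {W : Type} {𝕋 : Tower W} {k m n : ℕ} {w : W} (h : 𝕋.SatP k m n p w)
    (h2 : 2 ≤ n) : 𝕋.Sat k (roleS p.role) w :=
  𝕋.mono (by rintro _ rfl; rfl) (h.lab h2)

theorem run_step (hl : Valid l p) {W : Type} (𝕋 : Tower W) (k : ℕ) {m n : ℕ} (h2 : 2 ≤ n) {w : W}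
    (h : 𝕋.SatP (k + 1) (m + l.length) (n + l.length) p.par w) :
    run (𝕋.ap k) l (𝕋.ap k (.S .al p.role) w) =
      𝕋.ap k (.S .al (run ap l p).role) (run (𝕋.ap (k + 1)) (liftW l p) w) := by
  induction l generalizing p w with
  | nil => rfl
  | cons o l ih =>
    have h1 := Tower.SatP.track (m := m + l.length) (n := n + l.length) (ok_lift hl.1) (by omega) h
    rw [← par_ap hl.1] at h1
    rw [run_cons, 𝕋.cr hl.1 (sat_role h (by omega)), ← role_ap hl.1]
    exact ih hl.2 h1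

theorem liftWs_nil (j : ℕ) (p : X) : liftWs j [] p = [] := by
  induction j generalizing p with
  | zero => rfl
  | succ j ih => exact ih _

theorem liftWs_cons {o : Op} (ho : o.ok p.role = true) (j : ℕ) :
    liftWs j (o :: l) p = lifts o p j :: liftWs j l (ap o p) := by
  induction j generalizing o l p with
  | zero => rfl
  | succ j ih =>
    rw [lifts_succ, liftWs, liftWs, liftW, ih (ok_lift ho), par_ap ho]

theorem valid_liftWs (hl : Valid l p) (j : ℕ) : Valid (liftWs j l p) (par^[j] p) := by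
  induction j generalizing l p with
  | zero => exact hl
  | succ j ih => exact ih hl.lift

theorem par_iter_run (hl : Valid l p) (j : ℕ) :
    par^[j] (run ap l p) = run ap (liftWs j l p) (par^[j] p) := by
  induction j generalizing l p with
  | zero => rfl
  | succ j ih => rw [Function.iterate_succ_apply, hl.par_run, ih hl.lift]; rfl

theorem par_iter_ap {o : Op} (ho : o.ok p.role = true) (j : ℕ) :
    par^[j] (ap o p) = ap (lifts o p j) (par^[j] p) := by
  have h := par_iter_run (l := [o]) ⟨ho, trivial⟩ j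
  rw [liftWs_cons ho, liftWs_nil] at h
  exact h

theorem dat_iter (p : X) (j : ℕ) : (par^[j] p).dat = p.D j := par_iter_D p j 0

theorem role_iter (p : X) (j : ℕ) : (par^[j] p).role = (p.D j).role := congrArg Dat.role (dat_iter p j)

theorem par_iter_aInf (η : Dart) (d : ℕ∞) (j : ℕ) : par^[j] (aInf η d) = aInf η d :=
  Function.iterate_fixed (par_aInf η d) j

theorem cons_iter_aInf (η : Dart) (d : ℕ∞) (j : ℕ) : (cons .al)^[j] (aInf η d) = aInf η d :=
  Function.iterate_fixed (cons_aInf η d) j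

theorem top_mono {j j' : ℕ} (h : (p.D j).c = ⊤) (hj : j ≤ j') : (p.D j').c = ⊤ := by
  obtain ⟨i, rfl⟩ := Nat.exists_eq_add_of_le hj
  rw [← dat_iter] at h
  rw [← par_iter_D, eq_aInf h]
  rfl

theorem role_of_top {j : ℕ} (h : (p.D j).c = ⊤) : (p.D j).role = .al :=
  Dat.role_eq_al.2 (by simp [h])

theorem exists_ne_al (h : ∀ j, (p.D j).c ≠ ⊤) (j : ℕ) : ∃ i, j ≤ i ∧ (p.D i).role ≠ .al := by
  by_contra hc
  push Not at hc
  refine h j ?_
  rw [← dat_iter]
  exact eq_aInf_of_roles fun k => by rw [par_iter_D]; exact hc _ (Nat.le_add_right _ _)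

theorem lifts_S (o : Op) (h : ∀ j, (p.D j).c ≠ ⊤) :
    ∃ j₀, ∀ j ≥ j₀, lifts o p j = .S (p.D j).role (p.D j).role := by
  have k1 : ∀ (o : Op) (r ρ : Role), r ≠ .al ∨ o ≠ .T → (o.cr r ρ).2 ≠ .T := by decide
  have k2 : ∀ (o : Op) (r ρ : Role), r ≠ .al → o ≠ .T → (o.cr r ρ).2.isS = true := by decide
  have k3 : ∀ (o : Op) (r ρ : Role), o.isS = true → (o.cr r ρ).2 = .S ρ ρ := by decide
  obtain ⟨i, -, hi⟩ := exists_ne_al h 0
  obtain ⟨i', hi', hi''⟩ := exists_ne_al h (i + 1)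
  have h1 : ∀ j, i + 1 ≤ j → lifts o p j ≠ .T := by
    intro j hj
    induction hj with
    | refl => exact k1 _ _ _ (Or.inl hi)
    | step _ ih => exact k1 _ _ _ (Or.inr ih)
  refine ⟨i' + 2, fun j hj => ?_⟩
  induction hj with
  | refl => exact k3 _ _ _ (k2 _ _ _ hi'' (h1 _ hi'))
  | step _ ih => exact k3 _ _ _ (by rw [ih]; rfl)

theorem ap_S_self (q : X) : ap (.S q.role q.role) q = q := by
  have h := ap_S q.role q.role q.par
  rwa [cons_par] at h

theorem liftWs_S (hl : Valid l p) (h : ∀ j, (p.D j).c ≠ ⊤) :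
    ∃ j₀, ∀ j ≥ j₀, ∀ o ∈ liftWs j l p, o = .S (par^[j] p).role (par^[j] p).role := by
  induction l generalizing p with
  | nil => exact ⟨0, fun j _ => by simp [liftWs_nil]⟩
  | cons o l ih =>
    obtain ⟨j₁, h1⟩ := lifts_S o h
    have h2 : ∀ j ≥ j₁, par^[j] (ap o p) = par^[j] p := fun j hj => by
      rw [par_iter_ap hl.1, h1 j hj, ← role_iter, ap_S_self]
    obtain ⟨j₂, h3⟩ := ih hl.2 fun j hj => h (j + j₁) (by
      rw [← dat_iter, ← h2 _ (Nat.le_add_left _ _), dat_iter]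
      exact top_mono hj (Nat.le_add_right _ _))
    refine ⟨j₁ + j₂, fun j hj o' ho' => ?_⟩
    rw [liftWs_cons hl.1, List.mem_cons] at ho'
    rcases ho' with rfl | ho'
    · rw [h1 j (by omega), role_iter]
    · rw [h3 j (by omega) o' ho', h2 j (by omega)]

theorem liftWs_top (hl : Valid l p) {i : ℕ} (h : (p.D i).c = ⊤) :
    ∃ j₀, ∀ j ≥ j₀, ∀ o ∈ liftWs j l p, o = .T ∨ (∃ s, o = .X s) ∨ o = .S .al .al := by
  induction l generalizing p i with
  | nil => exact ⟨0, fun j _ => by simp [liftWs_nil]⟩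
  | cons o l ih =>
    have k1 : ∀ o : Op, (o.cr .al .al).2 = .T ∨ (∃ s, (o.cr .al .al).2 = .X s) ∨
      (o.cr .al .al).2 = .S .al .al := by decide
    have h1 : ∀ j, (p.D j).c = ⊤ → lifts o p (j + 1) = .T ∨ (∃ s, lifts o p (j + 1) = .X s) ∨
        lifts o p (j + 1) = .S .al .al := fun j hj => by
      rw [lifts, role_of_top hj, role_of_top (top_mono hj (Nat.le_succ j))]
      exact k1 _
    have h2 : ((ap o p).D (i + 1)).c = ⊤ := by
      have h3 := top_mono h (Nat.le_succ i)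
      rw [← dat_iter] at h3 ⊢
      rw [par_iter_ap hl.1, eq_aInf h3]
      rcases h1 i h with e | ⟨s, e⟩ | e <;> rw [e]
      · rw [ap_T_aInf]; rfl
      · rw [ap_X_aInf]; split_ifs <;> rfl
      · rw [← role_aInf (par^[i + 1] p).dat.η (par^[i + 1] p).dat.d, ap_S_self]; rfl
    obtain ⟨j₂, h3⟩ := ih hl.2 h2
    refine ⟨i + 1 + j₂, fun j hj o' ho' => ?_⟩
    rw [liftWs_cons hl.1, List.mem_cons] at ho'
    rcases ho' with rfl | ho'
    · obtain ⟨j, rfl⟩ : ∃ j', j = j' + 1 := ⟨j - 1, by omega⟩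
      exact h1 j (top_mono h (by omega))
    · exact h3 j (by omega) o' ho'

theorem rw_of_down {j : ℕ} (h : ∀ (W : Type) (𝕋 : Tower W) (k : ℕ), ∃ N, ∀ v,
    𝕋.SatP (k + j) N N (par^[j] p) v → run (𝕋.ap k) l (𝕋.down k j p v) = 𝕋.down k j p v) :
    Rw p l [] := by
  intro W 𝕋 k
  obtain ⟨N, hN⟩ := h W 𝕋 k
  refine ⟨j + (N + 2), fun w hw => ?_⟩
  obtain ⟨v, hv, rfl⟩ := (Tower.satP_down j).1 hw
  exact hN v (hv.mono (by omega) (by omega) (by omega))

theorem rw_S (h : ∀ o ∈ l, o = .S p.role p.role) : Rw p l [] := by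
  intro W 𝕋 k
  refine ⟨2, fun v hv => ?_⟩
  induction l with
  | nil => rfl
  | cons o l ih =>
    rw [run_cons, h o List.mem_cons_self, 𝕋.sid (sat_role hv le_rfl)]
    exact ih fun o ho => h o (List.mem_cons_of_mem _ ho)

theorem down_aInf {W : Type} {𝕋 : Tower W} (η : Dart) (d : ℕ∞) {k i : ℕ} {u : W}
    (h : 𝕋.Sat (k + i) Set.univ u) : 𝕋.down k i (aInf η d) u = u := by
  induction i generalizing k with
  | zero => rfl
  | succ i ih =>
    have h1 : ∀ i, 𝕋.Sat (k + 1 + i) Set.univ u → 𝕋.Sat k (roleS .al) u := by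
      intro i
      induction i with
      | zero => exact 𝕋.tot.1
      | succ i ih => exact fun h => ih (𝕋.mono (Set.subset_univ _) (𝕋.tot.1 h))
    rw [show k + (i + 1) = k + 1 + i by omega] at h
    rw [Tower.down, par_aInf, ih h, role_aInf, 𝕋.sid (h1 i h)]

theorem run_replicate {W : Type} (𝕋 : Tower W) (k h : ℕ) (s : Bool) (v : W) :
    run (𝕋.ap k) (List.replicate h (.X s)) v = (𝕋.ap 0 (.X s))^[h] v := by
  induction h generalizing v with
  | zero => rfl
  | succ h ih => rw [List.replicate_succ, run_cons, ih, 𝕋.apX k]; rfl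

theorem near_consL_add (a : List Role) {m n : ℕ} {p q : X} (h : Near m n p q) :
    Near (m + a.length) n (consL a p) (consL a q) := by
  induction a with
  | nil => exact h
  | cons r a ih => exact near_succ.2 ⟨(role_cons _ _).trans (role_cons _ _).symm, ih⟩

theorem near_aInf (η : Dart) (m : ℕ) {n d : ℕ} (h : n ≤ d) : Near m n (aInf η ⊤) (aInf η d) := by
  refine ⟨fun k _ => (role_aInf η ⊤).trans (role_aInf η d).symm, ?_⟩
  simp [aInf, Dat.tr, h]

theorem iter_X (η : Dart) (s : Bool) (h n : ℕ) : ∃ d d' : ℕ, n ≤ d ∧ (d = d' → h = 0) ∧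
    (ap (.X s))^[h] (aInf η d) = aInf η d' := by
  by_cases hs : η.side = s
  · refine ⟨n + h, n, by omega, by omega, ?_⟩
    induction h with
    | zero => rfl
    | succ h ih =>
      rw [Function.iterate_succ_apply, ap_X_aInf, if_pos hs, if_neg (by simp), ← add_assoc,
        Nat.cast_succ, Dat.enat_add_sub, ih]
  · refine ⟨n, n + h, le_rfl, by omega, ?_⟩
    induction h with
    | zero => rfl
    | succ h ih =>
      rw [Function.iterate_succ_apply', ih, ap_X_aInf, if_neg hs, ← add_assoc, Nat.cast_succ]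

theorem invW_invW (l : List Op) : invW (invW l) = l := by
  have k : ∀ o : Op, o.inv.inv = o := by decide
  simp [invW, Function.comp_def, k]

end NFAux

open NFAux

theorem run_down (hl : Valid l p) (j : ℕ) {W : Type} (𝕋 : Tower W) (k : ℕ) :
    ∃ N, ∀ v, 𝕋.SatP (k + j) N N (par^[j] p) v → run (𝕋.ap k) l (𝕋.down k j p v) =
      𝕋.down k j (run ap l p) (run (𝕋.ap (k + j)) (liftWs j l p) v) := by
  induction j generalizing k l p with
  | zero => exact ⟨0, fun _ _ => rfl⟩
  | succ j ih =>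
    obtain ⟨N, hN⟩ := ih hl.lift (k + 1)
    refine ⟨N + (2 + l.length), fun v hv => ?_⟩
    rw [show k + (j + 1) = k + 1 + j by omega] at hv ⊢
    have h1 : 𝕋.SatP (k + 1) (j + (N + (2 + l.length))) (N + (2 + l.length)) p.par
        (𝕋.down (k + 1) j p.par v) := (Tower.satP_down j).2 ⟨v, hv, rfl⟩
    rw [Tower.down, Tower.down, run_step hl 𝕋 k (m := 0) le_rfl
      (h1.mono (by omega) (by omega) (by omega)), hN v (hv.mono (by omega) (by omega) (by omega)),
      hl.par_run]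
    rfl

theorem exists_liftWs (hl : Valid l p) : ∃ j₀, ∀ j ≥ j₀,
    (∀ o ∈ liftWs j l p, o = .S (par^[j] p).role (par^[j] p).role) ∨
    ((par^[j] p).dat.c = ⊤ ∧ ∀ o ∈ liftWs j l p, o = .T ∨ (∃ s, o = .X s) ∨ o = .S .al .al) := by
  by_cases h : ∃ i, (p.D i).c = ⊤
  · obtain ⟨i, h⟩ := h
    obtain ⟨j₀, h1⟩ := liftWs_top hl h
    refine ⟨i + j₀, fun j hj => Or.inr ⟨?_, h1 j (by omega)⟩⟩
    rw [dat_iter]
    exact top_mono h (by omega)
  · obtain ⟨j₀, h1⟩ := liftWs_S hl fun j hj => h ⟨j, hj⟩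
    exact ⟨j₀, fun j hj => Or.inl (h1 j hj)⟩

theorem nf_other (hl : Valid l p) (hc : run ap l p = p) (hp : ∀ η, ¬ Tail η ⊤ p) : Rw p l [] := by
  obtain ⟨j, hj⟩ := exists_liftWs hl
  have h1 : Rw (par^[j] p) (liftWs j l p) [] := by
    rcases hj j le_rfl with h | ⟨h, h'⟩
    · exact rw_S h
    · have h2 := par_iter_run hl j
      have h3 : (par^[j] p).dat.d ≠ ⊤ := fun e =>
        hp (par^[j] p).dat.η ⟨j, by rw [← dat_iter]; exact Dat.ext h rfl e⟩
      have h4 := eq_aInf h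
      rw [← ENat.natCast_toNat h3] at h4
      rw [hc, h4] at h2
      rw [h4]
      exact nf_junction h' h2.symm
  refine rw_of_down (j := j) fun W 𝕋 k => ?_
  obtain ⟨N, hN⟩ := run_down hl j 𝕋 k
  obtain ⟨N', hN'⟩ := h1 W 𝕋 (k + j)
  refine ⟨N + N' + 2, fun v hv => ?_⟩
  rw [hN v (hv.mono (by omega) (by omega) (by omega)),
    hN' v (hv.mono (by omega) (by omega) (by omega)), hc]
  rfl

theorem nf_comb (hl : Valid l p) (hc : run ap l p = p) {j : ℕ} {η : Dart}
    (hp : par^[j] p = aInf η ⊤) : ∃ s h, ∀ (W : Type) (𝕋 : Tower W) (k : ℕ), ∃ N, ∀ v,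
      𝕋.SatP (k + j) N N (aInf η ⊤) v →
        run (𝕋.ap k) l (𝕋.down k j p v) = 𝕋.down k j p ((𝕋.ap 0 (.X s))^[h] v) := by
  have hL := valid_liftWs hl j
  have hC := (par_iter_run hl j).symm
  rw [hc] at hC
  rw [hp] at hL hC
  obtain ⟨i, hi⟩ := exists_liftWs hL
  have hL' := valid_liftWs hL i
  have hC' := (par_iter_run hL i).symm
  rw [hC] at hC'
  rw [par_iter_aInf] at hL' hC'
  obtain ⟨s, h, hr⟩ := nf_comb₀ (l := liftWs i (liftWs j l p) (aInf η ⊤)) (fun o ho => by
    rcases hi i le_rfl with h | h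
    · rw [h o ho, par_iter_aInf, role_aInf]
      exact Or.inr (Or.inr rfl)
    · exact h.2 o ho) hC'
  refine ⟨s, h, fun W 𝕋 k => ?_⟩
  obtain ⟨N₁, h₁⟩ := run_down hl j 𝕋 k
  obtain ⟨N₂, h₂⟩ := run_down hL i 𝕋 (k + j)
  obtain ⟨N₃, h₃⟩ := hr W 𝕋 (k + j + i)
  rw [hp, hc] at h₁
  rw [par_iter_aInf, hC] at h₂
  refine ⟨i + (N₁ + N₂ + N₃ + (2 + (liftWs i (liftWs j l p) (aInf η ⊤)).length)), fun v hv => ?_⟩
  rw [h₁ v (hv.mono (by omega) (by omega) (by omega))]
  obtain ⟨u, hu, rfl⟩ := (Tower.satP_down i).1 hv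
  rw [par_iter_aInf] at hu
  have h4 := (Tower.SatP.track_run (m := 0) hL' le_rfl
    (hu.mono (by omega) (by omega) (by omega))).2.univ
  rw [h₂ u (hu.mono (by omega) (by omega) (by omega)), down_aInf η ⊤ h4, down_aInf η ⊤ hu.univ,
    h₃ u (hu.mono (by omega) (by omega) (by omega)), run_replicate]

theorem Rw.eventuallyEq (h : Rw p l l') : run ap l =ᶠ[𝓝 p] run ap l' := by
  obtain ⟨N, hN⟩ := h X trueTower 0
  refine mem_nhds_iff_near.2 ⟨N, fun q hq => ?_⟩
  have h1 := hN q (true_satP_iff.2 ⟨q, rfl, hq⟩)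
  change run (trueAp 0) l q = run (trueAp 0) l' q at h1
  rwa [trueAp_zero] at h1

theorem rw_of_germ (hl : Valid l p) (h : run ap l =ᶠ[𝓝 p] id) : Rw p l [] := by
  have hc : run ap l p = p := h.eq_of_nhds
  by_cases hp : ∀ η, ¬ Tail η ⊤ p
  · exact nf_other hl hc hp
  push Not at hp
  obtain ⟨η, j, hj⟩ := hp
  have hp : par^[j] p = aInf η ⊤ := by
    rw [eq_aInf (p := par^[j] p) (by rw [dat_iter, hj]), dat_iter, hj]
  obtain ⟨s, m, hm⟩ := nf_comb hl hc hp
  have h0 : m = 0 := by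
    obtain ⟨N, hN⟩ := hm X trueTower 0
    obtain ⟨n, hn⟩ := mem_nhds_iff_near.1 h
    obtain ⟨d, d', h1, h2, h3⟩ := iter_X η s m (N + n + 2)
    have h4 := hN (aInf η d) (true_satP_iff.2
      ⟨aInf η d, (cons_iter_aInf η d _).symm, near_aInf η N (by omega)⟩)
    have h5 : ∀ d : ℕ∞, trueTower.down 0 j p (aInf η d) =
        consL ((List.range j).map fun i => (p.D i).role) (aInf η d) := fun d => by
      have := true_down 0 j p (aInf η d)
      rwa [cons_iter_aInf] at this
    change run (trueAp 0) l _ = trueTower.down 0 j p ((trueAp 0 (.X s))^[m] _) at h4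
    rw [trueAp_zero, h3, h5, h5] at h4
    have h6 := near_consL_add ((List.range j).map fun i => (p.D i).role)
      (near_aInf η n (n := n + 2) (d := d) (by omega))
    rw [← hp, consL_addr] at h6
    have h7 : run ap l _ = _ := hn _ (h6.mono (by omega) (by omega) (by omega))
    have h8 := congrArg par^[((List.range j).map fun i => (p.D i).role).length] (h7.symm.trans h4)
    rw [id, par_iter_consL, par_iter_consL] at h8
    have h9 : (d : ℕ∞) = d' := congrArg (fun x : X => x.dat.d) h8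
    exact h2 (by exact_mod_cast h9)
  subst h0
  exact rw_of_down (j := j) fun W 𝕋 k => hp ▸ hm W 𝕋 k

theorem rw_of_eventuallyEq (hl : Valid l p) (hl' : Valid l' p)
    (h : run ap l =ᶠ[𝓝 p] run ap l') : Rw p l l' := by
  have h0 : run ap l p = run ap l' p := h.eq_of_nhds
  have h1 : Rw p (l ++ invW l') [] := by
    refine rw_of_germ (valid_append.2 ⟨hl, h0 ▸ hl'.inv⟩) ?_
    filter_upwards [h, (isClopen_valid l').isOpen.mem_nhds hl'] with q hq hq'
    rw [run_append, hq]
    exact Valid.run_inv hq'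
  have h2 : Rw (run ap l p) (invW l' ++ l') [] := by
    rw [h0]
    refine rw_of_germ (valid_append.2 ⟨hl'.inv, by rw [hl'.run_inv]; exact hl'⟩) ?_
    filter_upwards [(isClopen_valid (invW l')).isOpen.mem_nhds hl'.inv] with q hq
    have := Valid.run_inv hq
    rw [invW_invW] at this
    rw [run_append]
    exact this
  have h3 := Rw.append_left hl h2
  have h4 := h1.append_right l'
  rw [List.append_nil] at h3
  rw [List.append_assoc, List.nil_append] at h4
  exact h3.symm.trans h4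

end Vale.Agent.P196
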