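import Vale.Agent.P196.Ext

/-! Pseudogroups of germs, full groups, multisections. Definitions. -/

namespace Vale.Agent.P196

open Filter Topology Equiv

/-- A pseudogroup: `mem f x` says that the germ of `f` at `x` belongs to it. -/
structure PG (Ω : Type) [TopologicalSpace Ω] where
  mem : (Ω → Ω) → Ω → Prop
  congr : ∀ {f g x}, mem f x → f =ᶠ[𝓝 x] g → mem g x
  id : ∀ x, mem id x
  comp : ∀ {f g x}, mem f x → mem g (f x) → mem (g ∘ f) x
  inv : ∀ {f x}, mem f x → ∃ g, mem g (f x) ∧ g ∘ f =ᶠ[𝓝 x] _root_.id ∧ f ∘ g =ᶠ[𝓝 (f x)] _root_.id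
  cont : ∀ {f x}, mem f x → ContinuousAt f x
  nhds : ∀ {f x}, mem f x → ∀ᶠ y in 𝓝 x, mem f y

/-- A family of maps on `U` indexed by `T` that is jointly injective. -/
def MSec {B Y Ω : Type} (U : Set B) (T : Set Y) (e : Y → B → Ω) : Prop :=
  ∀ y ∈ T, ∀ y' ∈ T, ∀ p ∈ U, ∀ p' ∈ U, e y p = e y' p' → y = y' ∧ p = p'

open Classical in
/-- The permutation cycling three sheets over `U`. -/
noncomputable def tri {B Ω : Type} (U : Set B) (e₁ e₂ e₃ : B → Ω) : Perm Ω :=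
  if h : MSec U Set.univ ![e₁, e₂, e₃] then
    Perm.viaEmbedding (Equiv.prodCongr (finRotate 3) (Equiv.refl U))
      ⟨fun q : Fin 3 × U => ![e₁, e₂, e₃] q.1 q.2, fun q q' hq => by
        obtain ⟨h1, h2⟩ := h q.1 trivial q'.1 trivial q.2 q.2.2 q'.2 q'.2.2 hq
        exact Prod.ext h1 (Subtype.ext h2)⟩
  else 1

open Classical in
/-- Restriction of a permutation to an invariant set. -/
noncomputable def rest {Ω : Type} (t : Perm Ω) (V : Set Ω) : Perm Ω :=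
  if h : ∀ x, t x ∈ V ↔ x ∈ V then Perm.ofSubtype (t.subtypePerm (p := (· ∈ V)) h) else 1

/-- The moved points. -/
def supp {Ω : Type} (t : Perm Ω) : Set Ω := {x | t x ≠ x}

namespace PG

variable {Ω : Type} [TopologicalSpace Ω] (H : PG Ω)

def LE (H H' : PG Ω) : Prop := ∀ f x, H.mem f x → H'.mem f x

/-- The full group. -/
def full : Subgroup (Perm Ω) where
  carrier := {g | ∀ x, H.mem g x}
  one_mem' x := H.id x
  mul_mem' {g h} hg hh x := H.comp (f := h) (g := g) (hh x) (hg (h x))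
  inv_mem' {g} hg x := by
    obtain ⟨f, h1, h2, h3⟩ := H.inv (hg (g⁻¹ x))
    have h0 : g (g⁻¹ x) = x := by simp
    rw [h0] at h1 h3
    refine H.congr h1 ?_
    filter_upwards [h3] with y hy
    have : g (f y) = y := hy
    rw [Perm.eq_inv_iff_eq, this]

/-- Elements of order dividing three with clopen support. -/
def Tri : Set (Perm Ω) := {t | t ∈ H.full ∧ t ^ 3 = 1 ∧ IsClosed (supp t)}

/-- The alternating full group. -/
def alt : Subgroup (Perm Ω) := Subgroup.closure H.Tri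

def orb (x : Ω) : Set Ω := {y | ∃ f, H.mem f x ∧ f x = y}

/-- A multisection over the clopen set `U`. -/
structure MS {Y : Type} (U : Set Ω) (T : Set Y) (e : Y → Ω → Ω) : Prop where
  clopen : IsClopen U
  sec : MSec U T e
  mem : ∀ y ∈ T, ∀ x ∈ U, H.mem (e y) x

/-- Cyclic isotropy at `x`. -/
def Iso (x : Ω) : Prop :=
  ∃ u u' : Ω → Ω, H.mem u x ∧ u x = x ∧ H.mem u' x ∧ u' x = x ∧ u' ∘ u =ᶠ[𝓝 x] _root_.id ∧
    u ∘ u' =ᶠ[𝓝 x] _root_.id ∧
    ∀ f, H.mem f x → f x = x → ∃ n : ℕ, f =ᶠ[𝓝 x] u^[n] ∨ f =ᶠ[𝓝 x] u'^[n]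

/-- One step `H ≤ H'` of the germ filtration; all new germs sit at points of `Sg`. -/
structure Step (H H' : PG Ω) (Sg : Set Ω) : Prop where
  le : H.LE H'
  punct : ∀ f x, H'.mem f x → ∀ᶠ y in 𝓝[≠] x, H.mem f y
  sing : ∀ f x, H'.mem f x → x ∉ Sg → H.mem f x
  inv : ∀ f x, H'.mem f x → x ∈ Sg → f x ∈ Sg
  iso : ∀ x ∈ Sg, H'.Iso x

/-- Recurrence along `Sg`. -/
def Rec (H' : PG Ω) (Sg : Set Ω) : Prop :=
  ∀ K : Finset (Perm Ω), (∀ g ∈ K, g ∈ H'.full) → ∀ S : Finset Ω, (∀ x ∈ S, x ∈ Sg) →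
    ∀ ε : ℝ, 0 < ε → ∃ f : Ω →₀ ℝ, (∀ x ∈ S, f x = 1) ∧
      ∀ g ∈ K, ∑ᶠ x, (f (g x) - f x) ^ 2 < ε

/-- Finiteness data for the kernel step. -/
structure KStep (H H' : PG Ω) (Sg P₀ : Set Ω) : Prop where
  fin : P₀.Finite
  sub : P₀ ⊆ Sg
  room : ∀ x ∈ Sg, 6 ≤ (H'.orb x ∩ P₀).encard
  good : ∀ x ∈ Sg, 6 ≤ (H.orb x ∩ P₀).encard ∨ (Disjoint (H.orb x) P₀ ∧
    (∀ f, H.mem f x → f x = x → f =ᶠ[𝓝 x] _root_.id) ∧
    ∃ a : H'.full →* Perm (H.orb x), ∀ g : H'.full,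
      {y : H.orb x | (a g y : Ω) ≠ (g : Perm Ω) y}.Finite)

/-- Homogeneous tower structure: finite sets of `H` act along the fibres of a trivialisation whose
changes of level are in `H'`. -/
def AF (H H' : PG Ω) : Prop :=
  ∀ K : Finset (Perm Ω), (∀ g ∈ K, g ∈ H.full) →
    ∃ (B : Type) (_ : TopologicalSpace B) (Y : Type) (_ : Finite Y) (_ : TopologicalSpace Y)
      (_ : DiscreteTopology Y) (E : B × Y ≃ₜ Ω),
      (∀ y x, H'.mem (fun ω => E ((E.symm ω).1, y)) x) ∧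
      ∀ g ∈ K, ∀ ω, (E.symm (g ω)).1 = (E.symm ω).1

/-- A lift of the 3-cycles to a group `Γ`. -/
structure ZSys (H : PG Ω) {Γ : Type} [Group Γ] (π : Γ →* Perm Ω) (z : Perm Ω → Γ) : Prop where
  proj : ∀ t ∈ H.Tri, π (z t) = t
  gen : Subgroup.closure (z '' H.Tri) = ⊤
  add : ∀ t ∈ H.Tri, ∀ t' ∈ H.Tri, Disjoint (supp t) (supp t') → z (t * t') = z t * z t'
  conj : ∀ t ∈ H.Tri, ∀ t' ∈ H.Tri, z t * z t' * (z t)⁻¹ = z (t * t' * t⁻¹)
  inv : ∀ t ∈ H.Tri, z t⁻¹ = (z t)⁻¹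
  mul : ∀ U (e : Fin 4 → Ω → Ω), H.MS U Set.univ e →
    z (tri U (e 0) (e 1) (e 2)) * z (tri U (e 0) (e 2) (e 3)) = z (tri U (e 1) (e 2) (e 3))

/-- The subgroup generated by the lifts of the 3-cycles of `H`. -/
def zsub (H : PG Ω) {Γ : Type} [Group Γ] (z : Perm Ω → Γ) : Subgroup Γ :=
  Subgroup.closure (z '' H.Tri)

/-- The pseudogroup on `Ω × Col`: germs of `H` combined with arbitrary changes of colour. -/
def col (H : PG Ω) : PG (Ω × Col) where
  mem g x := ∃ f c, H.mem f x.1 ∧ g =ᶠ[𝓝 x] fun y => (f y.1, c)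
  congr := by
    rintro f g x ⟨f', c, h1, h2⟩ h
    exact ⟨f', c, h1, h.symm.trans h2⟩
  id x := ⟨_root_.id, x.2, H.id _, by
    filter_upwards [(isOpen_discrete {x.2}).preimage continuous_snd |>.mem_nhds rfl] with y hy
    exact Prod.ext rfl hy⟩
  comp := by
    rintro f g x ⟨f', c, h1, h2⟩ ⟨g', c', h3, h4⟩
    have hx : f x = (f' x.1, c) := h2.eq_of_nhds
    have hc : ContinuousAt f x :=
      (((H.cont h1).comp continuousAt_fst).prodMk continuousAt_const).congr h2.symm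
    refine ⟨g' ∘ f', c', H.comp h1 (by simpa [hx] using h3), ?_⟩
    filter_upwards [h2, hc.eventually h4] with y hy hy'
    simp only [Function.comp_apply, hy']
    rw [hy]
  inv := by
    rintro f x ⟨f', c, h1, h2⟩
    obtain ⟨g', h3, h4, h5⟩ := H.inv h1
    have hx : f x = (f' x.1, c) := h2.eq_of_nhds
    refine ⟨fun y => (g' y.1, x.2), ⟨g', x.2, by simpa [hx] using h3, .rfl⟩, ?_, ?_⟩
    · filter_upwards [h2, continuousAt_fst.eventually h4,
        (isOpen_discrete {x.2}).preimage continuous_snd |>.mem_nhds rfl] with y hy hy' hy''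
      exact Prod.ext (by simpa [hy] using hy') (by simpa using hy''.symm)
    · have hg : ContinuousAt (fun y : Ω × Col => (g' y.1, x.2)) (f' x.1, c) :=
        (ContinuousAt.comp (f := Prod.fst) (x := (f' x.1, c)) (H.cont h3)
          continuousAt_fst).prodMk continuousAt_const
      have h6 : g' (f' x.1) = x.1 := h4.eq_of_nhds
      have h7 : ∀ᶠ y : Ω × Col in 𝓝 (f' x.1, c), f (g' y.1, x.2) = (f' (g' y.1), c) := by
        apply hg.eventually (p := fun y => f y = (f' y.1, c))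
        simp only [h6]
        exact h2
      rw [hx]
      filter_upwards [h7, (continuousAt_fst (p := (f' x.1, c))).eventually h5,
        (isOpen_discrete {c}).preimage continuous_snd |>.mem_nhds rfl] with y hy hy' hy''
      exact Prod.ext (by simpa [hy] using hy') (by simpa [hy] using hy''.symm)
  cont := by
    rintro f x ⟨f', c, h1, h2⟩
    exact (((H.cont h1).comp continuousAt_fst).prodMk continuousAt_const).congr h2.symm
  nhds := by
    rintro f x ⟨f', c, h1, h2⟩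
    filter_upwards [continuousAt_fst.eventually (H.nhds h1), h2.eventuallyEq_nhds] with y hy hy'
    exact ⟨f', c, hy, hy'⟩

/-- Finiteness of the zeroth homology mod two. -/
def F0 (H : PG Ω) : Prop :=
  ∀ (M : Type) [CommGroup M] (ζ : Set Ω → M), (∀ U, ζ U ^ 2 = 1) →
    (∀ U V, IsClopen U → IsClopen V → Disjoint U V → ζ (U ∪ V) = ζ U * ζ V) →
    (∀ U f, IsClopen U → (∀ x ∈ U, H.mem f x) → Set.InjOn f U → ζ (f '' U) = ζ U) →
    (ζ '' {U | IsClopen U}).Finite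

end PG

/-- Reiter's condition. -/
def Amen (G : Type) [Group G] : Prop :=
  ∀ K : Finset G, ∀ ε : ℝ, 0 < ε → ∃ μ : G →₀ ℝ, (∀ x, 0 ≤ μ x) ∧ ∑ᶠ x, μ x = 1 ∧
    ∀ g ∈ K, ∑ᶠ x, |μ (g * x) - μ x| < ε

end Vale.Agent.P196
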