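import Vale.Agent.P196.Ext

/-! Patches: coloured alternating systems in a group. Definitions. -/

namespace Vale.Agent.P196

/-- `x` lies in `Av J'` for every 3-set `J'` of colours off `J`. -/
def Good {Γ : Type} [Group Γ] (Av : Set Col → Subgroup Γ) (J : Set Col) (x : Γ) : Prop :=
  ∀ a b c : Col, D3 a b c → Disjoint J {a, b, c} → x ∈ Av {a, b, c}

structure Env (Γ : Type) [Group Γ] where
  Av : Set Col → Subgroup Γ
  ac : ∀ a b c : Col, D3 a b c → ∀ x y : Γ, Good Av {a, b, c} x → y ∈ Av {a, b, c} → Commute x y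
  e : Col → Col → Col → Γ
  e_junk : ∀ a b c, ¬ D3 a b c → e a b c = 1
  e_alt : IsAlt Set.univ e
  e_good : ∀ a b c, D3 a b c → Good Av {a, b, c} (e a b c)

variable {Γ : Type} [Group Γ]

@[ext] structure Patch (E : Env Γ) (R : Type) where
  φ : Col × R → Col × R → Col × R → Γ
  junk : ∀ x y z, ¬ D3 x.1 y.1 z.1 → φ x y z = 1
  alt : ∀ S : Set (Col × R), Set.InjOn Prod.fst S → IsAlt S φ
  eqv : ∀ a b c, D3 a b c → ∀ x y z, D3 x.1 y.1 z.1 →
    E.e a b c * φ x y z * (E.e a b c)⁻¹ =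
      φ (c3 a b c x.1, x.2) (c3 a b c y.1, y.2) (c3 a b c z.1, z.2)
  good : ∀ x y z, D3 x.1 y.1 z.1 → Good E.Av {x.1, y.1, z.1} (φ x y z)

namespace Patch

variable {E : Env Γ} {R R' : Type}

def comap (Φ : Patch E R) (f : R' → R) : Patch E R' where
  φ x y z := Φ.φ (x.1, f x.2) (y.1, f y.2) (z.1, f z.2)
  junk x y z h := Φ.junk _ _ _ h
  alt S hS := by
    refine (Φ.alt ((fun x : Col × R' => (x.1, f x.2)) '' S) ?_).comap
      (f := fun x : Col × R' => (x.1, f x.2)) ?_ ?_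
    · rintro _ ⟨x, hx, rfl⟩ _ ⟨y, hy, rfl⟩ h
      rw [hS hx hy h]
    · intro x hx y hy h
      exact hS hx hy (congrArg Prod.fst h :)
    · exact Set.mapsTo_image _ _
  eqv a b c h x y z h' := Φ.eqv a b c h _ _ _ h'
  good x y z h := Φ.good (x.1, f x.2) (y.1, f y.2) (z.1, f z.2) h

/-- One sheet. -/
def sheet (Φ : Patch E R) (r : R) : Patch E Unit := Φ.comap fun _ => r

/-- Two sheets. -/
def sh2 (Φ : Patch E R) (r r' : R) : Patch E Bool := Φ.comap fun b => cond b r' r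

/-- `Φ'` is a part of `Φ`. -/
def Sub (Φ' Φ : Patch E R) : Prop :=
  ∀ S : Set (Col × R), Set.InjOn Prod.fst S → ∀ x ∈ S, ∀ y ∈ S, ∀ z ∈ S, ∀ u ∈ S, ∀ v ∈ S, ∀ w ∈ S,
    D3 x y z → D3 u v w →
    Φ.φ x y z * Φ'.φ u v w * (Φ.φ x y z)⁻¹ = Φ'.φ (c3 x y z u) (c3 x y z v) (c3 x y z w)

def Orth (p q : Patch E Unit) : Prop := ∀ x y z u v w, Commute (p.φ x y z) (q.φ u v w)

def zero (E : Env Γ) (R : Type) : Patch E R where
  φ _ _ _ := 1
  junk _ _ _ _ := rfl
  alt S _ := ⟨by intros; rfl, by intros; simp, by intros; simp, by intros; simp⟩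
  eqv := by intros; simp
  good := fun _ _ _ _ _ _ _ _ _ => Subgroup.one_mem _

def one (E : Env Γ) : Patch E Unit where
  φ x y z := E.e x.1 y.1 z.1
  junk x y z h := E.e_junk _ _ _ h
  alt S hS := E.e_alt.comap hS (Set.mapsTo_univ _ _)
  eqv a b c h x y z h' := E.e_alt.conj trivial trivial trivial trivial trivial trivial h h'
  good x y z h := E.e_good _ _ _ h

open Classical in
/-- The sum of two projections (meaningful when they are orthogonal). -/
noncomputable def add (p q : Patch E Unit) : Patch E Unit :=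
  if h : ∃ s : Patch E Unit, ∀ x y z, s.φ x y z = p.φ x y z * q.φ x y z then h.choose else p

/-- `y` is the composite of `w` with (a part of) `x`. -/
def IsAct (x w y : Patch E Bool) : Prop :=
  ∃ Ψ : Patch E (Fin 3), Ψ.sh2 0 1 = w ∧ (Ψ.sh2 1 2).Sub x ∧ Ψ.sh2 0 2 = y

open Classical in
noncomputable def act (x w : Patch E Bool) : Patch E Bool :=
  if h : ∃ y, IsAct x w y then h.choose else w

end Patch

/-- A morphism of environments. -/
structure EnvHom {Γ Γ' : Type} [Group Γ] [Group Γ'] (E : Env Γ) (E' : Env Γ') where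
  f : Γ →* Γ'
  av : ∀ J x, x ∈ E.Av J → f x ∈ E'.Av J
  e : ∀ a b c, f (E.e a b c) = E'.e a b c

def Patch.map {Γ' : Type} [Group Γ'] {E : Env Γ} {E' : Env Γ'} {R : Type} (π : EnvHom E E')
    (Φ : Patch E R) : Patch E' R where
  φ x y z := π.f (Φ.φ x y z)
  junk x y z h := by rw [Φ.junk x y z h, map_one]
  alt S hS := (Φ.alt S hS).map π.f
  eqv a b c h x y z h' := by
    rw [← π.e, ← map_inv, ← map_mul, ← map_mul, Φ.eqv a b c h x y z h']
  good x y z h a b c h1 h2 := π.av _ _ (Φ.good x y z h a b c h1 h2)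

end Vale.Agent.P196
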