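import Vale.Agent.P196.Patch

/-! Order, orthogonality, cross commutation for patches. -/

namespace Vale.Agent.P196

section alt

variable {Y Γ : Type*} [Group Γ] {S : Set Y} {φ ψ χ : Y → Y → Y → Γ}

theorem IsAlt.mul_p1 (h : IsAlt S φ) (h' : IsAlt S ψ)
    (hc : ∀ x y z u v w, Commute (φ x y z) (ψ u v w)) :
    IsAlt S fun x y z => φ x y z * ψ x y z := by
  have e : ∀ x y z u v w, φ x y z * ψ x y z * (φ u v w * ψ u v w) =
      φ x y z * φ u v w * (ψ x y z * ψ u v w) := fun x y z u v w =>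
    (hc u v w x y z).symm.mul_mul_mul_comm _ _
  refine ⟨fun x y z hx hy hz h3 => ?_, fun x y z hx hy hz h3 => ?_,
    fun x y z u v w hx hy hz hu hv hw h1 h2 => ?_, fun x b c v hx hb hc hv h1 h2 h3 => ?_⟩
  · rw [h.cyc hx hy hz h3, h'.cyc hx hy hz h3]
  · rw [e, h.inv hx hy hz h3, h'.inv hx hy hz h3, mul_one]
  · rw [mul_inv_eq_iff_eq_mul, e, e, mul_inv_eq_iff_eq_mul.1 (h.conj hx hy hz hu hv hw h1 h2),
      mul_inv_eq_iff_eq_mul.1 (h'.conj hx hy hz hu hv hw h1 h2)]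
  · rw [e, h.mul hx hb hc hv h1 h2 h3, h'.mul hx hb hc hv h1 h2 h3]

theorem IsAlt.div_p1 (h : IsAlt S φ) (h' : IsAlt S fun x y z => φ x y z * ψ x y z)
    (hc : ∀ x y z u v w, Commute (φ x y z) (ψ u v w)) : IsAlt S ψ := by
  have e : ∀ x y z u v w, φ x y z * ψ x y z * (φ u v w * ψ u v w) =
      φ x y z * φ u v w * (ψ x y z * ψ u v w) := fun x y z u v w =>
    (hc u v w x y z).symm.mul_mul_mul_comm _ _
  refine ⟨fun x y z hx hy hz h3 => ?_, fun x y z hx hy hz h3 => ?_,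
    fun x y z u v w hx hy hz hu hv hw h1 h2 => ?_, fun x b c v hx hb hc hv h1 h2 h3 => ?_⟩
  · have := h'.cyc hx hy hz h3
    rwa [h.cyc hx hy hz h3, mul_right_inj] at this
  · have := h'.inv hx hy hz h3
    rwa [e, h.inv hx hy hz h3, one_mul] at this
  · have := h'.conj hx hy hz hu hv hw h1 h2
    rwa [mul_inv_eq_iff_eq_mul, e, e, mul_inv_eq_iff_eq_mul.1 (h.conj hx hy hz hu hv hw h1 h2),
      mul_right_inj, ← mul_inv_eq_iff_eq_mul] at this
  · have := h'.mul hx hb hc hv h1 h2 h3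
    rwa [e, h.mul hx hb hc hv h1 h2 h3, mul_right_inj] at this

theorem IsAlt.swap_p1 (h : IsAlt S φ) {x y z : Y} (hx : x ∈ S) (hy : y ∈ S) (hz : z ∈ S)
    (h3 : D3 x y z) : φ y x z = (φ x y z)⁻¹ := by
  have h4 : D3 x z y := ⟨h3.2.2, h3.2.1.symm, h3.1⟩
  have h5 : D3 y x z := ⟨h3.1.symm, h3.2.2, h3.2.1⟩
  rw [h.cyc hy hx hz h5, eq_inv_iff_mul_eq_one]
  exact h.inv hx hz hy h4

/-- commutation with a triple reduces to triples through two fixed further points -/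
theorem IsAlt.commute_of_pts_p1 (h : IsAlt S φ) {a w x y u : Y} (ha : a ∈ S) (hw : w ∈ S)
    (hx : x ∈ S) (hy : y ∈ S) (hu : u ∈ S) (h3 : D3 x y u) (haw : a ≠ w)
    (ha' : a ∉ ({x, y, u} : Set Y)) (hw' : w ∉ ({x, y, u} : Set Y)) {δ : Γ}
    (hc : ∀ t ∈ ({x, y, u} : Set Y), Commute δ (φ a w t)) : Commute δ (φ x y u) := by
  have k : ∀ t ∈ ({x, y, u} : Set Y), t ∈ S → Commute δ (φ t a w) ∧ Commute δ (φ a t w) := by
    intro t ht htS
    have d : D3 t a w := ⟨fun e => ha' (e ▸ ht), haw, fun e => hw' (e ▸ ht)⟩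
    have c1 : Commute δ (φ t a w) := by
      rw [h.cyc htS ha hw d]
      exact hc t ht
    refine ⟨c1, ?_⟩
    rw [h.swap_p1 htS ha hw d]
    exact c1.inv_right
  rw [h.decomp ha hw hx hy hu h3 haw ha' hw', ext4]
  exact (((k y (by simp) hy).2.mul_right (k x (by simp) hx).1).mul_right
    (k u (by simp) hu).2).mul_right (k y (by simp) hy).1

end alt

theorem fresh_p1 (l : List Col) (hl : l.length < 40) : ∃ c, c ∉ l := by
  by_contra h
  push Not at h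
  have h1 : (Finset.univ : Finset Col) ⊆ l.toFinset := fun c _ => by simpa using h c
  have h2 := (Finset.card_le_card h1).trans (List.toFinset_card_le l)
  simp at h2
  omega

theorem fresh_set_p1 (J : Set Col) (hJ : J.encard ≤ 20) (l : List Col) (hl : l.length < 20) :
    ∃ c, c ∉ J ∧ c ∉ l := by
  obtain ⟨c, hc⟩ := exists_fresh (J ∪ (l.toFinset : Set Col)) (by
    refine (Set.encard_union_le _ _).trans_lt ?_
    rw [Set.encard_coe_eq_coe_finsetCard]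
    have h1 : (l.toFinset.card : ℕ∞) ≤ 19 := by
      exact_mod_cast (List.toFinset_card_le l).trans (by omega)
    exact (add_le_add hJ h1).trans_lt (by norm_num))
  exact ⟨c, by simpa using hc⟩

theorem encard_three_p1 {α : Type*} (x y z : α) : ({x, y, z} : Set α).encard ≤ 3 :=
  (Set.encard_insert_le _ _).trans (by
    have := Set.encard_insert_le ({z} : Set α) y
    rw [Set.encard_singleton] at this
    exact (add_le_add_left this 1).trans (by norm_num))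

section sec

variable {R : Type} {S : Set (Col × R)}

theorem d3_fst_p1 (hS : Set.InjOn Prod.fst S) {x y z : Col × R} (hx : x ∈ S) (hy : y ∈ S)
    (hz : z ∈ S) (h : D3 x y z) : D3 x.1 y.1 z.1 :=
  ⟨fun e => h.1 (hS hx hy e), fun e => h.2.1 (hS hy hz e), fun e => h.2.2 (hS hx hz e)⟩

theorem d3_of_fst_p1 {x y z : Col × R} (h : D3 x.1 y.1 z.1) : D3 x y z :=
  ⟨fun e => h.1 (congrArg _ e), fun e => h.2.1 (congrArg _ e), fun e => h.2.2 (congrArg _ e)⟩

theorem sec_insert_p1 (hS : Set.InjOn Prod.fst S) {a : Col × R} (ha : a.1 ∉ Prod.fst '' S) :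
    Set.InjOn Prod.fst (insert a S) :=
  (Set.injOn_insert fun h => ha ⟨a, h, rfl⟩).2 ⟨hS, ha⟩

theorem sec_list_p1 {l : List (Col × R)} (h : (l.map Prod.fst).Nodup) :
    Set.InjOn Prod.fst {x | x ∈ l} := fun _ hx _ hy e => List.inj_on_of_nodup_map h hx hy e

theorem sec_three_p1 {x y z : Col × R} (h : D3 x.1 y.1 z.1) :
    Set.InjOn Prod.fst ({x, y, z} : Set (Col × R)) :=
  (sec_list_p1 (l := [x, y, z]) (by simp [h.1, h.2.1, h.2.2])).mono fun _ ht => by simpa using ht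

theorem sec_unit_p1 (S : Set (Col × Unit)) : Set.InjOn Prod.fst S :=
  fun _ _ _ _ e => Prod.ext e rfl

end sec

namespace Patch

variable {Γ : Type} [Group Γ] {E : Env Γ} {R R' : Type} {Φ Φ' Φ'' : Patch E R}
  {p q r : Patch E Unit}

theorem comap_comap {R'' : Type} (Φ : Patch E R) (f : R' → R) (g : R'' → R') :
    (Φ.comap f).comap g = Φ.comap (f ∘ g) := rfl

theorem ext_p1 (h : ∀ x y z, D3 x.1 y.1 z.1 → Φ.φ x y z = Φ'.φ x y z) : Φ = Φ' := by
  ext x y z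
  by_cases h3 : D3 x.1 y.1 z.1
  · exact h x y z h3
  · rw [Φ.junk _ _ _ h3, Φ'.junk _ _ _ h3]

theorem Sub.refl (Φ : Patch E R) : Φ.Sub Φ :=
  fun S hS _ hx _ hy _ hz _ hu _ hv _ hw h1 h2 => (Φ.alt S hS).conj hx hy hz hu hv hw h1 h2

theorem Sub.comap (h : Φ'.Sub Φ) (f : R' → R) : (Φ'.comap f).Sub (Φ.comap f) := by
  intro S hS x hx y hy z hz u hu v hv w hw h1 h2
  let F : Col × R' → Col × R := fun x => (x.1, f x.2)
  have hF : Set.InjOn F S := fun x hx y hy e => hS hx hy (congrArg Prod.fst e :)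
  have hS' : Set.InjOn Prod.fst (F '' S) := by
    rintro _ ⟨x, hx, rfl⟩ _ ⟨y, hy, rfl⟩ e
    rw [hS hx hy e]
  have := h _ hS' _ ⟨x, hx, rfl⟩ _ ⟨y, hy, rfl⟩ _ ⟨z, hz, rfl⟩ _ ⟨u, hu, rfl⟩ _ ⟨v, hv, rfl⟩
    _ ⟨w, hw, rfl⟩ (d3_of_fst_p1 (d3_fst_p1 hS hx hy hz h1)) (d3_of_fst_p1 (d3_fst_p1 hS hu hv hw h2))
  rw [c3_map hF hx hy hz hu, c3_map hF hx hy hz hv, c3_map hF hx hy hz hw] at this
  exact this

theorem sub_one (p : Patch E Unit) : p.Sub (one E) := by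
  intro S hS x hx y hy z hz u hu v hv w hw h1 h2
  have := p.eqv _ _ _ (d3_fst_p1 hS hx hy hz h1) u v w (d3_fst_p1 hS hu hv hw h2)
  rw [c3_map hS hx hy hz hu, c3_map hS hx hy hz hv, c3_map hS hx hy hz hw] at this
  exact this

theorem zero_sub (Φ : Patch E R) : (zero E R).Sub Φ := by
  intro S hS x hx y hy z hz u hu v hv w hw h1 h2
  simp [zero]

/-- Transport along the group of a colour-injective section. -/
theorem Sub.transport (h : Φ'.Sub Φ) {S : Set (Col × R)} (hS : Set.InjOn Prod.fst S)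
    {g : Γ × Equiv.Perm (Col × R)} (hg : g ∈ altL S Φ.φ) {u v w : Col × R} (hu : u ∈ S)
    (hv : v ∈ S) (hw : w ∈ S) (h3 : D3 u v w) :
    g.1 * Φ'.φ u v w * g.1⁻¹ = Φ'.φ (g.2 u) (g.2 v) (g.2 w) :=
  altL_act (fun x y z u v w hx hy hz hu hv hw => h S hS x hx y hy z hz u hu v hv w hw) le_rfl hg
    hu hv hw h3

/-- Disjoint colours commute. -/
theorem commute_of_disjoint (Φ : Patch E R) (Φ' : Patch E R') {x y z : Col × R}
    {u v w : Col × R'} (hd : Disjoint ({x.1, y.1, z.1} : Set Col) {u.1, v.1, w.1}) :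
    Commute (Φ.φ x y z) (Φ'.φ u v w) := by
  by_cases h1 : D3 x.1 y.1 z.1
  · by_cases h2 : D3 u.1 v.1 w.1
    · exact E.ac _ _ _ h1 _ _ (Φ.good _ _ _ h1) (Φ'.good _ _ _ h2 _ _ _ h1 hd.symm)
    · rw [Φ'.junk _ _ _ h2]
      exact Commute.one_right _
  · rw [Φ.junk _ _ _ h1]
    exact Commute.one_left _

theorem commute_of_good_p1 (Φ : Patch E R) {δ : Γ} {J : Set Col} (hδ : Good E.Av J δ)
    {x y z : Col × R} (hx : x.1 ∉ J) (hy : y.1 ∉ J) (hz : z.1 ∉ J) :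
    Commute δ (Φ.φ x y z) := by
  by_cases h1 : D3 x.1 y.1 z.1
  · refine (E.ac _ _ _ h1 _ _ (Φ.good _ _ _ h1) (hδ _ _ _ h1 ?_)).symm
    simp [Set.disjoint_insert_right, hx, hy, hz]
  · rw [Φ.junk _ _ _ h1]
    exact Commute.one_right _

theorem Sub.comm_eq_p1 (h : Φ''.Sub Φ') {x b b' c d : Col × R}
    (hn : [x.1, b.1, b'.1, c.1, d.1].Nodup) :
    Φ''.φ x b b' = Φ''.φ x b c * Φ'.φ x b' d * (Φ''.φ x b c)⁻¹ * (Φ'.φ x b' d)⁻¹ ∧
      Φ''.φ x b b' = Φ'.φ x b c * Φ''.φ x b' d * (Φ'.φ x b c)⁻¹ * (Φ''.φ x b' d)⁻¹ := by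
  have hS := sec_list_p1 (l := [x, b, b', c, d]) hn
  have hn' : [x, b, b', c, d].Nodup := List.Nodup.of_map Prod.fst hn
  simp only [List.nodup_cons, List.mem_cons, List.not_mem_nil, or_false, not_or] at hn'
  obtain ⟨⟨n1, n2, n3, n4⟩, ⟨n5, n6, n7⟩, ⟨n8, n9⟩, n10, -⟩ := hn'
  have mx : x ∈ {t | t ∈ [x, b, b', c, d]} := by simp
  have mb : b ∈ {t | t ∈ [x, b, b', c, d]} := by simp
  have mb' : b' ∈ {t | t ∈ [x, b, b', c, d]} := by simp
  have mc : c ∈ {t | t ∈ [x, b, b', c, d]} := by simp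
  have md : d ∈ {t | t ∈ [x, b, b', c, d]} := by simp
  have e0 := (Φ''.alt _ hS).comm_eq mx mb mb' mc md ⟨n1, n5, n2⟩ n10
    (by simp [Ne.symm n3, Ne.symm n6, Ne.symm n8]) (by simp [Ne.symm n4, Ne.symm n7, Ne.symm n9])
  have d1 : D3 x b c := ⟨n1, n6, n3⟩
  have d2 : D3 x b' d := ⟨n2, n9, n4⟩
  have e1 := (h _ hS _ mx _ mb' _ md _ mx _ mb _ mc d2 d1).trans
    ((Φ''.alt _ hS).conj mx mb' md mx mb mc d2 d1).symm
  have e2 := (h _ hS _ mx _ mb _ mc _ mx _ mb' _ md d1 d2).trans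
    ((Φ''.alt _ hS).conj mx mb mc mx mb' md d1 d2).symm
  refine ⟨?_, by rw [e2, ← e0]⟩
  calc Φ''.φ x b b' = Φ''.φ x b c * (Φ''.φ x b' d * Φ''.φ x b c * (Φ''.φ x b' d)⁻¹)⁻¹ := by
        rw [e0]; group
    _ = _ := by rw [← e1]; group

/-- Heredity: an element `δ` living on the colours of the section `T` (at most three points) which
commutes with all triples of `Φ'` consistent with `T` does so for every part of `Φ'`. -/
theorem hered (h : Φ''.Sub Φ') {δ : Γ} {T : Set (Col × R)} (hT : T.encard ≤ 3)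
    (hδ : Good E.Av (Prod.fst '' T) δ)
    (hc : ∀ u v w, Set.InjOn Prod.fst (T ∪ {u, v, w}) → Commute δ (Φ'.φ u v w))
    {u v w : Col × R} (hi : Set.InjOn Prod.fst (T ∪ {u, v, w})) : Commute δ (Φ''.φ u v w) := by
  by_cases h3 : D3 u.1 v.1 w.1
  swap
  · rw [Φ''.junk _ _ _ h3]
    exact Commute.one_right _
  have hJ : (Prod.fst '' T).encard ≤ 20 :=
    (Set.encard_image_le _ _).trans (hT.trans (by norm_num))
  obtain ⟨a, a1, a2⟩ := fresh_set_p1 _ hJ [u.1, v.1, w.1] (by simp)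
  obtain ⟨b, b1, b2⟩ := fresh_set_p1 _ hJ [a, u.1, v.1, w.1] (by simp)
  obtain ⟨c, c1, c2⟩ := fresh_set_p1 _ hJ [b, a, u.1, v.1, w.1] (by simp)
  obtain ⟨d, d1, d2⟩ := fresh_set_p1 _ hJ [c, b, a, u.1, v.1, w.1] (by simp)
  simp only [List.mem_cons, List.not_mem_nil, or_false, not_or] at a2 b2 c2 d2
  have hS := sec_list_p1 (l := [(b, u.2), (a, u.2), u, v, w])
    (by simp [a2, b2, h3.1, h3.2.1, h3.2.2])
  refine (Φ''.alt _ hS).commute_of_pts_p1 (a := (a, u.2)) (w := (b, u.2)) (by simp) (by simp)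
    (by simp) (by simp) (by simp) (d3_of_fst_p1 h3) (by simp [Ne.symm b2.1])
    (by simp [Prod.ext_iff, a2]) (by simp [Prod.ext_iff, b2]) fun t ht => ?_
  have ht' : a ≠ t.1 ∧ b ≠ t.1 ∧ c ≠ t.1 ∧ d ≠ t.1 := by
    rcases ht with rfl | rfl | rfl <;> simp [a2, b2, c2, d2]
  rw [(h.comm_eq_p1 (c := (c, u.2)) (d := (d, u.2)) (by
    simp [Ne.symm b2.1, ht'.1, Ne.symm c2.2.1, Ne.symm d2.2.2.1, ht'.2.1, Ne.symm c2.1,
      Ne.symm d2.2.1, Ne.symm ht'.2.2.1, Ne.symm ht'.2.2.2, Ne.symm d2.1])).1]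
  have k1 : Commute δ (Φ''.φ (a, u.2) (b, u.2) (c, u.2)) := Φ''.commute_of_good_p1 hδ a1 b1 c1
  have k2 : Commute δ (Φ'.φ (a, u.2) t (d, u.2)) := by
    refine hc _ _ _ ?_
    have s1 : Set.InjOn Prod.fst (insert t T) :=
      hi.mono (Set.insert_subset (Or.inr ht) Set.subset_union_left)
    have s2 := sec_insert_p1 s1 (a := (a, u.2)) (by
      rw [Set.image_insert_eq]; exact fun e => e.elim ht'.1 a1)
    have s3 := sec_insert_p1 s2 (a := (d, u.2)) (by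
      rw [Set.image_insert_eq, Set.image_insert_eq]
      exact fun e => e.elim d2.2.2.1 fun e => e.elim ht'.2.2.2 d1)
    refine s3.mono ?_
    rintro s (hs | rfl | rfl | rfl) <;> simp [*]
  exact ((k1.mul_right k2).mul_right k1.inv_right).mul_right k2.inv_right

theorem good_mul_p1 {J : Set Col} {x y : Γ} (hx : Good E.Av J x) (hy : Good E.Av J y) :
    Good E.Av J (x * y) := fun a b c h1 h2 => Subgroup.mul_mem _ (hx a b c h1 h2) (hy a b c h1 h2)

theorem good_inv_p1 {J : Set Col} {x : Γ} (hx : Good E.Av J x) : Good E.Av J x⁻¹ :=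
  fun a b c h1 h2 => Subgroup.inv_mem _ (hx a b c h1 h2)

theorem commute_of_conj_p1 {a b c : Γ} (h : a * c * a⁻¹ = b * c * b⁻¹) : Commute (b⁻¹ * a) c := by
  show b⁻¹ * a * c = c * (b⁻¹ * a)
  calc b⁻¹ * a * c = b⁻¹ * (a * c * a⁻¹) * a := by group
    _ = _ := by rw [h]; group

theorem Sub.trans (h : Φ''.Sub Φ') (h' : Φ'.Sub Φ) : Φ''.Sub Φ := by
  intro S hS x hx y hy z hz u hu v hv w hw h1 h2
  have h3 := d3_fst_p1 hS hx hy hz h1
  have k := hered h (δ := (Φ'.φ x y z)⁻¹ * Φ.φ x y z) (T := {x, y, z}) (encard_three_p1 _ _ _)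
    (by
      simp only [Set.image_insert_eq, Set.image_singleton]
      exact good_mul_p1 (good_inv_p1 (Φ'.good _ _ _ h3)) (Φ.good _ _ _ h3))
    (fun a b c hi => by
      by_cases h4 : D3 a.1 b.1 c.1
      · exact commute_of_conj_p1 ((h' _ hi x (by simp) y (by simp) z (by simp) a (by simp) b
          (by simp) c (by simp) h1 (d3_of_fst_p1 h4)).trans (Sub.refl Φ' _ hi x (by simp) y
          (by simp) z (by simp) a (by simp) b (by simp) c (by simp) h1 (d3_of_fst_p1 h4)).symm)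
      · rw [Φ'.junk _ _ _ h4]
        exact Commute.one_right _)
    (u := u) (v := v) (w := w) (hS.mono (by
      rintro s ((rfl | rfl | rfl) | rfl | rfl | rfl) <;> assumption))
  rw [← h S hS x hx y hy z hz u hu v hv w hw h1 h2]
  calc Φ.φ x y z * Φ''.φ u v w * (Φ.φ x y z)⁻¹
      = Φ'.φ x y z * ((Φ'.φ x y z)⁻¹ * Φ.φ x y z * Φ''.φ u v w) * (Φ.φ x y z)⁻¹ := by group
    _ = _ := by rw [k.eq]; group

theorem fresh_two_p1 {x y z : Col} (h3 : D3 x y z) : ∃ c d, [x, y, z, c, d].Nodup := by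
  obtain ⟨c, hc⟩ := fresh_p1 [x, y, z] (by simp)
  obtain ⟨d, hd⟩ := fresh_p1 [c, x, y, z] (by simp)
  simp only [List.mem_cons, List.not_mem_nil, or_false, not_or] at hc hd
  exact ⟨c, d, by simp [h3.1, h3.2.1, h3.2.2, Ne.symm hc.1, Ne.symm hc.2.1, Ne.symm hc.2.2,
    Ne.symm hd.1, Ne.symm hd.2.1, Ne.symm hd.2.2.1, Ne.symm hd.2.2.2]⟩

theorem Sub.antisymm (h : Φ'.Sub Φ) (h' : Φ.Sub Φ') : Φ' = Φ := by
  refine ext_p1 fun x y z h3 => ?_
  obtain ⟨c, d, hn⟩ := fresh_two_p1 h3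
  exact (h.comm_eq_p1 (c := (c, x.2)) (d := (d, x.2)) hn).1.trans
    (h'.comm_eq_p1 (c := (c, x.2)) (d := (d, x.2)) hn).2.symm

theorem Orth.symm (h : p.Orth q) : q.Orth p := fun x y z u v w => (h u v w x y z).symm

theorem Orth.mono (h : p.Sub q) (h' : q.Orth r) : p.Orth r := by
  intro x y z u v w
  by_cases h3 : D3 u.1 v.1 w.1
  · refine (hered h (T := {u, v, w}) (encard_three_p1 _ _ _) ?_
      (fun a b c _ => (h' a b c u v w).symm) (sec_unit_p1 _)).symm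
    simp only [Set.image_insert_eq, Set.image_singleton]
    exact r.good _ _ _ h3
  · rw [r.junk _ _ _ h3]
    exact Commute.one_right _

theorem Orth.eq_zero (h : p.Orth p) : p = zero E Unit := by
  refine ext_p1 fun x y z h3 => ?_
  obtain ⟨c, d, hn⟩ := fresh_two_p1 h3
  rw [((Sub.refl p).comm_eq_p1 (c := (c, ())) (d := (d, ())) hn).1, (h _ _ _ _ _ _).eq]
  simp [zero]

theorem conj_mul_p1 (g a b : Γ) : g * (a * b) * g⁻¹ = (g * a * g⁻¹) * (g * b * g⁻¹) := by group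

theorem add_apply (h : p.Orth q) (x y z : Col × Unit) :
    (p.add q).φ x y z = p.φ x y z * q.φ x y z := by
  have H : ∃ s : Patch E Unit, ∀ x y z, s.φ x y z = p.φ x y z * q.φ x y z :=
    ⟨{ φ := fun x y z => p.φ x y z * q.φ x y z
       junk := fun x y z h => by rw [p.junk _ _ _ h, q.junk _ _ _ h, mul_one]
       alt := fun S hS => (p.alt S hS).mul_p1 (q.alt S hS) h
       eqv := fun a b c h x y z h' => by
        rw [conj_mul_p1, p.eqv a b c h x y z h', q.eqv a b c h x y z h']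
       good := fun x y z h => good_mul_p1 (p.good _ _ _ h) (q.good _ _ _ h) }, fun _ _ _ => rfl⟩
  rw [add, dif_pos H]
  exact H.choose_spec x y z

theorem sub_add_left (h : p.Orth q) : p.Sub (p.add q) := by
  intro S hS x hx y hy z hz u hu v hv w hw h1 h2
  rw [add_apply h, ← Sub.refl p S hS x hx y hy z hz u hu v hv w hw h1 h2, mul_assoc (p.φ x y z),
    ← (h u v w x y z).eq]
  group

theorem sub_add_right (h : p.Orth q) : q.Sub (p.add q) := by
  intro S hS x hx y hy z hz u hu v hv w hw h1 h2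
  rw [add_apply h, ← Sub.refl q S hS x hx y hy z hz u hu v hv w hw h1 h2, (h x y z x y z).eq,
    mul_assoc (q.φ x y z), (h x y z u v w).eq]
  group

theorem add_sub (h : p.Orth q) (hp : p.Sub r) (hq : q.Sub r) : (p.add q).Sub r := by
  intro S hS x hx y hy z hz u hu v hv w hw h1 h2
  rw [add_apply h, add_apply h, conj_mul_p1, hp S hS x hx y hy z hz u hu v hv w hw h1 h2,
    hq S hS x hx y hy z hz u hu v hv w hw h1 h2]

theorem orth_add (h : p.Orth q) (hp : r.Orth p) (hq : r.Orth q) : r.Orth (p.add q) := by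
  intro x y z u v w
  rw [add_apply h]
  exact (hp _ _ _ _ _ _).mul_right (hq _ _ _ _ _ _)

theorem sub_of_orth (h : p.Orth q) (hr : r.Sub (p.add q)) (hq : r.Orth q) : r.Sub p := by
  intro S hS x hx y hy z hz u hu v hv w hw h1 h2
  rw [← hr S hS x hx y hy z hz u hu v hv w hw h1 h2, add_apply h, mul_assoc (p.φ x y z) _ (r.φ u v w),
    ← (hq u v w x y z).eq]
  group

theorem exists_sub (h : p.Sub q) : ∃ r, p.Orth r ∧ q = p.add r := by
  have hc : ∀ x y z u v w, Commute (p.φ x y z) ((p.φ u v w)⁻¹ * q.φ u v w) := by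
    intro x y z u v w
    by_cases h1 : D3 x.1 y.1 z.1
    · by_cases h2 : D3 u.1 v.1 w.1
      · exact (commute_of_conj_p1 ((h _ (sec_unit_p1 Set.univ) u trivial v trivial w trivial x
          trivial y trivial z trivial (d3_of_fst_p1 h2) (d3_of_fst_p1 h1)).trans
          (Sub.refl p _ (sec_unit_p1 Set.univ) u trivial v trivial w trivial x
          trivial y trivial z trivial (d3_of_fst_p1 h2) (d3_of_fst_p1 h1)).symm)).symm
      · rw [p.junk _ _ _ h2, q.junk _ _ _ h2]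
        simp
    · rw [p.junk _ _ _ h1]
      exact Commute.one_left _
  let r : Patch E Unit :=
    { φ := fun x y z => (p.φ x y z)⁻¹ * q.φ x y z
      junk := fun x y z h => by rw [p.junk _ _ _ h, q.junk _ _ _ h]; simp
      alt := fun S hS => (p.alt S hS).div_p1 (by simpa using q.alt S hS) hc
      eqv := fun a b c h x y z h' => by
        rw [← p.eqv a b c h x y z h', ← q.eqv a b c h x y z h']
        group
      good := fun x y z h => good_mul_p1 (good_inv_p1 (p.good _ _ _ h)) (q.good _ _ _ h) }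
  refine ⟨r, hc, ext_p1 fun x y z _ => ?_⟩
  rw [add_apply (q := r) hc]
  simp [r]

theorem one_sided_p1 (Φ : Patch E R) {δ : Γ} {J : Set Col} (hJ : J.encard ≤ 3)
    (hδ : Good E.Av J δ) {x y z : Col × R}
    (h : ∀ t ∈ ({x, y, z} : Set (Col × R)), t.1 ∈ J → ∀ c₁ c₂, c₁ ∉ J → c₂ ∉ J →
      Commute δ (Φ.φ (c₁, t.2) (c₂, t.2) t)) : Commute δ (Φ.φ x y z) := by
  by_cases h3 : D3 x.1 y.1 z.1
  swap
  · rw [Φ.junk _ _ _ h3]
    exact Commute.one_right _
  have hJ' : J.encard ≤ 20 := hJ.trans (by norm_num)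
  obtain ⟨a, a1, a2⟩ := fresh_set_p1 _ hJ' [x.1, y.1, z.1] (by simp)
  obtain ⟨b, b1, b2⟩ := fresh_set_p1 _ hJ' [a, x.1, y.1, z.1] (by simp)
  obtain ⟨c, c1, c2⟩ := fresh_set_p1 _ hJ' [b, a] (by simp)
  obtain ⟨d, d1, d2⟩ := fresh_set_p1 _ hJ' [c, b, a] (by simp)
  simp only [List.mem_cons, List.not_mem_nil, or_false, not_or] at a2 b2 c2 d2
  have hS := sec_list_p1 (l := [(b, x.2), (a, x.2), x, y, z])
    (by simp [a2, b2, h3.1, h3.2.1, h3.2.2])
  refine (Φ.alt _ hS).commute_of_pts_p1 (a := (a, x.2)) (w := (b, x.2)) (by simp) (by simp)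
    (by simp) (by simp) (by simp) (d3_of_fst_p1 h3) (by simp [Ne.symm b2.1])
    (by simp [Prod.ext_iff, a2]) (by simp [Prod.ext_iff, b2]) fun t ht => ?_
  by_cases htJ : t.1 ∈ J
  swap
  · exact Φ.commute_of_good_p1 hδ a1 b1 htJ
  have step : ∀ k s s' : Col × R, k.1 ∉ J → s.1 ∉ J → s'.1 ∉ J → D3 k.1 s.1 s'.1 →
      Commute δ (Φ.φ k s' t) → Commute δ (Φ.φ s' s t) := by
    intro k s s' n1 n2 n3 n4 hc
    have m1 : k.1 ≠ t.1 := fun e => n1 (e ▸ htJ)
    have m2 : s.1 ≠ t.1 := fun e => n2 (e ▸ htJ)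
    have m3 : s'.1 ≠ t.1 := fun e => n3 (e ▸ htJ)
    have hA := Φ.alt _ (sec_list_p1 (l := [k, s, s', t])
      (by simp [n4.1, n4.2.1, n4.2.2, m1, m2, m3]))
    rw [hA.swap_p1 (x := s) (y := s') (z := t) (by simp) (by simp) (by simp)
      (d3_of_fst_p1 ⟨n4.2.1, m3, m2⟩), ← hA.mul (x := k) (by simp) (by simp) (by simp) (by simp)
      (d3_of_fst_p1 n4) (d3_of_fst_p1 ⟨n4.2.2, m3, m1⟩) (fun e => m2 (congrArg _ e))]
    exact ((Φ.commute_of_good_p1 hδ n1 n2 n3).mul_right hc).inv_right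
  exact step (c, t.2) (b, x.2) (a, x.2) c1 b1 a1 ⟨c2.1, b2.1, c2.2⟩
    (step (d, t.2) (a, x.2) (c, t.2) d1 a1 c1 ⟨d2.2.2, Ne.symm c2.2, d2.1⟩ (h t ht htJ d c d1 c1))

/-- Cross commutation. -/
theorem cross_comm (Φ : Patch E R) (Φ' : Patch E R') {x y z : Col × R} {u v w : Col × R'}
    (h : ∀ a ∈ ({x, y, z} : Set (Col × R)), ∀ b ∈ ({u, v, w} : Set (Col × R')), a.1 = b.1 →
      (Φ.sheet a.2).Orth (Φ'.sheet b.2)) : Commute (Φ.φ x y z) (Φ'.φ u v w) := by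
  by_cases h3 : D3 u.1 v.1 w.1
  swap
  · rw [Φ'.junk _ _ _ h3]
    exact Commute.one_right _
  refine (Φ.one_sided_p1 (encard_three_p1 _ _ _) (Φ'.good _ _ _ h3)
    fun t ht _ c₁ c₂ n1 n2 => ?_).symm
  by_cases h4 : D3 c₁ c₂ t.1
  swap
  · rw [Φ.junk (c₁, t.2) (c₂, t.2) t h4]
    exact Commute.one_right _
  refine (Φ'.one_sided_p1 (encard_three_p1 _ _ _) (Φ.good (c₁, t.2) (c₂, t.2) t h4)
    fun s hs hs' d₁ d₂ _ _ => ?_).symm
  have hsJ : s.1 ∈ ({u.1, v.1, w.1} : Set Col) := by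
    rcases hs with rfl | rfl | rfl <;> simp
  have e : t.1 = s.1 := by
    rcases hs' with e | e | e
    · exact absurd ((show s.1 = c₁ from e) ▸ hsJ) n1
    · exact absurd ((show s.1 = c₂ from e) ▸ hsJ) n2
    · exact e.symm
  exact h t ht s hs e (c₁, ()) (c₂, ()) (t.1, ()) (d₁, ()) (d₂, ()) (s.1, ())

theorem exists_move_p1 (Φ : Patch E R) (r₀ : R) {ι : Type} [Fintype ι] (x : ι → Col × R)
    (hx : Function.Injective fun i => (x i).1) (hc : Fintype.card ι ≤ 20) :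
    ∃ y : ι → Col, Function.Injective y ∧ ∃ g : Γ, ∀ Φ' : Patch E R, Φ'.Sub Φ → ∀ i j k,
      D3 i j k → Φ'.φ (x i) (x j) (x k) = g * Φ'.φ (y i, r₀) (y j, r₀) (y k, r₀) * g⁻¹ := by
  classical
  obtain ⟨f⟩ : Nonempty (ι ↪ ((Set.range fun i => (x i).1)ᶜ : Set Col)) := by
    refine Function.Embedding.nonempty_of_card_le ?_
    rw [Fintype.card_compl_set, Set.card_range_of_injective hx, Fintype.card_fin]
    omega
  let s : Col → R := fun c => if h : ∃ i, (x i).1 = c then (x h.choose).2 else r₀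
  have hS : Set.InjOn Prod.fst (Set.range fun c => (c, s c)) := by
    rintro _ ⟨c, rfl⟩ _ ⟨d, rfl⟩ e
    rw [show c = d from e]
  have hy : Function.Injective fun i => (f i : Col) := Subtype.val_injective.comp f.injective
  have m1 : ∀ i, x i ∈ Set.range fun c => (c, s c) := fun i => ⟨(x i).1, by
    have H : ∃ j, (x j).1 = (x i).1 := ⟨i, rfl⟩
    simp only [s, dif_pos H, hx H.choose_spec]⟩
  have m2 : ∀ i, ((f i : Col), r₀) ∈ Set.range fun c => (c, s c) := fun i => ⟨f i, by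
    have H : ¬ ∃ j, (x j).1 = f i := (f i).2
    simp only [s, dif_neg H]⟩
  obtain ⟨g, hg, hg'⟩ := altL_trans Φ.φ (fun i => ((f i : Col), r₀)) x
    (fun i j e => hy (congrArg Prod.fst e)) (fun i j e => hx (congrArg Prod.fst e)) m2 m1 (by
      rw [← Set.image_univ, Function.Injective.encard_image fun c d e => congrArg Prod.fst e,
        Set.encard_univ, Nat.card_eq_fintype_card]
      simp only [ENat.card_eq_coe_fintype_card, Fintype.card_fin]
      exact_mod_cast (by omega : Fintype.card ι + 2 ≤ 40))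
  refine ⟨_, hy, g.1, fun Φ' h i j k h3 => ?_⟩
  rw [h.transport hS hg (m2 i) (m2 j) (m2 k)
    (d3_of_fst_p1 ⟨hy.ne h3.1, hy.ne h3.2.1, hy.ne h3.2.2⟩), hg', hg', hg']

theorem exists_move3_p1 (Φ : Patch E R) (r₀ : R) {x y z : Col × R} (h3 : D3 x.1 y.1 z.1) :
    ∃ (a b c : Col) (g : Γ), ∀ Φ' : Patch E R, Φ'.Sub Φ →
      Φ'.φ x y z = g * (Φ'.sheet r₀).φ (a, ()) (b, ()) (c, ()) * g⁻¹ := by
  obtain ⟨f, -, g, hg⟩ := Φ.exists_move_p1 r₀ ![x, y, z] (by
    intro i j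
    fin_cases i <;> fin_cases j <;>
      simp [h3.1, h3.2.1, h3.2.2, h3.1.symm, h3.2.1.symm, h3.2.2.symm]) (by simp)
  exact ⟨f 0, f 1, f 2, g, fun Φ' h => hg Φ' h 0 1 2 (by simp [D3])⟩

/-- A part is determined by one sheet. -/
theorem Sub.unique (h : Φ'.Sub Φ) (h' : Φ''.Sub Φ) (r₀ : R) (he : Φ'.sheet r₀ = Φ''.sheet r₀) :
    Φ' = Φ'' := by
  refine ext_p1 fun x y z h3 => ?_
  obtain ⟨a, b, c, g, hg⟩ := Φ.exists_move3_p1 r₀ h3
  rw [hg _ h, hg _ h', he]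

/-- Orthogonality of two parts can be read on any sheet. -/
theorem Sub.orth_sheet (h : Φ'.Sub Φ) (h' : Φ''.Sub Φ) {r₀ : R}
    (ho : (Φ'.sheet r₀).Orth (Φ''.sheet r₀)) (r : R) : (Φ'.sheet r).Orth (Φ''.sheet r) := by
  intro x y z u v w
  by_cases h1 : D3 x.1 y.1 z.1
  swap
  · rw [(Φ'.sheet r).junk _ _ _ h1]
    exact Commute.one_left _
  by_cases h2 : D3 u.1 v.1 w.1
  swap
  · rw [(Φ''.sheet r).junk _ _ _ h2]
    exact Commute.one_right _
  let J : Finset Col := {x.1, y.1, z.1, u.1, v.1, w.1}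
  obtain ⟨f, -, g, hg⟩ := Φ.exists_move_p1 r₀ (fun i : J => ((i : Col), r)) Subtype.val_injective
    (by rw [Fintype.card_coe]; exact Finset.card_le_six.trans (by norm_num))
  have e1 := hg _ h ⟨x.1, by simp [J]⟩ ⟨y.1, by simp [J]⟩ ⟨z.1, by simp [J]⟩
    ⟨fun e => h1.1 (congrArg Subtype.val e), fun e => h1.2.1 (congrArg Subtype.val e),
      fun e => h1.2.2 (congrArg Subtype.val e)⟩
  have e2 := hg _ h' ⟨u.1, by simp [J]⟩ ⟨v.1, by simp [J]⟩ ⟨w.1, by simp [J]⟩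
    ⟨fun e => h2.1 (congrArg Subtype.val e), fun e => h2.2.1 (congrArg Subtype.val e),
      fun e => h2.2.2 (congrArg Subtype.val e)⟩
  show Commute (Φ'.φ (x.1, r) (y.1, r) (z.1, r)) (Φ''.φ (u.1, r) (v.1, r) (w.1, r))
  rw [e1, e2]
  exact (ho (_, ()) (_, ()) (_, ()) (_, ()) (_, ()) (_, ())).map (MulAut.conj g)

/-- Two complementary parts multiply to the whole. -/
theorem Sub.mul_eq (h : Φ'.Sub Φ) (h' : Φ''.Sub Φ) {r₀ : R}
    (ho : (Φ'.sheet r₀).Orth (Φ''.sheet r₀))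
    (he : Φ.sheet r₀ = (Φ'.sheet r₀).add (Φ''.sheet r₀)) (x y z : Col × R) :
    Φ.φ x y z = Φ'.φ x y z * Φ''.φ x y z := by
  by_cases h3 : D3 x.1 y.1 z.1
  · obtain ⟨a, b, c, g, hg⟩ := Φ.exists_move3_p1 r₀ h3
    rw [hg _ h, hg _ h', hg _ (Sub.refl Φ), he, add_apply ho, conj_mul_p1]
  · rw [Φ.junk _ _ _ h3, Φ'.junk _ _ _ h3, Φ''.junk _ _ _ h3, mul_one]

theorem eq_zero_of_sheet {r₀ : R} (h : Φ.sheet r₀ = zero E Unit) : Φ = zero E R :=
  (Sub.refl Φ).unique (zero_sub Φ) r₀ h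

/-- A patch is determined by its two-sheet parts through a base sheet. -/
theorem ext_sh2 (r₀ : R) (h : ∀ r, Φ.sh2 r₀ r = Φ'.sh2 r₀ r) : Φ = Φ' := by
  refine ext_p1 fun x y z h3 => ?_
  obtain ⟨a, a2⟩ := fresh_p1 [x.1, y.1, z.1] (by simp)
  obtain ⟨b, b2⟩ := fresh_p1 [a, x.1, y.1, z.1] (by simp)
  simp only [List.mem_cons, List.not_mem_nil, or_false, not_or] at a2 b2
  have hS := sec_list_p1 (l := [(b, r₀), (a, r₀), x, y, z])
    (by simp [a2, b2, h3.1, h3.2.1, h3.2.2])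
  have k : ∀ Ψ : Patch E R, Ψ.φ x y z = ext4 Ψ.φ (a, r₀) (b, r₀) x y z := fun Ψ =>
    (Ψ.alt _ hS).decomp (by simp) (by simp) (by simp) (by simp) (by simp) (d3_of_fst_p1 h3)
      (by simp [Ne.symm b2.1]) (by simp [Prod.ext_iff, a2]) (by simp [Prod.ext_iff, b2])
  have k1 : ∀ t : Col × R, Φ.φ (a, r₀) t (b, r₀) = Φ'.φ (a, r₀) t (b, r₀) := fun t =>
    congrArg (fun Ψ : Patch E Bool => Ψ.φ (a, false) (t.1, true) (b, false)) (h t.2)
  have k2 : ∀ t : Col × R, Φ.φ t (a, r₀) (b, r₀) = Φ'.φ t (a, r₀) (b, r₀) := fun t =>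
    congrArg (fun Ψ : Patch E Bool => Ψ.φ (t.1, true) (a, false) (b, false)) (h t.2)
  rw [k, k, ext4, ext4, k1, k1, k2, k2]

end Patch

end Vale.Agent.P196
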