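import Vale.Agent.P196.Patch1

/-! Restriction and gluing of patches. -/

namespace Vale.Agent.P196.Patch

variable {Γ : Type} [Group Γ] {E : Env Γ} {R : Type}

section restrict

variable {Φ : Patch E R} {r₀ : R} {p : Patch E Unit}

/-- the colours of the base points of a section -/
def baseC (r₀ : R) (Y : Set (Col × R)) : Set Col := {c | (c, r₀) ∈ Y}

theorem base_le_p2 (r₀ : R) (Y : Set (Col × R)) : (baseC r₀ Y).encard ≤ Y.encard := by
  rw [← Function.Injective.encard_image (f := fun c : Col => (c, r₀))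
    fun c d e => congrArg Prod.fst e]
  exact Set.encard_le_encard (by rintro _ ⟨c, hc, rfl⟩; exact hc)

theorem diff_ge_p2 {C F : Set Col} {k : ℕ∞} (hF : F.encard ≤ 3) (h : k + 3 ≤ C.encard) :
    k ≤ (C \ F).encard := by
  have h1 : C.encard ≤ (C \ F).encard + 3 :=
    (Set.encard_le_encard_sdiff_add_encard C F).trans (add_le_add_right hF _)
  exact (ENat.add_le_add_iff_right (by norm_num : (3 : ℕ∞) ≠ ⊤)).1 (h.trans h1)

theorem inj3_p2 {α : Type*} {x y z : α} (h : D3 x y z) : Function.Injective ![x, y, z] := by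
  intro i j
  fin_cases i <;> fin_cases j <;> simp [h.1, h.2.1, h.2.2, h.1.symm, h.2.1.symm, h.2.2.symm]

theorem trans3_p2 {α : Type*} (φ : α → α → α → Γ) {S : Set α} (hS : 5 ≤ S.encard)
    {x y z u v w : α} (h1 : D3 x y z) (h2 : D3 u v w) (hx : x ∈ S) (hy : y ∈ S) (hz : z ∈ S)
    (hu : u ∈ S) (hv : v ∈ S) (hw : w ∈ S) :
    ∃ g ∈ altL S φ, g.2 x = u ∧ g.2 y = v ∧ g.2 z = w := by
  obtain ⟨g, hg, h⟩ := altL_trans φ ![x, y, z] ![u, v, w] (inj3_p2 h1) (inj3_p2 h2)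
    (fun i => by fin_cases i <;> assumption) (fun i => by fin_cases i <;> assumption)
    (by simpa using (by norm_num : (3 : ℕ∞) + 2 ≤ 5).trans hS)
  exact ⟨g, hg, h 0, h 1, h 2⟩

theorem d3_base_p2 (r₀ : R) {a b c : Col} (h : D3 a b c) : D3 (a, r₀) (b, r₀) (c, r₀) :=
  d3_of_fst_p1 h

theorem exists_g_p2 (Φ : Patch E R) (r₀ : R) {Y : Set (Col × R)} (hY : 5 ≤ (baseC r₀ Y).encard)
    {x y z : Col × R} (h3 : D3 x y z) (hx : x ∈ Y) (hy : y ∈ Y) (hz : z ∈ Y) :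
    ∃ g ∈ altL Y Φ.φ, ∃ a b c, D3 a b c ∧ (a, r₀) ∈ Y ∧ (b, r₀) ∈ Y ∧ (c, r₀) ∈ Y ∧
      g.2 (a, r₀) = x ∧ g.2 (b, r₀) = y ∧ g.2 (c, r₀) = z := by
  obtain ⟨t, ht, ht3⟩ := Set.exists_subset_encard_eq ((by norm_num : (3 : ℕ∞) ≤ 5).trans hY)
  obtain ⟨a, b, c, n1, n2, n3, rfl⟩ := Set.encard_eq_three.1 ht3
  have ha : (a, r₀) ∈ Y := ht (by simp)
  have hb : (b, r₀) ∈ Y := ht (by simp)
  have hc : (c, r₀) ∈ Y := ht (by simp)
  obtain ⟨g, hg, h⟩ := trans3_p2 Φ.φ (hY.trans (base_le_p2 r₀ Y)) (d3_base_p2 r₀ ⟨n1, n3, n2⟩) h3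
    ha hb hc hx hy hz
  exact ⟨g, hg, a, b, c, ⟨n1, n3, n2⟩, ha, hb, hc, h⟩

theorem wd_p2 (h : p.Sub (Φ.sheet r₀)) {Y : Set (Col × R)} (hS : Set.InjOn Prod.fst Y)
    (hY : 6 ≤ (baseC r₀ Y).encard) {k : Γ × Equiv.Perm (Col × R)} (hk : k ∈ altL Y Φ.φ)
    {a b c a' b' c' : Col} (h1 : D3 a b c) (h2 : D3 a' b' c') (ha : (a, r₀) ∈ Y)
    (hb : (b, r₀) ∈ Y) (hc : (c, r₀) ∈ Y) (ha' : (a', r₀) ∈ Y) (hb' : (b', r₀) ∈ Y)
    (hc' : (c', r₀) ∈ Y) (e1 : k.2 (a, r₀) = (a', r₀)) (e2 : k.2 (b, r₀) = (b', r₀))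
    (e3 : k.2 (c, r₀) = (c', r₀)) :
    k.1 * p.φ (a, ()) (b, ()) (c, ()) * k.1⁻¹ = p.φ (a', ()) (b', ()) (c', ()) := by
  let Z : Set (Col × R) := {t | t ∈ Y ∧ t.2 = r₀}
  have hZ : Z ⊆ Y := fun t ht => ht.1
  have h5 : (5 : ℕ∞) ≤ 6 := by norm_num
  have hZ5 : 5 ≤ Z.encard := h5.trans (hY.trans (le_trans
    (Set.encard_le_encard fun c hc => (⟨hc, rfl⟩ : c ∈ baseC r₀ Z)) (base_le_p2 r₀ Z)))
  obtain ⟨j, hj, f1, f2, f3⟩ := trans3_p2 Φ.φ hZ5 (d3_base_p2 r₀ h1) (d3_base_p2 r₀ h2)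
    ⟨ha, rfl⟩ ⟨hb, rfl⟩ ⟨hc, rfl⟩ ⟨ha', rfl⟩ ⟨hb', rfl⟩ ⟨hc', rfl⟩
  have k1 := altL_act (T := Z) (ψ := fun u v w => p.φ (u.1, ()) (v.1, ()) (w.1, ()))
    (fun x y z u v w hx hy hz hu hv hw d1 d2 => by
      have hF : Set.InjOn (fun t : Col × R => (t.1, ())) Z := fun s hs t ht e =>
        hS hs.1 ht.1 (congrArg Prod.fst e :)
      have := h _ (sec_unit_p1 Set.univ) (x.1, ()) trivial (y.1, ()) trivial (z.1, ()) trivial
        (u.1, ()) trivial (v.1, ()) trivial (w.1, ()) trivial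
        (d3_of_fst_p1 (d3_fst_p1 hS hx.1 hy.1 hz.1 d1))
        (d3_of_fst_p1 (d3_fst_p1 hS hu.1 hv.1 hw.1 d2))
      rw [c3_map hF hx hy hz hu, c3_map hF hx hy hz hv, c3_map hF hx hy hz hw] at this
      have e : Φ.φ x y z = (Φ.sheet r₀).φ (x.1, ()) (y.1, ()) (z.1, ()) := by
        show _ = Φ.φ (x.1, r₀) (y.1, r₀) (z.1, r₀)
        rw [← hx.2]
        conv_rhs => rw [hx.2, ← hy.2]
        conv_rhs => rw [Prod.mk.eta, hy.2, ← hz.2, Prod.mk.eta, hz.2, ← hx.2]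
      rw [e]
      exact this) le_rfl hj (u := (a, r₀)) (v := (b, r₀)) (w := (c, r₀)) ⟨ha, rfl⟩ ⟨hb, rfl⟩
      ⟨hc, rfl⟩ (d3_base_p2 r₀ h1)
  rw [f1, f2, f3] at k1
  have k2 := (Φ.alt Y hS).stab_commute (F := {(a, r₀), (b, r₀), (c, r₀)}) (Set.toFinite _)
    (le_trans (diff_ge_p2 (encard_three_p1 a b c) ((by norm_num : (3 : ℕ∞) + 3 ≤ 6).trans hY))
      (le_trans (Set.encard_le_encard fun d hd => (⟨hd.1, by simpa using hd.2⟩ :
        d ∈ baseC r₀ (Y \ {(a, r₀), (b, r₀), (c, r₀)}))) (base_le_p2 r₀ _)))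
    (h5.trans (hY.trans (base_le_p2 r₀ Y)))
    (Subgroup.mul_mem _ (Subgroup.inv_mem _ (altL_mono hZ hj)) hk)
    (γ := p.φ (a, ()) (b, ()) (c, ()))
    (by
      rintro _ (rfl | rfl | rfl)
      · simp [e1, ← f1]
      · simp [e2, ← f2]
      · simp [e3, ← f3])
    (fun x y z hx hy hz _ => by
      refine p.commute_of_disjoint Φ ?_
      have k : ∀ t ∈ Y \ {(a, r₀), (b, r₀), (c, r₀)}, t.1 ∉ ({a, b, c} : Set Col) := by
        rintro t ht (e | e | e)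
        · exact ht.2 (by rw [hS ht.1 ha e]; simp)
        · exact ht.2 (by rw [hS ht.1 hb e]; simp)
        · exact ht.2 (by rw [hS ht.1 hc e]; simp)
      simp only [Set.disjoint_insert_right, Set.disjoint_singleton_right]
      exact ⟨k x hx, k y hy, k z hz⟩)
  rw [← k1]
  calc k.1 * p.φ (a, ()) (b, ()) (c, ()) * k.1⁻¹
      = j.1 * ((j.1⁻¹ * k.1) * p.φ (a, ()) (b, ()) (c, ())) * k.1⁻¹ := by group
    _ = j.1 * (p.φ (a, ()) (b, ()) (c, ()) * (j.1⁻¹ * k.1)) * k.1⁻¹ := by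
        rw [← (show Commute _ (j.1⁻¹ * k.1) from k2).eq]
    _ = _ := by group

/-- a set of points completed by base points off the colours `J` -/
def fill (r₀ : R) (T : Set (Col × R)) (J : Set Col) : Set (Col × R) :=
  T ∪ (fun c => (c, r₀)) '' (Prod.fst '' T ∪ J)ᶜ

theorem fill_sec_p2 (r₀ : R) {T : Set (Col × R)} (hT : Set.InjOn Prod.fst T) (J : Set Col) :
    Set.InjOn Prod.fst (fill r₀ T J) := by
  rintro s (hs | ⟨c, hc, rfl⟩) t (ht | ⟨d, hd, rfl⟩) e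
  · exact hT hs ht e
  · exact absurd (Or.inl ⟨s, hs, e⟩) hd
  · exact absurd (Or.inl ⟨t, ht, e.symm⟩) hc
  · exact Prod.ext e rfl

theorem fill_base_p2 (r₀ : R) {T : Set (Col × R)} (hT : T.encard ≤ 6) {J : Set Col}
    (hJ : J.encard ≤ 3) : 9 ≤ (baseC r₀ (fill r₀ T J)).encard := by
  refine le_trans ?_ (Set.encard_le_encard (s := (Prod.fst '' T ∪ J)ᶜ) fun c hc => Or.inr ⟨c, hc, rfl⟩)
  refine encard_compl_ge _ 9 (le_trans (add_le_add_left ((Set.encard_union_le _ _).trans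
    (add_le_add ((Set.encard_image_le _ _).trans hT) hJ)) _) (by norm_num))

theorem exists_val_p2 (h : p.Sub (Φ.sheet r₀)) : ∃ V : Col × R → Col × R → Col × R → Γ,
    (∀ x y z, ¬ D3 x.1 y.1 z.1 → V x y z = 1) ∧
    ∀ Y : Set (Col × R), Set.InjOn Prod.fst Y → 9 ≤ (baseC r₀ Y).encard → ∀ g ∈ altL Y Φ.φ,
      ∀ a b c, D3 a b c → (a, r₀) ∈ Y → (b, r₀) ∈ Y → (c, r₀) ∈ Y →
        V (g.2 (a, r₀)) (g.2 (b, r₀)) (g.2 (c, r₀)) =
          g.1 * p.φ (a, ()) (b, ()) (c, ()) * g.1⁻¹ := by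
  classical
  have h9 := fun x y z : Col × R => fill_base_p2 r₀ (T := {x, y, z}) (J := ∅)
    ((encard_three_p1 _ _ _).trans (by norm_num)) (by simp)
  choose G hG A B C hd hA hB hC e1 e2 e3 using fun (x y z : Col × R) (h3 : D3 x.1 y.1 z.1) =>
    exists_g_p2 Φ r₀ (le_trans (by norm_num) (h9 x y z)) (d3_of_fst_p1 h3) (Or.inl (by simp))
      (Or.inl (by simp)) (Or.inl (by simp))
  refine ⟨fun x y z => if h3 : D3 x.1 y.1 z.1 then (G x y z h3).1 * p.φ (A x y z h3, ())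
    (B x y z h3, ()) (C x y z h3, ()) * (G x y z h3).1⁻¹ else 1, fun x y z h3 => dif_neg h3,
    fun Y hS hY g hg a b c h1 ha hb hc => ?_⟩
  have hx := altL_mem hg ha
  have hy := altL_mem hg hb
  have hz := altL_mem hg hc
  have h2 := (d3_base_p2 r₀ h1).perm g.2
  have h3 := d3_fst_p1 hS hx hy hz h2
  generalize ex : g.2 (a, r₀) = x at hx h2 h3
  generalize ey : g.2 (b, r₀) = y at hy h2 h3
  generalize ez : g.2 (c, r₀) = z at hz h2 h3
  beta_reduce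
  rw [dif_pos h3]
  obtain ⟨k, hk, a', b', c', h4, ha', hb', hc', f1, f2, f3⟩ := exists_g_p2 Φ r₀
    (Y := Y ∩ fill r₀ {x, y, z} ∅)
    (le_trans (diff_ge_p2 (encard_three_p1 x.1 y.1 z.1) ((by norm_num : (5 : ℕ∞) + 3 ≤ 9).trans hY))
      (Set.encard_le_encard fun d hd => ⟨hd.1, Or.inr ⟨d, by
        simpa [Set.image_insert_eq] using hd.2, rfl⟩⟩)) h2 ⟨hx, Or.inl (by simp)⟩
      ⟨hy, Or.inl (by simp)⟩ ⟨hz, Or.inl (by simp)⟩
  have w1 := wd_p2 h hS (le_trans (by norm_num) hY) (Subgroup.mul_mem _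
    (Subgroup.inv_mem _ (altL_mono Set.inter_subset_left hk)) hg) h1 h4 ha hb hc ha'.1 hb'.1 hc'.1
    (by simp [ex, ← f1]) (by simp [ey, ← f2]) (by simp [ez, ← f3])
  have w2 := wd_p2 h (fill_sec_p2 r₀ (sec_three_p1 h3) ∅) (le_trans (by norm_num) (h9 x y z))
    (Subgroup.mul_mem _ (Subgroup.inv_mem _ (altL_mono Set.inter_subset_right hk)) (hG x y z h3))
    (hd x y z h3) h4 (hA x y z h3) (hB x y z h3) (hC x y z h3) ha'.2 hb'.2 hc'.2
    (by simp [e1, f1.symm]) (by simp [e2, f2.symm]) (by simp [e3, f3.symm])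
  have w3 := congrArg (fun t => k.1 * t * k.1⁻¹) (w2.trans w1.symm)
  simpa [mul_assoc] using w3

end restrict

theorem encard_six_p2 {α : Type*} (x y z u v w : α) :
    ({x, y, z} ∪ {u, v, w} : Set α).encard ≤ 6 :=
  (Set.encard_union_le _ _).trans
    ((add_le_add (encard_three_p1 _ _ _) (encard_three_p1 _ _ _)).trans (by norm_num))

theorem altL_conj_p2 (Φ : Patch E R) {Y : Set (Col × R)} (hS : Set.InjOn Prod.fst Y)
    {a b c : Col} (h : D3 a b c) {g : Γ × Equiv.Perm (Col × R)} (hg : g ∈ altL Y Φ.φ) :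
    (E.e a b c, (c3 a b c).prodCongr (Equiv.refl R)) * g *
      (E.e a b c, (c3 a b c).prodCongr (Equiv.refl R))⁻¹ ∈
      altL ((c3 a b c).prodCongr (Equiv.refl R) '' Y) Φ.φ := by
  induction hg using Subgroup.closure_induction with
  | mem g hg =>
    obtain ⟨x, y, z, hx, hy, hz, h3, rfl⟩ := hg
    refine Subgroup.subset_closure ⟨_, _, _, ⟨x, hx, rfl⟩, ⟨y, hy, rfl⟩, ⟨z, hz, rfl⟩,
      h3.perm _, Prod.ext ?_ ?_⟩
    · exact Φ.eqv a b c h x y z (d3_fst_p1 hS hx hy hz h3)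
    · exact c3_conj _ x y z
  | one => rw [mul_one, mul_inv_cancel]; exact Subgroup.one_mem _
  | mul g k _ _ hg hk =>
    have := Subgroup.mul_mem _ hg hk
    rwa [← conj_mul] 
  | inv g _ hg =>
    have := Subgroup.inv_mem _ hg
    rwa [conj_inv] at this

theorem exists_restrict (Φ : Patch E R) (r₀ : R) {p : Patch E Unit} (h : p.Sub (Φ.sheet r₀)) :
    ∃ Φ' : Patch E R, Φ'.Sub Φ ∧ Φ'.sheet r₀ = p := by
  obtain ⟨V, hj, hV⟩ := exists_val_p2 h
  have h59 : (5 : ℕ∞) ≤ 9 := by norm_num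
  have hsub : ∀ S : Set (Col × R), Set.InjOn Prod.fst S → ∀ x ∈ S, ∀ y ∈ S, ∀ z ∈ S, ∀ u ∈ S,
      ∀ v ∈ S, ∀ w ∈ S, D3 x y z → D3 u v w →
      Φ.φ x y z * V u v w * (Φ.φ x y z)⁻¹ = V (c3 x y z u) (c3 x y z v) (c3 x y z w) := by
    intro S hS x hx y hy z hz u hu v hv w hw h1 h2
    have s1 := fill_sec_p2 r₀ (T := {x, y, z} ∪ {u, v, w}) (hS.mono (by
      rintro s ((rfl | rfl | rfl) | rfl | rfl | rfl) <;> assumption)) ∅
    have s2 := fill_base_p2 r₀ (encard_six_p2 x y z u v w) (J := ∅) (by simp)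
    obtain ⟨g, hg, a, b, c, h3, ha, hb, hc, rfl, rfl, rfl⟩ := exists_g_p2 Φ r₀ (h59.trans s2) h2
      (Or.inl (by simp)) (Or.inl (by simp)) (Or.inl (by simp))
    have := hV _ s1 s2 ((Φ.φ x y z, c3 x y z) * g) (Subgroup.mul_mem _ (Subgroup.subset_closure
      ⟨x, y, z, Or.inl (by simp), Or.inl (by simp), Or.inl (by simp), h1, rfl⟩) hg) a b c h3 ha hb hc
    rw [hV _ s1 s2 g hg a b c h3 ha hb hc]
    refine Eq.trans ?_ this.symm
    simp [mul_assoc]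
  refine ⟨⟨V, hj, fun S hS => IsAlt.of_small fun T hTS hT => ?_, fun a b c h1 x y z h3 => ?_,
    fun x y z h3 a b c h1 hd => ?_⟩, hsub, ext_p1 fun x y z h3 => ?_⟩
  · have hT' := hS.mono hTS
    have s1 := fill_sec_p2 r₀ hT' ∅
    have s2 := fill_base_p2 r₀ hT (J := ∅) (by simp)
    have hfin : T.Finite := Set.finite_of_encard_le_coe (k := 6) hT
    obtain ⟨f, hf1, hf2⟩ := hfin.exists_injOn_of_encard_le
      (hT.trans ((by norm_num : (6 : ℕ∞) ≤ 9).trans s2))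
    have : Finite T := hfin
    obtain ⟨g, hg, hg'⟩ := altL_trans Φ.φ (S := fill r₀ T ∅) (fun i : T => (f i, r₀))
      Subtype.val (fun i j e => Subtype.ext (hf2 i.2 j.2 (congrArg Prod.fst e)))
      Subtype.val_injective (fun i => hf1 i.2) (fun i => Or.inl i.2) (by
        refine le_trans ?_ (s2.trans (base_le_p2 r₀ _))
        rw [Nat.card_coe_set_eq, hfin.cast_ncard_eq]
        exact (add_le_add_left hT 2).trans (by norm_num))
    have hi : Set.InjOn (fun t : Col × R => (f t, ())) T := fun s hs t ht e =>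
      hf2 hs ht (congrArg Prod.fst e :)
    refine (((p.alt _ (sec_unit_p1 Set.univ)).comap hi (Set.mapsTo_univ _ _)).map
      (MulAut.conj g.1).toMonoidHom).congr fun x y z hx hy hz h3 => ?_
    have := hV _ s1 s2 g hg (f x) (f y) (f z) ⟨fun e => h3.1 (hf2 hx hy e),
      fun e => h3.2.1 (hf2 hy hz e), fun e => h3.2.2 (hf2 hx hz e)⟩ (hf1 hx) (hf1 hy) (hf1 hz)
    rw [hg' ⟨x, hx⟩, hg' ⟨y, hy⟩, hg' ⟨z, hz⟩] at this
    exact this.symm
  · have s1 := fill_sec_p2 r₀ (sec_three_p1 h3) ∅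
    have s2 := fill_base_p2 r₀ (T := {x, y, z}) ((encard_three_p1 _ _ _).trans (by norm_num))
      (J := ∅) (by simp)
    obtain ⟨g, hg, a', b', c', h4, ha, hb, hc, e1, e2, e3⟩ := exists_g_p2 Φ r₀ (h59.trans s2)
      (d3_of_fst_p1 h3) (Or.inl (by simp)) (Or.inl (by simp)) (Or.inl (by simp))
    have k1 := hV _ s1 s2 g hg a' b' c' h4 ha hb hc
    have k2 := hV ((c3 a b c).prodCongr (Equiv.refl R) '' fill r₀ {x, y, z} ∅) (by
        rintro _ ⟨s, hs, rfl⟩ _ ⟨t, ht, rfl⟩ e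
        rw [s1 hs ht ((c3 a b c).injective e)])
      (le_trans s2 (by
        rw [← (c3 a b c).injective.encard_image]
        exact Set.encard_le_encard (by rintro _ ⟨d, hd, rfl⟩; exact ⟨_, hd, rfl⟩)))
      _ (altL_conj_p2 Φ s1 h1 hg) _ _ _ (h4.perm (c3 a b c)) ⟨_, ha, rfl⟩ ⟨_, hb, rfl⟩ ⟨_, hc, rfl⟩
    have k3 : ∀ (d : Col) (t : Col × R), g.2 (d, r₀) = t →
        ((E.e a b c, (c3 a b c).prodCongr (Equiv.refl R)) * g *
          (E.e a b c, (c3 a b c).prodCongr (Equiv.refl R))⁻¹ : Γ × Equiv.Perm (Col × R)).2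
          (c3 a b c d, r₀) = (c3 a b c t.1, t.2) := by
      intro d t e
      have : ((c3 a b c).prodCongr (Equiv.refl R) : Equiv.Perm (Col × R))⁻¹ (c3 a b c d, r₀) =
          (d, r₀) := Equiv.Perm.inv_eq_iff_eq.2 rfl
      simp only [Prod.snd_mul, Prod.snd_inv, Equiv.Perm.mul_apply, this, e]
      rfl
    rw [k3 _ _ e1, k3 _ _ e2, k3 _ _ e3, ← p.eqv a b c h1 (a', ()) (b', ()) (c', ()) h4] at k2
    rw [e1, e2, e3] at k1
    rw [k1, k2]
    simp [mul_assoc]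
  · have s1 := fill_sec_p2 r₀ (sec_three_p1 h3) {a, b, c}
    have s2 := fill_base_p2 r₀ (T := {x, y, z}) ((encard_three_p1 _ _ _).trans (by norm_num))
      (encard_three_p1 a b c)
    have s3 : ∀ t ∈ fill r₀ {x, y, z} {a, b, c}, t.1 ∉ ({a, b, c} : Set Col) := by
      rintro t (ht | ⟨d, hd', rfl⟩)
      · refine Set.disjoint_left.1 hd ?_
        rcases ht with rfl | rfl | rfl <;> simp
      · exact fun e => hd' (Or.inr e)
    obtain ⟨g, hg, a', b', c', h4, ha, hb, hc, e1, e2, e3⟩ := exists_g_p2 Φ r₀ (h59.trans s2)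
      (d3_of_fst_p1 h3) (Or.inl (by simp)) (Or.inl (by simp)) (Or.inl (by simp))
    have k1 := hV _ s1 s2 g hg a' b' c' h4 ha hb hc
    rw [e1, e2, e3] at k1
    have k2 : g.1 ∈ E.Av {a, b, c} := altL_le (fun u v w hu hv hw h5 =>
      Φ.good u v w (d3_fst_p1 s1 hu hv hw h5) a b c h1 (by
        simp only [Set.disjoint_insert_left, Set.disjoint_singleton_left]
        exact ⟨s3 u hu, s3 v hv, s3 w hw⟩)) hg
    rw [k1]
    refine Subgroup.mul_mem _ (Subgroup.mul_mem _ k2 (p.good _ _ _ h4 a b c h1 ?_))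
      (Subgroup.inv_mem _ k2)
    simp only [Set.disjoint_insert_left, Set.disjoint_singleton_left]
    exact ⟨s3 _ ha, s3 _ hb, s3 _ hc⟩
  · have := hV (fill r₀ ∅ ∅) (fill_sec_p2 r₀ (Set.injOn_empty _) ∅)
      (fill_base_p2 r₀ (by simp) (by simp)) 1 (Subgroup.one_mem _) x.1 y.1 z.1 h3
      (Or.inr ⟨_, by simp, rfl⟩) (Or.inr ⟨_, by simp, rfl⟩) (Or.inr ⟨_, by simp, rfl⟩)
    exact (by simpa using this :
      V (x.1, r₀) (y.1, r₀) (z.1, r₀) = p.φ (x.1, ()) (y.1, ()) (z.1, ()))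

theorem exists_glue (r₀ : R) (p : Patch E Unit) (w : R → Patch E Bool)
    (hw : ∀ r, (w r).sheet false = p) (h0 : w r₀ = p.comap fun _ => ()) :
    ∃ Ψ : Patch E R, ∀ r, Ψ.sh2 r₀ r = w r := by
  classical
  let Θ : R → Patch E R := fun r => (w r).comap fun r' => decide (r' ≠ r₀)
  let φ : Col × R → Col × R → Col × R → Γ := fun u v t =>
    (Θ (if u.2 ≠ r₀ then u.2 else if v.2 ≠ r₀ then v.2 else t.2)).φ u v t
  have hb : ∀ r a b c, (w r).φ (a, false) (b, false) (c, false) = p.φ (a, ()) (b, ()) (c, ()) :=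
    fun r a b c => congrArg (fun q : Patch E Unit => q.φ (a, ()) (b, ()) (c, ())) (hw r)
  have hφ : ∀ (r : R) (u v t : Col × R), (u.2 = r ∨ u.2 = r₀) → (v.2 = r ∨ v.2 = r₀) →
      (t.2 = r ∨ t.2 = r₀) → φ u v t = (Θ r).φ u v t := by
    intro r u v t hu hv ht
    by_cases h1 : u.2 = r₀
    · by_cases h2 : v.2 = r₀
      · by_cases h3 : t.2 = r₀
        · simp [φ, Θ, comap, h1, h2, h3, hb]
        · simp only [φ, h1, h2, ne_eq, not_true_eq_false, if_false, ht.resolve_right h3]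
      · have := hv.resolve_right h2
        subst this
        simp only [φ, h1, h2, ne_eq, not_true_eq_false, if_false, not_false_eq_true, if_true]
    · have := hu.resolve_right h1
      subst this
      simp only [φ, h1, ne_eq, not_false_eq_true, if_true]
  have hL : LocSys Prod.fst (fun c => (c, r₀)) (fun y y' : Col × R => y.1 ≠ y'.1) φ := by
    refine ⟨fun _ => rfl, fun y => ?_, fun y h => h rfl, fun y y' h c₁ c₂ c₃ c₄ hn hd => ?_⟩
    · have k : ∀ t ∈ insert y ((fun c => (c, r₀)) '' {c | c ≠ y.1}), t.2 = y.2 ∨ t.2 = r₀ := by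
        rintro t (rfl | ⟨c, -, rfl⟩)
        exacts [Or.inl rfl, Or.inr rfl]
      refine ((Θ y.2).alt _ (sec_insert_p1 ?_ ?_)).congr fun u v t hu hv ht _ =>
        (hφ _ u v t (k u hu) (k v hv) (k t ht)).symm
      · rintro _ ⟨c, -, rfl⟩ _ ⟨d, -, rfl⟩ e
        exact Prod.ext e rfl
      · rintro ⟨_, ⟨c, hc, rfl⟩, e⟩
        exact hc e
    · rw [hφ y.2 _ _ _ (Or.inl rfl) (Or.inr rfl) (Or.inr rfl),
        hφ y'.2 _ _ _ (Or.inl rfl) (Or.inr rfl) (Or.inr rfl)]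
      refine commute_of_disjoint _ _ ?_
      simp only [List.nodup_cons, List.mem_cons, List.not_mem_nil, or_false, not_or] at hn
      simp only [Set.disjoint_insert_left, Set.disjoint_singleton_left, Set.mem_insert_iff,
        Set.mem_singleton_iff, not_or] at hd ⊢
      exact ⟨⟨h, Ne.symm hd.2.2.1.1, Ne.symm hd.2.2.2.1⟩, ⟨hd.1.2, hn.1.2.1, hn.1.2.2⟩,
        hd.2.1.2, hn.2.1.1, hn.2.1.2⟩
  have fr : ∀ (x y z : Col × R), D3 x.1 y.1 z.1 → ∀ a b : Col, a ≠ b → a ∉ [x.1, y.1, z.1] →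
      b ∉ [x.1, y.1, z.1] → lext Prod.fst (fun c => (c, r₀)) φ x y z =
        (Θ y.2).φ (a, r₀) y (b, r₀) * (Θ x.2).φ x (a, r₀) (b, r₀) *
          (Θ z.2).φ (a, r₀) z (b, r₀) * (Θ y.2).φ y (a, r₀) (b, r₀) := by
    intro x y z h3 a b hab ha hb
    rw [hL.lext_fresh h3.1 h3.1.symm h3.2.1 h3.2.1.symm h3.2.2 h3.2.2.symm hab (by simpa using ha)
      (by simpa using hb), ext4, hφ y.2 _ y _ (Or.inr rfl) (Or.inl rfl) (Or.inr rfl),
      hφ x.2 x _ _ (Or.inl rfl) (Or.inr rfl) (Or.inr rfl),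
      hφ z.2 _ z _ (Or.inr rfl) (Or.inl rfl) (Or.inr rfl),
      hφ y.2 y _ _ (Or.inl rfl) (Or.inr rfl) (Or.inr rfl)]
  have two : ∀ x y z a b c : Col, ∃ s t : Col, s ≠ t ∧ s ∉ [x, y, z] ∧ t ∉ [x, y, z] ∧
      s ∉ [a, b, c] ∧ t ∉ [a, b, c] := by
    intro x y z a b c
    obtain ⟨s, hs⟩ := fresh_p1 ([x, y, z] ++ [a, b, c]) (by simp)
    obtain ⟨t, ht⟩ := fresh_p1 (s :: ([x, y, z] ++ [a, b, c])) (by simp)
    rw [List.mem_cons, not_or] at ht
    rw [List.mem_append, not_or] at hs ht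
    exact ⟨s, t, Ne.symm ht.1, hs.1, ht.2.1, hs.2, ht.2.2⟩
  refine ⟨⟨fun x y z => if D3 x.1 y.1 z.1 then lext Prod.fst (fun c => (c, r₀)) φ x y z else 1,
    fun x y z h3 => if_neg h3, fun S hS => IsAlt.of_small fun T hTS hT => ?_,
    fun a b c h1 x y z h3 => ?_, fun x y z h3 a b c h1 hd => ?_⟩,
    fun r => ext_p1 fun x y z h3 => ?_⟩
  · refine ((hL.isAlt (hT.trans (by norm_num)) fun s hs t ht hne e =>
      hne (hS (hTS hs) (hTS ht) e)).mono Set.subset_union_left).congr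
      fun x y z hx hy hz h3 => (if_pos (d3_fst_p1 hS (hTS hx) (hTS hy) (hTS hz) h3)).symm
  · obtain ⟨s, t, hst, s1, t1, s2, t2⟩ := two x.1 y.1 z.1 a b c
    have fx : ∀ d, d ∉ [a, b, c] → c3 a b c d = d := fun d hd => by
      simp only [List.mem_cons, List.not_mem_nil, or_false, not_or] at hd
      exact c3_other hd.1 hd.2.1 hd.2.2
    have nm : ∀ d, d ∉ [x.1, y.1, z.1] → d ∉ [a, b, c] →
        d ∉ [c3 a b c x.1, c3 a b c y.1, c3 a b c z.1] := fun d h4 h5 => by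
      rw [← fx d h5]
      simpa using h4
    rw [if_pos h3, if_pos (h3.perm (c3 a b c)), fr x y z h3 s t hst s1 t1,
      fr (c3 a b c x.1, x.2) (c3 a b c y.1, y.2) (c3 a b c z.1, z.2) (h3.perm (c3 a b c)) s t hst
        (nm s s1 s2) (nm t t1 t2)]
    simp only [List.mem_cons, List.not_mem_nil, or_false, not_or] at s1 t1
    rw [conj_mul_p1, conj_mul_p1, conj_mul_p1,
      (Θ y.2).eqv a b c h1 (s, r₀) y (t, r₀) ⟨s1.2.1, Ne.symm t1.2.1, hst⟩,
      (Θ x.2).eqv a b c h1 x (s, r₀) (t, r₀) ⟨Ne.symm s1.1, hst, Ne.symm t1.1⟩,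
      (Θ z.2).eqv a b c h1 (s, r₀) z (t, r₀) ⟨s1.2.2, Ne.symm t1.2.2, hst⟩,
      (Θ y.2).eqv a b c h1 y (s, r₀) (t, r₀) ⟨Ne.symm s1.2.1, hst, Ne.symm t1.2.1⟩,
      fx s s2, fx t t2]
  · obtain ⟨s, t, hst, s1, t1, s2, t2⟩ := two x.1 y.1 z.1 a b c
    rw [if_pos h3, fr x y z h3 s t hst s1 t1]
    simp only [List.mem_cons, List.not_mem_nil, or_false, not_or] at s1 t1
    have s3 : s ∉ ({a, b, c} : Set Col) := by simpa using s2
    have t3 : t ∉ ({a, b, c} : Set Col) := by simpa using t2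
    simp only [Set.disjoint_insert_left, Set.disjoint_singleton_left] at hd
    have k : ∀ (Ψ : Patch E R) (u v s : Col × R), D3 u.1 v.1 s.1 → u.1 ∉ ({a, b, c} : Set Col) →
        v.1 ∉ ({a, b, c} : Set Col) → s.1 ∉ ({a, b, c} : Set Col) → Ψ.φ u v s ∈ E.Av {a, b, c} :=
      fun Ψ u v s h4 n1 n2 n3 => Ψ.good u v s h4 a b c h1 (by
        simp only [Set.disjoint_insert_left, Set.disjoint_singleton_left]
        exact ⟨n1, n2, n3⟩)
    exact Subgroup.mul_mem _ (Subgroup.mul_mem _ (Subgroup.mul_mem _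
      (k _ _ _ _ ⟨s1.2.1, Ne.symm t1.2.1, hst⟩ s3 hd.2.1 t3)
      (k _ _ _ _ ⟨Ne.symm s1.1, hst, Ne.symm t1.1⟩ hd.1 s3 t3))
      (k _ _ _ _ ⟨s1.2.2, Ne.symm t1.2.2, hst⟩ s3 hd.2.2 t3))
      (k _ _ _ _ ⟨Ne.symm s1.2.1, hst, Ne.symm t1.2.1⟩ hd.2.1 s3 t3)
  · obtain ⟨s, t, hst, s1, t1, -, -⟩ := two x.1 y.1 z.1 x.1 x.1 x.1
    refine (if_pos h3).trans ((fr (x.1, cond x.2 r r₀) (y.1, cond y.2 r r₀) (z.1, cond z.2 r r₀)
      h3 s t hst s1 t1).trans ?_)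
    have k : ∀ u : Col × Bool,
        (Θ (cond u.2 r r₀)).φ (s, r₀) (u.1, cond u.2 r r₀) (t, r₀) =
          (w r).φ (s, false) u (t, false) ∧
        (Θ (cond u.2 r r₀)).φ (u.1, cond u.2 r r₀) (s, r₀) (t, r₀) =
          (w r).φ u (s, false) (t, false) := by
      rintro ⟨d, _ | _⟩
      · simp [Θ, comap, hb]
      · by_cases hr : r = r₀
        · subst hr
          simp [Θ, comap, h0]
        · simp [Θ, comap, hr]
    simp only [List.mem_cons, List.not_mem_nil, or_false, not_or] at s1 t1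
    have hS := sec_list_p1 (l := [(t, false), (s, false), x, y, z])
      (by simp [s1, t1, h3.1, h3.2.1, h3.2.2, Ne.symm hst])
    rw [((w r).alt _ hS).decomp (a := (s, false)) (w := (t, false)) (by simp) (by simp) (by simp)
      (by simp) (by simp) (d3_of_fst_p1 h3) (by simp [hst]) (by simp [Prod.ext_iff, s1])
      (by simp [Prod.ext_iff, t1]), ext4, (k x).2, (k y).1, (k y).2, (k z).1]

end Vale.Agent.P196.Patch
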