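import Vale.Agent.P196.AltBasic

namespace Vale.Agent.P196

section aux

variable {Y Γ : Type*} [Group Γ] {S : Set Y} {m : Y → Y → Y → Γ} {L L' : Subgroup Γ}

theorem split_fresh (hS : 9 ≤ S.encard) (l : List Y) (hl : l.length ≤ 8) : ∃ c ∈ S, c ∉ l := by
  classical
  by_contra h
  push Not at h
  have h1 : S ⊆ (l.toFinset : Set Y) := fun c hc => by simpa using h c hc
  have h2 := hS.trans (Set.encard_le_encard h1)
  rw [Set.encard_coe_eq_coe_finsetCard] at h2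
  have h3 : 9 ≤ l.toFinset.card := by exact_mod_cast h2
  have := List.toFinset_card_le l
  omega

/-- `u` is an `L`-component of `g` -/
def SplitC (L L' : Subgroup Γ) (g u : Γ) : Prop := u ∈ L ∧ ∃ u' ∈ L', g = u * u'

theorem SplitC.mul (hc : ∀ a ∈ L, ∀ b ∈ L', Commute a b) {g h u v : Γ} (h1 : SplitC L L' g u)
    (h2 : SplitC L L' h v) : SplitC L L' (g * h) (u * v) := by
  obtain ⟨hu, u', hu', rfl⟩ := h1
  obtain ⟨hv, v', hv', rfl⟩ := h2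
  refine ⟨L.mul_mem hu hv, u' * v', L'.mul_mem hu' hv', ?_⟩
  rw [mul_assoc, ← mul_assoc u', ← (hc v hv u' hu').eq]
  simp only [mul_assoc]

theorem SplitC.inv (hc : ∀ a ∈ L, ∀ b ∈ L', Commute a b) {g u : Γ} (h1 : SplitC L L' g u) :
    SplitC L L' g⁻¹ u⁻¹ := by
  obtain ⟨hu, u', hu', rfl⟩ := h1
  exact ⟨L.inv_mem hu, u'⁻¹, L'.inv_mem hu', by rw [(hc u hu u' hu').eq, mul_inv_rev]⟩

theorem SplitC.conj (hc : ∀ a ∈ L, ∀ b ∈ L', Commute a b) {g u w : Γ} (h1 : SplitC L L' g u)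
    (hw : w ∈ L) : g * w * g⁻¹ = u * w * u⁻¹ := by
  obtain ⟨-, u', hu', rfl⟩ := h1
  rw [mul_assoc u, ← (hc w hw u' hu').eq]
  group

theorem SplitC.comm_eq (hc : ∀ a ∈ L, ∀ b ∈ L', Commute a b) {g h u v u₁ v₁ : Γ}
    (h1 : SplitC L L' g u) (h2 : SplitC L L' h v) (h3 : SplitC L L' g u₁)
    (h4 : SplitC L L' h v₁) : u * v * u⁻¹ * v⁻¹ = u₁ * v₁ * u₁⁻¹ * v₁⁻¹ := by
  have e1 := (h1.conj hc h2.1).symm.trans (h3.conj hc h2.1)
  have e2 := (h2.conj hc (L.inv_mem h3.1)).symm.trans (h4.conj hc (L.inv_mem h3.1))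
  calc u * v * u⁻¹ * v⁻¹ = u₁ * (v * u₁⁻¹ * v⁻¹) := by rw [e1]; group
    _ = _ := by rw [e2]; group

open Classical in
/-- the commutator of the `L`-components -/
noncomputable def splitK (L L' : Subgroup Γ) (g h : Γ) : Γ :=
  if H : ∃ p : Γ × Γ, SplitC L L' g p.1 ∧ SplitC L L' h p.2 then
    H.choose.1 * H.choose.2 * H.choose.1⁻¹ * H.choose.2⁻¹ else 1

theorem splitK_eq (hc : ∀ a ∈ L, ∀ b ∈ L', Commute a b) {g h u v : Γ} (h1 : SplitC L L' g u)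
    (h2 : SplitC L L' h v) : splitK L L' g h = u * v * u⁻¹ * v⁻¹ := by
  have H : ∃ p : Γ × Γ, SplitC L L' g p.1 ∧ SplitC L L' h p.2 := ⟨(u, v), h1, h2⟩
  rw [splitK, dif_pos H]
  exact H.choose_spec.1.comm_eq hc H.choose_spec.2 h1 h2

theorem splitK_conj (hc : ∀ a ∈ L, ∀ b ∈ L', Commute a b) {g h k u v w : Γ}
    (h1 : SplitC L L' g u) (h2 : SplitC L L' h v) (h3 : SplitC L L' k w) :
    k * splitK L L' g h * k⁻¹ = splitK L L' (k * g * k⁻¹) (k * h * k⁻¹) := by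
  rw [splitK_eq hc h1 h2, splitK_eq hc ((h3.mul hc h1).mul hc (h3.inv hc))
    ((h3.mul hc h2).mul hc (h3.inv hc)), h3.conj hc (L.mul_mem (L.mul_mem (L.mul_mem h1.1 h2.1)
      (L.inv_mem h1.1)) (L.inv_mem h2.1))]
  group

theorem SplitC.commute (hc : ∀ a ∈ L, ∀ b ∈ L', Commute a b) {g k u v w : Γ}
    (h1 : SplitC L L' g u) (h2 : SplitC L L' g v) (h3 : SplitC L L' k w)
    (h : k * u * k⁻¹ = u) : k * v * k⁻¹ = v := by
  obtain ⟨hu, u', hu', e1⟩ := h1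
  obtain ⟨hv, v', hv', e2⟩ := h2
  have e : v = u * (u' * v'⁻¹) := by rw [← mul_assoc, ← e1, e2]; group
  have hz : u' * v'⁻¹ ∈ L := by
    have : u' * v'⁻¹ = u⁻¹ * v := by rw [e]; group
    rw [this]
    exact L.mul_mem (L.inv_mem hu) hv
  have h4 := h3.conj hc hz
  rw [(hc w h3.1 _ (L'.mul_mem hu' (L'.inv_mem hv'))).eq, mul_inv_cancel_right] at h4
  calc k * v * k⁻¹ = (k * u * k⁻¹) * (k * (u' * v'⁻¹) * k⁻¹) := by rw [e]; group
    _ = v := by rw [h, h4, ← e]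

/-- admissible auxiliary points -/
def SplitV (S : Set Y) (x b b' c d : Y) : Prop :=
  c ∈ S ∧ d ∈ S ∧ c ≠ d ∧ c ∉ ({x, b, b'} : Set Y) ∧ d ∉ ({x, b, b'} : Set Y)

theorem split_half (h : IsAlt S m) (hS : 9 ≤ S.encard) (hc : ∀ a ∈ L, ∀ b ∈ L', Commute a b)
    (hm : ∀ x y z, x ∈ S → y ∈ S → z ∈ S → D3 x y z → ∃ a, SplitC L L' (m x y z) a) :
    ∃ μ : Y → Y → Y → Γ, IsAlt S μ ∧
      ∀ x b b' c d, x ∈ S → b ∈ S → b' ∈ S → D3 x b b' → SplitV S x b b' c d →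
        ∀ u v, SplitC L L' (m x b c) u → SplitC L L' (m x b' d) v →
          μ x b b' = u * v * u⁻¹ * v⁻¹ := by
  classical
  have d1 : ∀ {x b b' c d}, D3 x b b' → SplitV S x b b' c d → D3 x b c ∧ D3 x b' d := by
    rintro x b b' c d ⟨a1, a2, a3⟩ ⟨-, -, -, a4, a5⟩
    simp only [Set.mem_insert_iff, Set.mem_singleton_iff, not_or] at a4 a5
    exact ⟨⟨a1, Ne.symm a4.2.1, Ne.symm a4.1⟩, a3, Ne.symm a5.2.2, Ne.symm a5.1⟩
  have ex : ∀ (x b b' : Y) (l : List Y), l.length ≤ 4 →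
      ∃ c d, SplitV S x b b' c d ∧ c ∉ l ∧ d ∉ l := by
    intro x b b' l hl
    obtain ⟨c, hc, hc'⟩ := split_fresh hS (x :: b :: b' :: l) (by simp; omega)
    obtain ⟨d, hd, hd'⟩ := split_fresh hS (c :: x :: b :: b' :: l) (by simp; omega)
    simp only [List.mem_cons, not_or] at hc' hd'
    exact ⟨c, d, ⟨hc, hd, Ne.symm hd'.1, by simp [hc'], by simp [hd']⟩, hc'.2.2.2, hd'.2.2.2.2⟩
  have cmp : ∀ {x b b' c d}, x ∈ S → b ∈ S → b' ∈ S → D3 x b b' → SplitV S x b b' c d →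
      SplitC L L' (m x b b') (splitK L L' (m x b c) (m x b' d)) := by
    intro x b b' c d hx hb hb' h3 hv
    obtain ⟨u, hu⟩ := hm x b c hx hb hv.1 (d1 h3 hv).1
    obtain ⟨v, hv'⟩ := hm x b' d hx hb' hv.2.1 (d1 h3 hv).2
    rw [splitK_eq hc hu hv', h.comm_eq hx hb hb' hv.1 hv.2.1 h3 hv.2.2.1 hv.2.2.2.1 hv.2.2.2.2]
    exact ((hu.mul hc hv').mul hc (hu.inv hc)).mul hc (hv'.inv hc)
  have eqv : ∀ {p q r x b b' c d}, p ∈ S → q ∈ S → r ∈ S → D3 p q r → x ∈ S → b ∈ S → b' ∈ S →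
      D3 x b b' → SplitV S x b b' c d →
      m p q r * splitK L L' (m x b c) (m x b' d) * (m p q r)⁻¹ =
        splitK L L' (m (c3 p q r x) (c3 p q r b) (c3 p q r c))
          (m (c3 p q r x) (c3 p q r b') (c3 p q r d)) := by
    intro p q r x b b' c d hp hq hr h3' hx hb hb' h3 hv
    obtain ⟨u, hu⟩ := hm x b c hx hb hv.1 (d1 h3 hv).1
    obtain ⟨v, hv'⟩ := hm x b' d hx hb' hv.2.1 (d1 h3 hv).2
    obtain ⟨w, hw⟩ := hm p q r hp hq hr h3'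
    rw [splitK_conj hc hu hv' hw, h.conj hp hq hr hx hb hv.1 h3' (d1 h3 hv).1,
      h.conj hp hq hr hx hb' hv.2.1 h3' (d1 h3 hv).2]
  have mov : ∀ {p q r x b b' c d}, p ∈ S → q ∈ S → r ∈ S → D3 p q r → x ∈ S → b ∈ S → b' ∈ S →
      D3 x b b' → SplitV S x b b' c d → x ∉ [p, q, r] → b ∉ [p, q, r] → b' ∉ [p, q, r] →
      splitK L L' (m x b c) (m x b' d) =
        splitK L L' (m x b (c3 p q r c)) (m x b' (c3 p q r d)) := by
    intro p q r x b b' c d hp hq hr h3' hx hb hb' h3 hv n1 n2 n3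
    have fx : ∀ {y}, y ∉ [p, q, r] → c3 p q r y = y := fun hy => by
      simp only [List.mem_cons, List.not_mem_nil, or_false, not_or] at hy
      exact c3_other hy.1 hy.2.1 hy.2.2
    obtain ⟨c1, d1', hv1, n4, n5⟩ := ex x b b' [p, q, r] (by simp)
    obtain ⟨w, hw⟩ := hm p q r hp hq hr h3'
    have e1 := eqv hp hq hr h3' hx hb hb' h3 hv1
    have e2 := eqv hp hq hr h3' hx hb hb' h3 hv
    rw [fx n1, fx n2, fx n3] at e1 e2
    rw [fx n4, fx n5] at e1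
    rw [← e2, (cmp hx hb hb' h3 hv1).commute hc (cmp hx hb hb' h3 hv) hw e1]
  have movc : ∀ {x b b' c c' d}, x ∈ S → b ∈ S → b' ∈ S → D3 x b b' → SplitV S x b b' c d →
      SplitV S x b b' c' d →
      splitK L L' (m x b c) (m x b' d) = splitK L L' (m x b c') (m x b' d) := by
    intro x b b' c c' d hx hb hb' h3 hv hv'
    rcases eq_or_ne c c' with rfl | hne
    · rfl
    obtain ⟨r, -, ⟨hr, -, -, a1, -⟩, a2, -⟩ := ex x b b' [c, c', d] (by simp)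
    obtain ⟨-, -, a3, a4, -⟩ := id hv
    obtain ⟨-, -, a5, a6, -⟩ := id hv'
    simp only [Set.mem_insert_iff, Set.mem_singleton_iff, List.mem_cons, List.not_mem_nil,
      or_false, not_or] at a1 a2 a4 a6
    have h3' : D3 c c' r := ⟨hne, Ne.symm a2.2.1, Ne.symm a2.1⟩
    rw [mov hv.1 hv'.1 hr h3' hx hb hb' h3 hv (by simp [Ne.symm a1.1, Ne.symm a4.1, Ne.symm a6.1])
      (by simp [Ne.symm a1.2.1, Ne.symm a4.2.1, Ne.symm a6.2.1])
      (by simp [Ne.symm a1.2.2, Ne.symm a4.2.2, Ne.symm a6.2.2]), c3_fst h3',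
      c3_other a3.symm a5.symm (Ne.symm a2.2.2)]
  have movd : ∀ {x b b' c d d'}, x ∈ S → b ∈ S → b' ∈ S → D3 x b b' → SplitV S x b b' c d →
      SplitV S x b b' c d' →
      splitK L L' (m x b c) (m x b' d) = splitK L L' (m x b c) (m x b' d') := by
    intro x b b' c d d' hx hb hb' h3 hv hv'
    rcases eq_or_ne d d' with rfl | hne
    · rfl
    obtain ⟨r, -, ⟨hr, -, -, a1, -⟩, a2, -⟩ := ex x b b' [d, d', c] (by simp)
    obtain ⟨-, -, a3, -, a4⟩ := id hv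
    obtain ⟨-, -, a5, -, a6⟩ := id hv'
    simp only [Set.mem_insert_iff, Set.mem_singleton_iff, List.mem_cons, List.not_mem_nil,
      or_false, not_or] at a1 a2 a4 a6
    have h3' : D3 d d' r := ⟨hne, Ne.symm a2.2.1, Ne.symm a2.1⟩
    rw [mov hv.2.1 hv'.2.1 hr h3' hx hb hb' h3 hv
      (by simp [Ne.symm a1.1, Ne.symm a4.1, Ne.symm a6.1])
      (by simp [Ne.symm a1.2.1, Ne.symm a4.2.1, Ne.symm a6.2.1])
      (by simp [Ne.symm a1.2.2, Ne.symm a4.2.2, Ne.symm a6.2.2]), c3_fst h3',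
      c3_other a3 a5 (Ne.symm a2.2.2)]
  choose fc fd hf using fun x b b' => ex x b b' [] (by simp)
  let μ : Y → Y → Y → Γ := fun x b b' => splitK L L' (m x b (fc x b b')) (m x b' (fd x b b'))
  have hμ : ∀ {x b b' c d}, x ∈ S → b ∈ S → b' ∈ S → D3 x b b' → SplitV S x b b' c d →
      μ x b b' = splitK L L' (m x b c) (m x b' d) := by
    intro x b b' c d hx hb hb' h3 hv
    have hv0 := (hf x b b').1
    obtain ⟨r, -, ⟨hr, -, -, a1, -⟩, a2, -⟩ := ex x b b' [fd x b b', d] (by simp)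
    simp only [List.mem_cons, List.not_mem_nil, or_false, not_or] at a2
    have v1 : SplitV S x b b' r (fd x b b') := ⟨hr, hv0.2.1, a2.1, a1, hv0.2.2.2.2⟩
    have v2 : SplitV S x b b' r d := ⟨hr, hv.2.1, a2.2, a1, hv.2.2.2.2⟩
    exact (movc hx hb hb' h3 hv0 v1).trans ((movd hx hb hb' h3 v1 v2).trans
      (movc hx hb hb' h3 v2 hv))
  have cμ : ∀ {x b b'}, x ∈ S → b ∈ S → b' ∈ S → D3 x b b' → SplitC L L' (m x b b') (μ x b b') :=
    fun hx hb hb' h3 => cmp hx hb hb' h3 (hf _ _ _).1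
  have conj : ∀ ⦃x y z u v w⦄, x ∈ S → y ∈ S → z ∈ S → u ∈ S → v ∈ S → w ∈ S → D3 x y z →
      D3 u v w → μ x y z * μ u v w * (μ x y z)⁻¹ = μ (c3 x y z u) (c3 x y z v) (c3 x y z w) := by
    intro x y z u v w hx hy hz hu hv hw h1 h2
    obtain ⟨a1, a2, a3, a4, a5⟩ := (hf u v w).1
    rw [← (cμ hx hy hz h1).conj hc (cμ hu hv hw h2).1, eqv hx hy hz h1 hu hv hw h2 (hf u v w).1]
    refine (hμ (c3_mem hx hy hz hu) (c3_mem hx hy hz hv) (c3_mem hx hy hz hw) (h2.perm _)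
      ⟨c3_mem hx hy hz a1, c3_mem hx hy hz a2, (c3 x y z).injective.ne a3, ?_, ?_⟩).symm
    · simpa using a4
    · simpa using a5
  have cyc : ∀ ⦃x y z⦄, x ∈ S → y ∈ S → z ∈ S → D3 x y z → μ x y z = μ y z x := by
    intro x y z hx hy hz h3
    have := conj hx hy hz hx hy hz h3 h3
    rwa [c3_fst h3, c3_snd h3, c3_thd h3, mul_inv_cancel_right] at this
  refine ⟨μ, IsAlt.of_no_inv (le_trans (by norm_num) hS) cyc conj ?_,
    fun x b b' c d hx hb hb' h3 hv u v hu hv' => by rw [hμ hx hb hb' h3 hv, splitK_eq hc hu hv']⟩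
  intro x b c v hx hb hc' hv h1 h2 hbv
  obtain ⟨d, -, ⟨hd, -, -, a1, -⟩, a2, -⟩ := ex b c x [v] (by simp)
  have h3 : D3 b c x := ⟨h1.2.1, h1.2.2.symm, h1.1.symm⟩
  have vv : SplitV S b c x v d := ⟨hv, hd, fun e => a2 (by simp [e]),
    by simp [hbv.symm, h2.2.1.symm, h2.2.2.symm], a1⟩
  obtain ⟨h4, h5⟩ := d1 h3 vv
  have e1 := (hμ hb hc' hx h3 vv).trans (splitK_eq hc (cμ hb hc' hv h4) (cμ hb hx hd h5))
  have e2 := conj hb hx hd hb hc' hv h5 h4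
  simp only [Set.mem_insert_iff, Set.mem_singleton_iff, not_or] at a1
  rw [c3_fst h5, c3_other h3.1.symm h3.2.1 (Ne.symm a1.2.1),
    c3_other hbv.symm h2.2.2.symm vv.2.2.1] at e2
  rw [cyc hx hb hc' h1, e1, ← e2]
  group

end aux

/-- Splitting: an alternating system with values in a product of two commuting subgroups is a
product of two alternating systems, given by commutators of arbitrary components. -/
theorem IsAlt.split {Y Γ : Type*} [Group Γ] {S : Set Y} {m : Y → Y → Y → Γ} (h : IsAlt S m)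
    (hS : 9 ≤ S.encard) (L L' : Subgroup Γ) (hc : ∀ a ∈ L, ∀ b ∈ L', Commute a b)
    (hm : ∀ x y z, x ∈ S → y ∈ S → z ∈ S → D3 x y z → ∃ a ∈ L, ∃ b ∈ L', m x y z = a * b) :
    ∃ μ μ' : Y → Y → Y → Γ, IsAlt S μ ∧ IsAlt S μ' ∧
      (∀ x y z, x ∈ S → y ∈ S → z ∈ S → D3 x y z →
        μ x y z ∈ L ∧ μ' x y z ∈ L' ∧ m x y z = μ x y z * μ' x y z) ∧
      ∀ x b b' c d, x ∈ S → b ∈ S → b' ∈ S → c ∈ S → d ∈ S → D3 x b b' → c ≠ d →
        c ∉ ({x, b, b'} : Set Y) → d ∉ ({x, b, b'} : Set Y) →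
        ∀ u ∈ L, ∀ u' ∈ L', ∀ v ∈ L, ∀ v' ∈ L', m x b c = u * u' → m x b' d = v * v' →
          μ x b b' = u * v * u⁻¹ * v⁻¹ ∧ μ' x b b' = u' * v' * u'⁻¹ * v'⁻¹ := by
  have hc' : ∀ a ∈ L', ∀ b ∈ L, Commute a b := fun a ha b hb => (hc b hb a ha).symm
  obtain ⟨μ, h1, h2⟩ := split_half h hS hc hm
  obtain ⟨μ', h1', h2'⟩ := split_half h hS hc' fun x y z hx hy hz h3 => by
    obtain ⟨a, ha, b, hb, e⟩ := hm x y z hx hy hz h3
    exact ⟨b, hb, a, ha, e.trans (hc a ha b hb).eq⟩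
  have key : ∀ x b b' c d, x ∈ S → b ∈ S → b' ∈ S → c ∈ S → d ∈ S → D3 x b b' → c ≠ d →
      c ∉ ({x, b, b'} : Set Y) → d ∉ ({x, b, b'} : Set Y) →
      ∀ u ∈ L, ∀ u' ∈ L', ∀ v ∈ L, ∀ v' ∈ L', m x b c = u * u' → m x b' d = v * v' →
        μ x b b' = u * v * u⁻¹ * v⁻¹ ∧ μ' x b b' = u' * v' * u'⁻¹ * v'⁻¹ :=
    fun x b b' c d hx hb hb' hc1 hd h3 hcd n1 n2 u hu u' hu' v hv v' hv' e1 e2 =>
      ⟨h2 x b b' c d hx hb hb' h3 ⟨hc1, hd, hcd, n1, n2⟩ u v ⟨hu, u', hu', e1⟩ ⟨hv, v', hv', e2⟩,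
        h2' x b b' c d hx hb hb' h3 ⟨hc1, hd, hcd, n1, n2⟩ u' v'
          ⟨hu', u, hu, e1.trans (hc u hu u' hu').eq⟩ ⟨hv', v, hv, e2.trans (hc v hv v' hv').eq⟩⟩
  refine ⟨μ, μ', h1, h1', fun x y z hx hy hz h3 => ?_, key⟩
  obtain ⟨c, hc1, n1⟩ := split_fresh hS [x, y, z] (by simp)
  obtain ⟨d, hd, n2⟩ := split_fresh hS [c, x, y, z] (by simp)
  simp only [List.mem_cons, List.not_mem_nil, or_false, not_or] at n1 n2
  have n3 : c ∉ ({x, y, z} : Set Y) := by simp [n1]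
  have n4 : d ∉ ({x, y, z} : Set Y) := by simp [n2]
  obtain ⟨u, hu, u', hu', e1⟩ := hm x y c hx hy hc1 ⟨h3.1, Ne.symm n1.2.1, Ne.symm n1.1⟩
  obtain ⟨v, hv, v', hv', e2⟩ := hm x z d hx hz hd ⟨h3.2.2, Ne.symm n2.2.2.2, Ne.symm n2.2.1⟩
  obtain ⟨k1, k2⟩ := key x y z c d hx hy hz hc1 hd h3 (Ne.symm n2.1) n3 n4 u hu u' hu' v hv v' hv'
    e1 e2
  have m1 := L.mul_mem (L.mul_mem (L.mul_mem hu hv) (L.inv_mem hu)) (L.inv_mem hv)
  have m2 := L'.mul_mem (L'.mul_mem (L'.mul_mem hu' hv') (L'.inv_mem hu')) (L'.inv_mem hv')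
  refine ⟨k1 ▸ m1, k2 ▸ m2, ?_⟩
  rw [k1, k2, h.comm_eq hx hy hz hc1 hd h3 (Ne.symm n2.1) n3 n4, e1, e2]
  have c1 := (hc v hv u' hu').eq
  have c2 := (hc _ (L.inv_mem hu) _ (L'.mul_mem (L'.mul_mem hu' hv') (L'.inv_mem hu'))).eq
  have c3 := (hc _ (L.inv_mem hv) _ m2).eq
  calc u * u' * (v * v') * (u * u')⁻¹ * (v * v')⁻¹
      = u * (u' * v) * v' * u'⁻¹ * u⁻¹ * v'⁻¹ * v⁻¹ := by group
    _ = u * v * ((u' * v' * u'⁻¹) * u⁻¹) * v'⁻¹ * v⁻¹ := by rw [← c1]; group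
    _ = u * v * u⁻¹ * ((u' * v' * u'⁻¹ * v'⁻¹) * v⁻¹) := by rw [← c2]; group
    _ = _ := by rw [← c3]; group

end Vale.Agent.P196
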