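import Vale.Agent.P196.Patch1
import Vale.Agent.P196.Split

namespace Vale.Agent.P196.Patch

variable {Γ : Type} [Group Γ] {E : Env Γ}

/-- Commutator. -/
def fhC (u v : Γ) : Γ := u * v * u⁻¹ * v⁻¹

theorem fhC_conj (γ u v : Γ) : γ * fhC u v * γ⁻¹ = fhC (γ * u * γ⁻¹) (γ * v * γ⁻¹) := by
  unfold fhC; group

theorem fhC_mem {K : Subgroup Γ} {u v : Γ} (hu : u ∈ K) (hv : v ∈ K) : fhC u v ∈ K :=
  K.mul_mem (K.mul_mem (K.mul_mem hu hv) (K.inv_mem hu)) (K.inv_mem hv)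

theorem fhC_mul {u v u' v' : Γ} (h1 : Commute u u') (h2 : Commute u v') (h3 : Commute v u')
    (h4 : Commute v v') : fhC (u * u') (v * v') = fhC u v * fhC u' v' := by
  have c1 := h3.eq
  have c2 := ((h1.mul_right h2).mul_right h1.inv_right).inv_left.eq
  have c3 := (((h3.mul_right h4).mul_right h3.inv_right).mul_right h4.inv_right).inv_left.eq
  unfold fhC
  calc u * u' * (v * v') * (u * u')⁻¹ * (v * v')⁻¹
      = u * (u' * v) * v' * u'⁻¹ * u⁻¹ * v'⁻¹ * v⁻¹ := by group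
    _ = u * v * (u' * v' * u'⁻¹ * u⁻¹) * v'⁻¹ * v⁻¹ := by rw [← c1]; group
    _ = u * v * u⁻¹ * (u' * v' * u'⁻¹ * v'⁻¹ * v⁻¹) := by rw [← c2]; group
    _ = _ := by rw [← c3]; group

theorem fh_d3 {x y z : Col × Unit} : D3 x.1 y.1 z.1 ↔ D3 x y z := by
  obtain ⟨x, ⟨⟩⟩ := x
  obtain ⟨y, ⟨⟩⟩ := y
  obtain ⟨z, ⟨⟩⟩ := z
  simp [D3]

theorem fh_inj (S : Set (Col × Unit)) : Set.InjOn Prod.fst S :=
  fun _ _ _ _ h => Prod.ext h rfl

theorem fh_fresh1 (l : List (Col × Unit)) (hl : l.length < 40) : ∃ c, c ∉ l := by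
  by_contra h
  push Not at h
  have h1 : (Finset.univ : Finset (Col × Unit)) ⊆ l.toFinset := fun c _ => by simpa using h c
  have h2 := Finset.card_le_card h1
  have h3 := List.toFinset_card_le l
  simp only [Finset.card_univ, Fintype.card_prod, Fintype.card_fin, Fintype.card_unique] at h2
  omega

/-- Seven distinct points. -/
def FhV (x y z c d e f : Col × Unit) : Prop := [x, y, z, c, d, e, f].Nodup

theorem fh_fresh {x y z : Col × Unit} (h : D3 x y z) (l : List (Col × Unit)) (hl : l.length ≤ 3) :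
    ∃ c d e f, FhV x y z c d e f ∧ c ∉ l ∧ d ∉ l ∧ e ∉ l ∧ f ∉ l := by
  obtain ⟨c, hc⟩ := fh_fresh1 (x :: y :: z :: l) (by simp; omega)
  obtain ⟨d, hd⟩ := fh_fresh1 (c :: x :: y :: z :: l) (by simp; omega)
  obtain ⟨e, he⟩ := fh_fresh1 (d :: c :: x :: y :: z :: l) (by simp; omega)
  obtain ⟨f, hf⟩ := fh_fresh1 (e :: d :: c :: x :: y :: z :: l) (by simp; omega)
  simp only [List.mem_cons, not_or] at hc hd he hf
  obtain ⟨h1, h2, h3⟩ := h
  refine ⟨c, d, e, f, ?_, hc.2.2.2, hd.2.2.2.2, he.2.2.2.2.2, hf.2.2.2.2.2.2⟩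
  obtain ⟨c1, c2, c3, -⟩ := hc
  obtain ⟨d1, d2, d3, d4, -⟩ := hd
  obtain ⟨e1, e2, e3, e4, e5, -⟩ := he
  obtain ⟨f1, f2, f3, f4, f5, f6, -⟩ := hf
  simp only [FhV, List.nodup_cons, List.mem_cons, List.not_mem_nil, or_false, not_or,
    List.nodup_nil, and_true, not_false_eq_true]
  exact ⟨⟨h1, h3, Ne.symm c1, Ne.symm d2, Ne.symm e3, Ne.symm f4⟩,
    ⟨h2, Ne.symm c2, Ne.symm d3, Ne.symm e4, Ne.symm f5⟩,
    ⟨Ne.symm c3, Ne.symm d4, Ne.symm e5, Ne.symm f6⟩, ⟨Ne.symm d1, Ne.symm e2, Ne.symm f3⟩,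
    ⟨Ne.symm e1, Ne.symm f2⟩, Ne.symm f1⟩

theorem FhV.map {x y z c d e f : Col × Unit} (h : FhV x y z c d e f)
    {π : Col × Unit → Col × Unit} (hπ : Function.Injective π) :
    FhV (π x) (π y) (π z) (π c) (π d) (π e) (π f) := List.Nodup.map hπ h

theorem FhV.spec {x y z c d e f : Col × Unit} (h : FhV x y z c d e f) :
    (x ≠ y ∧ x ≠ z ∧ x ≠ c ∧ x ≠ d ∧ x ≠ e ∧ x ≠ f) ∧ (y ≠ z ∧ y ≠ c ∧ y ≠ d ∧ y ≠ e ∧ y ≠ f) ∧
      (z ≠ c ∧ z ≠ d ∧ z ≠ e ∧ z ≠ f) ∧ (c ≠ d ∧ c ≠ e ∧ c ≠ f) ∧ (d ≠ e ∧ d ≠ f) ∧ e ≠ f := by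
  simpa only [FhV, List.nodup_cons, List.mem_cons, List.not_mem_nil, or_false, not_or,
    List.nodup_nil, and_true, not_false_eq_true] using h

theorem FhV.d3 {x y z c d e f : Col × Unit} (h : FhV x y z c d e f) :
    D3 x y e ∧ D3 x c f ∧ D3 x z e ∧ D3 x d f := by
  obtain ⟨⟨a1, a2, a3, a4, a5, a6⟩, ⟨b1, b2, b3, b4, b5⟩, ⟨c1, c2, c3, c4⟩, ⟨d1, d2, d3⟩,
    ⟨e1, e2⟩, f1⟩ := h.spec
  exact ⟨⟨a1, b4, a5⟩, ⟨a3, d3, a6⟩, ⟨a2, c3, a5⟩, a4, e2, a6⟩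

/-- A system given by double commutators of the values of two projections is a projection. -/
theorem fh_mk (p q : Patch E Unit) {μ : Col × Unit → Col × Unit → Col × Unit → Γ}
    (hμ : IsAlt Set.univ μ)
    (hw : ∀ x y z c d e f, FhV x y z c d e f →
      μ x y z = fhC (fhC (p.φ x y e) (q.φ x c f)) (fhC (p.φ x z e) (q.φ x d f))) :
    ∃ m : Patch E Unit, (∀ x y z, D3 x y z → m.φ x y z = μ x y z) ∧
      ∀ g : Patch E Unit, p.Sub g → q.Sub g → m.Sub g := by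
  classical
  have key : ∀ (γ : Γ) (π : Col × Unit → Col × Unit), Function.Injective π →
      (∀ u v w, D3 u v w → γ * p.φ u v w * γ⁻¹ = p.φ (π u) (π v) (π w)) →
      (∀ u v w, D3 u v w → γ * q.φ u v w * γ⁻¹ = q.φ (π u) (π v) (π w)) →
      ∀ u v w, D3 u v w → γ * μ u v w * γ⁻¹ = μ (π u) (π v) (π w) := by
    intro γ π hπ h1 h2 u v w h3
    obtain ⟨c, d, e, f, hv, -⟩ := fh_fresh h3 [] (by simp)
    obtain ⟨k1, k2, k3, k4⟩ := hv.d3
    rw [hw _ _ _ _ _ _ _ hv, hw _ _ _ _ _ _ _ (hv.map hπ), fhC_conj, fhC_conj, fhC_conj,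
      h1 _ _ _ k1, h2 _ _ _ k2, h1 _ _ _ k3, h2 _ _ _ k4]
  have d3 : ∀ {π : Col × Unit → Col × Unit}, Function.Injective π → ∀ {u v w}, D3 u v w →
      D3 (π u) (π v) (π w) := fun hπ _ _ _ h => ⟨hπ.ne h.1, hπ.ne h.2.1, hπ.ne h.2.2⟩
  refine ⟨⟨fun x y z => if D3 x y z then μ x y z else 1, fun x y z h => if_neg (fh_d3.not.1 h),
    fun S _ => (hμ.mono (Set.subset_univ S)).congr fun x y z _ _ _ h => (if_pos h).symm,
    fun a b c h x y z h' => ?_, fun x y z h a b c h1 h2 => ?_⟩,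
    fun x y z h => if_pos h, fun g hp hq S _ x _ y _ z _ u _ v _ w _ h1 h2 => ?_⟩
  · have hπ : Function.Injective fun t : Col × Unit => (c3 a b c t.1, t.2) := fun s t h =>
      Prod.ext ((c3 a b c).injective (congrArg Prod.fst h)) rfl
    have h3 := fh_d3.1 h'
    rw [if_pos h3, if_pos (d3 hπ h3)]
    exact key _ _ hπ (fun u v w h4 => p.eqv a b c h u v w (fh_d3.2 h4))
      (fun u v w h4 => q.eqv a b c h u v w (fh_d3.2 h4)) x y z h3
  · have h3 := fh_d3.1 h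
    rw [if_pos h3]
    obtain ⟨c', d, e, f, hv, n1, n2, n3, n4⟩ := fh_fresh h3 [(a, ()), (b, ()), (c, ())] (by simp)
    obtain ⟨k1, k2, k3, k4⟩ := hv.d3
    have off : ∀ {t : Col × Unit}, t ∉ [(a, ()), (b, ()), (c, ())] → t.1 ∉ ({a, b, c} : Set Col) := by
      rintro ⟨t, ⟨⟩⟩ ht
      simpa using ht
    have hx : x.1 ∉ ({a, b, c} : Set Col) := Set.disjoint_left.1 h2 (by simp)
    have hy : y.1 ∉ ({a, b, c} : Set Col) := Set.disjoint_left.1 h2 (by simp)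
    have hz : z.1 ∉ ({a, b, c} : Set Col) := Set.disjoint_left.1 h2 (by simp)
    have dj : ∀ {s t r : Col}, s ∉ ({a, b, c} : Set Col) → t ∉ ({a, b, c} : Set Col) →
        r ∉ ({a, b, c} : Set Col) → Disjoint ({s, t, r} : Set Col) {a, b, c} := by
      intro s t r h4 h5 h6
      rw [Set.disjoint_left]
      rintro _ (rfl | rfl | rfl) <;> assumption
    rw [hw _ _ _ _ _ _ _ hv]
    exact fhC_mem (fhC_mem (p.good _ _ _ (fh_d3.2 k1) a b c h1 (dj hx hy (off n3)))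
      (q.good _ _ _ (fh_d3.2 k2) a b c h1 (dj hx (off n1) (off n4))))
      (fhC_mem (p.good _ _ _ (fh_d3.2 k3) a b c h1 (dj hx hz (off n3)))
        (q.good _ _ _ (fh_d3.2 k4) a b c h1 (dj hx (off n2) (off n4))))
  · change g.φ x y z * (if D3 u v w then μ u v w else 1) * (g.φ x y z)⁻¹ =
      if D3 (c3 x y z u) (c3 x y z v) (c3 x y z w) then
        μ (c3 x y z u) (c3 x y z v) (c3 x y z w) else 1
    rw [if_pos h2, if_pos (h2.perm _)]
    exact key _ _ (c3 x y z).injective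
      (fun u v w h4 => hp Set.univ (fh_inj _) x trivial y trivial z trivial u trivial v trivial
        w trivial h1 h4)
      (fun u v w h4 => hq Set.univ (fh_inj _) x trivial y trivial z trivial u trivial v trivial
        w trivial h1 h4) u v w h2

/-- The subgroup generated by the values of two projections. -/
def fhL (p q : Patch E Unit) : Subgroup Γ :=
  Subgroup.closure {γ | ∃ x y z, γ = p.φ x y z ∨ γ = q.φ x y z}

theorem fhL_left (p q : Patch E Unit) (x y z : Col × Unit) : p.φ x y z ∈ fhL p q :=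
  Subgroup.subset_closure ⟨x, y, z, Or.inl rfl⟩

theorem fhL_right (p q : Patch E Unit) (x y z : Col × Unit) : q.φ x y z ∈ fhL p q :=
  Subgroup.subset_closure ⟨x, y, z, Or.inr rfl⟩

theorem fhL_commute {p q : Patch E Unit} {γ : Γ} (hp : ∀ x y z, Commute (p.φ x y z) γ)
    (hq : ∀ x y z, Commute (q.φ x y z) γ) {δ : Γ} (h : δ ∈ fhL p q) : Commute δ γ := by
  have : fhL p q ≤ Subgroup.centralizer {γ} := by
    refine (Subgroup.closure_le _).2 ?_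
    rintro _ ⟨x, y, z, rfl | rfl⟩
    · exact Subgroup.mem_centralizer_singleton_iff.2 (hp x y z).eq
    · exact Subgroup.mem_centralizer_singleton_iff.2 (hq x y z).eq
  exact Subgroup.mem_centralizer_singleton_iff.1 (this h)

theorem fh {g m a b : Patch E Unit} (hma : m.Orth a) (hmb : m.Orth b) (hab : a.Orth b)
    (ha : ∃ a₁ a₂ : Patch E Unit, a₁.Sub g ∧ a₂.Orth g ∧ m.add a = a₁.add a₂)
    (hb : ∃ b₁ b₂ : Patch E Unit, b₁.Sub g ∧ b₂.Orth g ∧ m.add b = b₁.add b₂) :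
    ∃ m₁ m₂ : Patch E Unit, m₁.Sub g ∧ m₂.Orth g ∧ m = m₁.add m₂ := by
  obtain ⟨a₁, a₂, ha1, ha2, ha⟩ := ha
  obtain ⟨b₁, b₂, hb1, hb2, hb⟩ := hb
  have oaa : a₁.Orth a₂ := Orth.mono ha1 ha2.symm
  have oab : a₁.Orth b₂ := Orth.mono ha1 hb2.symm
  have oba : b₁.Orth a₂ := Orth.mono hb1 ha2.symm
  have obb : b₁.Orth b₂ := Orth.mono hb1 hb2.symm
  have hc : ∀ u ∈ fhL a₁ b₁, ∀ v ∈ fhL a₂ b₂, Commute u v := fun u hu v hv =>
    (fhL_commute (fun x y z => (fhL_commute (fun _ _ _ => oaa _ _ _ _ _ _)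
      (fun _ _ _ => oba _ _ _ _ _ _) hu).symm) (fun x y z => (fhL_commute
        (fun _ _ _ => oab _ _ _ _ _ _) (fun _ _ _ => obb _ _ _ _ _ _) hu).symm) hv).symm
  have hm : IsAlt Set.univ m.φ := m.alt _ (fh_inj _)
  have dec : ∀ x y z c d, D3 x y z → c ≠ d → c ∉ ({x, y, z} : Set (Col × Unit)) →
      d ∉ ({x, y, z} : Set (Col × Unit)) →
      m.φ x y z = fhC (a₁.φ x y c) (b₁.φ x z d) * fhC (a₂.φ x y c) (b₂.φ x z d) := by
    intro x y z c d h3 hcd n1 n2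
    rw [← fhC_mul (oaa _ _ _ _ _ _) (oab _ _ _ _ _ _) (oba _ _ _ _ _ _) (obb _ _ _ _ _ _),
      ← add_apply oaa, ← add_apply obb, ← ha, ← hb, add_apply hma, add_apply hmb,
      fhC_mul (hma _ _ _ _ _ _) (hmb _ _ _ _ _ _) (hma _ _ _ _ _ _) (hmb _ _ _ _ _ _),
      hm.comm_eq trivial trivial trivial trivial trivial h3 hcd n1 n2]
    have : fhC (a.φ x y c) (b.φ x z d) = 1 := by
      rw [fhC, (hab _ _ _ _ _ _).eq]
      group
    rw [this, mul_one, fhC]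
  have h9 : 9 ≤ (Set.univ : Set (Col × Unit)).encard := by
    rw [Set.encard_univ, ENat.card_eq_coe_fintype_card]
    simp only [Fintype.card_prod, Fintype.card_fin, Fintype.card_unique]
    exact_mod_cast (by norm_num : 9 ≤ 40 * 1)
  obtain ⟨μ, μ', h1, h1', h2, h3⟩ := hm.split h9 (fhL a₁ b₁) (fhL a₂ b₂) hc
    fun x y z _ _ _ h => by
      obtain ⟨c, d, e, f, hv, -⟩ := fh_fresh h [] (by simp)
      obtain ⟨⟨a1, a2, a3, a4, a5, a6⟩, ⟨b1, b2, b3, b4, b5⟩, ⟨c1, c2, c3, c4⟩, ⟨d1, d2, d3⟩,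
        ⟨e1, e2⟩, f1⟩ := hv.spec
      exact ⟨_, fhC_mem (fhL_left _ _ _ _ _) (fhL_right _ _ _ _ _), _,
        fhC_mem (fhL_left _ _ _ _ _) (fhL_right _ _ _ _ _),
        dec x y z c d h d1 (by simp [a3.symm, b2.symm, c1.symm])
          (by simp [a4.symm, b3.symm, c2.symm])⟩
  have key : ∀ x y z c d e f, FhV x y z c d e f →
      μ x y z = fhC (fhC (a₁.φ x y e) (b₁.φ x c f)) (fhC (a₁.φ x z e) (b₁.φ x d f)) ∧
      μ' x y z = fhC (fhC (a₂.φ x y e) (b₂.φ x c f)) (fhC (a₂.φ x z e) (b₂.φ x d f)) := by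
    intro x y z c d e f hv
    obtain ⟨⟨a1, a2, a3, a4, a5, a6⟩, ⟨b1, b2, b3, b4, b5⟩, ⟨c1, c2, c3, c4⟩, ⟨d1, d2, d3⟩,
      ⟨e1, e2⟩, f1⟩ := hv.spec
    exact h3 x y z c d trivial trivial trivial trivial trivial ⟨a1, b1, a2⟩ d1
      (by simp [a3.symm, b2.symm, c1.symm]) (by simp [a4.symm, b3.symm, c2.symm])
      _ (fhC_mem (fhL_left _ _ _ _ _) (fhL_right _ _ _ _ _))
      _ (fhC_mem (fhL_left _ _ _ _ _) (fhL_right _ _ _ _ _))
      _ (fhC_mem (fhL_left _ _ _ _ _) (fhL_right _ _ _ _ _))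
      _ (fhC_mem (fhL_left _ _ _ _ _) (fhL_right _ _ _ _ _))
      (dec x y c e f ⟨a1, b2, a3⟩ f1 (by simp [a5.symm, b4.symm, d2.symm])
        (by simp [a6.symm, b5.symm, d3.symm]))
      (dec x z d e f ⟨a2, c2, a4⟩ f1 (by simp [a5.symm, c3.symm, e1.symm])
        (by simp [a6.symm, c4.symm, e2.symm]))
  obtain ⟨m₁, e1, s1⟩ := fh_mk a₁ b₁ h1 fun x y z c d e f hv => (key x y z c d e f hv).1
  obtain ⟨m₂, e2, -⟩ := fh_mk a₂ b₂ h1' fun x y z c d e f hv => (key x y z c d e f hv).2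
  have l1 : ∀ x y z, m₁.φ x y z ∈ fhL a₁ b₁ := fun x y z => by
    by_cases h : D3 x y z
    · rw [e1 x y z h]
      exact (h2 x y z trivial trivial trivial h).1
    · rw [m₁.junk x y z (fh_d3.not.2 h)]
      exact one_mem _
  have l2 : ∀ x y z, m₂.φ x y z ∈ fhL a₂ b₂ := fun x y z => by
    by_cases h : D3 x y z
    · rw [e2 x y z h]
      exact (h2 x y z trivial trivial trivial h).2.1
    · rw [m₂.junk x y z (fh_d3.not.2 h)]
      exact one_mem _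
  have o12 : m₁.Orth m₂ := fun x y z u v w => hc _ (l1 x y z) _ (l2 u v w)
  refine ⟨m₁, m₂, s1 g ha1 hb1, fun x y z u v w => fhL_commute (fun _ _ _ => ha2 _ _ _ _ _ _)
    (fun _ _ _ => hb2 _ _ _ _ _ _) (l2 x y z), ?_⟩
  refine Patch.ext (funext fun x => funext fun y => funext fun z => ?_)
  rw [add_apply o12]
  by_cases h : D3 x y z
  · rw [e1 x y z h, e2 x y z h]
    exact (h2 x y z trivial trivial trivial h).2.2
  · rw [m₁.junk x y z (fh_d3.not.2 h), m₂.junk x y z (fh_d3.not.2 h),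
      m.junk x y z (fh_d3.not.2 h), mul_one]

end Vale.Agent.P196.Patch
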