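import Mathlib

/-! An abstract calculus of (possibly non-commuting) projections `P` and arrows `W`. -/

namespace Vale.Agent.P196

structure QL where
  P : Type
  W : Type
  le : P → P → Prop
  orth : P → P → Prop
  add : P → P → P
  zero : P
  one : P
  src : W → P
  tgt : W → P
  idw : P → W
  inv : W → W
  act : W → W → W
  le_refl : ∀ p, le p p
  le_trans : ∀ {p q r}, le p q → le q r → le p r
  le_antisymm : ∀ {p q}, le p q → le q p → p = q
  le_one : ∀ p, le p one
  zero_le : ∀ p, le zero p
  orth_zero : ∀ p, orth zero p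
  orth_symm : ∀ {p q}, orth p q → orth q p
  orth_self : ∀ {p}, orth p p → p = zero
  orth_mono : ∀ {p q r}, le p q → orth q r → orth p r
  le_add_left : ∀ {p q}, orth p q → le p (add p q)
  le_add_right : ∀ {p q}, orth p q → le q (add p q)
  add_le : ∀ {p q r}, orth p q → le p r → le q r → le (add p q) r
  orth_add : ∀ {p q r}, orth p q → orth r p → orth r q → orth r (add p q)
  le_of_orth : ∀ {p q r}, orth p q → le r (add p q) → orth r q → le r p
  exists_sub : ∀ {p q}, le p q → ∃ r, orth p r ∧ q = add p r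
  fh : ∀ {g m a b}, orth m a → orth m b → orth a b →
    (∃ a₁ a₂, le a₁ g ∧ orth a₂ g ∧ add m a = add a₁ a₂) →
    (∃ b₁ b₂, le b₁ g ∧ orth b₂ g ∧ add m b = add b₁ b₂) →
    ∃ m₁ m₂, le m₁ g ∧ orth m₂ g ∧ m = add m₁ m₂
  src_idw : ∀ p, src (idw p) = p
  tgt_idw : ∀ p, tgt (idw p) = p
  src_inv : ∀ x, src (inv x) = tgt x
  tgt_inv : ∀ x, tgt (inv x) = src x
  src_act : ∀ {x w}, le (tgt w) (src x) → src (act x w) = src w
  tgt_act : ∀ {x w}, le (tgt w) (src x) → le (tgt (act x w)) (tgt x)
  act_assoc : ∀ {x y w}, le (tgt w) (src y) → le (tgt y) (src x) →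
    act (act x y) w = act x (act y w)
  idw_act : ∀ {p w}, le (tgt w) p → act (idw p) w = w
  act_idw : ∀ x, act x (idw (src x)) = x
  inv_act : ∀ x, act (inv x) x = idw (src x)
  act_inv : ∀ x, act x (inv x) = idw (tgt x)
  push_orth : ∀ {x p q}, le p (src x) → le q (src x) → orth p q →
    orth (tgt (act x (idw p))) (tgt (act x (idw q)))
  ext_add : ∀ {x y p q}, orth p q → src x = add p q → src y = add p q →
    act x (idw p) = act y (idw p) → act x (idw q) = act y (idw q) → x = y
  ext_zero : ∀ {x}, src x = zero → x = idw zero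

namespace QL

variable (Q : QL)

/-- A projection valued measure on a type `L`. -/
structure PVM (L : Type) where
  ρ : Set L → Q.P
  empty : ρ ∅ = Q.zero
  orth : ∀ {S S'}, Disjoint S S' → Q.orth (ρ S) (ρ S')
  union : ∀ {S S'}, Disjoint S S' → ρ (S ∪ S') = Q.add (ρ S) (ρ S')

/-- `F` is given by an arrow on all generalized points with target below `D`. -/
def IsOp (D : Q.P) (F : Q.W → Q.W) : Prop :=
  ∃ x, Q.le D (Q.src x) ∧ ∀ w, Q.le (Q.tgt w) D → F w = Q.act x w

/-- Image of a projection under an operation. -/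
def img (F : Q.W → Q.W) (p : Q.P) : Q.P := Q.tgt (F (Q.idw p))

/-- `a` splits along `g`. -/
def Compat (g a : Q.P) : Prop := ∃ a₁ a₂, Q.le a₁ g ∧ Q.orth a₂ g ∧ a = Q.add a₁ a₂

/-- `p` is a finite orthogonal sum of projections satisfying `A`. -/
inductive Cov (A : Q.P → Prop) : Q.P → Prop
  | zero : Cov A Q.zero
  | base {p} : A p → Cov A p
  | add {p q} : Q.orth p q → Cov A p → Cov A q → Cov A (Q.add p q)

end QL

end Vale.Agent.P196
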