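import Vale.Agent.P196.Patch2
import Vale.Agent.P196.PatchFH
import Vale.Agent.P196.QL

/-! The calculus of patches is a `QL`. -/

namespace Vale.Agent.P196

namespace Patch

variable {Γ : Type} [Group Γ] {E : Env Γ} {R : Type} {x y w y' : Patch E Bool} {p q : Patch E Unit}

theorem pq_sh2_not (Ψ : Patch E R) (r r' : R) : (Ψ.sh2 r r').comap not = Ψ.sh2 r' r := by
  rw [sh2, sh2, comap_comap]
  exact congrArg Ψ.comap (funext fun b => by cases b <;> rfl)

theorem pq_sh2_self (Ψ : Patch E R) (r : R) :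
    Ψ.sh2 r r = (Ψ.sheet r).comap fun _ => () := by
  rw [sh2, sheet, comap_comap]
  exact congrArg Ψ.comap (funext fun b => by cases b <;> rfl)

theorem pq_comap_id (Ψ : Patch E R) : Ψ.comap id = Ψ := rfl

theorem pq_sh2_ft (x : Patch E Bool) : x.sh2 false true = x :=
  (congrArg x.comap (funext fun b => by cases b <;> rfl)).trans (pq_comap_id x)

theorem pq_sh2_tf (x : Patch E Bool) : x.sh2 true false = x.comap not :=
  congrArg x.comap (funext fun b => by cases b <;> rfl)

theorem pq_not_not (x : Patch E Bool) : (x.comap not).comap not = x := by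
  rw [comap_comap]
  exact (congrArg x.comap (funext fun b => by cases b <;> rfl)).trans (pq_comap_id x)

theorem pq_comap_sh2 {R' : Type} (Ψ : Patch E R) (f : R' → R) (r r' : R') :
    (Ψ.comap f).sh2 r r' = Ψ.sh2 (f r) (f r') := by
  rw [sh2, sh2, comap_comap]
  exact congrArg Ψ.comap (funext fun b => by cases b <;> rfl)

theorem pq_sh2_false (Ψ : Patch E R) (r r' : R) : (Ψ.sh2 r r').sheet false = Ψ.sheet r := rfl

theorem pq_sh2_true (Ψ : Patch E R) (r r' : R) : (Ψ.sh2 r r').sheet true = Ψ.sheet r' := rfl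

theorem Sub.pq_sh2 {Φ Φ' : Patch E R} (h : Φ'.Sub Φ) (r r' : R) :
    (Φ'.sh2 r r').Sub (Φ.sh2 r r') := h.comap _

theorem IsAct.unique (h : IsAct x w y) (h' : IsAct x w y') : y = y' := by
  obtain ⟨Ψ, h1, h2, rfl⟩ := h
  obtain ⟨Ψ', h1', h2', rfl⟩ := h'
  have e0 : Ψ.sh2 0 1 = Ψ'.sh2 0 1 := h1.trans h1'.symm
  have e1 : Ψ.sheet 1 = Ψ'.sheet 1 := by
    rw [← pq_sh2_true Ψ 0 1, ← pq_sh2_true Ψ' 0 1, e0]
  have e2 : Ψ.sh2 1 2 = Ψ'.sh2 1 2 := h2.unique h2' false e1
  have e : Ψ = Ψ' := by
    refine ext_sh2 1 fun r => ?_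
    match r with
    | 0 => rw [← pq_sh2_not Ψ 0 1, ← pq_sh2_not Ψ' 0 1, e0]
    | 1 => rw [pq_sh2_self, pq_sh2_self, e1]
    | 2 => exact e2
  rw [e]

theorem exists_isAct (h : (w.sheet true).Sub (x.sheet false)) : ∃ y, IsAct x w y := by
  obtain ⟨x', hx', hs⟩ := exists_restrict x false h
  obtain ⟨Ψ, hΨ⟩ := exists_glue (1 : Fin 3) (w.sheet true)
    ![w.comap not, (w.sheet true).comap fun _ => (), x'] (fun r => by
      match r with
      | 0 => rfl
      | 1 => rfl
      | 2 => exact hs) rfl
  refine ⟨_, Ψ, ?_, ?_, rfl⟩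
  · rw [← pq_sh2_not Ψ 1 0, hΨ 0]
    exact pq_not_not w
  · rw [hΨ 2]
    exact hx'

theorem IsAct.pq_act_eq (h : IsAct x w y) : act x w = y := by
  have H : ∃ y, IsAct x w y := ⟨y, h⟩
  rw [act, dif_pos H]
  exact H.choose_spec.unique h

/-- The criterion for composition. -/
theorem act_crit (Ψ : Patch E R) (r₀ r₁ r₂ : R) (h : (Ψ.sh2 r₁ r₂).Sub x) :
    act x (Ψ.sh2 r₀ r₁) = Ψ.sh2 r₀ r₂ := by
  refine IsAct.pq_act_eq ⟨Ψ.comap ![r₀, r₁, r₂], ?_, ?_, ?_⟩
  · exact pq_comap_sh2 Ψ _ 0 1
  · rw [pq_comap_sh2]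
    exact h
  · exact pq_comap_sh2 Ψ _ 0 2

theorem act_isAct (h : (w.sheet true).Sub (x.sheet false)) : IsAct x w (act x w) := by
  obtain ⟨y, hy⟩ := exists_isAct h
  rw [hy.pq_act_eq]
  exact hy

theorem pq_act_restrict {x' : Patch E Bool} (h : x'.Sub x) :
    act x ((x'.sheet false).comap fun _ => ()) = x' := by
  have := act_crit x' false false true (x := x) (by rw [pq_sh2_ft]; exact h)
  rwa [pq_sh2_self, pq_sh2_ft] at this

theorem act_id_sub (h : p.Sub (x.sheet false)) : (act x (p.comap fun _ => ())).Sub x := by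
  obtain ⟨x', hx', rfl⟩ := exists_restrict x false h
  rw [pq_act_restrict hx']
  exact hx'

theorem src_act (h : (w.sheet true).Sub (x.sheet false)) :
    (act x w).sheet false = w.sheet false := by
  obtain ⟨Ψ, h1, -, h3⟩ := act_isAct h
  rw [← h3, ← h1]
  rfl

theorem tgt_act (h : (w.sheet true).Sub (x.sheet false)) :
    ((act x w).sheet true).Sub (x.sheet true) := by
  obtain ⟨Ψ, -, h2, h3⟩ := act_isAct h
  rw [← h3]
  exact h2.comap fun _ => true

theorem act_assoc (h : (w.sheet true).Sub (y.sheet false))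
    (h' : (y.sheet true).Sub (x.sheet false)) : act (act x y) w = act x (act y w) := by
  obtain ⟨Θ, h1, h2, h3⟩ := act_isAct h'
  have h0 : (w.sheet true).Sub (Θ.sheet 0) := by
    rw [← pq_sh2_false Θ 0 1, h1]
    exact h
  obtain ⟨Θ', hs, he⟩ := exists_restrict Θ 0 h0
  obtain ⟨Ψ, hΨ⟩ := exists_glue (some 0 : Option (Fin 3)) (w.sheet true)
    (fun o => o.elim (w.comap not) fun i => Θ'.sh2 0 i) (fun r => by
      match r with
      | none => rfl
      | some i => exact he) (by rw [← he]; exact pq_sh2_self Θ' 0)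
  have e1 : Ψ.comap some = Θ' := ext_sh2 0 fun r => (pq_comap_sh2 Ψ some 0 r).trans (hΨ (some r))
  have e2 : ∀ i j, Ψ.sh2 (some i) (some j) = Θ'.sh2 i j := fun i j => by
    rw [← e1, pq_comap_sh2]
  have e3 : w = Ψ.sh2 none (some 0) := by
    rw [← pq_sh2_not Ψ (some 0) none, hΨ none]
    exact (pq_not_not w).symm
  have a1 : act y w = Ψ.sh2 none (some 1) := by
    rw [e3]
    refine act_crit Ψ _ _ _ ?_
    rw [e2, ← h1]
    exact hs.pq_sh2 0 1
  have a2 : act (act x y) w = Ψ.sh2 none (some 2) := by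
    rw [e3]
    refine act_crit Ψ _ _ _ ?_
    rw [e2, ← h3]
    exact hs.pq_sh2 0 2
  rw [a1, a2]
  refine (act_crit Ψ _ _ _ ?_).symm
  rw [e2]
  exact (hs.pq_sh2 1 2).trans h2

theorem idw_act (h : (w.sheet true).Sub p) : act (p.comap fun _ => ()) w = w := by
  have := act_crit w false true true (x := p.comap fun _ => ())
    (by rw [pq_sh2_self]; exact h.comap _)
  rwa [pq_sh2_ft] at this

theorem act_idw (x : Patch E Bool) : act x ((x.sheet false).comap fun _ => ()) = x :=
  pq_act_restrict (Sub.refl x)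

theorem inv_act (x : Patch E Bool) :
    act (x.comap not) x = (x.sheet false).comap fun _ => () := by
  have := act_crit x false true false (x := x.comap not) (by rw [pq_sh2_tf]; exact Sub.refl _)
  rwa [pq_sh2_ft, pq_sh2_self] at this

theorem act_inv (x : Patch E Bool) :
    act x (x.comap not) = (x.sheet true).comap fun _ => () := by
  have := act_crit x true false true (x := x) (by rw [pq_sh2_ft]; exact Sub.refl _)
  rwa [pq_sh2_tf, pq_sh2_self] at this

theorem push_orth (hp : p.Sub (x.sheet false)) (hq : q.Sub (x.sheet false)) (h : p.Orth q) :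
    ((act x (p.comap fun _ => ())).sheet true).Orth ((act x (q.comap fun _ => ())).sheet true) := by
  refine (act_id_sub hp).orth_sheet (act_id_sub hq) (r₀ := false) ?_ true
  rw [src_act (w := p.comap fun _ => ()) hp, src_act (w := q.comap fun _ => ()) hq]
  exact h

theorem pq_split (h : p.Orth q) (hx : x.sheet false = p.add q) (a b c : Col × Bool) :
    x.φ a b c = (act x (p.comap fun _ => ())).φ a b c * (act x (q.comap fun _ => ())).φ a b c := by
  have hp : p.Sub (x.sheet false) := by rw [hx]; exact sub_add_left h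
  have hq : q.Sub (x.sheet false) := by rw [hx]; exact sub_add_right h
  refine (act_id_sub hp).mul_eq (act_id_sub hq) (r₀ := false) ?_ ?_ a b c
  · rw [src_act (w := p.comap fun _ => ()) hp, src_act (w := q.comap fun _ => ()) hq]
    exact h
  · rw [src_act (w := p.comap fun _ => ()) hp, src_act (w := q.comap fun _ => ()) hq]
    exact hx

theorem ext_add (h : p.Orth q) (hx : x.sheet false = p.add q) (hy : y.sheet false = p.add q)
    (h1 : act x (p.comap fun _ => ()) = act y (p.comap fun _ => ()))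
    (h2 : act x (q.comap fun _ => ()) = act y (q.comap fun _ => ())) : x = y := by
  refine Patch.ext (funext fun a => funext fun b => funext fun c => ?_)
  rw [pq_split h hx, pq_split h hy, h1, h2]

variable {Γ' : Type} [Group Γ'] {E' : Env Γ'} (π : EnvHom E E')

theorem map_comap {R' : Type} (Φ : Patch E R) (f : R' → R) :
    (Φ.comap f).map π = (Φ.map π).comap f := rfl
theorem Sub.map {Φ Φ' : Patch E R} (h : Φ'.Sub Φ) : (Φ'.map π).Sub (Φ.map π) := by
  intro S hS a ha b hb c hc u hu v hv t ht h1 h2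
  have := congrArg π.f (h S hS a ha b hb c hc u hu v hv t ht h1 h2)
  rw [map_mul, map_mul, map_inv] at this
  exact this
theorem Orth.map (h : p.Orth q) : (p.map π).Orth (q.map π) :=
  fun a b c u v t => (h a b c u v t).map π.f
theorem map_add' (h : p.Orth q) : (p.add q).map π = (p.map π).add (q.map π) := by
  refine Patch.ext (funext fun a => funext fun b => funext fun c => ?_)
  rw [add_apply (h.map π)]
  change π.f ((p.add q).φ a b c) = π.f (p.φ a b c) * π.f (q.φ a b c)
  rw [add_apply h, map_mul]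
theorem map_one' : (one E).map π = one E' :=
  Patch.ext (funext fun a => funext fun b => funext fun c => π.e a.1 b.1 c.1)
theorem map_act (h : (w.sheet true).Sub (x.sheet false)) :
    (act x w).map π = act (x.map π) (w.map π) := by
  obtain ⟨Ψ, h1, h2, h3⟩ := act_isAct h
  refine (IsAct.pq_act_eq ⟨Ψ.map π, ?_, ?_, ?_⟩).symm
  · rw [← h1]; rfl
  · exact h2.map π
  · rw [← h3]; rfl

end Patch

open Patch in
/-- The patch calculus. -/
noncomputable def Env.ql {Γ : Type} [Group Γ] (E : Env Γ) : QL where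
  P := Patch E Unit
  W := Patch E Bool
  le := Sub
  orth := Orth
  add := add
  zero := zero E Unit
  one := one E
  src x := x.sheet false
  tgt x := x.sheet true
  idw p := p.comap fun _ => ()
  inv x := x.comap not
  act := act
  le_refl := Sub.refl
  le_trans := Sub.trans
  le_antisymm := Sub.antisymm
  le_one := sub_one
  zero_le := zero_sub
  orth_zero _ _ _ _ _ _ _ := Commute.one_left _
  orth_symm := Orth.symm
  orth_self := Orth.eq_zero
  orth_mono := Orth.mono
  le_add_left := sub_add_left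
  le_add_right := sub_add_right
  add_le := add_sub
  orth_add := orth_add
  le_of_orth := sub_of_orth
  exists_sub := exists_sub
  fh := fh
  src_idw _ := rfl
  tgt_idw _ := rfl
  src_inv _ := rfl
  tgt_inv _ := rfl
  src_act := src_act
  tgt_act := tgt_act
  act_assoc := act_assoc
  idw_act := idw_act
  act_idw := act_idw
  inv_act := inv_act
  act_inv := act_inv
  push_orth := push_orth
  ext_add := ext_add
  ext_zero h := eq_zero_of_sheet h

end Vale.Agent.P196
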