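import Vale.Agent.P196.QL

namespace Vale.Agent.P196.QL

variable {Q : QL} {L : Type} {p q r D D' e : Q.P} {x y w w' v : Q.W} {F G : Q.W → Q.W}

theorem add_comm' (h : Q.orth p q) : Q.add p q = Q.add q p :=
  Q.le_antisymm (Q.add_le h (Q.le_add_right (Q.orth_symm h)) (Q.le_add_left (Q.orth_symm h)))
    (Q.add_le (Q.orth_symm h) (Q.le_add_right h) (Q.le_add_left h))
theorem add_zero' (p : Q.P) : Q.add p Q.zero = p :=
  Q.le_antisymm (Q.add_le (Q.orth_symm (Q.orth_zero p)) (Q.le_refl p) (Q.zero_le p))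
    (Q.le_add_left (Q.orth_symm (Q.orth_zero p)))
theorem le_zero (h : Q.le p Q.zero) : p = Q.zero := Q.le_antisymm h (Q.zero_le p)
theorem qlb_le_of_eq (h : p = q) : Q.le p q := h ▸ Q.le_refl p
theorem qlb_idw_le (h : Q.le p q) : Q.le (Q.tgt (Q.idw p)) q := (Q.tgt_idw p).symm ▸ h
theorem qlb_le_idw (h : Q.le p q) : Q.le p (Q.src (Q.idw q)) := (Q.src_idw q).symm ▸ h
theorem qlb_le_inv (h : Q.le p (Q.tgt x)) : Q.le p (Q.src (Q.inv x)) := (Q.src_inv x).symm ▸ h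
theorem qlb_orth_mono {p' q' : Q.P} (hp : Q.le p p') (hq : Q.le q q') (h : Q.orth p' q') :
    Q.orth p q :=
  Q.orth_mono hp (Q.orth_symm (Q.orth_mono hq (Q.orth_symm h)))
theorem tgt_act_eq (h : Q.tgt w = Q.src x) : Q.tgt (Q.act x w) = Q.tgt x := by
  have h0 := qlb_le_of_eq h
  refine Q.le_antisymm (Q.tgt_act h0) ?_
  have h1 : Q.act (Q.act x w) (Q.inv w) = x := by
    rw [Q.act_assoc (qlb_le_of_eq (Q.tgt_inv w)) h0, Q.act_inv, h, Q.act_idw]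
  have h2 : Q.le (Q.tgt (Q.act (Q.act x w) (Q.inv w))) (Q.tgt (Q.act x w)) :=
    Q.tgt_act (qlb_le_of_eq ((Q.tgt_inv w).trans (Q.src_act h0).symm))
  rwa [h1] at h2
theorem qlb_restr (hD : Q.le D (Q.src x)) (hw : Q.le (Q.tgt w) D) :
    Q.act (Q.act x (Q.idw D)) w = Q.act x w := by
  rw [Q.act_assoc (qlb_le_idw hw) (qlb_idw_le hD), Q.idw_act hw]
theorem qlb_src_restr (hD : Q.le D (Q.src x)) : Q.src (Q.act x (Q.idw D)) = D :=
  (Q.src_act (qlb_idw_le hD)).trans (Q.src_idw D)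
theorem tgt_act_congr (hw : Q.le (Q.tgt w) (Q.src x)) :
    Q.tgt (Q.act x w) = Q.tgt (Q.act x (Q.idw (Q.tgt w))) := by
  rw [← qlb_restr hw (Q.le_refl _), tgt_act_eq (qlb_src_restr hw).symm]
theorem inv_act_act (hw : Q.le (Q.tgt w) (Q.src x)) : Q.act (Q.inv x) (Q.act x w) = w := by
  rw [← Q.act_assoc hw (qlb_le_inv (Q.le_refl _)), Q.inv_act, Q.idw_act hw]
theorem inv_inv' (x : Q.W) : Q.inv (Q.inv x) = x := by
  have h : Q.act (Q.inv (Q.inv x)) (Q.act (Q.inv x) x) = x :=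
    inv_act_act (qlb_le_inv (Q.le_refl _))
  rwa [Q.inv_act, ← Q.tgt_inv, ← Q.src_inv, Q.act_idw] at h
theorem inv_idw (p : Q.P) : Q.inv (Q.idw p) = Q.idw p := by
  have h := Q.act_inv (Q.idw p)
  rwa [Q.idw_act (qlb_le_of_eq ((Q.tgt_inv _).trans (Q.src_idw p))), Q.tgt_idw] at h
theorem qlb_act_inv_act (hw : Q.le (Q.tgt w) (Q.tgt x)) : Q.act x (Q.act (Q.inv x) w) = w := by
  have h : Q.act (Q.inv (Q.inv x)) (Q.act (Q.inv x) w) = w := inv_act_act (qlb_le_inv hw)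
  rwa [inv_inv'] at h

theorem IsOp.mono (h : Q.IsOp D F) (hD : Q.le D' D) : Q.IsOp D' F := by
  obtain ⟨x, h1, h2⟩ := h
  exact ⟨x, Q.le_trans hD h1, fun w hw => h2 w (Q.le_trans hw hD)⟩
theorem IsOp.id (D : Q.P) : Q.IsOp D id :=
  ⟨Q.idw D, qlb_le_idw (Q.le_refl D), fun _ hw => (Q.idw_act hw).symm⟩
theorem IsOp.of_act (h : Q.le D (Q.src x)) : Q.IsOp D (Q.act x) := ⟨x, h, fun _ _ => rfl⟩
theorem IsOp.congr (h : Q.IsOp D F) (he : ∀ w, Q.le (Q.tgt w) D → F w = G w) : Q.IsOp D G := by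
  obtain ⟨x, h1, h2⟩ := h
  exact ⟨x, h1, fun w hw => (he w hw).symm.trans (h2 w hw)⟩
theorem IsOp.src (h : Q.IsOp D F) (hw : Q.le (Q.tgt w) D) : Q.src (F w) = Q.src w := by
  obtain ⟨x, h1, h2⟩ := h
  rw [h2 w hw, Q.src_act (Q.le_trans hw h1)]
/-- Naturality. -/
theorem IsOp.nat (h : Q.IsOp D F) (hv : Q.le (Q.tgt v) D) (hw : Q.le (Q.tgt w) (Q.src v)) :
    F (Q.act v w) = Q.act (F v) w := by
  obtain ⟨x, h1, h2⟩ := h
  rw [h2 v hv, h2 _ (Q.le_trans (Q.tgt_act hw) hv), Q.act_assoc hw (Q.le_trans hv h1)]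
theorem IsOp.qlb_src (h : Q.IsOp D F) (hp : Q.le p D) : Q.src (F (Q.idw p)) = p :=
  (h.src (qlb_idw_le hp)).trans (Q.src_idw p)
theorem IsOp.qlb_eq (h : Q.IsOp D F) (hp : Q.le p D) (hw : Q.le (Q.tgt w) p) :
    F w = Q.act (F (Q.idw p)) w := by
  rw [← h.nat (qlb_idw_le hp) (qlb_le_idw hw), Q.idw_act hw]
theorem IsOp.tgt_le (h : Q.IsOp D F) (hq : Q.le q D) (hw : Q.le (Q.tgt w) q) :
    Q.le (Q.tgt (F w)) (Q.img F q) := by
  rw [h.qlb_eq hq hw]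
  exact Q.tgt_act ((h.qlb_src hq).symm ▸ hw)
theorem IsOp.comp (hF : Q.IsOp D F) (hG : Q.IsOp D' G) (hm : Q.le (Q.img F D) D') :
    Q.IsOp D (G ∘ F) := by
  have h1 := hF.qlb_src (Q.le_refl D)
  refine ⟨G (F (Q.idw D)), qlb_le_of_eq ((hG.src hm).trans h1).symm, fun w hw => ?_⟩
  rw [Function.comp_apply, hF.qlb_eq (Q.le_refl D) hw, hG.nat hm (h1.symm ▸ hw)]
theorem IsOp.tgt_eq (h : Q.IsOp D F) (hw : Q.le (Q.tgt w) D) :
    Q.tgt (F w) = Q.img F (Q.tgt w) := by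
  rw [h.qlb_eq hw (Q.le_refl _), tgt_act_eq (h.qlb_src hw).symm]
  rfl
theorem IsOp.img_mono (h : Q.IsOp D F) (hq : Q.le q D) (hpq : Q.le p q) :
    Q.le (Q.img F p) (Q.img F q) :=
  h.tgt_le hq (qlb_idw_le hpq)
theorem IsOp.img_orth (h : Q.IsOp D F) (hp : Q.le p D) (hq : Q.le q D) (hpq : Q.orth p q) :
    Q.orth (Q.img F p) (Q.img F q) := by
  obtain ⟨x, h1, h2⟩ := h
  rw [img, img, h2 _ (qlb_idw_le hp), h2 _ (qlb_idw_le hq)]
  exact Q.push_orth (Q.le_trans hp h1) (Q.le_trans hq h1) hpq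
/-- The inverse operation. -/
theorem IsOp.qlb_inv (h : Q.IsOp D F) : ∃ G, Q.IsOp (Q.img F D) G ∧
    (∀ w, Q.le (Q.tgt w) D → G (F w) = w) ∧
    ∀ w, Q.le (Q.tgt w) (Q.img F D) → Q.le (Q.tgt (G w)) D ∧ F (G w) = w := by
  have h1 := h.qlb_src (Q.le_refl D)
  refine ⟨Q.act (Q.inv (F (Q.idw D))), IsOp.of_act (qlb_le_inv (Q.le_refl _)), fun w hw => ?_,
    fun w hw => ?_⟩
  · rw [h.qlb_eq (Q.le_refl D) hw, inv_act_act (h1.symm ▸ hw)]
  · have h2 : Q.le (Q.tgt (Q.act (Q.inv (F (Q.idw D))) w)) D :=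
      Q.le_trans (Q.tgt_act (qlb_le_inv hw)) (qlb_le_of_eq ((Q.tgt_inv _).trans h1))
    exact ⟨h2, by rw [h.qlb_eq (Q.le_refl D) h2, qlb_act_inv_act hw]⟩
theorem IsOp.qlb_pull (hG : Q.IsOp D' G) (hp : Q.le (Q.img F p) D')
    (h : G (F (Q.idw p)) = Q.idw p) : Q.img G (Q.img F p) = p := by
  rw [img.eq_1 Q F, ← hG.tgt_eq hp, h, Q.tgt_idw]
theorem IsOp.orth_of_img (h : Q.IsOp D F) (hp : Q.le p D) (hq : Q.le q D)
    (hpq : Q.orth (Q.img F p) (Q.img F q)) : Q.orth p q := by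
  obtain ⟨G, hG, h1, -⟩ := h.qlb_inv
  have hp' := h.img_mono (Q.le_refl D) hp
  have hq' := h.img_mono (Q.le_refl D) hq
  have h2 := hG.img_orth hp' hq' hpq
  rwa [hG.qlb_pull hp' (h1 _ (qlb_idw_le hp)), hG.qlb_pull hq' (h1 _ (qlb_idw_le hq))] at h2
theorem IsOp.le_of_img (h : Q.IsOp D F) (hp : Q.le p D) (hq : Q.le q D)
    (hpq : Q.le (Q.img F p) (Q.img F q)) : Q.le p q := by
  obtain ⟨G, hG, h1, -⟩ := h.qlb_inv
  have hp' := h.img_mono (Q.le_refl D) hp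
  have hq' := h.img_mono (Q.le_refl D) hq
  have h2 := hG.img_mono hq' hpq
  rwa [hG.qlb_pull hp' (h1 _ (qlb_idw_le hp)), hG.qlb_pull hq' (h1 _ (qlb_idw_le hq))] at h2
theorem IsOp.img_zero (h : Q.IsOp D F) : Q.img F Q.zero = Q.zero := by
  rw [img, Q.ext_zero (h.qlb_src (Q.zero_le D)), Q.tgt_idw]
/-- A generalized point in the image comes from a generalized point. -/
theorem IsOp.exists_of_le_img (h : Q.IsOp D F) (hp : Q.le p D)
    (hw : Q.le (Q.tgt w) (Q.img F p)) : ∃ v, Q.le (Q.tgt v) p ∧ F v = w := by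
  obtain ⟨G, -, -, h1⟩ := (h.mono hp).qlb_inv
  exact ⟨G w, h1 w hw⟩
theorem IsOp.img_add (h : Q.IsOp D F) (hp : Q.le p D) (hq : Q.le q D) (hpq : Q.orth p q) :
    Q.img F (Q.add p q) = Q.add (Q.img F p) (Q.img F q) := by
  have hD := Q.add_le hpq hp hq
  have ho := h.img_orth hp hq hpq
  obtain ⟨t, ht, ht'⟩ := Q.exists_sub (Q.add_le ho (h.img_mono hD (Q.le_add_left hpq))
    (h.img_mono hD (Q.le_add_right hpq)))
  obtain ⟨v, hv, hv'⟩ := h.exists_of_le_img (w := Q.idw t) hD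
    (qlb_idw_le (ht' ▸ Q.le_add_right ht))
  have hvD := Q.le_trans hv hD
  have h1 : Q.img F (Q.tgt v) = t := by rw [← h.tgt_eq hvD, hv', Q.tgt_idw]
  have h2 : Q.orth p (Q.tgt v) :=
    h.orth_of_img hp hvD (h1 ▸ Q.orth_mono (Q.le_add_left ho) ht)
  have h3 : Q.orth q (Q.tgt v) :=
    h.orth_of_img hq hvD (h1 ▸ Q.orth_mono (Q.le_add_right ho) ht)
  have h4 : Q.tgt v = Q.zero := Q.orth_self
    (Q.orth_mono hv (Q.orth_symm (Q.orth_add hpq (Q.orth_symm h2) (Q.orth_symm h3))))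
  rw [ht', ← h1, h4, h.img_zero, add_zero']
theorem IsOp.inj (h : Q.IsOp D F) (hw : Q.le (Q.tgt w) D) (hw' : Q.le (Q.tgt w') D)
    (he : F w = F w') : w = w' := by
  obtain ⟨G, -, h1, -⟩ := h.qlb_inv
  rw [← h1 w hw, he, h1 w' hw']

theorem Cov.mono {A B : Q.P → Prop} (h : Q.Cov A p) (hAB : ∀ p, A p → B p) : Q.Cov B p := by
  induction h with
  | zero => exact .zero
  | base h => exact .base (hAB _ h)
  | add ho _ _ ih ih' => exact .add ho ih ih'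
theorem Cov.bind {A B : Q.P → Prop} (h : Q.Cov A p) (hAB : ∀ q, Q.le q p → A q → Q.Cov B q) :
    Q.Cov B p := by
  induction h with
  | zero => exact .zero
  | base h => exact hAB _ (Q.le_refl _) h
  | add ho _ _ ih ih' =>
    exact .add ho (ih fun q hq => hAB q (Q.le_trans hq (Q.le_add_left ho)))
      (ih' fun q hq => hAB q (Q.le_trans hq (Q.le_add_right ho)))
theorem Cov.le {A : Q.P → Prop} (h : Q.Cov A p) (hA : ∀ q, Q.le q p → A q → Q.le q e) :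
    Q.le p e := by
  induction h with
  | zero => exact Q.zero_le _
  | base h => exact hA _ (Q.le_refl _) h
  | add ho _ _ ih ih' =>
    exact Q.add_le ho (ih fun q hq => hA q (Q.le_trans hq (Q.le_add_left ho)))
      (ih' fun q hq => hA q (Q.le_trans hq (Q.le_add_right ho)))
theorem Cov.orth {A : Q.P → Prop} (h : Q.Cov A p) (hA : ∀ q, Q.le q p → A q → Q.orth q e) :
    Q.orth p e := by
  induction h with
  | zero => exact Q.orth_zero _
  | base h => exact hA _ (Q.le_refl _) h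
  | add ho _ _ ih ih' =>
    exact Q.orth_symm (Q.orth_add ho
      (Q.orth_symm (ih fun q hq => hA q (Q.le_trans hq (Q.le_add_left ho))))
      (Q.orth_symm (ih' fun q hq => hA q (Q.le_trans hq (Q.le_add_right ho)))))
theorem Cov.img {A B : Q.P → Prop} (h : Q.Cov A p) (hF : Q.IsOp D F) (hp : Q.le p D)
    (hAB : ∀ q, Q.le q p → A q → B (Q.img F q)) : Q.Cov B (Q.img F p) := by
  induction h with
  | zero => rw [hF.img_zero]; exact .zero
  | base h => exact .base (hAB _ (Q.le_refl _) h)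
  | add ho _ _ ih ih' =>
    have h1 := Q.le_trans (Q.le_add_left ho) hp
    have h2 := Q.le_trans (Q.le_add_right ho) hp
    rw [hF.img_add h1 h2 ho]
    exact .add (hF.img_orth h1 h2 ho)
      (ih h1 fun q hq => hAB q (Q.le_trans hq (Q.le_add_left ho)))
      (ih' h2 fun q hq => hAB q (Q.le_trans hq (Q.le_add_right ho)))
/-- Two-colouring of a cover. -/
theorem Cov.split {A B : Q.P → Prop} (h : Q.Cov (fun q => A q ∨ B q) p) :
    ∃ a b, Q.orth a b ∧ p = Q.add a b ∧ Q.Cov A a ∧ Q.Cov B b := by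
  induction h with
  | zero => exact ⟨_, _, Q.orth_zero _, (add_zero' _).symm, .zero, .zero⟩
  | base h =>
    rcases h with h | h
    · exact ⟨_, _, Q.orth_symm (Q.orth_zero _), (add_zero' _).symm, .base h, .zero⟩
    · exact ⟨_, _, Q.orth_zero _, ((add_comm' (Q.orth_zero _)).trans (add_zero' _)).symm, .zero,
        .base h⟩
  | add ho _ _ ih ih' =>
    obtain ⟨a, b, hab, rfl, ha, hb⟩ := ih
    obtain ⟨a', b', hab', rfl, ha', hb'⟩ := ih'
    have l1 := Q.le_add_left hab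
    have l2 := Q.le_add_right hab
    have l3 := Q.le_add_left hab'
    have l4 := Q.le_add_right hab'
    have haa := qlb_orth_mono l1 l3 ho
    have hbb := qlb_orth_mono l2 l4 ho
    have h1 : Q.orth (Q.add a a') (Q.add b b') := Q.orth_symm (Q.orth_add haa
      (Q.orth_symm (Q.orth_add hbb hab (qlb_orth_mono l1 l4 ho)))
      (Q.orth_symm (Q.orth_add hbb (Q.orth_symm (qlb_orth_mono l2 l3 ho)) hab')))
    refine ⟨_, _, h1, Q.le_antisymm ?_ ?_, .add haa ha ha', .add hbb hb hb'⟩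
    · exact Q.add_le ho
        (Q.add_le hab (Q.le_trans (Q.le_add_left haa) (Q.le_add_left h1))
          (Q.le_trans (Q.le_add_left hbb) (Q.le_add_right h1)))
        (Q.add_le hab' (Q.le_trans (Q.le_add_right haa) (Q.le_add_left h1))
          (Q.le_trans (Q.le_add_right hbb) (Q.le_add_right h1)))
    · exact Q.add_le h1
        (Q.add_le haa (Q.le_trans l1 (Q.le_add_left ho)) (Q.le_trans l3 (Q.le_add_right ho)))
        (Q.add_le hbb (Q.le_trans l2 (Q.le_add_left ho)) (Q.le_trans l4 (Q.le_add_right ho)))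
theorem Cov.qlb_eq {A : Q.P → Prop} (h : Q.Cov A p) (hF : Q.IsOp p F) (hG : Q.IsOp p G)
    (hA : ∀ q, Q.le q p → A q → F (Q.idw q) = G (Q.idw q)) : F (Q.idw p) = G (Q.idw p) := by
  induction h with
  | zero => rw [Q.ext_zero (hF.qlb_src (Q.le_refl _)), Q.ext_zero (hG.qlb_src (Q.le_refl _))]
  | base h => exact hA _ (Q.le_refl _) h
  | add ho _ _ ih ih' =>
    have h1 := Q.le_add_left ho
    have h2 := Q.le_add_right ho
    refine Q.ext_add ho (hF.qlb_src (Q.le_refl _)) (hG.qlb_src (Q.le_refl _)) ?_ ?_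
    · rw [← hF.qlb_eq (Q.le_refl _) (qlb_idw_le h1), ← hG.qlb_eq (Q.le_refl _) (qlb_idw_le h1)]
      exact ih (hF.mono h1) (hG.mono h1) fun q hq => hA q (Q.le_trans hq h1)
    · rw [← hF.qlb_eq (Q.le_refl _) (qlb_idw_le h2), ← hG.qlb_eq (Q.le_refl _) (qlb_idw_le h2)]
      exact ih' (hF.mono h2) (hG.mono h2) fun q hq => hA q (Q.le_trans hq h2)
/-- Locality of equations between operations. -/
theorem Cov.eq {A : Q.P → Prop} (h : Q.Cov A p) (hF : Q.IsOp p F) (hG : Q.IsOp p G)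
    (hA : ∀ q, Q.le q p → A q → F (Q.idw q) = G (Q.idw q)) (hw : Q.le (Q.tgt w) p) :
    F w = G w := by
  rw [hF.qlb_eq (Q.le_refl _) hw, hG.qlb_eq (Q.le_refl _) hw, h.qlb_eq hF hG hA]

theorem PVM.qlb_split (ρ : Q.PVM L) (S S' : Set L) :
    Q.orth (ρ.ρ (S ∩ S')) (ρ.ρ (S \ S')) ∧ ρ.ρ S = Q.add (ρ.ρ (S ∩ S')) (ρ.ρ (S \ S')) := by
  have h : Disjoint (S ∩ S') (S \ S') := Set.disjoint_left.2 fun _ h h' => h'.2 h.2
  exact ⟨ρ.orth h, by rw [← ρ.union h, Set.inter_union_sdiff]⟩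
theorem PVM.mono (ρ : Q.PVM L) {S S' : Set L} (h : S ⊆ S') : Q.le (ρ.ρ S) (ρ.ρ S') := by
  obtain ⟨h1, h2⟩ := ρ.qlb_split S' S
  rw [Set.inter_eq_right.2 h] at h1 h2
  rw [h2]
  exact Q.le_add_left h1
theorem PVM.le_inter (ρ : Q.PVM L) {S S' : Set L} (h : Q.le p (ρ.ρ S)) (h' : Q.le p (ρ.ρ S')) :
    Q.le p (ρ.ρ (S ∩ S')) := by
  obtain ⟨h1, h2⟩ := ρ.qlb_split S S'
  exact Q.le_of_orth h1 (h2 ▸ h) (Q.orth_mono h' (ρ.orth Set.disjoint_sdiff_right))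
theorem PVM.le_diff (ρ : Q.PVM L) {S S' : Set L} (h : Q.le p (ρ.ρ S)) (h' : Q.orth p (ρ.ρ S')) :
    Q.le p (ρ.ρ (S \ S')) := by
  obtain ⟨h1, h2⟩ := ρ.qlb_split S S'
  rw [add_comm' h1] at h2
  exact Q.le_of_orth (Q.orth_symm h1) (h2 ▸ h)
    (qlb_orth_mono (Q.le_refl p) (ρ.mono Set.inter_subset_right) h')
theorem PVM.cov [Finite L] (ρ : Q.PVM L) (S : Set L) :
    Q.Cov (fun q => ∃ l ∈ S, q = ρ.ρ {l}) (ρ.ρ S) := by
  induction S, S.toFinite using Set.Finite.induction_on with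
  | empty => rw [ρ.empty]; exact .zero
  | @insert l S hl _ ih =>
    have h : Disjoint {l} S := Set.disjoint_singleton_left.2 hl
    rw [Set.insert_eq, ρ.union h]
    exact .add (ρ.orth h) (.base ⟨l, Or.inl rfl, rfl⟩)
      (ih.mono fun _ ⟨l', h1, h2⟩ => ⟨l', Or.inr h1, h2⟩)
/-- `p` is the orthogonal sum of the `a l` for `l ∈ S`. -/
def QlbSum (a : L → Q.P) (S : Set L) (p : Q.P) : Prop :=
  (∀ l ∈ S, Q.le (a l) p) ∧ (∀ r, (∀ l ∈ S, Q.le (a l) r) → Q.le p r) ∧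
    ∀ r, (∀ l ∈ S, Q.orth r (a l)) → Q.orth r p
theorem QlbSum.unique {a : L → Q.P} {S : Set L} (h : QlbSum a S p) (h' : QlbSum a S q) : p = q :=
  Q.le_antisymm (h.2.1 _ h'.1) (h'.2.1 _ h.1)
theorem QlbSum.empty (a : L → Q.P) : QlbSum a ∅ Q.zero :=
  ⟨fun _ h => h.elim, fun r _ => Q.zero_le r, fun r _ => Q.orth_symm (Q.orth_zero r)⟩
theorem QlbSum.single (a : L → Q.P) (l : L) : QlbSum a {l} (a l) :=
  ⟨fun _ h => qlb_le_of_eq (congrArg a h), fun _ h => h l rfl, fun _ h => h l rfl⟩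
theorem QlbSum.orth {a : L → Q.P} (ha : ∀ l l', l ≠ l' → Q.orth (a l) (a l')) {S S' : Set L}
    (hd : Disjoint S S') (h : QlbSum a S p) (h' : QlbSum a S' q) : Q.orth p q :=
  h'.2.2 _ fun l' hl' => Q.orth_symm (h.2.2 _ fun l hl =>
    ha l' l fun e => Set.disjoint_left.1 hd hl (e ▸ hl'))
theorem QlbSum.union {a : L → Q.P} {S S' : Set L} (ho : Q.orth p q) (h : QlbSum a S p)
    (h' : QlbSum a S' q) : QlbSum a (S ∪ S') (Q.add p q) :=
  ⟨fun l hl => hl.elim (fun hl => Q.le_trans (h.1 l hl) (Q.le_add_left ho))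
      fun hl => Q.le_trans (h'.1 l hl) (Q.le_add_right ho),
    fun r hr => Q.add_le ho (h.2.1 r fun l hl => hr l (Or.inl hl))
      (h'.2.1 r fun l hl => hr l (Or.inr hl)),
    fun r hr => Q.orth_add ho (h.2.2 r fun l hl => hr l (Or.inl hl))
      (h'.2.2 r fun l hl => hr l (Or.inr hl))⟩
theorem PVM.exists_of_atoms [Finite L] (a : L → Q.P) (h : ∀ l l', l ≠ l' → Q.orth (a l) (a l')) :
    ∃ ρ : Q.PVM L, ∀ l, ρ.ρ {l} = a l := by
  have hex : ∀ S : Set L, ∃ p, QlbSum a S p := fun S => by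
    induction S, S.toFinite using Set.Finite.induction_on with
    | empty => exact ⟨_, QlbSum.empty a⟩
    | @insert l S hl _ ih =>
      obtain ⟨p, hp⟩ := ih
      exact ⟨_, QlbSum.union (QlbSum.orth h (Set.disjoint_singleton_left.2 hl)
        (QlbSum.single a l) hp) (QlbSum.single a l) hp⟩
  choose ρ hρ using hex
  exact ⟨⟨ρ, (hρ _).unique (QlbSum.empty a), fun hd => QlbSum.orth h hd (hρ _) (hρ _),
    fun hd => (hρ _).unique (QlbSum.union (QlbSum.orth h hd (hρ _) (hρ _)) (hρ _) (hρ _))⟩,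
    fun l => (hρ _).unique (QlbSum.single a l)⟩
/-- Locality of mapping properties. -/
theorem PVM.loc_le [Finite L] (ρ : Q.PVM L) {S : Set L} (hF : Q.IsOp (ρ.ρ S) F)
    (h : ∀ l ∈ S, ∀ w, Q.le (Q.tgt w) (ρ.ρ {l}) → Q.le (Q.tgt (F w)) e)
    (hw : Q.le (Q.tgt w) (ρ.ρ S)) : Q.le (Q.tgt (F w)) e := by
  refine Q.le_trans (hF.tgt_le (Q.le_refl _) hw)
    (((ρ.cov S).img (B := fun q => Q.le q e) hF (Q.le_refl _) ?_).le fun _ _ h => h)
  rintro _ - ⟨l, hl, rfl⟩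
  exact h l hl _ (qlb_idw_le (Q.le_refl _))
theorem PVM.loc_eq [Finite L] (ρ : Q.PVM L) {S : Set L} (hF : Q.IsOp (ρ.ρ S) F)
    (hG : Q.IsOp (ρ.ρ S) G) (h : ∀ l ∈ S, ∀ w, Q.le (Q.tgt w) (ρ.ρ {l}) → F w = G w)
    (hw : Q.le (Q.tgt w) (ρ.ρ S)) : F w = G w := by
  refine (ρ.cov S).eq hF hG ?_ hw
  rintro _ - ⟨l, hl, rfl⟩
  exact h l hl _ (qlb_idw_le (Q.le_refl _))
/-- Reading a mapping property backwards. -/
theorem PVM.symm [Finite L] (ρ : Q.PVM L) {D S : Set L} (hF : Q.IsOp (ρ.ρ D) F)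
    (h : ∀ l ∈ D \ S, ∀ v, Q.le (Q.tgt v) (ρ.ρ {l}) → Q.orth (Q.tgt (F v)) e)
    (hw : Q.le (Q.tgt w) (ρ.ρ D)) (he : Q.le (Q.tgt (F w)) e) :
    Q.le (Q.tgt w) (ρ.ρ (D ∩ S)) := by
  have h1 : Q.le (ρ.ρ (D \ S)) (ρ.ρ D) := ρ.mono Set.sdiff_subset
  have h2 : Q.orth (Q.img F (ρ.ρ (D \ S))) e := by
    refine ((ρ.cov (D \ S)).img (B := fun q => Q.orth q e) hF h1 ?_).orth fun _ _ h => h
    rintro _ - ⟨l, hl, rfl⟩
    exact h l hl _ (qlb_idw_le (Q.le_refl _))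
  rw [hF.tgt_eq hw] at he
  obtain ⟨h3, h4⟩ := ρ.qlb_split D S
  exact Q.le_of_orth h3 (h4 ▸ hw) (hF.orth_of_img hw h1 (Q.orth_mono he (Q.orth_symm h2)))
/-- Foulis-Holland for a measure. -/
theorem PVM.compat_inter (ρ : Q.PVM L) {g : Q.P} {S S' : Set L} (h : Q.Compat g (ρ.ρ S))
    (h' : Q.Compat g (ρ.ρ S')) : Q.Compat g (ρ.ρ (S ∩ S')) := by
  obtain ⟨h1, h2⟩ := ρ.qlb_split S S'
  obtain ⟨h3, h4⟩ := ρ.qlb_split S' S
  rw [Set.inter_comm] at h3 h4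
  rw [h2] at h
  rw [h4] at h'
  exact Q.fh h1 h3 (ρ.orth (Set.disjoint_left.2 fun _ h h' => h.2 h'.1)) h h'

end Vale.Agent.P196.QL
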