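import Vale.Agent.P196.Track
import Vale.Agent.P196.ModelAx

/-! The model as a tower. -/

namespace Vale.Agent.P196

open X

def trueAp (k : ℕ) : Op → X → X
  | .S r r' => fun x => (cons .al)^[k] (ap (.S r r') (par^[k] x))
  | o => ap o

theorem trueAp_zero : trueAp 0 = ap := by
  funext o; cases o <;> rfl

theorem tt_par (k : ℕ) (q : X) : par^[k] ((cons .al)^[k] q) = q :=
  Function.LeftInverse.iterate (par_cons .al) k q

theorem tt_inj {k : ℕ} {q q' : X} (h : (cons .al)^[k] q = (cons .al)^[k] q') : q = q' := by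
  rw [← tt_par k q, h, tt_par]

theorem tt_ap (k : ℕ) {o : Op} {q : X} (h : o.ok q.role = true) :
    trueAp k o ((cons .al)^[k] q) = (cons .al)^[k] (ap o q) := by
  cases o with
  | S r r' => simp only [trueAp, tt_par]
  | T =>
    induction k generalizing q with
    | zero => rfl
    | succ k ih =>
      rw [Function.iterate_succ_apply, Function.iterate_succ_apply]
      exact (ih rfl).trans (congrArg _ (ap_cons rfl q))
  | X s =>
    induction k generalizing q with
    | zero => rfl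
    | succ k ih =>
      have key : ∀ (s : Bool) (ρ : Role), (Op.X s).ok ρ = true →
          (Op.X s).cr .al ρ = (.al, .X s) := by decide
      rw [Function.iterate_succ_apply, Function.iterate_succ_apply]
      refine (ih (by rw [role_cons]; rfl)).trans (congrArg _ ?_)
      rw [ap_cons rfl, key s _ h]

theorem tt_run (k : ℕ) {l : List Op} {q : X} (h : Valid l q) :
    run (trueAp k) l ((cons .al)^[k] q) = (cons .al)^[k] (run ap l q) := by
  induction l generalizing q with
  | nil => rfl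
  | cons o l ih => rw [run_cons, run_cons, tt_ap k h.1, ih h.2]

theorem tt_S (k : ℕ) (r r' : Role) (q : X) :
    trueAp k (.S r r') ((cons .al)^[k] (cons r q)) = (cons .al)^[k] (cons r' q) := by
  simp only [trueAp, tt_par, ap_S]

/-- One step down along a line. -/
def ttLow (s : Bool) (y : X) : X := ap (.X (!s)) (cons .al y)

theorem tt_low_dat {s : Bool} {y : X} (h : y.dat.η.side = s) :
    (ttLow s y).dat = ⟨y.dat.c, y.dat.η, y.dat.d + 1⟩ := by
  rw [ttLow, dat_ap (by rw [role_cons]; rfl), dat_cons]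
  simp [Dat.op, Dat.ch, h, Dat.enat_add_sub]

theorem tt_up {s : Bool} {q : X} (h : q.dat.η.side = s) (hd : q.dat.d ≠ 0) :
    (Op.X s).ok q.role = true ∧ ∃ y, ap (.X s) q = cons .al y ∧
      y.dat = ⟨q.dat.c, q.dat.η, q.dat.d - 1⟩ := by
  have key : ∀ l : Lab, l.2.isZ0 = false → (Op.X l.2.η.side).ok l.role = true := by decide
  have h1 : (Op.X s).ok q.role = true := by
    have := key q.lab (Bool.eq_false_iff.2 (mt (Dat.th_isZ0 q.dat).1 hd))
    rwa [show q.lab.2.η = q.dat.η from Dat.th_η _, h] at this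
  have h2 : (ap (.X s) q).dat = ⟨q.dat.c + 1, q.dat.η, q.dat.d - 1⟩ := by
    rw [dat_ap h1]
    simp [Dat.op, h, hd]
  have h3 : (ap (.X s) q).role = .al := Dat.role_eq_al.2 (by rw [h2]; simp)
  have h4 : ap (.X s) q = cons .al (ap (.X s) q).par := by rw [← h3, cons_par]
  refine ⟨h1, _, h4, ?_⟩
  rw [h4, dat_cons, Dat.ch, Dat.mk.injEq] at h2
  refine Dat.ext ?_ h2.2.1 h2.2.2
  rw [← Dat.enat_add_sub (Dat.c _), h2.1, Dat.enat_add_sub]

def trueTower : Tower X where
  Sat k S x := ∃ q : X, x = (cons .al)^[k] q ∧ q.lab ∈ S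
  ap := trueAp
  Orth x y := x ≠ y
  mono := fun h ⟨q, h1, h2⟩ => ⟨q, h1, h h2⟩
  inter := by
    rintro k S S' _ ⟨q, rfl, h1⟩ ⟨q', h2, h3⟩
    exact ⟨q, rfl, h1, tt_inj h2 ▸ h3⟩
  apT _ := rfl
  apX _ _ := rfl
  orth_symm := Ne.symm
  orth_sat := by
    rintro k S S' _ _ hd ⟨q, rfl, h1⟩ ⟨q', rfl, h2⟩ h
    exact Set.disjoint_left.1 hd h1 (tt_inj h ▸ h2)
  orth_ap := by
    rintro k o _ _ ⟨q, rfl, h1⟩ ⟨q', rfl, h2⟩ hne h
    rw [tt_ap k h1, tt_ap k h2] at h
    exact hne (by rw [← ap_inv (p := q) h1, tt_inj h, ap_inv (p := q') h2])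
  cod := by
    rintro k o _ ⟨q, rfl, h⟩
    exact ⟨_, tt_ap k h, ok_inv h⟩
  inv := by
    rintro k o _ ⟨q, rfl, h⟩
    rw [tt_ap k h, tt_ap k (ok_inv h), ap_inv (p := q) h]
  sid := by
    rintro k r _ ⟨q, rfl, rfl⟩
    rw [← cons_par q, lab_role, role_cons, tt_S]
  scomp := by
    rintro k r r' r'' _ ⟨q, rfl, rfl⟩
    rw [← cons_par q, lab_role, role_cons, tt_S, tt_S, tt_S]
  rT := by
    rintro k S _ ⟨q, rfl, h⟩
    exact ⟨_, tt_ap k rfl, _, h, ((AxM.rT q.lab).model rfl).2⟩
  rX := by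
    rintro k S s _ hS ⟨q, rfl, h⟩
    exact ⟨_, tt_ap k (hS h), _, h, ((AxM.rX q.lab s (hS h)).model rfl).2⟩
  sq := by
    rintro k s _ ⟨q, rfl, rfl, h⟩
    obtain ⟨h1, h2, h3⟩ := (AxE.sq q.lab h).model rfl
    exact (tt_run k h1).trans ((congrArg _ h3).trans (tt_run k h2).symm)
  jn := by
    rintro k η _ ⟨q, rfl, h⟩
    have h' : q.lab.2 = .z0 η := h
    obtain ⟨h1, -, h3⟩ := (AxE.jn q.lab (by rw [h']; rfl)).model rfl
    rw [h'] at h1 h3
    exact (tt_run k h1).trans (congrArg _ h3)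
  tot := by
    intro k w
    constructor
    · rintro ⟨q, rfl, -⟩
      exact ⟨cons .al q, rfl, role_cons _ _⟩
    · rintro ⟨q, rfl, h⟩
      have h' : q.role = .al := h
      exact ⟨q.par, by rw [Function.iterate_succ_apply, ← h', cons_par], trivial⟩
  chl := by
    rintro k r S _ ⟨q, rfl, h⟩
    exact ⟨cons r q, tt_S k _ _ q, _, h, (lab_cons r q).symm⟩
  cr := by
    rintro k o r ρ _ h ⟨q, rfl, rfl⟩
    rw [lab_role, tt_ap (k + 1) (Op.ok_cr o r q.role h), Function.iterate_succ_apply,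
      Function.iterate_succ_apply, tt_S, tt_S, tt_ap k (by rwa [role_cons]), ap_cons h]
  low := by
    rintro k S s _ hS ⟨q, rfl, h⟩
    have h1 : q.dat.η.side = s := by rw [← Dat.th_η]; exact hS _ h
    refine ⟨ttLow s q, tt_ap k (q := cons .al q) (by rw [role_cons]; rfl), _, h, ?_⟩
    rw [lab, lab, tt_low_dat h1]
    exact Prod.ext rfl (Dat.th_add_one q.dat.c _ _ _).symm
  up := by
    rintro k S s _ hS ⟨q, rfl, h⟩
    have h1 : q.dat.η.side = s := by rw [← Dat.th_η]; exact (hS _ h).1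
    have h2 : q.dat.d ≠ 0 := fun e => by
      have h3 := (Dat.th_isZ0 q.dat).2 e
      rw [show q.dat.th.isZ0 = false from (hS _ h).2] at h3
      exact Bool.false_ne_true h3
    obtain ⟨h3, y, h4, h5⟩ := tt_up h1 h2
    refine ⟨y, by rw [tt_ap k h3, h4]; rfl, ?_⟩
    have h6 : (y.lab.1, y.lab.2.succ) = q.lab := by
      rw [lab, h5]
      refine Prod.ext rfl ?_
      have h7 := Dat.th_add_one q.dat.c q.dat.c q.dat.η (q.dat.d - 1)
      rw [Dat.enat_sub_add h2] at h7
      exact h7.symm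
    exact (congrArg (· ∈ S) h6).mpr h

theorem true_ap (k : ℕ) {o : Op} {q : X} (h : o.ok q.role = true) :
    trueTower.ap k o ((cons .al)^[k] q) = (cons .al)^[k] (ap o q) := tt_ap k h

theorem tt_low_iter (s : Bool) (j d : ℕ) (y : X) :
    (ap (.X (!s)))^[d] ((cons .al)^[j + d] y) = (cons .al)^[j] ((ttLow s)^[d] y) := by
  induction d generalizing y with
  | zero => rfl
  | succ d ih =>
    rw [Function.iterate_succ_apply, Function.iterate_succ_apply, ← ih, ← add_assoc,
      Function.iterate_succ_apply]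
    exact congrArg _ (tt_ap (j + d) (o := .X (!s)) (by rw [role_cons]; rfl))

theorem tt_low_iter_dat {s : Bool} (d : ℕ) {y : X} (h : y.dat.η.side = s) :
    ((ttLow s)^[d] y).dat = ⟨y.dat.c, y.dat.η, y.dat.d + d⟩ := by
  induction d with
  | zero => simp
  | succ d ih =>
    rw [Function.iterate_succ_apply', tt_low_dat (by rw [ih]; exact h), ih]
    simp [add_assoc]

theorem tt_low_surj {s : Bool} (d : ℕ) {q : X} (h : q.dat.η.side = s) (hd : (d : ℕ∞) ≤ q.dat.d) :
    ∃ y, y.dat.η = q.dat.η ∧ (ttLow s)^[d] y = q := by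
  induction d generalizing q with
  | zero => exact ⟨q, rfl, rfl⟩
  | succ d ih =>
    have h1 : q.dat.d ≠ 0 := fun e => by simp [e] at hd
    obtain ⟨h2, y, h3, h4⟩ := tt_up h h1
    obtain ⟨y', h5, h6⟩ := ih (q := y) (by rw [h4]; exact h) (by
      rw [h4]
      exact (ENat.add_le_add_iff_right ENat.one_ne_top).1 (by
        rw [Dat.enat_sub_add h1]; exact_mod_cast hd))
    refine ⟨y', by rw [h5, h4], ?_⟩
    rw [Function.iterate_succ_apply', h6, ttLow, ← h3]
    exact ap_inv h2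

theorem tt_al_dat (c : ℕ) (y : X) :
    ((cons .al)^[c] y).dat = ⟨y.dat.c + c, y.dat.η, y.dat.d⟩ := by
  induction c with
  | zero => simp
  | succ c ih =>
    rw [Function.iterate_succ_apply', dat_cons, ih, Dat.ch]
    simp [add_assoc]

theorem tt_al_surj (c : ℕ) {q : X} (hc : (c : ℕ∞) ≤ q.dat.c) : ∃ y, (cons .al)^[c] y = q := by
  induction c generalizing q with
  | zero => exact ⟨q, rfl⟩
  | succ c ih =>
    have h1 : q.role = .al := Dat.role_eq_al.2 fun e => by simp [e] at hc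
    have h2 : cons .al q.par = q := by rw [← h1, cons_par]
    obtain ⟨y, hy⟩ := ih (q := q.par) (by
      rw [← h2, dat_cons] at hc
      exact (ENat.add_le_add_iff_right ENat.one_ne_top).1 (by exact_mod_cast hc))
    exact ⟨y, by rw [Function.iterate_succ_apply', hy, h2]⟩

theorem tt_coe_min (a : ℕ∞) (n : ℕ) : ((min a n).toNat : ℕ∞) = min a n :=
  ENat.natCast_toNat (ne_top_of_le_ne_top (ENat.natCast_ne_top n) (min_le_right _ _))

theorem tt_min_iff (a b : ℕ∞) (n : ℕ) :
    min a n = min (b + (min a n).toNat) n ↔ (a < n → b = 0) := by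
  rw [tt_coe_min]
  rcases lt_or_ge a n with h | h
  · rw [min_eq_left h.le]
    refine ⟨fun h1 _ => ?_, fun h1 => by rw [h1 h, zero_add, min_eq_left h.le]⟩
    rcases le_total (b + a) n with h2 | h2
    · rw [min_eq_left h2] at h1
      exact (ENat.add_left_injective_of_ne_top h.ne_top ((zero_add a).trans h1)).symm
    · rw [min_eq_right h2] at h1
      exact absurd h1 h.ne
  · rw [min_eq_right h, min_eq_right le_add_self]
    exact ⟨fun _ h' => absurd h' (not_lt.2 h), fun _ => rfl⟩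

theorem tt_mem_can {n : ℕ} {E : Dat} {y : X} : y.lab ∈ (TD.can n E).set ↔
    y.dat.η = E.η ∧ (E.c < n → y.dat.c = 0) ∧ (E.d < n → y.dat.d = 0) := by
  simp [TD.set, TD.can, lab, Dat.lab, Dat.th_η, Dat.th_isZ0]

theorem tt_thick {k n : ℕ} {E : Dat} {x : X} :
    trueTower.Thick k (TD.can n E) x ↔ ∃ q, x = (cons .al)^[k] q ∧ E.tr n = q.dat.tr n := by
  have key : ∀ y : X, y.dat.η = E.η →
      (trueTower.ap 0 (.X (!E.η.side)))^[(min E.d n).toNat]
          ((cons .al)^[k + (min E.d n).toNat + (min E.c n).toNat] y) =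
        (cons .al)^[k] ((ttLow E.η.side)^[(min E.d n).toNat]
          ((cons .al)^[(min E.c n).toNat] y)) ∧
      ((ttLow E.η.side)^[(min E.d n).toNat] ((cons .al)^[(min E.c n).toNat] y)).dat =
        ⟨y.dat.c + (min E.c n).toNat, E.η, y.dat.d + (min E.d n).toNat⟩ := fun y hy =>
    ⟨by rw [Function.iterate_add_apply]; exact tt_low_iter _ _ _ _,
      by rw [tt_low_iter_dat _ (by rw [tt_al_dat, ← hy]), tt_al_dat, ← hy]⟩
  constructor
  · rintro ⟨_, ⟨y, rfl, hy⟩, rfl⟩
    obtain ⟨h1, h2, h3⟩ := tt_mem_can.1 hy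
    refine ⟨_, (key y h1).1, ?_⟩
    rw [(key y h1).2]
    exact Dat.ext ((tt_min_iff _ _ _).2 h2) rfl ((tt_min_iff _ _ _).2 h3)
  · rintro ⟨q, rfl, h⟩
    have hc : min E.c n = min q.dat.c n := congrArg Dat.c h
    have he : E.η = q.dat.η := (congrArg Dat.η h :)
    have hd : min E.d n = min q.dat.d n := congrArg Dat.d h
    obtain ⟨y₁, h1, h2⟩ := tt_low_surj (s := E.η.side) (min E.d n).toNat (q := q) (by rw [he])
      (by rw [tt_coe_min, hd]; exact min_le_left _ _)
    have h3 : y₁.dat.c = q.dat.c := by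
      rw [← h2, tt_low_iter_dat _ (by rw [h1, he])]
    obtain ⟨y, rfl⟩ := tt_al_surj (min E.c n).toNat (q := y₁)
      (by rw [tt_coe_min, hc, h3]; exact min_le_left _ _)
    have h4 : y.dat.η = E.η := by rw [he, ← h1, tt_al_dat]
    obtain ⟨h5, h6⟩ := key y h4
    rw [h2] at h5 h6
    rw [h6] at hc hd
    exact ⟨_, ⟨y, rfl, tt_mem_can.2 ⟨h4, (tt_min_iff _ _ _).1 hc, (tt_min_iff _ _ _).1 hd⟩⟩,
      h5.symm⟩

theorem true_satP_iff {k m n : ℕ} {p x : X} :
    trueTower.SatP k m n p x ↔ ∃ q, x = (cons .al)^[k] q ∧ Near m n p q := by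
  induction m generalizing k p x with
  | zero =>
    refine tt_thick.trans (exists_congr fun q => and_congr_right fun _ => ?_)
    exact ⟨fun h => ⟨fun _ hk => absurd hk (Nat.not_lt_zero _), h⟩, fun h => h.2⟩
  | succ m ih =>
    constructor
    · rintro ⟨v, hv, rfl⟩
      obtain ⟨q, rfl, hq⟩ := ih.1 hv
      exact ⟨cons p.role q, tt_S k _ _ q, near_succ.2 ⟨(role_cons _ _).symm, hq⟩⟩
    · rintro ⟨q, rfl, hq⟩
      obtain ⟨h1, h2⟩ := near_succ.1 hq
      refine ⟨_, ih.2 ⟨q.par, rfl, h2⟩, ?_⟩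
      refine Eq.trans ?_ (tt_S k .al p.role q.par).symm
      rw [h1, cons_par]

theorem true_satP_self (k m n : ℕ) (p : X) : trueTower.SatP k m n p ((cons .al)^[k] p) :=
  true_satP_iff.2 ⟨p, rfl, Near.refl m n p⟩

theorem true_down (k j : ℕ) (p q : X) : trueTower.down k j p ((cons .al)^[k + j] q) =
    (cons .al)^[k] (consL ((List.range j).map fun i => (p.D i).role) q) := by
  induction j generalizing k p with
  | zero => rfl
  | succ j ih =>
    have h := ih (k + 1) p.par
    rw [add_right_comm, add_assoc] at h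
    rw [Tower.down, h, List.range_succ_eq_map, List.map_cons, List.map_map, consL_cons]
    exact tt_S k _ _ _

/-- Every descriptor with nonempty label set is the canonical descriptor of a point. -/
theorem exists_can (n : ℕ) (D : TD) (hc : if D.ec then D.c < n else D.c = n)
    (hd : if D.ed then D.d < n else D.d = n) : ∃ p : X, TD.can n p.dat = D := by
  obtain ⟨c, ec, η, d, ed⟩ := D
  have key : ∀ (c : ℕ) (b : Bool), (if b then c < n else c = n) →
      (min (c : ℕ∞) n).toNat = c ∧ decide ((c : ℕ∞) < n) = b := by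
    intro c b h
    cases b
    · obtain rfl : c = n := by simpa using h
      simp
    · have h' : c < n := by simpa using h
      rw [min_eq_left (by exact_mod_cast h'.le)]
      simpa using h'
  obtain ⟨a, ha⟩ := exists_addr c d η
  refine ⟨consL a (aInf η 0), ?_⟩
  rw [ha, TD.can]
  simp only [(key c ec hc).1, (key c ec hc).2, (key d ed hd).1, (key d ed hd).2]

end Vale.Agent.P196
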