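import Vale.Agent.P196.Step1
import Vale.Agent.P196.TrueTower

/-! The tower of a sequence of linked level structures. -/

namespace Vale.Agent.P196

open X

variable {Q : QL}

theorem qlt_dom_S (r r' : Role) : (Op.S r r').dom = roleS r := by
  ext l
  simp only [Op.dom, Op.ok, roleS, Set.mem_ofPred_eq, beq_iff_eq]
  exact eq_comm

theorem qlt_dom_ok {o : Op} {r : Role} (h : o.ok r = true) : roleS r ⊆ o.dom := by
  intro l hl
  have hl' : l.role = r := hl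
  show o.ok l.role = true
  rw [hl']; exact h

theorem qlt_apT {A : ℕ → LS Q} (h : ∀ k, (A k).Link (A (k + 1))) (k : ℕ) :
    (A k).ap .T = (A 0).ap .T := by
  induction k with
  | zero => rfl
  | succ k ih => rw [(h k).apT, ih]

theorem qlt_apX {A : ℕ → LS Q} (h : ∀ k, (A k).Link (A (k + 1))) (k : ℕ) (s : Bool) :
    (A k).ap (.X s) = (A 0).ap (.X s) := by
  induction k with
  | zero => rfl
  | succ k ih => rw [(h k).apX, ih]

theorem qlt_le_al {A B : LS Q} (h : A.Link B) (S : Set Lab) :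
    Q.le (B.ρ.ρ S) (A.ρ.ρ (roleS .al)) := by
  rw [← h.tot]
  exact B.ρ.mono (Set.subset_univ _)

theorem qlt_isOp {A B : LS Q} (h : A.Link B) (S : Set Lab) {o : Op} (ho : o.ok .al = true) :
    Q.IsOp (B.ρ.ρ S) (A.ap o) :=
  (A.isOp o).mono (Q.le_trans (qlt_le_al h S) (A.ρ.mono (qlt_dom_ok ho)))

theorem qlt_okS (r : Role) : (Op.S .al r).ok .al = true := by
  simp [Op.ok]

theorem qlt_chl {A B : LS Q} (h : A.Link B) {r : Role} {S : Set Lab} {w : Q.W} (hw : B.Sat S w) :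
    A.Sat (Lab.chl r '' S) (A.ap (.S .al r) w) := by
  refine B.ρ.loc_le (qlt_isOp h S (qlt_okS r)) (fun l hl v hv => ?_) hw
  exact (h.chl r l v hv).mono (Set.singleton_subset_iff.2 ⟨l, hl, rfl⟩)

theorem qlt_univ (A : LS Q) {o : Op} {w : Q.W} (hw : A.Sat o.dom w) :
    A.Sat Set.univ (A.ap o w) := (LS.cod hw).mono (Set.subset_univ _)

theorem qlt_cr {A B : LS Q} (h : A.Link B) {o : Op} {r ρ : Role} {w : Q.W} (ho : o.ok r = true)
    (hw : B.Sat (roleS ρ) w) : A.ap o (A.ap (.S .al r) w) =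
      A.ap (.S .al (o.cr r ρ).1) (B.ap (o.cr r ρ).2 w) := by
  have hid : B.Sat (roleS ρ) (Q.idw (B.ρ.ρ (roleS ρ))) := QL.qlb_idw_le (Q.le_refl _)
  have hF : Q.IsOp (B.ρ.ρ (roleS ρ)) (A.ap o ∘ A.ap (.S .al r)) := by
    refine (qlt_isOp h _ (qlt_okS r)).comp (A.isOp o) ?_
    refine (qlt_chl h hid).mono ?_
    rintro _ ⟨l, -, rfl⟩
    refine qlt_dom_ok ho ?_
    have key : ∀ (r : Role) (l : Lab), (Lab.chl r l).role = r := by decide
    exact key r l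
  have hd : roleS ρ ⊆ (o.cr r ρ).2.dom := qlt_dom_ok (Op.ok_cr o r ρ ho)
  have hG : Q.IsOp (B.ρ.ρ (roleS ρ)) (A.ap (.S .al (o.cr r ρ).1) ∘ B.ap (o.cr r ρ).2) := by
    refine ((B.isOp _).mono (B.ρ.mono hd)).comp (qlt_isOp h Set.univ (qlt_okS _)) ?_
    exact qlt_univ B (hid.mono hd)
  refine B.ρ.loc_eq hF hG (fun l hl v hv => ?_) hw
  have hl' : l.role = ρ := hl
  have := h.cr o r l v ho hv
  rw [hl'] at this
  exact this

theorem qlt_low {A B : LS Q} (h : A.Link B) {S : Set Lab} {s : Bool} {w : Q.W}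
    (hS : ∀ l ∈ S, l.2.side = s) (hw : B.Sat S w) :
    A.Sat ((fun l : Lab => (l.1, l.2.succ)) '' S) (A.ap (.X (!s)) w) := by
  refine B.ρ.loc_le (qlt_isOp h S rfl) (fun l hl v hv => ?_) hw
  have := h.low l v hv
  rw [hS l hl] at this
  exact this.mono (Set.singleton_subset_iff.2 ⟨l, hl, rfl⟩)

theorem qlt_up_dom {S : Set Lab} {s : Bool} (hS : ∀ l ∈ S, l.2.side = s ∧ l.2.isZ0 = false) :
    S ⊆ (Op.X s).dom := by
  intro l hl
  have key : ∀ (l : Lab) (s : Bool), l.2.side = s ∧ l.2.isZ0 = false →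
      (Op.X s).ok l.role = true := by decide
  exact key l s (hS l hl)

theorem qlt_up {A B : LS Q} (h : A.Link B) {S : Set Lab} {s : Bool} {w : Q.W}
    (hS : ∀ l ∈ S, l.2.side = s ∧ l.2.isZ0 = false) (hw : A.Sat S w) :
    B.Sat {l' | (l'.1, l'.2.succ) ∈ S} (A.ap (.X s) w) := by
  refine A.ρ.loc_le ((A.isOp _).mono (A.ρ.mono (qlt_up_dom hS))) (fun l hl v hv => ?_) hw
  have := h.up l v (hS l hl).2 hv
  rw [(hS l hl).1] at this
  refine this.mono ?_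
  rintro l' ⟨h1, h2⟩
  show (l'.1, l'.2.succ) ∈ S
  rw [h1, h2]; exact hl

/-- The tower of a sequence of linked level structures. -/
def qlTower (A : ℕ → LS Q) (h : ∀ k, (A k).Link (A (k + 1))) : Tower Q.W where
  Sat k := (A k).Sat
  ap k := (A k).ap
  Orth w w' := Q.orth (Q.tgt w) (Q.tgt w')
  mono hS hw := hw.mono hS
  inter hw hw' := hw.inter hw'
  apT := qlt_apT h
  apX := qlt_apX h
  orth_symm := Q.orth_symm
  orth_sat hd hw hw' := QL.qlb_orth_mono hw hw' ((A _).ρ.orth hd)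
  orth_ap {k o w w'} hw hw' ho := by
    show Q.orth (Q.tgt ((A k).ap o w)) (Q.tgt ((A k).ap o w'))
    rw [((A k).isOp o).tgt_eq hw, ((A k).isOp o).tgt_eq hw']
    exact ((A k).isOp o).img_orth hw hw' ho
  cod := LS.cod
  inv := LS.inv
  sid := LS.sid
  scomp hw := LS.scomp _ _ hw
  rT := LS.rT
  rX := LS.rX
  sq := LS.sq
  jn := LS.jn
  tot {k w} := by
    show Q.le (Q.tgt w) ((A (k + 1)).ρ.ρ Set.univ) ↔ Q.le (Q.tgt w) ((A k).ρ.ρ (roleS .al))
    rw [(h k).tot]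
  chl hw := qlt_chl (h _) hw
  cr ho hw := qlt_cr (h _) ho hw
  low hS hw := qlt_low (h _) hS hw
  up hS hw := qlt_up (h _) hS hw

variable {A : ℕ → LS Q} {h : ∀ k, (A k).Link (A (k + 1))}

/-- Labels on a given line. -/
def qltE (η : Dart) : Set Lab := {l | l.2.η = η}

theorem qlt_succ_eta (t : Th) : t.succ.η = t.η ∧ t.succ.isZ0 = false := by
  revert t; decide

theorem qlt_low_E {A B : LS Q} (h : A.Link B) {η : Dart} {w : Q.W} (hw : B.Sat (qltE η) w) :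
    A.Sat (qltE η \ {l | l.2.isZ0 = true}) (A.ap (.X (!η.side)) w) := by
  refine (qlt_low h (s := η.side) (fun l hl => ?_) hw).mono ?_
  · have hl' : l.2.η = η := hl
    rw [Th.side, hl']
  · rintro _ ⟨l, hl, rfl⟩
    have hl' : l.2.η = η := hl
    refine ⟨(qlt_succ_eta l.2).1.trans hl', ?_⟩
    show ¬ (l.2.succ.isZ0 = true)
    rw [(qlt_succ_eta l.2).2]; decide

theorem qlt_iter (h : ∀ k, (A k).Link (A (k + 1))) (η : Dart) (d K : ℕ) :
    Q.IsOp ((A (K + d)).ρ.ρ (qltE η)) ((A 0).ap (.X (!η.side)))^[d] ∧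
      ∀ w, (A (K + d)).Sat (qltE η) w → (A K).Sat (qltE η) (((A 0).ap (.X (!η.side)))^[d] w) := by
  induction d generalizing K with
  | zero => exact ⟨QL.IsOp.id _, fun w hw => hw⟩
  | succ d ih =>
    obtain ⟨h1, h2⟩ := ih (K + 1)
    have e : K + 1 + d = K + (d + 1) := by omega
    rw [e] at h1 h2
    rw [Function.iterate_succ']
    refine ⟨h1.comp (D' := (A (K + 1)).ρ.ρ (qltE η)) ?_ (h2 _ (QL.qlb_idw_le (Q.le_refl _))),
      fun w hw => ?_⟩
    · rw [← qlt_apX h K]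
      exact qlt_isOp (h K) _ rfl
    · have := qlt_low_E (h K) (h2 w hw)
      rw [qlt_apX h K] at this
      exact this.mono Set.sdiff_subset

theorem satP_nat {k m n : ℕ} {p : X} {v w : Q.W} (hv : (qlTower A h).SatP k m n p v)
    (hw : Q.le (Q.tgt w) (Q.src v)) : (qlTower A h).SatP k m n p (Q.act v w) := by
  induction m generalizing k p v with
  | zero =>
    obtain ⟨u, hu, rfl⟩ := hv
    set D := TD.can n p.dat
    have hu' : (A (k + D.d + D.c)).Sat D.set u := hu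
    have hop := (qlt_iter h D.η D.d (k + D.c)).1
    have e : k + D.c + D.d = k + D.d + D.c := by omega
    rw [e] at hop
    have hu2 : Q.le (Q.tgt u) ((A (k + D.d + D.c)).ρ.ρ (qltE D.η)) := hu'.mono fun l hl => hl.1
    have hw' : Q.le (Q.tgt w) (Q.src u) := by
      rw [← hop.src hu2]; exact hw
    exact ⟨Q.act u w, Q.le_trans (Q.tgt_act hw') hu', (hop.nat hu2 hw').symm⟩
  | succ m ih =>
    obtain ⟨u, hu, rfl⟩ := hv
    have hop : Q.IsOp ((A (k + 1)).ρ.ρ Set.univ) ((A k).ap (.S .al p.role)) :=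
      qlt_isOp (h k) _ (qlt_okS _)
    have hu2 : Q.le (Q.tgt u) ((A (k + 1)).ρ.ρ Set.univ) := hu.univ
    have hw' : Q.le (Q.tgt w) (Q.src u) := by
      rw [← hop.src hu2]; exact hw
    exact ⟨Q.act u w, ih hu hw', (hop.nat hu2 hw').symm⟩

theorem satP_of_le {k m n : ℕ} {p : X} {v w : Q.W} (hv : (qlTower A h).SatP k m n p v)
    (hw : Q.le (Q.tgt w) (Q.tgt v)) : (qlTower A h).SatP k m n p w := by
  rw [← QL.qlb_act_inv_act hw]
  refine satP_nat hv ?_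
  rw [← Q.tgt_inv]
  exact Q.tgt_act (QL.qlb_le_inv hw)

theorem qlt_incl {A B : LS Q} (h : A.Link B) (T : Set Th) :
    Q.le (B.ρ.ρ {l | l.2 ∈ T}) (A.ρ.ρ ({l | l.2 ∈ T} \ {l | l.1 = true})) := by
  have hid : B.Sat {l | l.2 ∈ T} (Q.idw (B.ρ.ρ {l | l.2 ∈ T})) := QL.qlb_idw_le (Q.le_refl _)
  have h1 := qlt_chl (r := .al) h hid
  rw [LS.sid (r := .al) (Q.le_trans hid (qlt_le_al h _))] at h1
  have h2 : A.Sat ({l | l.2 ∈ T} \ {l | l.1 = true}) (Q.idw (B.ρ.ρ {l | l.2 ∈ T})) := by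
    refine h1.mono ?_
    rintro _ ⟨l, hl, rfl⟩
    exact ⟨hl, Bool.false_ne_true⟩
  rwa [LS.Sat, Q.tgt_idw] at h2

theorem qlt_cmove {A B : LS Q} (h : A.Link B) (T : Set Th) :
    A.ρ.ρ ({l | l.2 ∈ T} \ {l | l.1 = true}) = B.ρ.ρ {l | l.2 ∈ T} := by
  refine Q.le_antisymm ?_ (qlt_incl h T)
  have h1 : Q.le (A.ρ.ρ ({l | l.2 ∈ T} \ {l | l.1 = true})) (B.ρ.ρ Set.univ) := by
    rw [h.tot]
    refine A.ρ.mono ?_
    rintro ⟨f, t⟩ ⟨-, hf⟩
    have hf' : ¬ f = true := hf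
    show Lab.role (f, t) = .al
    simp [Lab.role, hf']
  have h2 : Q.orth (A.ρ.ρ ({l | l.2 ∈ T} \ {l | l.1 = true})) (B.ρ.ρ {l | l.2 ∈ Tᶜ}) := by
    refine QL.qlb_orth_mono (Q.le_refl _) (qlt_incl h Tᶜ) (A.ρ.orth ?_)
    exact Set.disjoint_left.2 fun l hl hl' => hl'.1 hl.1
  refine Q.le_trans (B.ρ.le_diff h1 h2) (B.ρ.mono ?_)
  rintro l ⟨-, hl⟩
  exact not_not.1 hl

theorem qlt_dmove {A B : LS Q} (h : A.Link B) (η : Dart) :
    A.ρ.ρ (qltE η \ {l | l.2.isZ0 = true}) = Q.img (A.ap (.X (!η.side))) (B.ρ.ρ (qltE η)) := by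
  refine Q.le_antisymm ?_ (qlt_low_E h (QL.qlb_idw_le (Q.le_refl _)))
  set p := A.ρ.ρ (qltE η \ {l | l.2.isZ0 = true})
  have hid : A.Sat (qltE η \ {l | l.2.isZ0 = true}) (Q.idw p) := QL.qlb_idw_le (Q.le_refl _)
  have hS : ∀ l ∈ qltE η \ {l | l.2.isZ0 = true}, l.2.side = η.side ∧ l.2.isZ0 = false := by
    rintro l ⟨hl, hz⟩
    have hl' : l.2.η = η := hl
    exact ⟨by rw [Th.side, hl'], Bool.eq_false_iff.2 hz⟩
  have h1 : B.Sat (qltE η) (A.ap (.X η.side) (Q.idw p)) := by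
    refine (qlt_up h hS hid).mono ?_
    rintro l ⟨hl, -⟩
    exact (qlt_succ_eta l.2).1.symm.trans hl
  have h2 : A.ap (.X (!η.side)) (A.ap (.X η.side) (Q.idw p)) = Q.idw p :=
    LS.inv (o := .X η.side) (hid.mono (qlt_up_dom hS))
  have h3 := (qlt_isOp h (qltE η) (o := .X (!η.side)) rfl).tgt_le (Q.le_refl _) h1
  rwa [h2, Q.tgt_idw] at h3

theorem qlt_cov_c (h : ∀ k, (A k).Link (A (k + 1))) (T : Set Th) (N j : ℕ) :
    Q.Cov (fun e => ∃ (c : ℕ) (ec : Bool), (if ec then c < N else c = N) ∧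
      Q.le e ((A (j + c)).ρ.ρ {l | l.2 ∈ T ∧ (ec = true → l.1 = true)}))
      ((A j).ρ.ρ {l | l.2 ∈ T}) := by
  induction N generalizing j with
  | zero =>
    refine .base ⟨0, false, by simp, (A j).ρ.mono fun l hl => ⟨hl, fun h => absurd h (by decide)⟩⟩
  | succ N ih =>
    obtain ⟨h1, h2⟩ := (A j).ρ.qlb_split {l | l.2 ∈ T} {l | l.1 = true}
    rw [h2]
    refine .add h1 (.base ⟨0, true, by simp, (A j).ρ.mono fun l hl => ⟨hl.1, fun _ => hl.2⟩⟩) ?_
    rw [qlt_cmove (h j) T]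
    refine (ih (j + 1)).mono ?_
    rintro e ⟨c, ec, hc, he⟩
    refine ⟨c + 1, ec, ?_, ?_⟩
    · cases ec <;> simpa using hc
    · have e1 : j + 1 + c = j + (c + 1) := by omega
      rwa [e1] at he

theorem qlt_cov_d (h : ∀ k, (A k).Link (A (k + 1))) (η : Dart) (N j : ℕ) :
    Q.Cov (fun e => ∃ (d : ℕ) (ed : Bool), (if ed then d < N else d = N) ∧
      e = Q.img ((A 0).ap (.X (!η.side)))^[d]
        ((A (j + d)).ρ.ρ {l | l.2.η = η ∧ (ed = true → l.2.isZ0 = true)}))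
      ((A j).ρ.ρ (qltE η)) := by
  induction N generalizing j with
  | zero =>
    refine .base ⟨0, false, by simp, ?_⟩
    rw [QL.img, Function.iterate_zero_apply, Q.tgt_idw]
    congr 1
    ext l
    simp [qltE]
  | succ N ih =>
    obtain ⟨h1, h2⟩ := (A j).ρ.qlb_split (qltE η) {l | l.2.isZ0 = true}
    rw [h2]
    refine .add h1 (.base ⟨0, true, by simp, ?_⟩) ?_
    · rw [QL.img, Function.iterate_zero_apply, Q.tgt_idw]
      congr 1
      ext l
      simp [qltE]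
    · rw [qlt_dmove (h j) η]
      have hop := qlt_isOp (h j) (qltE η) (o := .X (!η.side)) rfl
      refine (ih (j + 1)).img hop (Q.le_refl _) ?_
      rintro e he ⟨d, ed, hd, rfl⟩
      refine ⟨d + 1, ed, ?_, ?_⟩
      · cases ed <;> simpa using hd
      · have e1 : j + 1 + d = j + (d + 1) := by omega
        rw [← e1, Function.iterate_succ', QL.img.eq_1 Q _ ((A (j + 1 + d)).ρ.ρ _), ← hop.tgt_eq he,
          qlt_apX h j]
        rfl

theorem qlt_cov_fib {L M : Type} [Finite M] (ρ : Q.PVM L) (f : L → M) :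
    Q.Cov (fun e => ∃ a, e = ρ.ρ {l | f l = a}) (ρ.ρ Set.univ) := by
  let ρ' : Q.PVM M := ⟨fun S => ρ.ρ (f ⁻¹' S), ρ.empty, fun hd => ρ.orth (hd.preimage f),
    fun hd => ρ.union (hd.preimage f)⟩
  exact (ρ'.cov Set.univ).mono fun e ⟨a, _, he⟩ => ⟨a, he⟩

theorem qlt_role_img {A B : LS Q} (h : A.Link B) (r : Role) :
    A.ρ.ρ (roleS r) = Q.img (A.ap (.S .al r)) (B.ρ.ρ Set.univ) := by
  have hop := qlt_isOp h Set.univ (qlt_okS r)
  refine Q.le_antisymm ?_ ?_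
  · set p := A.ρ.ρ (roleS r)
    have hid : A.Sat (Op.S r .al).dom (Q.idw p) := by
      rw [qlt_dom_S]; exact QL.qlb_idw_le (Q.le_refl _)
    have h1 : B.Sat Set.univ (A.ap (.S r .al) (Q.idw p)) := by
      have := LS.cod hid
      rw [Op.inv, qlt_dom_S, LS.Sat, ← h.tot] at this
      exact this
    have h2 : A.ap (.S .al r) (A.ap (.S r .al) (Q.idw p)) = Q.idw p := LS.inv hid
    have h3 := hop.tgt_le (Q.le_refl _) h1
    rwa [h2, Q.tgt_idw] at h3
  · have hid : A.Sat (Op.S .al r).dom (Q.idw (B.ρ.ρ Set.univ)) := by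
      rw [qlt_dom_S]; exact QL.qlb_idw_le (qlt_le_al h _)
    have := LS.cod hid
    rw [Op.inv, qlt_dom_S] at this
    exact this

theorem cov_satP (k m n : ℕ) : Q.Cov (fun e => ∃ p, (qlTower A h).SatP k m n p (Q.idw e))
    ((A k).ρ.ρ Set.univ) := by
  induction m generalizing k with
  | zero =>
    refine (qlt_cov_fib (A k).ρ (fun l : Lab => l.2.η)).bind ?_
    rintro _ - ⟨η, rfl⟩
    refine (qlt_cov_d h η n k).bind ?_
    rintro _ - ⟨d, ed, hd, rfl⟩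
    refine (qlt_cov_c h {t | t.η = η ∧ (ed = true → t.isZ0 = true)} n (k + d)).img
      (qlt_iter h η d k).1 ((A (k + d)).ρ.mono fun l hl => hl.1) ?_
    rintro e - ⟨c, ec, hc, he⟩
    obtain ⟨p, hp⟩ := exists_can n ⟨c, ec, η, d, ed⟩ hc hd
    refine ⟨p, satP_of_le (v := ((A 0).ap (.X (!η.side)))^[d] (Q.idw e)) ?_
      (QL.qlb_idw_le (Q.le_refl _))⟩
    show (qlTower A h).Thick k (TD.can n p.dat) _
    rw [hp]
    refine ⟨Q.idw e, QL.qlb_idw_le (Q.le_trans he ((A _).ρ.mono ?_)), rfl⟩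
    rintro l ⟨⟨h1, h2⟩, h3⟩
    exact ⟨h1, h3, h2⟩
  | succ m ih =>
    refine (qlt_cov_fib (A k).ρ Lab.role).bind ?_
    rintro _ - ⟨r, rfl⟩
    have e1 : (A k).ρ.ρ {l | Lab.role l = r} = _ := qlt_role_img (h k) r
    rw [e1]
    refine (ih (k + 1)).img (qlt_isOp (h k) Set.univ (qlt_okS r)) (Q.le_refl _) ?_
    rintro e - ⟨p, hp⟩
    refine ⟨cons r p, satP_of_le (v := (A k).ap (.S .al r) (Q.idw e)) ?_
      (QL.qlb_idw_le (Q.le_refl _))⟩
    exact ⟨Q.idw e, hp, by rw [role_cons]; rfl⟩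

end Vale.Agent.P196
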