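import Vale.Agent.P196.Step2
import Vale.Agent.P196.NF
import Vale.Agent.P196.QLTower
import Vale.Agent.P196.RepBasic

/-! From a level structure to a representation of all clopen sets. -/

namespace Vale.Agent.P196

open X

variable {Q : QL}

section

variable (A : ℕ → LS Q) (h : ∀ k, (A k).Link (A (k + 1)))

/-- `e` represents `U` at depth `n`. -/
def RepN (n : ℕ) (U : Set X) (e : Q.P) : Prop :=
  ∀ w p, (qlTower A h).SatP 0 n n p w →
    (p ∈ U → Q.le (Q.tgt w) e) ∧ (p ∉ U → Q.orth (Q.tgt w) e)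

/-- `e` represents `U`. -/
def RepE (U : Set X) (e : Q.P) : Prop := ∃ n, 2 ≤ n ∧ RepN A h n U e

open Classical in
/-- The projection representing `U`. -/
noncomputable def repOf (U : Set X) : Q.P :=
  if hU : ∃ e, RepE A h U e then hU.choose else Q.zero

variable {A h} {U V : Set X} {e f : Q.P} {n n' : ℕ}

theorem RepN.mono (hr : RepN A h n U e) (hn : n ≤ n') (h2 : 2 ≤ n') : RepN A h n' U e :=
  fun w p hp => hr w p (hp.mono hn hn h2)

theorem rep_split (h1 : (A 0).ρ.ρ Set.univ = Q.one) (n : ℕ) (U : Set X) :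
    ∃ a b, Q.orth a b ∧ Q.one = Q.add a b ∧
      Q.Cov (fun q => ∃ p ∈ U, (qlTower A h).SatP 0 n n p (Q.idw q)) a ∧
      Q.Cov (fun q => ∃ p ∉ U, (qlTower A h).SatP 0 n n p (Q.idw q)) b := by
  have := cov_satP (A := A) (h := h) 0 n n
  rw [h1] at this
  refine QL.Cov.split (this.mono ?_)
  rintro q ⟨p, hp⟩
  by_cases hU : p ∈ U
  · exact Or.inl ⟨p, hU, hp⟩
  · exact Or.inr ⟨p, hU, hp⟩

theorem RepN.cov (h1 : (A 0).ρ.ρ Set.univ = Q.one) (hr : RepN A h n U e) :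
    Q.Cov (fun q => ∃ p ∈ U, (qlTower A h).SatP 0 n n p (Q.idw q)) e := by
  obtain ⟨a, b, hab, he, ha, hb⟩ := rep_split (h := h) h1 n U
  have k1 : Q.le a e := ha.le fun q _ ⟨p, hp, hq⟩ => by
    simpa [Q.tgt_idw] using (hr _ p hq).1 hp
  have k2 : Q.orth b e := hb.orth fun q _ ⟨p, hp, hq⟩ => by
    simpa [Q.tgt_idw] using (hr _ p hq).2 hp
  have k3 : Q.le e a := Q.le_of_orth hab (he ▸ Q.le_one e) (Q.orth_symm k2)
  rwa [Q.le_antisymm k3 k1]

theorem RepE.common (he : RepE A h U e) (hf : RepE A h V f) :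
    ∃ n, 2 ≤ n ∧ RepN A h n U e ∧ RepN A h n V f := by
  obtain ⟨n, h2, he⟩ := he
  obtain ⟨n', -, hf⟩ := hf
  have : 2 ≤ max n n' := h2.trans (le_max_left _ _)
  exact ⟨max n n', this, he.mono (le_max_left _ _) this, hf.mono (le_max_right _ _) this⟩

theorem RepE.le (h1 : (A 0).ρ.ρ Set.univ = Q.one) (he : RepE A h U e) (hf : RepE A h V f)
    (hUV : U ⊆ V) : Q.le e f := by
  obtain ⟨n, -, he, hf⟩ := he.common hf
  exact (he.cov h1).le fun q _ ⟨p, hp, hq⟩ => by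
    simpa [Q.tgt_idw] using (hf _ p hq).1 (hUV hp)

theorem RepE.orth (h1 : (A 0).ρ.ρ Set.univ = Q.one) (he : RepE A h U e) (hf : RepE A h V f)
    (hUV : Disjoint U V) : Q.orth e f := by
  obtain ⟨n, -, he, hf⟩ := he.common hf
  exact (he.cov h1).orth fun q _ ⟨p, hp, hq⟩ => by
    simpa [Q.tgt_idw] using (hf _ p hq).2 (Set.disjoint_left.1 hUV hp)

theorem exists_repE (h1 : (A 0).ρ.ρ Set.univ = Q.one) (hU : IsClopen U) : ∃ e, RepE A h U e := by
  obtain ⟨n₀, hn₀⟩ := isClopen_iff_near.1 hU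
  have h2 : 2 ≤ max n₀ 2 := le_max_right _ _
  have hn : ∀ p q, Near (max n₀ 2) (max n₀ 2) p q → p ∈ U → q ∈ U := fun p q hpq =>
    hn₀ p q (hpq.mono (le_max_left _ _) (le_max_left _ _) h2)
  obtain ⟨a, b, hab, he, ha, hb⟩ := rep_split (h := h) h1 (max n₀ 2) U
  refine ⟨a, max n₀ 2, h2, fun w p hw => ⟨fun hp => ?_, fun hp => ?_⟩⟩
  · refine Q.le_of_orth hab (he ▸ Q.le_one _) (Q.orth_symm (hb.orth ?_))
    rintro q _ ⟨p', hp', hq⟩
    have : Q.orth (Q.tgt (Q.idw q)) (Q.tgt w) :=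
      Tower.SatP.orth (fun hn' => hp' (hn p p' hn'.symm hp)) hq hw
    rwa [Q.tgt_idw] at this
  · refine Q.orth_symm (ha.orth ?_)
    rintro q _ ⟨p', hp', hq⟩
    have : Q.orth (Q.tgt (Q.idw q)) (Q.tgt w) :=
      Tower.SatP.orth (fun hn' => hp (hn p' p hn' hp')) hq hw
    rwa [Q.tgt_idw] at this

theorem repOf_spec (hU : ∃ e, RepE A h U e) : RepE A h U (repOf A h U) := by
  rw [repOf, dif_pos hU]
  exact hU.choose_spec

theorem RepE.eq (h1 : (A 0).ρ.ρ Set.univ = Q.one) (he : RepE A h U e) : repOf A h U = e :=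
  Q.le_antisymm ((repOf_spec ⟨e, he⟩).le h1 he subset_rfl)
    (he.le h1 (repOf_spec ⟨e, he⟩) subset_rfl)

theorem repE_lab (S : Set Lab) : RepE A h (labS S) ((A 0).ρ.ρ S) := by
  refine ⟨2, le_rfl, fun w p hw => ?_⟩
  have k : Q.le (Q.tgt w) ((A 0).ρ.ρ {p.lab}) := hw.lab le_rfl
  exact ⟨fun hp => Q.le_trans k ((A 0).ρ.mono (Set.singleton_subset_iff.2 hp)),
    fun hp => Q.orth_mono k ((A 0).ρ.orth (Set.disjoint_singleton_left.2 hp))⟩

theorem rep_inv_inv (o : Op) : o.inv.inv = o := by revert o; decide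

theorem RepE.img (h1 : (A 0).ρ.ρ Set.univ = Q.one) (he : RepE A h U e) {o : Op}
    (ho : U ⊆ labS o.dom) : RepE A h (ap o '' U) (Q.img ((A 0).ap o) e) := by
  have hle : Q.le e ((A 0).ρ.ρ o.dom) := he.le h1 (repE_lab _) ho
  obtain ⟨n, h2, he⟩ := he
  refine ⟨n + 1, by omega, fun w p hw => ?_⟩
  have k : Q.le (Q.tgt w) ((A 0).ρ.ρ {p.lab}) := hw.lab (by omega)
  by_cases hok : o.inv.ok p.role = true
  · have k1 : (A 0).Sat o.inv.dom w :=
      Q.le_trans k ((A 0).ρ.mono (Set.singleton_subset_iff.2 hok))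
    have k2 : (A 0).ap o ((A 0).ap o.inv w) = w := by
      have := LS.inv k1
      rwa [rep_inv_inv] at this
    have k3 : Q.le (Q.tgt ((A 0).ap o.inv w)) ((A 0).ρ.ρ o.dom) := by
      have := LS.cod k1
      rwa [rep_inv_inv] at this
    have k4 := he ((A 0).ap o.inv w) _ (hw.track hok h2)
    refine ⟨?_, fun hp => ?_⟩
    · rintro ⟨p₀, hp₀, rfl⟩
      rw [ap_inv (ho hp₀)] at k4
      have := ((A 0).isOp o).tgt_le hle (k4.1 hp₀)
      rwa [k2] at this
    · have k5 : ap o (ap o.inv p) = p := by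
        have := ap_inv hok
        rwa [rep_inv_inv] at this
      have := ((A 0).isOp o).img_orth k3 hle (k4.2 fun h' => hp ⟨_, h', k5⟩)
      rwa [← ((A 0).isOp o).tgt_eq k3, k2] at this
  · refine ⟨?_, fun _ => ?_⟩
    · rintro ⟨p₀, hp₀, rfl⟩
      exact (hok (ok_inv (ho hp₀))).elim
    · have k1 : (A 0).Sat o.inv.dom ((A 0).ap o (Q.idw e)) :=
        LS.cod (by rw [LS.Sat, Q.tgt_idw]; exact hle)
      exact Q.orth_mono k (Q.orth_symm (Q.orth_mono k1
        ((A 0).ρ.orth (Set.disjoint_singleton_right.2 hok))))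

theorem isRep_repOf (h1 : (A 0).ρ.ρ Set.univ = Q.one) : IsRep (A 0) (repOf A h) where
  univ := RepE.eq h1 ⟨2, le_rfl, fun _ _ _ => ⟨fun _ => Q.le_one _, fun hp => (hp trivial).elim⟩⟩
  empty := RepE.eq h1 ⟨2, le_rfl, fun _ _ _ =>
    ⟨fun hp => hp.elim, fun _ => Q.orth_symm (Q.orth_zero _)⟩⟩
  orth _ _ hU hV hd := (repOf_spec (exists_repE h1 hU)).orth h1 (repOf_spec (exists_repE h1 hV)) hd
  union U V hU hV hd := by
    have k1 := repOf_spec (h := h) (exists_repE h1 hU)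
    have k2 := repOf_spec (h := h) (exists_repE h1 hV)
    have ho := k1.orth h1 k2 hd
    obtain ⟨n, h2, k1, k2⟩ := k1.common k2
    refine RepE.eq h1 ⟨n, h2, fun w p hw => ⟨?_, fun hp => ?_⟩⟩
    · rintro (hp | hp)
      · exact Q.le_trans ((k1 w p hw).1 hp) (Q.le_add_left ho)
      · exact Q.le_trans ((k2 w p hw).1 hp) (Q.le_add_right ho)
    · exact Q.orth_add ho ((k1 w p hw).2 fun h' => hp (Or.inl h'))
        ((k2 w p hw).2 fun h' => hp (Or.inr h'))
  lab S := (repE_lab S).eq h1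
  img _ _ hU ho := (((repOf_spec (exists_repE h1 hU)).img h1 ho).eq h1).symm

theorem pathIndep_repOf (h1 : (A 0).ρ.ρ Set.univ = Q.one) : PathIndep (A 0) (repOf A h) := by
  intro U l l' hU hl hl' he
  have key : ∃ N, 2 ≤ N ∧ ∀ q ∈ U, ∀ v, (qlTower A h).SatP 0 N N q v →
      run (A 0).ap l v = run (A 0).ap l' v := by
    refine hU.isClosed.isCompact.induction_on (p := fun s => ∃ N, 2 ≤ N ∧ ∀ q ∈ s, ∀ v,
      (qlTower A h).SatP 0 N N q v → run (A 0).ap l v = run (A 0).ap l' v) ?_ ?_ ?_ ?_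
    · exact ⟨2, le_rfl, fun _ hq => hq.elim⟩
    · rintro s t hst ⟨N, h2, hN⟩
      exact ⟨N, h2, fun q hq => hN q (hst hq)⟩
    · rintro s t ⟨N, h2, hN⟩ ⟨N', -, hN'⟩
      have h3 : 2 ≤ max N N' := h2.trans (le_max_left _ _)
      refine ⟨max N N', h3, ?_⟩
      rintro q (hq | hq) v hv
      · exact hN q hq v (hv.mono (le_max_left _ _) (le_max_left _ _) h3)
      · exact hN' q hq v (hv.mono (le_max_right _ _) (le_max_right _ _) h3)
    · intro p hp
      obtain ⟨N, hN⟩ := rw_of_eventuallyEq (hl p hp) (hl' p hp)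
        (Filter.eventually_of_mem (hU.isOpen.mem_nhds hp) he) Q.W (qlTower A h) 0
      have h3 : 2 ≤ max N 2 := le_max_right _ _
      refine ⟨{q | Near (max N 2) (max N 2) p q}, mem_nhdsWithin_of_mem_nhds
        ((isClopen_near _ _ p).isOpen.mem_nhds (Near.refl _ _ p)), max N 2, h3,
        fun q hq v hv => hN v ?_⟩
      exact (hv.congr (Near.symm hq)).mono (le_max_left _ _) (le_max_left _ _) h3
  obtain ⟨N, h2, hN⟩ := key
  obtain ⟨n, -, hn⟩ := repOf_spec (h := h) (exists_repE h1 hU)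
  have h3 : 2 ≤ max N n := h2.trans (le_max_left _ _)
  have hR := isRep_repOf (h := h) h1
  refine ((hn.mono (le_max_right N n) h3).cov h1).eq (hR.valid hU hl).isOp (hR.valid hU hl').isOp
    ?_ (by rw [Q.tgt_idw]; exact Q.le_refl _)
  rintro q _ ⟨p, hp, hq⟩
  exact hN p hp _ (hq.mono (le_max_left _ _) (le_max_left _ _) h3)

end

theorem exists_rep (A₀ : LS Q) (h1 : A₀.ρ.ρ Set.univ = Q.one) :
    ∃ ρ, IsRep A₀ ρ ∧ PathIndep A₀ ρ := by
  choose nx hnx using LS.exists_link (Q := Q)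
  let A : ℕ → LS Q := fun k => nx^[k] A₀
  have h : ∀ k, (A k).Link (A (k + 1)) := fun k => by
    show (nx^[k] A₀).Link (nx^[k + 1] A₀)
    rw [Function.iterate_succ_apply']
    exact hnx _
  exact ⟨repOf A h, isRep_repOf (A := A) h1, pathIndep_repOf (A := A) h1⟩

end Vale.Agent.P196
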