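import Vale.Agent.P196.AltBasic

namespace Vale.Agent.P196

open Equiv

section gsys

variable {N Ξ P : Type*} [Group N] [MulAction N Ξ] (G : GSys N Ξ P) {B : Set P}

/-- The generating triples over `B`. -/
def GSys.genSt (B : Set P) : Set N :=
  {g | ∃ x y z, G.cmp x = G.cmp y ∧ G.cmp y = G.cmp z ∧
    D3 (G.β x) (G.β y) (G.β z) ∧ G.β x ∈ B ∧ G.β y ∈ B ∧ G.β z ∈ B ∧ g = G.φ x y z}

theorem GSys.NB_eq_st (B : Set P) : G.NB B = Subgroup.closure (G.genSt B ∪ G.Z) := by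
  rw [Subgroup.closure_union, Subgroup.closure_eq]
  rfl

theorem GSys.gen_mem_st {x y z : Ξ} (h1 : G.cmp x = G.cmp y) (h2 : G.cmp y = G.cmp z)
    (h3 : D3 (G.β x) (G.β y) (G.β z)) (hx : G.β x ∈ B) (hy : G.β y ∈ B) (hz : G.β z ∈ B) :
    G.φ x y z ∈ G.NB B :=
  Subgroup.mem_sup_left (Subgroup.subset_closure ⟨x, y, z, h1, h2, h3, hx, hy, hz, rfl⟩)

theorem GSys.Z_le_st (B : Set P) : G.Z ≤ G.NB B := le_sup_right

theorem GSys.NB_le_st {L : Subgroup N} (h1 : G.genSt B ⊆ L) (h2 : G.Z ≤ L) : G.NB B ≤ L :=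
  sup_le ((Subgroup.closure_le L).2 h1) h2

theorem GSys.fix_st {g : N} (hg : g ∈ G.NB B) {ξ : Ξ} (hξ : G.β ξ ∉ B) : g • ξ = ξ := by
  refine G.NB_le_st (L := MulAction.stabilizer N ξ) ?_ (fun g hg => G.Z_smul g hg ξ) hg
  rintro _ ⟨x, y, z, h1, h2, h3, hx, hy, hz, rfl⟩
  exact G.fix h1 h2 h3 ξ (fun e => hξ (e ▸ hx)) (fun e => hξ (e ▸ hy)) fun e => hξ (e ▸ hz)

theorem GSys.mem_st {g : N} (hg : g ∈ G.NB B) {ξ : Ξ} (hξ : G.β ξ ∈ B) : G.β (g • ξ) ∈ B := by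
  by_contra h
  have := G.fix_st (inv_mem hg) h
  rw [inv_smul_smul] at this
  rw [← this] at h
  exact h hξ

theorem GSys.β_ne_st (g : N) {ξ η : Ξ} (h : G.β ξ ≠ G.β η) : G.β (g • ξ) ≠ G.β (g • η) := by
  intro e
  have := G.β_smul g⁻¹ _ _ e
  rw [inv_smul_smul, inv_smul_smul] at this
  exact h this

theorem GSys.conj_st {g n : N} (hg : g ∈ G.NB B) {ξ η : Ξ} (e : g • ξ = η)
    (hn : n ∈ G.NB (B \ {G.β ξ})) : g * n * g⁻¹ ∈ G.NB (B \ {G.β η}) := by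
  subst e
  refine G.NB_le_st (L := (G.NB (B \ {G.β (g • ξ)})).comap (MulAut.conj g).toMonoidHom) ?_
    (fun n hn => G.Z_le_st _ (G.Z_normal.conj_mem n hn g)) hn
  rintro _ ⟨x, y, z, h1, h2, h3, hx, hy, hz, rfl⟩
  change g * G.φ x y z * g⁻¹ ∈ G.NB _
  rw [G.conj g h1 h2 h3]
  exact G.gen_mem_st (by rw [G.cmp_smul, G.cmp_smul, h1]) (by rw [G.cmp_smul, G.cmp_smul, h2])
    ⟨G.β_ne_st g h3.1, G.β_ne_st g h3.2.1, G.β_ne_st g h3.2.2⟩
    ⟨G.mem_st hg hx.1, G.β_ne_st g hx.2⟩ ⟨G.mem_st hg hy.1, G.β_ne_st g hy.2⟩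
    ⟨G.mem_st hg hz.1, G.β_ne_st g hz.2⟩

/-- The points of one component over `B`. -/
def GSys.Om (B : Set P) (c : P) (ξ : Ξ) : Prop := G.cmp ξ = c ∧ G.β ξ ∈ B

/-- `g` lies in the standard coset of elements carrying `ξ` to `η`. -/
def GSys.Edge (B : Set P) (c : P) (ξ η : Ξ) (g : N) : Prop :=
  ∃ b, G.Om B c b ∧ D3 (G.β η) (G.β b) (G.β ξ) ∧ g * (G.φ η b ξ)⁻¹ ∈ G.NB (B \ {G.β η})

variable {G} {c : P}

theorem GSys.Om.eq {ξ η : Ξ} (h : G.Om B c ξ) (h' : G.Om B c η) : G.cmp ξ = G.cmp η :=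
  h.1.trans h'.1.symm

theorem GSys.Om.gen {x y z : Ξ} (hx : G.Om B c x) (hy : G.Om B c y) (hz : G.Om B c z)
    (h3 : D3 (G.β x) (G.β y) (G.β z)) : G.φ x y z ∈ G.NB B :=
  G.gen_mem_st (hx.eq hy) (hy.eq hz) h3 hx.2 hy.2 hz.2

theorem GSys.exists_off_st (h4 : 4 ≤ (B ∩ G.β '' {ξ | G.cmp ξ = c}).encard) (p q r : P) :
    ∃ v, G.Om B c v ∧ G.β v ≠ p ∧ G.β v ≠ q ∧ G.β v ≠ r := by
  obtain ⟨_, ⟨hv, v, hc, rfl⟩, hv'⟩ := exists_off_ab (S := B ∩ G.β '' {ξ | G.cmp ξ = c})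
    (F := {p, q, r}) (by
      refine lt_of_lt_of_le (lt_of_le_of_lt ((Set.encard_insert_le _ _).trans
        (add_le_add_left (Set.encard_insert_le _ _) _)) ?_) h4
      rw [Set.encard_singleton]
      norm_num)
  simp only [Set.mem_insert_iff, Set.mem_singleton_iff, not_or] at hv'
  exact ⟨v, ⟨hc, hv⟩, hv'⟩

theorem GSys.indep0_st {ξ η b b' : Ξ} (hξ : G.Om B c ξ) (hη : G.Om B c η) (hb : G.Om B c b)
    (hb' : G.Om B c b') (h : D3 (G.β η) (G.β b) (G.β ξ)) (h' : D3 (G.β η) (G.β b') (G.β ξ))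
    (hne : G.β b ≠ G.β b') : G.φ η b ξ * (G.φ η b' ξ)⁻¹ ∈ G.NB (B \ {G.β η}) := by
  rw [inv_eq_of_mul_eq_one_right (G.inv (hη.eq hb') (hb'.eq hξ) h'),
    G.mul (hη.eq hb) (hb.eq hξ) (hξ.eq hb') h h'.flip_ab hne]
  exact G.gen_mem_st (hb.eq hξ) (hξ.eq hb') ⟨h.2.1, h'.2.1.symm, hne⟩ ⟨hb.2, h.1.symm⟩
    ⟨hξ.2, h.2.2.symm⟩ ⟨hb'.2, h'.1.symm⟩

theorem GSys.Edge.any (h4 : 4 ≤ (B ∩ G.β '' {ξ | G.cmp ξ = c}).encard) {ξ η b' : Ξ} {g : N}
    (hξ : G.Om B c ξ) (hη : G.Om B c η) (he : G.Edge B c ξ η g) (hb' : G.Om B c b')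
    (h' : D3 (G.β η) (G.β b') (G.β ξ)) : g * (G.φ η b' ξ)⁻¹ ∈ G.NB (B \ {G.β η}) := by
  obtain ⟨b, hb, h, hg⟩ := he
  have key : G.φ η b ξ * (G.φ η b' ξ)⁻¹ ∈ G.NB (B \ {G.β η}) := by
    by_cases hne : G.β b = G.β b'
    · obtain ⟨v, hv, v1, v2, v3⟩ := GSys.exists_off_st h4 (G.β η) (G.β b) (G.β ξ)
      have hD : D3 (G.β η) (G.β v) (G.β ξ) := ⟨v1.symm, v3, h.2.2⟩
      have := mul_mem (GSys.indep0_st hξ hη hb hv h hD v2.symm)
        (GSys.indep0_st hξ hη hv hb' hD h' (hne ▸ v2))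
      rwa [mul_assoc, inv_mul_cancel_left] at this
    · exact GSys.indep0_st hξ hη hb hb' h h' hne
  have := mul_mem hg key
  rwa [mul_assoc, inv_mul_cancel_left] at this

theorem GSys.Edge.left {ξ η : Ξ} {g n : N} (he : G.Edge B c ξ η g)
    (hn : n ∈ G.NB (B \ {G.β η})) : G.Edge B c ξ η (n * g) := by
  obtain ⟨b, hb, h, hg⟩ := he
  exact ⟨b, hb, h, by rw [mul_assoc]; exact mul_mem hn hg⟩

theorem GSys.Edge.ne {ξ η : Ξ} {g : N} (he : G.Edge B c ξ η g) : G.β ξ ≠ G.β η := by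
  obtain ⟨b, -, h, -⟩ := he
  exact h.2.2.symm

theorem GSys.Edge.inv {ξ η : Ξ} {g : N} (hξ : G.Om B c ξ) (hη : G.Om B c η)
    (he : G.Edge B c ξ η g) : G.Edge B c η ξ g⁻¹ := by
  obtain ⟨b, hb, h, hg⟩ := he
  have h' : D3 (G.β ξ) (G.β b) (G.β η) := ⟨h.2.1.symm, h.1.symm, h.2.2.symm⟩
  refine ⟨b, hb, h', ?_⟩
  have e1 : G.φ ξ b η = G.φ η ξ b := (G.cyc (hη.eq hξ) (hξ.eq hb) h.flip_ab).symm
  have e2 : (G.φ η b ξ)⁻¹ = G.φ ξ b η := by
    rw [e1, inv_eq_of_mul_eq_one_right (G.inv (hη.eq hb) (hb.eq hξ) h)]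
  have e3 : G.φ ξ b η • η = ξ := by
    rw [e1]
    exact G.act (hη.eq hξ) (hξ.eq hb) h.flip_ab
  have := G.conj_st (hξ.gen hb hη h') e3 (inv_mem hg)
  rw [← e2] at this ⊢
  have e4 : (G.φ η b ξ)⁻¹ * (g * (G.φ η b ξ)⁻¹)⁻¹ * (G.φ η b ξ)⁻¹⁻¹ =
      g⁻¹ * (G.φ η b ξ)⁻¹⁻¹ := by group
  rwa [e4] at this

theorem GSys.Edge.tri (h4 : 4 ≤ (B ∩ G.β '' {ξ | G.cmp ξ = c}).encard) {ξ η κ : Ξ} {g h : N}
    (hξ : G.Om B c ξ) (hη : G.Om B c η) (hκ : G.Om B c κ) (h1 : G.Edge B c ξ η g)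
    (h2 : G.Edge B c η κ h) (hne : G.β ξ ≠ G.β κ) : G.Edge B c ξ κ (h * g) := by
  have d1 : D3 (G.β η) (G.β κ) (G.β ξ) := ⟨h2.ne, hne.symm, h1.ne.symm⟩
  have n1 := h1.any h4 hξ hη hκ d1
  have n2 := h2.any h4 hη hκ hξ d1.cyc_ab
  have e1 : G.φ η κ ξ = G.φ κ ξ η := G.cyc (hη.eq hκ) (hκ.eq hξ) d1
  have e2 : G.φ κ η ξ = (G.φ η κ ξ)⁻¹ := by
    rw [e1, inv_eq_of_mul_eq_one_right (G.inv (hκ.eq hξ) (hξ.eq hη) d1.cyc_ab)]
  rw [← e1] at n2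
  have n3 := G.conj_st (hη.gen hκ hξ d1) (G.act (hη.eq hκ) (hκ.eq hξ) d1) n1
  have n4 := G.Z_le_st (B \ {G.β κ}) (G.cube (hη.eq hκ) (hκ.eq hξ) d1)
  refine ⟨η, hη, d1.cyc_ab.flip_ab, ?_⟩
  have e3 : h * g * (G.φ κ η ξ)⁻¹ = h * (G.φ η κ ξ)⁻¹ *
      (G.φ η κ ξ * (g * (G.φ η κ ξ)⁻¹) * (G.φ η κ ξ)⁻¹) * G.φ η κ ξ ^ 3 := by
    rw [e2, pow_three]
    group
  rw [e3]
  exact mul_mem (mul_mem n2 n3) n4

theorem GSys.exists_edge_st (h4 : 4 ≤ (B ∩ G.β '' {ξ | G.cmp ξ = c}).encard) {ξ η : Ξ}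
    (hne : G.β ξ ≠ G.β η) : ∃ g, G.Edge B c ξ η g := by
  obtain ⟨v, hv, v1, v2, -⟩ := GSys.exists_off_st h4 (G.β η) (G.β ξ) (G.β ξ)
  exact ⟨G.φ η v ξ, v, hv, ⟨v1.symm, v2, hne.symm⟩, by rw [mul_inv_cancel]; exact one_mem _⟩

/-- The standard coset for arbitrary pairs of points. -/
def GSys.Path (G : GSys N Ξ P) (B : Set P) (c : P) (ξ η : Ξ) (g : N) : Prop :=
  G.Edge B c ξ η g ∨ G.β ξ = G.β η ∧ ∃ κ h₁ h₂, G.Om B c κ ∧ G.Edge B c ξ κ h₁ ∧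
    G.Edge B c κ η h₂ ∧ g = h₂ * h₁

theorem GSys.Path.left {ξ η : Ξ} {g n : N} (he : G.Path B c ξ η g)
    (hn : n ∈ G.NB (B \ {G.β η})) : G.Path B c ξ η (n * g) := by
  rcases he with he | ⟨e, κ, h₁, h₂, hκ, e1, e2, rfl⟩
  · exact Or.inl (he.left hn)
  · exact Or.inr ⟨e, κ, h₁, n * h₂, hκ, e1, e2.left hn, (mul_assoc _ _ _).symm⟩

theorem GSys.Path.step (h4 : 4 ≤ (B ∩ G.β '' {ξ | G.cmp ξ = c}).encard) {ξ η κ : Ξ} {g s : N}
    (hξ : G.Om B c ξ) (hη : G.Om B c η) (hκ : G.Om B c κ) (he : G.Path B c ξ η g)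
    (hs : G.Edge B c η κ s) : G.Path B c ξ κ (s * g) := by
  rcases he with he | ⟨e, l, h₁, h₂, hl, e1, e2, rfl⟩
  · by_cases hne : G.β ξ = G.β κ
    · exact Or.inr ⟨hne, η, g, s, hη, he, hs, rfl⟩
    · exact Or.inl (he.tri h4 hξ hη hκ hs hne)
  · have hξκ : G.β ξ ≠ G.β κ := e ▸ hs.ne
    obtain ⟨m, hm, m1, m2, m3⟩ := GSys.exists_off_st h4 (G.β ξ) (G.β κ) (G.β l)
    obtain ⟨t, ht⟩ := GSys.exists_edge_st h4 m3.symm
    have a1 := e1.tri h4 hξ hl hm ht m1.symm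
    have a2 := (ht.inv hl hm).tri h4 hm hl hη e2 (e ▸ m1)
    have a3 := a1.tri h4 hξ hm hκ (a2.tri h4 hm hη hκ hs m2) hξκ
    have e4 : s * (h₂ * t⁻¹) * (t * h₁) = s * (h₂ * h₁) := by group
    rw [e4] at a3
    exact Or.inl a3

theorem GSys.gen_edge0_st {x y z η : Ξ} (h1 : G.cmp x = G.cmp y) (h2 : G.cmp y = G.cmp z)
    (h3 : D3 (G.β x) (G.β y) (G.β z)) (hz : G.β z ∈ B) (hη : G.Om B c η) (e : G.β η = G.β x) :
    G.Edge B c η (G.φ x y z • η) (G.φ x y z) := by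
  have a1 : G.φ x y z • x = y := G.act h1 h2 h3
  have a2 : G.φ x y z • y = z := by
    rw [G.cyc h1 h2 h3]
    exact G.act h2 (h1.trans h2).symm h3.cyc_ab
  have b1 : G.β (G.φ x y z • η) = G.β y := by rw [G.β_smul _ _ _ e, a1]
  have b2 : G.β (G.φ x y z • G.φ x y z • η) = G.β z := by rw [G.β_smul _ _ _ b1, a2]
  have hD : D3 (G.β η) (G.β (G.φ x y z • η)) (G.β (G.φ x y z • G.φ x y z • η)) := by
    rw [e, b1, b2]
    exact h3
  refine ⟨G.φ x y z • G.φ x y z • η, ⟨by rw [G.cmp_smul, G.cmp_smul, hη.1], b2 ▸ hz⟩,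
    hD.cyc_ab, ?_⟩
  rw [← G.cyc (G.cmp_smul _ _).symm (G.cmp_smul _ _).symm hD, ← G.deck h1 h2 h3 η e,
    mul_inv_cancel]
  exact one_mem _

theorem GSys.Path.gen (h4 : 4 ≤ (B ∩ G.β '' {ξ | G.cmp ξ = c}).encard) {ξ η : Ξ} {g s : N}
    (hξ : G.Om B c ξ) (hη : G.Om B c η) (he : G.Path B c ξ η g)
    (hs : s ∈ G.genSt B ∪ G.Z) : G.Path B c ξ (s • η) (s * g) := by
  have hsB : s ∈ G.NB B := by
    rw [G.NB_eq_st]
    exact Subgroup.subset_closure hs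
  have hκ : G.Om B c (s • η) := ⟨by rw [G.cmp_smul, hη.1], G.mem_st hsB hη.2⟩
  rcases hs with ⟨x, y, z, h1, h2, h3, hx, hy, hz, rfl⟩ | hs
  · by_cases ex : G.β η = G.β x
    · exact he.step h4 hξ hη hκ (GSys.gen_edge0_st h1 h2 h3 hz hη ex)
    have h2' : G.cmp z = G.cmp x := (h1.trans h2).symm
    by_cases ey : G.β η = G.β y
    · refine he.step h4 hξ hη hκ ?_
      rw [G.cyc h1 h2 h3]
      exact GSys.gen_edge0_st h2 h2' h3.cyc_ab hx hη ey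
    by_cases ez : G.β η = G.β z
    · refine he.step h4 hξ hη hκ ?_
      rw [G.cyc h1 h2 h3, G.cyc h2 h2' h3.cyc_ab]
      exact GSys.gen_edge0_st h2' h1 h3.cyc_ab.cyc_ab hy hη ez
    rw [G.fix h1 h2 h3 η ex ey ez]
    exact he.left (G.gen_mem_st h1 h2 h3 ⟨hx, Ne.symm ex⟩ ⟨hy, Ne.symm ey⟩ ⟨hz, Ne.symm ez⟩)
  · rw [G.Z_smul s hs]
    exact he.left (G.Z_le_st _ hs)

theorem GSys.inv_gen_st {s : N} (hs : s ∈ G.genSt B ∪ G.Z) : s⁻¹ ∈ G.genSt B ∪ G.Z := by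
  rcases hs with ⟨x, y, z, h1, h2, h3, hx, hy, hz, rfl⟩ | hs
  · exact Or.inl ⟨x, z, y, h1.trans h2, h2.symm, h3.flip_ab, hx, hz, hy,
      inv_eq_of_mul_eq_one_right (G.inv h1 h2 h3)⟩
  · exact Or.inr (inv_mem hs)

end gsys

/-- Stability: an element of `NB B` fixing `ξ₀` lies in `NB (B \ {β ξ₀})`. -/
theorem GSys.stab {N Ξ P : Type*} [Group N] [MulAction N Ξ] (G : GSys N Ξ P) {B : Set P} {ξ₀ : Ξ}
    (hB : G.β ξ₀ ∈ B) (h4 : 4 ≤ (B ∩ G.β '' {ξ | G.cmp ξ = G.cmp ξ₀}).encard)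
    {g : N} (hg : g ∈ G.NB B) (hfix : g • ξ₀ = ξ₀) : g ∈ G.NB (B \ {G.β ξ₀}) := by
  have h0 : G.Om B (G.cmp ξ₀) ξ₀ := ⟨rfl, hB⟩
  have hOm : ∀ g ∈ Subgroup.closure (G.genSt B ∪ G.Z), G.Om B (G.cmp ξ₀) (g • ξ₀) :=
    fun g hg => ⟨G.cmp_smul _ _, G.mem_st (G.NB_eq_st B ▸ hg) hB⟩
  have key : G.Path B (G.cmp ξ₀) ξ₀ (g • ξ₀) g := by
    rw [G.NB_eq_st] at hg
    clear hfix
    induction hg using Subgroup.closure_induction_left with
    | one =>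
      obtain ⟨v, hv, v1, -, -⟩ := GSys.exists_off_st h4 (G.β ξ₀) (G.β ξ₀) (G.β ξ₀)
      obtain ⟨t, ht⟩ := GSys.exists_edge_st h4 v1.symm
      rw [one_smul]
      exact Or.inr ⟨rfl, v, t, t⁻¹, hv, ht, ht.inv h0 hv, (inv_mul_cancel t).symm⟩
    | mul_left s hs g hg ih =>
      rw [mul_smul]
      exact ih.gen h4 h0 (hOm g hg) hs
    | inv_mul_cancel s hs g hg ih =>
      rw [mul_smul]
      exact ih.gen h4 h0 (hOm g hg) (GSys.inv_gen_st hs)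
  rw [hfix] at key
  rcases key with he | ⟨-, κ, h₁, h₂, hκ, e1, e2, rfl⟩
  · exact absurd rfl he.ne
  · obtain ⟨b, hb, hD, hn⟩ := e1.inv h0 hκ
    have := mul_mem (e2.any h4 hκ h0 hb hD) (inv_mem hn)
    have e : h₂ * (G.φ ξ₀ b κ)⁻¹ * (h₁⁻¹ * (G.φ ξ₀ b κ)⁻¹)⁻¹ = h₂ * h₁ := by group
    rwa [e] at this

variable {Y Γ : Type*} [Group Γ] {S : Set Y} {φ : Y → Y → Y → Γ}

theorem IsAlt.act_st (h : IsAlt S φ) {g : Γ × Perm Y} (hg : g ∈ altL S φ) {u v w : Y} (hu : u ∈ S)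
    (hv : v ∈ S) (hw : w ∈ S) (h3 : D3 u v w) :
    g.1 * φ u v w * g.1⁻¹ = φ (g.2 u) (g.2 v) (g.2 w) :=
  altL_act (fun _ _ _ _ _ _ a b c d e f => h.conj a b c d e f) subset_rfl hg hu hv hw h3

theorem IsAlt.central_st (h : IsAlt S φ) {g g' : Γ × Perm Y} (hg : g ∈ altL S φ) (h1 : g.2 = 1)
    (hg' : g' ∈ altL S φ) : Commute g.1 g'.1 := by
  refine altL_commute (fun x y z hx hy hz h3 => ?_) hg'
  have := h.act_st hg hx hy hz h3
  rw [h1, mul_inv_eq_iff_eq_mul] at this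
  exact this

/-- The action of `altL S φ` on `S`. -/
abbrev altActSt (S : Set Y) (φ : Y → Y → Y → Γ) : MulAction (altL S φ) S where
  smul g x := ⟨g.1.2 x.1, altL_mem g.2 x.2⟩
  one_smul _ := rfl
  mul_smul _ _ _ := rfl

open Classical in
/-- The generators as elements of `altL S φ`. -/
noncomputable def altGenSt (S : Set Y) (φ : Y → Y → Y → Γ) (x y z : S) : altL S φ :=
  if h : D3 x.1 y.1 z.1 then ⟨(φ x y z, c3 x.1 y z), altL_gen_ab x.2 y.2 z.2 h⟩ else 1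

theorem altGenSt_val {x y z : S} (h : D3 x.1 y.1 z.1) :
    (altGenSt S φ x y z).1 = (φ x y z, c3 x.1 y z) := by
  rw [altGenSt, dif_pos h]

section act

attribute [local instance] altActSt

theorem altActSt_val (g : altL S φ) (x : S) : (g • x).1 = g.1.2 x.1 := rfl

/-- An alternating system as a system of generalized 3-cycles. -/
noncomputable def IsAlt.gsysSt (h : IsAlt S φ) (L : Subgroup (Γ × Perm Y))
    (hL : ∀ x y z, x ∈ S → y ∈ S → z ∈ S → D3 x y z → (φ x y z, c3 x y z) ^ 3 ∈ L) (y₀ : Y) :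
    GSys (altL S φ) S Y where
  β := Subtype.val
  cmp _ := y₀
  φ := altGenSt S φ
  Z := (L ⊓ (MonoidHom.snd Γ (Perm Y)).ker).comap (altL S φ).subtype
  Z_normal := ⟨fun n hn g => by
    have h1 : n.1.2 = 1 := hn.2
    have e : g * n * g⁻¹ = n := by
      rw [mul_inv_eq_iff_eq_mul]
      refine Subtype.ext (Prod.ext (h.central_st n.2 h1 g.2).symm.eq ?_)
      change g.1.2 * n.1.2 = n.1.2 * g.1.2
      rw [h1, mul_one, one_mul]
    rwa [e]⟩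
  Z_smul g hg ξ := by
    have h1 : g.1.2 = 1 := hg.2
    apply Subtype.ext
    rw [altActSt_val, h1, Perm.one_apply]
  cmp_smul _ _ := rfl
  β_smul g ξ ξ' e := by rw [Subtype.ext e]
  cyc x y z _ _ h3 := by
    apply Subtype.ext
    rw [altGenSt_val h3, altGenSt_val h3.cyc_ab, h.cyc x.2 y.2 z.2 h3, c3_cyc h3]
  inv x y z _ _ h3 := by
    apply Subtype.ext
    rw [Subgroup.coe_mul, altGenSt_val h3, altGenSt_val h3.flip_ab, Prod.mk_mul_mk,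
      h.inv x.2 y.2 z.2 h3, c3_inv h3]
    rfl
  mul x b c v _ _ _ h1 h2 h3 := by
    apply Subtype.ext
    rw [Subgroup.coe_mul, altGenSt_val h1, altGenSt_val h2, altGenSt_val ⟨h1.2.1, h2.2.1, h3⟩,
      Prod.mk_mul_mk, h.mul x.2 b.2 c.2 v.2 h1 h2 h3,
      isAlt_c3.mul trivial trivial trivial trivial h1 h2 h3]
  cube x y z _ _ h3 := by
    change (altGenSt S φ x y z).1 ^ 3 ∈ L ⊓ (MonoidHom.snd Γ (Perm Y)).ker
    rw [altGenSt_val h3]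
    exact ⟨hL _ _ _ x.2 y.2 z.2 h3, c3_cube h3⟩
  conj g x y z _ _ h3 := by
    apply Subtype.ext
    rw [altGenSt_val (x := g • x) (y := g • y) (z := g • z) (h3.perm g.1.2), Subgroup.coe_mul,
      Subgroup.coe_mul, Subgroup.coe_inv, altGenSt_val h3]
    exact Prod.ext (h.act_st g.2 x.2 y.2 z.2 h3) (c3_conj _ _ _ _)
  act x y z _ _ h3 := by
    apply Subtype.ext
    rw [altActSt_val, altGenSt_val h3]
    exact c3_fst h3
  fix x y z _ _ h3 ξ a b c := by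
    apply Subtype.ext
    rw [altActSt_val, altGenSt_val h3]
    exact c3_other a b c
  deck x y z _ _ h3 ξ e := by
    have a1 : altGenSt S φ x y z • x = y := by
      apply Subtype.ext
      rw [altActSt_val, altGenSt_val h3]
      exact c3_fst h3
    have a2 : altGenSt S φ x y z • y = z := by
      apply Subtype.ext
      rw [altActSt_val, altGenSt_val h3]
      exact c3_snd h3
    rw [Subtype.ext e, a1, a2]

theorem IsAlt.strip_st (h : IsAlt S φ) {F : Set Y} (hF : F.Finite) (h3 : 3 ≤ (S \ F).encard)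
    {g : Γ × Perm Y} (hg : g ∈ altL S φ) (hfix : ∀ y ∈ F, g.2 y = y)
    {L : Subgroup (Γ × Perm Y)}
    (hL : ∀ x y z, x ∈ S → y ∈ S → z ∈ S → D3 x y z → (φ x y z, c3 x y z) ^ 3 ∈ L)
    (hL' : ∀ x y z, x ∈ S \ F → y ∈ S \ F → z ∈ S \ F → D3 x y z → (φ x y z, c3 x y z) ∈ L) :
    g ∈ L := by
  obtain ⟨y₀, -⟩ : (S \ F).Nonempty := by
    rw [← Set.encard_pos]
    exact lt_of_lt_of_le (by norm_num) h3
  have top : ∀ (g : Γ × Perm Y) (hg : g ∈ altL S φ),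
      (⟨g, hg⟩ : altL S φ) ∈ (h.gsysSt L hL y₀).NB S := by
    intro g hg
    induction hg using Subgroup.closure_induction with
    | mem g hg =>
      obtain ⟨x, y, z, hx, hy, hz, hD, rfl⟩ := hg
      have := (h.gsysSt L hL y₀).gen_mem_st (B := S) (x := ⟨x, hx⟩) (y := ⟨y, hy⟩) (z := ⟨z, hz⟩)
        rfl rfl hD hx hy hz
      have e : (h.gsysSt L hL y₀).φ ⟨x, hx⟩ ⟨y, hy⟩ ⟨z, hz⟩ =
          ⟨(φ x y z, c3 x y z), altL_gen_ab hx hy hz hD⟩ := Subtype.ext (altGenSt_val hD)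
      rw [e] at this
      exact this
    | one => exact one_mem _
    | mul g g' _ _ ih ih' => exact mul_mem ih ih'
    | inv g _ ih => exact inv_mem ih
  have key : ∀ F' : Set Y, F'.Finite → F' ⊆ F →
      (⟨g, hg⟩ : altL S φ) ∈ (h.gsysSt L hL y₀).NB (S \ F') := by
    intro F' hF'
    induction F', hF' using Set.Finite.induction_on with
    | empty =>
      intro _
      rw [Set.sdiff_empty]
      exact top g hg
    | @insert a F' ha _ ih =>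
      intro hs
      have ih' := ih ((Set.subset_insert a F').trans hs)
      have haF : a ∈ F := hs (Set.mem_insert a F')
      have e : S \ insert a F' = (S \ F') \ {a} := by
        ext u
        simp only [Set.mem_sdiff, Set.mem_insert_iff, Set.mem_singleton_iff]
        tauto
      rw [e]
      by_cases haS : a ∈ S
      · refine (h.gsysSt L hL y₀).stab (B := S \ F') (ξ₀ := ⟨a, haS⟩) ⟨haS, ha⟩ ?_ ih'
          (Subtype.ext (hfix a haF))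
        have h4 : 4 ≤ (insert a (S \ F)).encard := by
          rw [Set.encard_insert_of_notMem fun hh => hh.2 haF]
          exact add_le_add_left h3 1
        refine h4.trans (Set.encard_le_encard ?_)
        rintro u (rfl | hu)
        · exact ⟨⟨haS, ha⟩, ⟨u, haS⟩, rfl, rfl⟩
        · exact ⟨⟨hu.1, fun hh => hu.2 (hs (Set.mem_insert_of_mem a hh))⟩, ⟨u, hu.1⟩, rfl, rfl⟩
      · rwa [Set.sdiff_singleton_eq_self fun hh => haS hh.1]
  refine (h.gsysSt L hL y₀).NB_le_st (L := L.comap (altL S φ).subtype) ?_ (fun n hn => hn.1)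
    (key F hF subset_rfl)
  rintro _ ⟨x, y, z, -, -, hD, hx, hy, hz, rfl⟩
  change (altGenSt S φ x y z).1 ∈ L
  rw [altGenSt_val hD]
  exact hL' _ _ _ hx hy hz hD

end act

/-- All cubes agree. -/
theorem IsAlt.cube_eq (h : IsAlt S φ) (h5 : 5 ≤ S.encard) {x y z u v w : Y} (hx : x ∈ S)
    (hy : y ∈ S) (hz : z ∈ S) (hu : u ∈ S) (hv : v ∈ S) (hw : w ∈ S) (h1 : D3 x y z)
    (h2 : D3 u v w) : φ x y z ^ 3 = φ u v w ^ 3 := by
  obtain ⟨g, hg, rfl, rfl, rfl⟩ := altL_trans3_ab φ h5 hx hy hz hu hv hw h1 h2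
  have hc : Commute (φ x y z ^ 3) g.1 :=
    h.central_st (pow_mem (altL_gen_ab hx hy hz h1) 3) (c3_cube h1) hg
  rw [← h.act_st hg hx hy hz h1, conj_pow, ← hc.eq, mul_inv_cancel_right]

theorem exists_D3_st {T : Set Y} (h3 : 3 ≤ T.encard) :
    ∃ x y z, x ∈ T ∧ y ∈ T ∧ z ∈ T ∧ D3 x y z := by
  obtain ⟨U, hU, hc⟩ := Set.exists_subset_encard_eq h3
  obtain ⟨x, y, z, h1, h2, h3, rfl⟩ := Set.encard_eq_three.1 hc
  exact ⟨x, y, z, hU (by simp), hU (by simp), hU (by simp), h1, h3, h2⟩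

/-- An element of `altL S φ` fixing a finite set `F` pointwise commutes with everything that
commutes with all triples off `F`. -/
theorem IsAlt.stab_commute (h : IsAlt S φ) {F : Set Y} (hF : F.Finite) (h3 : 3 ≤ (S \ F).encard)
    (h5 : 5 ≤ S.encard) {g : Γ × Perm Y} (hg : g ∈ altL S φ) (hfix : ∀ y ∈ F, g.2 y = y) {γ : Γ}
    (hc : ∀ x y z, x ∈ S \ F → y ∈ S \ F → z ∈ S \ F → D3 x y z → Commute γ (φ x y z)) :
    Commute γ g.1 := by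
  have := h.strip_st hF h3 hg hfix
    (L := (Subgroup.centralizer {γ}).comap (MonoidHom.fst Γ (Perm Y))) ?_ ?_
  · exact (Subgroup.mem_centralizer_singleton_iff.1 this).symm
  · intro x y z hx hy hz hD
    obtain ⟨u, v, w, hu, hv, hw, hD'⟩ := exists_D3_st h3
    change φ x y z ^ 3 ∈ Subgroup.centralizer {γ}
    rw [h.cube_eq h5 hx hy hz hu.1 hv.1 hw.1 hD hD']
    exact Subgroup.mem_centralizer_singleton_iff.2 ((hc u v w hu hv hw hD').pow_right 3).symm.eq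
  · intro x y z hx hy hz hD
    exact Subgroup.mem_centralizer_singleton_iff.2 (hc x y z hx hy hz hD).symm.eq

/-- With trivial cubes a finite alternating system generates an honest permutation group. -/
theorem IsAlt.eq_one (h : IsAlt S φ) (hS : S.Finite)
    (hc : ∀ x y z, x ∈ S → y ∈ S → z ∈ S → D3 x y z → φ x y z ^ 3 = 1)
    {g : Γ × Perm Y} (hg : g ∈ altL S φ) (h1 : g.2 = 1) : g.1 = 1 := by
  by_cases hex : ∃ a b c, a ∈ S ∧ b ∈ S ∧ c ∈ S ∧ D3 a b c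
  swap
  · exact altL_le (K := ⊥) (fun x y z hx hy hz hD => absurd ⟨x, y, z, hx, hy, hz, hD⟩ hex) hg
  obtain ⟨a, b, c, ha, hb, hc', hD⟩ := hex
  have hsub : S \ (S \ {a, b, c}) = {a, b, c} := by
    apply Set.sdiff_sdiff_cancel_left
    simp only [Set.insert_subset_iff, Set.singleton_subset_iff]
    exact ⟨ha, hb, hc'⟩
  have := h.strip_st (F := S \ {a, b, c}) (hS.subset Set.sdiff_subset) ?_ hg
    (fun y _ => by rw [h1, Perm.one_apply]) (L := Subgroup.zpowers (φ a b c, c3 a b c)) ?_ ?_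
  · obtain ⟨k, rfl⟩ := Subgroup.mem_zpowers_iff.1 this
    have ho : orderOf (c3 a b c) = 3 := by
      refine orderOf_eq_prime (c3_cube hD) fun e => hD.1 ?_
      rw [← c3_fst hD, e, Perm.one_apply]
    have h2 : c3 a b c ^ k = 1 := h1
    rw [← orderOf_dvd_iff_zpow_eq_one, ho] at h2
    obtain ⟨m, rfl⟩ := h2
    change φ a b c ^ (((3 : ℕ) : ℤ) * m) = 1
    rw [zpow_mul, zpow_natCast, hc a b c ha hb hc' hD, one_zpow]
  · rw [hsub]
    exact (Set.encard_eq_three.2 ⟨a, b, c, hD.1, hD.2.2, hD.2.1, rfl⟩).ge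
  · intro x y z hx hy hz hD'
    rw [Prod.pow_mk, hc x y z hx hy hz hD', c3_cube hD']
    exact one_mem _
  · have cyc : ∀ {x y z}, x ∈ S → y ∈ S → z ∈ S → D3 x y z →
        (φ x y z, c3 x y z) ∈ Subgroup.zpowers (φ a b c, c3 a b c) →
        (φ y z x, c3 y z x) ∈ Subgroup.zpowers (φ a b c, c3 a b c) := by
      intro x y z hx hy hz hD' hm
      rwa [← h.cyc hx hy hz hD', ← c3_cyc hD']
    have m1 := Subgroup.mem_zpowers (φ a b c, c3 a b c)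
    have m2 := cyc ha hb hc' hD m1
    have m3 := cyc hb hc' ha hD.cyc_ab m2
    have n1 : (φ a c b, c3 a c b) ∈ Subgroup.zpowers (φ a b c, c3 a b c) := by
      have := inv_mem m1
      rwa [Prod.inv_mk, inv_eq_of_mul_eq_one_right (h.inv ha hb hc' hD),
        inv_eq_of_mul_eq_one_right (c3_inv hD)] at this
    have n2 := cyc ha hc' hb hD.flip_ab n1
    have n3 := cyc hc' hb ha hD.flip_ab.cyc_ab n2
    rw [hsub]
    rintro x y z (rfl | rfl | rfl) (rfl | rfl | rfl) (rfl | rfl | rfl) hD' <;>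
      first
        | assumption
        | exact absurd rfl hD'.1
        | exact absurd rfl hD'.2.1
        | exact absurd rfl hD'.2.2

end Vale.Agent.P196
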