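import Vale.Agent.P196.Tower
import Vale.Agent.P196.QLBasic

/-! Consequences of the axioms of a level structure; the measure of the next level. -/

namespace Vale.Agent.P196.LS

variable {Q : QL} (A : LS Q)

def Valid : List Op → Q.W → Prop
  | [], _ => True
  | o :: l, w => A.Sat o.dom w ∧ Valid l (A.ap o w)

variable {A} {S S' : Set Lab} {v w : Q.W} {l : List Op} {p q : Q.P}

theorem Sat.mono (h : A.Sat S v) (hS : S ⊆ S') : A.Sat S' v := Q.le_trans h (A.ρ.mono hS)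
theorem Sat.inter (h : A.Sat S v) (h' : A.Sat S' v) : A.Sat (S ∩ S') v := A.ρ.le_inter h h'
theorem Sat.both (h : A.Sat S v) (h' : A.Sat S' v) {T : Set Lab}
    (hT : ∀ l, l ∈ S → l ∈ S' → l ∈ T) : A.Sat T v := (h.inter h').mono fun l hl => hT l hl.1 hl.2
theorem sat_idw : A.Sat S (Q.idw (A.ρ.ρ S)) := by
  unfold Sat; rw [Q.tgt_idw]; exact Q.le_refl _
theorem Sat.orth (h : A.Sat S v) (h' : A.Sat S' w) (hd : Disjoint S S') :
    Q.orth (Q.tgt v) (Q.tgt w) :=
  Q.orth_mono h (Q.orth_symm (Q.orth_mono h' (Q.orth_symm (A.ρ.orth hd))))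
theorem isOp_of_subset {o : Op} (hS : S ⊆ o.dom) : Q.IsOp (A.ρ.ρ S) (A.ap o) :=
  (A.isOp o).mono (A.ρ.mono hS)
theorem Valid.of_tgt (h : A.Valid l v) (hw : Q.le (Q.tgt w) (Q.tgt v)) : A.Valid l w := by
  induction l generalizing v w with
  | nil => trivial
  | cons o l ih =>
    have h1 : A.Sat o.dom w := Q.le_trans hw h.1
    refine ⟨h1, ih h.2 ?_⟩
    rw [(A.isOp o).tgt_eq h1, (A.isOp o).tgt_eq h.1]
    exact (A.isOp o).img_mono h.1 hw
theorem Valid.isOp (h : A.Valid l (Q.idw p)) : Q.IsOp p (run A.ap l) := by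
  induction l generalizing p with
  | nil => exact QL.IsOp.id p
  | cons o l ih =>
    have h1 : Q.le p (A.ρ.ρ o.dom) := by have := h.1; rwa [Sat, Q.tgt_idw] at this
    have h2 : A.Valid l (Q.idw (Q.img (A.ap o) p)) :=
      h.2.of_tgt (by rw [Q.tgt_idw]; exact Q.le_refl _)
    exact ((A.isOp o).mono h1).comp (ih h2) (Q.le_refl _)
theorem Valid.of_le (h : A.Valid l (Q.idw p)) (hw : Q.le (Q.tgt w) p) : A.Valid l w :=
  h.of_tgt (by rwa [Q.tgt_idw])
theorem Valid.of_cov {B : Q.P → Prop} (hc : Q.Cov B p)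
    (h : ∀ q, Q.le q p → B q → A.Valid l (Q.idw q)) : A.Valid l (Q.idw p) := by
  induction l generalizing p B with
  | nil => trivial
  | cons o l ih =>
    have h1 : Q.le p (A.ρ.ρ o.dom) := hc.le fun q hq hB => by
      have := (h q hq hB).1; rwa [Sat, Q.tgt_idw] at this
    refine ⟨by rwa [Sat, Q.tgt_idw], ?_⟩
    have h2 := ih (B := fun q => A.Valid l (Q.idw q))
      (hc.img (A.isOp o) h1 fun q hq hB =>
        (h q hq hB).2.of_tgt (by rw [Q.tgt_idw]; exact Q.le_refl _)) fun _ _ h => h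
    exact h2.of_le (Q.le_refl _)
theorem valid_pvm {L : Type} [Finite L] (ρ : Q.PVM L) {S : Set L}
    (h : ∀ a ∈ S, ∀ v, Q.le (Q.tgt v) (ρ.ρ {a}) → A.Valid l v) (hv : Q.le (Q.tgt v) (ρ.ρ S)) :
    A.Valid l v := by
  refine (Valid.of_cov (ρ.cov S) ?_).of_le hv
  rintro q - ⟨a, ha, rfl⟩
  exact h a ha _ (by rw [Q.tgt_idw]; exact Q.le_refl _)
theorem valid_loc (h : ∀ a ∈ S, ∀ v, A.Sat {a} v → A.Valid l v) (hv : A.Sat S v) :
    A.Valid l v := valid_pvm A.ρ h hv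
theorem isOp_run (h : ∀ v, Q.le (Q.tgt v) p → A.Valid l v) : Q.IsOp p (run A.ap l) :=
  (h _ (by rw [Q.tgt_idw]; exact Q.le_refl _)).isOp

theorem axM_set {o : Op} {T : Set Lab} (hS : S ⊆ o.dom)
    (h : ∀ l ∈ S, ∃ S', AxM l [o] S' ∧ S' ⊆ T) (hv : A.Sat S v) : A.Sat T (A.ap o v) :=
  A.ρ.loc_le (isOp_of_subset hS) (fun l hl w hw => by
    obtain ⟨S', h1, h2⟩ := h l hl
    exact Sat.mono (A.axM h1 w hw) h2) hv

theorem axE_set {w₁ w₂ : List Op} (h₁ : ∀ v, A.Sat S v → A.Valid w₁ v)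
    (h₂ : ∀ v, A.Sat S v → A.Valid w₂ v) (h : ∀ l ∈ S, AxE l w₁ w₂) (hv : A.Sat S v) :
    run A.ap w₁ v = run A.ap w₂ v :=
  A.ρ.loc_eq (isOp_run h₁) (isOp_run h₂) (fun l hl w hw => A.axE (h l hl) w hw) hv

theorem dom_S (r r' : Role) : (Op.S r r').dom = roleS r := by
  ext l
  simp only [Op.dom, Op.ok, roleS, Set.mem_setOf_eq, beq_iff_eq]
  exact eq_comm
theorem dom_T : Op.T.dom = Set.univ := by ext l; simp [Op.dom, Op.ok]

/-! Set versions of the axioms. -/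
theorem cod {o : Op} (h : A.Sat o.dom v) : A.Sat o.inv.dom (A.ap o v) :=
  axM_set le_rfl (fun l hl => ⟨_, AxM.cod l o hl, le_rfl⟩) h
theorem codS {r : Role} (r' : Role) (h : A.Sat (roleS r) v) :
    A.Sat (roleS r') (A.ap (.S r r') v) := by
  have := cod (o := .S r r') (by rwa [dom_S])
  rwa [Op.inv, dom_S] at this
theorem inv {o : Op} (h : A.Sat o.dom v) : A.ap o.inv (A.ap o v) = v :=
  axE_set (w₁ := [o, o.inv]) (w₂ := []) (fun _ hv => ⟨hv, cod hv, trivial⟩) (fun _ _ => trivial)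
    (fun l hl => AxE.inv l o hl) h
theorem sid {r : Role} (h : A.Sat (roleS r) v) : A.ap (.S r r) v = v :=
  axE_set (w₁ := [.S r r]) (w₂ := []) (fun _ hv => ⟨by rwa [dom_S], trivial⟩) (fun _ _ => trivial)
    (fun l hl => by obtain rfl : l.role = r := hl; exact AxE.sid l) h
theorem scomp {r : Role} (r' r'' : Role) (h : A.Sat (roleS r) v) :
    A.ap (.S r' r'') (A.ap (.S r r') v) = A.ap (.S r r'') v :=
  axE_set (w₁ := [.S r r', .S r' r'']) (w₂ := [.S r r''])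
    (fun _ hv => ⟨by rwa [dom_S], by rw [dom_S]; exact codS _ hv, trivial⟩)
    (fun _ hv => ⟨by rwa [dom_S], trivial⟩)
    (fun l hl => by obtain rfl : l.role = r := hl; exact AxE.scomp l r' r'') h
theorem sinv {r : Role} (r' : Role) (h : A.Sat (roleS r) v) :
    A.ap (.S r' r) (A.ap (.S r r') v) = v := by rw [scomp _ _ h, sid h]
theorem rT (h : A.Sat S v) : A.Sat {l' | ∃ l ∈ S, l.RT l'} (A.ap .T v) :=
  axM_set (by rw [dom_T]; exact Set.subset_univ _)
    (fun l hl => ⟨_, AxM.rT l, fun _ h' => ⟨l, hl, h'⟩⟩) h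
theorem tt (h : A.Sat S v) : A.ap .T (A.ap .T v) = v :=
  inv (o := .T) (h.mono (by rw [dom_T]; exact Set.subset_univ _))
theorem rX {s : Bool} (hS : S ⊆ (Op.X s).dom) (h : A.Sat S v) :
    A.Sat {l' | ∃ l ∈ S, l.RX s l'} (A.ap (.X s) v) :=
  axM_set hS (fun l hl => ⟨_, AxM.rX l s (hS hl), fun _ h' => ⟨l, hl, h'⟩⟩) h
theorem role_al_iff {l : Lab} : l.role = .al ↔ l.1 = false := by revert l; decide
theorem sb {s : Bool} (hS : S ⊆ roleS .al) (h : A.Sat S v) :
    A.Sat {l' | l'.role = .be s ∧ ∃ l ∈ S, l'.2.η = l.2.dA s} (A.ap (.S .al (.be s)) v) :=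
  axM_set (by rwa [dom_S]) (fun l hl =>
    ⟨_, AxM.sb l s (role_al_iff.1 (hS hl)), fun _ h' => ⟨h'.1, l, hl, h'.2⟩⟩) h
/-- Reading a mapping property of a sibling change backwards. -/
theorem back {r r' : Role} {T : Set Lab} (hS : S ⊆ roleS r') (h : A.Sat S v)
    (hT : ∀ l ∈ roleS r \ T, ∀ w, A.Sat {l} w → A.Sat Sᶜ (A.ap (.S r r') w)) :
    A.Sat (roleS r ∩ T) (A.ap (.S r' r) v) := by
  refine A.ρ.symm (F := A.ap (.S r r')) (e := A.ρ.ρ S) (isOp_of_subset (by rw [dom_S])) ?_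
    (codS _ (h.mono hS)) (by rw [sinv _ (h.mono hS)]; exact h)
  intro l hl w hw
  exact Q.orth_mono (hT l hl w hw) (A.ρ.orth disjoint_compl_left)
theorem sbi {s : Bool} (hS : S ⊆ roleS (.be s)) (h : A.Sat S v) :
    A.Sat {l | l.1 = false ∧ ∃ l' ∈ S, l'.2.η = l.2.dA s} (A.ap (.S (.be s) .al) v) := by
  refine (back (T := {l | ∃ l' ∈ S, l'.2.η = l.2.dA s}) hS h ?_).mono
    fun l hl => ⟨role_al_iff.1 hl.1, hl.2⟩
  intro l hl w hw
  refine (sb (Set.singleton_subset_iff.2 hl.1) hw).mono ?_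
  rintro l' ⟨-, _, rfl, h2⟩ h3
  exact hl.2 ⟨l', h3, h2⟩
theorem sg {s : Bool} (hS : S ⊆ roleS (.be s)) (h : A.Sat S v) :
    A.Sat ((fun l : Lab => (true, Th.z0 l.2.up)) '' S) (A.ap (.S (.be s) (.ga s)) v) :=
  axM_set (by rwa [dom_S]) (fun l hl =>
    ⟨_, AxM.sg l s (hS hl), Set.singleton_subset_iff.2 ⟨l, hl, rfl⟩⟩) h
theorem sgi {s : Bool} (hS : S ⊆ roleS (.ga s)) (h : A.Sat S v) :
    A.Sat {l | l.role = .be s ∧ (true, Th.z0 l.2.up) ∈ S} (A.ap (.S (.ga s) (.be s)) v) := by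
  refine (back (T := {l | (true, Th.z0 l.2.up) ∈ S}) hS h ?_).mono fun l hl => hl
  intro l hl w hw
  refine (sg (Set.singleton_subset_iff.2 hl.1) hw).mono ?_
  rintro l' ⟨_, rfl, rfl⟩ h3
  exact hl.2 h3
theorem mem_domX_of_side {l : Lab} {s : Bool} (h : l.2.side = s) : l ∈ (Op.X s).dom := by
  revert l s; simp only [Op.dom, Set.mem_setOf_eq]; decide
theorem RT_side {l l' : Lab} (h : l.RT l') : l'.2.side = !l.2.side := by
  have key : ∀ e : Dart, e.opp.side = !e.side := by decide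
  rw [Th.side, h.2.1, key]; rfl
theorem sq {s : Bool} (h : A.Sat {l | l.2.side = s ∧ l.2.isZ0 = false} v) :
    A.ap .T (A.ap (.X s) v) = A.ap (.X (!s)) (A.ap .T v) := by
  refine axE_set (w₁ := [.X s, .T]) (w₂ := [.T, .X (!s)]) (fun _ hv => ?_) (fun _ hv => ?_)
    (fun l hl => by obtain ⟨rfl, h2⟩ := hl; exact AxE.sq l h2) h
  · have h1 := hv.mono (S' := (Op.X s).dom) fun l hl => mem_domX_of_side hl.1
    exact ⟨h1, (cod h1).mono (by rw [dom_T]; exact Set.subset_univ _), trivial⟩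
  · refine ⟨hv.mono (by rw [dom_T]; exact Set.subset_univ _), (rT hv).mono ?_, trivial⟩
    rintro l' ⟨l, hl, h'⟩
    exact mem_domX_of_side (by rw [RT_side h', hl.1])
theorem z0_T {η : Dart} (h : A.Sat {l | l.2 = .z0 η} v) :
    A.Sat {l | l.2 = .z0 η.opp} (A.ap .T v) := by
  refine (rT h).mono ?_
  rintro ⟨f', t'⟩ ⟨⟨f, t⟩, hl, h'⟩
  obtain rfl : t = .z0 η := hl
  have key : ∀ η t', (Th.z0 η).RT t' → t' = .z0 η.opp := by decide
  exact key _ _ h'.2
theorem z0_X {η : Dart} {s : Bool} (hs : η.side = s) (h : A.Sat {l | l.2 = .z0 η} v) :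
    A.Sat {l | l.2 = .z0 η.top} (A.ap (.X s) v) := by
  refine (rX (fun l hl => mem_domX_of_side (by rw [show l.2 = _ from hl]; exact hs)) h).mono ?_
  rintro l' ⟨⟨f, t⟩, hl, h'⟩
  obtain rfl : t = .z0 η := hl
  simp only [Lab.RX, Th.side, Th.η, hs, Th.isZ0, if_true] at h'
  rw [h']; rfl
theorem valid_jw {η : Dart} {s : Bool} (hs : η.side = s) (m : ℕ)
    (h : A.Sat {l | l.2 = .z0 η} v) : A.Valid (jw s m) v := by
  induction m generalizing η v with
  | zero => trivial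
  | succ m ih =>
    have key : ∀ e : Dart, e.opp.side = !e.side ∧ e.opp.top.side = e.side := by decide
    have h1 := z0_T h
    have h2 : η.opp.side = !s := by rw [(key η).1, hs]
    refine ⟨h.mono (by rw [dom_T]; exact Set.subset_univ _),
      h1.mono fun l hl => mem_domX_of_side (by rw [show l.2 = _ from hl]; exact h2), ?_⟩
    exact ih (by rw [(key η).2, hs]) (z0_X h2 h1)
theorem jn {η : Dart} (h : A.Sat {l | l.2 = .z0 η} v) : run A.ap (jw η.side η.jm) v = v :=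
  axE_set (w₂ := []) (fun _ hv => valid_jw rfl _ hv) (fun _ _ => trivial) (fun l hl => by
    obtain ⟨f, t⟩ := l
    obtain rfl : t = .z0 η := hl
    exact AxE.jn (f, .z0 η) rfl) h
theorem vx {r r' : Role} {s : Bool} (hS : ∀ l ∈ S, l.1 = true ∧ l.role = r ∧ l.2.side = s ∧
      ∀ l', l.RT l' → l'.role = r') (h : A.Sat S v) :
    A.ap (.S r' r'.fA) (A.ap .T v) = A.ap (.X s) (A.ap (.S r r.fA) v) := by
  by_cases hne : S = ∅
  · subst hne
    have h0 : ∀ {T w}, A.Sat ∅ w → A.Sat T w := fun h => h.mono (Set.empty_subset _)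
    refine axE_set (w₁ := [.T, .S r' r'.fA]) (w₂ := [.S r r.fA, .X s])
      (fun _ hv => valid_loc (by simp) hv) (fun _ hv => valid_loc (by simp) hv) (by simp) h
  obtain ⟨l₀, hl₀⟩ := Set.nonempty_iff_ne_empty.2 hne
  refine axE_set (w₁ := [.T, .S r' r'.fA]) (w₂ := [.S r r.fA, .X s]) (fun _ hv => ?_)
    (fun _ hv => ?_) (fun l hl => by
      obtain ⟨h1, rfl, rfl, h4⟩ := hS l hl; exact AxE.v l r' h1 h4) h
  · refine ⟨hv.mono (by rw [dom_T]; exact Set.subset_univ _), (rT hv).mono ?_, trivial⟩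
    rintro l' ⟨l, hl, h'⟩
    rw [dom_S]
    exact (hS l hl).2.2.2 l' h'
  · have h1 := hv.mono (S' := roleS r) fun l hl => (hS l hl).2.1
    refine ⟨by rwa [dom_S], (codS _ h1).mono fun l hl => ?_, trivial⟩
    obtain ⟨-, h2, h3, -⟩ := hS l₀ hl₀
    have key : ∀ l₀ l : Lab, l.role = l₀.role.fA → (Op.X l₀.2.side).ok l.role = true := by
      have : ∀ l₀ : Lab, (Op.X l₀.2.side).ok l₀.role.fA = true := by decide
      intro l₀ l h; rw [h]; exact this l₀
    subst h2 h3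
    exact key l₀ l hl
theorem kx (s : Bool) (h : A.Sat (roleS .al) v) :
    A.ap (.X s) (A.ap (.S .al (.ga s)) v) = A.ap (.S .al (.ga (!s))) v :=
  axE_set (w₁ := [.S .al (.ga s), .X s]) (w₂ := [.S .al (.ga (!s))])
    (fun _ hv => ⟨by rwa [dom_S], (codS _ hv).mono fun l hl => by
      simp [Op.dom, show l.role = _ from hl, Op.ok], trivial⟩)
    (fun _ hv => ⟨by rwa [dom_S], trivial⟩) (fun l hl => AxE.k l s (role_al_iff.1 hl)) h

/-- `be s` children whose parent has (`f = true`) or has not (`f = false`) a role other than `al`. -/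
def upS (s f : Bool) : Set Lab := {l | l.role = .be s ∧ decide (l.upRole ≠ .al) = f}

theorem upS_subset (s f : Bool) : upS s f ⊆ roleS (.be s) := fun _ hl => hl.1

/-- The two `be` children agree on whether the parent is an `al` child. -/
theorem sib {s f : Bool} (h : A.Sat (upS s f) v) :
    A.Sat (upS (!s) f) (A.ap (.S (.be s) (.be (!s))) v) := by
  have hr := h.mono (upS_subset s f)
  have t1 : ∀ (l : Lab) s, l.role = .be s → l.2.up = l.upRole.Fd s := by decide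
  have t2 : ∀ (ρ : Role) s, (ρ.Fd s).side = s ∧ (ρ.Fd s).top = ρ.Fd (!s) ∧
      Lab.role (true, .z0 (ρ.Fd s)) = .ga s := by decide
  have t3 : ∀ (ρ ρ' : Role) s, ρ.Fd s = ρ'.Fd s → ρ = ρ' := by decide
  have h1 := sg (upS_subset s f) h
  have h2 := rX (s := s) (by
    rintro _ ⟨l, hl, rfl⟩
    exact mem_domX_of_side (by simp only [t1 l s hl.1]; exact (t2 _ _).1)) h1
  have h3 : A.Sat {l | ∃ ρ : Role, decide (ρ ≠ .al) = f ∧ l = (true, .z0 (ρ.Fd (!s)))}
      (A.ap (.X s) (A.ap (.S (.be s) (.ga s)) v)) := by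
    refine h2.mono ?_
    rintro l' ⟨_, ⟨l, hl, rfl⟩, h'⟩
    refine ⟨l.upRole, hl.2, ?_⟩
    simp only [Lab.RX, t1 l s hl.1, Th.side, Th.η, Th.isZ0, (t2 _ _).1, if_true] at h'
    rw [h', (t2 _ _).2.1]
  have h4 := sgi (s := !s) (by rintro _ ⟨ρ, -, rfl⟩; exact (t2 _ _).2.2) h3
  rw [← scomp .al (.ga s) hr, kx s (codS _ hr), scomp _ _ hr, scomp _ _ hr] at h4
  refine h4.mono ?_
  rintro l ⟨h5, ρ, h6, h7⟩
  refine ⟨h5, ?_⟩
  simp only [Prod.mk.injEq, Th.z0.injEq, true_and] at h7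
  rw [t1 l _ h5] at h7
  rw [t3 _ _ _ h7, h6]

theorem lowG_aux {s f : Bool} {c u : Q.W} {r' : Role}
    (hS : ∀ l ∈ S, l ∈ upS (!s) f ∧ ∀ l', l.RT l' → l'.role = r') (hc : A.Sat S c)
    (hu : A.ap (.S r' r'.fA) (A.ap .T c) = u) :
    A.Sat (upS (!s) f) (A.ap (.S .al (.be (!s))) (A.ap (.X s) u)) := by
  have t1 : ∀ (l : Lab) s, l.role = .be s → l.1 = true ∧ l.2.side = s := by decide
  have hr : A.Sat (roleS (.be (!s))) c := hc.mono fun l hl => (hS l hl).1.1
  have h1 := vx (r := .be (!s)) (r' := r') (s := !s) (fun l hl =>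
    ⟨(t1 l _ (hS l hl).1.1).1, (hS l hl).1.1, (t1 l _ (hS l hl).1.1).2, (hS l hl).2⟩) hc
  have h2 : A.Sat (Op.X (!s)).dom (A.ap (.S (.be (!s)) .al) c) :=
    (codS _ hr).mono fun l hl => by simp [Op.dom, show l.role = _ from hl, Op.ok]
  have h3 := inv h2
  rw [Op.inv, Bool.not_not] at h3
  rw [← hu, h1, Role.fA, h3, sinv _ hr]
  · exact hc.mono fun l hl => (hS l hl).1
  · simp

/-- The lower neighbour knows it too. -/
theorem lowG {s f : Bool} (h : A.Sat {l | l.1 = f ∧ l.2.side = s ∧ l.2.isZ0 = false} v) :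
    A.Sat (upS (!s) f) (A.ap (.S .al (.be (!s))) (A.ap (.X s) v)) := by
  cases f with
  | false =>
    have hs : {l : Lab | l.1 = false ∧ l.2.side = s ∧ l.2.isZ0 = false} ⊆ roleS .al :=
      fun l hl => role_al_iff.2 hl.1
    have h1 := sb (s := s) hs h
    have h1' : A.Sat {l | l.role = .be s ∧ (l.2.η = .bF s s ∨ l.2.η = .aF s)}
        (A.ap (.S .al (.be s)) v) := by
      refine h1.mono ?_
      rintro l' ⟨h2, l, hl, h3⟩
      have t : ∀ (t : Th) s, t.side = s → t.isZ0 = false → t.dA s = .bF s s ∨ t.dA s = .aF s := by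
        decide
      exact ⟨h2, h3 ▸ t _ _ hl.2.1 hl.2.2⟩
    refine lowG_aux (r' := .be s)
      (S := {(true, .z2 (.gA s (!s))), (true, .z2 (.bA s))}) ?_ ((rT h1').mono ?_) ?_
    · rintro l (rfl | rfl) <;> simp only [upS, Set.mem_setOf_eq] <;> clear * - <;>
        revert s <;> decide
    · rintro l' ⟨l, hl, h'⟩
      simp only [Set.mem_setOf_eq, Set.mem_insert_iff, Set.mem_singleton_iff] at hl ⊢
      clear h h1 h1' hs
      revert s l l'; decide +kernel
    · rw [tt h1', Role.fA, sinv _ (h.mono hs)]; simp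
  | true =>
    have t0 : ∀ (l : Lab) s, l.1 = true → l.2.side = s → l.2.isZ0 = false → l.role = .be s ∧
        (l.2.up = .bF s s ∨ l.2.up = .aF s) := by decide
    have hs : {l : Lab | l.1 = true ∧ l.2.side = s ∧ l.2.isZ0 = false} ⊆ roleS (.be s) :=
      fun l hl => (t0 l s hl.1 hl.2.1 hl.2.2).1
    have h1 := sg hs h
    refine lowG_aux (r' := .ga s)
      (S := {(true, .z0 (.gA s (!s))), (true, .z0 (.bA s))}) ?_ ((rT h1).mono ?_) ?_
    · rintro l (rfl | rfl) <;> simp only [upS, Set.mem_setOf_eq] <;> clear * - <;>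
        revert s <;> decide
    · rintro l' ⟨_, ⟨l, hl, rfl⟩, h'⟩
      simp only [Set.mem_insert_iff, Set.mem_singleton_iff]
      rcases (t0 l s hl.1 hl.2.1 hl.2.2).2 with h2 | h2 <;> simp only [h2] at h' <;>
        clear h h1 hs h2 hl <;> revert s l' <;> decide
    · rw [tt h1, Role.fA, sinv _ (h.mono hs)]

theorem img_eq {o : Op} (hS : S ⊆ o.dom) (hS' : S' ⊆ o.inv.dom)
    (h : ∀ v, A.Sat S v → A.Sat S' (A.ap o v)) (h' : ∀ v, A.Sat S' v → A.Sat S (A.ap o.inv v)) :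
    Q.img (A.ap o) (A.ρ.ρ S) = A.ρ.ρ S' := by
  refine Q.le_antisymm (h _ sat_idw) ?_
  have h1 := inv ((sat_idw (A := A)).mono hS')
  have h2 : o.inv.inv = o := by clear * -; revert o; decide
  rw [h2] at h1
  have := (A.isOp o).tgt_le (A.ρ.mono hS) (h' _ sat_idw)
  rwa [h1, Q.tgt_idw] at this

/-- The projection onto `al` children whose parent has (not) role `al`. -/
def gf (A : LS Q) (f : Bool) : Q.P := Q.img (A.ap (.S (.be true) .al)) (A.ρ.ρ (upS true f))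

theorem le_gf_iff {f : Bool} (s : Bool) (hv : A.Sat (roleS .al) v) :
    Q.le (Q.tgt v) (A.gf f) ↔ A.Sat (upS s f) (A.ap (.S .al (.be s)) v) := by
  have hd : Q.le (A.ρ.ρ (upS true f)) (A.ρ.ρ (Op.S (.be true) .al).dom) :=
    A.ρ.mono (by rw [dom_S]; exact upS_subset _ _)
  have h0 : Q.le (Q.tgt v) (A.gf f) ↔ A.Sat (upS true f) (A.ap (.S .al (.be true)) v) := by
    constructor
    · intro h
      obtain ⟨v', h1, rfl⟩ := (A.isOp _).exists_of_le_img hd h
      rw [sinv _ (Sat.mono h1 (upS_subset _ _))]; exact h1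
    · intro h
      have := (A.isOp _).tgt_le hd h
      rwa [sinv _ hv] at this
  have h1 : ∀ s, A.Sat (upS s f) (A.ap (.S .al (.be s)) v) →
      A.Sat (upS (!s) f) (A.ap (.S .al (.be (!s))) v) := fun s h => by
    have := sib h
    rwa [scomp _ _ hv] at this
  cases s with
  | true => exact h0
  | false => exact h0.trans ⟨h1 true, h1 false⟩

theorem gf_orth : Q.orth (A.gf true) (A.gf false) := by
  have hd : ∀ f, Q.le (A.ρ.ρ (upS true f)) (A.ρ.ρ (Op.S (.be true) .al).dom) := fun f =>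
    A.ρ.mono (by rw [dom_S]; exact upS_subset _ _)
  refine (A.isOp _).img_orth (hd _) (hd _) (A.ρ.orth ?_)
  rw [Set.disjoint_left]
  intro l h1 h2
  exact absurd (h1.2.symm.trans h2.2) (by simp)

theorem gf_add : A.ρ.ρ (roleS .al) = Q.add (A.gf true) (A.gf false) := by
  have hd : ∀ f, Q.le (A.ρ.ρ (upS true f)) (A.ρ.ρ (Op.S (.be true) .al).dom) := fun f =>
    A.ρ.mono (by rw [dom_S]; exact upS_subset _ _)
  have hdis : Disjoint (upS true true) (upS true false) := by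
    rw [Set.disjoint_left]
    intro l h1 h2
    exact absurd (h1.2.symm.trans h2.2) (by simp)
  rw [gf, gf, ← (A.isOp _).img_add (hd _) (hd _) (A.ρ.orth hdis), ← A.ρ.union hdis]
  have hu : upS true true ∪ upS true false = roleS (.be true) := by
    ext l
    simp only [upS, roleS, Set.mem_union, Set.mem_setOf_eq]
    cases decide (l.upRole ≠ .al) <;> simp
  rw [hu]
  exact (img_eq (by rw [dom_S]) (by rw [Op.inv, dom_S]) (fun _ h => codS _ h)
    (fun _ h => codS _ h)).symm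

theorem compat_of_img {o : Op} {U : Bool → Set Lab} (hU : ∀ f, U f ⊆ o.dom)
    (hd : Disjoint (U true) (U false))
    (he : Q.img (A.ap o) (A.ρ.ρ (U true ∪ U false)) = A.ρ.ρ S')
    (hg : ∀ f v, A.Sat (U f) v → Q.le (Q.tgt (A.ap o v)) (A.gf f)) :
    Q.Compat (A.gf true) (A.ρ.ρ S') := by
  refine ⟨_, _, hg true _ sat_idw,
    Q.orth_mono (hg false _ sat_idw) (Q.orth_symm gf_orth), ?_⟩
  rw [← he, A.ρ.union hd]
  exact (A.isOp o).img_add (A.ρ.mono (hU _)) (A.ρ.mono (hU _)) (A.ρ.orth hd)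

theorem compat_atom (t : Th) : Q.Compat (A.gf true) (A.ρ.ρ {(false, t)}) := by
  have h1 : Q.Compat (A.gf true) (A.ρ.ρ {l | l.1 = false ∧ l.2.η = t.η}) := by
    have hU : ∀ f, {l : Lab | l.1 = f ∧ l.2.η = t.η ∧ l.2.isZ0 = false} ⊆ (Op.X t.side).dom :=
      fun f l hl => mem_domX_of_side (by rw [Th.side, hl.2.1]; rfl)
    have t1 : ∀ (l l' : Lab), l.2.isZ0 = false → l.RX l.2.side l' →
        l'.1 = false ∧ l'.2.η = l.2.η := by decide +kernel
    have t2 : ∀ (l l' : Lab), l.RX (!l.2.side) l' → l'.2.η = l.2.η ∧ l'.2.isZ0 = false := by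
      decide +kernel
    have hX : ∀ {S v}, (∀ l ∈ S, l.2.η = t.η ∧ l.2.isZ0 = false) → A.Sat S v →
        A.Sat {l | l.1 = false ∧ l.2.η = t.η} (A.ap (.X t.side) v) := by
      intro S v hS hv
      refine (rX (fun l hl => mem_domX_of_side (by rw [Th.side, (hS l hl).1]; rfl)) hv).mono ?_
      rintro l' ⟨l, hl, h'⟩
      have hs : t.side = l.2.side := by rw [Th.side, Th.side, (hS l hl).1]
      rw [hs] at h'
      exact ⟨(t1 l l' (hS l hl).2 h').1, (t1 l l' (hS l hl).2 h').2.trans (hS l hl).1⟩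
    refine compat_of_img (U := fun f => {l | l.1 = f ∧ l.2.η = t.η ∧ l.2.isZ0 = false}) hU ?_
      (img_eq (Set.union_subset (hU _) (hU _)) ?_ ?_ ?_) ?_
    · rw [Set.disjoint_left]
      intro l h1 h2
      exact absurd (h1.1.symm.trans h2.1) (by simp)
    · intro l hl
      simp [Op.dom, Op.inv, role_al_iff.2 hl.1, Op.ok]
    · intro v hv
      exact hX (by rintro l (hl | hl) <;> exact hl.2) hv
    · intro v hv
      refine (rX (fun l hl => by simp [Op.dom, role_al_iff.2 hl.1, Op.ok]) hv).mono ?_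
      rintro l' ⟨l, hl, h'⟩
      have hs : t.side = l.2.side := by rw [Th.side, Th.side, hl.2]
      rw [hs] at h'
      have := t2 l l' h'
      rcases hf : l'.1 with _ | _
      · exact Or.inr ⟨hf, this.1.trans hl.2, this.2⟩
      · exact Or.inl ⟨hf, this.1.trans hl.2, this.2⟩
    · intro f v hv
      rw [le_gf_iff (!t.side) ((hX (fun l hl => hl.2) hv).mono fun l hl => role_al_iff.2 hl.1)]
      exact lowG (hv.mono fun l hl => ⟨hl.1, by rw [Th.side, hl.2.1]; rfl, hl.2.2⟩)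
  have h2 : Q.Compat (A.gf true) (A.ρ.ρ {l | l.1 = false ∧ l.2.dA t.side = t.up}) := by
    have hU : ∀ f, upS t.side f ∩ {l | l.2.η = t.up} ⊆ (Op.S (.be t.side) .al).dom :=
      fun f l hl => by rw [dom_S]; exact hl.1.1
    refine compat_of_img (U := fun f => upS t.side f ∩ {l | l.2.η = t.up}) hU ?_
      (img_eq (Set.union_subset (hU _) (hU _)) ?_ ?_ ?_) ?_
    · rw [Set.disjoint_left]
      intro l h1 h2
      exact absurd (h1.1.2.symm.trans h2.1.2) (by simp)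
    · intro l hl
      rw [Op.inv, dom_S]; exact role_al_iff.2 hl.1
    · intro v hv
      refine (sbi (by rintro l (hl | hl) <;> exact hl.1.1) hv).mono ?_
      rintro l ⟨h1, l', hl', h2⟩
      exact ⟨h1, by rcases hl' with hl' | hl' <;> exact h2.symm.trans hl'.2⟩
    · intro v hv
      refine (sb (fun l hl => role_al_iff.2 hl.1) hv).mono ?_
      rintro l' ⟨h1, l, hl, h2⟩
      rcases hf : decide (l'.upRole ≠ .al) with _ | _
      · exact Or.inr ⟨⟨h1, hf⟩, h2.trans hl.2⟩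
      · exact Or.inl ⟨⟨h1, hf⟩, h2.trans hl.2⟩
    · intro f v hv
      have hr := hv.mono (S' := roleS (.be t.side)) fun l hl => hl.1.1
      rw [le_gf_iff t.side (codS _ hr), sinv _ hr]
      exact hv.mono fun l hl => hl.1
  have h3 := A.ρ.compat_inter h1 h2
  have t3 : ∀ t t' : Th, t'.η = t.η → t'.dA t.side = t.up → t' = t := by decide +kernel
  have t4 : ∀ t : Th, t.dA t.side = t.up := by decide
  convert h3 using 2
  ext ⟨f, t'⟩
  simp only [Set.mem_singleton_iff, Prod.mk.injEq, Set.mem_inter_iff, Set.mem_setOf_eq]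
  exact ⟨by rintro ⟨rfl, rfl⟩; exact ⟨⟨rfl, rfl⟩, rfl, t4 _⟩,
    fun h => ⟨h.1.1, t3 _ _ h.1.2 h.2.2⟩⟩

/-- `ρ'` is the measure of the next level. -/
structure IsNext (A : LS Q) (ρ' : Q.PVM Lab) : Prop where
  tot : ρ'.ρ Set.univ = A.ρ.ρ (roleS .al)
  iff : ∀ (f : Bool) (T : Set Th) (s : Bool) (v : Q.W), Q.le (Q.tgt v) (ρ'.ρ ({f} ×ˢ T)) ↔
      A.Sat ({false} ×ˢ T) v ∧ A.Sat (upS s f) (A.ap (.S .al (.be s)) v)

theorem exists_next (A : LS Q) : ∃ ρ' : Q.PVM Lab, A.IsNext ρ' := by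
  choose a₁ a₂ h1 h2 h3 using compat_atom (A := A)
  have h12 : ∀ t, Q.orth (a₁ t) (a₂ t) := fun t => Q.orth_mono (h1 t) (Q.orth_symm (h2 t))
  let e : Lab → Q.P := fun l => cond l.1 (a₁ l.2) (a₂ l.2)
  have he : ∀ l, Q.le (e l) (A.ρ.ρ {(false, l.2)}) := by
    rintro ⟨_ | _, t⟩
    · rw [h3]; exact Q.le_add_right (h12 t)
    · rw [h3]; exact Q.le_add_left (h12 t)
  have hg : ∀ l, Q.le (e l) (A.gf l.1) := by
    rintro ⟨_ | _, t⟩
    · refine Q.le_of_orth (Q.orth_symm gf_orth) ?_ (h2 t)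
      rw [← QL.add_comm' gf_orth, ← gf_add]
      exact Q.le_trans (he (false, t)) (A.ρ.mono (Set.singleton_subset_iff.2 rfl))
    · exact h1 t
  have hgo : ∀ f, Q.orth (A.gf f) (A.gf (!f)) := by
    rintro (_ | _)
    · exact Q.orth_symm gf_orth
    · exact gf_orth
  obtain ⟨ρ', hρ⟩ := QL.PVM.exists_of_atoms e (by
    rintro ⟨f, t⟩ ⟨f', t'⟩ hne
    by_cases ht : t = t'
    · subst ht
      have hf : f' = !f := by revert hne; cases f <;> cases f' <;> simp
      subst hf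
      exact Q.orth_mono (hg _) (Q.orth_symm (Q.orth_mono (hg _) (Q.orth_symm (hgo f))))
    · exact Q.orth_mono (he _) (Q.orth_symm (Q.orth_mono (he _) (A.ρ.orth (by simpa using fun h => ht h.symm)))))
  have hT : ∀ T : Set Th, ρ'.ρ (Set.univ ×ˢ T) = A.ρ.ρ ({false} ×ˢ T) := by
    intro T
    refine Q.le_antisymm ((ρ'.cov _).le ?_) ((A.ρ.cov _).le ?_)
    · rintro q - ⟨l, hl, rfl⟩
      rw [hρ]
      exact Q.le_trans (he l) (A.ρ.mono (Set.singleton_subset_iff.2 ⟨rfl, hl.2⟩))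
    · rintro q - ⟨⟨f, t⟩, ⟨rfl, hl⟩, rfl⟩
      rw [h3]
      refine Q.add_le (h12 t) ?_ ?_
      · exact Q.le_trans (by rw [hρ (true, t)]; exact Q.le_refl _)
          (ρ'.mono (S := {(true, t)}) (Set.singleton_subset_iff.2 ⟨trivial, hl⟩))
      · exact Q.le_trans (by rw [hρ (false, t)]; exact Q.le_refl _)
          (ρ'.mono (S := {(false, t)}) (Set.singleton_subset_iff.2 ⟨trivial, hl⟩))
  have hG : ∀ f (T : Set Th), Q.le (ρ'.ρ ({f} ×ˢ T)) (A.gf f) := by
    intro f T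
    refine (ρ'.cov _).le ?_
    rintro q - ⟨⟨f', t⟩, ⟨rfl, -⟩, rfl⟩
    rw [hρ]; exact hg _
  have hal : ∀ T : Set Th, ({false} ×ˢ T : Set Lab) ⊆ roleS .al := fun T l hl => role_al_iff.2 hl.1
  refine ⟨ρ', ?_, fun f T s v => ⟨fun h => ?_, fun h => ?_⟩⟩
  · rw [← Set.univ_prod_univ, hT]
    congr 1
    ext l; simp [roleS, role_al_iff]
  · have h4 : A.Sat ({false} ×ˢ T) v := by
      rw [Sat, ← hT]
      exact Q.le_trans h (ρ'.mono (Set.prod_mono (Set.subset_univ _) le_rfl))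
    exact ⟨h4, (le_gf_iff s (h4.mono (hal T))).1 (Q.le_trans h (hG f T))⟩
  · have h4 := (le_gf_iff s (h.1.mono (hal T))).2 h.2
    have h5 := h.1
    rw [Sat, ← hT] at h5
    have h6 := ρ'.le_diff (S' := {!f} ×ˢ T) h5
      (Q.orth_mono h4 (Q.orth_symm (Q.orth_mono (hG _ T) (Q.orth_symm (hgo f)))))
    refine Q.le_trans h6 (ρ'.mono ?_)
    rintro ⟨f', t⟩ ⟨h7, h8⟩
    refine ⟨?_, h7.2⟩
    have : f' ≠ !f := fun h => h8 ⟨h, h7.2⟩
    revert this; cases f <;> cases f' <;> simp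

end Vale.Agent.P196.LS
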