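import Vale.Agent.P196.Step2a

/-! The next level: equations. -/

namespace Vale.Agent.P196.LS

variable {Q : QL} {A : LS Q} {ρ' : Q.PVM Lab} {l : Lab} {v : Q.W} {S : Set Lab} {s : Bool}
  {ρ : Role}

/-- Crossing an `F` side of the parent into an `F` side. -/
def ff (A : LS Q) (s : Bool) (v : Q.W) : Q.W := A.ap (.S (.be (!s)) .al) (run A.ap (wW s) v)

theorem run_wW (s : Bool) (v : Q.W) :
    run A.ap (wW s) v = A.ap (.X s) (A.ap (.S .al (.be s)) v) := rfl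
theorem run_wI (s : Bool) (v : Q.W) :
    run A.ap (wI s) v = A.ap (.S (.be s) .al) (A.ap (.X (!s)) v) := rfl

theorem IsNext.chlS (h : A.IsNext ρ') (r : Role) (hv : Q.le (Q.tgt v) (ρ'.ρ S)) :
    A.Sat (Lab.chl r '' S) (A.ap (.S .al r) v) := by
  refine ρ'.loc_le ((A.isOp (.S .al r)).mono ?_) (fun l hl w hw =>
    (h.chl r hw).mono (Set.singleton_subset_iff.2 ⟨l, hl, rfl⟩)) hv
  have := h.al (v := Q.idw (ρ'.ρ S)) (by rw [Q.tgt_idw]; exact Q.le_refl _)
  rwa [Sat, Q.tgt_idw, ← dom_S .al r] at this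

theorem IsNext.crossT (h : A.IsNext ρ') {c r' : Role} (hc : c = .be s ∨ c = .ga s)
    (ht : ∀ l : Lab, l.role = ρ → ∀ l', (l.chl c).RT l' → l'.role = r')
    (hv : Q.le (Q.tgt v) (ρ'.ρ (roleS ρ))) : A.ap .T (A.ap (.S .al c) v) =
      A.ap (.S r'.fA r') (A.ap (.X s) (A.ap (.S .al c.fA) v)) ∧
      A.Sat (roleS r'.fA) (A.ap (.X s) (A.ap (.S .al c.fA) v)) := by
  have t : ∀ (l : Lab) s c, (c = .be s ∨ c = .ga s) → (l.chl c).1 = true ∧ (l.chl c).2.side = s := by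
    decide +kernel
  have h1 := h.chlS c hv
  have h2 := vx (r := c) (r' := r') (s := s) (by
    rintro _ ⟨l, hl, rfl⟩; exact ⟨(t l s c hc).1, role_chl _ _, (t l s c hc).2, ht l hl⟩) h1
  have h3 : A.Sat (roleS r') (A.ap .T (A.ap (.S .al c) v)) := (rT h1).mono (by
    rintro l' ⟨_, ⟨l, hl, rfl⟩, h'⟩; exact ht l hl l' h')
  rw [scomp _ _ (h.al hv)] at h2
  rw [← h2, sinv _ h3]
  exact ⟨rfl, LS.codS _ h3⟩

theorem IsNext.c1 (h : A.IsNext ρ') (hρ : (Op.X s).ok ρ = true)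
    (hv : Q.le (Q.tgt v) (ρ'.ρ (roleS ρ))) :
    A.ap .T (A.ap (.S .al (.be s)) v) = A.ap (.S .al (.be (!s))) (A.ap (.X s) v) := by
  have t : ∀ (l l' : Lab) s, (Op.X s).ok l.role = true → (l.chl (.be s)).RT l' →
      l'.role = .be (!s) := by decide +kernel
  have := (h.crossT (r' := .be (!s)) (.inl rfl) (fun l hl l' h' => t l l' s (hl ▸ hρ) h') hv).1
  simpa only [Role.fA, sid (h.al hv)] using this

theorem IsNext.c2 (h : A.IsNext ρ') (hρ : ρ = .be (!s) ∨ ρ = .ga (!s))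
    (hv : Q.le (Q.tgt v) (ρ'.ρ (roleS ρ))) :
    A.ap .T (A.ap (.S .al (.be s)) v) = A.ap (.S .al (.ga (!s))) (run A.ap (wI (!s)) v) ∧
      A.ap (.X s) v = A.ap (.S .al (.be (!s))) (run A.ap (wI (!s)) v) := by
  have t : ∀ (l l' : Lab) s, (l.role = .be (!s) ∨ l.role = .ga (!s)) → (l.chl (.be s)).RT l' →
      l'.role = .ga (!s) := by decide +kernel
  have := h.crossT (r' := .ga (!s)) (.inl rfl) (fun l hl l' h' => t l l' s (hl ▸ hρ) h') hv
  simp only [Role.fA, sid (h.al hv)] at this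
  rw [run_wI, Bool.not_not, scomp _ _ this.2, sinv _ this.2]
  exact ⟨this.1, rfl⟩

theorem IsNext.c3 (h : A.IsNext ρ') (hρ : ρ = .al ∨ ρ = .be s)
    (hv : Q.le (Q.tgt v) (ρ'.ρ (roleS ρ))) :
    A.ap .T (A.ap (.S .al (.ga s)) v) = A.ap (.S .al (.be (!s))) (run A.ap (wW s) v) := by
  have t : ∀ (l l' : Lab) s, (l.role = .al ∨ l.role = .be s) → (l.chl (.ga s)).RT l' →
      l'.role = .be (!s) := by decide +kernel
  exact (h.crossT (r' := .be (!s)) (.inr rfl) (fun l hl l' h' => t l l' s (hl ▸ hρ) h') hv).1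

theorem IsNext.c4 (h : A.IsNext ρ') (hρ : ¬ (ρ = .al ∨ ρ = .be s))
    (hv : Q.le (Q.tgt v) (ρ'.ρ (roleS ρ))) :
    A.ap .T (A.ap (.S .al (.ga s)) v) = A.ap (.S .al (.ga (!s))) (A.ff s v) ∧
      A.ap (.X s) (A.ap (.S .al (.be s)) v) = A.ap (.S .al (.be (!s))) (A.ff s v) := by
  have t : ∀ (l l' : Lab) s, ¬ (l.role = .al ∨ l.role = .be s) → (l.chl (.ga s)).RT l' →
      l'.role = .ga (!s) := by decide +kernel
  have := h.crossT (r' := .ga (!s)) (.inr rfl) (fun l hl l' h' => t l l' s (hl ▸ hρ) h') hv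
  simp only [Role.fA] at this
  rw [ff, run_wW, scomp _ _ this.2, sinv _ this.2]
  exact ⟨this.1, rfl⟩

/-- The role after `ff`. -/
def ffr (s : Bool) : Role → Role
  | .ga t => .ga (!t)
  | _ => .be s

theorem IsNext.ff_role (h : A.IsNext ρ') (hρ : ¬ (ρ = .al ∨ ρ = .be s))
    (hv : Q.le (Q.tgt v) (ρ'.ρ (roleS ρ))) : Q.le (Q.tgt (A.ff s v)) (ρ'.ρ (roleS (ffr s ρ))) := by
  have t : ∀ (l l' : Lab) s, ¬ (l.role = .al ∨ l.role = .be s) → (l.chl (.be s)).RX s l' →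
      (l'.role = .be (!s) ∧ decide (l'.upRole ≠ .al) = true) ∧
        l'.upRole = ffr s l.role := by decide +kernel
  have t2 : ∀ (l' : Lab) (t : Th) s, l'.role = .be s → decide (l'.upRole ≠ .al) = true →
      l'.2.η = t.dA s → Lab.role (true, t) = l'.upRole := by decide +kernel
  have t3 : ∀ (l : Lab) s, (l.chl (.be s)).2.side = s := by decide
  have h1 := rX (s := s) (by rintro _ ⟨l, -, rfl⟩; exact mem_domX_of_side (t3 l s))
    (h.chlS (.be s) hv)
  have h2 := h1.mono (S' := {l' | l' ∈ upS (!s) true ∧ l'.upRole = ffr s ρ}) (by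
    rintro l' ⟨_, ⟨l, hl, rfl⟩, h'⟩
    obtain rfl : l.role = ρ := hl
    exact t l l' s hρ h')
  have h3 := h2.mono (S' := roleS (.be (!s))) fun l hl => hl.1.1
  refine h.build (s := !s) (f := true) (sbi (fun l hl => hl.1.1) h2) ?_ ?_
  · rw [ff, run_wW, sinv _ h3]
    exact h2.mono fun l hl => hl.1
  · rintro l ⟨h4, l', hl', h5⟩
    exact ⟨h4, (t2 l' l.2 _ hl'.1.1 hl'.1.2 h5).trans hl'.2⟩

theorem sinj {r : Role} {w : Q.W} (hv : A.Sat (roleS .al) v) (hw : A.Sat (roleS .al) w)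
    (h : A.ap (.S .al r) v = A.ap (.S .al r) w) : v = w := by
  rw [← sinv r hv, h, sinv r hw]

theorem kx' (s : Bool) (h : A.Sat (roleS .al) v) :
    A.ap (.X (!s)) (A.ap (.S .al (.ga (!s))) v) = A.ap (.S .al (.ga s)) v := by
  rw [kx _ h, Bool.not_not]

theorem IsNext.jn_ga (h : A.IsNext ρ') (s : Bool) (hv : Q.le (Q.tgt v) (ρ'.ρ (roleS ρ))) :
    run A.ap (jw s (ρ.Fd s).jm) (A.ap (.S .al (.ga s)) v) = A.ap (.S .al (.ga s)) v := by
  have t : ∀ (ρ : Role) s, (ρ.Fd s).side = s := by decide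
  have := jn (η := ρ.Fd s) ((h.chlS (.ga s) hv).mono (by
    rintro _ ⟨l, hl, rfl⟩; obtain rfl : l.role = ρ := hl; rfl))
  rwa [t] at this

theorem IsNext.x_ga (h : A.IsNext ρ') (hv : Q.le (Q.tgt v) (ρ'.ρ (roleS (.ga s)))) :
    Q.le (Q.tgt (A.ap (.X s) v)) (ρ'.ρ (roleS (.ga (!s)))) := by
  have t : ∀ (l l' : Lab) s, l.role = .ga s → l.RX s l' → l'.role = .ga (!s) := by decide +kernel
  refine (nloc (w := [.X s]) (fun l hl w hw => ⟨⟨(h.al hw).mono (domX_al s), trivial⟩, ?_⟩) hv).2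
  exact nmono (h.rX_atom (by simp [Op.dom, show l.role = _ from hl, Op.ok]) hw)
    fun l' hl' => t l l' s hl hl'

theorem IsNext.ff_be (h : A.IsNext ρ') (hv : Q.le (Q.tgt v) (ρ'.ρ (roleS (.be (!s))))) :
    A.ff s v = run A.ap (wW s) (run A.ap (wI (!s)) v) := by
  obtain ⟨-, ha, hb⟩ := h.wI_role (.inl rfl) hv
  generalize run A.ap (wI (!s)) v = a at ha hb
  have h1 := h.jn_ga (!s) ha
  have h2 := h.ff_role (s := s) (by simp) hv
  obtain ⟨-, h3, h4⟩ := h.wI_role (s := s) (.inl rfl) h2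
  have h5 := (h.c2 (s := !s) (.inl (by simp [ffr])) h2).1
  change A.ap _ (A.ap _ (A.ap _ (A.ap _ _))) = _ at h1
  rw [h.c3 (.inl rfl) ha, hb] at h1
  simp only [Bool.not_not] at h1 h5
  rw [(h.c4 (by simp) hv).2, h5, kx _ (h.al h3)] at h1
  rw [← sinj (h.al h3) (h.al ha) h1, h4]

theorem IsNext.ff_ga (h : A.IsNext ρ') (hv : Q.le (Q.tgt v) (ρ'.ρ (roleS (.ga s)))) :
    A.ff s v = A.ap (.X s) v := by
  have hg := h.x_ga hv
  have t : ∀ (l : Lab) s, l.role = .ga s → (l.chl (.be s)).2 = .z0 (.gA s s) := by decide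
  have h1 := jn (η := .gA (!s) (!s)) ((h.chlS (.be (!s)) hg).mono (by
    rintro _ ⟨l, hl, rfl⟩; exact t l _ hl))
  simp only [Dart.side, Dart.jm, if_true] at h1
  change A.ap _ (A.ap _ _) = _ at h1
  rw [h.c1 (by simp [Op.ok]) hg, xx ((h.al hv).mono (domX_al s))] at h1
  simp only [Bool.not_not] at h1
  rw [(h.c4 (by simp) hv).2] at h1
  exact sinj (h.al (h.ff_role (by simp) hv)) (h.al hg) h1

theorem IsNext.ff_ga' (h : A.IsNext ρ') (hv : Q.le (Q.tgt v) (ρ'.ρ (roleS (.ga (!s))))) :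
    A.ff s v = A.ap (.X (!s)) v := by
  have hg := h.x_ga hv
  rw [Bool.not_not] at hg
  have h1 := h.jn_ga s hg
  change A.ap _ (A.ap _ (A.ap _ (A.ap _ _))) = _ at h1
  rw [(h.c4 (by simp) hg).1, h.ff_ga hg, xx' ((h.al hv).mono (domX_al _)), kx' _ (h.al hv),
    (h.c4 (by simp) hv).1, kx' _ (h.al (h.ff_role (by simp) hv))] at h1
  exact sinj (h.al (h.ff_role (by simp) hv)) (h.al hg) h1

theorem IsNext.kx (h : A.IsNext ρ') (s : Bool) (hv : Q.le (Q.tgt v) (ρ'.ρ (roleS .al))) :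
    A.ap (.X s) (run A.ap (jW (.ga s)) v) = run A.ap (jW (.ga (!s))) v := by
  obtain ⟨-, hb, hb'⟩ := h.wW_role (s := s) (.inl rfl) hv
  obtain ⟨-, hG, -⟩ := h.wW_role (s := s) (.inr rfl) hb
  have hG' := h.x_ga hG
  obtain ⟨-, hB, hB'⟩ := h.wI_role (s := !s) (.inr rfl) hG'
  obtain ⟨-, hA, hA'⟩ := h.wI_role (s := !s) (.inl rfl) hB
  have h1 := h.jn_ga s hb
  have h2 := (h.c4 (s := !s) (by simp [nxt]) hG).2
  have h3 := h.ff_ga' (s := !s) (by simpa [nxt] using hG)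
  simp only [Bool.not_not] at h2 h3
  have h4 := h.ff_role (s := s) (by simp [Role.fA]) hB
  change A.ap _ (A.ap _ (A.ap _ (A.ap _ (A.ap _ (A.ap _ _))))) = _ at h1
  rw [h.c3 (.inr rfl) hb, h2, h3, (h.c2 (.inr rfl) hG').1, kx' _ (h.al hB),
    (h.c4 (by simp [Role.fA]) hB).1, kx' _ (h.al h4)] at h1
  have h5 := sinj (h.al h4) (h.al hb) h1
  rw [h.ff_be hB] at h5
  have h6 := congrArg (run A.ap (wI s)) h5
  rw [(h.wW_role (s := s) (.inl rfl) hA).2.2, hb'] at h6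
  rw [jW, jW, run_app, run_app, ← hB', ← hA', h6]

theorem IsNext.nsid (h : A.IsNext ρ') (hv : Q.le (Q.tgt v) (ρ'.ρ (roleS ρ))) :
    A.nap (.S ρ ρ) v = v := by rw [nap_S, (h.jI_spec hv).2.2]

theorem IsNext.nap_fA (h : A.IsNext ρ') (hρ : ρ = .be s ∨ ρ = .ga s)
    (hv : Q.le (Q.tgt v) (ρ'.ρ (roleS ρ))) : A.nap (.S ρ ρ.fA) v = run A.ap (wI s) v := by
  rcases hρ with rfl | rfl
  · rfl
  · rw [nap_S, Role.fA, jW, jI, run_app,
      (h.wI_role (.inl rfl) (h.wI_role (.inr rfl) hv).2.1).2.2]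

theorem IsNext.napF (h : A.IsNext ρ') (s : Bool) (hv : Q.le (Q.tgt v) (ρ'.ρ (roleS ρ))) :
    A.nap (Op.crossF s ρ).2 v =
      if ρ = .al ∨ ρ = .be s then run A.ap (wW s) v else A.ff s v := by
  cases ρ with
  | al => simp only [true_or, if_true]; rfl
  | be t =>
    by_cases ht : t = s
    · subst ht
      simp only [Op.crossF, if_true, or_true]
      rw [nap_S, jW, jI, run_app, (h.wI_role (.inl rfl) hv).2.2]
    · obtain rfl : t = !s := by revert ht; cases t <;> cases s <;> simp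
      rw [if_neg (by simp), h.ff_be hv]
      simp only [Op.crossF, ht, if_false]
      rw [nap_S]; rfl
  | ga t =>
    rw [if_neg (by simp), Op.crossF, nap_S, ← h.kx t (h.jI_spec hv).2.1, (h.jI_spec hv).2.2]
    by_cases ht : t = s
    · subst ht; exact (h.ff_ga hv).symm
    · obtain rfl : t = !s := by revert ht; cases t <;> cases s <;> simp
      exact (h.ff_ga' hv).symm

theorem run_nap_jw (s : Bool) (m : ℕ) (v : Q.W) : run A.nap (jw s m) v = run A.ap (jw s m) v := by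
  induction m generalizing v with
  | zero => rfl
  | succ m ih => exact ih _

theorem IsNext.axE (h : A.IsNext ρ') {w w' : List Op} (ha : AxE l w w')
    (hv : Q.le (Q.tgt v) (ρ'.ρ {l})) : run A.nap w v = run A.nap w' v := by
  have hr : Q.le (Q.tgt v) (ρ'.ρ (roleS l.role)) := nmono hv (Set.singleton_subset_iff.2 rfl)
  cases ha with
  | inv o hl =>
    cases o with
    | T => exact tt (h.al hv)
    | X s => exact xx ((h.al hv).mono (domX_al s))
    | S r r' =>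
      rw [dom_S] at hl
      obtain rfl : l.role = r := hl
      change A.nap (.S r' _) (A.nap _ v) = v
      rw [nap_S, nap_S, (h.jW_spec r' (h.jI_spec hr).2.1).2.2, (h.jI_spec hr).2.2]
  | sid => exact h.nsid hr
  | scomp r' r'' =>
    change A.nap _ (A.nap _ v) = A.nap _ v
    rw [nap_S, nap_S, nap_S, (h.jW_spec r' (h.jI_spec hr).2.1).2.2]
  | sq hz => exact sq ((h.atom true hv).1.mono (Set.singleton_subset_iff.2 ⟨rfl, hz⟩))
  | jn hz =>
    have t : ∀ t : Th, t.isZ0 = true → t = .z0 t.η := by decide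
    rw [run_nap_jw]
    exact jn (η := l.2.η) ((h.atom true hv).1.mono (Set.singleton_subset_iff.2 (t _ hz)))
  | v r hf hR =>
    have t1 : ∀ l : Lab, l.1 = true → (l.role = .be l.2.side ∨ l.role = .ga l.2.side) ∧
        (∃ l', l.RT l' ∧ (l'.role = .be (!l.2.side) ∨ l'.role = .ga (!l.2.side))) ∧
        l.2.succ.side = l.2.side ∧ l.2.succ.isZ0 = false ∧
        Lab.role (l.1, l.2.succ) = .be l.2.side ∧
        ∀ l', Lab.RT (l.1, l.2.succ) l' → l'.role = .be (!l.2.side) := by decide +kernel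
    obtain ⟨t2, ⟨l', t3, t4⟩, t5, t6, t7, t8⟩ := t1 l hf
    rw [hR l' t3] at t4
    have h1 : Q.le (Q.tgt (A.ap .T v)) (ρ'.ρ (roleS r)) := nmono (h.rT_atom hv) hR
    change A.nap _ (A.ap .T v) = A.ap _ (A.nap _ v)
    rw [h.nap_fA t4 h1, h.nap_fA t2 hr, run_wI, run_wI, Bool.not_not]
    have h2 := h.low hv
    have h3 := sq (s := l.2.side) (h2.mono (Set.singleton_subset_iff.2 ⟨t5, t6⟩))
    rw [xx' ((h.al hv).mono (domX_al _))] at h3
    rw [h3, xx' ((rT h2).mono (by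
      rintro l' ⟨_, rfl, h'⟩; exact mem_domX_of_side (by rw [RT_side h', t5])))]
    exact vx (r := .be l.2.side) (r' := .be (!l.2.side))
      (by rintro _ rfl; exact ⟨hf, t7, t5, t8⟩) h2
  | k s hf => exact h.kx s (nmono hv (Set.singleton_subset_iff.2 (role_al_iff.2 hf)))

theorem IsNext.cr (h : A.IsNext ρ') {o : Op} {r : Role} (ho : o.ok r = true)
    (hv : Q.le (Q.tgt v) (ρ'.ρ {l})) : A.ap o (A.ap (.S .al r) v) =
      A.ap (.S .al (o.cr r l.role).1) (A.nap (o.cr r l.role).2 v) := by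
  have hr : Q.le (Q.tgt v) (ρ'.ρ (roleS l.role)) := nmono hv (Set.singleton_subset_iff.2 rfl)
  have tA : ∀ (ρ : Role) s, ((Op.X s).ok ρ = true ∧ Op.crossA s ρ = (true, .X s)) ∨
      ((ρ = .be (!s) ∨ ρ = .ga (!s)) ∧ Op.crossA s ρ = (false, .S ρ ρ.fA)) := by decide
  have tF : ∀ (ρ : Role) s, (Op.crossF s ρ).1 = decide (ρ = .al ∨ ρ = .be s) := by decide
  cases o with
  | S a b =>
    obtain rfl : a = r := by simpa [Op.ok] using ho
    rw [scomp _ _ (h.al hv), Op.cr, h.nsid hr]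
  | T =>
    cases r with
    | al =>
      change _ = A.ap (.S .al .al) (A.ap .T v)
      rw [sid (h.al hv), sid (h.al (h.rT_atom hv))]
    | be s =>
      rcases tA l.role s with ⟨h1, h2⟩ | ⟨h1, h2⟩ <;> simp only [Op.cr, h2]
      · exact h.c1 h1 hr
      · rw [h.nap_fA h1 hr]; exact (h.c2 h1 hr).1
    | ga s =>
      simp only [Op.cr, tF, h.napF s hr]
      by_cases h1 : l.role = .al ∨ l.role = .be s
      · simpa only [h1, decide_true, if_true] using h.c3 h1 hr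
      · simpa [h1] using (h.c4 h1 hr).1
  | X s =>
    cases r with
    | al =>
      rw [sid (h.al hv)]
      rcases tA l.role s with ⟨h1, h2⟩ | ⟨h1, h2⟩ <;> simp only [Op.cr, h2]
      · exact (sid (h.al (h.rX_atom h1 hv))).symm
      · rw [h.nap_fA h1 hr]; exact (h.c2 h1 hr).2
    | be t =>
      obtain rfl : s = t := by simpa [Op.ok] using ho
      simp only [Op.cr, tF, h.napF s hr]
      by_cases h1 : l.role = .al ∨ l.role = .be s
      · simp only [h1, decide_true, if_true]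
        exact (sid (h.al (h.wW_role h1 hr).2.1)).symm
      · simpa [h1] using (h.c4 h1 hr).2
    | ga t =>
      obtain rfl : s = t := by simpa [Op.ok] using ho
      rw [Op.cr, h.nsid hr, LS.kx s (h.al hv)]

theorem exists_link (A : LS Q) : ∃ B : LS Q, A.Link B := by
  obtain ⟨ρ', h⟩ := A.exists_next
  exact ⟨⟨ρ', A.nap, h.isOp, fun ha _ hv => h.axM ha hv, fun ha _ hv => h.axE ha hv⟩,
    ⟨rfl, fun _ => rfl, h.tot, fun r _ _ hv => h.chl r hv, fun _ _ _ _ ho hv => h.cr ho hv,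
      fun _ _ hv => h.low hv, fun _ _ hz hv => h.up hz hv⟩⟩

end Vale.Agent.P196.LS
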