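import Vale.Agent.P196.Step1

/-! The next level: labels. -/

namespace Vale.Agent.P196.LS

variable {Q : QL} {A : LS Q} {ρ' : Q.PVM Lab} {S : Set Lab} {l : Lab} {v : Q.W}

/-- The letters of the next level. -/
def nap (A : LS Q) (o : Op) : Q.W → Q.W := run A.ap o.exp

theorem nmono {S' : Set Lab} (hv : Q.le (Q.tgt v) (ρ'.ρ S)) (hS : S ⊆ S') :
    Q.le (Q.tgt v) (ρ'.ρ S') := Q.le_trans hv (ρ'.mono hS)

theorem valid_append {w w' : List Op} :
    A.Valid (w ++ w') v ↔ A.Valid w v ∧ A.Valid w' (run A.ap w v) := by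
  induction w generalizing v with
  | nil => simp [Valid, run]
  | cons o w ih => simp [Valid, run, ih, and_assoc]

theorem run_app {α : Type*} (ap : Op → α → α) (l l' : List Op) (x : α) :
    run ap (l ++ l') x = run ap l' (run ap l x) := List.foldl_append

theorem IsNext.atom (h : A.IsNext ρ') (s : Bool) (hv : Q.le (Q.tgt v) (ρ'.ρ {l})) :
    A.Sat {(false, l.2)} v ∧ A.Sat (upS s l.1) (A.ap (.S .al (.be s)) v) := by
  have := (h.iff l.1 {l.2} s v).1 (by rwa [Set.singleton_prod_singleton])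
  rwa [Set.singleton_prod_singleton] at this

theorem IsNext.incl (h : A.IsNext ρ') (hv : Q.le (Q.tgt v) (ρ'.ρ S)) :
    A.Sat ((fun l : Lab => (false, l.2)) '' S) v :=
  ρ'.loc_le (QL.IsOp.id _) (fun l hl _ hw =>
    (h.atom true hw).1.mono (Set.singleton_subset_iff.2 ⟨l, hl, rfl⟩)) hv

theorem IsNext.al (h : A.IsNext ρ') (hv : Q.le (Q.tgt v) (ρ'.ρ S)) : A.Sat (roleS .al) v :=
  (h.incl hv).mono (by rintro _ ⟨l, -, rfl⟩; rfl)

theorem IsNext.ofSat (h : A.IsNext ρ') {T : Set Th} (hv : A.Sat ({false} ×ˢ T) v) :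
    Q.le (Q.tgt v) (ρ'.ρ (Set.univ ×ˢ T)) := by
  have h1 : Q.le (Q.tgt v) (ρ'.ρ Set.univ) := by
    rw [h.tot]; exact hv.mono fun l hl => role_al_iff.2 hl.1
  have h2 := h.incl (v := Q.idw (ρ'.ρ (Set.univ ×ˢ Tᶜ))) (by rw [Q.tgt_idw]; exact Q.le_refl _)
  have h3 := hv.orth h2 (by
    rw [Set.disjoint_left]
    rintro _ h4 ⟨l, hl, rfl⟩
    exact hl.2 h4.2)
  rw [Q.tgt_idw] at h3
  exact nmono (ρ'.le_diff h1 h3) fun l hl => ⟨trivial, by simpa using hl.2⟩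

theorem IsNext.build (h : A.IsNext ρ') {S₀ : Set Lab} {f s : Bool} (hv : A.Sat S₀ v)
    (hu : A.Sat (upS s f) (A.ap (.S .al (.be s)) v))
    (hS : ∀ l ∈ S₀, l.1 = false ∧ (f, l.2) ∈ S) : Q.le (Q.tgt v) (ρ'.ρ S) :=
  nmono ((h.iff f {t | (f, t) ∈ S} s v).2 ⟨hv.mono fun l hl => hS l hl, hu⟩)
    (by rintro ⟨f', t⟩ ⟨rfl, h2⟩; exact h2)

theorem IsNext.chl_be (h : A.IsNext ρ') (s : Bool) (hv : Q.le (Q.tgt v) (ρ'.ρ {l})) :
    A.Sat {l.chl (.be s)} (A.ap (.S .al (.be s)) v) := by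
  obtain ⟨h1, h2⟩ := h.atom s hv
  refine (sb (s := s) (Set.singleton_subset_iff.2 rfl) h1).both h2 ?_
  rintro l' ⟨h3, _, rfl, h4⟩ ⟨-, h5⟩
  have t : ∀ (l l' : Lab) s, l'.role = .be s → l'.2.η = l.2.dA s →
      decide (l'.upRole ≠ .al) = l.1 → l' = l.chl (.be s) := by decide +kernel
  exact t l l' s h3 h4 h5

theorem role_chl (r : Role) (l : Lab) : (l.chl r).role = r := by revert r l; decide

theorem IsNext.chl (h : A.IsNext ρ') (r : Role) (hv : Q.le (Q.tgt v) (ρ'.ρ {l})) :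
    A.Sat {l.chl r} (A.ap (.S .al r) v) := by
  cases r with
  | al => rw [sid (h.al hv)]; exact (h.atom true hv).1
  | be s => exact h.chl_be s hv
  | ga s =>
    rw [← scomp (.be s) _ (h.al hv)]
    refine (sg (Set.singleton_subset_iff.2 (role_chl _ _)) (h.chl_be s hv)).mono ?_
    rintro _ ⟨_, rfl, rfl⟩
    have t : ∀ (l : Lab) s, (true, Th.z0 (l.chl (.be s)).2.up) = l.chl (.ga s) := by decide
    exact t l s

theorem domX_al (s : Bool) : roleS .al ⊆ (Op.X s).dom := fun l hl => by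
  simp [Op.dom, show l.role = _ from hl, Op.ok]

theorem xx {s : Bool} (hv : A.Sat (Op.X s).dom v) : A.ap (.X (!s)) (A.ap (.X s) v) = v := inv hv

theorem xx' {s : Bool} (hv : A.Sat (Op.X (!s)).dom v) : A.ap (.X s) (A.ap (.X (!s)) v) = v := by
  have := xx hv
  rwa [Bool.not_not] at this

theorem IsNext.low (h : A.IsNext ρ') (hv : Q.le (Q.tgt v) (ρ'.ρ {l})) :
    A.Sat {(l.1, l.2.succ)} (A.ap (.X (!l.2.side)) v) := by
  obtain ⟨h1, h2⟩ := h.atom (!l.2.side) hv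
  have t1 : ∀ t : Th, t.succ.side = t.side ∧ t.succ.isZ0 = false := by decide
  have h3 : A.Sat {l' | l'.2 = l.2.succ} (A.ap (.X (!l.2.side)) v) := by
    refine (rX (Set.singleton_subset_iff.2 (domX_al _ rfl)) h1).mono ?_
    rintro l' ⟨_, rfl, h'⟩
    simpa [Lab.RX] using h'
  have hD : ∀ w, A.Sat {l' | l'.2 = l.2.succ} w →
      A.Valid [.X l.2.side, .S .al (.be (!l.2.side))] w := by
    intro w hw
    have h4 : {l' : Lab | l'.2 = l.2.succ} ⊆ (Op.X l.2.side).dom := fun l' hl' =>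
      mem_domX_of_side (by rw [show l'.2 = _ from hl']; exact (t1 _).1)
    refine ⟨hw.mono h4, (rX h4 hw).mono ?_, trivial⟩
    rintro l'' ⟨l', hl', h'⟩
    rw [dom_S]
    have h5 : l'.2 = l.2.succ := hl'
    simp only [Lab.RX, h5, (t1 _).1, (t1 _).2, if_true] at h'
    exact role_al_iff.2 h'.1
  have h4 := A.ρ.symm (S := {l' | l'.1 = l.1}) (e := A.ρ.ρ (upS (!l.2.side) l.1)) (isOp_run hD)
    (fun l' hl' w hw => by
      have h5 : l'.2 = l.2.succ := hl'.1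
      have h6 := lowG (s := l.2.side) (f := l'.1) (v := w) (Sat.mono hw
        (Set.singleton_subset_iff.2 ⟨rfl, by rw [h5]; exact (t1 _).1, by rw [h5]; exact (t1 _).2⟩))
      refine Q.orth_mono h6 (A.ρ.orth ?_)
      rw [Set.disjoint_left]
      intro a h7 h8
      exact hl'.2 (h7.2.symm.trans h8.2)) h3 (by
      change A.Sat _ (A.ap _ (A.ap _ (A.ap _ v)))
      rw [xx' ((h.al hv).mono (domX_al _))]; exact h2)
  refine Sat.mono h4 ?_
  rintro ⟨f, t⟩ ⟨h5, h6⟩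
  exact Prod.ext h6 h5

theorem IsNext.up (h : A.IsNext ρ') (hz : l.2.isZ0 = false) (hv : A.Sat {l} v) :
    Q.le (Q.tgt (A.ap (.X l.2.side) v)) (ρ'.ρ {l' | l'.1 = l.1 ∧ l'.2.succ = l.2}) := by
  refine h.build (rX (Set.singleton_subset_iff.2 (mem_domX_of_side rfl)) hv)
    (lowG (f := l.1) (hv.mono (Set.singleton_subset_iff.2 ⟨rfl, rfl, hz⟩))) ?_
  rintro l' ⟨_, rfl, h'⟩
  simp only [Lab.RX, hz, if_true] at h'
  exact ⟨h'.1, rfl, h'.2⟩

/-- Crossing the side `F s` of the parent into an `A` side. -/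
def wW (s : Bool) : List Op := [.S .al (.be s), .X s]
/-- Its inverse. -/
def wI (s : Bool) : List Op := [.X (!s), .S (.be s) .al]

theorem IsNext.wW_atom (h : A.IsNext ρ') {s : Bool} (hl : l.role = .al ∨ l.role = .be s)
    (hv : Q.le (Q.tgt v) (ρ'.ρ {l})) : A.Valid (wW s) v ∧
      Q.le (Q.tgt (run A.ap (wW s) v)) (ρ'.ρ {l' | l'.1 = true ∧ l'.2.succ = (l.chl (.be s)).2}) ∧
      run A.ap (wI s) (run A.ap (wW s) v) = v := by
  have t : ∀ (l : Lab) s, (l.role = .al ∨ l.role = .be s) → (l.chl (.be s)).2.isZ0 = false ∧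
      (l.chl (.be s)).2.side = s := by decide
  have h1 := h.chl_be s hv
  have h2 := h.up (t l s hl).1 h1
  rw [(t l s hl).2] at h2
  have h3 := h1.mono (S' := (Op.X s).dom)
    (Set.singleton_subset_iff.2 (mem_domX_of_side (t l s hl).2))
  refine ⟨⟨by rw [dom_S]; exact h.al hv, h3, trivial⟩, h2, ?_⟩
  change A.ap _ (A.ap _ (A.ap _ (A.ap _ v))) = v
  rw [xx h3, sinv _ (h.al hv)]

theorem IsNext.wI_atom (h : A.IsNext ρ') {s : Bool} (hl : l.role = .be s ∨ l.role = .ga s)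
    (hv : Q.le (Q.tgt v) (ρ'.ρ {l})) : A.Valid (wI s) v ∧
      Q.le (Q.tgt (run A.ap (wI s) v)) (ρ'.ρ {l' | l'.role = l.role.fA ∧ l'.2.dA s = l.2.η}) ∧
      run A.ap (wW s) (run A.ap (wI s) v) = v := by
  have t : ∀ (l : Lab) s, (l.role = .be s ∨ l.role = .ga s) → l.2.side = s ∧
      Lab.role (l.1, l.2.succ) = .be s ∧ l.2.succ.η = l.2.η ∧
      ∀ t : Th, t.dA s = l.2.η →
        Lab.role (decide (Lab.upRole (l.1, l.2.succ) ≠ .al), t) = l.role.fA := by decide +kernel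
  obtain ⟨t1, t2, t3, t4⟩ := t l s hl
  have h1 := h.low hv
  rw [t1] at h1
  have h2 : ({(l.1, l.2.succ)} : Set Lab) ⊆ roleS (.be s) := Set.singleton_subset_iff.2 t2
  have h3 := (h.al hv).mono (domX_al (!s))
  refine ⟨⟨h3, by rw [dom_S]; exact h1.mono h2, trivial⟩, ?_, ?_⟩
  · refine h.build (s := s) (f := decide (Lab.upRole (l.1, l.2.succ) ≠ .al)) (sbi h2 h1) ?_ ?_
    · change A.Sat _ (A.ap _ (A.ap _ (A.ap _ v)))
      rw [sinv _ (h1.mono h2)]
      exact h1.mono (Set.singleton_subset_iff.2 ⟨t2, rfl⟩)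
    · rintro l' ⟨h4, _, rfl, h5⟩
      exact ⟨h4, t4 _ (h5.symm.trans t3), h5.symm.trans t3⟩
  · change A.ap _ (A.ap _ (A.ap _ (A.ap _ v))) = v
    rw [sinv _ (h1.mono h2), xx' h3]

theorem nloc {w : List Op} {T : Set Lab}
    (hw : ∀ l ∈ S, ∀ v, Q.le (Q.tgt v) (ρ'.ρ {l}) →
      A.Valid w v ∧ Q.le (Q.tgt (run A.ap w v)) (ρ'.ρ T)) (hv : Q.le (Q.tgt v) (ρ'.ρ S)) :
    A.Valid w v ∧ Q.le (Q.tgt (run A.ap w v)) (ρ'.ρ T) :=
  have h1 : ∀ v, Q.le (Q.tgt v) (ρ'.ρ S) → A.Valid w v := fun _ hv =>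
    valid_pvm ρ' (fun l hl v hv => (hw l hl v hv).1) hv
  ⟨h1 v hv, ρ'.loc_le (isOp_run h1) (fun l hl v hv => (hw l hl v hv).2) hv⟩

theorem nloc_eq {w w' : List Op}
    (hw : ∀ l ∈ S, ∀ v, Q.le (Q.tgt v) (ρ'.ρ {l}) →
      A.Valid w v ∧ A.Valid w' v ∧ run A.ap w v = run A.ap w' v) (hv : Q.le (Q.tgt v) (ρ'.ρ S)) :
    run A.ap w v = run A.ap w' v :=
  ρ'.loc_eq (isOp_run fun _ hv => valid_pvm ρ' (fun l hl v hv => (hw l hl v hv).1) hv)
    (isOp_run fun _ hv => valid_pvm ρ' (fun l hl v hv => (hw l hl v hv).2.1) hv)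
    (fun l hl v hv => (hw l hl v hv).2.2) hv

/-- The role after `wW s`. -/
def nxt (s : Bool) : Role → Role
  | .al => .be s
  | _ => .ga s

theorem IsNext.wW_role (h : A.IsNext ρ') {s : Bool} {r : Role} (hr : r = .al ∨ r = .be s)
    (hv : Q.le (Q.tgt v) (ρ'.ρ (roleS r))) : A.Valid (wW s) v ∧
      Q.le (Q.tgt (run A.ap (wW s) v)) (ρ'.ρ (roleS (nxt s r))) ∧
      run A.ap (wI s) (run A.ap (wW s) v) = v := by
  have t : ∀ (l l' : Lab) s, (l.role = .al ∨ l.role = .be s) → l'.1 = true →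
      l'.2.succ = (l.chl (.be s)).2 → l'.role = nxt s l.role ∧
        (l'.role = .be s ∨ l'.role = .ga s) := by decide +kernel
  have h1 : ∀ l ∈ roleS r, ∀ v, Q.le (Q.tgt v) (ρ'.ρ {l}) → A.Valid (wW s) v ∧
      Q.le (Q.tgt (run A.ap (wW s) v)) (ρ'.ρ (roleS (nxt s r))) := by
    intro l hl w hw
    obtain rfl : l.role = r := hl
    exact ⟨(h.wW_atom hr hw).1,
      nmono (h.wW_atom hr hw).2.1 fun l' hl' => (t l l' s hr hl'.1 hl'.2).1⟩
  refine ⟨(nloc h1 hv).1, (nloc h1 hv).2, ?_⟩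
  rw [← run_app]
  refine nloc_eq (w' := []) (fun l hl w hw => ?_) hv
  obtain rfl : l.role = r := hl
  obtain ⟨h2, h3, h4⟩ := h.wW_atom hr hw
  refine ⟨valid_append.2 ⟨h2, valid_pvm ρ' (fun l' hl' v hv => ?_) h3⟩, trivial, by rwa [run_app]⟩
  exact (h.wI_atom (t l l' s hr hl'.1 hl'.2).2 hv).1

theorem IsNext.wI_role (h : A.IsNext ρ') {s : Bool} {r : Role} (hr : r = .be s ∨ r = .ga s)
    (hv : Q.le (Q.tgt v) (ρ'.ρ (roleS r))) : A.Valid (wI s) v ∧
      Q.le (Q.tgt (run A.ap (wI s) v)) (ρ'.ρ (roleS r.fA)) ∧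
      run A.ap (wW s) (run A.ap (wI s) v) = v := by
  have h1 : ∀ l ∈ roleS r, ∀ v, Q.le (Q.tgt v) (ρ'.ρ {l}) → A.Valid (wI s) v ∧
      Q.le (Q.tgt (run A.ap (wI s) v)) (ρ'.ρ (roleS r.fA)) := by
    intro l hl w hw
    obtain rfl : l.role = r := hl
    exact ⟨(h.wI_atom hr hw).1, nmono (h.wI_atom hr hw).2.1 fun l' hl' => hl'.1⟩
  refine ⟨(nloc h1 hv).1, (nloc h1 hv).2, ?_⟩
  rw [← run_app]
  refine nloc_eq (w' := []) (fun l hl w hw => ?_) hv
  have h5 := (h1 l hl w hw).2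
  obtain rfl : l.role = r := hl
  obtain ⟨h2, -, h4⟩ := h.wI_atom hr hw
  refine ⟨valid_append.2 ⟨h2, (h.wW_role ?_ h5).1⟩, trivial, by rwa [run_app]⟩
  rcases hr with hr | hr <;> simp [hr, Role.fA]

/-- From the `al` child to the child with role `r`, one level up. -/
def jW : Role → List Op
  | .al => []
  | .be s => wW s
  | .ga s => wW s ++ wW s
/-- Its inverse. -/
def jI : Role → List Op
  | .al => []
  | .be s => wI s
  | .ga s => wI s ++ wI s

theorem exp_S (r r' : Role) : (Op.S r r').exp = jI r ++ jW r' := by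
  cases r <;> cases r' <;> rfl

theorem IsNext.jW_spec (h : A.IsNext ρ') (r : Role) (hv : Q.le (Q.tgt v) (ρ'.ρ (roleS .al))) :
    A.Valid (jW r) v ∧ Q.le (Q.tgt (run A.ap (jW r) v)) (ρ'.ρ (roleS r)) ∧
      run A.ap (jI r) (run A.ap (jW r) v) = v := by
  cases r with
  | al => exact ⟨trivial, hv, rfl⟩
  | be s => exact h.wW_role (.inl rfl) hv
  | ga s =>
    obtain ⟨h1, h2, h3⟩ := h.wW_role (s := s) (.inl rfl) hv
    obtain ⟨h4, h5, h6⟩ := h.wW_role (s := s) (.inr rfl) h2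
    refine ⟨valid_append.2 ⟨h1, h4⟩, by rwa [jW, run_app], ?_⟩
    rw [jW, jI, run_app, run_app, h6, h3]

theorem IsNext.jI_spec (h : A.IsNext ρ') {r : Role} (hv : Q.le (Q.tgt v) (ρ'.ρ (roleS r))) :
    A.Valid (jI r) v ∧ Q.le (Q.tgt (run A.ap (jI r) v)) (ρ'.ρ (roleS .al)) ∧
      run A.ap (jW r) (run A.ap (jI r) v) = v := by
  cases r with
  | al => exact ⟨trivial, hv, rfl⟩
  | be s => exact h.wI_role (.inl rfl) hv
  | ga s =>
    obtain ⟨h1, h2, h3⟩ := h.wI_role (s := s) (.inr rfl) hv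
    obtain ⟨h4, h5, h6⟩ := h.wI_role (s := s) (.inl rfl) h2
    refine ⟨valid_append.2 ⟨h1, h4⟩, by rwa [jI, run_app], ?_⟩
    rw [jW, jI, run_app, run_app, h6, h3]

theorem nap_S (r r' : Role) (v : Q.W) :
    A.nap (.S r r') v = run A.ap (jW r') (run A.ap (jI r) v) := by rw [nap, exp_S, run_app]

theorem IsNext.codS (h : A.IsNext ρ') {r : Role} (r' : Role)
    (hv : Q.le (Q.tgt v) (ρ'.ρ (roleS r))) :
    Q.le (Q.tgt (A.nap (.S r r') v)) (ρ'.ρ (roleS r')) := by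
  rw [nap_S]; exact (h.jW_spec r' (h.jI_spec hv).2.1).2.1

theorem IsNext.valid (h : A.IsNext ρ') {o : Op} (hv : Q.le (Q.tgt v) (ρ'.ρ o.dom)) :
    A.Valid o.exp v := by
  cases o with
  | T => exact ⟨(h.al hv).mono (by rw [dom_T]; exact Set.subset_univ _), trivial⟩
  | X s => exact ⟨(h.al hv).mono (domX_al s), trivial⟩
  | S r r' =>
    rw [dom_S] at hv
    rw [exp_S, valid_append]
    exact ⟨(h.jI_spec hv).1, (h.jW_spec r' (h.jI_spec hv).2.1).1⟩

theorem IsNext.isOp (h : A.IsNext ρ') (o : Op) : Q.IsOp (ρ'.ρ o.dom) (A.nap o) :=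
  isOp_run fun _ hv => h.valid hv

theorem IsNext.rT_atom (h : A.IsNext ρ') (hv : Q.le (Q.tgt v) (ρ'.ρ {l})) :
    Q.le (Q.tgt (A.ap .T v)) (ρ'.ρ {l' | l.RT l'}) := by
  have t1 : ∀ t : Th, t.succ.side = t.side ∧ t.succ.isZ0 = false := by decide
  have h1 := h.low hv
  have h2 := sq (s := l.2.side) (h1.mono (Set.singleton_subset_iff.2 (t1 _)))
  rw [xx' ((h.al hv).mono (domX_al _))] at h2
  have h3 := lowG (s := !l.2.side) (f := l.1) ((rT h1).mono (by
    rintro l' ⟨_, rfl, h'⟩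
    exact ⟨h'.1, by rw [RT_side h', (t1 _).1], by rw [h'.2.2.1, (t1 _).2]⟩))
  rw [← h2] at h3
  refine h.build (rT (h.atom true hv).1) h3 ?_
  rintro l' ⟨_, rfl, h'⟩
  exact ⟨h'.1, rfl, h'.2⟩

theorem IsNext.vx_be (h : A.IsNext ρ') {s : Bool} {r' : Role}
    (hr : ∀ l', (l.chl (.be s)).RT l' → l'.role = r') (hv : Q.le (Q.tgt v) (ρ'.ρ {l})) :
    A.ap (.S r' r'.fA) (A.ap .T (A.ap (.S .al (.be s)) v)) = A.ap (.X s) v := by
  have t : ∀ (l : Lab) s, (l.chl (.be s)).1 = true ∧ (l.chl (.be s)).2.side = s := by decide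
  have h1 := vx (r := .be s) (s := s) (S := {l.chl (.be s)}) (by
    rintro _ rfl; exact ⟨(t l s).1, role_chl _ _, (t l s).2, hr⟩) (h.chl_be s hv)
  rw [h1, Role.fA, sinv _ (h.al hv)]
  simp

theorem IsNext.rX_atom (h : A.IsNext ρ') {s : Bool} (hl : l ∈ (Op.X s).dom)
    (hv : Q.le (Q.tgt v) (ρ'.ρ {l})) : Q.le (Q.tgt (A.ap (.X s) v)) (ρ'.ρ {l' | l.RX s l'}) := by
  by_cases hs : l.2.side = s
  · subst hs
    rcases hz : l.2.isZ0 with _ | _
    · exact nmono (h.up (l := (false, l.2)) hz (h.atom true hv).1) fun l' hl' => by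
        simpa [Lab.RX, hz] using hl'
    · have t : ∀ (l l' : Lab), l.2.isZ0 = true → (l.chl (.be l.2.side)).RT l' →
          l'.role = .be (!l.2.side) ∧ decide (l'.upRole ≠ .al) = l.1 := by decide +kernel
      have h1 := h.vx_be (fun l' hl' => (t l l' hz hl').1) hv
      have h2 := (rT (h.chl_be l.2.side hv)).mono (S' := upS (!l.2.side) l.1) (by
        rintro l' ⟨_, rfl, h'⟩; exact t l l' hz h')
      refine h.build (s := !l.2.side) (f := l.1)
        (rX (Set.singleton_subset_iff.2 (domX_al _ rfl)) (h.atom true hv).1) ?_ ?_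
      · rw [← h1, Role.fA, sinv _ (h2.mono (upS_subset _ _))]
        · exact h2
        · simp
      · rintro l' ⟨_, rfl, h'⟩
        simp only [Lab.RX, hz, if_true] at h'
        simp [h', Lab.RX, hz]
  · have t : ∀ (l : Lab) s, (Op.X s).ok l.role = true → l.2.side ≠ s →
        l.1 = false ∧ s = !l.2.side := by decide
    obtain ⟨h1, rfl⟩ := t l s hl hs
    have h2 := h.low hv
    rw [h1, ← Set.singleton_prod_singleton] at h2
    exact nmono (h.ofSat h2) fun l' hl' => by simpa [Lab.RX] using hl'.2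

theorem IsNext.axM (h : A.IsNext ρ') {w : List Op} (ha : AxM l w S)
    (hv : Q.le (Q.tgt v) (ρ'.ρ {l})) : Q.le (Q.tgt (run A.nap w v)) (ρ'.ρ S) := by
  cases ha with
  | cod o hl =>
    cases o with
    | T => exact nmono (h.rT_atom hv) (by rw [Op.inv, dom_T]; exact Set.subset_univ _)
    | X s =>
      have t : ∀ (l l' : Lab) s, (Op.X s).ok l.role = true → l.RX s l' →
          (Op.X (!s)).ok l'.role = true := by decide +kernel
      exact nmono (h.rX_atom hl hv) fun l' hl' => t l l' s hl hl'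
    | S r r' =>
      rw [dom_S] at hl
      rw [Op.inv, dom_S]
      exact h.codS r' (nmono hv (Set.singleton_subset_iff.2 hl))
  | rT => exact h.rT_atom hv
  | rX s hl => exact h.rX_atom hl hv
  | sb s hl =>
    have t : ∀ (l l' : Lab) s, l.1 = false → l'.1 = true → l'.2.succ = (l.chl (.be s)).2 →
        l'.role = .be s ∧ l'.2.η = l.2.dA s := by decide +kernel
    exact nmono (h.wW_atom (.inl (role_al_iff.2 hl)) hv).2.1 fun l' hl' => t l l' s hl hl'.1 hl'.2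
  | sg s hl =>
    have t : ∀ (l l' : Lab) s, l.role = .be s → l'.1 = true → l'.2.succ = (l.chl (.be s)).2 →
        l' = (true, .z0 l.2.up) := by decide +kernel
    change Q.le (Q.tgt (A.nap _ v)) _
    rw [nap_S, jW, jI, run_app, (h.wI_atom (.inl hl) hv).2.2]
    exact nmono (h.wW_atom (.inr hl) hv).2.1 fun l' hl' => t l l' s hl hl'.1 hl'.2

end Vale.Agent.P196.LS
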