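import Mathlib

/-! The finite tables of the subdivision rule. -/

namespace Vale.Agent.P196

inductive Role | al | be (s : Bool) | ga (s : Bool)
  deriving DecidableEq, Fintype

inductive Dart | aF (s : Bool) | bA (s : Bool) | bF (s t : Bool) | gA (s t : Bool) | gF (s t : Bool)
  deriving DecidableEq, Fintype

namespace Dart

def role : Dart → Role
  | aF _ => .al | bA s => .be s | bF s _ => .be s | gA s _ => .ga s | gF s _ => .ga s

def side : Dart → Bool
  | aF s => s | bA s => !s | bF _ t => t | gA _ t => t | gF _ t => t

def kF : Dart → Bool
  | aF _ => true | bA _ => false | bF _ _ => true | gA _ _ => false | gF _ _ => true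

def opp : Dart → Dart
  | aF s => bA s
  | bA s => aF s
  | bF s t => if s = t then gA s (!s) else bF (!s) s
  | gA s t => if s = t then gA (!s) (!s) else bF s s
  | gF s t => if s = t then gF (!s) (!s) else gF (!s) s

def top : Dart → Dart
  | aF s => aF (!s)
  | bA s => bA (!s)
  | bF s t => bF s (!t)
  | gA s t => gA (!s) (!t)
  | gF s t => gF s (!t)

/-- Half the valence of the junction at the end of the line. -/
def jm : Dart → ℕ
  | aF _ => 2 | bA _ => 2 | bF _ _ => 3 | gF _ _ => 2
  | gA s t => if s = t then 1 else 3

end Dart

def Role.Fd : Role → Bool → Dart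
  | .al, t => .aF t | .be s, t => .bF s t | .ga s, t => .gF s t

/-- Tip class: line and position class (`z1` only on lines of kind F). -/
inductive Th | z0 (η : Dart) | z1 (ρ : Role) (s : Bool) | z2 (η : Dart)
  deriving DecidableEq, Fintype

namespace Th

def η : Th → Dart
  | z0 e => e | z1 ρ s => ρ.Fd s | z2 e => e

def isZ0 : Th → Bool
  | z0 _ => true | _ => false

def isZ1 : Th → Bool
  | z1 _ _ => true | _ => false

def side (t : Th) : Bool := t.η.side

/-- The class at position one on the line `e`. -/
def one (e : Dart) : Th := if e.kF then z1 e.role e.side else z2 e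

def succ : Th → Th
  | z0 e => one e | z1 ρ s => z2 (ρ.Fd s) | z2 e => z2 e

def fr (t : Th) : Role := if t.η.kF && t.isZ0 then .ga t.side else .be t.side

def up : Th → Dart
  | z0 e => if e.kF then .gA e.side e.side else e.role.Fd e.side
  | z1 _ s => .bF s s
  | z2 e => .aF e.side

def low (t : Th) : Dart := if t.η.kF && t.isZ0 then .gA t.side (!t.side) else .bA t.side

def dA (s : Bool) (t : Th) : Dart := if s = t.side then t.up else t.low

/-- Possible tip classes across the tip. -/
def RT (t t' : Th) : Prop :=
  t'.η = t.η.opp ∧ t'.isZ0 = t.isZ0 ∧ (t.η.kF = true → t'.η.kF = true → t'.isZ1 = t.isZ1)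

instance (t t' : Th) : Decidable (RT t t') := by unfold RT; infer_instance

end Th

/-- A label: whether the tile is not an `al` child, and its tip class. -/
abbrev Lab := Bool × Th

namespace Lab

def role (l : Lab) : Role := if l.1 then l.2.fr else .al

/-- The role of the parent, read off a `be` child. -/
def upRole (l : Lab) : Role :=
  match l.2 with
  | .z0 e => e.role
  | .z1 _ s => .be s
  | .z2 _ => .al

/-- The label of the child with role `r`. -/
def chl (r : Role) (l : Lab) : Lab :=
  match r with
  | .al => (false, l.2)
  | .be s => (true, if l.role = .al then .z2 (l.2.dA s) else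
      if l.role = .be s then Th.one (l.2.dA s) else .z0 (l.2.dA s))
  | .ga s => (true, .z0 (l.role.Fd s))

def RT (l l' : Lab) : Prop := l'.1 = l.1 ∧ l.2.RT l'.2

/-- Possible labels across the side `A s`. -/
def RX (s : Bool) (l l' : Lab) : Prop :=
  if l.2.side = s then
    (if l.2.isZ0 then l' = (l.1, .z0 l.2.η.top) else l'.1 = false ∧ l'.2.succ = l.2)
  else l'.2 = l.2.succ

instance (l l' : Lab) : Decidable (RT l l') := by unfold RT; infer_instance
instance (s : Bool) (l l' : Lab) : Decidable (RX s l l') := by unfold RX; infer_instance

end Lab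

/-- Letters: cross the tip, cross the side `A s`, change of role among siblings. -/
inductive Op | T | X (s : Bool) | S (r r' : Role)
  deriving DecidableEq, Fintype

namespace Op

def ok : Op → Role → Bool
  | T, _ => true
  | X _, .al => true
  | X s, .be t => s == t
  | X s, .ga t => s == t
  | S r _, r' => r == r'

def inv : Op → Op
  | T => T | X s => X (!s) | S r r' => S r' r

def isS : Op → Bool
  | S _ _ => true | _ => false

/-- Crossing the side `F s` of a tile with role `ρ`: is an `A` side entered, and the letter. -/
def crossF (s : Bool) : Role → Bool × Op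
  | .al => (true, S .al (.be s))
  | .be t => if t = s then (true, S (.be t) (.ga s)) else (false, S (.be t) (.be s))
  | .ga t => (false, S (.ga t) (.ga (!t)))

/-- Crossing the side `A s` of a tile with role `ρ`. -/
def crossA (s : Bool) : Role → Bool × Op
  | .al => (true, X s)
  | .be t => if t = s then (true, X s) else (false, S (.be t) .al)
  | .ga t => if t = s then (true, X s) else (false, S (.ga t) (.be t))

/-- The letter `o` at a child of role `r` of a tile of role `ρ`: new role and letter one level up. -/
def cr (o : Op) (r ρ : Role) : Role × Op :=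
  match o, r with
  | S _ r', _ => (r', S ρ ρ)
  | T, .al => (.al, T)
  | T, .be s => (if (crossA s ρ).1 then .be (!s) else .ga (!s), (crossA s ρ).2)
  | T, .ga s => (if (crossF s ρ).1 then .be (!s) else .ga (!s), (crossF s ρ).2)
  | X s, .al => (if (crossA s ρ).1 then .al else .be (!s), (crossA s ρ).2)
  | X s, .be _ => (if (crossF s ρ).1 then .al else .be (!s), (crossF s ρ).2)
  | X s, .ga _ => (.ga (!s), S ρ ρ)

/-- The labels at which the letter is defined. -/
def dom (o : Op) : Set Lab := {l | o.ok l.role = true}

end Op

/-- Labels with a given role. -/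
def roleS (r : Role) : Set Lab := {l | l.role = r}

/-- The sibling across the lower `A` side of a tile whose role is not `al`. -/
def Role.fA : Role → Role
  | .ga s => .be s | _ => .al

/-- Running a word (left to right). -/
def run {α : Type*} (ap : Op → α → α) (l : List Op) (x : α) : α :=
  l.foldl (fun x o => ap o x) x

/-- The inverse word (words are read left to right). -/
def invW (l : List Op) : List Op := (l.map Op.inv).reverse

/-- The word going once around a junction, started on side `s`. -/
def jw (s : Bool) (m : ℕ) : List Op := (List.replicate m [Op.T, Op.X (!s)]).flatten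

/-- The word at the lower level realising a letter of the upper level. -/
def Op.exp : Op → List Op
  | .T => [.T]
  | .X s => [.X s]
  | .S r r' =>
    (match r with
      | .al => []
      | .be s => [.X (!s), .S (.be s) .al]
      | .ga s => [.X (!s), .S (.be s) .al, .X (!s), .S (.be s) .al]) ++
    (match r' with
      | .al => []
      | .be s => [.S .al (.be s), .X s]
      | .ga s => [.S .al (.be s), .X s, .S .al (.be s), .X s])

/-- Mapping axioms: from label `l`, the word leads into the set. -/
inductive AxM : Lab → List Op → Set Lab → Prop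
  | cod (l o) : l ∈ o.dom → AxM l [o] o.inv.dom
  | rT (l) : AxM l [.T] {l' | l.RT l'}
  | rX (l s) : l ∈ (Op.X s).dom → AxM l [.X s] {l' | l.RX s l'}
  | sb (l s) : l.1 = false → AxM l [.S .al (.be s)] {l' | l'.role = .be s ∧ l'.2.η = l.2.dA s}
  | sg (l s) : l.role = .be s → AxM l [.S (.be s) (.ga s)] {(true, .z0 l.2.up)}

/-- Equational axioms: from label `l`, the two words agree. -/
inductive AxE : Lab → List Op → List Op → Prop
  | inv (l o) : l ∈ o.dom → AxE l [o, o.inv] []
  | sid (l : Lab) : AxE l [.S l.role l.role] []
  | scomp (l : Lab) (r' r'') : AxE l [.S l.role r', .S r' r''] [.S l.role r'']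
  | sq (l : Lab) : l.2.isZ0 = false → AxE l [.X l.2.side, .T] [.T, .X (!l.2.side)]
  | jn (l : Lab) : l.2.isZ0 = true → AxE l (jw l.2.side l.2.η.jm) []
  | v (l : Lab) (r) : l.1 = true → (∀ l', l.RT l' → l'.role = r) →
      AxE l [.T, .S r r.fA] [.S l.role l.role.fA, .X l.2.side]
  | k (l : Lab) (s) : l.1 = false → AxE l [.S .al (.ga s), .X s] [.S .al (.ga (!s))]

end Vale.Agent.P196
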