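import Vale.Agent.P196.Model
import Vale.Agent.P196.QL

/-! Level structures and towers. Definitions. -/

namespace Vale.Agent.P196

/-- A level structure in a `QL`. -/
structure LS (Q : QL) where
  ρ : Q.PVM Lab
  ap : Op → Q.W → Q.W
  isOp : ∀ o, Q.IsOp (ρ.ρ o.dom) (ap o)
  axM : ∀ {l w S}, AxM l w S → ∀ v, Q.le (Q.tgt v) (ρ.ρ {l}) → Q.le (Q.tgt (run ap w v)) (ρ.ρ S)
  axE : ∀ {l w w'}, AxE l w w' → ∀ v, Q.le (Q.tgt v) (ρ.ρ {l}) → run ap w v = run ap w' v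

def LS.Sat {Q : QL} (A : LS Q) (S : Set Lab) (v : Q.W) : Prop := Q.le (Q.tgt v) (A.ρ.ρ S)

/-- `B` is the level above `A`. -/
structure LS.Link {Q : QL} (A B : LS Q) : Prop where
  apT : B.ap .T = A.ap .T
  apX : ∀ s, B.ap (.X s) = A.ap (.X s)
  tot : B.ρ.ρ Set.univ = A.ρ.ρ (roleS .al)
  chl : ∀ r l v, B.Sat {l} v → A.Sat {l.chl r} (A.ap (.S .al r) v)
  cr : ∀ o r l v, o.ok r = true → B.Sat {l} v → A.ap o (A.ap (.S .al r) v) =
    A.ap (.S .al (o.cr r l.role).1) (B.ap (o.cr r l.role).2 v)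
  low : ∀ l v, B.Sat {l} v → A.Sat {(l.1, l.2.succ)} (A.ap (.X (!l.2.side)) v)
  up : ∀ l v, l.2.isZ0 = false → A.Sat {l} v →
    B.Sat {l' | l'.1 = l.1 ∧ l'.2.succ = l.2} (A.ap (.X l.2.side) v)

/-- An abstract tower of levels; instantiated by the true model and by a `QL`. -/
structure Tower (W : Type) where
  Sat : ℕ → Set Lab → W → Prop
  ap : ℕ → Op → W → W
  Orth : W → W → Prop
  mono : ∀ {k S S' w}, S ⊆ S' → Sat k S w → Sat k S' w
  inter : ∀ {k S S' w}, Sat k S w → Sat k S' w → Sat k (S ∩ S') w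
  apT : ∀ k, ap k .T = ap 0 .T
  apX : ∀ k s, ap k (.X s) = ap 0 (.X s)
  orth_symm : ∀ {w w'}, Orth w w' → Orth w' w
  orth_sat : ∀ {k S S' w w'}, Disjoint S S' → Sat k S w → Sat k S' w' → Orth w w'
  orth_ap : ∀ {k o w w'}, Sat k o.dom w → Sat k o.dom w' → Orth w w' → Orth (ap k o w) (ap k o w')
  cod : ∀ {k o w}, Sat k o.dom w → Sat k o.inv.dom (ap k o w)
  inv : ∀ {k o w}, Sat k o.dom w → ap k o.inv (ap k o w) = w
  sid : ∀ {k r w}, Sat k (roleS r) w → ap k (.S r r) w = w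
  scomp : ∀ {k r r' r'' w}, Sat k (roleS r) w →
    ap k (.S r' r'') (ap k (.S r r') w) = ap k (.S r r'') w
  rT : ∀ {k S w}, Sat k S w → Sat k {l' | ∃ l ∈ S, l.RT l'} (ap k .T w)
  rX : ∀ {k S s w}, S ⊆ (Op.X s).dom → Sat k S w → Sat k {l' | ∃ l ∈ S, l.RX s l'} (ap k (.X s) w)
  sq : ∀ {k s w}, Sat k {l | l.2.side = s ∧ l.2.isZ0 = false} w →
    ap k .T (ap k (.X s) w) = ap k (.X (!s)) (ap k .T w)
  jn : ∀ {k η w}, Sat k {l | l.2 = .z0 η} w → run (ap k) (jw η.side η.jm) w = w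
  tot : ∀ {k w}, Sat (k + 1) Set.univ w ↔ Sat k (roleS .al) w
  chl : ∀ {k r S w}, Sat (k + 1) S w → Sat k (Lab.chl r '' S) (ap k (.S .al r) w)
  cr : ∀ {k o r ρ w}, o.ok r = true → Sat (k + 1) (roleS ρ) w → ap k o (ap k (.S .al r) w) =
    ap k (.S .al (o.cr r ρ).1) (ap (k + 1) (o.cr r ρ).2 w)
  low : ∀ {k S s w}, (∀ l ∈ S, l.2.side = s) → Sat (k + 1) S w →
    Sat k ((fun l : Lab => (l.1, l.2.succ)) '' S) (ap k (.X (!s)) w)
  up : ∀ {k S s w}, (∀ l ∈ S, l.2.side = s ∧ l.2.isZ0 = false) → Sat k S w →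
    Sat (k + 1) {l' | (l'.1, l'.2.succ) ∈ S} (ap k (.X s) w)

/-- A thick descriptor: lower bounds (exact if the flag is set) for `c` and `d`, and the line. -/
structure TD where
  c : ℕ
  ec : Bool
  η : Dart
  d : ℕ
  ed : Bool

def TD.set (D : TD) : Set Lab :=
  {l | l.2.η = D.η ∧ (D.ec = true → l.1 = true) ∧ (D.ed = true → l.2.isZ0 = true)}

/-- The canonical descriptor of depth `n`. -/
noncomputable def TD.can (n : ℕ) (E : Dat) : TD :=
  ⟨(min E.c n).toNat, decide (E.c < n), E.η, (min E.d n).toNat, decide (E.d < n)⟩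

namespace Tower

variable {W : Type} (𝕋 : Tower W)

def Thick (k : ℕ) (D : TD) (w : W) : Prop :=
  ∃ u, 𝕋.Sat (k + D.d + D.c) D.set u ∧ w = (𝕋.ap 0 (.X (!D.η.side)))^[D.d] u

/-- The generalized point `w` of level `k` looks like `p` for `m` levels and depth `n`. -/
def SatP : ℕ → ℕ → ℕ → X → W → Prop
  | k, 0, n, p, w => 𝕋.Thick k (TD.can n p.dat) w
  | k, m + 1, n, p, w => ∃ v, SatP (k + 1) m n p.par v ∧ w = 𝕋.ap k (.S .al p.role) v

/-- Go down `j` levels along the address of `p`. -/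
def down : ℕ → ℕ → X → W → W
  | _, 0, _, v => v
  | k, j + 1, p, v => 𝕋.ap k (.S .al p.role) (down (k + 1) j p.par v)

/-- Validity of a word at a generalized point. -/
def Valid (k : ℕ) : List Op → W → Prop
  | [], _ => True
  | o :: l, w => 𝕋.Sat k o.dom w ∧ Valid k l (𝕋.ap k o w)

end Tower

/-- Two words agree near `p` in every tower. -/
def Rw (p : X) (l l' : List Op) : Prop :=
  ∀ (W : Type) (𝕋 : Tower W) (k : ℕ), ∃ N, ∀ v, 𝕋.SatP k N N p v →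
    run (𝕋.ap k) l v = run (𝕋.ap k) l' v

end Vale.Agent.P196
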