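import Vale.Agent.P196.Tower
import Vale.Agent.P196.ModelBasic

/-! Tracking of generalized points in a tower. -/

namespace Vale.Agent.P196.Tower

open X

variable {W : Type} {𝕋 : Tower W} {k m n m' n' : ℕ} {p p' : X} {w w' : W} {D : TD}

theorem tk_al {S : Set Lab} (h : 𝕋.Sat (k + 1) S w) : 𝕋.Sat k (roleS .al) w :=
  𝕋.tot.1 (𝕋.mono (Set.subset_univ _) h)

theorem tk_domX {S : Set Lab} (h : 𝕋.Sat (k + 1) S w) (s : Bool) : 𝕋.Sat k (Op.X s).dom w :=
  𝕋.mono (fun l hl => by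
    have hl' : l.role = .al := hl
    simp only [Op.dom, Set.mem_ofPred_eq, hl', Op.ok]) (tk_al h)

theorem tk_incl {P : Th → Prop} (h : 𝕋.Sat (k + 1) {l | P l.2} w) :
    𝕋.Sat k {l | l.1 = false ∧ P l.2} w := by
  have h1 := 𝕋.chl (r := .al) h
  rw [𝕋.sid (tk_al h)] at h1
  refine 𝕋.mono ?_ h1
  rintro _ ⟨l, hl, rfl⟩
  exact ⟨rfl, hl⟩

theorem tk_incls {P : Th → Prop} (c : ℕ) (h : 𝕋.Sat (k + c) {l | P l.2} w) :
    𝕋.Sat k {l | P l.2} w := by
  induction c with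
  | zero => exact h
  | succ c ih => exact ih (𝕋.mono (fun _ hl => hl.2) (tk_incl h))

theorem tk_incls' {P : Th → Prop} {a a' : ℕ} (ha : a < a') (h : 𝕋.Sat (k + a') {l | P l.2} w) :
    𝕋.Sat (k + a) {l | l.1 = false ∧ P l.2} w := by
  obtain ⟨e, rfl⟩ := Nat.exists_eq_add_of_lt ha
  exact tk_incl (tk_incls e (by rwa [show k + a + 1 + e = k + (a + e + 1) by omega]))

theorem tk_succ_η (t : Th) : t.succ.η = t.η := by revert t; decide

theorem tk_succs_η (d : ℕ) (t : Th) : (Th.succ^[d] t).η = t.η := by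
  induction d with
  | zero => rfl
  | succ d ih => rw [Function.iterate_succ_apply', tk_succ_η, ih]

theorem tk_lows {η : Dart} {Q : Bool → Prop} {P : Th → Prop} (d : ℕ) {u : W}
    (h : 𝕋.Sat (k + d) {l | l.2.η = η ∧ Q l.1 ∧ P l.2} u) :
    𝕋.Sat k {l | l.2.η = η ∧ Q l.1 ∧ ∃ t, t.η = η ∧ P t ∧ Th.succ^[d] t = l.2}
      ((𝕋.ap 0 (.X (!η.side)))^[d] u) := by
  induction d generalizing k with
  | zero => exact 𝕋.mono (fun l hl => ⟨hl.1, hl.2.1, l.2, hl.1, hl.2.2, rfl⟩) h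
  | succ d ih =>
    have h1 := 𝕋.low (s := η.side) (fun l hl => congrArg Dart.side hl.1)
      (ih (k := k + 1) (by rwa [show k + 1 + d = k + (d + 1) by omega]))
    rw [𝕋.apX] at h1
    rw [Function.iterate_succ_apply']
    refine 𝕋.mono ?_ h1
    rintro _ ⟨l, ⟨h2, h3, t, h4, h5, h6⟩, rfl⟩
    exact ⟨(tk_succ_η _).trans h2, h3, t, h4, h5, by rw [Function.iterate_succ_apply', h6]⟩

theorem tk_lows' {η : Dart} (d : ℕ) {u : W} (h : 𝕋.Sat (k + d) {l | l.2.η = η} u) :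
    𝕋.Sat k {l | l.2.η = η} ((𝕋.ap 0 (.X (!η.side)))^[d] u) :=
  𝕋.mono (fun _ hl => hl.1) (tk_lows (Q := fun _ => True) (P := fun _ => True) d
    (𝕋.mono (fun _ hl => ⟨hl, trivial, trivial⟩) h))

theorem Thick.satc (h : 𝕋.Thick k D w) : 𝕋.Sat (k + D.c) {l | l.2.η = D.η ∧
    (D.ec = true → l.1 = true) ∧ ∃ t, t.η = D.η ∧ (D.ed = true → t.isZ0 = true) ∧
      Th.succ^[D.d] t = l.2} w := by
  obtain ⟨u, hu, rfl⟩ := h
  exact tk_lows (Q := fun f => D.ec = true → f = true) (P := fun t => D.ed = true → t.isZ0 = true)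
    D.d (by rwa [Nat.add_right_comm])

theorem Thick.sat (h : 𝕋.Thick k D w) : 𝕋.Sat k {l | l.2.η = D.η} w :=
  tk_incls (P := fun t => t.η = D.η) D.c (𝕋.mono (fun _ hl => hl.1) h.satc)

/-- Forget part of the information on `c`. -/
theorem Thick.weak_c (h : 𝕋.Thick k D w) {c : ℕ} (hc : c ≤ D.c) :
    𝕋.Thick k { D with c := c, ec := false } w := by
  obtain ⟨u, hu, rfl⟩ := h
  obtain ⟨e, he⟩ := Nat.exists_eq_add_of_le hc
  rw [he, ← Nat.add_assoc] at hu
  exact ⟨u, 𝕋.mono (fun l hl => ⟨hl.1, fun h => absurd h (by simp), hl.2⟩)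
    (tk_incls (P := fun t => t.η = D.η ∧ (D.ed = true → t.isZ0 = true)) e
      (𝕋.mono (fun l hl => ⟨hl.1, hl.2.2⟩) hu)), rfl⟩

/-- Forget part of the information on `d`. -/
theorem Thick.weak_d (h : 𝕋.Thick k D w) {d : ℕ} (hd : d ≤ D.d) :
    𝕋.Thick k { D with d := d, ed := false } w := by
  obtain ⟨u, hu, rfl⟩ := h
  obtain ⟨e, he⟩ := Nat.exists_eq_add_of_le hd
  rw [he, show k + (d + e) + D.c = k + d + D.c + e by omega] at hu
  refine ⟨_, 𝕋.mono (fun l hl => ⟨hl.1, hl.2.1, fun h => absurd h (by simp)⟩)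
    (tk_lows (Q := fun f => D.ec = true → f = true) (P := fun t => D.ed = true → t.isZ0 = true)
      e hu), ?_⟩
  rw [he, Function.iterate_add_apply]

/-- `a`, `e` describe `x` up to depth `n`. -/
def TkFit (n : ℕ) (x : ℕ∞) (a : ℕ) (e : Bool) : Prop :=
  (x < n → (a : ℕ∞) = x ∧ e = true) ∧ ((n : ℕ∞) ≤ x → n ≤ a)

theorem tk_min_lt {x : ℕ∞} (h : x < n) : (((min x n).toNat : ℕ) : ℕ∞) = x := by
  rw [min_eq_left h.le, ENat.natCast_toNat h.ne_top]

theorem tk_min_ge {x : ℕ∞} (h : (n : ℕ∞) ≤ x) : (min x n).toNat = n := by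
  rw [min_eq_right h, ENat.toNat_natCast]

theorem tkFit_can (n : ℕ) (x : ℕ∞) : TkFit n x (min x n).toNat (decide (x < n)) :=
  ⟨fun h => ⟨tk_min_lt h, decide_eq_true h⟩, fun h => (tk_min_ge h).ge⟩

theorem TkFit.mono {x : ℕ∞} {a : ℕ} {e : Bool} (h : TkFit n' x a e) (hn : n ≤ n') :
    TkFit n x a e := by
  refine ⟨fun hx => h.1 (hx.trans_le (by exact_mod_cast hn)), fun hx => ?_⟩
  rcases lt_or_ge x n' with h1 | h1
  · rw [← (h.1 h1).1] at hx
    exact_mod_cast hx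
  · exact hn.trans (h.2 h1)

theorem TkFit.succ {x : ℕ∞} {a : ℕ} {e : Bool} (h : TkFit n x a e) :
    TkFit n (x + 1) (a + 1) e := by
  rcases lt_or_ge x n with h1 | h1
  · obtain ⟨rfl, h2⟩ := h.1 h1
    exact ⟨fun _ => ⟨by push_cast; rfl, h2⟩, fun h3 => by exact_mod_cast h3⟩
  · exact ⟨fun h3 => absurd (h1.trans le_self_add) (not_le.2 h3),
      fun _ => (h.2 h1).trans (Nat.le_succ a)⟩

theorem TkFit.pred {x : ℕ∞} {a : ℕ} {e : Bool} (h : TkFit (n + 1) x (a + 1) e) :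
    TkFit n (x - 1) a e := by
  rcases lt_or_ge x (n + 1 : ℕ) with h1 | h1
  · obtain ⟨rfl, h2⟩ := h.1 h1
    have : ((a + 1 : ℕ) : ℕ∞) - 1 = a := by push_cast; exact Dat.enat_add_sub _
    rw [this]
    exact ⟨fun _ => ⟨rfl, h2⟩, fun h3 => by exact_mod_cast h3⟩
  · refine ⟨fun h3 => absurd h1 (not_le.2 ?_), fun _ => Nat.le_of_succ_le_succ (h.2 h1)⟩
    induction x using ENat.recTopCoe with
    | top => simp at h3
    | coe x => norm_cast at h3 ⊢; omega

theorem TkFit.pos {x : ℕ∞} {a : ℕ} {e : Bool} (h : TkFit (n + 1) x a e) (hx : x ≠ 0) :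
    ∃ b, a = b + 1 := by
  refine Nat.exists_eq_succ_of_ne_zero ?_
  rintro rfl
  rcases lt_or_ge x (n + 1 : ℕ) with h1 | h1
  · exact hx (h.1 h1).1.symm
  · exact absurd (h.2 h1) (by omega)

theorem Thick.can {E : Dat} (h : 𝕋.Thick k D w) (hc : TkFit n E.c D.c D.ec) (hη : D.η = E.η)
    (hd : TkFit n E.d D.d D.ed) : 𝕋.Thick k (TD.can n E) w := by
  obtain ⟨c, ec, η, d, ed⟩ := D
  obtain rfl : η = E.η := hη
  have h1 : 𝕋.Thick k ⟨(min E.c n).toNat, decide (E.c < n), E.η, d, ed⟩ w := by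
    rcases lt_or_ge E.c n with h2 | h2
    · obtain ⟨h3, h4⟩ := hc.1 h2
      have h5 : (min E.c n).toNat = c := by exact_mod_cast (tk_min_lt h2).trans h3.symm
      rw [h5, decide_eq_true h2, ← show ec = true from h4]
      exact h
    · rw [tk_min_ge h2, decide_eq_false (not_lt.2 h2)]
      exact h.weak_c (hc.2 h2)
  unfold TD.can
  rcases lt_or_ge E.d n with h2 | h2
  · obtain ⟨h3, h4⟩ := hd.1 h2
    have h5 : (min E.d n).toNat = d := by exact_mod_cast (tk_min_lt h2).trans h3.symm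
    rw [h5, decide_eq_true h2, ← show ed = true from h4]
    exact h1
  · rw [tk_min_ge h2, decide_eq_false (not_lt.2 h2)]
    exact h1.weak_d (hd.2 h2)

theorem tk_can_mono {E : Dat} (h : 𝕋.Thick k (TD.can n' E) w) (hn : n ≤ n') :
    𝕋.Thick k (TD.can n E) w :=
  h.can ((tkFit_can _ _).mono hn) rfl ((tkFit_can _ _).mono hn)

theorem tk_th_nat (c : ℕ∞) (η : Dart) (d : ℕ) : Th.succ^[d] (.z0 η) = Dat.th ⟨c, η, d⟩ := by
  induction d with
  | zero => simp [Dat.th]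
  | succ d ih =>
    rw [Function.iterate_succ_apply', ih, ← Dat.th_add_one c c]
    rfl

theorem tk_th_ge {d : ℕ} (hd : 2 ≤ d) (t : Th) : Th.succ^[d] t = .z2 t.η := by
  obtain ⟨e, rfl⟩ := Nat.exists_eq_add_of_le hd
  have key : ∀ t : Th, t.succ.succ = .z2 t.η := by decide
  rw [Function.iterate_add_apply, ← tk_succs_η e t]
  exact key _

/-- The tip class is known `c` levels up. -/
theorem tk_can_th {E : Dat} (h : 𝕋.Thick k (TD.can n E) w) (h2 : 2 ≤ n) :
    𝕋.Sat (k + (min E.c n).toNat) {l | (E.c < n → l.1 = true) ∧ l.2 = E.th} w := by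
  refine 𝕋.mono ?_ h.satc
  rintro l ⟨-, h3, t, h4, h5, h6⟩
  refine ⟨fun hc => h3 (decide_eq_true hc), h6.symm.trans ?_⟩
  obtain ⟨c, η, d⟩ := E
  simp only [TD.can] at h4 h5 ⊢
  rcases lt_or_ge d n with hd | hd
  · have key : ∀ t : Th, t.isZ0 = true → t = .z0 t.η := by decide
    rw [key t (h5 (decide_eq_true hd)), h4, tk_th_nat c, tk_min_lt hd]
  · have h7 : (2 : ℕ∞) ≤ d := le_trans (by exact_mod_cast h2) hd
    rw [tk_min_ge hd, tk_th_ge h2, h4, Dat.th, if_neg, if_neg]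
    · rintro (rfl : d = 1)
      exact absurd h7 (by decide)
    · rintro (rfl : d = 0)
      exact absurd h7 (by decide)

theorem tk_can_lab {E : Dat} (h : 𝕋.Thick k (TD.can n E) w) (h2 : 2 ≤ n) :
    𝕋.Sat k {E.lab} w := by
  have h1 := tk_can_th h h2
  by_cases hc : E.c = 0
  · rw [hc] at h1
    refine 𝕋.mono ?_ (show 𝕋.Sat k _ w by simpa using h1)
    rintro ⟨f, t⟩ ⟨h3, h4⟩
    simp only [Dat.lab, hc, decide_true, Set.mem_singleton_iff, Prod.mk.injEq]
    exact ⟨h3 (by omega), h4⟩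
  · obtain ⟨n, rfl⟩ : ∃ j, n = j + 1 := ⟨n - 1, by omega⟩
    obtain ⟨b, hb⟩ := (tkFit_can (n + 1) E.c).pos hc
    rw [hb] at h1
    refine 𝕋.mono ?_ (tk_incls' (a := 0) (P := fun t => t = E.th) b.succ_pos
      (𝕋.mono (fun _ hl => hl.2) h1))
    rintro ⟨f, t⟩ ⟨h3, h4⟩
    simp only [Dat.lab, hc, decide_false, Set.mem_singleton_iff, Prod.mk.injEq]
    exact ⟨h3, h4⟩

theorem tk_role {S : Set Lab} (h : 𝕋.Sat (k + 1) S w) (r : Role) :
    𝕋.Sat k (roleS r) (𝕋.ap k (.S .al r) w) := by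
  refine 𝕋.mono ?_ (𝕋.chl h)
  rintro _ ⟨l, -, rfl⟩
  have key : ∀ (r : Role) (l : Lab), (l.chl r).role = r := by decide
  exact key r l

theorem tk_be (s : Bool) (j : ℕ) {S : Set Lab} (h : 𝕋.Sat (k + j + 1) S w) :
    𝕋.ap k (.S .al (.be s)) w =
      (𝕋.ap 0 (.X (!s)))^[j] (𝕋.ap (k + j) (.S .al (.be s)) w) := by
  induction j generalizing S with
  | zero => rfl
  | succ j ih =>
    have h1 : 𝕋.Sat (k + j + 1) (roleS .al) w := tk_al h
    have h2 := 𝕋.cr (o := .X s) (r := .be s) (by simp [Op.ok]) h1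
    simp only [Op.cr, Op.crossF, if_true] at h2
    rw [𝕋.sid (k := k + j) (tk_al (tk_role (k := k + j + 1) h _))] at h2
    have h3 := 𝕋.inv (o := .X s) (𝕋.mono (fun l hl => by
      have hl' : l.role = .be s := hl
      simp [Op.dom, hl', Op.ok]) (tk_role h1 (.be s)))
    rw [h2, Op.inv, 𝕋.apX] at h3
    rw [ih h1, Function.iterate_succ_apply, ← h3]
    rfl

theorem tk_ch {E : Dat} (h : 𝕋.Thick (k + 1) (TD.can n E) w) (h2 : 2 ≤ n) (r : Role) :
    𝕋.Thick k (TD.can n (E.ch r)) (𝕋.ap k (.S .al r) w) := by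
  have hz : TkFit n 0 0 true := ⟨fun _ => ⟨rfl, rfl⟩, fun h => by exact_mod_cast h⟩
  cases r with
  | al =>
    rw [𝕋.sid (tk_al h.sat)]
    obtain ⟨u, hu, rfl⟩ := h
    refine Thick.can (D := { TD.can n E with c := (TD.can n E).c + 1 }) ⟨u, ?_, rfl⟩
      (tkFit_can _ _).succ rfl (tkFit_can _ _)
    rwa [show k + 1 + (TD.can n E).d + (TD.can n E).c =
      k + (TD.can n E).d + ((TD.can n E).c + 1) by omega] at hu
  | ga s =>
    refine Thick.can (D := ⟨0, true, E.role.Fd s, 0, true⟩) ⟨_, ?_, rfl⟩ hz rfl hz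
    refine 𝕋.mono ?_ (𝕋.chl (tk_can_lab h h2))
    rintro _ ⟨l, rfl, rfl⟩
    exact ⟨rfl, fun _ => rfl, fun _ => rfl⟩
  | be s =>
    have h1 := tk_can_th h h2
    rw [Nat.add_right_comm] at h1
    have h3 := 𝕋.chl (r := .be s) h1
    have key : ∀ (s f : Bool) (t : Th), (t.dA s).side = s ∧
        (Lab.chl (.be s) (f, t)).1 = true ∧ (Lab.chl (.be s) (f, t)).2.η = t.dA s ∧
        (t.fr ≠ .be s → (Lab.chl (.be s) (true, t)).2.isZ0 = true) ∧
        (t.fr = .be s → (Lab.chl (.be s) (true, t)).2.isZ0 = false ∧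
          (Lab.chl (.be s) (true, t)).role = .be s ∧
          ∀ t' : Th, t'.succ = (Lab.chl (.be s) (true, t)).2 → t'.isZ0 = true) := by decide
    have hs := (key s true E.th).1
    rw [tk_be s _ h1]
    rcases lt_or_ge E.c n with hc | hc
    · have h4 : 𝕋.Sat (k + (min E.c n).toNat) {Lab.chl (.be s) (true, E.th)} _ :=
        𝕋.mono (by
          rintro _ ⟨⟨f, t⟩, ⟨h5, h6⟩, rfl⟩
          obtain rfl : f = true := h5 hc
          obtain rfl : t = E.th := h6
          rfl) h3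
      by_cases hf : E.th.fr = .be s
      · obtain ⟨h5, h6, h7⟩ := (key s true E.th).2.2.2.2 hf
        have h8 := 𝕋.up (s := s) (by
          rintro _ rfl
          exact ⟨(congrArg Dart.side (key s true E.th).2.2.1).trans hs, h5⟩) h4
        have h9 := 𝕋.inv (o := .X s) (𝕋.mono (by
          rintro _ rfl
          simp [Op.dom, h6, Op.ok]) h4)
        rw [Op.inv, 𝕋.apX] at h9
        refine Thick.can (D := ⟨0, true, E.th.dA s, (min E.c n).toNat + 1, true⟩)
          ⟨_, 𝕋.mono ?_ h8, ?_⟩ hz rfl ?_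
        · rintro ⟨f, t⟩ hl
          obtain ⟨a1, a2⟩ := Prod.ext_iff.1 hl
          exact ⟨((tk_succ_η t).symm.trans (congrArg Th.η a2)).trans (key s true E.th).2.2.1,
            fun _ => a1, fun _ => h7 t a2⟩
        · simp only [hs]
          rw [Function.iterate_succ_apply, h9]
        · have := (tkFit_can n E.c).succ
          rw [decide_eq_true hc] at this
          simpa only [Dat.ch, hf, if_true] using this
      · refine Thick.can (D := ⟨0, true, E.th.dA s, (min E.c n).toNat, true⟩)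
          ⟨_, 𝕋.mono ?_ h4, by simp only [hs]⟩ hz rfl ?_
        · rintro _ rfl
          exact ⟨(key s true E.th).2.2.1, fun _ => rfl, fun _ => (key s true E.th).2.2.2.1 hf⟩
        · have := tkFit_can n E.c
          rw [decide_eq_true hc] at this
          simpa only [Dat.ch, hf, if_false, add_zero] using this
    · refine Thick.can (D := ⟨0, true, E.th.dA s, (min E.c n).toNat, false⟩)
        ⟨_, 𝕋.mono ?_ h3, by simp only [hs]⟩ hz rfl
        ⟨fun h5 => absurd (hc.trans le_self_add) (not_le.2 h5), fun _ => (tk_min_ge hc).ge⟩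
      rintro _ ⟨⟨f, t⟩, ⟨-, h6⟩, rfl⟩
      obtain rfl : t = E.th := h6
      exact ⟨(key s f E.th).2.2.1, fun _ => rfl, fun h => absurd h (by simp)⟩

theorem tk_can_tr {E E' : Dat} (h : E.tr n = E'.tr n) : TD.can n E = TD.can n E' := by
  have key : ∀ x y : ℕ∞, min x n = min y n → (x < n ↔ y < n) := fun x y h => by
    have : ∀ z : ℕ∞, z < n ↔ min z n < n := fun z => by simp
    rw [this x, this y, h]
  have h1 : min E.c n = min E'.c n := congrArg Dat.c h
  have h2 : E.η = E'.η := (congrArg Dat.η h :)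
  have h3 : min E.d n = min E'.d n := congrArg Dat.d h
  simp only [TD.can, h1, h2, h3, key _ _ h1, key _ _ h3]

theorem SatP.congr (hp : Near m n p p') (h : 𝕋.SatP k m n p w) : 𝕋.SatP k m n p' w := by
  induction m generalizing k p p' w with
  | zero =>
    have e : TD.can n p.dat = TD.can n p'.dat := tk_can_tr hp.2
    exact (e ▸ h : 𝕋.Thick k (TD.can n p'.dat) w)
  | succ m ih =>
    obtain ⟨v, hv, rfl⟩ := h
    obtain ⟨h1, h2⟩ := near_succ.1 hp
    exact ⟨v, ih h2 hv, by rw [h1]⟩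

theorem SatP.univ (h : 𝕋.SatP k m n p w) : 𝕋.Sat k Set.univ w := by
  induction m generalizing k p w with
  | zero => exact 𝕋.mono (Set.subset_univ _) (Thick.sat h)
  | succ m ih =>
    obtain ⟨v, hv, rfl⟩ := h
    exact 𝕋.mono (Set.subset_univ _) (𝕋.chl (ih hv))

theorem tk_dat (p : X) : p.par.dat.ch p.role = p.dat := (p.2 0).symm

theorem SatP.tk_pred (h : 𝕋.SatP k (m + 1) n p w) (h2 : 2 ≤ n) : 𝕋.SatP k m n p w := by
  induction m generalizing k p w with
  | zero =>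
    obtain ⟨v, hv, rfl⟩ := h
    have := tk_ch hv h2 p.role
    rwa [tk_dat] at this
  | succ m ih =>
    obtain ⟨v, hv, rfl⟩ := h
    exact ⟨v, ih hv, rfl⟩

theorem SatP.tk_mono (h : 𝕋.SatP k m n' p w) (hn : n ≤ n') : 𝕋.SatP k m n p w := by
  induction m generalizing k p w with
  | zero => exact tk_can_mono h hn
  | succ m ih =>
    obtain ⟨v, hv, rfl⟩ := h
    exact ⟨v, ih hv, rfl⟩

theorem SatP.mono (h : 𝕋.SatP k m' n' p w) (hm : m ≤ m') (hn : n ≤ n') (h2 : 2 ≤ n') :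
    𝕋.SatP k m n p w := by
  refine SatP.tk_mono ?_ hn
  induction hm with
  | refl => exact h
  | step _ ih => exact ih (h.tk_pred h2)

theorem SatP.lab (h : 𝕋.SatP k m n p w) (h2 : 2 ≤ n) : 𝕋.Sat k {p.lab} w :=
  tk_can_lab (h.mono (Nat.zero_le m) le_rfl h2) h2

theorem satP_down (j : ℕ) : 𝕋.SatP k (j + m) n p w ↔
    ∃ v, 𝕋.SatP (k + j) m n (par^[j] p) v ∧ w = 𝕋.down k j p v := by
  induction j generalizing k p w with
  | zero => simp [down]
  | succ j ih =>
    rw [Nat.add_right_comm, show k + (j + 1) = k + 1 + j by omega]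
    constructor
    · rintro ⟨v, hv, rfl⟩
      obtain ⟨u, hu, rfl⟩ := ih.1 hv
      exact ⟨u, hu, rfl⟩
    · rintro ⟨u, hu, rfl⟩
      exact ⟨_, ih.2 ⟨u, hu, rfl⟩, rfl⟩

theorem tk_T_lows {η : Dart} (d : ℕ) {u : W} (h : 𝕋.Sat (k + d) {l | l.2.η = η} u) :
    𝕋.ap 0 .T ((𝕋.ap 0 (.X (!η.side)))^[d] u) =
      (𝕋.ap 0 (.X (!η.opp.side)))^[d] (𝕋.ap 0 .T u) := by
  induction d generalizing k with
  | zero => rfl
  | succ d ih =>
    rw [show k + (d + 1) = k + 1 + d by omega] at h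
    rw [Function.iterate_succ_apply', Function.iterate_succ_apply', ← ih h]
    have h1 := tk_lows' d h
    generalize (𝕋.ap 0 (.X (!η.side)))^[d] u = v at h1
    have h2 := 𝕋.low (s := η.side) (fun l hl => congrArg Dart.side hl) h1
    have key : ∀ t : Th, t.succ.side = t.η.side ∧ t.succ.isZ0 = false := by decide
    have key3 : ∀ l : Lab, l.2.isZ0 = false → (Op.X l.2.η.side).ok l.role = true := by decide
    have key2 : ∀ η : Dart, η.opp.side = !η.side := by decide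
    have h3 := 𝕋.sq (s := η.side) (𝕋.mono (by
      rintro _ ⟨l, rfl, rfl⟩
      exact key l.2) h2)
    have h4 := 𝕋.inv (tk_domX h1 (!η.side))
    rw [Op.inv, Bool.not_not] at h4
    have h5 := 𝕋.inv (o := .X (!η.side)) (𝕋.mono (by
      rintro l' ⟨_, ⟨l, rfl, rfl⟩, -, a1, a2, -⟩
      have := key3 l' (a2.trans (key l.2).2)
      rwa [a1, tk_succ_η, key2] at this) (𝕋.rT h2))
    rw [← h3, h4, Op.inv] at h5
    simp only [𝕋.apX k, 𝕋.apT k] at h5
    rw [key2, h5]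

theorem tk_T {E : Dat} (E₁ : Dat) (h : 𝕋.Thick k (TD.can n E) w) :
    𝕋.Thick k (TD.can n (Dat.op .T E E₁)) (𝕋.ap k .T w) := by
  obtain ⟨u, hu, rfl⟩ := h
  refine ⟨𝕋.ap 0 .T u, ?_, ?_⟩
  · have h1 := 𝕋.rT hu
    rw [𝕋.apT] at h1
    refine 𝕋.mono ?_ h1
    rintro l' ⟨l, ⟨h2, h3, h4⟩, h5, h6, h7, -⟩
    exact ⟨h6.trans (congrArg Dart.opp h2), fun h => h5.trans (h3 h), fun h => h7.trans (h4 h)⟩
  · rw [𝕋.apT]
    rw [Nat.add_right_comm] at hu
    exact tk_T_lows _ (𝕋.mono (fun _ hl => hl.1) hu)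

theorem tk_X {E : Dat} (E₁ : Dat) {s : Bool} (ho : (Op.X s).ok E.role = true)
    (h : 𝕋.Thick k (TD.can (n + 1) E) w) :
    𝕋.Thick k (TD.can n (Dat.op (.X s) E E₁)) (𝕋.ap k (.X s) w) := by
  have fc := tkFit_can (n + 1) E.c
  have fd := tkFit_can (n + 1) E.d
  obtain ⟨u, hu, rfl⟩ := h
  simp only [TD.can] at hu ⊢
  generalize (min E.c (n + 1 : ℕ)).toNat = c at fc hu
  generalize (min E.d (n + 1 : ℕ)).toNat = d at fd hu
  generalize decide (E.c < (n + 1 : ℕ)) = ec at fc hu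
  generalize decide (E.d < (n + 1 : ℕ)) = ed at fd hu
  rw [𝕋.apX]
  by_cases hs : E.η.side = s
  · subst hs
    by_cases hd : E.d = 0
    · obtain ⟨h1, rfl⟩ := fd.1 (by rw [hd]; exact_mod_cast n.succ_pos)
      obtain rfl : d = 0 := by exact_mod_cast h1.trans hd
      have key0 : ∀ l : Lab, (Op.X l.2.η.side).ok l.role = true := by decide
      have key : ∀ (η : Dart) (l : Lab), l.2.η = η → l.2.isZ0 = true →
          (Op.X η.side).ok l.role = true ∧ ∀ l', l.RX η.side l' → l' = (l.1, .z0 η.top) := by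
        rintro _ l rfl h
        exact ⟨key0 l, fun l' h' => by simpa [Lab.RX, Th.side, h] using h'⟩
      have h2 := 𝕋.rX (s := E.η.side) (fun l hl => (key _ l hl.1 (hl.2.2 rfl)).1) hu
      rw [𝕋.apX] at h2
      refine Thick.can (D := ⟨c, ec, E.η.top, 0, true⟩) ⟨_, 𝕋.mono ?_ h2, rfl⟩ ?_ ?_ ?_
      · rintro l' ⟨l, hl, h3⟩
        rw [(key _ l hl.1 (hl.2.2 rfl)).2 l' h3]
        exact ⟨rfl, hl.2.1, fun _ => rfl⟩
      · simpa only [Dat.op, hd, if_true] using fc.mono n.le_succ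
      · simp only [Dat.op, hd, if_true]
      · simpa only [Dat.op, hd, if_true] using fd.mono n.le_succ
    · obtain ⟨d, rfl⟩ := fd.pos hd
      have h1 : 𝕋.Sat (k + c + 1 + d) {l | l.2.η = E.η} u := by
        rw [show k + c + 1 + d = k + (d + 1) + c by omega]
        exact 𝕋.mono (fun _ hl => hl.1) hu
      have h2 := 𝕋.inv (tk_domX (tk_lows' d h1) (!E.η.side))
      rw [Op.inv, Bool.not_not, 𝕋.apX, 𝕋.apX _ (!E.η.side)] at h2
      rw [Function.iterate_succ_apply', h2]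
      refine Thick.can (D := ⟨c + 1, ec, E.η, d, ed⟩) ⟨u, ?_, rfl⟩ ?_ ?_ ?_
      · rwa [show k + (d + 1) + c = k + d + (c + 1) by omega] at hu
      · simpa only [Dat.op, hd, if_true, if_false] using (fc.mono n.le_succ).succ
      · simp only [Dat.op, hd, if_true, if_false]
      · simpa only [Dat.op, hd, if_true, if_false] using fd.pred
  · have hc : E.c ≠ 0 := by
      intro hc
      rw [Dat.role_of_c hc] at ho
      have key : ∀ (t : Th) s, (Op.X s).ok t.fr = true → t.η.side = s := by decide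
      exact hs (by rw [← Dat.th_η]; exact key _ _ ho)
    obtain ⟨c, rfl⟩ := fc.pos hc
    obtain rfl : s = !E.η.side := by
      revert hs
      cases s <;> cases E.η.side <;> simp
    refine Thick.can (D := ⟨c, ec, E.η, d + 1, ed⟩)
      ⟨u, ?_, (Function.iterate_succ_apply' _ _ _).symm⟩ ?_ ?_ ?_
    · rwa [show k + d + (c + 1) = k + (d + 1) + c by omega] at hu
    · simpa only [Dat.op, hs, if_false] using fc.pred
    · simp only [Dat.op, hs, if_false]
    · simpa only [Dat.op, hs, if_false] using (fd.mono n.le_succ).succ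

theorem SatP.track {o : Op} (ho : o.ok p.role = true) (h2 : 2 ≤ n)
    (h : 𝕋.SatP k (m + 1) (n + 1) p w) : 𝕋.SatP k m n (X.ap o p) (𝕋.ap k o w) := by
  induction m generalizing k o p w with
  | zero =>
    change 𝕋.Thick k (TD.can n (X.ap o p).dat) _
    rw [dat_ap ho]
    cases o with
    | T => exact tk_can_mono (tk_T _ (h.tk_pred (by omega))) n.le_succ
    | X s => exact tk_X _ ho (h.tk_pred (by omega))
    | S r r' =>
      obtain ⟨v, hv, rfl⟩ := h
      obtain rfl : r = p.role := by simpa [Op.ok] using ho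
      rw [𝕋.scomp (tk_al hv.univ)]
      exact tk_can_mono (tk_ch hv (by omega) r') n.le_succ
  | succ m ih =>
    obtain ⟨v, hv, rfl⟩ := h
    refine ⟨𝕋.ap (k + 1) (lift o p) v, ?_, ?_⟩
    · rw [par_ap ho]
      exact ih (ok_lift ho) hv
    · rw [role_ap ho]
      refine 𝕋.cr ho (𝕋.mono ?_ (hv.lab (by omega)))
      rintro _ rfl
      rfl

theorem SatP.track_run {l : List Op} (hl : X.Valid l p) (h2 : 2 ≤ n)
    (h : 𝕋.SatP k (m + l.length) (n + l.length) p w) :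
    𝕋.Valid k l w ∧ 𝕋.SatP k m n (run X.ap l p) (run (𝕋.ap k) l w) := by
  induction l generalizing p w with
  | nil => exact ⟨trivial, h⟩
  | cons o l ih =>
    obtain ⟨h3, h4⟩ := ih hl.2 (SatP.track hl.1 (by omega) h)
    refine ⟨⟨𝕋.mono ?_ (h.lab (by omega)), h3⟩, h4⟩
    rintro _ rfl
    exact hl.1

theorem tk_orth_lows {η : Dart} (d : ℕ) {u u' : W} (h : 𝕋.Sat (k + d) {l | l.2.η = η} u)
    (h' : 𝕋.Sat (k + d) {l | l.2.η = η} u') (ho : 𝕋.Orth u u') :
    𝕋.Orth ((𝕋.ap 0 (.X (!η.side)))^[d] u) ((𝕋.ap 0 (.X (!η.side)))^[d] u') := by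
  induction d generalizing k with
  | zero => exact ho
  | succ d ih =>
    rw [show k + (d + 1) = k + 1 + d by omega] at h h'
    have := 𝕋.orth_ap (tk_domX (tk_lows' d h) (!η.side)) (tk_domX (tk_lows' d h') (!η.side))
      (ih h h')
    rwa [𝕋.apX, ← Function.iterate_succ_apply' (𝕋.ap 0 _),
      ← Function.iterate_succ_apply' (𝕋.ap 0 _)] at this

theorem tk_orth_c {D' : TD} (h : 𝕋.Thick k D w) (h' : 𝕋.Thick k D' w') (he : D.ec = true)
    (hc : D.c < D'.c) : 𝕋.Orth w w' := by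
  refine 𝕋.orth_sat ?_ h.satc (tk_incls' (P := fun _ => True) hc
    (𝕋.mono (fun _ _ => trivial) h'.satc))
  rw [Set.disjoint_left]
  intro l h1 h2
  exact absurd ((h1.2.1 he).symm.trans h2.1) (by simp)

theorem tk_orth_d {D' : TD} (h : 𝕋.Thick k D w) (h' : 𝕋.Thick k D' w') (hη : D.η = D'.η)
    (he : D.ed = true) (hd : D.d < D'.d) : 𝕋.Orth w w' := by
  obtain ⟨u, hu, rfl⟩ := h
  obtain ⟨u', hu', rfl⟩ := h'
  obtain ⟨e, h1⟩ := Nat.exists_eq_add_of_lt hd
  have h2 := tk_incls (P := fun t => t.η = D.η ∧ t.isZ0 = true) D.c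
    (𝕋.mono (fun l hl => ⟨hl.1, hl.2.2 he⟩) hu)
  have h3 := tk_incls (P := fun t => t.η = D'.η) D'.c (𝕋.mono (fun l hl => hl.1) hu')
  rw [h1, ← hη, show k + (D.d + e + 1) = k + D.d + (e + 1) by omega] at h3
  have h4 := tk_lows (Q := fun _ => True) (P := fun _ => True) (e + 1)
    (𝕋.mono (fun _ hl => ⟨hl, trivial, trivial⟩) h3)
  rw [h1, ← hη, Nat.add_assoc, Function.iterate_add_apply]
  refine tk_orth_lows D.d (𝕋.mono (fun _ hl => hl.1) h2) (𝕋.mono (fun _ hl => hl.1) h4)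
    (𝕋.orth_sat ?_ h2 h4)
  rw [Set.disjoint_left]
  rintro l ⟨-, h5⟩ ⟨-, -, t, -, -, h6⟩
  have key : ∀ t : Th, t.succ.isZ0 = false := by decide
  rw [← h6, Function.iterate_succ_apply', key] at h5
  exact absurd h5 (by simp)

theorem tk_min_cmp {x y : ℕ∞} (h : min x n < min y n) :
    decide (x < n) = true ∧ (min x n).toNat < (min y n).toNat := by
  have h1 : min x n < n := h.trans_le (min_le_right _ _)
  have h2 : ∀ z : ℕ∞, min z n ≠ ⊤ := fun z =>
    ((min_le_right _ _).trans_lt (ENat.natCast_lt_top n)).ne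
  refine ⟨decide_eq_true (by simpa using h1), ?_⟩
  rw [← ENat.natCast_toNat (h2 x), ← ENat.natCast_toNat (h2 y)] at h
  exact_mod_cast h

theorem SatP.orth (hp : ¬ Near m n p p') (h : 𝕋.SatP k m n p w) (h' : 𝕋.SatP k m n p' w') :
    𝕋.Orth w w' := by
  induction m generalizing k p p' w w' with
  | zero =>
    by_cases hη : p.dat.η = p'.dat.η
    · rcases lt_trichotomy (min p.dat.c n) (min p'.dat.c n) with h1 | h1 | h1
      · exact tk_orth_c h h' (tk_min_cmp h1).1 (tk_min_cmp h1).2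
      · rcases lt_trichotomy (min p.dat.d n) (min p'.dat.d n) with h2 | h2 | h2
        · exact tk_orth_d h h' hη (tk_min_cmp h2).1 (tk_min_cmp h2).2
        · exact absurd ⟨fun _ hk => absurd hk (Nat.not_lt_zero _), Dat.ext h1 hη h2⟩ hp
        · exact 𝕋.orth_symm (tk_orth_d h' h hη.symm (tk_min_cmp h2).1 (tk_min_cmp h2).2)
      · exact 𝕋.orth_symm (tk_orth_c h' h (tk_min_cmp h1).1 (tk_min_cmp h1).2)
    · refine 𝕋.orth_sat ?_ (Thick.sat h) (Thick.sat h')
      rw [Set.disjoint_left]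
      intro l h1 h2
      exact hη (h1.symm.trans h2)
  | succ m ih =>
    obtain ⟨v, hv, rfl⟩ := h
    obtain ⟨v', hv', rfl⟩ := h'
    by_cases hr : p.role = p'.role
    · have hd : roleS .al ⊆ (Op.S .al p.role).dom := fun l hl => by
        have hl' : l.role = .al := hl
        simp [Op.dom, hl', Op.ok]
      rw [← hr]
      exact 𝕋.orth_ap (𝕋.mono hd (tk_al hv.univ)) (𝕋.mono hd (tk_al hv'.univ))
        (ih (fun h => hp (near_succ.2 ⟨hr, h⟩)) hv hv')
    · refine 𝕋.orth_sat ?_ (tk_role hv.univ _) (tk_role hv'.univ _)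
      rw [Set.disjoint_left]
      intro l h1 h2
      exact hr (h1.symm.trans h2)

end Vale.Agent.P196.Tower
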