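import Vale.Agent.P196.PG

/-! Set-level facts on `tri`, `rest`, `supp`. -/

namespace Vale.Agent.P196

open Equiv


variable {B B' Y Ω : Type} {U V : Set B} {T : Set Y} {e : Y → B → Ω} {e₁ e₂ e₃ : B → Ω}

variable {t t' : Perm Ω} {A A' : Set Ω}

theorem supp_inv (t : Perm Ω) : supp t⁻¹ = supp t := by
  ext x
  simp only [supp, Set.mem_ofPred_eq, ne_eq, Perm.inv_eq_iff_eq]
  exact not_congr eq_comm

theorem supp_conj (g t : Perm Ω) : supp (g * t * g⁻¹) = g '' supp t := by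
  ext x
  constructor
  · intro hx
    refine ⟨g⁻¹ x, fun h => hx ?_, by simp⟩
    rw [Perm.mul_apply, Perm.mul_apply, h]
    simp
  · rintro ⟨y, hy, rfl⟩ h
    apply hy
    simpa using h

theorem mem_supp_iff {x : Ω} : t x ∈ supp t ↔ x ∈ supp t := not_congr t.injective.eq_iff

theorem supp_mul_subset : supp (t * t') ⊆ supp t ∪ supp t' := by
  intro x hx
  by_contra hc
  rw [Set.mem_union, not_or] at hc
  apply hx
  rw [Perm.mul_apply, not_not.1 hc.2, not_not.1 hc.1]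

theorem supp_mul (h : Disjoint (supp t) (supp t')) : supp (t * t') = supp t ∪ supp t' := by
  refine Set.Subset.antisymm supp_mul_subset ?_
  rintro x (hx | hx) h0
  · have h1 : t' x = x := not_not.1 (Set.disjoint_left.1 h hx)
    rw [Perm.mul_apply, h1] at h0
    exact hx h0
  · have h1 : t (t' x) = t' x := not_not.1 (Set.disjoint_right.1 h (mem_supp_iff.2 hx))
    rw [Perm.mul_apply, h1] at h0
    exact hx h0

theorem commute_of_supp (h : Disjoint (supp t) (supp t')) : Commute t t' := by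
  refine Perm.Disjoint.commute fun x => ?_
  by_cases hx : t x = x
  · exact Or.inl hx
  · exact Or.inr (not_not.1 (Set.disjoint_left.1 h hx))


theorem MSec.mono (h : MSec U T e) {T' : Set Y} (hU : V ⊆ U) (hT : T' ⊆ T) : MSec V T' e :=   fun y hy y' hy' p hp p' hp' => h y (hT hy) y' (hT hy') p (hU hp) p' (hU hp')

theorem MSec.three (h : MSec U T e) {x y z : Y} (hx : x ∈ T) (hy : y ∈ T) (hz : z ∈ T)
    (h3 : D3 x y z) : MSec U Set.univ ![e x, e y, e z] := by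
  obtain ⟨a, b, c⟩ := h3
  have key : ∀ i : Fin 3, ![x, y, z] i ∈ T ∧ ![e x, e y, e z] i = e (![x, y, z] i) := by
    intro i
    fin_cases i
    · exact ⟨hx, rfl⟩
    · exact ⟨hy, rfl⟩
    · exact ⟨hz, rfl⟩
  intro i _ j _ p hp p' hp' he
  rw [(key i).2, (key j).2] at he
  obtain ⟨h1, h2⟩ := h _ (key i).1 _ (key j).1 p hp p' hp' he
  refine ⟨?_, h2⟩
  fin_cases i <;> fin_cases j <;>
    first
    | rfl
    | exact absurd h1 a
    | exact absurd h1 a.symm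
    | exact absurd h1 b
    | exact absurd h1 b.symm
    | exact absurd h1 c
    | exact absurd h1 c.symm

theorem trib_gen (h : MSec U Set.univ ![e₁, e₂, e₃]) (i : Fin 3) {p : B} (hp : p ∈ U) :
    tri U e₁ e₂ e₃ (![e₁, e₂, e₃] i p) = ![e₁, e₂, e₃] (finRotate 3 i) p := by
  unfold tri
  rw [dif_pos h]
  exact Perm.viaEmbedding_apply _ _ (i, (⟨p, hp⟩ : U))

theorem trib_one (h : ¬ MSec U Set.univ ![e₁, e₂, e₃]) : tri U e₁ e₂ e₃ = 1 := by
  unfold tri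
  rw [dif_neg h]

theorem trib_mem {ω : Ω} :
    ω ∈ e₁ '' U ∪ e₂ '' U ∪ e₃ '' U ↔ ∃ i : Fin 3, ∃ p ∈ U, ![e₁, e₂, e₃] i p = ω := by
  constructor
  · rintro ((⟨p, hp, h⟩ | ⟨p, hp, h⟩) | ⟨p, hp, h⟩)
    · exact ⟨0, p, hp, h⟩
    · exact ⟨1, p, hp, h⟩
    · exact ⟨2, p, hp, h⟩
  · rintro ⟨i, p, hp, h⟩
    fin_cases i
    · exact Or.inl (Or.inl ⟨p, hp, h⟩)
    · exact Or.inl (Or.inr ⟨p, hp, h⟩)
    · exact Or.inr ⟨p, hp, h⟩

theorem tri_fst (h : MSec U Set.univ ![e₁, e₂, e₃]) {p : B} (hp : p ∈ U) :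
    tri U e₁ e₂ e₃ (e₁ p) = e₂ p := trib_gen h 0 hp

theorem tri_snd (h : MSec U Set.univ ![e₁, e₂, e₃]) {p : B} (hp : p ∈ U) :
    tri U e₁ e₂ e₃ (e₂ p) = e₃ p := trib_gen h 1 hp

theorem tri_thd (h : MSec U Set.univ ![e₁, e₂, e₃]) {p : B} (hp : p ∈ U) :
    tri U e₁ e₂ e₃ (e₃ p) = e₁ p := trib_gen h 2 hp

theorem tri_other {ω : Ω} (h : ω ∉ e₁ '' U ∪ e₂ '' U ∪ e₃ '' U) : tri U e₁ e₂ e₃ ω = ω := by
  unfold tri
  split_ifs with h0
  · refine Perm.viaEmbedding_apply_of_notMem _ _ _ ?_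
    rintro ⟨q, hq⟩
    exact h (trib_mem.2 ⟨q.1, q.2.1, q.2.2, hq⟩)
  · rfl

theorem supp_tri (h : MSec U Set.univ ![e₁, e₂, e₃]) :
    supp (tri U e₁ e₂ e₃) = e₁ '' U ∪ e₂ '' U ∪ e₃ '' U := by
  refine Set.Subset.antisymm (fun ω hω => by_contra fun hc => hω (tri_other hc)) fun ω hω => ?_
  obtain ⟨i, p, hp, rfl⟩ := trib_mem.1 hω
  intro h0
  rw [trib_gen h i hp] at h0
  have h1 := (h _ trivial _ trivial p hp p hp h0).1
  revert h1
  fin_cases i <;> decide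

theorem supp_tri_subset : supp (tri U e₁ e₂ e₃) ⊆ e₁ '' U ∪ e₂ '' U ∪ e₃ '' U :=   fun _ hω => by_contra fun hc => hω (tri_other hc)

theorem tri_cube : tri U e₁ e₂ e₃ ^ 3 = 1 := by
  by_cases h : MSec U Set.univ ![e₁, e₂, e₃]
  · ext ω
    rw [pow_three, Perm.mul_apply, Perm.mul_apply, Perm.one_apply]
    by_cases hω : ω ∈ e₁ '' U ∪ e₂ '' U ∪ e₃ '' U
    · rcases hω with (⟨p, hp, rfl⟩ | ⟨p, hp, rfl⟩) | ⟨p, hp, rfl⟩
      · rw [tri_fst h hp, tri_snd h hp, tri_thd h hp]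
      · rw [tri_snd h hp, tri_thd h hp, tri_fst h hp]
      · rw [tri_thd h hp, tri_fst h hp, tri_snd h hp]
    · rw [tri_other hω, tri_other hω, tri_other hω]
  · rw [trib_one h, one_pow]

theorem tri_empty : tri (∅ : Set B) e₁ e₂ e₃ = 1 := by
  ext ω
  exact tri_other (by simp)

theorem eq_tri (h : MSec U Set.univ ![e₁, e₂, e₃]) {t : Perm Ω} (h1 : ∀ p ∈ U, t (e₁ p) = e₂ p)
    (h2 : ∀ p ∈ U, t (e₂ p) = e₃ p) (h3 : ∀ p ∈ U, t (e₃ p) = e₁ p)
    (h4 : supp t ⊆ e₁ '' U ∪ e₂ '' U ∪ e₃ '' U) : t = tri U e₁ e₂ e₃ := by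
  ext ω
  by_cases hω : ω ∈ e₁ '' U ∪ e₂ '' U ∪ e₃ '' U
  · rcases hω with (⟨p, hp, rfl⟩ | ⟨p, hp, rfl⟩) | ⟨p, hp, rfl⟩
    · rw [tri_fst h hp, h1 p hp]
    · rw [tri_snd h hp, h2 p hp]
    · rw [tri_thd h hp, h3 p hp]
  · rw [tri_other hω]
    exact by_contra fun hc => hω (h4 hc)

theorem trib_congr {f₁ f₂ f₃ : B → Ω} (h1 : Set.EqOn e₁ f₁ U) (h2 : Set.EqOn e₂ f₂ U)
    (h3 : Set.EqOn e₃ f₃ U) (h : MSec U Set.univ ![e₁, e₂, e₃]) :
    MSec U Set.univ ![f₁, f₂, f₃] := by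
  have key : ∀ i : Fin 3, ∀ p ∈ U, ![f₁, f₂, f₃] i p = ![e₁, e₂, e₃] i p := by
    intro i p hp
    fin_cases i
    · exact (h1 hp).symm
    · exact (h2 hp).symm
    · exact (h3 hp).symm
  intro i _ j _ p hp p' hp' he
  rw [key i p hp, key j p' hp'] at he
  exact h i trivial j trivial p hp p' hp' he

theorem tri_congr {f₁ f₂ f₃ : B → Ω} (h1 : Set.EqOn e₁ f₁ U) (h2 : Set.EqOn e₂ f₂ U)
    (h3 : Set.EqOn e₃ f₃ U) : tri U e₁ e₂ e₃ = tri U f₁ f₂ f₃ := by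
  by_cases h : MSec U Set.univ ![e₁, e₂, e₃]
  · refine eq_tri (trib_congr h1 h2 h3 h) (fun p hp => ?_) (fun p hp => ?_) (fun p hp => ?_) ?_
    · rw [← h1 hp, ← h2 hp, tri_fst h hp]
    · rw [← h2 hp, ← h3 hp, tri_snd h hp]
    · rw [← h3 hp, ← h1 hp, tri_thd h hp]
    · rw [← h1.image_eq, ← h2.image_eq, ← h3.image_eq]
      exact supp_tri_subset
  · rw [trib_one h, trib_one fun h' => h (trib_congr h1.symm h2.symm h3.symm h')]

theorem tri_reparam {j : B' → B} {U' : Set B'} (hj : Set.InjOn j U') :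
    tri U' (e₁ ∘ j) (e₂ ∘ j) (e₃ ∘ j) = tri (j '' U') e₁ e₂ e₃ := by
  have key : ∀ i : Fin 3, ∀ p, ![e₁ ∘ j, e₂ ∘ j, e₃ ∘ j] i p = ![e₁, e₂, e₃] i (j p) := by
    intro i p
    fin_cases i <;> rfl
  by_cases h : MSec U' Set.univ ![e₁ ∘ j, e₂ ∘ j, e₃ ∘ j]
  · have h' : MSec (j '' U') Set.univ ![e₁, e₂, e₃] := by
      rintro i _ i' _ _ ⟨p, hp, rfl⟩ _ ⟨p', hp', rfl⟩ he
      rw [← key, ← key] at he
      obtain ⟨a, b⟩ := h i trivial i' trivial p hp p' hp' he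
      exact ⟨a, by rw [b]⟩
    refine eq_tri h' ?_ ?_ ?_ ?_
    · rintro _ ⟨p, hp, rfl⟩
      exact tri_fst h hp
    · rintro _ ⟨p, hp, rfl⟩
      exact tri_snd h hp
    · rintro _ ⟨p, hp, rfl⟩
      exact tri_thd h hp
    · rw [← Set.image_comp, ← Set.image_comp, ← Set.image_comp]
      exact supp_tri_subset
  · rw [trib_one h, trib_one fun h' => h ?_]
    intro i _ i' _ p hp p' hp' he
    rw [key, key] at he
    obtain ⟨a, b⟩ := h' i trivial i' trivial _ ⟨p, hp, rfl⟩ _ ⟨p', hp', rfl⟩ he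
    exact ⟨a, hj hp hp' b⟩

theorem tri_conj (g : Perm Ω) :
    g * tri U e₁ e₂ e₃ * g⁻¹ = tri U (g ∘ e₁) (g ∘ e₂) (g ∘ e₃) := by
  have key : ∀ i : Fin 3, ∀ p, ![g ∘ e₁, g ∘ e₂, g ∘ e₃] i p = g (![e₁, e₂, e₃] i p) := by
    intro i p
    fin_cases i <;> rfl
  by_cases h : MSec U Set.univ ![e₁, e₂, e₃]
  · have h' : MSec U Set.univ ![g ∘ e₁, g ∘ e₂, g ∘ e₃] := by
      intro i _ i' _ p hp p' hp' he
      rw [key, key] at he
      exact h i trivial i' trivial p hp p' hp' (g.injective he)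
    refine eq_tri h' (fun p hp => ?_) (fun p hp => ?_) (fun p hp => ?_) ?_
    · simp [tri_fst h hp]
    · simp [tri_snd h hp]
    · simp [tri_thd h hp]
    · rw [supp_conj, Set.image_comp, Set.image_comp, Set.image_comp, ← Set.image_union,
        ← Set.image_union]
      exact Set.image_mono supp_tri_subset
  · rw [trib_one h, trib_one fun h' => h ?_, mul_one, mul_inv_cancel]
    intro i _ i' _ p hp p' hp' he
    exact h' i trivial i' trivial p hp p' hp' (by rw [key, key, he])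

theorem tri_union (hd : Disjoint U V) (h : MSec (U ∪ V) Set.univ ![e₁, e₂, e₃]) :
    tri (U ∪ V) e₁ e₂ e₃ = tri U e₁ e₂ e₃ * tri V e₁ e₂ e₃ := by
  have hU := h.mono Set.subset_union_left subset_rfl
  have hV := h.mono Set.subset_union_right subset_rfl
  have key : ∀ i : Fin 3, ∀ p ∈ U ∪ V, (tri U e₁ e₂ e₃ * tri V e₁ e₂ e₃) (![e₁, e₂, e₃] i p) =
      ![e₁, e₂, e₃] (finRotate 3 i) p := by
    rintro i p (hp | hp)
    · rw [Perm.mul_apply, tri_other (U := V), trib_gen hU i hp]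
      intro hc
      obtain ⟨i', q, hq, he⟩ := trib_mem.1 hc
      have := (h i' trivial i trivial q (Or.inr hq) p (Or.inl hp) he).2
      exact Set.disjoint_left.1 hd hp (this ▸ hq)
    · rw [Perm.mul_apply, trib_gen hV i hp, tri_other]
      intro hc
      obtain ⟨i', q, hq, he⟩ := trib_mem.1 hc
      have := (h i' trivial _ trivial q (Or.inl hq) p (Or.inr hp) he).2
      exact Set.disjoint_left.1 hd (this ▸ hq) hp
  refine (eq_tri h (key 0) (key 1) (key 2) (supp_mul_subset.trans ?_)).symm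
  rintro ω (hω | hω)
  · obtain ⟨i, p, hp, he⟩ := trib_mem.1 (supp_tri_subset hω)
    exact trib_mem.2 ⟨i, p, Or.inl hp, he⟩
  · obtain ⟨i, p, hp, he⟩ := trib_mem.1 (supp_tri_subset hω)
    exact trib_mem.2 ⟨i, p, Or.inr hp, he⟩

theorem tri_apply (h : MSec U T e) {x y z u : Y} (hx : x ∈ T) (hy : y ∈ T) (hz : z ∈ T)
    (hu : u ∈ T) (h3 : D3 x y z) {p : B} (hp : p ∈ U) :
    tri U (e x) (e y) (e z) (e u p) = e (c3 x y z u) p := by
  have h' := h.three hx hy hz h3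
  by_cases h1 : u = x
  · rw [h1, tri_fst h' hp, c3_fst h3]
  by_cases h2 : u = y
  · rw [h2, tri_snd h' hp, c3_snd h3]
  by_cases h4 : u = z
  · rw [h4, tri_thd h' hp, c3_thd h3]
  rw [c3_other h1 h2 h4, tri_other]
  rintro ((⟨q, hq, he⟩ | ⟨q, hq, he⟩) | ⟨q, hq, he⟩)
  · exact h1 (h _ hx _ hu q hq p hp he).1.symm
  · exact h2 (h _ hy _ hu q hq p hp he).1.symm
  · exact h4 (h _ hz _ hu q hq p hp he).1.symm

/-- `s` permutes the sheets as `σ` permutes the indices. -/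
structure TribR (U : Set B) (T : Set Y) (e : Y → B → Ω) (s : Perm Ω) (σ : Perm Y) : Prop where
  fix : ∀ y, y ∉ T → σ y = y
  act : ∀ y ∈ T, ∀ p ∈ U, s (e y p) = e (σ y) p
  off : ∀ ω, (∀ y ∈ T, ω ∉ e y '' U) → s ω = ω

theorem TribR.one : TribR U T e 1 1 := ⟨fun _ _ => rfl, fun _ _ _ _ => rfl, fun _ _ => rfl⟩

theorem TribR.mem {s : Perm Ω} {σ : Perm Y} (h : TribR U T e s σ) {y : Y} (hy : y ∈ T) :
    σ y ∈ T := by
  by_contra hc
  exact hc ((σ.injective (h.fix _ hc)).symm ▸ hy)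

theorem TribR.mul {s s' : Perm Ω} {σ σ' : Perm Y} (h : TribR U T e s σ) (h' : TribR U T e s' σ') :
    TribR U T e (s * s') (σ * σ') where
  fix y hy := by rw [Perm.mul_apply, h'.fix y hy, h.fix y hy]
  act y hy p hp := by rw [Perm.mul_apply, h'.act y hy p hp, h.act _ (h'.mem hy) p hp, Perm.mul_apply]
  off ω hω := by rw [Perm.mul_apply, h'.off ω hω, h.off ω hω]

theorem TribR.inv {s : Perm Ω} {σ : Perm Y} (h : TribR U T e s σ) : TribR U T e s⁻¹ σ⁻¹ where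
  fix y hy := by rw [Perm.inv_eq_iff_eq, h.fix y hy]
  act y hy p hp := by
    have h1 : σ (σ⁻¹ y) = y := by simp
    have h2 : σ⁻¹ y ∈ T := by
      by_contra hc
      rw [h.fix _ hc] at h1
      exact hc (h1.symm ▸ hy)
    rw [Perm.inv_eq_iff_eq, h.act _ h2 p hp, h1]
  off ω hω := by rw [Perm.inv_eq_iff_eq, h.off ω hω]

theorem TribR.eq {s s' : Perm Ω} {σ σ' : Perm Y} (h : TribR U T e s σ) (h' : TribR U T e s' σ')
    (hσ : σ = σ') : s = s' := by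
  ext ω
  by_cases hω : ∀ y ∈ T, ω ∉ e y '' U
  · rw [h.off ω hω, h'.off ω hω]
  · push Not at hω
    obtain ⟨y, hy, p, hp, rfl⟩ := hω
    rw [h.act y hy p hp, h'.act y hy p hp, hσ]

theorem MSec.tribR (h : MSec U T e) {x y z : Y} (hx : x ∈ T) (hy : y ∈ T) (hz : z ∈ T)
    (h3 : D3 x y z) : TribR U T e (tri U (e x) (e y) (e z)) (c3 x y z) where
  fix u hu := c3_other (fun hc => hu (hc ▸ hx)) (fun hc => hu (hc ▸ hy)) fun hc => hu (hc ▸ hz)
  act u hu p hp := tri_apply h hx hy hz hu h3 hp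
  off ω hω := tri_other (by
    rintro ((hc | hc) | hc)
    · exact hω x hx hc
    · exact hω y hy hc
    · exact hω z hz hc)

theorem MSec.isAlt (h : MSec U T e) : IsAlt T fun x y z => tri U (e x) (e y) (e z) := by
  refine ⟨fun x y z hx hy hz h3 => ?_, fun x y z hx hy hz h3 => ?_,
    fun x y z u v w hx hy hz hu hv hw h3 h4 => ?_, fun x b c v hx hb hc hv h3 h4 h5 => ?_⟩
  · exact (h.tribR hx hy hz h3).eq (h.tribR hy hz hx ⟨h3.2.1, h3.2.2.symm, h3.1.symm⟩) (c3_cyc h3)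
  · exact ((h.tribR hx hy hz h3).mul (h.tribR hx hz hy ⟨h3.2.2, h3.2.1.symm, h3.1⟩)).eq TribR.one
      (c3_inv h3)
  · exact (((h.tribR hx hy hz h3).mul (h.tribR hu hv hw h4)).mul (h.tribR hx hy hz h3).inv).eq
      (h.tribR (c3_mem hx hy hz hu) (c3_mem hx hy hz hv) (c3_mem hx hy hz hw) (h4.perm _))
      (c3_conj _ _ _ _)
  · exact ((h.tribR hx hb hc h3).mul (h.tribR hx hc hv h4)).eq
      (h.tribR hb hc hv ⟨h3.2.1, h4.2.1, h5⟩)
      (isAlt_c3.mul trivial trivial trivial trivial h3 h4 h5)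

/-- The group of a multisection acts on the sheets as on the index set. -/
theorem MSec.altL_apply (h : MSec U T e) {Γ : Type} [Group Γ] (π : Γ →* Perm Ω)
    {φ : Y → Y → Y → Γ}
    (hφ : ∀ x y z, x ∈ T → y ∈ T → z ∈ T → D3 x y z → π (φ x y z) = tri U (e x) (e y) (e z))
    {g : Γ × Perm Y} (hg : g ∈ altL T φ) :
    (∀ y ∈ T, ∀ p ∈ U, π g.1 (e y p) = e (g.2 y) p) ∧
      ∀ ω, (∀ y ∈ T, ω ∉ e y '' U) → π g.1 ω = ω := by
  have key : TribR U T e (π g.1) g.2 := by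
    induction hg using Subgroup.closure_induction with
    | mem g hg =>
      obtain ⟨x, y, z, hx, hy, hz, h3, rfl⟩ := hg
      rw [hφ x y z hx hy hz h3]
      exact h.tribR hx hy hz h3
    | one =>
      rw [Prod.fst_one, map_one]
      exact TribR.one
    | mul a b _ _ ha hb =>
      rw [Prod.fst_mul, map_mul]
      exact ha.mul hb
    | inv a _ ha =>
      rw [Prod.fst_inv, map_inv]
      exact ha.inv
  exact ⟨key.act, key.off⟩


theorem rest_mem (h : ∀ x, t x ∈ A ↔ x ∈ A) {x : Ω} (hx : x ∈ A) : rest t A x = t x := by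
  classical
  unfold rest
  rw [dif_pos h]
  exact Perm.ofSubtype_apply_of_mem (p := (· ∈ A)) _ hx

theorem rest_not_mem {x : Ω} (hx : x ∉ A) : rest t A x = x := by
  classical
  unfold rest
  split_ifs with h
  · exact Perm.ofSubtype_apply_of_not_mem _ hx
  · rfl

theorem supp_rest (h : ∀ x, t x ∈ A ↔ x ∈ A) : supp (rest t A) = supp t ∩ A := by
  ext x
  by_cases hx : x ∈ A
  · simp only [supp, Set.mem_ofPred_eq, Set.mem_inter_iff, rest_mem h hx, hx, and_true]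
  · simp only [supp, Set.mem_ofPred_eq, Set.mem_inter_iff, rest_not_mem hx, hx, and_false, ne_eq,
      not_true_eq_false]

theorem rest_mul_compl (h : ∀ x, t x ∈ A ↔ x ∈ A) : rest t A * rest t Aᶜ = t := by
  have h' : ∀ x, t x ∈ Aᶜ ↔ x ∈ Aᶜ := fun x => not_congr (h x)
  ext x
  rw [Perm.mul_apply]
  by_cases hx : x ∈ A
  · rw [rest_not_mem (A := Aᶜ) (not_not.2 hx), rest_mem h hx]
  · rw [rest_mem h' hx, rest_not_mem fun hc => hx ((h x).1 hc)]

theorem rest_union (h : ∀ x, t x ∈ A ↔ x ∈ A) (h' : ∀ x, t x ∈ A' ↔ x ∈ A') (hd : Disjoint A A') :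
    rest t (A ∪ A') = rest t A * rest t A' := by
  have h2 : ∀ x, t x ∈ A ∪ A' ↔ x ∈ A ∪ A' := fun x => or_congr (h x) (h' x)
  ext x
  rw [Perm.mul_apply]
  by_cases hx' : x ∈ A'
  · rw [rest_mem h2 (Or.inr hx'), rest_mem h' hx',
      rest_not_mem (Set.disjoint_right.1 hd ((h' x).2 hx'))]
  · rw [rest_not_mem hx']
    by_cases hx : x ∈ A
    · rw [rest_mem h2 (Or.inl hx), rest_mem h hx]
    · rw [rest_not_mem hx, rest_not_mem fun hc => hc.elim hx hx']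

theorem rest_univ (t : Perm Ω) : rest t Set.univ = t := by
  ext x
  exact rest_mem (fun _ => Iff.rfl) trivial

theorem rest_tri (h : MSec U Set.univ ![e₁, e₂, e₃])
    (hA : ∀ x, tri U e₁ e₂ e₃ x ∈ A ↔ x ∈ A) :
    rest (tri U e₁ e₂ e₃) A = tri (U ∩ e₁ ⁻¹' A) e₁ e₂ e₃ := by
  have a2 : ∀ p ∈ U, e₂ p ∈ A ↔ e₁ p ∈ A := fun p hp => by rw [← tri_fst h hp, hA]
  have a3 : ∀ p ∈ U, e₃ p ∈ A ↔ e₁ p ∈ A := fun p hp => by rw [← tri_snd h hp, hA, a2 p hp]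
  refine eq_tri (h.mono Set.inter_subset_left subset_rfl) (fun p hp => ?_) (fun p hp => ?_)
    (fun p hp => ?_) ?_
  · rw [rest_mem hA hp.2, tri_fst h hp.1]
  · rw [rest_mem hA ((a2 p hp.1).2 hp.2), tri_snd h hp.1]
  · rw [rest_mem hA ((a3 p hp.1).2 hp.2), tri_thd h hp.1]
  · rw [supp_rest hA]
    rintro ω ⟨hω, hω'⟩
    rcases supp_tri_subset hω with (⟨p, hp, rfl⟩ | ⟨p, hp, rfl⟩) | ⟨p, hp, rfl⟩
    · exact Or.inl (Or.inl ⟨p, ⟨hp, hω'⟩, rfl⟩)
    · exact Or.inl (Or.inr ⟨p, ⟨hp, (a2 p hp).1 hω'⟩, rfl⟩)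
    · exact Or.inr ⟨p, ⟨hp, (a3 p hp).1 hω'⟩, rfl⟩


end Vale.Agent.P196
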