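import Vale.Agent.P196.PatchQL
import Vale.Agent.P196.TriBasic

/-! Lifting true multisections to patches. -/

namespace Vale.Agent.P196

open Equiv

variable {B : Type} {Γ : Type} [Group Γ]

/-- The sheet of a coloured point. -/
def sht {R : Type} (f : R → B → B) (x : Col × R) : B → B × Col := fun p => (f x.2 p, x.1)

open Classical in
/-- The true 3-cycle of a coloured triple. -/
noncomputable def tp {R : Type} (U : Set B) (f : R → B → B) (x y z : Col × R) : Perm (B × Col) :=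
  if D3 x.1 y.1 z.1 then tri U (sht f x) (sht f y) (sht f z) else 1

/-- `lam` respects the short relations among the elements of `S`. -/
structure Lam (S : Set (Perm (B × Col))) (lam : Perm (B × Col) → Γ) : Prop where
  one : 1 ∈ S
  small : ∀ s ∈ S, ∃ a b c : Col, ∀ ω ∈ supp s, ω.2 ∈ ({a, b, c} : Set Col)
  unit : ∀ x y z, tp (R := Unit) Set.univ (fun _ => id) x y z ∈ S
  mul : ∀ a ∈ S, ∀ b ∈ S, a * b ∈ S → lam a * lam b = lam (a * b)
  conj : ∀ a ∈ S, ∀ b ∈ S, a * b * a⁻¹ ∈ S → lam a * lam b * (lam a)⁻¹ = lam (a * b * a⁻¹)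

variable {S : Set (Perm (B × Col))} {lam : Perm (B × Col) → Γ}

section tpaux

variable {R : Type} {U V : Set B} {f : R → B → B} {T : Set (Col × R)} {x y z : Col × R}

theorem tp_pos (h : D3 x.1 y.1 z.1) : tp U f x y z = tri U (sht f x) (sht f y) (sht f z) :=
  if_pos h

theorem tp_neg (h : ¬ D3 x.1 y.1 z.1) : tp U f x y z = 1 := if_neg h

theorem tp_supp {ω : B × Col} (h : ω ∈ supp (tp U f x y z)) :
    ω.2 ∈ ({x.1, y.1, z.1} : Set Col) ∧ ∃ r, ω.1 ∈ f r '' U := by
  by_cases h3 : D3 x.1 y.1 z.1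
  · rw [tp_pos h3] at h
    rcases supp_tri_subset h with (⟨p, hp, rfl⟩ | ⟨p, hp, rfl⟩) | ⟨p, hp, rfl⟩
    · exact ⟨Or.inl rfl, _, p, hp, rfl⟩
    · exact ⟨Or.inr (Or.inl rfl), _, p, hp, rfl⟩
    · exact ⟨Or.inr (Or.inr rfl), _, p, hp, rfl⟩
  · rw [tp_neg h3] at h
    exact absurd rfl h

theorem tp_msec (hf : ∀ r, Set.InjOn (f r) U) (hT : Set.InjOn Prod.fst T) : MSec U T (sht f) := by
  intro a ha b hb p hp q hq he
  have h1 : a = b := hT ha hb (Prod.mk.inj he).2
  subst h1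
  exact ⟨rfl, hf a.2 hp hq (Prod.mk.inj he).1⟩

theorem tp_d3 (hT : Set.InjOn Prod.fst T) (hx : x ∈ T) (hy : y ∈ T) (hz : z ∈ T) (h : D3 x y z) :
    D3 x.1 y.1 z.1 :=
  ⟨fun e => h.1 (hT hx hy e), fun e => h.2.1 (hT hy hz e), fun e => h.2.2 (hT hx hz e)⟩

theorem tp_alt (hf : ∀ r, Set.InjOn (f r) U) (hT : Set.InjOn Prod.fst T) : IsAlt T (tp U f) :=
  (tp_msec hf hT).isAlt.congr fun _ _ _ hx hy hz h => (tp_pos (tp_d3 hT hx hy hz h)).symm

theorem tp_three (hf : ∀ r, Set.InjOn (f r) U) (h : D3 x.1 y.1 z.1) :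
    MSec U Set.univ ![sht f x, sht f y, sht f z] := by
  refine (tp_msec (T := {x, y, z}) hf ?_).three (Or.inl rfl) (Or.inr (Or.inl rfl))
    (Or.inr (Or.inr rfl)) ⟨fun e => h.1 (by rw [e]), fun e => h.2.1 (by rw [e]),
      fun e => h.2.2 (by rw [e])⟩
  rintro a (rfl | rfl | rfl) b (rfl | rfl | rfl) e <;>
    first
    | rfl
    | exact absurd e h.1
    | exact absurd e h.1.symm
    | exact absurd e h.2.1
    | exact absurd e h.2.1.symm
    | exact absurd e h.2.2
    | exact absurd e h.2.2.symm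

theorem tp_conj_sub (hf : ∀ r, Set.InjOn (f r) U) (hV : V ⊆ U) (hT : Set.InjOn Prod.fst T)
    {u v w : Col × R} (hx : x ∈ T) (hy : y ∈ T) (hz : z ∈ T) (hu : u ∈ T) (hv : v ∈ T)
    (hw : w ∈ T) (h : D3 x y z) (h' : D3 u v w) :
    tp U f x y z * tp V f u v w * (tp U f x y z)⁻¹ =
      tp V f (c3 x y z u) (c3 x y z v) (c3 x y z w) := by
  have hm := tp_msec hf hT
  rw [tp_pos (tp_d3 hT hx hy hz h), tp_pos (tp_d3 hT hu hv hw h'),
    tp_pos (tp_d3 hT (c3_mem hx hy hz hu) (c3_mem hx hy hz hv) (c3_mem hx hy hz hw) (h'.perm _)),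
    tri_conj]
  exact tri_congr (fun p hp => tri_apply hm hx hy hz hu h (hV hp))
    (fun p hp => tri_apply hm hx hy hz hv h (hV hp)) fun p hp => tri_apply hm hx hy hz hw h (hV hp)

theorem tp_unit_apply {a b c : Col} (h : D3 a b c) (p : B) (u : Col) :
    tp (R := Unit) Set.univ (fun _ => id) (a, ()) (b, ()) (c, ()) (p, u) = (p, c3 a b c u) := by
  have hm : MSec (Set.univ : Set B) Set.univ fun (c : Col) (p : B) => (p, c) :=
    fun _ _ _ _ _ _ _ _ he => ⟨(Prod.mk.inj he).2, (Prod.mk.inj he).1⟩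
  rw [tp_pos h]
  exact tri_apply hm trivial trivial trivial trivial h trivial

theorem tp_unit_conj {a b c : Col} (h : D3 a b c) (h' : D3 x.1 y.1 z.1) :
    tp (R := Unit) Set.univ (fun _ => id) (a, ()) (b, ()) (c, ()) * tp U f x y z *
      (tp (R := Unit) Set.univ (fun _ => id) (a, ()) (b, ()) (c, ()))⁻¹ =
      tp U f (c3 a b c x.1, x.2) (c3 a b c y.1, y.2) (c3 a b c z.1, z.2) := by
  rw [tp_pos h', tp_pos (x := (c3 a b c x.1, x.2)) (h'.perm _), tri_conj]
  exact tri_congr (fun p _ => tp_unit_apply h _ _) (fun p _ => tp_unit_apply h _ _)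
    fun p _ => tp_unit_apply h _ _

theorem tp_ext3 (a b c a' b' c' : Col) : ∃ p q r : Col, D3 p q r ∧
    Disjoint ({a, b, c} : Set Col) {p, q, r} ∧
      ∀ t ∈ ({a', b', c'} : Set Col), t ∉ ({a, b, c} : Set Col) → t ∈ ({p, q, r} : Set Col) := by
  have h1 : (({a', b', c'} : Finset Col) \ {a, b, c}).card ≤ 3 :=
    (Finset.card_le_card Finset.sdiff_subset).trans Finset.card_le_three
  have h2 : 3 ≤ (({a, b, c} : Finset Col)ᶜ).card := by
    have h3 : ({a, b, c} : Finset Col).card ≤ 3 := Finset.card_le_three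
    rw [Finset.card_compl, Fintype.card_fin]
    omega
  obtain ⟨u, u1, u2, u3⟩ := Finset.exists_subsuperset_card_eq
    (fun t ht => Finset.mem_compl.2 (Finset.mem_sdiff.1 ht).2) h1 h2
  obtain ⟨p, q, r, d1, d2, d3, rfl⟩ := Finset.card_eq_three.1 u3
  refine ⟨p, q, r, ⟨d1, d3, d2⟩, Set.disjoint_right.2 fun t ht ht' => ?_, fun t ht ht' => ?_⟩
  · exact Finset.mem_compl.1 (u2 (by simpa using ht)) (by simpa using ht')
  · simpa using u1 (Finset.mem_sdiff.2 ⟨by simpa using ht, by simpa using ht'⟩)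

theorem Lam.map_one (h : Lam S lam) : lam 1 = 1 := by
  have h1 := h.mul 1 h.one 1 h.one (by rw [one_mul]; exact h.one)
  rw [one_mul] at h1
  exact mul_eq_left.1 h1

theorem Lam.commute (h : Lam S lam) {a b : Perm (B × Col)} (ha : a ∈ S) (hb : b ∈ S)
    (hd : Disjoint (supp a) (supp b)) : Commute (lam a) (lam b) := by
  have e : a * b * a⁻¹ = b := by rw [(commute_of_supp hd).eq, mul_inv_cancel_right]
  have h1 := h.conj a ha b hb (by rw [e]; exact hb)
  rw [e] at h1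
  exact mul_inv_eq_iff_eq_mul.1 h1

theorem Lam.tp_alt (h : Lam S lam) (hf : ∀ r, Set.InjOn (f r) U) (hm : ∀ x y z, tp U f x y z ∈ S)
    (hT : Set.InjOn Prod.fst T) : IsAlt T fun x y z => lam (tp U f x y z) := by
  have hA := _root_.Vale.Agent.P196.tp_alt hf hT
  refine ⟨fun x y z hx hy hz h3 => congrArg lam (hA.cyc hx hy hz h3), fun x y z hx hy hz h3 => ?_,
    fun x y z u v w hx hy hz hu hv hw h3 h4 => ?_, fun x b c v hx hb hc hv h3 h4 h5 => ?_⟩
  · have e := hA.inv hx hy hz h3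
    rw [h.mul _ (hm _ _ _) _ (hm _ _ _) (by rw [e]; exact h.one), e, h.map_one]
  · have e := hA.conj hx hy hz hu hv hw h3 h4
    rw [h.conj _ (hm _ _ _) _ (hm _ _ _) (by rw [e]; exact hm _ _ _), e]
  · have e := hA.mul hx hb hc hv h3 h4 h5
    rw [h.mul _ (hm _ _ _) _ (hm _ _ _) (by rw [e]; exact hm _ _ _), e]

theorem tp_good (lam : Perm (B × Col) → Γ) (hm : tp U f x y z ∈ S) :
    Good (fun J => Subgroup.closure (lam '' {s | s ∈ S ∧ ∀ ω ∈ supp s, ω.2 ∉ J}))
      {x.1, y.1, z.1} (lam (tp U f x y z)) := fun _ _ _ _ hd =>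
  Subgroup.subset_closure ⟨_, ⟨hm, fun _ hω => Set.disjoint_left.1 hd (tp_supp hω).1⟩, rfl⟩

theorem tp_commute_closure {A : Set Γ} {g k : Γ} (hk : k ∈ Subgroup.closure A)
    (h : ∀ a ∈ A, Commute g a) : Commute g k := by
  induction hk using Subgroup.closure_induction with
  | mem a ha => exact h a ha
  | one => exact Commute.one_right g
  | mul a b _ _ ha hb => exact ha.mul_right hb
  | inv a _ ha => exact ha.inv_right

theorem Lam.ac (h : Lam S lam) (a b c : Col) (g k : Γ)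
    (hg : Good (fun J => Subgroup.closure (lam '' {s | s ∈ S ∧ ∀ ω ∈ supp s, ω.2 ∉ J}))
      {a, b, c} g)
    (hk : k ∈ Subgroup.closure (lam '' {s | s ∈ S ∧ ∀ ω ∈ supp s, ω.2 ∉ ({a, b, c} : Set Col)})) :
    Commute g k := by
  refine tp_commute_closure hk ?_
  rintro _ ⟨s, ⟨hs, hs'⟩, rfl⟩
  obtain ⟨a', b', c', h1⟩ := h.small s hs
  obtain ⟨p, q, r, d1, d2, d3⟩ := tp_ext3 a b c a' b' c'
  refine (tp_commute_closure (hg p q r d1 d2) ?_).symm
  rintro _ ⟨s', ⟨ht, ht'⟩, rfl⟩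
  exact h.commute hs ht (Set.disjoint_left.2 fun ω hω hω' =>
    ht' ω hω' (d3 _ (h1 ω hω) (hs' ω hω)))

end tpaux

noncomputable def Lam.env (h : Lam S lam) : Env Γ where
  Av J := Subgroup.closure (lam '' {s | s ∈ S ∧ ∀ ω ∈ supp s, ω.2 ∉ J})
  ac a b c _ g k hg hk := h.ac a b c g k hg hk
  e a b c := lam (tp (R := Unit) Set.univ (fun _ => id) (a, ()) (b, ()) (c, ()))
  e_junk a b c h3 := by rw [tp_neg h3, h.map_one]
  e_alt := (h.tp_alt (T := Set.univ) (fun _ => Set.injOn_id _) h.unit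
    fun _ _ _ _ e => Prod.ext e rfl).comap (f := fun a : Col => (a, ()))
      (fun _ _ _ _ e => (Prod.mk.inj e).1) (Set.mapsTo_univ _ _)
  e_good a b c _ := tp_good lam (h.unit (a, ()) (b, ()) (c, ()))

/-- Admissible data: injective sheets, all 3-cycles in `S`. -/
structure Adm (S : Set (Perm (B × Col))) {R : Type} (U : Set B) (f : R → B → B) : Prop where
  inj : ∀ r, Set.InjOn (f r) U
  mem : ∀ x y z, tp U f x y z ∈ S

variable {R R' : Type} {U U' V : Set B} {f f' : R → B → B}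

noncomputable def Lam.patch (h : Lam S lam) (ha : Adm S U f) : Patch h.env R where
  φ x y z := lam (tp U f x y z)
  junk x y z h3 := by rw [tp_neg h3, h.map_one]
  alt T hT := h.tp_alt ha.inj ha.mem hT
  eqv a b c h3 x y z h4 := by
    have e := tp_unit_conj (U := U) (f := f) h3 h4
    exact (h.conj _ (h.unit _ _ _) _ (ha.mem _ _ _) (by rw [e]; exact ha.mem _ _ _)).trans
      (congrArg lam e)
  good x y z _ := tp_good lam (ha.mem x y z)

theorem Adm.comap (ha : Adm S U f) (g : R' → R) : Adm S U (f ∘ g) :=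
  ⟨fun r => ha.inj (g r), fun x y z => ha.mem (x.1, g x.2) (y.1, g y.2) (z.1, g z.2)⟩

theorem Lam.patch_comap (h : Lam S lam) (ha : Adm S U f) (g : R' → R) :
    (h.patch ha).comap g = h.patch (ha.comap g) := Patch.ext rfl

theorem tp_reparam {j : B → B} (hj : Set.InjOn j U') (he : ∀ r, Set.EqOn (f' r) (f r ∘ j) U')
    (x y z : Col × R) : tp U' f' x y z = tp (j '' U') f x y z := by
  by_cases h3 : D3 x.1 y.1 z.1
  · rw [tp_pos h3, tp_pos h3, ← tri_reparam hj]
    exact tri_congr (fun p hp => Prod.ext (he x.2 hp) rfl) (fun p hp => Prod.ext (he y.2 hp) rfl)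
      fun p hp => Prod.ext (he z.2 hp) rfl
  · rw [tp_neg h3, tp_neg h3]

theorem Lam.patch_eq (h : Lam S lam) (ha : Adm S U f) (ha' : Adm S U' f') {j : B → B}
    (hj : Set.InjOn j U') (hU : j '' U' = U) (he : ∀ r, Set.EqOn (f' r) (f r ∘ j) U') :
    h.patch ha' = h.patch ha := by
  refine Patch.ext (funext fun x => funext fun y => funext fun z => ?_)
  change lam (tp U' f' x y z) = lam (tp U f x y z)
  rw [tp_reparam hj he, hU]

theorem Lam.patch_sub (h : Lam S lam) (ha : Adm S U f) (ha' : Adm S U' f') {j : B → B}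
    (hj : Set.InjOn j U') (hU : j '' U' ⊆ U) (he : ∀ r, Set.EqOn (f' r) (f r ∘ j) U') :
    (h.patch ha').Sub (h.patch ha) := by
  intro T hT x hx y hy z hz u hu v hv w hw h3 h4
  have e := tp_conj_sub ha.inj hU hT hx hy hz hu hv hw h3 h4
  rw [← tp_reparam hj he, ← tp_reparam hj he] at e
  exact (h.conj _ (ha.mem _ _ _) _ (ha'.mem _ _ _) (by rw [e]; exact ha'.mem _ _ _)).trans
    (congrArg lam e)

theorem Lam.patch_orth (h : Lam S lam) {g g' : Unit → B → B} (ha : Adm S U g) (ha' : Adm S U' g')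
    (hd : Disjoint (g () '' U) (g' () '' U')) : (h.patch ha).Orth (h.patch ha') := by
  intro x y z u v w
  refine h.commute (ha.mem x y z) (ha'.mem u v w) (Set.disjoint_left.2 fun ω h1 h2 => ?_)
  obtain ⟨-, _, h3⟩ := tp_supp h1
  obtain ⟨-, _, h4⟩ := tp_supp h2
  exact Set.disjoint_left.1 hd h3 h4

theorem Lam.patch_add (h : Lam S lam) {g : Unit → B → B} (ha : Adm S U g) (ha' : Adm S V g)
    (ha'' : Adm S (U ∪ V) g) (hd : Disjoint U V) :
    h.patch ha'' = (h.patch ha).add (h.patch ha') := by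
  have ho := h.patch_orth ha ha' (Set.disjoint_left.2 (by
    rintro _ ⟨p, hp, rfl⟩ ⟨q, hq, e⟩
    exact Set.disjoint_left.1 hd hp (ha''.inj () (Or.inr hq) (Or.inl hp) e ▸ hq)))
  refine Patch.ext (funext fun x => funext fun y => funext fun z => ?_)
  rw [Patch.add_apply ho]
  have e : tp U g x y z * tp V g x y z = tp (U ∪ V) g x y z := by
    by_cases h3 : D3 x.1 y.1 z.1
    · rw [tp_pos h3, tp_pos h3, tp_pos h3, tri_union hd (tp_three ha''.inj h3)]
    · rw [tp_neg h3, tp_neg h3, tp_neg h3, one_mul]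
  exact ((h.mul _ (ha.mem x y z) _ (ha'.mem x y z) (by rw [e]; exact ha''.mem x y z)).trans
    (congrArg lam e)).symm

theorem Lam.patch_empty (h : Lam S lam) (ha : Adm S ∅ f) : h.patch ha = Patch.zero h.env R := by
  refine Patch.ext (funext fun x => funext fun y => funext fun z => ?_)
  change lam (tp ∅ f x y z) = 1
  by_cases h3 : D3 x.1 y.1 z.1
  · rw [tp_pos h3, tri_empty, h.map_one]
  · rw [tp_neg h3, h.map_one]

theorem Lam.patch_univ (h : Lam S lam) (ha : Adm S Set.univ fun _ : Unit => (id : B → B)) :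
    h.patch ha = Patch.one h.env := Patch.ext rfl

/-- All permutations living on three colours. -/
def allS (B : Type) : Set (Perm (B × Col)) :=
  {s | ∃ a b c : Col, ∀ ω ∈ supp s, ω.2 ∈ ({a, b, c} : Set Col)}

theorem lam_all (B : Type) : Lam (allS B) (id : Perm (B × Col) → Perm (B × Col)) :=
  ⟨⟨0, 0, 0, fun _ h => absurd rfl h⟩, fun _ hs => hs,
    fun x y z => ⟨x.1, y.1, z.1, fun _ h => (tp_supp h).1⟩, fun _ _ _ _ _ => rfl,
    fun _ _ _ _ _ => rfl⟩

theorem adm_all (hf : ∀ r, Set.InjOn (f r) U) : Adm (allS B) U f :=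
  ⟨hf, fun x y z => ⟨x.1, y.1, z.1, fun _ h => (tp_supp h).1⟩⟩

/-- The projection is a morphism of environments. -/
def Lam.hom (h : Lam S lam) (π : Γ →* Perm (B × Col)) (hπ : ∀ s ∈ S, π (lam s) = s) :
    EnvHom h.env (lam_all B).env where
  f := π
  av J x hx := by
    refine (Subgroup.closure_le (((lam_all B).env.Av J).comap π)).2 ?_ hx
    rintro _ ⟨s, ⟨hs, hs'⟩, rfl⟩
    exact Subgroup.subset_closure ⟨s, ⟨h.small s hs, hs'⟩, (hπ s hs).symm⟩
  e a b c := hπ _ (h.unit _ _ _)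

end Vale.Agent.P196
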