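import Vale.Agent.P196.TruePatch
import Vale.Agent.P196.RepBasic

/-! Values of small pieces. -/

namespace Vale.Agent.P196

open X Equiv

/-- A representation of the groupoid in the patch calculus of `E`. -/
structure GRep {Γ : Type} [Group Γ] (E : Env Γ) where
  A : LS E.ql
  ρ : Set X → E.ql.P
  rep : IsRep A ρ
  pi : PathIndep A ρ

/-- The sheet of a coloured word. -/
def wsh (y : Col × List Op) : X → X × Col := fun p => (run ap y.2 p, y.1)

/-- Two coloured words valid on `U` with disjoint sheets. -/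
def WDis (U : Set X) (y y' : Col × List Op) : Prop :=
  y ≠ y' ∧ (∀ p ∈ U, Valid y.2 p) ∧ (∀ p ∈ U, Valid y'.2 p) ∧ Disjoint (wsh y '' U) (wsh y' '' U)

/-- A piece: three pairwise disjoint sheets over a clopen set. -/
def Piece (U : Set X) (x y u : Col × List Op) : Prop :=
  IsClopen U ∧ WDis U x y ∧ WDis U y u ∧ WDis U x u

section Aux

variable {U V : Set X} {x y u : Col × List Op} {T : Set (Col × List Op)} {l : List Op}

theorem v1_fresh (l : List Col) (h : l.length < 40) : ∃ c, c ∉ l := by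
  by_contra hn
  push Not at hn
  have h1 := (Finset.card_le_card (fun c _ => List.mem_toFinset.2 (hn c) :
    Finset.univ ⊆ l.toFinset)).trans l.toFinset_card_le
  rw [Finset.card_univ, Fintype.card_fin] at h1
  omega

theorem v1_fresh2 (l : List Col) (h : l.length < 39) : ∃ a w, a ≠ w ∧ a ∉ l ∧ w ∉ l := by
  obtain ⟨a, ha⟩ := v1_fresh l (by omega)
  obtain ⟨w, hw⟩ := v1_fresh (a :: l) (Nat.succ_lt_succ h)
  exact ⟨a, w, fun e => hw (by simp [e]), ha, fun e => hw (by simp [e])⟩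

theorem v1_act_cancel {Q : QL} {x y w : Q.W} (hx : Q.src x = Q.tgt w) (hy : Q.src y = Q.tgt w)
    (h : Q.act x w = Q.act y w) : x = y := by
  have key : ∀ x, Q.src x = Q.tgt w → x = Q.act (Q.act x w) (Q.inv w) := fun x hx => by
    rw [Q.act_assoc (by rw [Q.tgt_inv]; exact Q.le_refl _) (by rw [hx]; exact Q.le_refl _),
      Q.act_inv, ← hx, Q.act_idw]
  rw [key x hx, h, ← key y hy]

theorem v1_ext4_commute {Y Γ : Type} [Group Γ] {φ : Y → Y → Y → Γ} {γ : Γ} {a w x y u : Y}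
    (h : ∀ p ∈ [x, y, u, a, w], ∀ q ∈ [x, y, u, a, w], ∀ r ∈ [x, y, u, a, w], Commute γ (φ p q r)) :
    Commute γ (ext4 φ a w x y u) :=
  (((h _ (by simp) _ (by simp) _ (by simp)).mul_right
    (h _ (by simp) _ (by simp) _ (by simp))).mul_right
    (h _ (by simp) _ (by simp) _ (by simp))).mul_right (h _ (by simp) _ (by simp) _ (by simp))

theorem continuous_wsh (y : Col × List Op) : Continuous (wsh y) :=
  (continuous_run _).prodMk continuous_const

theorem isClopen_wsh (hU : IsClopen U) (h : ∀ p ∈ U, Valid y.2 p) : IsClopen (wsh y '' U) := by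
  rw [show wsh y '' U = (run ap y.2 '' U) ×ˢ {y.1} from
    (Set.image_image (fun p => (p, y.1)) _ _).symm.trans Set.prod_singleton.symm]
  exact (isClopen_image_run hU h).prod (isClopen_discrete _)

theorem injOn_wsh (h : ∀ p ∈ U, Valid y.2 p) : Set.InjOn (wsh y) U :=
  fun p hp q hq e => injOn_run y.2 (h p hp) (h q hq) (congrArg Prod.fst e)

theorem disjoint_wsh (h : x.1 ≠ y.1) : Disjoint (wsh x '' U) (wsh y '' V) :=
  Set.disjoint_left.2 <| by
    rintro _ ⟨p, -, rfl⟩ ⟨q, -, e⟩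
    exact h (congrArg Prod.snd e).symm

theorem WDis.symm (h : WDis U x y) : WDis U y x := ⟨h.1.symm, h.2.2.1, h.2.1, h.2.2.2.symm⟩

theorem WDis.of_col (h : x.1 ≠ y.1) (hx : ∀ p ∈ U, Valid x.2 p) (hy : ∀ p ∈ U, Valid y.2 p) :
    WDis U x y := ⟨fun e => h (e ▸ rfl), hx, hy, disjoint_wsh h⟩

theorem WDis.mono (h : WDis U x y) (hV : V ⊆ U) : WDis V x y :=
  ⟨h.1, fun p hp => h.2.1 p (hV hp), fun p hp => h.2.2.1 p (hV hp),
    h.2.2.2.mono (Set.image_mono hV) (Set.image_mono hV)⟩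

theorem image_wsh_pre (l : List Op) (U : Set X) (x : Col × List Op) :
    wsh (x.1, l ++ x.2) '' U = wsh x '' (run ap l '' U) := by
  rw [Set.image_image]
  exact Set.image_congr fun p _ => by simp only [wsh, run_append]

theorem WDis.pre (hl : ∀ p ∈ U, Valid l p) (h : WDis (run ap l '' U) x y) :
    WDis U (x.1, l ++ x.2) (y.1, l ++ y.2) :=
  ⟨fun e => h.1 (Prod.ext (congrArg Prod.fst e :) (List.append_cancel_left (congrArg Prod.snd e))),
    fun p hp => valid_append.2 ⟨hl p hp, h.2.1 _ ⟨p, hp, rfl⟩⟩,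
    fun p hp => valid_append.2 ⟨hl p hp, h.2.2.1 _ ⟨p, hp, rfl⟩⟩,
    by rw [image_wsh_pre, image_wsh_pre]; exact h.2.2.2⟩

theorem Piece.mono (h : Piece U x y u) (hV : IsClopen V) (hVU : V ⊆ U) : Piece V x y u :=
  ⟨hV, h.2.1.mono hVU, h.2.2.1.mono hVU, h.2.2.2.mono hVU⟩

theorem Piece.rot (h : Piece U x y u) : Piece U y u x := ⟨h.1, h.2.2.1, h.2.2.2.symm, h.2.1.symm⟩

theorem Piece.swap (h : Piece U x y u) : Piece U x u y := ⟨h.1, h.2.2.2, h.2.2.1.symm, h.2.1⟩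

theorem Piece.d3 (h : Piece U x y u) : D3 x y u := ⟨h.2.1.1, h.2.2.1.1, h.2.2.2.1⟩

theorem Piece.of_col (hU : IsClopen U) (h : D3 x.1 y.1 u.1) (hx : ∀ p ∈ U, Valid x.2 p)
    (hy : ∀ p ∈ U, Valid y.2 p) (hu : ∀ p ∈ U, Valid u.2 p) : Piece U x y u :=
  ⟨hU, .of_col h.1 hx hy, .of_col h.2.1 hy hu, .of_col h.2.2 hx hu⟩

theorem Piece.valid (h : Piece U x y u) : ∀ q ∈ [x, y, u], ∀ p ∈ U, Valid q.2 p := by
  simp only [List.forall_mem_cons]
  exact ⟨h.2.1.2.1, h.2.2.1.2.1, h.2.2.1.2.2.1, by simp⟩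

theorem Piece.pairwise (h : Piece U x y u) : {q | q ∈ [x, y, u]}.Pairwise (WDis U) := by
  intro p hp q hq hne
  simp only [Set.mem_ofPred_eq, List.mem_cons, List.not_mem_nil, or_false] at hp hq
  rcases hp with rfl | rfl | rfl <;> rcases hq with rfl | rfl | rfl
  exacts [absurd rfl hne, h.2.1, h.2.2.2, h.2.1.symm, absurd rfl hne, h.2.2.1, h.2.2.2.symm,
    h.2.2.1.symm, absurd rfl hne]

theorem Piece.valid5 (h : Piece U x y u) (a w : Col) :
    ∀ q ∈ [x, y, u, (a, []), (w, [])], ∀ p ∈ U, Valid q.2 p := by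
  simp only [List.forall_mem_cons]
  exact ⟨h.2.1.2.1, h.2.2.1.2.1, h.2.2.1.2.2.1, fun _ _ => trivial, fun _ _ => trivial, by simp⟩

theorem Piece.pairwise5 (h : Piece U x y u) {a w : Col} (haw : a ≠ w) (ha : a ∉ [x.1, y.1, u.1])
    (hw : w ∉ [x.1, y.1, u.1]) :
    {q | q ∈ [x, y, u, (a, []), (w, [])]}.Pairwise (WDis U) := by
  intro p hp q hq hne
  by_cases e : p.1 = q.1
  swap
  · exact .of_col e (h.valid5 a w p hp) (h.valid5 a w q hq)
  have key : ∀ p ∈ [x, y, u, (a, []), (w, [])], ∀ q ∈ [x, y, u, (a, []), (w, [])], p ≠ q →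
      p.1 = q.1 → p ∈ [x, y, u] := by
    simp only [List.mem_cons, List.not_mem_nil, or_false, not_or] at ha hw ⊢
    rintro p (h | h | h | rfl | rfl) q hq hne e
    exacts [.inl h, .inr (.inl h), .inr (.inr h), by rcases hq with rfl | rfl | rfl | rfl | rfl <;>
      simp_all, by rcases hq with rfl | rfl | rfl | rfl | rfl <;> simp_all]
  exact h.pairwise (key p hp q hq hne e) (key q hq p hp hne.symm e.symm) hne

theorem v1_msec (h : T.Pairwise (WDis U)) (hv : ∀ q ∈ T, ∀ p ∈ U, Valid q.2 p) : MSec U T wsh := by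
  intro y hy y' hy' p hp p' hp' e
  by_cases hne : y = y'
  · subst hne
    exact ⟨rfl, injOn_wsh (hv y hy) hp hp' e⟩
  · exact absurd ⟨p', hp', e.symm⟩ (Set.disjoint_left.1 (h hy hy' hne).2.2.2 ⟨p, hp, rfl⟩)

theorem Piece.msec (h : Piece U x y u) : MSec U Set.univ ![wsh x, wsh y, wsh u] :=
  (v1_msec h.pairwise h.valid).three (by simp) (by simp) (by simp) h.d3

theorem Piece.tri_rot (h : Piece U x y u) :
    tri U (wsh x) (wsh y) (wsh u) = tri U (wsh y) (wsh u) (wsh x) :=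
  (v1_msec h.pairwise h.valid).isAlt.cyc (by simp) (by simp) (by simp) h.d3

theorem v1_encard {α : Type} (l : List α) : {q | q ∈ l}.encard ≤ l.length := by
  classical
  rw [← List.coe_toFinset, Set.encard_coe_eq_coe_finsetCard]
  exact_mod_cast l.toFinset_card_le

end Aux

variable {Γ : Type} [Group Γ] {E : Env Γ} (R : GRep E)

namespace GRep

open Classical in
theorem exists_psi (U : Set X) : ∃ Ψ : Patch E (List Op), IsClopen U →
    ∀ l, (∀ p ∈ U, Valid l p) → Ψ.sh2 [] l = arr R.A R.ρ l U := by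
  by_cases hU : IsClopen U
  swap
  · exact ⟨Patch.zero E _, fun h => absurd h hU⟩
  obtain ⟨Ψ, h⟩ := Patch.exists_glue [] (R.ρ U) (fun l => if ∀ p ∈ U, Valid l p then
    arr R.A R.ρ l U else Patch.comap (R.ρ U) fun _ => ()) (fun l => by
      by_cases h : ∀ p ∈ U, Valid l p
      · exact (congrArg (fun w => Patch.sheet w false) (if_pos h)).trans (R.rep.src_arr hU h)
      · exact (congrArg (fun w => Patch.sheet w false) (if_neg h)).trans rfl) (if_pos fun _ _ => trivial)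
  exact ⟨Ψ, fun _ l hl => (h l).trans (if_pos hl)⟩

noncomputable def psi (U : Set X) : Patch E (List Op) := (R.exists_psi U).choose

noncomputable def val (U : Set X) (x y u : Col × List Op) : Γ :=
  lext Prod.fst (fun c => (c, [])) (R.psi U).φ x y u

variable {R} {U V : Set X} {x y u x' y' u' : Col × List Op}

theorem psi_sh2 (hU : IsClopen U) {l : List Op} (hl : ∀ p ∈ U, Valid l p) :
    (R.psi U).sh2 [] l = arr R.A R.ρ l U := (R.exists_psi U).choose_spec hU l hl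

theorem psi_sheet (hU : IsClopen U) {l : List Op} (hl : ∀ p ∈ U, Valid l p) :
    (R.psi U).sheet l = R.ρ (run ap l '' U) :=
  (congrArg (fun w => Patch.sheet w true) (psi_sh2 hU hl)).trans (R.rep.tgt_arr hU hl)

theorem psi_commute (hU : IsClopen U) (hV : IsClopen V) {L L' : List (Col × List Op)}
    (h1 : ∀ q ∈ L, ∀ p ∈ U, Valid q.2 p) (h2 : ∀ q ∈ L', ∀ p ∈ V, Valid q.2 p)
    (h : ∀ q ∈ L, ∀ q' ∈ L', Disjoint (wsh q '' U) (wsh q' '' V)) (hx : x ∈ L) (hy : y ∈ L)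
    (hu : u ∈ L) (hx' : x' ∈ L') (hy' : y' ∈ L') (hu' : u' ∈ L') :
    Commute ((R.psi U).φ x y u) ((R.psi V).φ x' y' u') := by
  refine Patch.cross_comm _ _ fun q hq q' hq' e => ?_
  have a1 : q ∈ L := by rcases hq with rfl | rfl | rfl <;> assumption
  have a2 : q' ∈ L' := by rcases hq' with rfl | rfl | rfl <;> assumption
  rw [psi_sheet hU (h1 q a1), psi_sheet hV (h2 q' a2)]
  refine R.rep.orth _ _ (isClopen_image_run hU (h1 q a1)) (isClopen_image_run hV (h2 q' a2))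
    (Set.disjoint_left.2 ?_)
  rintro _ ⟨p, hp, rfl⟩ ⟨p', hp', e'⟩
  exact Set.disjoint_left.1 (h q a1 q' a2) ⟨p, hp, rfl⟩ ⟨p', hp', Prod.ext e' e.symm⟩

theorem locSys (hU : IsClopen U) :
    LocSys Prod.fst (fun c => (c, [])) (WDis U) (R.psi U).φ := by
  refine ⟨fun _ => rfl, fun y => (R.psi U).alt _ ?_, fun y h => h.1 rfl,
    fun y y' h c₁ c₂ c₃ c₄ hn hd => ?_⟩
  · rintro _ (rfl | ⟨c, hc, rfl⟩) _ (rfl | ⟨c', hc', rfl⟩) e
    exacts [rfl, absurd e.symm hc', absurd e hc, Prod.ext e rfl]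
  · simp only [List.nodup_cons, List.mem_cons, List.not_mem_nil, or_false, not_or,
      Set.disjoint_insert_left, Set.disjoint_singleton_left, Set.mem_insert_iff,
      Set.mem_singleton_iff] at hn hd
    refine psi_commute hU hU (L := [y, (c₁, []), (c₂, [])]) (L' := [y', (c₃, []), (c₄, [])])
      ?_ ?_ ?_ (by simp) (by simp) (by simp) (by simp) (by simp) (by simp) <;>
      simp only [List.forall_mem_cons]
    · exact ⟨h.2.1, fun _ _ => trivial, fun _ _ => trivial, by simp⟩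
    · exact ⟨h.2.2.1, fun _ _ => trivial, fun _ _ => trivial, by simp⟩
    · exact ⟨⟨h.2.2.2, disjoint_wsh (Ne.symm hd.2.2.1.1), disjoint_wsh (Ne.symm hd.2.2.2.1),
        by simp⟩, ⟨disjoint_wsh hd.1.2, disjoint_wsh hn.1.2.1, disjoint_wsh hn.1.2.2, by simp⟩,
        ⟨disjoint_wsh hd.2.1.2, disjoint_wsh hn.2.1.1, disjoint_wsh hn.2.1.2, by simp⟩, by simp⟩

theorem val_isAlt (hU : IsClopen U) {T : Set (Col × List Op)} (hT : T.encard ≤ 16)
    (hD : T.Pairwise (WDis U)) : IsAlt T (R.val U) :=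
  ((locSys hU).isAlt hT hD).mono Set.subset_union_left

theorem val_ci (h3 : D3 x.1 y.1 u.1) : R.val U x y u = (R.psi U).φ x y u := by
  obtain ⟨h1, h2, h4⟩ := fresh2_spec x.1 y.1 u.1
  unfold val lext
  generalize fresh2 x.1 y.1 u.1 = f at *
  simp only [Set.mem_insert_iff, Set.mem_singleton_iff, not_or] at h2 h4
  have hn : ([x, y, u, (f.1, []), (f.2, [])].map Prod.fst).Nodup := by
    simp [h3.1, h3.2.1, h3.2.2, h1, Ne.symm h2.1, Ne.symm h2.2.1, Ne.symm h2.2.2, Ne.symm h4.1,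
      Ne.symm h4.2.1, Ne.symm h4.2.2]
  refine (((R.psi U).alt {q | q ∈ [x, y, u, (f.1, []), (f.2, [])]}
    fun _ h _ h' => List.inj_on_of_nodup_map hn h h').decomp (by simp) (by simp) (by simp)
    (by simp) (by simp) ⟨ne_of_apply_ne _ h3.1, ne_of_apply_ne _ h3.2.1,
      ne_of_apply_ne _ h3.2.2⟩ (fun e => h1 (congrArg Prod.fst e)) ?_ ?_).symm <;>
    rintro (rfl | rfl | rfl) <;> simp_all

theorem val_fresh (h : Piece U x y u) {a w : Col} (haw : a ≠ w) (ha : a ∉ [x.1, y.1, u.1])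
    (hw : w ∉ [x.1, y.1, u.1]) : R.val U x y u = ext4 (R.psi U).φ (a, []) (w, []) x y u :=
  (locSys h.1).lext_fresh h.2.1 h.2.1.symm h.2.2.1 h.2.2.1.symm h.2.2.2 h.2.2.2.symm haw
    (by simpa using ha) (by simpa using hw)

theorem val_rot (h : Piece U x y u) : R.val U x y u = R.val U y u x :=
  (val_isAlt h.1 ((v1_encard _).trans (by simp; norm_num)) h.pairwise).cyc (by simp) (by simp)
    (by simp) h.d3

/-- The four factor word in terms of arrows. -/
theorem ext4_psi (h : Piece U x y u) (a w : Col) : ext4 (R.psi U).φ (a, []) (w, []) x y u =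
    (arr R.A R.ρ y.2 U).φ (a, false) (y.1, true) (w, false) *
      (arr R.A R.ρ x.2 U).φ (x.1, true) (a, false) (w, false) *
      (arr R.A R.ρ u.2 U).φ (a, false) (u.1, true) (w, false) *
      (arr R.A R.ρ y.2 U).φ (y.1, true) (a, false) (w, false) := by
  rw [← psi_sh2 h.1 h.2.1.2.1, ← psi_sh2 h.1 h.2.2.1.2.1, ← psi_sh2 h.1 h.2.2.1.2.2.1]
  rfl

theorem val_empty' : R.val ∅ x y u = 1 := by
  have h : R.psi ∅ = Patch.zero E _ := Patch.eq_zero_of_sheet (r₀ := [])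
    ((psi_sheet isClopen_empty (by simp)).trans (by rw [Set.image_empty]; exact R.rep.empty))
  simp [val, lext, ext4, h, Patch.zero]

theorem val_congr (h : Piece U x y u) (h' : Piece U x' y' u') (hx : Set.EqOn (wsh x) (wsh x') U)
    (hy : Set.EqOn (wsh y) (wsh y') U) (hu : Set.EqOn (wsh u) (wsh u') U) :
    R.val U x y u = R.val U x' y' u' := by
  rcases U.eq_empty_or_nonempty with rfl | ⟨p, hp⟩
  · rw [val_empty', val_empty']
  have e1 : x.1 = x'.1 := congrArg Prod.snd (hx hp)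
  have e2 : y.1 = y'.1 := congrArg Prod.snd (hy hp)
  have e3 : u.1 = u'.1 := congrArg Prod.snd (hu hp)
  unfold val lext
  rw [ext4_psi h, ext4_psi h', e1, e2, e3,
    R.pi U _ _ h.1 h.2.1.2.1 h'.2.1.2.1 fun q hq => congrArg Prod.fst (hx hq),
    R.pi U _ _ h.1 h.2.2.1.2.1 h'.2.2.1.2.1 fun q hq => congrArg Prod.fst (hy hq),
    R.pi U _ _ h.1 h.2.2.1.2.2.1 h'.2.2.1.2.2.1 fun q hq => congrArg Prod.fst (hu hq)]

theorem psi_sh2_append {l m : List Op} (hU : IsClopen U) (hl : ∀ p ∈ U, Valid l p)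
    (hm : ∀ p ∈ run ap l '' U, Valid m p) :
    (R.psi U).sh2 (l ++ []) (l ++ m) = arr R.A R.ρ m (run ap l '' U) := by
  have hlm : ∀ p ∈ U, Valid (l ++ m) p := fun p hp => valid_append.2 ⟨hl p hp, hm _ ⟨p, hp, rfl⟩⟩
  rw [List.append_nil]
  refine v1_act_cancel (Q := E.ql) (w := arr R.A R.ρ l U)
    ((psi_sheet hU hl).trans (R.rep.tgt_arr hU hl).symm)
    ((R.rep.src_arr (isClopen_image_run hU hl) hm).trans (R.rep.tgt_arr hU hl).symm) ?_
  rw [← R.rep.arr_append hU hlm, ← psi_sh2 hU hlm, ← psi_sh2 hU hl]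
  exact Patch.act_crit _ _ _ _ (Patch.Sub.refl _)

theorem val_reparam {l : List Op} (hU : IsClopen U) (hl : ∀ p ∈ U, Valid l p)
    (h : Piece (run ap l '' U) x y u) : R.val (run ap l '' U) x y u =
      R.val U (x.1, l ++ x.2) (y.1, l ++ y.2) (u.1, l ++ u.2) := by
  obtain ⟨a, w, haw, ha, hw⟩ := v1_fresh2 [x.1, y.1, u.1] (by simp)
  have hinj : Function.Injective fun q : Col × List Op => (q.1, l ++ q.2) := fun q q' e =>
    Prod.ext (congrArg Prod.fst e :) (List.append_cancel_left (congrArg Prod.snd e))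
  have h1 := (val_isAlt (R := R) hU (T := (fun q : Col × List Op => (q.1, l ++ q.2)) ''
    {q | q ∈ [x, y, u, (a, []), (w, [])]}) ((Set.encard_image_le _ _).trans
      ((v1_encard _).trans (by simp; norm_num))) (by
      rintro _ ⟨q, hq, rfl⟩ _ ⟨q', hq', rfl⟩ hne
      exact (h.pairwise5 haw ha hw hq hq' fun e => hne (e ▸ rfl)).pre hl)).comap hinj.injOn
    (Set.mapsTo_image _ _)
  rw [val_fresh h haw ha hw, ext4_psi h, ← psi_sh2_append hU hl h.2.1.2.1,
    ← psi_sh2_append hU hl h.2.2.1.2.1, ← psi_sh2_append hU hl h.2.2.1.2.2.1]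
  simp only [List.mem_cons, List.not_mem_nil, or_false, not_or] at ha hw
  refine Eq.trans ?_ (h1.decomp (a := (a, [])) (w := (w, [])) (by simp) (by simp) (by simp)
    (by simp) (by simp) h.d3 (fun e => haw (congrArg Prod.fst e))
    (by rintro (rfl | rfl | rfl) <;> simp_all) (by rintro (rfl | rfl | rfl) <;> simp_all)).symm
  unfold ext4
  beta_reduce
  rw [val_ci ⟨ha.2.1, Ne.symm hw.2.1, haw⟩, val_ci ⟨Ne.symm ha.1, haw, Ne.symm hw.1⟩,
    val_ci ⟨ha.2.2, Ne.symm hw.2.2, haw⟩, val_ci ⟨Ne.symm ha.2.1, haw, Ne.symm hw.2.1⟩]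
  rfl

theorem arr_union (hU : IsClopen U) (hV : IsClopen V) (hd : Disjoint U V) {l : List Op}
    (hl : ∀ p ∈ U ∪ V, Valid l p) (a b c : Col × Bool) : (arr R.A R.ρ l (U ∪ V)).φ a b c =
      (arr R.A R.ρ l U).φ a b c * (arr R.A R.ρ l V).φ a b c := by
  have key : ∀ W, IsClopen W → W ⊆ U ∪ V → Patch.Sub (arr R.A R.ρ l W) (arr R.A R.ρ l (U ∪ V)) ∧
      Patch.sheet (arr R.A R.ρ l W) false = R.ρ W := fun W hW h => by
    refine ⟨?_, R.rep.src_arr hW fun p hp => hl p (h hp)⟩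
    rw [R.rep.arr_restrict (hU.union hV) hW h hl]
    refine Patch.act_id_sub ?_
    rw [show Patch.sheet (arr R.A R.ρ l (U ∪ V)) false = R.ρ (U ∪ V) from
      R.rep.src_arr (hU.union hV) hl]
    exact R.rep.mono hW (hU.union hV) h
  have h1 := key U hU Set.subset_union_left
  have h2 := key V hV Set.subset_union_right
  refine h1.1.mul_eq h2.1 (r₀ := false) ?_ ?_ a b c
  · rw [h1.2, h2.2]
    exact R.rep.orth U V hU hV hd
  · rw [h1.2, h2.2, (key _ (hU.union hV) subset_rfl).2]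
    exact R.rep.union U V hU hV hd

theorem val_union (hU : IsClopen U) (hV : IsClopen V) (hd : Disjoint U V)
    (h : Piece (U ∪ V) x y u) : R.val (U ∪ V) x y u = R.val U x y u * R.val V x y u := by
  obtain ⟨a, w, haw, ha, hw⟩ := v1_fresh2 [x.1, y.1, u.1] (by simp)
  have h1 := h.mono hU Set.subset_union_left
  have h2 := h.mono hV Set.subset_union_right
  have hm := v1_msec (h.pairwise5 haw ha hw) (h.valid5 a w)
  have hc : ∀ p ∈ [x, y, u, (a, []), (w, [])], ∀ q ∈ [x, y, u, (a, []), (w, [])],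
      ∀ r ∈ [x, y, u, (a, []), (w, [])], ∀ p' ∈ [x, y, u, (a, []), (w, [])],
      ∀ q' ∈ [x, y, u, (a, []), (w, [])], ∀ r' ∈ [x, y, u, (a, []), (w, [])],
      Commute ((R.psi V).φ p q r) ((R.psi U).φ p' q' r') := fun p hp q hq r hr p' hp' q' hq' r' hr' =>
    psi_commute hV hU (h2.valid5 a w) (h1.valid5 a w) (fun z hz z' hz' => Set.disjoint_left.2 (by
      rintro _ ⟨i, hi, rfl⟩ ⟨j, hj, e⟩
      exact Set.disjoint_left.1 hd hj ((hm z' hz' z hz j (.inl hj) i (.inr hi) e).2 ▸ hi)))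
      hp hq hr hp' hq' hr'
  have key : ∀ a₁ a₂ a₃ a₄ b₁ b₂ b₃ b₄ : Γ, Commute b₁ a₂ → Commute b₁ a₃ → Commute b₁ a₄ →
      Commute b₂ a₃ → Commute b₂ a₄ → Commute b₃ a₄ →
      a₁ * b₁ * (a₂ * b₂) * (a₃ * b₃) * (a₄ * b₄) = a₁ * a₂ * a₃ * a₄ * (b₁ * b₂ * b₃ * b₄) := by
    intro a₁ a₂ a₃ a₄ b₁ b₂ b₃ b₄ c1 c2 c3 c4 c5 c6
    rw [c1.mul_mul_mul_comm, (c2.mul_left c4).mul_mul_mul_comm,
      ((c3.mul_left c5).mul_left c6).mul_mul_mul_comm]
  rw [val_fresh h haw ha hw, val_fresh h1 haw ha hw, val_fresh h2 haw ha hw, ext4_psi h,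
    arr_union hU hV hd h.2.1.2.1, arr_union hU hV hd h.2.2.1.2.1, arr_union hU hV hd h.2.2.1.2.1,
    arr_union hU hV hd h.2.2.1.2.2.1, ← psi_sh2 hU h1.2.1.2.1, ← psi_sh2 hU h1.2.2.1.2.1,
    ← psi_sh2 hU h1.2.2.1.2.2.1, ← psi_sh2 hV h2.2.1.2.1, ← psi_sh2 hV h2.2.2.1.2.1,
    ← psi_sh2 hV h2.2.2.1.2.2.1]
  refine key _ _ _ _ _ _ _ _ ?_ ?_ ?_ ?_ ?_ ?_ <;>
    exact hc _ (by simp) _ (by simp) _ (by simp) _ (by simp) _ (by simp) _ (by simp)

theorem val_empty (h : Piece ∅ x y u) : R.val ∅ x y u = 1 := val_empty'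

theorem val_commute (h : Piece U x y u) (h' : Piece V x' y' u')
    (hd : Disjoint (wsh x '' U ∪ wsh y '' U ∪ wsh u '' U)
      (wsh x' '' V ∪ wsh y' '' V ∪ wsh u' '' V)) : Commute (R.val U x y u) (R.val V x' y' u') := by
  obtain ⟨a, w, haw, ha, hw⟩ := v1_fresh2 [x.1, y.1, u.1, x'.1, y'.1, u'.1] (by simp)
  obtain ⟨a', w', haw', ha', hw'⟩ := v1_fresh2 [a, w, x.1, y.1, u.1, x'.1, y'.1, u'.1] (by simp)
  simp only [List.mem_cons, List.not_mem_nil, or_false, not_or] at ha hw ha' hw'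
  rw [val_fresh h haw (by simp [ha]) (by simp [hw]),
    val_fresh h' haw' (by simp [ha']) (by simp [hw'])]
  refine v1_ext4_commute fun p hp q hq r hr => (v1_ext4_commute fun p' hp' q' hq' r' hr' =>
    psi_commute h'.1 h.1 (h'.valid5 a' w') (h.valid5 a w) (fun z hz z' hz' => ?_)
      hp hq hr hp' hq' hr').symm
  simp only [Set.disjoint_union_left, Set.disjoint_union_right] at hd
  simp only [List.mem_cons, List.not_mem_nil, or_false] at hz hz'
  by_cases e : z.1 = z'.1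
  swap
  · exact disjoint_wsh e
  refine Disjoint.symm ?_
  clear hp hq hr hp' hq' hr'
  rcases hz with rfl | rfl | rfl | rfl | rfl <;> rcases hz' with rfl | rfl | rfl | rfl | rfl <;>
    first | simp only [hd] | simp_all

theorem val_part (h : Piece U x y u) (h' : Piece V x' y' u')
    (he : tri U (wsh x) (wsh y) (wsh u) = tri V (wsh x') (wsh y') (wsh u')) :
    R.val (U ∩ wsh x ⁻¹' (wsh x' '' V)) x y u = R.val (V ∩ wsh x' ⁻¹' (wsh x '' U)) x' y' u' := by
  have key : ∀ {U V : Set X} {x y u x' y' u' : Col × List Op}, Piece U x y u → Piece V x' y' u' →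
      ∃ W, IsClopen W ∧ (∀ r, r ∈ W ↔ ∃ p ∈ U, ∃ q ∈ V, wsh x p = wsh x' q ∧ r = run ap x.2 p) ∧
        Piece W (x.1, invW x.2 ++ x.2) (y.1, invW x.2 ++ y.2) (u.1, invW x.2 ++ u.2) ∧
        R.val (U ∩ wsh x ⁻¹' (wsh x' '' V)) x y u =
          R.val W (x.1, invW x.2 ++ x.2) (y.1, invW x.2 ++ y.2) (u.1, invW x.2 ++ u.2) := by
    intro U V x y u x' y' u' h h'
    have h1 := h.mono (h.1.inter ((isClopen_wsh h'.1 h'.2.1.2.1).preimage (continuous_wsh x)))
      Set.inter_subset_left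
    have h2 := isClopen_image_run h1.1 h1.2.1.2.1
    have h3 : ∀ p ∈ run ap x.2 '' (U ∩ wsh x ⁻¹' (wsh x' '' V)), Valid (invW x.2) p := by
      rintro _ ⟨p, hp, rfl⟩
      exact (h1.2.1.2.1 p hp).inv
    have h4 : run ap (invW x.2) '' (run ap x.2 '' (U ∩ wsh x ⁻¹' (wsh x' '' V))) =
        U ∩ wsh x ⁻¹' (wsh x' '' V) := by
      rw [Set.image_image]
      exact (Set.image_congr fun p hp => (h1.2.1.2.1 p hp).run_inv).trans (Set.image_id' _)
    rw [← h4] at h1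
    refine ⟨_, h2, fun r => ⟨?_, ?_⟩, ⟨h2, h1.2.1.pre h3, h1.2.2.1.pre h3, h1.2.2.2.pre h3⟩, ?_⟩
    · rintro ⟨p, ⟨hp, q, hq, e⟩, rfl⟩
      exact ⟨p, hp, q, hq, e.symm, rfl⟩
    · rintro ⟨p, hp, q, hq, e, rfl⟩
      exact ⟨p, ⟨hp, q, hq, e.symm⟩, rfl⟩
    · rw [← val_reparam h2 h3 h1, h4]
  obtain ⟨W, -, a1, a2, a3⟩ := key h h'
  obtain ⟨W', -, b1, b2, b3⟩ := key h' h
  have e : W' = W := Set.ext fun r => by
    rw [a1, b1]
    exact ⟨fun ⟨q, hq, p, hp, e, e'⟩ => ⟨p, hp, q, hq, e.symm, e'.trans (congrArg Prod.fst e)⟩,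
      fun ⟨q, hq, p, hp, e, e'⟩ => ⟨p, hp, q, hq, e.symm, e'.trans (congrArg Prod.fst e)⟩⟩
  subst e
  have hw : ∀ r ∈ W', ∃ p ∈ U, ∃ q ∈ V, wsh x p = wsh x' q ∧
      (∀ z : Col × List Op, wsh (z.1, invW x.2 ++ z.2) r = wsh z p) ∧
      ∀ z : Col × List Op, wsh (z.1, invW x'.2 ++ z.2) r = wsh z q := fun r hr => by
    obtain ⟨p, hp, q, hq, e, rfl⟩ := (a1 r).1 hr
    refine ⟨p, hp, q, hq, e, fun z => ?_, fun z => ?_⟩
    · simp only [wsh, run_append, (h.2.1.2.1 p hp).run_inv]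
    · rw [show run ap x.2 p = run ap x'.2 q from congrArg Prod.fst e]
      simp only [wsh, run_append, (h'.2.1.2.1 q hq).run_inv]
  rw [a3, b3]
  refine val_congr a2 b2 (fun r hr => ?_) (fun r hr => ?_) fun r hr => ?_ <;>
    obtain ⟨p, hp, q, hq, e, e1, e2⟩ := hw r hr <;> rw [e1, e2]
  · exact e
  · rw [← tri_fst h.msec hp, he, e, tri_fst h'.msec hq]
  · rw [← tri_snd h.msec hp, ← tri_fst h.msec hp, he, e, tri_fst h'.msec hq, tri_snd h'.msec hq]

theorem val_union3 {U₁ U₂ U₃ : Set X} (h : Piece U x y u) (h1 : IsClopen U₁) (h2 : IsClopen U₂)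
    (h3 : IsClopen U₃) (hc : U ⊆ U₁ ∪ U₂ ∪ U₃) (d12 : Disjoint (U ∩ U₁) (U ∩ U₂))
    (d23 : Disjoint (U ∩ U₂) (U ∩ U₃)) (d31 : Disjoint (U ∩ U₃) (U ∩ U₁)) :
    R.val U x y u = R.val (U ∩ U₁) x y u * R.val (U ∩ U₂) x y u * R.val (U ∩ U₃) x y u := by
  have e : U ∩ U₁ ∪ U ∩ U₂ ∪ U ∩ U₃ = U := by
    rw [← Set.inter_union_distrib_left, ← Set.inter_union_distrib_left,
      Set.inter_eq_self_of_subset_left hc]
  have h12 := (h.1.inter h1).union (h.1.inter h2)
  rw [← val_union (h.1.inter h1) (h.1.inter h2) d12 (h.mono h12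
    (Set.union_subset Set.inter_subset_left Set.inter_subset_left)), ← val_union h12 (h.1.inter h3)
    (Set.disjoint_union_left.2 ⟨d31.symm, d23⟩) (e.symm ▸ h), e]

theorem val_wd (h : Piece U x y u) (h' : Piece V x' y' u')
    (he : tri U (wsh x) (wsh y) (wsh u) = tri V (wsh x') (wsh y') (wsh u')) :
    R.val U x y u = R.val V x' y' u' := by
  have hs : wsh x '' U ∪ wsh y '' U ∪ wsh u '' U = wsh x' '' V ∪ wsh y' '' V ∪ wsh u' '' V := by
    rw [← supp_tri h.msec, he, supp_tri h'.msec]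
  have he1 := he.trans h'.tri_rot
  have he2 := he1.trans h'.rot.tri_rot
  have hS := isClopen_wsh h.1 h.2.1.2.1
  have key : ∀ {x' y' u' : Col × List Op}, Piece V x' y' u' →
      tri U (wsh x) (wsh y) (wsh u) = tri V (wsh x') (wsh y') (wsh u') →
      Disjoint (V ∩ wsh x' ⁻¹' (wsh x '' U)) (V ∩ wsh y' ⁻¹' (wsh x '' U)) := by
    intro x' y' u' h' he
    refine Set.disjoint_left.2 ?_
    rintro q ⟨hq, p, hp, e⟩ ⟨-, p', hp', e'⟩
    refine Set.disjoint_left.1 h.2.1.2.2.2 ⟨p', hp', e'⟩ ⟨p, hp, ?_⟩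
    rw [← tri_fst h.msec hp, he, e, tri_fst h'.msec hq]
  rw [val_union3 h ((isClopen_wsh h'.1 h'.2.1.2.1).preimage (continuous_wsh x))
    ((isClopen_wsh h'.1 h'.2.2.1.2.1).preimage (continuous_wsh x))
    ((isClopen_wsh h'.1 h'.2.2.1.2.2.1).preimage (continuous_wsh x))
    (fun p hp => (hs.subset (.inl (.inl ⟨p, hp, rfl⟩)) :))
    ((h'.2.1.2.2.2.preimage _).mono Set.inter_subset_right Set.inter_subset_right)
    ((h'.2.2.1.2.2.2.preimage _).mono Set.inter_subset_right Set.inter_subset_right)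
    ((h'.2.2.2.2.2.2.symm.preimage _).mono Set.inter_subset_right Set.inter_subset_right),
    val_union3 h' (hS.preimage (continuous_wsh x')) (hS.preimage (continuous_wsh y'))
      (hS.preimage (continuous_wsh u')) ?_ (key h' he) (key h'.rot he1) (key h'.rot.rot he2),
    val_part h h' he, val_part h h'.rot he1, val_part h h'.rot.rot he2,
    val_rot (h'.mono (h'.1.inter (hS.preimage (continuous_wsh y'))) Set.inter_subset_left),
    val_rot (h'.rot.rot.mono (h'.1.inter (hS.preimage (continuous_wsh u'))) Set.inter_subset_left)]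
  intro q hq
  rcases hs.symm.subset (.inl (.inl ⟨q, hq, rfl⟩)) with (h1 | ⟨p, hp, e⟩) | ⟨p, hp, e⟩
  · exact .inl (.inl h1)
  · refine .inr ⟨p, hp, ?_⟩
    rw [← tri_thd h.msec hp, ← tri_snd h.msec hp, he, e, tri_fst h'.msec hq, tri_snd h'.msec hq]
  · refine .inl (.inr ⟨p, hp, ?_⟩)
    rw [← tri_thd h.msec hp, he, e, tri_fst h'.msec hq]

theorem val_proj (π : Γ →* Perm (X × Col))
    (hπ : ∀ l, (∀ p ∈ U, Valid l p) → ∀ a b c : Col × Bool,
      π ((arr R.A R.ρ l U).φ a b c) = tp U (fun b => cond b (run ap l) id) a b c)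
    (h : Piece U x y u) : π (R.val U x y u) = tri U (wsh x) (wsh y) (wsh u) := by
  obtain ⟨a, w, haw, ha, hw⟩ := v1_fresh2 [x.1, y.1, u.1] (by simp)
  have h1 := (v1_msec (h.pairwise5 haw ha hw) (h.valid5 a w)).isAlt
  rw [val_fresh h haw ha hw, ext4_psi h, map_mul, map_mul, map_mul, hπ _ h.2.1.2.1,
    hπ _ h.2.2.1.2.1, hπ _ h.2.2.1.2.1, hπ _ h.2.2.1.2.2.1]
  simp only [List.mem_cons, List.not_mem_nil, or_false, not_or] at ha hw
  refine Eq.trans ?_ (h1.decomp (a := (a, [])) (w := (w, [])) (by simp) (by simp) (by simp)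
    (by simp) (by simp) h.d3 (fun e => haw (congrArg Prod.fst e))
    (by rintro (rfl | rfl | rfl) <;> simp_all) (by rintro (rfl | rfl | rfl) <;> simp_all)).symm
  unfold tp
  rw [if_pos ⟨ha.2.1, Ne.symm hw.2.1, haw⟩, if_pos ⟨Ne.symm ha.1, haw, Ne.symm hw.1⟩,
    if_pos ⟨ha.2.2, Ne.symm hw.2.2, haw⟩, if_pos ⟨Ne.symm ha.2.1, haw, Ne.symm hw.2.1⟩]
  rfl

end GRep

end Vale.Agent.P196
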