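import Vale.Agent.P196.Val1
import Vale.Agent.P196.Germ

/-! The lift `z` of all 3-cycles. -/

namespace Vale.Agent.P196

open X Equiv

section Aux

open Filter Topology

theorem v2_clopen_ind {Ω : Type} [TopologicalSpace Ω] [CompactSpace Ω] [T2Space Ω]
    [TotallyDisconnectedSpace Ω] {U : Set Ω} (hU : IsClopen U) {p : Set Ω → Prop} (h0 : p ∅)
    (hu : ∀ A B, IsClopen A → IsClopen B → A ∪ B ⊆ U → Disjoint A B → p A → p B → p (A ∪ B))
    (hl : ∀ x ∈ U, ∃ N ∈ 𝓝 x, ∀ A, IsClopen A → A ⊆ U → A ⊆ N → p A) : p U := by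
  obtain ⟨W, -, h1, h2⟩ := hU.1.isCompact.induction_on
    (p := fun S => ∃ W, IsClopen W ∧ S ⊆ W ∧ ∀ A, IsClopen A → A ⊆ U → A ⊆ W → p A)
    ⟨∅, isClopen_empty, subset_rfl, fun A _ _ h => Set.subset_empty_iff.1 h ▸ h0⟩
    (fun S T hST ⟨W, h1, h2, h3⟩ => ⟨W, h1, hST.trans h2, h3⟩)
    (fun S T ⟨W, h1, h2, h3⟩ ⟨W', h4, h5, h6⟩ => ⟨W ∪ W', h1.union h4, Set.union_subset_union h2 h5,
      fun A hA hAU hAW => by
        rw [← Set.inter_union_sdiff A W]
        exact hu _ _ (hA.inter h1) (hA.diff h1) ((Set.inter_union_sdiff A W).symm ▸ hAU)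
          (Set.disjoint_sdiff_right.mono_left Set.inter_subset_right)
          (h3 _ (hA.inter h1) (Set.inter_subset_left.trans hAU) Set.inter_subset_right)
          (h6 _ (hA.diff h1) (Set.sdiff_subset.trans hAU) fun x hx => (hAW hx.1).resolve_left hx.2)⟩)
    (fun x hx => by
      obtain ⟨N, hN, h⟩ := hl x hx
      obtain ⟨W, ⟨h1, h2⟩, h3⟩ := (nhds_basis_clopen x).mem_iff.1 hN
      exact ⟨W, mem_nhdsWithin_of_mem_nhds (h2.2.mem_nhds h1), W, h2, subset_rfl,
        fun A hA hAU hAW => h A hA hAU (hAW.trans h3)⟩)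
  exact h2 U hU subset_rfl h1

theorem v2_supp_one {Ω : Type} : supp (1 : Perm Ω) = ∅ :=
  Set.eq_empty_of_forall_notMem fun _ hx => hx rfl

theorem v2_inv_left {Ω : Type} {t t' : Perm Ω} (hd : Disjoint (supp t) (supp t')) {V : Set Ω}
    (hi : ∀ x, (t * t') x ∈ V ↔ x ∈ V) (x : Ω) : t x ∈ V ↔ x ∈ V := by
  by_cases hx : x ∈ supp t
  · rw [← hi x, Perm.mul_apply, not_not.1 (Set.disjoint_left.1 hd hx)]
  · rw [not_not.1 hx]

theorem v2_rest_mul {Ω : Type} {t t' : Perm Ω} {V : Set Ω} (hi : ∀ x, t x ∈ V ↔ x ∈ V)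
    (hi' : ∀ x, t' x ∈ V ↔ x ∈ V) : rest (t * t') V = rest t V * rest t' V := by
  ext x
  by_cases hx : x ∈ V
  · rw [rest_mem (t := t * t') (fun x => (hi (t' x)).trans (hi' x)) hx, Perm.mul_apply, Perm.mul_apply,
      rest_mem hi' hx, rest_mem hi ((hi' x).2 hx)]
  · rw [rest_not_mem hx, Perm.mul_apply, rest_not_mem hx, rest_not_mem hx]

theorem v2_rest_eq {Ω : Type} {t : Perm Ω} {V : Set Ω} (h : supp t ⊆ V) :
    (∀ x, t x ∈ V ↔ x ∈ V) ∧ rest t V = t ∧ rest t Vᶜ = 1 := by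
  have hi : ∀ x, t x ∈ V ↔ x ∈ V := fun x => by
    by_cases hx : x ∈ supp t
    · exact iff_of_true (h (mem_supp_iff.2 hx)) (h hx)
    · rw [not_not.1 hx]
  refine ⟨hi, ?_, ?_⟩ <;> ext1 x <;> by_cases hx : x ∈ V
  · exact rest_mem hi hx
  · exact (rest_not_mem hx).trans (not_not.1 fun e => hx (h e)).symm
  · exact rest_not_mem (not_not.2 hx)
  · exact (rest_mem (fun x => not_congr (hi x)) hx).trans (not_not.1 fun e => hx (h e))

theorem v2_rest_supp {Ω : Type} {t t' : Perm Ω} (hd : Disjoint (supp t) (supp t')) :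
    (∀ x, (t * t') x ∈ supp t ↔ x ∈ supp t) ∧ rest (t * t') (supp t) = t ∧
      rest (t * t') (supp t)ᶜ = t' := by
  obtain ⟨a1, a2, a3⟩ := v2_rest_eq (subset_refl (supp t))
  obtain ⟨b1, b2, b3⟩ := v2_rest_eq hd.symm.subset_compl_right
  rw [compl_compl] at b3
  have b4 : ∀ x, t' x ∈ supp t ↔ x ∈ supp t := fun x => not_iff_not.1 (b1 x)
  exact ⟨fun x => (a1 _).trans (b4 x), by rw [v2_rest_mul a1 b4, a2, b3, mul_one],
    by rw [v2_rest_mul (fun x => not_congr (a1 x)) b1, a3, b2, one_mul]⟩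

theorem v2_wsh_mem {q : Col × List Op} {ω : X × Col} (h : Valid q.2 ω.1) :
    (HX 3).col.mem (fun ω => wsh q ω.1) ω :=
  ⟨run ap q.2, q.1, ⟨q.2, h, tyW_three _ _, .rfl⟩, .rfl⟩

theorem v2_wdis {x y : Col × List Op} {p : X} (hx : Valid x.2 p) (hy : Valid y.2 p)
    (h : wsh x p ≠ wsh y p) : ∀ᶠ S in (𝓝 p).smallSets, WDis S x y := by
  obtain ⟨u, v, hu, hv, h1, h2, h3⟩ := t2_separation h
  refine (eventually_smallSets' fun _ _ hs h => h.mono hs).2
    ⟨{q | Valid x.2 q} ∩ {q | Valid y.2 q} ∩ (wsh x ⁻¹' u ∩ wsh y ⁻¹' v),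
      (((isClopen_valid _).2.inter (isClopen_valid _).2).inter ((hu.preimage (continuous_wsh x)).inter
        (hv.preimage (continuous_wsh y)))).mem_nhds ⟨⟨hx, hy⟩, h1, h2⟩,
      fun e => h (e ▸ rfl), fun _ h => h.1.1, fun _ h => h.1.2, h3.mono ?_ ?_⟩ <;>
    rintro _ ⟨q, hq, rfl⟩
  exacts [hq.2.1, hq.2.2]

end Aux

variable {Γ : Type} [Group Γ] {E : Env Γ} (R : GRep E)

namespace GRep

inductive Val : Perm (X × Col) → Γ → Prop
  | one : Val 1 1
  | piece {U x y u} : Piece U x y u → Val (tri U (wsh x) (wsh y) (wsh u)) (R.val U x y u)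
  | mul {t t' γ γ'} : t ∈ (HX 3).col.Tri → t' ∈ (HX 3).col.Tri → Disjoint (supp t) (supp t') →
      Val t γ → Val t' γ' → Val (t * t') (γ * γ')

variable {R} {t t' : Perm (X × Col)} {γ γ' : Γ}

theorem piece_mem {U x y u} (h : Piece U x y u) :
    tri U (wsh x) (wsh y) (wsh u) ∈ (HX 3).col.Tri := by
  have h1 : (HX 3).col.MS (wsh (0, []) '' U) {q | q ∈ [x, y, u]} fun q ω => wsh q ω.1 := by
    refine ⟨isClopen_wsh h.1 fun _ _ => trivial, ?_, ?_⟩
    · rintro q hq q' hq' _ ⟨p, hp, rfl⟩ _ ⟨p', hp', rfl⟩ e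
      obtain ⟨e1, e2⟩ := v1_msec h.pairwise h.valid q hq q' hq' p hp p' hp' e
      exact ⟨e1, e2 ▸ rfl⟩
    · rintro q hq _ ⟨p, hp, rfl⟩
      exact v2_wsh_mem (h.valid q hq p hp)
  have h2 := h1.tri_mem (x := x) (y := y) (z := u) (by simp) (by simp) (by simp) h.d3
  rw [← tri_reparam (injOn_wsh (y := (0, [])) fun _ _ => trivial)] at h2
  exact h2

/-- A multisection is locally given by coloured words. -/
theorem exists_words {Y : Type} [Finite Y] {e : Y → X × Col → X × Col} {ω : X × Col}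
    (he : ∀ y, (HX 3).col.mem (e y) ω) : ∃ (w : Y → Col × List Op) (N : Set X), IsClopen N ∧
      ω.1 ∈ N ∧ ∀ y, ∀ p ∈ N, Valid (w y).2 p ∧ e y (p, ω.2) = wsh (w y) p := by
  choose f c h1 h2 using he
  choose l h3 h4 h5 using h1
  have h6 : ∀ᶠ p in nhds ω.1, ∀ y, Valid (l y) p ∧ e y (p, ω.2) = wsh (c y, l y) p :=
    Filter.eventually_all.2 fun y => by
      filter_upwards [(isClopen_valid _).2.mem_nhds (h3 y), h5 y,
        (Continuous.prodMk_left ω.2).continuousAt.eventually (h2 y)] with p a1 a2 a3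
      exact ⟨a1, a3.trans (Prod.ext a2 rfl)⟩
  obtain ⟨N, ⟨a1, a2⟩, a3⟩ := (nhds_basis_clopen ω.1).mem_iff.1 h6
  exact ⟨fun y => (c y, l y), N, a2, a1, fun y p hp => a3 hp y⟩

theorem v2_local {Y : Type} [Finite Y] {e : Y → X × Col → X × Col} {ω : X × Col}
    (he : ∀ y, (HX 3).col.mem (e y) ω) (hi : Function.Injective fun y => e y ω) :
    ∃ w : Y → Col × List Op, ∃ N ∈ nhds ω, ∀ A, IsClopen A → A ⊆ N → ∃ A', IsClopen A' ∧
      (∀ y y', y ≠ y' → WDis A' (w y) (w y')) ∧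
      ∀ x y u, tri A (e x) (e y) (e u) = tri A' (wsh (w x)) (wsh (w y)) (wsh (w u)) := by
  obtain ⟨w, N, h1, h2, h3⟩ := exists_words he
  have h4 : ∀ᶠ S in (nhds ω.1).smallSets, ∀ y y', y ≠ y' → WDis S (w y) (w y') :=
    Filter.eventually_all.2 fun y => Filter.eventually_all.2 fun y' =>
      Filter.eventually_all.2 fun hne => v2_wdis (h3 y _ h2).1 (h3 y' _ h2).1
        fun e => hne (hi (((h3 y _ h2).2.trans e).trans (h3 y' _ h2).2.symm))
  obtain ⟨M, h5, h6⟩ := Filter.eventually_smallSets.1 h4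
  refine ⟨w, (N ∩ M) ×ˢ {ω.2}, prod_mem_nhds (Filter.inter_mem (h1.2.mem_nhds h2) h5)
    ((isOpen_discrete _).mem_nhds rfl), fun A hA hAN => ⟨(fun p => (p, ω.2)) ⁻¹' A,
      hA.preimage (Continuous.prodMk_left _), h6 _ fun p hp => (hAN hp).1.2, fun x y u => ?_⟩⟩
  have h7 : (fun p => (p, ω.2)) '' ((fun p => (p, ω.2)) ⁻¹' A) = A :=
    Set.image_preimage_eq_of_subset fun a ha => ⟨a.1, Prod.ext rfl (hAN ha).2.symm⟩
  rw [← h7, ← tri_reparam (Prod.mk_left_injective _).injOn, h7]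
  exact tri_congr (fun p hp => (h3 x p (hAN hp).1.1).2) (fun p hp => (h3 y p (hAN hp).1.1).2)
    fun p hp => (h3 u p (hAN hp).1.1).2

theorem Val.exists (ht : t ∈ (HX 3).col.Tri) : ∃ γ, R.Val t γ := by
  have key : ∀ ω, ∃ N, ω ∈ supp t → N ∈ nhds ω ∧ ∀ A, IsClopen A → A ⊆ N →
      ∃ γ, R.Val (tri A id t (t ∘ t)) γ := fun ω => by
    by_cases hω : ω ∈ supp t
    swap
    · exact ⟨∅, fun h => absurd h hω⟩
    have h1 : t (t ω) ≠ t ω := mem_supp_iff.2 hω
    have h2 : t (t ω) ≠ ω := fun e => hω (((congrArg t e).symm).trans (PG.Tri.cube_apply ht ω))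
    obtain ⟨w, N, a1, a2⟩ := v2_local (e := ![id, t, t ∘ t]) (ω := ω) (by
      intro i
      fin_cases i
      exacts [(HX 3).col.id _, ht.1 _, (HX 3).col.comp (f := t) (ht.1 _) (ht.1 _)]) (by
      intro i j e
      fin_cases i <;> fin_cases j <;> first | rfl | exact absurd e (by assumption) |
        exact absurd e.symm (by assumption))
    refine ⟨N, fun _ => ⟨a1, fun A hA hAN => ?_⟩⟩
    obtain ⟨A', b1, b2, b3⟩ := a2 A hA hAN
    exact ⟨_, (b3 0 1 2).symm ▸ Val.piece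
      ⟨b1, b2 0 1 (by decide), b2 1 2 (by decide), b2 0 2 (by decide)⟩⟩
  choose N hN using key
  exact PG.Tri.induction ht (p := fun t => ∃ γ, R.Val t γ) N (fun ω h => (hN ω h).1) ⟨1, .one⟩
    (fun a ha b hb hd _ _ ⟨_, h⟩ ⟨_, h'⟩ => ⟨_, .mul ha hb hd h h'⟩)
    fun ω h U hU hm => (hN ω h).2 U hm.clopen hU

theorem Val.mem (h : R.Val t γ) : t ∈ (HX 3).col.Tri := by
  cases h with
  | one => exact PG.one_mem_Tri
  | piece h => exact piece_mem h
  | mul h1 h2 h3 => exact PG.Tri.mul h1 h2 h3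
theorem Val.commute (h : R.Val t γ) (h' : R.Val t' γ') (hd : Disjoint (supp t) (supp t')) :
    Commute γ γ' := by
  induction h with
  | one => exact .one_left _
  | mul _ _ h3 _ _ ih ih' =>
    rw [supp_mul h3, Set.disjoint_union_left] at hd
    exact (ih hd.1).mul_left (ih' hd.2)
  | piece hp =>
    induction h' with
    | one => exact .one_right _
    | mul _ _ h3 _ _ ih ih' =>
      rw [supp_mul h3, Set.disjoint_union_right] at hd
      exact (ih hd.1).mul_right (ih' hd.2)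
    | piece hp' =>
      rw [supp_tri hp.msec, supp_tri hp'.msec] at hd
      exact val_commute hp hp' hd

theorem piece_split {U x y u} (h : Piece U x y u) {V : Set (X × Col)} (hV : IsClopen V)
    (hi : ∀ ω, tri U (wsh x) (wsh y) (wsh u) ω ∈ V ↔ ω ∈ V) :
    ∃ U₁ U₂, Piece U₁ x y u ∧ Piece U₂ x y u ∧
      rest (tri U (wsh x) (wsh y) (wsh u)) V = tri U₁ (wsh x) (wsh y) (wsh u) ∧
      rest (tri U (wsh x) (wsh y) (wsh u)) Vᶜ = tri U₂ (wsh x) (wsh y) (wsh u) ∧
      R.val U x y u = R.val U₁ x y u * R.val U₂ x y u := by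
  have h1 := h.1.inter (hV.preimage (continuous_wsh x))
  have h2 := h.1.inter (hV.compl.preimage (continuous_wsh x))
  have e := Set.inter_union_compl U (wsh x ⁻¹' V)
  refine ⟨_, _, h.mono h1 Set.inter_subset_left, h.mono h2 Set.inter_subset_left,
    rest_tri h.msec hi, rest_tri h.msec fun ω => not_congr (hi ω), ?_⟩
  rw [← val_union h1 h2 (disjoint_compl_right.mono Set.inter_subset_right Set.inter_subset_right)
    (e.symm ▸ h :)]
  exact congrArg (fun U => R.val U x y u) e.symm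
theorem Val.split (h : R.Val t γ) {V : Set (X × Col)} (hV : IsClopen V)
    (hi : ∀ x, t x ∈ V ↔ x ∈ V) :
    ∃ γ₁ γ₂, R.Val (rest t V) γ₁ ∧ R.Val (rest t Vᶜ) γ₂ ∧ γ = γ₁ * γ₂ := by
  induction h with
  | one =>
    have h : ∀ V : Set (X × Col), rest 1 V = 1 := fun V =>
      (v2_rest_eq (v2_supp_one.subset.trans V.empty_subset)).2.1
    exact ⟨1, 1, (h V).symm ▸ .one, (h Vᶜ).symm ▸ .one, (one_mul 1).symm⟩
  | piece h =>
    obtain ⟨U₁, U₂, h1, h2, h3, h4, h5⟩ := piece_split (R := R) h hV hi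
    exact ⟨_, _, h3 ▸ .piece h1, h4 ▸ .piece h2, h5⟩
  | mul h1 h2 h3 _ _ ih ih' =>
    have a1 := v2_inv_left h3 hi
    have a2 := v2_inv_left h3.symm ((commute_of_supp h3).eq ▸ hi)
    have a3 := fun x => not_congr (a1 x)
    have a4 := fun x => not_congr (a2 x)
    obtain ⟨γ₁, γ₂, b1, b2, rfl⟩ := ih a1
    obtain ⟨γ₃, γ₄, b3, b4, rfl⟩ := ih' a2
    refine ⟨γ₁ * γ₃, γ₂ * γ₄, ?_, ?_, (b2.commute b3 ?_).mul_mul_mul_comm _ _⟩
    · rw [v2_rest_mul a1 a2]
      refine .mul b1.mem b3.mem ?_ b1 b3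
      rw [supp_rest a1, supp_rest a2]
      exact h3.mono Set.inter_subset_left Set.inter_subset_left
    · rw [v2_rest_mul a3 a4]
      refine .mul b2.mem b4.mem ?_ b2 b4
      rw [supp_rest a3, supp_rest a4]
      exact h3.mono Set.inter_subset_left Set.inter_subset_left
    · rw [supp_rest a3, supp_rest a2]
      exact h3.mono Set.inter_subset_left Set.inter_subset_left

theorem Val.eq_one (h : R.Val t γ) (ht : supp t = ∅) : γ = 1 := by
  induction h with
  | one => rfl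
  | piece h =>
    rw [supp_tri h.msec, Set.union_empty_iff, Set.image_eq_empty] at ht
    rw [ht.2, val_empty']
  | mul _ _ h3 _ _ ih ih' =>
    rw [supp_mul h3, Set.union_empty_iff] at ht
    rw [ih ht.1, ih' ht.2, one_mul]

theorem Val.eq_val (h : R.Val t γ) {U x y u} (hp : Piece U x y u)
    (e : tri U (wsh x) (wsh y) (wsh u) = t) : R.val U x y u = γ := by
  induction h generalizing U with
  | one => exact (Val.piece hp).eq_one (e ▸ v2_supp_one)
  | piece h => exact val_wd hp h e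
  | mul h1 _ h3 _ _ ih ih' =>
    obtain ⟨a1, a2, a3⟩ := v2_rest_supp h3
    obtain ⟨U₁, U₂, b1, b2, b3, b4, b5⟩ := piece_split (R := R) hp (PG.Tri.isClopen h1) (e ▸ a1)
    rw [b5, ih b1 (by rw [← b3, e, a2]), ih' b2 (by rw [← b4, e, a3])]
theorem Val.unique (h : R.Val t γ) (h' : R.Val t γ') : γ = γ' := by
  induction h generalizing γ' with
  | one => exact (h'.eq_one v2_supp_one).symm
  | piece h => exact h'.eq_val h rfl
  | mul h1 _ h3 _ _ ih ih' =>
    obtain ⟨a1, a2, a3⟩ := v2_rest_supp h3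
    obtain ⟨γ₁, γ₂, b1, b2, rfl⟩ := h'.split (PG.Tri.isClopen h1) a1
    rw [ih (a2 ▸ b1), ih' (a3 ▸ b2)]

open Classical in
noncomputable def z (R : GRep E) (t : Perm (X × Col)) : Γ :=
  if h : ∃ γ, R.Val t γ then h.choose else 1

theorem Val.z_eq (h : R.Val t γ) : R.z t = γ := by
  have h' : ∃ γ, R.Val t γ := ⟨γ, h⟩
  rw [z, dif_pos h']
  exact h'.choose_spec.unique h

theorem val_z (ht : t ∈ (HX 3).col.Tri) : R.Val t (R.z t) := by
  obtain ⟨γ, h⟩ := Val.exists (R := R) ht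
  exact h.z_eq ▸ h

theorem z_one : R.z 1 = 1 := Val.one.z_eq

theorem z_piece {U x y u} (h : Piece U x y u) :
    R.z (tri U (wsh x) (wsh y) (wsh u)) = R.val U x y u := (Val.piece h).z_eq

theorem z_commute (ht : t ∈ (HX 3).col.Tri) (ht' : t' ∈ (HX 3).col.Tri)
    (hd : Disjoint (supp t) (supp t')) : Commute (R.z t) (R.z t') :=
  (val_z ht).commute (val_z ht') hd
theorem z_add (ht : t ∈ (HX 3).col.Tri) (ht' : t' ∈ (HX 3).col.Tri)
    (hd : Disjoint (supp t) (supp t')) : R.z (t * t') = R.z t * R.z t' :=   (Val.mul ht ht' hd (val_z ht) (val_z ht')).z_eq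

theorem Val.inv (h : R.Val t γ) : R.Val t⁻¹ γ⁻¹ := by
  induction h with
  | one => simpa using Val.one
  | piece h =>
    rw [inv_eq_of_mul_eq_one_right ((v1_msec h.pairwise h.valid).isAlt.inv (by simp) (by simp)
      (by simp) h.d3), inv_eq_of_mul_eq_one_right ((val_isAlt h.1 ((v1_encard _).trans
        (by simp; norm_num)) h.pairwise).inv (by simp) (by simp) (by simp) h.d3)]
    exact .piece h.swap
  | mul h1 h2 h3 _ _ ih ih' =>
    rw [mul_inv_rev, mul_inv_rev]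
    exact .mul (PG.Tri.inv h2) (PG.Tri.inv h1) (by rw [supp_inv, supp_inv]; exact h3.symm) ih' ih
theorem z_inv (ht : t ∈ (HX 3).col.Tri) : R.z t⁻¹ = (R.z t)⁻¹ := (val_z ht).inv.z_eq
theorem z_mul (U : Set (X × Col)) (e : Fin 4 → X × Col → X × Col)
    (h : (HX 3).col.MS U Set.univ e) :
    R.z (tri U (e 0) (e 1) (e 2)) * R.z (tri U (e 0) (e 2) (e 3)) =
      R.z (tri U (e 1) (e 2) (e 3)) := by
  refine v2_clopen_ind h.clopen (p := fun U => R.z (tri U (e 0) (e 1) (e 2)) *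
    R.z (tri U (e 0) (e 2) (e 3)) = R.z (tri U (e 1) (e 2) (e 3))) (by simp [tri_empty, z_one])
    (fun A B hA hB hU hd h1 h2 => ?_) fun ω hω => ?_
  · have a1 := h.mono hA (Set.subset_union_left.trans hU) subset_rfl
    have a2 := h.mono hB (Set.subset_union_right.trans hU) subset_rfl
    have a3 : ∀ i j k i' j' k', Disjoint (supp (tri B (e i) (e j) (e k)))
        (supp (tri A (e i') (e j') (e k'))) := fun i j k i' j' k' => by
      have : ∀ i j, Disjoint (e i '' B) (e j '' A) := fun i j => Set.disjoint_left.2 <| by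
        rintro _ ⟨p, hp, rfl⟩ ⟨q, hq, e⟩
        exact Set.disjoint_left.1 hd hq
          ((h.sec _ trivial _ trivial _ (hU (.inl hq)) _ (hU (.inr hp)) e).2 ▸ hp)
      refine Disjoint.mono supp_tri_subset supp_tri_subset ?_
      simp only [Set.disjoint_union_left, Set.disjoint_union_right, this, and_self]
    have a4 : ∀ i j k, D3 i j k → R.z (tri (A ∪ B) (e i) (e j) (e k)) =
        R.z (tri A (e i) (e j) (e k)) * R.z (tri B (e i) (e j) (e k)) := fun i j k h3 => by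
      rw [tri_union hd ((h.sec.mono hU subset_rfl).three trivial trivial trivial h3),
        z_add (a1.tri_mem trivial trivial trivial h3) (a2.tri_mem trivial trivial trivial h3)
          (a3 _ _ _ _ _ _).symm]
    have d1 : D3 (0 : Fin 4) 1 2 := by unfold D3; decide
    have d2 : D3 (0 : Fin 4) 2 3 := by unfold D3; decide
    rw [a4 _ _ _ d1, a4 _ _ _ d2, a4 _ _ _ (by unfold D3; decide), ← h1, ← h2,
      (z_commute (a2.tri_mem trivial trivial trivial d1) (a1.tri_mem trivial trivial trivial d2)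
        (a3 _ _ _ _ _ _)).mul_mul_mul_comm]
  · obtain ⟨w, N, a1, a2⟩ := v2_local (fun i => h.mem i trivial ω hω)
      fun i j e => (h.sec _ trivial _ trivial _ hω _ hω e).1
    refine ⟨N, a1, fun A hA _ hAN => ?_⟩
    obtain ⟨A', b1, b2, b3⟩ := a2 A hA hAN
    have b4 : ∀ i j k, D3 i j k → Piece A' (w i) (w j) (w k) := fun i j k h3 =>
      ⟨b1, b2 _ _ h3.1, b2 _ _ h3.2.1, b2 _ _ h3.2.2⟩
    have d1 := b4 0 1 2 (by unfold D3; decide)
    have d2 := b4 0 2 3 (by unfold D3; decide)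
    have d3 := b4 1 2 3 (by unfold D3; decide)
    rw [b3, b3, b3, z_piece d1, z_piece d2, z_piece d3]
    refine (val_isAlt b1 (T := Set.range w) ?_ ?_).mul ⟨_, rfl⟩ ⟨_, rfl⟩ ⟨_, rfl⟩ ⟨_, rfl⟩ d1.d3
      d2.d3 d3.d3.2.2
    · rw [← Set.image_univ]
      exact (Set.encard_image_le _ _).trans (by simp; norm_num)
    · rintro _ ⟨i, rfl⟩ _ ⟨j, rfl⟩ hne
      exact b2 i j fun e => hne (e ▸ rfl)
theorem z_proj (π : Γ →* Perm (X × Col))
    (hπ : ∀ U, IsClopen U → ∀ l, (∀ p ∈ U, Valid l p) → ∀ a b c : Col × Bool,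
      π ((arr R.A R.ρ l U).φ a b c) = tp U (fun b => cond b (run ap l) id) a b c)
    (ht : t ∈ (HX 3).col.Tri) : π (R.z t) = t := by
  have key : ∀ {t γ}, R.Val t γ → π γ = t := fun h => by
    induction h with
    | one => exact π.map_one
    | piece h => exact val_proj π (hπ _ h.1) h
    | mul _ _ _ _ _ ih ih' => rw [map_mul, ih, ih']
  exact key (val_z ht)

end GRep

end Vale.Agent.P196
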