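import Vale.Agent.P196.Val2
import Vale.Agent.P196.Base
import Vale.Agent.P196.Rep

/-! Equivariance of `z`; the lift system. -/

namespace Vale.Agent.P196

open X Equiv

/-- `t` moves the sheet `q` to the sheet `q'`, trivially or along a piece. -/
def V3Mv (t : Perm (X × Col)) (N : Set X) (q q' : Col × List Op) : Prop :=
  (∀ p ∈ N, Valid q'.2 p ∧ t (wsh q p) = wsh q' p) ∧
    (q' = q ∨ ∃ q'', Piece N q q' q'' ∧ ∀ p ∈ N, t (wsh q' p) = wsh q'' p)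

theorem V3Mv.mono {t : Perm (X × Col)} {N A : Set X} {q q' : Col × List Op} (h : V3Mv t N q q')
    (hA : IsClopen A) (hAN : A ⊆ N) : V3Mv t A q q' :=
  ⟨fun p hp => h.1 p (hAN hp), h.2.imp_right fun ⟨q'', h1, h2⟩ =>
    ⟨q'', h1.mono hA hAN, fun p hp => h2 p (hAN hp)⟩⟩

theorem v3_exists_mv {t : Perm (X × Col)} (ht : t ∈ (HX 3).col.Tri) {q : Col × List Op} {p : X}
    (hq : Valid q.2 p) : ∃ q', ∃ N ∈ nhds p, ∀ A, IsClopen A → A ⊆ N → V3Mv t A q q' := by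
  by_cases hω : wsh q p ∈ supp t
  swap
  · exact ⟨q, {p | Valid q.2 p} ∩ wsh q ⁻¹' (supp t)ᶜ, ((isClopen_valid _).inter
      ((PG.Tri.isClopen ht).compl.preimage (continuous_wsh q))).2.mem_nhds ⟨hq, hω⟩,
      fun A _ hA => ⟨fun p hp => ⟨(hA hp).1, not_not.1 (hA hp).2⟩, .inl rfl⟩⟩
  have h0 := (HX 3).col.comp (v2_wsh_mem (ω := (p, 0)) hq) (ht.1 _)
  obtain ⟨w, N, h1, h2, h3⟩ := GRep.exists_words (ω := (p, 0))
    (e := ![t ∘ fun ω => wsh q ω.1, t ∘ t ∘ fun ω => wsh q ω.1]) (by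
      intro i
      fin_cases i
      exacts [h0, (HX 3).col.comp (g := t) h0 (ht.1 _)])
  have a1 : ∀ p ∈ N, t (wsh q p) = wsh (w 0) p := fun p hp => (h3 0 p hp).2
  have a2 : ∀ p ∈ N, t (wsh (w 0) p) = wsh (w 1) p := fun p hp => a1 p hp ▸ (h3 1 p hp).2
  obtain ⟨M, b1, b2⟩ := Filter.eventually_smallSets.1 ((v2_wdis hq (h3 0 p h2).1
    (a1 p h2 ▸ Ne.symm hω)).and ((v2_wdis (h3 0 p h2).1 (h3 1 p h2).1
      (by rw [← a2 p h2, ← a1 p h2]; exact Ne.symm (mem_supp_iff.2 hω))).and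
    (v2_wdis hq (h3 1 p h2).1 (by
      rw [← a2 p h2, ← a1 p h2]
      exact fun e => hω ((congrArg t e).trans (PG.Tri.cube_apply ht _))))))
  exact ⟨w 0, N ∩ M, Filter.inter_mem (h1.2.mem_nhds h2) b1, fun A hA hAN =>
    ⟨fun p hp => ⟨(h3 0 p (hAN hp).1).1, a1 p (hAN hp).1⟩, .inr ⟨w 1,
      ⟨hA, (b2 A fun p hp => (hAN hp).2).1, (b2 A fun p hp => (hAN hp).2).2.1,
        (b2 A fun p hp => (hAN hp).2).2.2⟩, fun p hp => a2 p (hAN hp).1⟩⟩⟩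

namespace GRep

variable {Γ : Type} [Group Γ] {E : Env Γ} {R : GRep E} {s t' : Perm (X × Col)} {A : Set X}
  {q q' x y u x' y' u' : Col × List Op} {a c : Col}

theorem v3_one (hs : s ∈ (HX 3).col.Tri) (hA : IsClopen A) (hne : A.Nonempty) (hac : a ≠ c)
    (hc : ∀ ω ∈ supp s, ω.2 ≠ a ∧ ω.2 ≠ c) (hq : ∀ p ∈ A, Valid q.2 p) (hqa : q.1 ≠ a)
    (hqc : q.1 ≠ c) (h : V3Mv s A q q') :
    R.z s * R.val A (a, []) q (c, []) * (R.z s)⁻¹ = R.val A (a, []) q' (c, []) := by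
  have hp : Piece A (a, []) q (c, []) :=
    .of_col hA ⟨hqa.symm, hqc, hac⟩ (fun _ _ => trivial) hq fun _ _ => trivial
  have key : ∀ r ∈ (HX 3).col.Tri, supp r ⊆ supp s → Disjoint (supp r) (wsh q '' A) →
      Commute (R.z r) (R.val A (a, []) q (c, [])) := fun r hr h1 h2 => by
    refine (val_z hr).commute (.piece hp) ?_
    rw [supp_tri hp.msec]
    refine Set.disjoint_union_right.2 ⟨Set.disjoint_union_right.2 ⟨?_, h2⟩, ?_⟩ <;>
      refine Set.disjoint_right.2 ?_ <;> rintro _ ⟨p, -, rfl⟩ h3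
    exacts [(hc _ (h1 h3)).1 rfl, (hc _ (h1 h3)).2 rfl]
  obtain ⟨h1, rfl | ⟨q'', h2, h3⟩⟩ := h
  · rw [(key s hs subset_rfl (Set.disjoint_right.2 ?_)).eq, mul_inv_cancel_right]
    rintro _ ⟨p, hp, rfl⟩ h
    exact h (h1 p hp).2
  have h4 : ∀ p ∈ A, s (wsh q'' p) = wsh q p := fun p hp => by
    rw [← h3 p hp, ← (h1 p hp).2, PG.Tri.cube_apply hs]
  set W := wsh q '' A ∪ wsh q' '' A ∪ wsh q'' '' A with hW
  have h5 : ∀ ω ∈ W, s ω ∈ W := by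
    rintro _ ((⟨p, hp, rfl⟩ | ⟨p, hp, rfl⟩) | ⟨p, hp, rfl⟩)
    exacts [.inl (.inr ⟨p, hp, (h1 p hp).2.symm⟩), .inr ⟨p, hp, (h3 p hp).symm⟩,
      .inl (.inl ⟨p, hp, (h4 p hp).symm⟩)]
  have h6 : ∀ ω, s ω ∈ W ↔ ω ∈ W := fun ω =>
    ⟨fun h => PG.Tri.cube_apply hs ω ▸ h5 _ (h5 _ h), h5 ω⟩
  have h7 : rest s W = tri A (wsh q) (wsh q') (wsh q'') :=
    eq_tri h2.msec (fun p hp => (rest_mem h6 (.inl (.inl ⟨p, hp, rfl⟩))).trans (h1 p hp).2)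
      (fun p hp => (rest_mem h6 (.inl (.inr ⟨p, hp, rfl⟩))).trans (h3 p hp))
      (fun p hp => (rest_mem h6 (.inr ⟨p, hp, rfl⟩)).trans (h4 p hp))
      ((supp_rest h6).subset.trans Set.inter_subset_right)
  have h8 : IsClopen W := by
    rw [hW, ← supp_tri h2.msec]
    exact PG.Tri.isClopen (piece_mem h2)
  obtain ⟨γ₁, γ₂, b1, b2, b3⟩ := (val_z (R := R) hs).split h8 h6
  have h9 := supp_rest (A := Wᶜ) fun ω => not_congr (h6 ω)
  have b4 := key _ b2.mem (h9.subset.trans Set.inter_subset_left) (Set.disjoint_left.2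
    fun ω h h' => (h9.subset h).2 (.inl (.inl h')))
  obtain ⟨p, hp'⟩ := hne
  have c1 : q'.1 ≠ a ∧ q'.1 ≠ c := hc (wsh q' p) fun e => Set.disjoint_left.1 h2.2.2.1.2.2.2
    ⟨p, hp', rfl⟩ ⟨p, hp', (h3 p hp').symm.trans e⟩
  have c2 : q''.1 ≠ a ∧ q''.1 ≠ c := hc (wsh q'' p) fun e => Set.disjoint_left.1 h2.2.2.2.2.2.2
    ⟨p, hp', (h4 p hp').symm.trans e⟩ ⟨p, hp', rfl⟩
  have c3 := (val_isAlt (R := R) hA ((v1_encard _).trans (by simp; norm_num))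
    (h2.pairwise5 hac (by simp [hqa.symm, c1.1.symm, c2.1.symm])
      (by simp [hqc.symm, c1.2.symm, c2.2.symm]))).conj (x := q) (y := q') (z := q'')
    (u := (a, [])) (v := q) (w := (c, [])) (by simp) (by simp) (by simp) (by simp) (by simp)
    (by simp) h2.d3 hp.d3
  rw [c3_fst h2.d3, c3_other (ne_of_apply_ne Prod.fst hqa.symm) (ne_of_apply_ne Prod.fst c1.1.symm)
    (ne_of_apply_ne Prod.fst c2.1.symm), c3_other (ne_of_apply_ne Prod.fst hqc.symm)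
    (ne_of_apply_ne Prod.fst c1.2.symm) (ne_of_apply_ne Prod.fst c2.2.symm)] at c3
  rw [b2.z_eq] at b4
  rw [← c3, b3, ← b1.eq_val h2 h7.symm, mul_assoc _ γ₂, b4.eq]
  group

theorem v3_col (hne : A.Nonempty) (h : V3Mv s A q q') (hc : ∀ ω ∈ supp s, ω.2 ≠ a)
    (hq : q.1 ≠ a) : q'.1 ≠ a := by
  obtain ⟨-, rfl | ⟨q'', h2, h3⟩⟩ := h
  · exact hq
  obtain ⟨p, hp⟩ := hne
  exact hc (wsh q' p) fun e => Set.disjoint_left.1 h2.2.2.1.2.2.2 ⟨p, hp, rfl⟩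
    ⟨p, hp, (h3 p hp).symm.trans e⟩

theorem v3_wdis (hne : A.Nonempty) (h : WDis A x y) (hx : V3Mv s A x x') (hy : V3Mv s A y y') :
    WDis A x' y' := by
  have : Disjoint (wsh x' '' A) (wsh y' '' A) := Set.disjoint_left.2 <| by
    rintro _ ⟨p, hp, rfl⟩ ⟨p', hp', e⟩
    exact Set.disjoint_left.1 h.2.2.2 ⟨p, hp, rfl⟩
      ⟨p', hp', s.injective (((hy.1 p' hp').2.trans e).trans (hx.1 p hp).2.symm)⟩
  obtain ⟨p, hp⟩ := hne
  exact ⟨fun e => Set.disjoint_left.1 this ⟨p, hp, rfl⟩ ⟨p, hp, e ▸ rfl⟩,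
    fun p hp => (hx.1 p hp).1, fun p hp => (hy.1 p hp).1, this⟩

theorem v3_decomp (h : Piece A x y u) (hac : a ≠ c) (ha : a ∉ [x.1, y.1, u.1])
    (hc : c ∉ [x.1, y.1, u.1]) : R.val A x y u = R.val A (a, []) y (c, []) *
      R.val A (c, []) x (a, []) * R.val A (a, []) u (c, []) * R.val A (c, []) y (a, []) := by
  have h1 := val_isAlt (R := R) h.1 ((v1_encard _).trans (by simp; norm_num))
    (h.pairwise5 hac ha hc)
  simp only [List.mem_cons, List.not_mem_nil, or_false, not_or] at ha hc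
  rw [h1.decomp (a := (a, [])) (w := (c, [])) (by simp) (by simp) (by simp)
    (by simp) (by simp) h.d3 (fun e => hac (congrArg Prod.fst e))
    (by rintro (rfl | rfl | rfl) <;> simp_all) (by rintro (rfl | rfl | rfl) <;> simp_all),
    val_rot (x := (c, [])) (y := x) (u := (a, [])) (.of_col h.1 ⟨hc.1, Ne.symm ha.1, hac.symm⟩
      (fun _ _ => trivial) h.2.1.2.1 fun _ _ => trivial),
    val_rot (x := (c, [])) (y := y) (u := (a, [])) (.of_col h.1 ⟨hc.2.1, Ne.symm ha.2.1, hac.symm⟩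
      (fun _ _ => trivial) h.2.2.1.2.1 fun _ _ => trivial)]
  rfl

theorem v3_local (hs : s ∈ (HX 3).col.Tri) {c₁ c₂ c₃ : Col}
    (hc : ∀ ω ∈ supp s, ω.2 ∈ [c₁, c₂, c₃]) (h : Piece A x y u) (hx : V3Mv s A x x')
    (hy : V3Mv s A y y') (hu : V3Mv s A u u') : R.z s * R.val A x y u * (R.z s)⁻¹ =
      R.z (s * tri A (wsh x) (wsh y) (wsh u) * s⁻¹) := by
  rcases A.eq_empty_or_nonempty with rfl | hne
  · simp [val_empty', tri_empty, z_one]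
  obtain ⟨a, c, hac, ha, hc'⟩ := v1_fresh2 ([c₁, c₂, c₃] ++ [x.1, y.1, u.1]) (by simp)
  rw [List.mem_append, not_or] at ha hc'
  have a1 : ∀ ω ∈ supp s, ω.2 ≠ a := fun ω h e => ha.1 (e ▸ hc ω h)
  have a2 : ∀ ω ∈ supp s, ω.2 ≠ c := fun ω h e => hc'.1 (e ▸ hc ω h)
  have h' : Piece A x' y' u' := ⟨h.1, v3_wdis hne h.2.1 hx hy, v3_wdis hne h.2.2.1 hy hu,
    v3_wdis hne h.2.2.2 hx hu⟩
  rw [v3_decomp h hac ha.2 hc'.2]
  simp only [List.mem_cons, List.not_mem_nil, or_false, not_or] at ha hc'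
  obtain ⟨-, b1, b2, b3⟩ := ha
  obtain ⟨-, b4, b5, b6⟩ := hc'
  rw [tri_conj, tri_congr (e₁ := s ∘ wsh x) (e₂ := s ∘ wsh y) (e₃ := s ∘ wsh u)
    (fun p hp => (hx.1 p hp).2) (fun p hp => (hy.1 p hp).2) (fun p hp => (hu.1 p hp).2),
    z_piece h', v3_decomp h' hac
    (by simp [(v3_col hne hx a1 (Ne.symm b1)).symm, (v3_col hne hy a1 (Ne.symm b2)).symm,
      (v3_col hne hu a1 (Ne.symm b3)).symm])
    (by simp [(v3_col hne hx a2 (Ne.symm b4)).symm, (v3_col hne hy a2 (Ne.symm b5)).symm,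
      (v3_col hne hu a2 (Ne.symm b6)).symm]),
    ← v3_one hs h.1 hne hac (fun ω h => ⟨a1 ω h, a2 ω h⟩) h.2.2.1.2.1 (Ne.symm b2) (Ne.symm b5) hy,
    ← v3_one hs h.1 hne hac (fun ω h => ⟨a1 ω h, a2 ω h⟩) h.2.2.1.2.2.1 (Ne.symm b3) (Ne.symm b6) hu,
    ← v3_one hs h.1 hne hac.symm (fun ω h => ⟨a2 ω h, a1 ω h⟩) h.2.1.2.1 (Ne.symm b4) (Ne.symm b1) hx,
    ← v3_one hs h.1 hne hac.symm (fun ω h => ⟨a2 ω h, a1 ω h⟩) h.2.2.1.2.1 (Ne.symm b5) (Ne.symm b2)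
      hy]
  group

theorem v3_add (hs : s ∈ (HX 3).col.Tri) {t₁ t₂ : Perm (X × Col)} (h1 : t₁ ∈ (HX 3).col.Tri)
    (h2 : t₂ ∈ (HX 3).col.Tri) (hd : Disjoint (supp t₁) (supp t₂)) :
    R.z (s * (t₁ * t₂) * s⁻¹) = R.z (s * t₁ * s⁻¹) * R.z (s * t₂ * s⁻¹) := by
  rw [← z_add (PG.Tri.conj hs.1 h1) (PG.Tri.conj hs.1 h2) (by
    rw [supp_conj, supp_conj]
    exact (Set.disjoint_image_iff s.injective).2 hd)]
  congr 1
  group

theorem v3_small (hs : s ∈ (HX 3).col.Tri) {c₁ c₂ c₃ : Col}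
    (hc : ∀ ω ∈ supp s, ω.2 ∈ [c₁, c₂, c₃]) {γ : Γ} (h : R.Val t' γ) :
    R.z s * γ * (R.z s)⁻¹ = R.z (s * t' * s⁻¹) := by
  induction h with
  | one => simp [z_one]
  | mul h1 h2 h3 _ _ ih ih' =>
    rw [v3_add hs h1 h2 h3, ← ih, ← ih']
    group
  | @piece U x y u h =>
    refine v2_clopen_ind h.1 (p := fun U => R.z s * R.val U x y u * (R.z s)⁻¹ =
      R.z (s * tri U (wsh x) (wsh y) (wsh u) * s⁻¹)) (by simp [val_empty', tri_empty, z_one])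
      (fun A B hA hB hU hd h1 h2 => ?_) fun p hp => ?_
    · have a0 := h.mono (hA.union hB) hU
      have a1 := a0.mono hA Set.subset_union_left
      have a2 := a0.mono hB Set.subset_union_right
      rw [val_union hA hB hd a0, tri_union hd a0.msec, v3_add hs (piece_mem a1) (piece_mem a2),
        ← h1, ← h2]
      · group
      have : ∀ q ∈ [x, y, u], ∀ q' ∈ [x, y, u], Disjoint (wsh q '' A) (wsh q' '' B) :=
        fun q hq q' hq' => Set.disjoint_left.2 <| by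
          rintro _ ⟨p, hp, rfl⟩ ⟨p', hp', e⟩
          exact Set.disjoint_left.1 hd hp ((v1_msec a0.pairwise a0.valid _ hq' _ hq _ (.inr hp') _
            (.inl hp) e).2 ▸ hp')
      rw [supp_tri a1.msec, supp_tri a2.msec]
      simp [Set.disjoint_union_left, Set.disjoint_union_right, this]
    · obtain ⟨x', N₁, a1, a2⟩ := v3_exists_mv hs (h.2.1.2.1 p hp)
      obtain ⟨y', N₂, b1, b2⟩ := v3_exists_mv hs (h.2.2.1.2.1 p hp)
      obtain ⟨u', N₃, c1, c2⟩ := v3_exists_mv hs (h.2.2.1.2.2.1 p hp)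
      exact ⟨N₁ ∩ (N₂ ∩ N₃), Filter.inter_mem a1 (Filter.inter_mem b1 c1), fun A hA hAU hAN =>
        v3_local hs hc (h.mono hA hAU) (a2 A hA fun _ h => (hAN h).1)
          (b2 A hA fun _ h => (hAN h).2.1) (c2 A hA fun _ h => (hAN h).2.2)⟩

end GRep

theorem GRep.z_conj {Γ : Type} [Group Γ] {E : Env Γ} (R : GRep E) {t t' : Perm (X × Col)}
    (ht : t ∈ (HX 3).col.Tri) (ht' : t' ∈ (HX 3).col.Tri) :
    R.z t * R.z t' * (R.z t)⁻¹ = R.z (t * t' * t⁻¹) := by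
  have key : ∀ {t γ}, R.Val t γ → ∀ t' ∈ (HX 3).col.Tri,
      γ * R.z t' * γ⁻¹ = R.z (t * t' * t⁻¹) := fun h => by
    induction h with
    | one => simp
    | @mul t₁ t₂ γ₁ γ₂ _ h2 _ _ _ ih ih' =>
      intro t' ht'
      rw [show t₁ * t₂ * t' * (t₁ * t₂)⁻¹ = t₁ * (t₂ * t' * t₂⁻¹) * t₁⁻¹ by group,
        ← ih _ (PG.Tri.conj h2.1 ht'), ← ih' _ ht']
      group
    | @piece U x y u h =>
      intro t' ht'
      rw [← z_piece h]
      refine v3_small (piece_mem h) (c₁ := x.1) (c₂ := y.1) (c₃ := u.1) ?_ (val_z ht')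
      rw [supp_tri h.msec]
      rintro _ ((⟨p, -, rfl⟩ | ⟨p, -, rfl⟩) | ⟨p, -, rfl⟩) <;> simp [wsh]
  exact key (val_z ht) t' ht'

theorem exists_zsys : ∃ (Γ : Type) (_ : Group Γ) (π : Γ →* Perm (X × Col))
    (z : Perm (X × Col) → Γ), Group.IsFinitelyPresented Γ ∧ PG.ZSys (HX 3).col π z := by
  obtain ⟨Γ, _, lam, π, hfp, h, hπ, hgen⟩ := exists_presented
  obtain ⟨ρ, h1, h2⟩ := exists_rep (h.ls rich_S0) (h.ls_univ rich_S0)
  let R : GRep h.env := ⟨h.ls rich_S0, ρ, h1, h2⟩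
  refine ⟨Γ, inferInstance, π, R.z, hfp, fun t ht => GRep.z_proj π
    (fun U hU l hl a b c => h.proj_arr rich_S0 π hπ h1 hU hl a b c) ht, ?_,
    fun t ht t' ht' => GRep.z_add ht ht', fun t ht t' ht' => R.z_conj ht ht',
    fun t ht => GRep.z_inv ht, GRep.z_mul⟩
  rw [eq_top_iff, ← hgen, Subgroup.closure_le]
  rintro _ ⟨_, ⟨T, l₁, l₂, n₁, n₂, v₁, v₂, x, y, z, rfl⟩, rfl⟩
  have hT := isClopen_labS T
  have v : ∀ r : Fin 3, ∀ p ∈ labS T, Valid (![[], l₁, l₂] r) p := fun r => by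
    fin_cases r
    exacts [fun _ _ => trivial, v₁, v₂]
  have e : h.psi rich_S0 T l₁ l₂ n₁ n₂ v₁ v₂ = (R.psi (labS T)).comap ![[], l₁, l₂] := by
    refine Patch.ext_sh2 0 fun r => Eq.trans ?_ ((GRep.psi_sh2 (R := R) hT (v r)).symm.trans
      (congrArg (R.psi (labS T)).comap (a₂ := ![[], l₁, l₂] ∘ fun b => cond b r 0)
        (funext fun b => by cases b <;> rfl)))
    refine Eq.trans ?_ (congrArg (fun w => run R.A.ap (![[], l₁, l₂] r) (h.env.ql.idw w))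
      (h1.lab T).symm)
    fin_cases r
    · refine Patch.ext (funext fun ⟨_, a⟩ => funext fun ⟨_, b⟩ => funext fun ⟨_, c⟩ => ?_)
      cases a <;> cases b <;> cases c <;> rfl
    · exact (h.run_x0 rich_S0 T l₁ l₂ n₁ n₂ v₁ v₂).1.symm
    · exact (h.run_x0 rich_S0 T l₁ l₂ n₁ n₂ v₁ v₂).2.symm
  have e' : lam (tp (labS T) (sheets3 l₁ l₂) x y z) = (R.psi (labS T)).φ (x.1, ![[], l₁, l₂] x.2)
      (y.1, ![[], l₁, l₂] y.2) (z.1, ![[], l₁, l₂] z.2) := congrArg (fun Φ => Φ.φ x y z) e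
  rw [e']
  by_cases h3 : D3 x.1 y.1 z.1
  · have hp : Piece (labS T) (x.1, ![[], l₁, l₂] x.2) (y.1, ![[], l₁, l₂] y.2)
        (z.1, ![[], l₁, l₂] z.2) := .of_col hT h3 (v _) (v _) (v _)
    rw [← GRep.val_ci h3, ← GRep.z_piece hp]
    exact Subgroup.subset_closure ⟨_, GRep.piece_mem hp, rfl⟩
  · rw [(R.psi (labS T)).junk _ _ _ h3]
    exact one_mem _

end Vale.Agent.P196
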